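import Crest.Agent.R87.Api2

/-! # R87 part A: analytic lemmas (Chebyshev, vertical convolutions, Littlewood-Paley decomposition) -/

set_option autoImplicit false

namespace Crest.Agent.R87

open MeasureTheory Set
open scoped ENNReal

/-- bounded measurable functions with a bound on the energy -/
structure ABd (f : P2 → ℝ) (B : ℝ) : Prop where
  meas : Measurable f
  bdd : ∃ L, ∀ z, |f z| ≤ L
  l2 : ∫⁻ z, ENNReal.ofReal (f z ^ 2) ≤ ENNReal.ofReal B

theorem a_cheb {f : P2 → ℝ} (hf : Measurable f) {B τ : ℝ} (hτ : 0 < τ)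
    (h : ∫⁻ z, ENNReal.ofReal (f z ^ 2) ≤ ENNReal.ofReal B) :
    volume {z | τ < |f z|} ≤ ENNReal.ofReal (B / τ ^ 2) := by
  have h1 := meas_ge_le_lintegral_div (μ := (volume : Measure P2))
    (f := fun z => ENNReal.ofReal (f z ^ 2)) (hf.pow_const 2).ennreal_ofReal.aemeasurable
    (ε := ENNReal.ofReal (τ ^ 2)) (by simpa using hτ.ne') ENNReal.ofReal_ne_top
  rw [ENNReal.ofReal_div_of_pos (by positivity)]
  refine le_trans (measure_mono fun z hz => ?_) (h1.trans (ENNReal.div_le_div_right h _))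
  refine ENNReal.ofReal_le_ofReal ?_
  rw [← sq_abs (f z)]
  exact pow_le_pow_left₀ hτ.le (le_of_lt hz) 2

theorem ABd.vconv_l2 {f : P2 → ℝ} {B a : ℝ} (hf : ABd f B) {θ : ℝ → ℝ} (hθ : Measurable θ)
    (hi : Integrable θ) (ha : ∫ y, |θ y| ≤ a) :
    ∫⁻ z, ENNReal.ofReal (vconv θ f z ^ 2) ≤ ENNReal.ofReal (a ^ 2 * B) := by
  obtain ⟨L, hL⟩ := hf.bdd
  have h := lintegral_vconv_pow hθ hi hf.meas hL (p := 2) (by norm_num)
  simp only [sq_abs] at h
  rw [ENNReal.ofReal_mul (by positivity)]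
  refine h.trans (mul_le_mul' (ENNReal.ofReal_le_ofReal ?_) hf.l2)
  exact pow_le_pow_left₀ (integral_nonneg fun _ => abs_nonneg _) ha 2

theorem ABd.vconv_cheb {f : P2 → ℝ} {B a τ : ℝ} (hf : ABd f B) {θ : ℝ → ℝ} (hθ : Measurable θ)
    (hi : Integrable θ) (ha : ∫ y, |θ y| ≤ a) (hτ : 0 < τ) :
    volume {z | τ < |vconv θ f z|} ≤ ENNReal.ofReal (a ^ 2 * B / τ ^ 2) :=
  a_cheb (measurable_vconv hθ hf.meas) hτ (hf.vconv_l2 hθ hi ha)

theorem ABd.int {f : P2 → ℝ} {B : ℝ} (hf : ABd f B) {θ : ℝ → ℝ} (hi : Integrable θ) (z : P2) :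
    Integrable fun y => θ y * f (z.1, z.2 - y) := by
  obtain ⟨L, hL⟩ := hf.bdd
  exact hi.mul_bdd (hf.meas.comp (by fun_prop)).aestronglyMeasurable
    (Filter.Eventually.of_forall fun y => hL _)

theorem ABd.vconv_sub {f : P2 → ℝ} {B : ℝ} (hf : ABd f B) {θ θ' : ℝ → ℝ} (hi : Integrable θ)
    (hi' : Integrable θ') (z : P2) :
    vconv (fun y => θ y - θ' y) f z = vconv θ f z - vconv θ' f z := by
  simp only [vconv, sub_mul]
  exact integral_sub (hf.int hi z) (hf.int hi' z)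

theorem a_dil_int {Λ : ℝ → ℝ} (h : Integrable Λ) {α : ℝ} (hα : 0 < α) : Integrable (dil Λ α) :=
  (h.comp_mul_left' hα.ne').const_mul α

theorem a_dil_integral (Λ : ℝ → ℝ) {α : ℝ} (hα : 0 < α) : ∫ y, dil Λ α y = ∫ y, Λ y := by
  simp only [dil]
  rw [integral_const_mul, Measure.integral_comp_mul_left, abs_of_pos (inv_pos.2 hα), smul_eq_mul,
    ← mul_assoc, mul_inv_cancel₀ hα.ne', one_mul]

theorem a_dil_meas {Λ : ℝ → ℝ} (h : Measurable Λ) (α : ℝ) : Measurable (dil Λ α) :=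
  (h.comp (measurable_const_mul α)).const_mul α

theorem a_low {Λ : ℝ → ℝ} (h1 : ContDiff ℝ 1 Λ) (h2 : Integrable Λ) (h3 : Integrable (deriv Λ))
    {A : ℝ} (h4 : ∫ y, |deriv Λ y| ≤ A) {f f' : P2 → ℝ} {B B' : ℝ} (hf : ABd f B) (hf' : ABd f' B')
    (hd : ∀ x y, HasDerivAt (fun y => f (x, y)) (f' (x, y)) y) {α τ : ℝ} (hα : 0 < α) (hτ : 0 < τ) :
    volume {z | τ < |vconv (dil Λ α) f' z|} ≤ ENNReal.ofReal ((α * A) ^ 2 * B / τ ^ 2) := by
  have hi : Integrable fun y => α * dil (deriv Λ) α y := (a_dil_int h3 hα).const_mul α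
  have e : ∀ z, vconv (dil Λ α) f' z = vconv (fun y => α * dil (deriv Λ) α y) f z := fun z => by
    have hu : ∀ y, HasDerivAt (dil Λ α) (α * dil (deriv Λ) α y) y := fun y => by
      have := ((h1.differentiable (by simp) (α * y)).hasDerivAt.comp y
        ((hasDerivAt_id y).const_mul α)).const_mul α
      exact this.congr_deriv (by simp only [dil]; ring)
    have hv : ∀ y, HasDerivAt (fun y => f (z.1, z.2 - y)) (-f' (z.1, z.2 - y)) y := fun y => by
      have := (hd z.1 (z.2 - y)).comp y ((hasDerivAt_id y).const_sub z.2)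
      exact this.congr_deriv (by ring)
    have := integral_mul_deriv_eq_deriv_mul_of_integrable (fun y _ => hu y) (fun y _ => hv y)
      (by simpa [Pi.mul_def] using (hf'.int (a_dil_int h2 hα) z).neg) (hf.int hi z)
      (hf.int (a_dil_int h2 hα) z)
    simp only [mul_neg, integral_neg, neg_inj] at this
    exact this
  simp only [e]
  refine hf.vconv_cheb ((a_dil_meas (measurable_deriv Λ) α).const_mul α) hi ?_ hτ
  have e2 : ∀ y, |α * dil (deriv Λ) α y| = α * dil (fun y => |deriv Λ y|) α y := fun y => by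
    simp only [dil, abs_mul, abs_of_pos hα]
  simp only [e2]
  rw [integral_const_mul, a_dil_integral _ hα]
  exact mul_le_mul_of_nonneg_left h4 hα.le

/-- the signed indicator of the interval between `0` and `y` -/
noncomputable def aSg (y w : ℝ) : ℝ :=
  (Ioc 0 y).indicator (fun _ => (1 : ℝ)) w - (Ioc y 0).indicator (fun _ => (1 : ℝ)) w

theorem aSg_meas : Measurable fun p : ℝ × ℝ => aSg p.1 p.2 := by
  have h1 : MeasurableSet {p : ℝ × ℝ | 0 < p.2 ∧ p.2 ≤ p.1} :=
    (measurableSet_lt measurable_const measurable_snd).inter (measurableSet_le measurable_snd measurable_fst)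
  have h2 : MeasurableSet {p : ℝ × ℝ | p.1 < p.2 ∧ p.2 ≤ 0} :=
    (measurableSet_lt measurable_fst measurable_snd).inter (measurableSet_le measurable_snd measurable_const)
  exact (measurable_const.indicator h1).sub (measurable_const.indicator h2)

theorem aSg_int (y : ℝ) : Integrable (aSg y) :=
  ((integrable_indicator_iff measurableSet_Ioc).2 (integrableOn_const (by simp))).sub
    ((integrable_indicator_iff measurableSet_Ioc).2 (integrableOn_const (by simp)))

theorem aSg_abs (y : ℝ) : ∫ w, |aSg y w| = |y| := by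
  rcases le_total 0 y with h | h
  · have : ∀ w, |aSg y w| = (Ioc 0 y).indicator (fun _ => (1 : ℝ)) w := fun w => by
      rw [aSg, Ioc_eq_empty_of_le h, indicator_empty, sub_zero,
        abs_of_nonneg (indicator_nonneg (fun _ _ => zero_le_one) _)]
    simp [this, abs_of_nonneg h, h]
  · have : ∀ w, |aSg y w| = (Ioc y 0).indicator (fun _ => (1 : ℝ)) w := fun w => by
      rw [aSg, Ioc_eq_empty_of_le h, indicator_empty, zero_sub, abs_neg,
        abs_of_nonneg (indicator_nonneg (fun _ _ => zero_le_one) _)]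
    simp [this, abs_of_nonpos h, h]

theorem aSg_mul (y : ℝ) {h : ℝ → ℝ} (hh : IntervalIntegrable h volume 0 y) :
    ∫ w, aSg y w * h w = ∫ w in (0 : ℝ)..y, h w := by
  have e : ∀ w, aSg y w * h w = (Ioc 0 y).indicator h w - (Ioc y 0).indicator h w := fun w => by
    by_cases h1 : w ∈ Ioc 0 y <;> by_cases h2 : w ∈ Ioc y 0 <;> simp [aSg, h1, h2]
  simp only [e]
  rw [integral_sub ((integrable_indicator_iff measurableSet_Ioc).2 hh.1)
    ((integrable_indicator_iff measurableSet_Ioc).2 hh.2), integral_indicator measurableSet_Ioc,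
    integral_indicator measurableSet_Ioc, intervalIntegral]

theorem a_high0 {κ : ℝ → ℝ} (h0 : Measurable κ) (h1 : Integrable κ) (h2 : Integrable fun y => y * κ y)
    (h3 : ∫ y, κ y = 1) {a : ℝ} (h4 : ∫ y, |y * κ y| ≤ a) {f f' : P2 → ℝ} {B B' : ℝ} (hf : ABd f B)
    (hf' : ABd f' B') (hd : ∀ x y, HasDerivAt (fun y => f (x, y)) (f' (x, y)) y) {τ : ℝ} (hτ : 0 < τ) :
    volume {z | τ < |f z - vconv κ f z|} ≤ ENNReal.ofReal (a ^ 2 * B' / τ ^ 2) := by
  have hKm : Measurable fun p : ℝ × ℝ => κ p.1 * aSg p.1 p.2 := (h0.comp measurable_fst).mul aSg_meas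
  have eK : ∀ y, ∫ w, ‖κ y * aSg y w‖ = |y * κ y| := fun y => by
    simp only [Real.norm_eq_abs, abs_mul]
    rw [integral_const_mul, aSg_abs, mul_comm]
  have hK : Integrable (fun p : ℝ × ℝ => κ p.1 * aSg p.1 p.2) (volume.prod volume) := by
    refine (integrable_prod_iff hKm.aestronglyMeasurable).2
      ⟨Filter.Eventually.of_forall fun y => (aSg_int y).const_mul (κ y), ?_⟩
    simp only [eK]
    exact h2.abs
  have hθm : Measurable fun w => ∫ y, κ y * aSg y w :=
    (hKm.stronglyMeasurable.integral_prod_left' (μ := volume)).measurable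
  have hθi : Integrable fun w => ∫ y, κ y * aSg y w := hK.integral_prod_right
  have hθa : ∫ w, |∫ y, κ y * aSg y w| ≤ a := by
    refine le_trans (integral_mono hθi.abs hK.norm.integral_prod_right fun w =>
      norm_integral_le_integral_norm (fun y => κ y * aSg y w)) ?_
    rw [← integral_integral_swap (f := fun y w => ‖κ y * aSg y w‖) hK.norm]
    simpa only [eK] using h4
  have e : ∀ z, f z - vconv κ f z = vconv (fun w => ∫ y, κ y * aSg y w) f' z := fun z => by
    obtain ⟨L, hL⟩ := hf'.bdd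
    have hm : Measurable fun w => f' (z.1, z.2 - w) := hf'.meas.comp (by fun_prop)
    have hint : ∀ y, IntervalIntegrable (fun w => f' (z.1, z.2 - w)) volume 0 y := fun y =>
      intervalIntegrable_iff.2 (Measure.integrableOn_of_bounded (by simp [uIoc])
        hm.aestronglyMeasurable (Filter.Eventually.of_forall fun w => hL _))
    have hftc : ∀ y, ∫ w, aSg y w * f' (z.1, z.2 - w) = f z - f (z.1, z.2 - y) := fun y => by
      rw [aSg_mul y (hint y), intervalIntegral.integral_eq_sub_of_hasDerivAt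
        (f := fun w => -f (z.1, z.2 - w)) (fun w _ => ?_) (hint y)]
      · simp; ring
      · have := ((hd z.1 (z.2 - w)).comp w ((hasDerivAt_id w).const_sub z.2)).neg
        exact this.congr_deriv (by ring)
    have hK2 : Integrable (fun p : ℝ × ℝ => κ p.1 * aSg p.1 p.2 * f' (z.1, z.2 - p.2))
        (volume.prod volume) :=
      hK.mul_bdd (hm.comp measurable_snd).aestronglyMeasurable (Filter.Eventually.of_forall fun p => hL _)
    have sw := integral_integral_swap (f := fun y w => κ y * aSg y w * f' (z.1, z.2 - w)) hK2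
    simp only [vconv, ← integral_mul_const]
    rw [← sw]
    simp only [mul_assoc, integral_const_mul, hftc, mul_sub]
    rw [integral_sub (h1.mul_const _) (hf.int h1 z), integral_mul_const, h3, one_mul]
  simp only [e]
  exact hf'.vconv_cheb hθm hθi hθa hτ

theorem a_high {Λ : ℝ → ℝ} (h0 : Measurable Λ) (h1 : Integrable Λ) (h2 : Integrable fun y => y * Λ y)
    (h3 : ∫ y, Λ y = 1) {A : ℝ} (h4 : ∫ y, |y * Λ y| ≤ A) {f f' : P2 → ℝ} {B B' : ℝ} (hf : ABd f B)
    (hf' : ABd f' B') (hd : ∀ x y, HasDerivAt (fun y => f (x, y)) (f' (x, y)) y) {α τ : ℝ} (hα : 0 < α)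
    (hτ : 0 < τ) :
    volume {z | τ < |f z - vconv (dil Λ α) f z|} ≤ ENNReal.ofReal ((α⁻¹ * A) ^ 2 * B' / τ ^ 2) := by
  have e : ∀ y, y * dil Λ α y = α⁻¹ * dil (fun y => y * Λ y) α y := fun y => by
    simp only [dil]; field_simp
  refine a_high0 (a_dil_meas h0 α) (a_dil_int h1 hα) ?_ ((a_dil_integral _ hα).trans h3) ?_ hf hf' hd hτ
  · simp only [e]
    exact (a_dil_int h2 hα).const_mul _
  · have e2 : ∀ y, |y * dil Λ α y| = α⁻¹ * dil (fun y => |y * Λ y|) α y := fun y => by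
      rw [e]
      simp only [dil, abs_mul, abs_of_pos hα, abs_of_pos (inv_pos.2 hα)]
    simp only [e2]
    rw [integral_const_mul, a_dil_integral _ hα]
    exact mul_le_mul_of_nonneg_left h4 (inv_pos.2 hα).le

theorem a_band_eq (Λ : ℝ → ℝ) (R : ℝ) (i : ℤ) : band Λ R i =
    {y | |y| ≤ R / 2 ^ i}.indicator fun y => dil Λ (2 ^ (i + 1)) y - dil Λ (2 ^ i) y := by
  funext y
  simp [band, indicator]

theorem a_band_meas {Λ : ℝ → ℝ} (h : Measurable Λ) (R : ℝ) (i : ℤ) : Measurable (band Λ R i) := by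
  rw [a_band_eq]
  exact ((a_dil_meas h _).sub (a_dil_meas h _)).indicator
    (measurableSet_le measurable_abs measurable_const)

theorem a_band_int {Λ : ℝ → ℝ} (h : Integrable Λ) (R : ℝ) (i : ℤ) : Integrable (band Λ R i) := by
  rw [a_band_eq]
  exact ((a_dil_int h (by positivity)).sub (a_dil_int h (by positivity))).indicator
    (measurableSet_le measurable_abs measurable_const)

/-- Littlewood-Paley decomposition in the vertical variable -/
theorem a_decomp {Λ : ℝ → ℝ} {A : ℝ} (h1 : ContDiff ℝ 1 Λ) (h2 : Integrable Λ) (h3 : Integrable (deriv Λ))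
    (h4 : Integrable fun y => y * Λ y) (h5 : ∫ y, Λ y = 1) (h6 : ∫ y, |deriv Λ y| ≤ A)
    (h7 : ∫ y, |y * Λ y| ≤ A) {R a : ℝ}
    (h8 : ∀ i : ℤ, ∫ y, |dil Λ (2 ^ (i + 1)) y - dil Λ (2 ^ i) y - band Λ R i y| ≤ a)
    {f0 f f1 : P2 → ℝ} {B : ℝ} (hB : 0 ≤ B) (hf0 : ABd f0 B) (hf : ABd f B) (hf1 : ABd f1 B)
    (hd0 : ∀ x y, HasDerivAt (fun y => f0 (x, y)) (f (x, y)) y)
    (hd1 : ∀ x y, HasDerivAt (fun y => f (x, y)) (f1 (x, y)) y) (ι : ℕ) {τ τ' : ℝ} (hτ : 0 < τ)
    (hτ' : 0 < τ') (hττ : 12 * ι * τ' ≤ τ) :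
    volume {z | τ < |f z|} ≤ ENNReal.ofReal (18 * A ^ 2 * B / (2 ^ ι * τ) ^ 2 + 2 * ι * (a ^ 2 * B / τ' ^ 2)) +
      volume (⋃ i ∈ Finset.range (2 * ι), {z | τ' < |vconv (band Λ R ((i : ℤ) - ι)) f z|}) := by
  have hm : Measurable Λ := h1.continuous.measurable
  let tl : ℤ → ℝ → ℝ := fun i y => dil Λ (2 ^ (i + 1)) y - dil Λ (2 ^ i) y - band Λ R i y
  have tm : ∀ i, Measurable (tl i) := fun i =>
    ((a_dil_meas hm _).sub (a_dil_meas hm _)).sub (a_band_meas hm R i)
  have di : ∀ i : ℤ, Integrable (dil Λ (2 ^ i)) := fun i => a_dil_int h2 (by positivity)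
  have ti : ∀ i, Integrable (tl i) := fun i => ((di _).sub (di _)).sub (a_band_int h2 R i)
  have hsub : {z | τ < |f z|} ⊆ (({z | τ / 3 < |vconv (dil Λ (2 ^ (-(ι : ℤ)))) f z|} ∪
      {z | τ / 3 < |f z - vconv (dil Λ (2 ^ (ι : ℤ))) f z|}) ∪
      ⋃ i ∈ Finset.range (2 * ι), {z | τ' < |vconv (tl ((i : ℤ) - ι)) f z|}) ∪
      ⋃ i ∈ Finset.range (2 * ι), {z | τ' < |vconv (band Λ R ((i : ℤ) - ι)) f z|} := by
    intro z (hz : τ < |f z|)
    by_contra hc
    simp only [mem_union, mem_ofPred_eq, mem_iUnion, not_or, not_exists, not_lt] at hc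
    obtain ⟨⟨⟨c1, c2⟩, c3⟩, c4⟩ := hc
    have tel := Finset.sum_range_sub (fun i : ℕ => vconv (dil Λ (2 ^ ((i : ℤ) - ι))) f z) (2 * ι)
    have b1 : |∑ i ∈ Finset.range (2 * ι), (vconv (dil Λ (2 ^ (((i + 1 : ℕ) : ℤ) - ι))) f z -
        vconv (dil Λ (2 ^ ((i : ℤ) - ι))) f z)| ≤ (2 * ι : ℕ) * (2 * τ') := by
      refine (Finset.abs_sum_le_sum_abs _ _).trans ((Finset.sum_le_card_nsmul _ _ (2 * τ')
        fun i hi => ?_).trans (by simp))
      have e1 := hf.vconv_sub ((di (i - ι + 1)).sub (di (i - ι))) (a_band_int h2 R (i - ι)) z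
      have e2 := hf.vconv_sub (di (i - ι + 1)) (di (i - ι)) z
      have e3 : vconv (tl (i - ι)) f z = vconv (dil Λ (2 ^ ((i : ℤ) - ι + 1))) f z -
          vconv (dil Λ (2 ^ ((i : ℤ) - ι))) f z - vconv (band Λ R (i - ι)) f z := by
        rw [← e2]; exact e1
      rw [show ((i + 1 : ℕ) : ℤ) - ι = i - ι + 1 by push_cast; ring]
      have a1 := abs_le.1 (c3 i hi)
      have a2 := abs_le.1 (c4 i hi)
      exact abs_le.2 ⟨by linarith [a1.1, a2.1], by linarith [a1.2, a2.2]⟩
    rw [tel, show ((2 * ι : ℕ) : ℤ) - ι = ι by push_cast; ring, Nat.cast_zero, zero_sub] at b1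
    push_cast at b1
    have a1 := abs_le.1 b1
    have a2 := abs_le.1 c1
    have a3 := abs_le.1 c2
    exact absurd hz (not_lt.2 (abs_le.2 ⟨by linarith [a1.1, a2.1, a3.1], by linarith [a1.2, a2.2, a3.2]⟩))
  refine (measure_mono hsub).trans ((measure_union_le _ _).trans (add_le_add ?_ le_rfl))
  have b1 := a_low h1 h2 h3 h6 hf0 hf hd0 (α := 2 ^ (-(ι : ℤ))) (τ := τ / 3) (by positivity) (by positivity)
  have b2 := a_high hm h2 h4 h5 h7 hf hf1 hd1 (α := 2 ^ (ι : ℤ)) (τ := τ / 3) (by positivity) (by positivity)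
  have b3 : volume (⋃ i ∈ Finset.range (2 * ι), {z | τ' < |vconv (tl ((i : ℤ) - ι)) f z|}) ≤
      ENNReal.ofReal (2 * ι * (a ^ 2 * B / τ' ^ 2)) := by
    refine (measure_biUnion_finset_le _ _).trans ((Finset.sum_le_card_nsmul _ _ _ fun i _ =>
      hf.vconv_cheb (tm _) (ti _) (h8 _) hτ').trans (le_of_eq ?_))
    rw [Finset.card_range, nsmul_eq_mul, ← ENNReal.ofReal_natCast, ← ENNReal.ofReal_mul (by positivity)]
    push_cast
    rfl
  refine (measure_union_le _ _).trans ((add_le_add ((measure_union_le _ _).trans (add_le_add b1 b2)) b3).trans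
    (le_of_eq ?_))
  rw [← ENNReal.ofReal_add (by positivity) (by positivity), ← ENNReal.ofReal_add (by positivity) (by positivity)]
  congr 1
  rw [zpow_neg, zpow_natCast]
  field_simp
  ring

end Crest.Agent.R87
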