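import Crest.Agent.R87.AAn

/-! # R87 part A: geometric lemmas (supports, ends of tubes, counting function, splitting) -/

set_option autoImplicit false

namespace Crest.Agent.R87

open MeasureTheory Set
open scoped ENNReal

theorem a_near_tube {u : P2 → ℝ} {ϑ : ℝ} {z z' : P2} {k : ℕ} {P : Tile} (h : Tile.near u ϑ z k P)
    (h1 : dI k z'.1 = dI k z.1) (h2 : |z'.2 - z.2 + (z.1 - z'.1) * u z| ≤ 1) :
    z' ∈ P.tube (2 * ϑ + 1) := by
  obtain ⟨n1, n2, n3, n4⟩ := h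
  refine ⟨(dI_eq_of_le (by exact_mod_cast n1) h1).trans n2, ?_⟩
  have a1 := abs_sub_lt_of_dI_eq h1
  rw [zpow_natCast] at a1
  have a2 : |(z'.1 - z.1) * (u z - P.s)| ≤ ϑ := by
    rw [abs_mul]
    exact (mul_le_mul_of_nonneg_right a1.le (abs_nonneg _)).trans n3
  have e : z'.2 - P.line z'.1 = (z'.2 - z.2 + (z.1 - z'.1) * u z) + (z.2 - P.line z.1) +
      (z'.1 - z.1) * (u z - P.s) := by
    simp only [Tile.line]; ring
  rw [e]
  linarith [abs_add_three (z'.2 - z.2 + (z.1 - z'.1) * u z) (z.2 - P.line z.1)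
    ((z'.1 - z.1) * (u z - P.s))]

theorem a_supp {b ψ : ℝ → ℝ} (hb : IsB b) (hψ : IsPsi ψ) {u : P2 → ℝ} {c k1 : ℕ} {T : ℕ → Set P2}
    (hT : ∀ k, MeasurableSet (T k)) {ϑ : ℝ} {U : Finset Tile}
    (hc : ∀ k z, z ∈ T k → ∃ P ∈ U, Tile.near u ϑ z k P) {g : P2 → ℝ} {z' : P2}
    (h : z' ∉ ⋃ P ∈ U, P.tube (2 * ϑ + 1)) : PhiR b ψ u c k1 T g z' = 0 := by
  refine Finset.sum_eq_zero fun k _ => Phi1_eq_zero hb hψ (hT k) fun z hz h1 => ?_
  obtain ⟨P, hP, hn⟩ := hc k z hz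
  by_contra h2
  exact h (mem_biUnion hP (a_near_tube hn h1 (not_lt.1 h2)))

theorem a_len_pos (P : Tile) : 0 < P.len := by unfold Tile.len; positivity

theorem a_totL_nonneg (U : Finset Tile) : 0 ≤ totL U := Finset.sum_nonneg fun P _ => (a_len_pos P).le

theorem a_tubes (U : Finset Tile) {ρ : ℝ} (hρ : 0 ≤ ρ) :
    volume (⋃ P ∈ U, P.tube ρ) ≤ ENNReal.ofReal (2 * ρ * totL U) := by
  refine (measure_biUnion_finset_le _ _).trans (le_of_eq ?_)
  rw [totL, Finset.mul_sum, ENNReal.ofReal_sum_of_nonneg fun P _ => by have := a_len_pos P; positivity]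
  exact Finset.sum_congr rfl fun P _ => P.volume_tube hρ

theorem a_strip (P : Tile) {I : Set ℝ} (hI : MeasurableSet I) (ρ : ℝ) :
    volume {z : P2 | z.1 ∈ I ∧ |z.2 - P.line z.1| ≤ ρ} = ENNReal.ofReal (2 * ρ) * volume I := by
  have hm : MeasurableSet {z : P2 | z.1 ∈ I ∧ |z.2 - P.line z.1| ≤ ρ} :=
    (measurable_fst hI).inter (measurableSet_le (f := fun z : P2 => |z.2 - P.line z.1|)
      (by unfold Tile.line; fun_prop) measurable_const)
  rw [Measure.volume_eq_prod, Measure.prod_apply hm, ← lintegral_indicator_const hI]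
  refine lintegral_congr fun x => ?_
  by_cases hx : x ∈ I
  · rw [indicator_of_mem hx, ← Real.volume_closedBall (P.line x) ρ]
    congr 1
    ext y
    simp [hx, Real.dist_eq]
  · rw [indicator_of_notMem hx]
    simp [hx]

theorem a_ends (Γ : Geo) (γ : ℝ) (U : Finset Tile) (he : 0 ≤ Γ.ee γ) (ht : 0 ≤ Γ.tt γ) :
    volume {z : P2 | ∃ P ∈ U, Γ.vis γ P z ∧ dI P.k z.1 ≠ P.m} ≤
      ENNReal.ofReal (4 * Γ.ee γ * Γ.tt γ * totL U) := by
  refine le_trans (measure_mono (t := ⋃ P ∈ U, {z : P2 | z.1 ∈ Icc (P.a - Γ.ee γ * P.len) P.a ∪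
    Icc (P.a + P.len) (P.a + P.len + Γ.ee γ * P.len) ∧ |z.2 - P.line z.1| ≤ Γ.tt γ})
    fun z ⟨P, hP, ⟨v1, v2, v3⟩, hne⟩ => mem_biUnion hP ⟨?_, v3⟩) ?_
  · rw [Ne, ← mem_dInt, dInt, zpow_natCast, mem_Ico, not_and_or, not_le, not_lt] at hne
    rcases hne with h | h
    · exact Or.inl ⟨v1, h.le⟩
    · refine Or.inr ⟨?_, v2⟩
      simp only [Tile.a, Tile.len]
      linarith
  refine (measure_biUnion_finset_le _ _).trans ?_
  rw [totL, Finset.mul_sum, ENNReal.ofReal_sum_of_nonneg fun P _ => by have := a_len_pos P; positivity]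
  refine Finset.sum_le_sum fun P _ => ?_
  have := a_len_pos P
  rw [a_strip P (measurableSet_Icc.union measurableSet_Icc)]
  refine (mul_le_mul_right (measure_union_le _ _) _).trans (le_of_eq ?_)
  rw [Real.volume_Icc, Real.volume_Icc, sub_sub_cancel, add_sub_cancel_left,
    ← ENNReal.ofReal_add (by positivity) (by positivity), ← ENNReal.ofReal_mul (by positivity)]
  congr 1
  ring

theorem a_ends_meas (Γ : Geo) (γ : ℝ) (U : Finset Tile) :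
    MeasurableSet {z : P2 | ∃ P ∈ U, Γ.vis γ P z ∧ dI P.k z.1 ≠ P.m} := by
  have : {z : P2 | ∃ P ∈ U, Γ.vis γ P z ∧ dI P.k z.1 ≠ P.m} =
      ⋃ P ∈ U, {z | Γ.vis γ P z} ∩ (Prod.fst ⁻¹' dInt P.k P.m)ᶜ := by
    ext z
    simp only [mem_ofPred_eq, mem_iUnion, mem_inter_iff, mem_compl_iff, mem_preimage, mem_dInt,
      exists_prop]
  rw [this]
  exact U.measurableSet_biUnion fun P _ =>
    (Γ.measurableSet_vis γ P).inter (measurable_fst (measurableSet_dInt _ _)).compl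

theorem a_cnt_meas (U : Finset Tile) (ρ : ℝ) : Measurable (cnt U ρ) :=
  Finset.measurable_sum _ fun P _ => measurable_const.indicator (P.measurableSet_tube ρ)

theorem a_cnt_nonneg (U : Finset Tile) (ρ : ℝ) (z : P2) : 0 ≤ cnt U ρ z :=
  Finset.sum_nonneg fun _ _ => indicator_nonneg (fun _ _ => zero_le_one) _

theorem a_card_le_cnt {U V : Finset Tile} (h : V ⊆ U) {ρ : ℝ} {z : P2} (hz : ∀ P ∈ V, z ∈ P.tube ρ) :
    (V.card : ℝ) ≤ cnt U ρ z := by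
  refine le_trans ?_ (Finset.sum_le_sum_of_subset_of_nonneg h fun _ _ _ =>
    indicator_nonneg (fun _ _ => zero_le_one) _)
  rw [Finset.sum_congr rfl fun P hP => indicator_of_mem (hz P hP) _]
  simp

theorem a_cnt (U : Finset Tile) {ρ B n : ℝ} (hρ : 0 ≤ ρ) (hn : 0 < n)
    (h : ∫⁻ z, ENNReal.ofReal (cnt U 1 z ^ 2) ≤ ENNReal.ofReal B) :
    volume {z | n < cnt U ρ z} ≤ ENNReal.ofReal ((2 * ρ + 3) ^ 2 * B / n ^ 2) := by
  obtain ⟨Lz, hL⟩ : ∃ Lz : Finset ℤ, Lz = Finset.Icc (-(⌈ρ⌉₊ : ℤ)) ⌈ρ⌉₊ := ⟨_, rfl⟩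
  have c1 : (Lz.card : ℝ) ≤ 2 * ρ + 3 := by
    rw [hL, Int.card_Icc, show ((⌈ρ⌉₊ : ℤ) + 1 - -(⌈ρ⌉₊ : ℤ)).toNat = 2 * ⌈ρ⌉₊ + 1 by omega]
    push_cast
    linarith [Nat.ceil_lt_add_one hρ]
  have p1 : ∀ z : P2, cnt U ρ z ≤ ∑ l ∈ Lz, cnt U 1 (z - (0, (l : ℝ))) := fun z => by
    simp only [cnt]
    rw [Finset.sum_comm]
    refine Finset.sum_le_sum fun P _ => ?_
    by_cases hz : z ∈ P.tube ρ
    · rw [indicator_of_mem hz]
      have a1 := abs_le.1 hz.2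
      have a2 := Int.floor_le (z.2 - P.line z.1)
      have a3 := Int.lt_floor_add_one (z.2 - P.line z.1)
      have a4 := Nat.le_ceil ρ
      have a5 : ⌊z.2 - P.line z.1⌋ ∈ Lz := by
        rw [hL, Finset.mem_Icc]
        exact ⟨Int.le_floor.2 (by push_cast; linarith [a1.1]),
          by exact_mod_cast (by linarith [a1.2] : (⌊z.2 - P.line z.1⌋ : ℝ) ≤ ⌈ρ⌉₊)⟩
      refine le_trans (le_of_eq (indicator_of_mem ?_ (fun _ => (1 : ℝ))).symm)
        (Finset.single_le_sum (f := fun l : ℤ => (P.tube 1).indicator (fun _ => (1 : ℝ)) (z - (0, (l : ℝ))))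
          (fun _ _ => indicator_nonneg (fun _ _ => zero_le_one) _) a5)
      refine ⟨by simpa using hz.1, ?_⟩
      simp only [Prod.snd_sub, Prod.fst_sub, sub_zero]
      exact abs_le.2 ⟨by linarith, by linarith⟩
    · rw [indicator_of_notMem hz]
      exact Finset.sum_nonneg fun _ _ => indicator_nonneg (fun _ _ => zero_le_one) _
  have p2 : ∀ z : P2, ENNReal.ofReal (cnt U ρ z ^ 2) ≤
      ENNReal.ofReal (2 * ρ + 3) * ∑ l ∈ Lz, ENNReal.ofReal (cnt U 1 (z - (0, (l : ℝ))) ^ 2) := fun z => by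
    rw [← ENNReal.ofReal_sum_of_nonneg fun _ _ => sq_nonneg _, ← ENNReal.ofReal_mul (by positivity)]
    refine ENNReal.ofReal_le_ofReal ((pow_le_pow_left₀ (a_cnt_nonneg _ _ _) (p1 z) 2).trans
      (sq_sum_le_card_mul_sum_sq.trans ?_))
    exact mul_le_mul_of_nonneg_right c1 (Finset.sum_nonneg fun _ _ => sq_nonneg _)
  have hm : Measurable fun z => ENNReal.ofReal (cnt U 1 z ^ 2) :=
    ((a_cnt_meas U 1).pow_const 2).ennreal_ofReal
  have p3 : ∫⁻ z, ENNReal.ofReal (cnt U ρ z ^ 2) ≤ ENNReal.ofReal ((2 * ρ + 3) ^ 2 * B) := by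
    refine (lintegral_mono p2).trans ?_
    rw [lintegral_const_mul' _ _ ENNReal.ofReal_ne_top,
      lintegral_finsetSum (f := fun (l : ℤ) (z : P2) => ENNReal.ofReal (cnt U 1 (z - (0, (l : ℝ))) ^ 2)) _
        fun l _ => hm.comp (measurable_sub_const _), sq (2 * ρ + 3), mul_assoc,
      ENNReal.ofReal_mul (by positivity), ENNReal.ofReal_mul (by positivity)]
    refine mul_le_mul_right ((Finset.sum_le_card_nsmul _ _ (ENNReal.ofReal B) fun l _ => ?_).trans ?_) _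
    · exact (lintegral_sub_right_eq_self (fun z => ENNReal.ofReal (cnt U 1 z ^ 2)) _).trans_le h
    · rw [nsmul_eq_mul, ← ENNReal.ofReal_natCast]
      exact mul_le_mul_left (ENNReal.ofReal_le_ofReal c1) _
  refine le_trans (measure_mono fun z hz => ?_) (a_cheb (a_cnt_meas U ρ) hn p3)
  exact lt_of_lt_of_le (show n < cnt U ρ z from hz) (le_abs_self _)

theorem a_third (k : ℕ) {p q : ℝ} (h : |p - q| < 1 / 3) (h1 : ⌊p⌋ ≠ ⌊q⌋) :
    ⌊p - 2 ^ k / 3⌋ = ⌊q - 2 ^ k / 3⌋ := by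
  wlog hpq : p ≤ q generalizing p q
  · exact (this (by rwa [abs_sub_comm]) h1.symm (by linarith)).symm
  by_contra h2
  have a1 : ⌊p⌋ + 1 ≤ ⌊q⌋ := lt_of_le_of_ne (Int.floor_le_floor hpq) h1
  have a2 : ⌊p - 2 ^ k / 3⌋ + 1 ≤ ⌊q - 2 ^ k / 3⌋ :=
    lt_of_le_of_ne (Int.floor_le_floor (by linarith)) h2
  have b1 : (⌊p⌋ : ℝ) + 1 ≤ ⌊q⌋ := by exact_mod_cast a1
  have b2 : (⌊p - 2 ^ k / 3⌋ : ℝ) + 1 ≤ ⌊q - 2 ^ k / 3⌋ := by exact_mod_cast a2
  have b3 := Int.lt_floor_add_one p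
  have b4 := Int.floor_le q
  have b5 := Int.lt_floor_add_one (p - 2 ^ k / 3)
  have b6 := Int.floor_le (q - 2 ^ k / 3)
  have b7 := (abs_lt.1 h).1
  have c1 : |((3 * (⌊q⌋ - ⌊q - 2 ^ k / 3⌋) - 2 ^ k : ℤ) : ℝ)| < 1 := by
    push_cast
    exact abs_lt.2 ⟨by linarith, by linarith⟩
  have c2 : |3 * (⌊q⌋ - ⌊q - 2 ^ k / 3⌋) - 2 ^ k| < 1 := by exact_mod_cast c1
  have c3 : (3 : ℤ) ∣ 2 ^ k := ⟨⌊q⌋ - ⌊q - 2 ^ k / 3⌋, by have := abs_lt.1 c2; omega⟩
  exact absurd (Int.prime_three.dvd_of_dvd_pow c3) (by norm_num)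

theorem Forest.of_subset {CG : ℝ} {u : P2 → ℝ} {kmax : ℕ} {G : Set P2} {j j0 : ℕ} {ϑ : ℝ} {U : Finset Tile}
    {T T' : ℕ → Set P2} (h : Forest CG u kmax G j j0 ϑ U T) (hf : Fam G T') (hs : ∀ k, T' k ⊆ T k) :
    Forest CG u kmax G j j0 ϑ U T' :=
  ⟨hf, h.j0_le, h.one_le, h.rad, h.top_k, fun k z hz => h.cover k z (hs k hz),
    fun k z hz => h.dens k z (hs k hz), h.popular, h.total, h.count⟩

theorem a_split {CG : ℝ} {u : P2 → ℝ} {kmax : ℕ} {G : Set P2} {j j0 : ℕ} {ϑ : ℝ} {U : Finset Tile}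
    {T : ℕ → Set P2} (hu : Measurable u) (h : Forest CG u kmax G j j0 ϑ U T) (kK kL : ℕ) (t0 : ℝ)
    (h3 : 3 * ϑ < 2 ^ kK) :
    ∃ TA TB : ℕ → Set P2, (∀ k, T k = TA k ∪ TB k) ∧ (∀ k, Disjoint (TA k) (TB k)) ∧
      Forest CG u kmax G j j0 ϑ U TA ∧ Forest CG u kmax G j j0 ϑ U TB ∧
      (∃ S, Assign u kmax G ϑ ⟨0, kK, kL, t0⟩ U TA S) ∧
      ∃ S, Assign u kmax G ϑ ⟨2 ^ kK / 3, kK, kL, t0⟩ U TB S := by
  set Γ : Geo := ⟨0, kK, kL, t0⟩ with hΓ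
  let N : Tile → ℕ → Set P2 := fun P k => {z | Tile.near u ϑ z k P} ∩ {z | Γ.idx k (u z) = Γ.idx k P.s}
  have Nm : ∀ P k, MeasurableSet (N P k) := fun P k => (Tile.measurableSet_near hu ϑ k P).inter
    (((Γ.measurable_idx k).comp hu) (measurableSet_singleton _))
  have Nd : ∀ P k k' z, k' ≤ k → z ∈ N P k → z ∈ N P k' := fun P k k' z hk hz =>
    ⟨Tile.near_down hz.1 hk, Γ.idx_eq_of_le hk hz.2⟩
  have Mm : ∀ k, MeasurableSet (⋃ P ∈ U, N P k) := fun k => U.measurableSet_biUnion fun P _ => Nm P k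
  have Md : ∀ k k' z, k' ≤ k → z ∈ ⋃ P ∈ U, N P k → z ∈ ⋃ P ∈ U, N P k' := fun k k' z hk hz => by
    obtain ⟨P, hP, hz⟩ := mem_iUnion₂.1 hz
    exact mem_biUnion hP (Nd P k k' z hk hz)
  have fA := h.fam.inter_down Mm Md
  have fB := h.fam.diff_down Mm Md
  refine ⟨_, _, fun k => (inter_union_sdiff _ _).symm, fun k => disjoint_sdiff_right.mono_left
    inter_subset_right, h.of_subset fA fun k => inter_subset_left, h.of_subset fB fun k => sdiff_subset,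
    ?_, ?_⟩
  · obtain ⟨S, s1, s2, s3, s4, -⟩ := exists_assign fA U N Nm Nd fun k z hz => by
      obtain ⟨P, hP, hz⟩ := mem_iUnion₂.1 hz.2
      exact ⟨P, hP, hz⟩
    exact ⟨S, fA, s1, h.top_k, s2, s3, fun P k z hz => (s4 P k hz).1, fun P k z hz => (s4 P k hz).2⟩
  · obtain ⟨S, s1, s2, s3, s4, s5⟩ := exists_assign fB U (fun P k => {z | Tile.near u ϑ z k P})
      (fun P k => Tile.measurableSet_near hu ϑ k P) (fun P k k' z hk hz => Tile.near_down hz hk)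
      fun k z hz => h.cover k z hz.1
    refine ⟨S, fB, s1, h.top_k, s2, s3, fun P k z hz => s4 P k hz, fun P k z hz => ?_⟩
    have hP : P ∈ U := by
      by_contra hP
      rw [s5 P k hP] at hz
      exact hz
    have a1 : z ∈ T k \ ⋃ P ∈ U, N P k := by
      rw [show T k \ ⋃ P ∈ U, N P k = ⋃ P ∈ U, S P k from s3 k]
      exact mem_biUnion hP hz
    have a2 : Tile.near u ϑ z k P := s4 P k hz
    have a3 : Γ.idx k (u z) ≠ Γ.idx k P.s := fun e => a1.2 (mem_biUnion hP ⟨a2, e⟩)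
    simp only [Geo.idx, Geo.sz, hΓ, sub_zero] at a3 ⊢
    have e : ∀ s : ℝ, (s - 2 ^ kK / 3) / (2 ^ kK / 2 ^ k) = s / (2 ^ kK / 2 ^ k) - 2 ^ k / 3 := fun s => by
      field_simp
    rw [e, e]
    refine a_third k ?_ a3
    rw [← sub_div, abs_div, abs_of_pos (a := (2 : ℝ) ^ kK / 2 ^ k) (by positivity), div_div_eq_mul_div,
      div_lt_iff₀ (by positivity)]
    linarith [a2.2.2.1]

end Crest.Agent.R87
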