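import Mathlib

/-! # R87 part A: numerical lemmas -/

set_option autoImplicit false

namespace Crest.Agent.R87

/-- the choice of the parameters -/
structure APar (C1 : ℝ) (j ι r N : ℕ) (η : ℝ) : Prop where
  η_pos : 0 < η
  η_le : η ≤ 1 / 4
  dec : (1 - η) ^ N < (1 / 2) ^ j
  r_ge : 340 * N + 170 ≤ r
  r_le : r ≤ ι
  pow : C1 ^ (r + 2) ≤ 2 ^ ι
  rare : (8 * η) ^ N ≤ 1 / (2 ^ ι) ^ 485
  poly : (600 * (ι : ℝ) + 1) ^ 4 ≤ 2 ^ ι
  j_le : j + 6 ≤ ι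

theorem a_poly {n : ℕ} (hn : 64 ≤ n) : (600 * (n : ℝ) + 1) ^ 4 ≤ 2 ^ n := by
  induction n, hn using Nat.le_induction with
  | base => norm_num
  | succ n hn ih =>
    have h1 : (64 : ℝ) ≤ n := by exact_mod_cast hn
    have h2 : 600 * ((n + 1 : ℕ) : ℝ) + 1 ≤ 9 / 8 * (600 * n + 1) := by push_cast; linarith
    refine (pow_le_pow_left₀ (by positivity) h2 4).trans ?_
    rw [mul_pow, pow_succ 2 n]
    nlinarith [pow_nonneg (show (0 : ℝ) ≤ 600 * n + 1 by positivity) 4]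

theorem a_par (C1 : ℝ) (h0 : 0 ≤ C1) : ∃ Q : ℕ, ∀ j ι : ℕ, Q * (j + 1) ≤ ι → ∃ r N η, APar C1 j ι r N η := by
  obtain ⟨c0, hc0⟩ := pow_unbounded_of_one_lt C1 (one_lt_two (α := ℝ))
  obtain ⟨c, c1, c2⟩ : ∃ c : ℕ, 1 ≤ c ∧ C1 ≤ 2 ^ c :=
    ⟨c0 + 1, by omega, hc0.le.trans (pow_le_pow_right₀ one_le_two (by omega))⟩
  obtain ⟨L, hL⟩ : ∃ L, L = 511 * c := ⟨_, rfl⟩
  obtain ⟨W, hW⟩ : ∃ W : ℕ, W = 2 ^ (970 * L) * 8 := ⟨_, rfl⟩
  have W8 : 8 ≤ W := by rw [hW]; exact Nat.le_mul_of_pos_left 8 (by positivity)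
  have W8' : (8 : ℝ) ≤ W := by exact_mod_cast W8
  have L0 : 0 < L := by omega
  refine ⟨L * W, fun j ι hι => ?_⟩
  have n1 : W * (j + 1) ≤ ι / L := (Nat.le_div_iff_mul_le L0).2 (by linarith)
  have n2 : L * (ι / L) ≤ ι := Nat.mul_div_le ι L
  have n3 : ι < L * (ι / L + 1) := Nat.lt_mul_div_succ ι L0
  generalize ι / L = N at n1 n2 n3
  have n4 : 8 * (j + 1) ≤ N := (Nat.mul_le_mul_right _ W8).trans n1
  have n5 : 511 * N ≤ L * N := Nat.mul_le_mul_right _ (by omega)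
  have e0 : (0 : ℝ) ≤ 1 - 1 / W := by rw [sub_nonneg, div_le_one (by linarith)]; linarith
  refine ⟨340 * N + 170, N, 1 / W, by positivity, one_div_le_one_div_of_le (by norm_num) (by linarith),
    ?_, le_rfl, by omega, ?_, ?_, a_poly (by omega), by omega⟩
  · have a1 : (1 - 1 / (W : ℝ)) ^ W ≤ 1 / 2 := by
      refine (Real.one_sub_div_pow_le_exp_neg (by linarith)).trans ?_
      rw [Real.exp_neg, one_div]
      exact inv_anti₀ (by norm_num) (by linarith [Real.add_one_le_exp (1 : ℝ)])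
    refine (pow_le_pow_of_le_one e0 (by simp) n1).trans_lt ?_
    rw [pow_mul]
    refine (pow_le_pow_left₀ (by positivity) a1 _).trans_lt ?_
    exact pow_lt_pow_right_of_lt_one₀ (by norm_num) (by norm_num) (by omega)
  · refine (pow_le_pow_left₀ h0 c2 _).trans ?_
    rw [← pow_mul]
    refine pow_le_pow_right₀ one_le_two (le_trans ?_ n2)
    rw [hL, mul_comm 511 c, mul_assoc]
    exact Nat.mul_le_mul_left _ (by omega)
  · have e : 8 * (1 / (W : ℝ)) = 1 / 2 ^ (970 * L) := by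
      rw [hW]; push_cast; field_simp
    rw [e, one_div_pow, ← pow_mul, ← pow_mul]
    refine one_div_le_one_div_of_le (by positivity) (pow_le_pow_right₀ one_le_two ?_)
    have : L ≤ L * N := Nat.le_mul_of_pos_right _ (by omega)
    nlinarith

theorem a_pw {x : ℝ} (hx : 1 ≤ x) {c : ℝ} (hc : 0 ≤ c) {a b a' b' : ℕ} (h : a + b' ≤ a' + b) :
    c * x ^ a / x ^ b ≤ c * x ^ a' / x ^ b' := by
  have x0 : 0 < x := by linarith
  rw [div_le_div_iff₀ (by positivity) (by positivity), mul_assoc, mul_assoc, ← pow_add, ← pow_add]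
  exact mul_le_mul_of_nonneg_left (pow_le_pow_right₀ hx h) hc

theorem a_solve {t e a c : ℝ} (ht : 0 < t) (he : 0 ≤ e) (h : t * e ≤ a * √e + c) :
    e ≤ a ^ 2 / t ^ 2 + 2 * c / t := by
  have h1 := Real.sq_sqrt he
  have h2 : 0 ≤ (t * √e - a) ^ 2 := sq_nonneg _
  rw [div_add_div _ _ (by positivity) ht.ne', le_div_iff₀ (by positivity)]
  have h3 : t ^ 2 * e ≤ a ^ 2 + 2 * c * t := by nlinarith
  nlinarith [mul_le_mul_of_nonneg_left h3 ht.le]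

theorem a_band_num {x A γ e C tt tL ϑ ε kk : ℝ} (hx : 1 ≤ x) (γ0 : 0 ≤ γ) (e0 : 0 ≤ e)
    (C1 : C ≤ x) (t0 : 0 ≤ tt) (t1 : tt ≤ x ^ 80) (l0 : 0 ≤ tL) (l1 : tL ≤ x * γ)
    (ϑ0 : 0 ≤ ϑ) (ϑ1 : ϑ ≤ x) (ε0 : 0 ≤ ε) (ε1 : ε ≤ A * x / (x ^ 78) ^ 10) (k0 : 0 ≤ kk) (k1 : kk ≤ x) :
    (x ^ 199) ^ 2 * e ≤ C * (kk * √(tt * tL * x ^ 300 * e) + ϑ ^ 2 * x ^ 300 *
      (1 / (x ^ 78) ^ 4 + ε ^ 2 * tt ^ 2 + tt * (8 * x ^ 79 / x ^ 600) ^ 2) * tL) →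
    e ≤ (1 + 2 * (65 + A ^ 2)) * γ / x ^ 403 := by
  have x0 : 0 < x := by linarith
  have p0 : 0 ≤ x ^ 80 * (x * γ) * x ^ 300 :=
    mul_nonneg (mul_nonneg (pow_nonneg x0.le _) (mul_nonneg x0.le γ0)) (pow_nonneg x0.le _)
  have p1 : 0 < (x ^ 199) ^ 2 := pow_pos (pow_pos x0 _) _
  have p2 : 0 ≤ 2 * (65 + A ^ 2) * γ := by positivity
  have p3 : 0 ≤ A ^ 2 := by positivity
  have a0 : C * (kk * √(tt * tL * x ^ 300 * e) + ϑ ^ 2 * x ^ 300 *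
      (1 / (x ^ 78) ^ 4 + ε ^ 2 * tt ^ 2 + tt * (8 * x ^ 79 / x ^ 600) ^ 2) * tL) ≤
      x * (kk * √(tt * tL * x ^ 300 * e) + ϑ ^ 2 * x ^ 300 *
      (1 / (x ^ 78) ^ 4 + ε ^ 2 * tt ^ 2 + tt * (8 * x ^ 79 / x ^ 600) ^ 2) * tL) :=
    mul_le_mul_of_nonneg_right C1 (by positivity)
  have b1 : (x * x * √(x ^ 80 * (x * γ) * x ^ 300)) ^ 2 / ((x ^ 199) ^ 2) ^ 2 = γ * x ^ 385 / x ^ 796 := by
    rw [mul_pow, Real.sq_sqrt p0]; field_simp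
  have b2 : 2 * (x * (x ^ 2 * x ^ 300 * ((65 + A ^ 2) / x ^ 312) * (x * γ))) / (x ^ 199) ^ 2 =
      2 * (65 + A ^ 2) * γ * x ^ 304 / x ^ 710 := by field_simp
  have b3 : (A * x / (x ^ 78) ^ 10) ^ 2 * (x ^ 80) ^ 2 = A ^ 2 * x ^ 162 / x ^ 1560 := by field_simp
  have b4 : x ^ 80 * (8 * x ^ 79 / x ^ 600) ^ 2 = 64 * x ^ 238 / x ^ 1200 := by field_simp; norm_num
  have b5 : 1 / (x ^ 78) ^ 4 + A ^ 2 * x ^ 0 / x ^ 312 + 64 * x ^ 0 / x ^ 312 = (65 + A ^ 2) / x ^ 312 := by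
    field_simp; ring
  have q1 : 0 ≤ x * γ := by positivity
  have q2 : 0 ≤ x ^ 300 := by positivity
  have q3 : 0 ≤ x ^ 80 := by positivity
  have q4 : 0 ≤ (8 * x ^ 79 / x ^ 600) ^ 2 := by positivity
  have q5 : 0 ≤ ϑ ^ 2 * x ^ 300 := by positivity
  have q6 : 0 ≤ x ^ 2 * x ^ 300 * ((65 + A ^ 2) / x ^ 312) := by positivity
  have q7 : 0 ≤ (65 + A ^ 2) / x ^ 312 := by positivity
  have a1 : √(tt * tL * x ^ 300 * e) ≤ √(x ^ 80 * (x * γ) * x ^ 300) * √e := by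
    rw [← Real.sqrt_mul p0]
    exact Real.sqrt_le_sqrt (mul_le_mul_of_nonneg_right
      (mul_le_mul_of_nonneg_right (mul_le_mul t1 l1 l0 q3) q2) e0)
  have a2 : ε ^ 2 * tt ^ 2 ≤ A ^ 2 * x ^ 0 / x ^ 312 :=
    (mul_le_mul (pow_le_pow_left₀ ε0 ε1 2) (pow_le_pow_left₀ t0 t1 2) (sq_nonneg _) (sq_nonneg _)).trans
      (b3.le.trans (a_pw hx p3 (by norm_num)))
  have a3 : tt * (8 * x ^ 79 / x ^ 600) ^ 2 ≤ 64 * x ^ 0 / x ^ 312 :=
    (mul_le_mul_of_nonneg_right t1 q4).trans (b4.le.trans (a_pw hx (by norm_num) (by norm_num)))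
  have a4 := (add_le_add (add_le_add (le_refl (1 / (x ^ 78) ^ 4)) a2) a3).trans b5.le
  have a5 := mul_le_mul ((mul_le_mul_of_nonneg_left a4 q5).trans (mul_le_mul_of_nonneg_right
    (mul_le_mul_of_nonneg_right (pow_le_pow_left₀ ϑ0 ϑ1 2) q2) q7)) l1 l0 q6
  have a6 := mul_le_mul_of_nonneg_left (add_le_add (mul_le_mul k1 a1 (Real.sqrt_nonneg _) x0.le) a5) x0.le
  intro h
  have a7 := h.trans (a0.trans a6)
  rw [mul_add x, ← mul_assoc x x, ← mul_assoc (x * x)] at a7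
  refine (a_solve p1 e0 a7).trans ?_
  rw [b1, b2, add_mul 1, one_mul, add_div γ]
  refine add_le_add ((a_pw hx γ0 (a' := 0) (b' := 403) (by norm_num)).trans ?_)
    ((a_pw hx p2 (a' := 0) (b' := 403) (by norm_num)).trans ?_) <;> rw [pow_zero, mul_one]

theorem a_sum_num {x A C2 γ τ ι tt ee η8 tL CG j5 K : ℝ} (hx : 1 ≤ x) (γ0 : 0 ≤ γ) (C0 : 0 ≤ C2)
    (τ1 : x ^ 200 / 2 ≤ τ) (ι1 : 2 * ι ≤ x) (t0 : 0 ≤ tt) (t1 : tt ≤ x ^ 80)
    (e1 : ee ≤ x ^ 80 / x ^ 600) (η0 : 0 ≤ η8) (η1 : η8 ≤ 1 / x ^ 485) (l0 : 0 ≤ tL) (l1 : tL ≤ x * γ)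
    (G0 : 0 ≤ CG) (j0 : 0 ≤ j5) (j1 : j5 ≤ x ^ 5) (K0 : 0 ≤ K) :
    18 * A ^ 2 * (C2 * γ) / (x * τ) ^ 2 + 2 * ι * ((A / (x ^ 78) ^ 10) ^ 2 * (C2 * γ) / (x ^ 199) ^ 2) +
      (2 * tt * η8 * tL + 4 * ee * tt * tL + (2 * tt + 3) ^ 2 * (CG * j5 * γ) / (x ^ 300) ^ 2 +
        2 * ι * (K * γ / x ^ 403)) ≤ (73 * A ^ 2 * C2 + 6 + 25 * CG + K) * γ / x ^ 402 := by
  have x0 : 0 < x := by linarith
  have pw : ∀ n : ℕ, 0 < x ^ n := fun n => pow_pos x0 n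
  have p1 : 0 ≤ A ^ 2 * (C2 * γ) := mul_nonneg (sq_nonneg _) (mul_nonneg C0 γ0)
  have a1 : 18 * A ^ 2 * (C2 * γ) / (x * τ) ^ 2 ≤ 72 * (A ^ 2 * (C2 * γ)) / x ^ 402 := by
    have b : x * (x ^ 200 / 2) ≤ x * τ := mul_le_mul_of_nonneg_left τ1 x0.le
    have b0 : 0 < x * (x ^ 200 / 2) := mul_pos x0 (half_pos (pw _))
    refine (div_le_div_of_nonneg_left (by linarith) (pow_pos b0 2) (pow_le_pow_left₀ b0.le b 2)).trans_eq ?_
    clear b b0 τ1 t1 e1 η1 l1 j1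
    field_simp
    ring
  have a2 : 2 * ι * ((A / (x ^ 78) ^ 10) ^ 2 * (C2 * γ) / (x ^ 199) ^ 2) ≤ A ^ 2 * (C2 * γ) * x ^ 0 / x ^ 402 := by
    refine (mul_le_mul_of_nonneg_right ι1 (div_nonneg (mul_nonneg (sq_nonneg _) (mul_nonneg C0 γ0))
      (sq_nonneg _))).trans (le_trans (le_of_eq ?_) (a_pw hx p1 (a := 1) (b := 1958) (by norm_num)))
    clear a1 τ1 t1 e1 η1 l1 j1
    field_simp
  have a3 : 2 * tt * η8 * tL ≤ 2 * γ * x ^ 0 / x ^ 402 := by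
    refine (mul_le_mul (mul_le_mul (mul_le_mul_of_nonneg_left t1 zero_le_two) η1 η0
      (by linarith [pw 80])) l1 l0 (mul_nonneg (by linarith [pw 80]) (one_div_pos.2 (pw _)).le)).trans
      (le_trans (le_of_eq ?_) (a_pw hx (by linarith) (a := 81) (b := 485) (by norm_num)))
    clear a1 a2 τ1 t1 e1 η1 l1 j1
    field_simp
  have a4 : 4 * ee * tt * tL ≤ 4 * γ * x ^ 0 / x ^ 402 := by
    have b : 0 ≤ 4 * (x ^ 80 / x ^ 600) := mul_nonneg zero_le_four (div_pos (pw _) (pw _)).le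
    refine (mul_le_mul (mul_le_mul (mul_le_mul_of_nonneg_left e1 zero_le_four) t1 t0 b) l1 l0
      (mul_nonneg b (pw _).le)).trans
      (le_trans (le_of_eq ?_) (a_pw hx (by linarith) (a := 161) (b := 600) (by norm_num)))
    clear a1 a2 a3 b τ1 t1 e1 η1 l1 j1
    field_simp
  have a5 : (2 * tt + 3) ^ 2 * (CG * j5 * γ) / (x ^ 300) ^ 2 ≤ 25 * CG * γ * x ^ 0 / x ^ 402 := by
    have b : 2 * tt + 3 ≤ 5 * x ^ 80 := by linarith [one_le_pow₀ (n := 80) hx]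
    refine (div_le_div_of_nonneg_right (mul_le_mul (pow_le_pow_left₀ (by linarith) b 2)
      (mul_le_mul_of_nonneg_right (mul_le_mul_of_nonneg_left j1 G0) γ0)
      (mul_nonneg (mul_nonneg G0 j0) γ0) (sq_nonneg _)) (sq_nonneg _)).trans
      (le_trans (le_of_eq ?_) (a_pw hx (mul_nonneg (by linarith) γ0) (a := 165) (b := 600) (by norm_num)))
    clear a1 a2 a3 a4 b τ1 t1 e1 η1 l1 j1
    field_simp
    ring
  have a6 : 2 * ι * (K * γ / x ^ 403) ≤ K * γ / x ^ 402 := by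
    refine (mul_le_mul_of_nonneg_right ι1 (div_nonneg (mul_nonneg K0 γ0) (pw _).le)).trans_eq ?_
    clear a1 a2 a3 a4 a5 τ1 t1 e1 η1 l1 j1
    field_simp
  refine (add_le_add (add_le_add a1 a2) (add_le_add (add_le_add (add_le_add a3 a4) a5) a6)).trans_eq ?_
  simp only [pow_zero, mul_one, ← add_div]
  congr 1
  ring

/-- `q = (3/4)^{1/4}` is replaced by `19/20`; `(3/4)^{1/2} ≤ (19/20)^2`. -/
theorem a_sqrt_geom (j : ℕ) : √((3 / 4 : ℝ) ^ j) ≤ ((19 / 20) ^ j) ^ 2 := by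
  refine Real.sqrt_le_iff.2 ⟨by positivity, ?_⟩
  rw [← pow_mul, ← pow_mul, mul_comm j, pow_mul]
  exact pow_le_pow_left₀ (by norm_num) (by norm_num) j

theorem a_exists_c (D : ℕ) : ∃ c : ℝ, 0 < c ∧ c ≤ 1 / 2000 ∧ ((2 : ℝ) ^ D) ^ (3 * c) ≤ 20 / 19 ∧
    (4 : ℝ) ^ c ≤ 20 / 19 := by
  have h1 : ContinuousAt (fun c : ℝ => ((2 : ℝ) ^ D) ^ (3 * c)) 0 :=
    (Real.continuousAt_const_rpow (by positivity)).comp (by fun_prop)
  have h2 : ContinuousAt (fun c : ℝ => (4 : ℝ) ^ c) 0 := Real.continuousAt_const_rpow (by norm_num)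
  have e1 := h1.eventually (gt_mem_nhds (show ((2 : ℝ) ^ D) ^ (3 * (0 : ℝ)) < 20 / 19 by norm_num))
  have e2 := h2.eventually (gt_mem_nhds (show (4 : ℝ) ^ (0 : ℝ) < 20 / 19 by norm_num))
  have e3 : ∀ᶠ c : ℝ in nhds 0, c < 1 / 2000 := gt_mem_nhds (by norm_num)
  obtain ⟨c, ⟨⟨c1, c2⟩, c3⟩, c4⟩ := ((((e1.and e2).and e3).filter_mono
    (nhdsWithin_le_nhds (s := Set.Ioi 0))).and self_mem_nhdsWithin).exists
  exact ⟨c, c4, c3.le, c1.le, c2.le⟩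

/-- the case `|F| ≤ |G|`, normalised -/
theorem a_core_small {K c r A : ℝ} {D j : ℕ} (hK : 1 ≤ K) (c0 : 0 < c) (c1 : c ≤ 1 / 2000)
    (c2 : ((2 : ℝ) ^ D) ^ (3 * c) ≤ 20 / 19) (r0 : 0 < r) (r1 : r ≤ 1) (A0 : 0 ≤ A)
    (h1 : A ≤ K * ((19 / 20) ^ j) ^ 2 * r ^ (1 / 2 : ℝ))
    (h2 : K * 2 ^ (D * j) ≤ r ^ (-(499 / 1000 : ℝ)) → A ≤ K * r ^ (501 / 1000 : ℝ)) :
    A ≤ K ^ 2 * (19 / 20) ^ j * r ^ (1 / 2 + c) := by
  have K0 : 0 < K := by linarith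
  have q0 : (0 : ℝ) < (19 / 20) ^ j := by positivity
  rcases le_or_gt (K * 2 ^ (D * j)) (r ^ (-(499 / 1000 : ℝ))) with h | h
  · have a1 := mul_le_mul h1 (h2 h) A0 (by positivity)
    have a2 : r ^ (1 / 2 : ℝ) * r ^ (501 / 1000 : ℝ) ≤ (r ^ (1 / 2 + c)) ^ 2 := by
      rw [sq, ← Real.rpow_add r0, ← Real.rpow_add r0]
      exact Real.rpow_le_rpow_of_exponent_ge r0 r1 (by linarith)
    have a3 : A ≤ K * (19 / 20) ^ j * r ^ (1 / 2 + c) := by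
      refine (pow_le_pow_iff_left₀ A0 (by positivity) two_ne_zero).1 ?_
      rw [mul_pow, mul_pow]
      nlinarith [mul_le_mul_of_nonneg_left a2 (show 0 ≤ K ^ 2 * ((19 / 20) ^ j) ^ 2 by positivity)]
    refine a3.trans ?_
    gcongr
    nlinarith
  · have a1 : r ^ (-c) ≤ K * (20 / 19) ^ j := by
      have b1 : r ^ (-c) ≤ (r ^ (-(499 / 1000 : ℝ))) ^ (3 * c) := by
        rw [← Real.rpow_mul r0.le]
        exact Real.rpow_le_rpow_of_exponent_ge r0 r1 (by linarith)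
      refine b1.trans ((Real.rpow_le_rpow (by positivity) h.le (by positivity)).trans ?_)
      have b2 : ((2 : ℝ) ^ (D * j)) ^ (3 * c) = (((2 : ℝ) ^ D) ^ (3 * c)) ^ j := by
        rw [pow_mul, ← Real.rpow_natCast_mul (by positivity), mul_comm (j : ℝ),
          Real.rpow_mul_natCast (by positivity)]
      rw [Real.mul_rpow K0.le (by positivity), b2]
      refine mul_le_mul ?_ (pow_le_pow_left₀ (by positivity) c2 j) (by positivity) K0.le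
      simpa using Real.rpow_le_rpow_of_exponent_le hK (show 3 * c ≤ 1 by linarith)
    have a2 : r ^ (1 / 2 : ℝ) = r ^ (-c) * r ^ (1 / 2 + c) := by
      rw [← Real.rpow_add r0]; congr 1; ring
    have a3 : ((19 / 20 : ℝ) ^ j) * (20 / 19) ^ j = 1 := by rw [← mul_pow]; norm_num
    refine h1.trans ?_
    rw [a2]
    calc _ ≤ K * ((19 / 20) ^ j) ^ 2 * (K * (20 / 19) ^ j * r ^ (1 / 2 + c)) := by gcongr
      _ = K ^ 2 * (19 / 20) ^ j * r ^ (1 / 2 + c) * ((19 / 20) ^ j * (20 / 19) ^ j) := by ring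
      _ = _ := by rw [a3, mul_one]

end Crest.Agent.R87
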