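import Crest.Agent.R87.AGeo
import Crest.Agent.R87.ANum

/-! # R87 part A: the tail estimate for one forest that is compatible with a slope grid -/

set_option autoImplicit false

namespace Crest.Agent.R87

open MeasureTheory Set
open scoped ENNReal

/-- rank below `r`, away from the ends of the tubes, few tubes -/
def aGood (Γ : Geo) (U : Finset Tile) (r : ℕ) (n : ℝ) : Set P2 :=
  ((⋃ m : ℤ, {z | Perf Γ U r z r (0, m)})ᶜ ∩ {z : P2 | ∃ P ∈ U, Γ.vis r P z ∧ dI P.k z.1 ≠ P.m}ᶜ) ∩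
    {z | cnt U (Γ.tt r) z ≤ n}

theorem aGood_meas (Γ : Geo) (U : Finset Tile) (r : ℕ) (n : ℝ) : MeasurableSet (aGood Γ U r n) :=
  ((MeasurableSet.iUnion fun _ => measurableSet_Perf ..).compl.inter (a_ends_meas ..).compl).inter
    (measurableSet_le (a_cnt_meas ..) measurable_const)

theorem aGood_compl (Γ : Geo) (U : Finset Tile) (r : ℕ) (n : ℝ) : (aGood Γ U r n)ᶜ ⊆
    ({z : P2 | (∃ m : ℤ, Perf Γ U r z r (0, m)) ∧ ∀ P ∈ U, Γ.vis r P z → dI P.k z.1 = P.m} ∪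
      {z : P2 | ∃ P ∈ U, Γ.vis r P z ∧ dI P.k z.1 ≠ P.m}) ∪ {z | n < cnt U (Γ.tt r) z} := by
  intro z hz
  by_contra hc
  simp only [mem_union, mem_ofPred_eq, not_or, not_lt] at hc
  obtain ⟨⟨h1, h2⟩, h3⟩ := hc
  refine hz ⟨⟨fun h => h1 ⟨mem_iUnion.1 h, fun P hP hv => ?_⟩, h2⟩, h3⟩
  by_contra h4
  exact h2 ⟨P, hP, hv, h4⟩

theorem aGood_card {Γ : Geo} {U : Finset Tile} {r n : ℕ} {z : P2} (hz : z ∈ aGood Γ U r n)
    (V : Finset Tile) (hV : V ⊆ U) (hv : ∀ P ∈ V, Γ.vis r P z) : V.card ≤ n := by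
  have h := (a_card_le_cnt hV (ρ := Γ.tt r) (z := z) fun P hP => ⟨by
    by_contra h4
    exact hz.1.2 ⟨P, hV hP, hv P hP, h4⟩, (hv P hP).2.2⟩).trans hz.2
  exact_mod_cast h

theorem a_vconv_bdd {θ : ℝ → ℝ} {f : P2 → ℝ} {H L τ : ℝ} (hθ : ∀ y, H < |y| → θ y = 0)
    (hf : ∀ z, L ≤ ‖z‖ → f z = 0) (hτ : 0 ≤ τ) : Bornology.IsBounded {z | τ < |vconv θ f z|} := by
  refine (Metric.isBounded_closedBall (x := (0 : P2)) (r := L + H)).subset fun z hz => ?_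
  rw [mem_closedBall_zero_iff]
  by_contra hc
  have e : ∀ y, θ y * f (z.1, z.2 - y) = 0 := fun y => by
    rcases lt_or_ge H |y| with h | h
    · rw [hθ y h, zero_mul]
    · have h1 : ‖z‖ ≤ ‖(z.1, z.2 - y)‖ + ‖((0 : ℝ), y)‖ := by
        simpa using norm_add_le (z.1, z.2 - y) ((0 : ℝ), y)
      rw [Prod.norm_mk (0 : ℝ), norm_zero, max_eq_right (norm_nonneg _), Real.norm_eq_abs] at h1
      rw [hf _ (by linarith), mul_zero]
  simp only [mem_ofPred_eq, vconv, e, integral_zero, abs_zero] at hz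
  linarith

theorem a_cheb_on {v : P2 → ℝ} {E : Set P2} (hE : MeasurableSet E) {τ X : ℝ} (hτ : 0 ≤ τ)
    (h : ∀ z ∈ E, τ < |v z|) (hX : 0 ≤ X)
    (hi : ∫⁻ z in E, ENNReal.ofReal (v z ^ 2) ≤ ENNReal.ofReal X) : τ ^ 2 * (volume E).toReal ≤ X := by
  have h1 : ENNReal.ofReal (τ ^ 2) * volume E ≤ ENNReal.ofReal X := by
    rw [← setLIntegral_const]
    refine le_trans (setLIntegral_mono' hE fun z hz => ENNReal.ofReal_le_ofReal ?_) hi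
    rw [← sq_abs (v z)]
    exact pow_le_pow_left₀ hτ (h z hz).le 2
  have h2 := ENNReal.toReal_le_of_le_ofReal hX h1
  rwa [ENNReal.toReal_mul, ENNReal.toReal_ofReal (sq_nonneg _)] at h2

theorem Forest.a_rad {CG : ℝ} {u : P2 → ℝ} {kmax : ℕ} {G : Set P2} {j j0 : ℕ} {ϑ : ℝ} {U : Finset Tile}
    {T : ℕ → Set P2} (h : Forest CG u kmax G j j0 ϑ U T) : ϑ ≤ 64 * 2 ^ j := by
  have h0 : 0 ≤ ϑ := zero_le_one.trans h.one_le
  refine (pow_le_pow_iff_left₀ h0 (by positivity) (n := 16) (by norm_num)).1 ?_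
  refine (le_mul_of_one_le_right (pow_nonneg h0 _) (one_le_pow₀ one_le_two)).trans (h.rad.trans ?_)
  rw [mul_pow]
  exact mul_le_mul_of_nonneg_left (le_self_pow₀ (one_le_pow₀ one_le_two) (by norm_num)) (by norm_num)

theorem Forest.a_tot {CG : ℝ} {u : P2 → ℝ} {kmax : ℕ} {G : Set P2} {j j0 : ℕ} {ϑ : ℝ} {U : Finset Tile}
    {T : ℕ → Set P2} (h : Forest CG u kmax G j j0 ϑ U T) : totL U ≤ 2 ^ j * (volume G).toReal :=
  h.total.trans (mul_le_mul_of_nonneg_right (pow_le_pow_right₀ one_le_two h.j0_le) ENNReal.toReal_nonneg)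

theorem a_geo_num {C1 η ϑ x : ℝ} {j ι r N : ℕ} (hp : APar C1 j ι r N η) (hx : x = 2 ^ ι) (ϑ0 : 0 ≤ ϑ)
    (ϑ1 : ϑ ≤ x) {Γ : Geo} (hK : Γ.kK = 600 * ι) (hL : Γ.kL = 79 * ι + 3)
    (ht : Γ.t0 = 2 * ϑ + 1 + x ^ 79) :
    (2 : ℝ) ^ Γ.kK = x ^ 600 ∧ (2 : ℝ) ^ Γ.kL = 8 * x ^ 79 ∧ 0 ≤ Γ.t0 ∧ 0 ≤ Γ.tt r ∧ Γ.tt r ≤ x ^ 80 ∧
      0 ≤ Γ.ee r ∧ Γ.ee r ≤ x ^ 80 / x ^ 600 ∧ 24 * ι ≤ x ∧ x ^ 80 + 1 ≤ x ^ 600 := by
  have e1 : (2 : ℝ) ^ Γ.kK = x ^ 600 := by rw [hK, hx, pow_mul']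
  have e2 : (2 : ℝ) ^ Γ.kL = 8 * x ^ 79 := by rw [hL, hx, pow_add, pow_mul', mul_comm]; norm_num
  have i6 : (6 : ℝ) ≤ ι := by exact_mod_cast le_of_add_le_right hp.j_le
  have ri : (r : ℝ) ≤ ι := by exact_mod_cast hp.r_le
  have r0 : (0 : ℝ) ≤ r := Nat.cast_nonneg r
  have p1 : 2 * (600 * (ι : ℝ) + 1) ≤ x := by
    refine le_trans ?_ (hp.poly.trans hx.ge)
    refine le_trans ?_ (pow_le_pow_right₀ (by linarith) (show 2 ≤ 4 by norm_num))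
    nlinarith
  have x1 : 1 ≤ x := by linarith
  have y1 : x ≤ x ^ 79 := le_self_pow₀ x1 (by norm_num)
  have y2 : x ^ 80 = x * x ^ 79 := pow_succ' x 79
  have y3 : x ^ 80 * x ≤ x ^ 600 := (pow_succ x 80).ge.trans (pow_le_pow_right₀ x1 (by norm_num))
  have y4 : 1 ≤ x ^ 80 := one_le_pow₀ x1
  have y5 : 0 < x ^ 600 := pow_pos (by linarith) _
  have e3 : Γ.ee r = r * (100 * (8 * x ^ 79)) / x ^ 600 := by rw [Geo.ee, e1, e2, mul_div_assoc (r : ℝ)]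
  have e4 : Γ.tt r = 2 * ϑ + 1 + x ^ 79 + r * (100 * (8 * x ^ 79)) := by rw [Geo.tt, e2, ht]
  rw [e3, e4, ht]
  refine ⟨e1, e2, ?_⟩
  clear e1 e2 e3 e4 ht
  generalize x ^ 600 = a at *
  generalize x ^ 80 = b at *
  generalize x ^ 79 = c at *
  have z1 : 0 ≤ r * c := mul_nonneg r0 (by linarith)
  have z2 : r * c ≤ ι * c := mul_le_mul_of_nonneg_right ri (by linarith)
  have z3 : 2 * (600 * (ι : ℝ) + 1) * c ≤ x * c := mul_le_mul_of_nonneg_right p1 (by linarith)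
  have z4 : 6 * c ≤ ι * c := mul_le_mul_of_nonneg_right i6 (by linarith)
  have z5 : b * 2 ≤ b * x := mul_le_mul_of_nonneg_left (by linarith) (by linarith)
  exact ⟨by linarith, by linarith, by linarith, div_nonneg (by linarith) y5.le,
    div_le_div_of_nonneg_right (by linarith) y5.le, by linarith, by linarith⟩

theorem a_one (h1 : L2Stmt) (h2 : KerStmt) (h3 : S1Stmt) (h4 : S2Stmt) :
    ∃ M1 : ℕ, ∀ m, M1 ≤ m → ∀ b Ψ : ℝ → ℝ, IsB b → IsPsi Ψ → ∀ CG : ℝ, ∃ (C : ℝ) (Q : ℕ), 0 ≤ C ∧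
    ∀ (kmax : ℕ) (u : P2 → ℝ), Field u kmax → ∀ G : Set P2, MeasurableSet G →
      Bornology.IsBounded G → ∀ (j j0 : ℕ) (ϑ : ℝ) (U : Finset Tile) (T : ℕ → Set P2),
        Forest CG u kmax G j j0 ϑ U T → ∀ g, Coef g → ∀ ι : ℕ, Q * (j + 1) ≤ ι →
        ∀ (s0 : ℝ) (S : Tile → ℕ → Set P2),
          Assign u kmax G ϑ ⟨s0, 600 * ι, 79 * ι + 3, 2 * ϑ + 1 + (2 ^ ι) ^ 79⟩ U T S →
          ∀ τ : ℝ, (2 ^ ι) ^ 200 / 2 ≤ τ →
          volume {z' | τ < |PhiR b (iteratedDeriv m Ψ) u 0 kmax T g z'|}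
            ≤ ENNReal.ofReal (C * (volume G).toReal / (2 ^ ι) ^ 402) := by
  obtain ⟨M0, h1⟩ := h1
  obtain ⟨Λ, A, A1, l1, l2, l3, l4, l5, l6, l7, -, l8⟩ := h2
  refine ⟨M0 + 1, fun m hm b Ψ hb hΨ CG => ?_⟩
  obtain ⟨m, rfl⟩ : ∃ m', m = m' + 1 := ⟨m - 1, by omega⟩
  obtain ⟨Ca, ha⟩ := h1 m (by omega) b Ψ hb hΨ
  obtain ⟨Cb, hb'⟩ := h1 (m + 1) (by omega) b Ψ hb hΨ
  obtain ⟨Cc, hc⟩ := h1 (m + 1 + 1) (by omega) b Ψ hb hΨ
  obtain ⟨C2, C20, c1, c2, c3⟩ : ∃ C2 : ℝ, 0 ≤ C2 ∧ Ca ≤ C2 ∧ Cb ≤ C2 ∧ Cc ≤ C2 :=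
    ⟨|Ca| + |Cb| + |Cc|, by positivity, by linarith [le_abs_self Ca, abs_nonneg Cb, abs_nonneg Cc],
      by linarith [le_abs_self Cb, abs_nonneg Ca, abs_nonneg Cc],
      by linarith [le_abs_self Cc, abs_nonneg Cb, abs_nonneg Ca]⟩
  obtain ⟨C1, C11, h3⟩ := h3 b _ hb (hΨ.iter (m + 1))
  have C10 : 0 ≤ C1 * A ^ 2 := by positivity
  obtain ⟨Q, hQ⟩ := a_par (C1 * A ^ 2) C10
  have K0 : 0 ≤ 1 + 2 * (65 + A ^ 2) := by positivity
  refine ⟨73 * A ^ 2 * C2 + 6 + 25 * |CG| + (1 + 2 * (65 + A ^ 2)), Q, by positivity,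
    fun kmax u hu G hG hGb j j0 ϑ U T hF g hg ι hι s0 S hS τ hτ => ?_⟩
  obtain ⟨r, N, η, hp⟩ := hQ j ι hι
  have γ0 : 0 ≤ (volume G).toReal := ENNReal.toReal_nonneg
  have ϑ0 : 0 ≤ ϑ := zero_le_one.trans hF.one_le
  have tL0 := a_totL_nonneg U
  have hf : ∀ (m' : ℕ) (C' : ℝ), C' ≤ C2 →
      ∫⁻ z', ENNReal.ofReal (PhiR b (iteratedDeriv m' Ψ) u 0 kmax T g z' ^ 2)
        ≤ ENNReal.ofReal (C' * (3 / 4) ^ j * (volume G).toReal) →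
      ABd (PhiR b (iteratedDeriv m' Ψ) u 0 kmax T g) (C2 * (volume G).toReal) := fun m' C' h5 h6 => by
    obtain ⟨L, -, hL⟩ := PhiR_bdd_supp hb (hΨ.iter m') hu hGb
    refine ⟨measurable_PhiR hb (hΨ.iter m') hu.meas _ _ _ hg,
      ⟨L, fun z => (hL 0 kmax le_rfl T hF.fam.meas hF.fam.sub g hg z).1⟩,
      h6.trans (ENNReal.ofReal_le_ofReal (mul_le_mul_of_nonneg_right ?_ γ0))⟩
    exact (mul_le_mul_of_nonneg_right h5 (by positivity)).trans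
      (mul_le_of_le_one_right C20 (pow_le_one₀ (by norm_num) (by norm_num)))
  have hd : ∀ (m' : ℕ) (x y : ℝ), HasDerivAt (fun y => PhiR b (iteratedDeriv m' Ψ) u 0 kmax T g (x, y))
      (PhiR b (iteratedDeriv (m' + 1) Ψ) u 0 kmax T g (x, y)) y := fun m' x y => by
    rw [iteratedDeriv_succ]
    exact hasDerivAt_PhiR hb (hΨ.iter m') hu.meas 0 kmax hGb hF.fam.sub hg x y
  obtain ⟨L, -, hL⟩ := PhiR_bdd_supp hb (hΨ.iter (m + 1)) hu hGb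
  replace hL := fun z => (hL 0 kmax le_rfl T hF.fam.meas hF.fam.sub g hg z).2
  have f0 := hf _ _ c1 (ha CG kmax u hu G hG hGb j j0 ϑ U T hF g hg)
  have f1 := hf _ _ c2 (hb' CG kmax u hu G hG hGb j j0 ϑ U T hF g hg)
  have f2 := hf _ _ c3 (hc CG kmax u hu G hG hGb j j0 ϑ U T hF g hg)
  have hι6 := hp.j_le
  have zi : ∀ i ∈ Finset.range (2 * ι), ((2 : ℝ) ^ ι)⁻¹ ≤ 2 ^ ((i : ℤ) - ι) ∧ (2 : ℝ) ^ ((i : ℤ) - ι) ≤ 2 ^ ι :=
    fun i hi => by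
      rw [Finset.mem_range] at hi
      rw [← zpow_natCast, ← zpow_neg]
      exact ⟨zpow_le_zpow_right₀ one_le_two (by omega), zpow_le_zpow_right₀ one_le_two (by omega)⟩
  have jx : (64 : ℝ) * 2 ^ j ≤ 2 ^ ι :=
    le_trans (by rw [pow_add, mul_comm]; norm_num) (pow_le_pow_right₀ one_le_two hι6)
  have j5 : (2 : ℝ) ^ (5 * j) ≤ (2 ^ ι) ^ 5 := by
    rw [← pow_mul']; exact pow_le_pow_right₀ one_le_two (by omega)
  have en : ((2 ^ (300 * ι) : ℕ) : ℝ) = (2 ^ ι) ^ 300 := by rw [Nat.cast_pow, pow_mul', Nat.cast_ofNat]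
  have q1 := hp.pow
  have q2 := hp.rare
  have q3 := hp.poly
  generalize 2 ^ (300 * ι) = n at en
  obtain ⟨x, hx⟩ : ∃ x : ℝ, x = 2 ^ ι := ⟨_, rfl⟩
  have dec := fun R a h8 => a_decomp l1 l2 l3 l4 l5 l6 l7 (R := R) (a := a) h8 (mul_nonneg C20 γ0) f0 f1 f2
    (hd m) (hd (m + 1)) ι (τ := τ) (τ' := x ^ 199)
  rw [← hx] at hS hτ zi jx j5 en q1 q2 q3 dec ⊢
  have jx' : (2 : ℝ) ^ j ≤ x := by linarith [pow_pos (two_pos (α := ℝ)) j]
  have ϑ1 : ϑ ≤ x := hF.a_rad.trans jx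
  have tL1 : totL U ≤ x * (volume G).toReal := hF.a_tot.trans (mul_le_mul_of_nonneg_right jx' γ0)
  obtain ⟨Γ, hΓ⟩ : ∃ Γ : Geo, Γ = ⟨s0, 600 * ι, 79 * ι + 3, 2 * ϑ + 1 + x ^ 79⟩ := ⟨_, rfl⟩
  rw [← hΓ] at hS
  have hK : Γ.kK = 600 * ι := by rw [hΓ]
  have ht : Γ.t0 = 2 * ϑ + 1 + x ^ 79 := by rw [hΓ]
  obtain ⟨g1, g2, g3, g4, g5, g6, g7, g8, g9⟩ := a_geo_num hp hx ϑ0 ϑ1 hK (by rw [hΓ]) ht
  have x1 : 1 ≤ x := (one_le_pow₀ one_le_two).trans jx'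
  have x0 : 0 < x := zero_lt_one.trans_le x1
  have pw : ∀ n : ℕ, 0 < x ^ n := fun n => pow_pos x0 n
  have i0 : (0 : ℝ) ≤ ι := Nat.cast_nonneg ι
  obtain ⟨Y, hY, l9⟩ := l8 (x ^ 78) (one_le_pow₀ x1)
  have s2 := h4 kmax u hu G hG hGb j0 U hF.top_k hF.popular Γ r N η hp.η_pos hp.η_le
    (hp.dec.trans_le (pow_le_pow_of_le_one (by norm_num) (by norm_num) hF.j0_le)) hp.r_ge g3 (by omega)
    ((add_le_add_left g5 1).trans (g9.trans g1.ge))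
  have s3 := a_ends Γ r U g6 g4
  have s4 := a_cnt U g4 (pw 300) (hF.count.trans (ENNReal.ofReal_le_ofReal (mul_le_mul_of_nonneg_right
    (mul_le_mul_of_nonneg_right (le_abs_self CG) (pow_pos two_pos _).le) γ0)))
  have s5 : ∀ i ∈ Finset.range (2 * ι),
      volume ({z | x ^ 199 < |vconv (band Λ (x ^ 78) ((i : ℤ) - ι))
        (PhiR b (iteratedDeriv (m + 1) Ψ) u 0 kmax T g) z|} ∩ aGood Γ U r n) ≤
      ENNReal.ofReal ((1 + 2 * (65 + A ^ 2)) * (volume G).toReal / x ^ 403) := fun i hi => by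
    obtain ⟨z1, z2⟩ := zi i hi
    obtain ⟨b1, -, b2⟩ := l9 ((i : ℤ) - ι)
    generalize (i : ℤ) - ι = i' at *
    have w0 : (0 : ℝ) < 2 ^ i' := zpow_pos two_pos _
    have w1 : x ^ 78 / 2 ^ i' ≤ x ^ 79 := by
      rw [pow_succ x 78, ← div_inv_eq_mul]
      exact div_le_div_of_nonneg_left (pw _).le (inv_pos.2 x0) z1
    have w2 : ∀ y, x ^ 79 < |y| → band Λ (x ^ 78) i' y = 0 := fun y hy => if_neg (not_le.2 (w1.trans_lt hy))
    have bm := a_band_meas l1.continuous.measurable (x ^ 78) i'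
    have Eb := (a_vconv_bdd w2 hL (pw 199).le).subset (inter_subset_left (t := aGood Γ U r n))
    have Em := (measurableSet_lt (measurable_const (a := x ^ 199))
      (measurable_vconv bm f1.meas).abs).inter (aGood_meas Γ U r n)
    have ε0 : 0 ≤ A * 2 ^ i' / (x ^ 78) ^ 10 :=
      div_nonneg (mul_nonneg (zero_le_one.trans A1) w0.le) (pow_pos (pw _) _).le
    have s1 := h3 kmax u hu G hGb ϑ Γ U T S hF.one_le hS g hg Y _ A (x ^ 78) (x ^ 79) _ _ A1 (one_le_pow₀ x1)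
      w0 ε0 (pw _).le hY bm (a_band_int l2 _ _) b1 w2 b2
      (by rw [g2, mul_div_assoc]; exact mul_le_mul_of_nonneg_left w1 (by norm_num)) (by omega) ht.ge r n _ Em Eb
      (g7.trans ((div_le_one (pw _)).2 ((le_add_of_nonneg_right zero_le_one).trans g9)))
      (fun z hz m h => hz.2.1.1 (mem_iUnion.2 ⟨m, h⟩)) fun z hz => aGood_card hz.2
    have k0 : (0 : ℝ) ≤ (Γ.kK + 1) ^ 4 := Even.pow_nonneg (by decide) _
    have s6 := a_cheb_on Em (pw 199).le (fun z hz => hz.1) (mul_nonneg (pow_nonneg C10 _) (add_nonneg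
      (mul_nonneg k0 (Real.sqrt_nonneg _)) (mul_nonneg (mul_nonneg (mul_nonneg (sq_nonneg _) (Nat.cast_nonneg _))
      (add_nonneg (add_nonneg (one_div_pos.2 (pow_pos (pw _) _)).le (mul_nonneg (sq_nonneg _) (sq_nonneg _)))
      (mul_nonneg g4 (sq_nonneg _)))) tL0))) s1
    rw [g1, g2, en] at s6
    rw [← ENNReal.ofReal_toReal Eb.measure_lt_top.ne, en]
    refine ENNReal.ofReal_le_ofReal (a_band_num x1 γ0 ENNReal.toReal_nonneg q1 g4 g5 tL0 tL1 ϑ0 ϑ1 ε0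
      (div_le_div_of_nonneg_right (mul_le_mul_of_nonneg_left z2 (zero_le_one.trans A1)) (pow_pos (pw _) _).le)
      k0 ?_ s6)
    rwa [hK, Nat.cast_mul, Nat.cast_ofNat]
  have s7 := dec _ _ (fun i => (l9 i).2.1) ((half_pos (pw _)).trans_le hτ) (pw _) (le_trans (by
    rw [pow_succ' x 199, mul_div_right_comm]
    exact mul_le_mul_of_nonneg_right (by clear * - g8; linarith) (pw _).le) hτ)
  have s8 : ∀ Z : ℕ → Set P2, ⋃ i ∈ Finset.range (2 * ι), Z i ⊆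
      (aGood Γ U r (x ^ 300))ᶜ ∪ ⋃ i ∈ Finset.range (2 * ι), Z i ∩ aGood Γ U r (x ^ 300) := fun Z z hz => by
    by_cases h : z ∈ aGood Γ U r (x ^ 300)
    · obtain ⟨i, hi, hz⟩ := mem_iUnion₂.1 hz
      exact Or.inr (mem_biUnion hi ⟨hz, h⟩)
    · exact Or.inl h
  have s9 := (measure_mono (μ := volume) (aGood_compl Γ U r (x ^ 300))).trans ((measure_union_le _ _).trans
    (add_le_add ((measure_union_le _ _).trans (add_le_add s2 s3)) s4))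
  rw [en] at s5
  have s10 := (measure_biUnion_finset_le (μ := volume) _ _).trans (Finset.sum_le_card_nsmul _ _ _ s5)
  have η0 : 0 ≤ (8 * η) ^ N := pow_nonneg (mul_nonneg (by norm_num) hp.η_pos.le) _
  refine s7.trans ((add_le_add le_rfl ((measure_mono (s8 _)).trans ((measure_union_le _ _).trans
    (add_le_add s9 s10)))).trans ?_)
  have n1 : 0 ≤ (1 + 2 * (65 + A ^ 2)) * (volume G).toReal / x ^ 403 := div_nonneg (mul_nonneg K0 γ0) (pw _).le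
  have n2 : 0 ≤ 2 * Γ.tt r * (8 * η) ^ N * totL U :=
    mul_nonneg (mul_nonneg (mul_nonneg zero_le_two g4) η0) tL0
  have n3 : 0 ≤ 4 * Γ.ee r * Γ.tt r * totL U := mul_nonneg (mul_nonneg (mul_nonneg zero_le_four g6) g4) tL0
  have n4 : 0 ≤ (2 * Γ.tt r + 3) ^ 2 * (|CG| * 2 ^ (5 * j) * (volume G).toReal) / (x ^ 300) ^ 2 :=
    div_nonneg (mul_nonneg (sq_nonneg _) (mul_nonneg (mul_nonneg (abs_nonneg _) (pow_pos two_pos _).le) γ0))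
      (sq_nonneg _)
  have n5 := mul_nonneg (mul_nonneg zero_le_two i0) n1
  rw [Finset.card_range, nsmul_eq_mul, ← ENNReal.ofReal_natCast, ← ENNReal.ofReal_mul (Nat.cast_nonneg _),
    Nat.cast_mul, Nat.cast_ofNat, ← ENNReal.ofReal_add n2 n3, ← ENNReal.ofReal_add (add_nonneg n2 n3) n4,
    ← ENNReal.ofReal_add (add_nonneg (add_nonneg n2 n3) n4) n5, ← ENNReal.ofReal_add (add_nonneg
      (div_nonneg (mul_nonneg (mul_nonneg (by norm_num) (sq_nonneg _)) (mul_nonneg C20 γ0)) (sq_nonneg _))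
      (mul_nonneg (mul_nonneg zero_le_two i0) (div_nonneg (mul_nonneg (sq_nonneg _) (mul_nonneg C20 γ0))
      (sq_nonneg _)))) (add_nonneg (add_nonneg (add_nonneg n2 n3) n4) n5)]
  exact ENNReal.ofReal_le_ofReal (a_sum_num x1 γ0 C20 hτ (by clear * - g8 i0; linarith) g4 g5 g7 η0 q2 tL0 tL1
    (abs_nonneg _) (pow_pos two_pos _).le j5 K0)

end Crest.Agent.R87
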