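import Crest.Agent.R87.Defs2

/-! # R87 API 1: dyadic intervals, slope nodes, tops, assignment, shear. -/

set_option autoImplicit false

namespace Crest.Agent.R87

open MeasureTheory Set
open scoped ENNReal

theorem mem_dInt {k m : ℤ} {x : ℝ} : x ∈ dInt k m ↔ dI k x = m := by
  have h : (0 : ℝ) < 2 ^ k := zpow_pos two_pos k
  rw [dI, Int.floor_eq_iff, le_div_iff₀ h, div_lt_iff₀ h]
  rfl

theorem measurableSet_dInt (k m : ℤ) : MeasurableSet (dInt k m) := by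
  exact measurableSet_Ico

theorem volume_dInt (k m : ℤ) : volume (dInt k m) = ENNReal.ofReal (2 ^ k) := by
  rw [dInt, Real.volume_Ico]
  congr 1
  ring

theorem measurable_dI (k : ℤ) : Measurable (dI k) := by
  exact Int.measurable_floor.comp (measurable_id.div_const _)

theorem measurable_haar (k : ℤ) : Measurable (haar k) := by
  exact (measurable_of_countable fun m : ℤ => if Even m then (1 : ℝ) else -1).comp (measurable_dI (k - 1))

theorem measurable_cen (k : ℤ) : Measurable (cen k) := by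
  exact (measurable_of_countable fun m : ℤ => ((m : ℝ) + 1 / 2) * 2 ^ k).comp (measurable_dI k)

theorem abs_haar (k : ℤ) (x : ℝ) : |haar k x| = 1 := by
  unfold haar
  split_ifs <;> simp

theorem dI_add' (k : ℤ) (i : ℕ) (x : ℝ) : dI (k + i) x = dI k x / 2 ^ i := by
  unfold dI
  rw [← Int.floor_div_cast_of_nonneg (by positivity), zpow_add₀ two_ne_zero, div_div]
  push_cast
  rw [zpow_natCast]

/-- the parent index -/
theorem dI_succ (k : ℤ) (x : ℝ) : dI (k + 1) x = dI k x / 2 := by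
  simpa using dI_add' k 1 x

theorem dI_add (k : ℤ) (i : ℕ) (x : ℝ) : dI (k + i) x = dI k x / 2 ^ i := by
  exact dI_add' k i x

theorem dI_eq_of_le {k k' : ℤ} (h : k ≤ k') {x x' : ℝ} (e : dI k x = dI k x') :
    dI k' x = dI k' x' := by
  obtain ⟨i, rfl⟩ := Int.le.dest h
  rw [dI_add, dI_add, e]

theorem abs_sub_lt_of_dI_eq {k : ℤ} {x x' : ℝ} (e : dI k x = dI k x') : |x - x'| < 2 ^ k := by
  obtain ⟨h1, h2⟩ := mem_dInt.2 e
  obtain ⟨h3, h4⟩ := mem_dInt.2 (rfl : dI k x' = dI k x')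
  rw [abs_lt]
  constructor <;> linarith

theorem dInt_succ (k m : ℤ) : dInt (k + 1) m = dInt k (2 * m) ∪ dInt k (2 * m + 1) := by
  ext x
  rw [mem_union, mem_dInt, mem_dInt, mem_dInt, dI_succ]
  omega

theorem disjoint_dInt (k : ℤ) {m m' : ℤ} (h : m ≠ m') : Disjoint (dInt k m) (dInt k m') := by
  exact disjoint_left.2 fun x hx hx' => h ((mem_dInt.1 hx).symm.trans (mem_dInt.1 hx'))

theorem haar_of_left {k m : ℤ} {x : ℝ} (h : dI k x = 2 * m) : haar (k + 1) x = 1 := by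
  rw [haar, add_sub_cancel_right, h, if_pos (even_two_mul m)]

theorem haar_of_right {k m : ℤ} {x : ℝ} (h : dI k x = 2 * m + 1) : haar (k + 1) x = -1 := by
  rw [haar, add_sub_cancel_right, h, if_neg (Int.not_even_iff_odd.2 (odd_two_mul_add_one m))]

theorem Geo.sz_pos (Γ : Geo) (c : ℕ) : 0 < Γ.sz c := by
  unfold Geo.sz
  positivity

theorem Geo.sz_succ (Γ : Geo) (c : ℕ) : Γ.sz c = 2 * Γ.sz (c + 1) := by
  unfold Geo.sz
  rw [pow_succ]
  field_simp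

theorem Geo.idx_eq_iff (Γ : Geo) (ν : ℕ × ℤ) (s : ℝ) :
    Γ.idx ν.1 s = ν.2 ↔ Γ.lft ν ≤ s ∧ s < Γ.lft ν + Γ.sz ν.1 := by
  have h := Γ.sz_pos ν.1
  rw [Geo.idx, Int.floor_eq_iff, le_div_iff₀ h, div_lt_iff₀ h, Geo.lft]
  constructor <;> rintro ⟨h1, h2⟩ <;> constructor <;> linarith

theorem Geo.idx_add (Γ : Geo) (c i : ℕ) (s : ℝ) : Γ.idx c s = Γ.idx (c + i) s / 2 ^ i := by
  unfold Geo.idx
  rw [← Int.floor_div_cast_of_nonneg (by positivity), div_div]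
  congr 2
  unfold Geo.sz
  push_cast
  rw [pow_add]
  field_simp

theorem Geo.idx_eq_of_le (Γ : Geo) {c c' : ℕ} (h : c ≤ c') {s s' : ℝ}
    (e : Γ.idx c' s = Γ.idx c' s') : Γ.idx c s = Γ.idx c s' := by
  obtain ⟨i, rfl⟩ := Nat.exists_eq_add_of_le h
  rw [Γ.idx_add c i, Γ.idx_add c i s', e]

theorem Geo.measurable_idx (Γ : Geo) (c : ℕ) : Measurable (Γ.idx c) := by
  exact Int.measurable_floor.comp ((measurable_id.sub_const _).div_const _)

theorem nsub_refl (ν : ℕ × ℤ) : nsub ν ν := by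
  exact ⟨le_rfl, by simp⟩

theorem nsub_trans {ν1 ν2 ν3 : ℕ × ℤ} (h : nsub ν1 ν2) (h' : nsub ν2 ν3) : nsub ν1 ν3 := by
  refine ⟨h'.1.trans h.1, ?_⟩
  have e : ν1.1 - ν3.1 = (ν1.1 - ν2.1) + (ν2.1 - ν3.1) := by
    have := h.1
    have := h'.1
    omega
  rw [e, pow_add, ← Int.ediv_ediv_of_nonneg (by positivity), h.2, h'.2]

theorem Geo.idx_lft (Γ : Geo) (ν : ℕ × ℤ) : Γ.idx ν.1 (Γ.lft ν) = ν.2 :=
  (Γ.idx_eq_iff ν _).2 ⟨le_rfl, lt_add_of_pos_right _ (Γ.sz_pos _)⟩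

theorem Geo.idx_sub (Γ : Geo) {c c' : ℕ} (h : c ≤ c') (s : ℝ) :
    Γ.idx c s = Γ.idx c' s / 2 ^ (c' - c) := by
  rw [Γ.idx_add c (c' - c), Nat.add_sub_cancel' h]

theorem Geo.nsub_iff_of_idx (Γ : Geo) {ν' ν : ℕ × ℤ} {s : ℝ} (hs : Γ.idx ν'.1 s = ν'.2) :
    nsub ν' ν ↔ ν.1 ≤ ν'.1 ∧ Γ.idx ν.1 s = ν.2 :=
  and_congr_right fun h => by rw [Γ.idx_sub h, hs]

/-- `nsub` is inclusion of intervals -/
theorem Geo.nsub_iff (Γ : Geo) (ν' ν : ℕ × ℤ) :
    nsub ν' ν ↔ ν.1 ≤ ν'.1 ∧ Γ.lft ν ≤ Γ.lft ν' ∧ Γ.lft ν' + Γ.sz ν'.1 ≤ Γ.lft ν + Γ.sz ν.1 := by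
  constructor
  · intro h
    obtain ⟨h1, h2⟩ := (Γ.idx_eq_iff ν _).1 ((Γ.nsub_iff_of_idx (Γ.idx_lft ν')).1 h).2
    refine ⟨h.1, h1, not_lt.1 fun h3 => ?_⟩
    exact lt_irrefl _ ((Γ.idx_eq_iff ν _).1
      ((Γ.nsub_iff_of_idx ((Γ.idx_eq_iff ν' _).2 ⟨h2.le, h3⟩)).1 h).2).2
  · rintro ⟨h1, h2, h3⟩
    exact (Γ.nsub_iff_of_idx (Γ.idx_lft ν')).2 ⟨h1, (Γ.idx_eq_iff ν _).2
      ⟨h2, (lt_add_of_pos_right _ (Γ.sz_pos _)).trans_le h3⟩⟩

theorem Geo.nsub_iff_idx (Γ : Geo) (ν' ν : ℕ × ℤ) :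
    nsub ν' ν ↔ ν.1 ≤ ν'.1 ∧ Γ.idx ν.1 (Γ.lft ν') = ν.2 := by
  exact Γ.nsub_iff_of_idx (Γ.idx_lft ν')

theorem Geo.idx_of_nsub (Γ : Geo) {ν' ν : ℕ × ℤ} (h : nsub ν' ν) {s : ℝ}
    (hs : Γ.idx ν'.1 s = ν'.2) : Γ.idx ν.1 s = ν.2 := by
  exact ((Γ.nsub_iff_of_idx hs).1 h).2

/-- two nodes containing a common slope are nested -/
theorem Geo.nsub_of_idx (Γ : Geo) {ν' ν : ℕ × ℤ} (h : ν.1 ≤ ν'.1) {s : ℝ}
    (hs' : Γ.idx ν'.1 s = ν'.2) (hs : Γ.idx ν.1 s = ν.2) : nsub ν' ν := by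
  exact (Γ.nsub_iff_of_idx hs').2 ⟨h, hs⟩

/-- incomparable nodes are disjoint intervals -/
theorem Geo.disj_of_not_nsub (Γ : Geo) {ν0 ν1 : ℕ × ℤ} (h0 : ¬ nsub ν0 ν1) (h1 : ¬ nsub ν1 ν0) :
    Γ.lft ν0 + Γ.sz ν0.1 ≤ Γ.lft ν1 ∨ Γ.lft ν1 + Γ.sz ν1.1 ≤ Γ.lft ν0 := by
  by_contra hc
  rw [not_or, not_le, not_le] at hc
  have e0 : Γ.idx ν0.1 (max (Γ.lft ν0) (Γ.lft ν1)) = ν0.2 :=
    (Γ.idx_eq_iff ν0 _).2 ⟨le_max_left _ _, max_lt (lt_add_of_pos_right _ (Γ.sz_pos _)) hc.1⟩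
  have e1 : Γ.idx ν1.1 (max (Γ.lft ν0) (Γ.lft ν1)) = ν1.2 :=
    (Γ.idx_eq_iff ν1 _).2 ⟨le_max_right _ _, max_lt hc.2 (lt_add_of_pos_right _ (Γ.sz_pos _))⟩
  rcases le_total ν0.1 ν1.1 with h | h
  · exact h1 (Γ.nsub_of_idx h e1 e0)
  · exact h0 (Γ.nsub_of_idx h e0 e1)

theorem Geo.mem_mono (Γ : Geo) {P : Tile} {ν' ν : ℕ × ℤ} (h : nsub ν' ν) (hP : Γ.mem P ν') :
    Γ.mem P ν := by
  exact ⟨h.1.trans hP.1, Γ.idx_of_nsub h hP.2⟩

theorem Perf.mono_node {Γ : Geo} {U : Finset Tile} {γ : ℝ} {z : P2} {d : ℕ} {ν' ν : ℕ × ℤ}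
    (h : Perf Γ U γ z d ν') (hs : nsub ν' ν) : Perf Γ U γ z d ν := by
  cases d with
  | zero =>
    obtain ⟨P, hP, h1, h2⟩ := h
    exact ⟨P, hP, Γ.mem_mono hs h1, h2⟩
  | succ d =>
    obtain ⟨ν0, ν1, h0, h1, h2⟩ := h
    exact ⟨ν0, ν1, nsub_trans h0 hs, nsub_trans h1 hs, h2⟩

/-- transfer of a perfect tree to another point and grade -/
theorem Perf.transfer {Γ : Geo} {U : Finset Tile} {γ γ' : ℝ} {z z' : P2} {d : ℕ} {ν : ℕ × ℤ}
    (h : Perf Γ U γ z d ν) (hv : ∀ P ∈ U, Γ.mem P ν → Γ.vis γ P z → Γ.vis γ' P z') :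
    Perf Γ U γ' z' d ν := by
  induction d generalizing ν with
  | zero =>
    obtain ⟨P, hP, h1, h2⟩ := h
    exact ⟨P, hP, h1, hv P hP h1 h2⟩
  | succ d ih =>
    obtain ⟨ν0, ν1, h0, h1, h2, h3, h4, h5⟩ := h
    exact ⟨ν0, ν1, h0, h1, h2, h3, ih h4 fun P hP hm => hv P hP (Γ.mem_mono h0 hm),
      ih h5 fun P hP hm => hv P hP (Γ.mem_mono h1 hm)⟩

theorem Perf.exists_mem {Γ : Geo} {U : Finset Tile} {γ : ℝ} {z : P2} {d : ℕ} {ν : ℕ × ℤ}
    (h : Perf Γ U γ z d ν) : ∃ P ∈ U, Γ.mem P ν ∧ Γ.vis γ P z := by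
  induction d generalizing ν with
  | zero => exact h
  | succ d ih =>
    obtain ⟨ν0, ν1, h0, -, -, -, h4, -⟩ := h
    obtain ⟨P, hP, h1, h2⟩ := ih h4
    exact ⟨P, hP, Γ.mem_mono h0 h1, h2⟩

theorem Tile.continuous_line (P : Tile) : Continuous P.line := by
  unfold Tile.line
  fun_prop

theorem Tile.measurableSet_strip (P : Tile) (ρ : ℝ) :
    MeasurableSet {z : P2 | |z.2 - P.line z.1| ≤ ρ} :=
  (isClosed_le (continuous_snd.sub (P.continuous_line.comp continuous_fst)).abs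
    continuous_const).measurableSet

theorem measurableSet_dI_fst (k m : ℤ) : MeasurableSet {z : P2 | dI k z.1 = m} :=
  ((measurable_dI k).comp measurable_fst) (measurableSet_singleton m)

theorem Geo.measurableSet_vis (Γ : Geo) (γ : ℝ) (P : Tile) : MeasurableSet {z | Γ.vis γ P z} := by
  exact (measurableSet_le measurable_const measurable_fst).inter
    ((measurableSet_le measurable_fst measurable_const).inter (P.measurableSet_strip _))

theorem measurableSet_Perf (Γ : Geo) (U : Finset Tile) (γ : ℝ) (d : ℕ) (ν : ℕ × ℤ) :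
    MeasurableSet {z | Perf Γ U γ z d ν} := by
  induction d generalizing ν with
  | zero =>
    have : {z | Perf Γ U γ z 0 ν} = ⋃ P ∈ U, ⋃ _ : Γ.mem P ν, {z | Γ.vis γ P z} := by
      ext z
      simp only [Perf, mem_ofPred_eq, mem_iUnion, exists_prop]
    rw [this]
    exact U.measurableSet_biUnion fun P _ => MeasurableSet.iUnion fun _ => Γ.measurableSet_vis γ P
  | succ d ih =>
    have : {z | Perf Γ U γ z (d + 1) ν} = ⋃ ν0 : ℕ × ℤ, ⋃ ν1 : ℕ × ℤ, ⋃ _ : nsub ν0 ν, ⋃ _ : nsub ν1 ν,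
        ⋃ _ : ¬ nsub ν0 ν1, ⋃ _ : ¬ nsub ν1 ν0,
          ({z | Perf Γ U γ z d ν0} ∩ {z | Perf Γ U γ z d ν1}) := by
      ext z
      simp only [Perf, mem_ofPred_eq, mem_iUnion, mem_inter_iff, exists_prop]
    rw [this]
    exact MeasurableSet.iUnion fun ν0 => MeasurableSet.iUnion fun ν1 => MeasurableSet.iUnion fun _ =>
      MeasurableSet.iUnion fun _ => MeasurableSet.iUnion fun _ => MeasurableSet.iUnion fun _ =>
        (ih ν0).inter (ih ν1)

theorem Tile.measurableSet_tube (P : Tile) (ρ : ℝ) : MeasurableSet (P.tube ρ) := by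
  exact (measurableSet_dI_fst _ _).inter (P.measurableSet_strip ρ)

theorem Tile.volume_tube (P : Tile) {ρ : ℝ} (h : 0 ≤ ρ) :
    volume (P.tube ρ) = ENNReal.ofReal (2 * ρ * P.len) := by
  rw [Measure.volume_eq_prod, Measure.prod_apply (P.measurableSet_tube ρ)]
  have e : ∀ x : ℝ, volume (Prod.mk x ⁻¹' P.tube ρ) =
      (dInt P.k P.m).indicator (fun _ => ENNReal.ofReal (2 * ρ)) x := by
    intro x
    by_cases hx : x ∈ dInt P.k P.m
    · have : Prod.mk x ⁻¹' P.tube ρ = Icc (P.line x - ρ) (P.line x + ρ) := by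
        ext y
        simp only [Tile.tube, mem_preimage, mem_ofPred_eq, mem_dInt.1 hx, true_and, mem_Icc, abs_le]
        constructor <;> rintro ⟨h1, h2⟩ <;> constructor <;> linarith
      rw [this, indicator_of_mem hx, Real.volume_Icc]
      congr 1
      ring
    · have : Prod.mk x ⁻¹' P.tube ρ = ∅ :=
        eq_empty_of_forall_notMem fun y hy => hx (mem_dInt.2 hy.1)
      rw [this, indicator_of_notMem hx, measure_empty]
  simp only [e]
  rw [lintegral_indicator_const (measurableSet_dInt _ _), volume_dInt,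
    ← ENNReal.ofReal_mul (by positivity), zpow_natCast, Tile.len]

theorem Tile.measurableSet_near {u : P2 → ℝ} (hu : Measurable u) (ρ : ℝ) (k : ℕ) (P : Tile) :
    MeasurableSet {z | Tile.near u ρ z k P} := by
  exact (MeasurableSet.const _).inter ((measurableSet_dI_fst _ _).inter
    ((measurableSet_le (measurable_const.mul (hu.sub_const _).abs) measurable_const).inter
      (P.measurableSet_strip ρ)))

theorem Tile.near_down {u : P2 → ℝ} {ρ : ℝ} {z : P2} {k k' : ℕ} {P : Tile}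
    (h : Tile.near u ρ z k P) (hk : k' ≤ k) : Tile.near u ρ z k' P := by
  refine ⟨hk.trans h.1, h.2.1, le_trans ?_ h.2.2.1, h.2.2.2⟩
  exact mul_le_mul_of_nonneg_right (pow_le_pow_right₀ one_le_two hk) (abs_nonneg _)

theorem Tile.measurableSet_pop {u : P2 → ℝ} (hu : Measurable u) {G : Set P2} (hG : MeasurableSet G)
    (P : Tile) : MeasurableSet (P.pop u G) := by
  exact hG.inter ((measurableSet_dI_fst _ _).inter
    (((Int.measurable_floor.comp (hu.mul_const _)) (measurableSet_singleton P.σ)).inter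
      ((Int.measurable_floor.comp (measurable_snd.sub
        (measurable_const.mul (measurable_fst.sub_const _)))) (measurableSet_singleton P.β))))

/-- greedy selection of tops -/
theorem exists_tops {X : Type*} (D : Finset X) (lev : X → ℕ) (rel : X → X → Prop) :
    ∃ Top : Finset X, Top ⊆ D ∧ (∀ b ∈ D, b ∈ Top ∨ ∃ b' ∈ Top, lev b < lev b' ∧ rel b b') ∧
      ∀ b ∈ Top, ∀ b' ∈ Top, lev b < lev b' → ¬ rel b b' := by
  classical
  induction D using Finset.induction_on_min_value lev with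
  | empty => exact ⟨∅, subset_rfl, by simp, by simp⟩
  | insert a D _ hmin ih =>
    obtain ⟨Top, h1, h2, h3⟩ := ih
    by_cases h : ∃ b' ∈ Top, lev a < lev b' ∧ rel a b'
    · refine ⟨Top, h1.trans (Finset.subset_insert _ _), fun b hb => ?_, h3⟩
      rcases Finset.mem_insert.1 hb with rfl | hb
      · exact Or.inr h
      · exact h2 b hb
    · refine ⟨insert a Top, Finset.insert_subset_insert _ h1, fun b hb => ?_, fun b hb b' hb' hl => ?_⟩
      · rcases Finset.mem_insert.1 hb with rfl | hb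
        · exact Or.inl (Finset.mem_insert_self _ _)
        · rcases h2 b hb with h' | ⟨b', hb', h'⟩
          · exact Or.inl (Finset.mem_insert_of_mem h')
          · exact Or.inr ⟨b', Finset.mem_insert_of_mem hb', h'⟩
      · rcases Finset.mem_insert.1 hb' with rfl | hb2
        · rcases Finset.mem_insert.1 hb with rfl | hb
          · exact absurd hl (lt_irrefl _)
          · exact absurd hl (not_lt.2 (hmin b (h1 hb)))
        · rcases Finset.mem_insert.1 hb with rfl | hb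
          · exact fun hr => h ⟨b', hb2, hl, hr⟩
          · exact h3 b hb b' hb2 hl

/-- assignment of the terms of a family to finitely many downward closed conditions -/
theorem exists_assign {G : Set P2} {T : ℕ → Set P2} (hT : Fam G T) (U : Finset Tile)
    (N : Tile → ℕ → Set P2) (hm : ∀ P k, MeasurableSet (N P k))
    (hd : ∀ P k k' z, k' ≤ k → z ∈ N P k → z ∈ N P k') (hc : ∀ k z, z ∈ T k → ∃ P ∈ U, z ∈ N P k) :
    ∃ S : Tile → ℕ → Set P2, (∀ P, Fam G (S P)) ∧ (∀ P Q k, P ≠ Q → Disjoint (S P k) (S Q k)) ∧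
      (∀ k, T k = ⋃ P ∈ U, S P k) ∧ (∀ P k, S P k ⊆ N P k) ∧ (∀ P k, P ∉ U → S P k = ∅) := by
  classical
  let e : Tile → ℕ := fun P => U.toList.idxOf P
  have he : ∀ P ∈ U, ∀ Q ∈ U, e P = e Q → P = Q := fun P hP Q hQ h =>
    (List.idxOf_inj (Finset.mem_toList.2 hP)).1 h
  refine ⟨fun P k => {z | P ∈ U ∧ z ∈ T k ∧ z ∈ N P k ∧ ∀ Q ∈ U, e Q < e P → z ∉ N Q k},
    fun P => ⟨fun k => ?_, fun k z hz => hT.sub k hz.2.1, fun z k1 k2 k3 h12 h23 h1 h3 => ?_⟩,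
    fun P Q k hPQ => disjoint_left.2 fun z hP hQ => ?_, fun k => ?_, fun P k z hz => hz.2.2.1,
    fun P k hP => eq_empty_of_forall_notMem fun z hz => hP hz.1⟩
  · refine (MeasurableSet.const _).inter ((hT.meas k).inter ((hm P k).inter ?_))
    have : {z | ∀ Q ∈ U, e Q < e P → z ∉ N Q k} = ⋂ Q ∈ U, ⋂ _ : e Q < e P, (N Q k)ᶜ := by
      ext z
      simp
    show MeasurableSet {z | ∀ Q ∈ U, e Q < e P → z ∉ N Q k}
    rw [this]
    exact U.measurableSet_biInter fun Q _ => MeasurableSet.iInter fun _ => (hm Q k).compl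
  · exact ⟨h1.1, hT.conv z k1 k2 k3 h12 h23 h1.2.1 h3.2.1, hd P k3 k2 z h23 h3.2.2.1,
      fun Q hQ hlt h => h1.2.2.2 Q hQ hlt (hd Q k2 k1 z h12 h)⟩
  · rcases lt_trichotomy (e P) (e Q) with h | h | h
    · exact hQ.2.2.2 P hP.1 h hP.2.2.1
    · exact hPQ (he P hP.1 Q hQ.1 h)
    · exact hP.2.2.2 Q hQ.1 h hQ.2.2.1
  · ext z
    simp only [mem_iUnion, mem_ofPred_eq, exists_prop]
    refine ⟨fun hz => ?_, fun ⟨P, _, h⟩ => h.2.1⟩
    obtain ⟨P, hP, hz'⟩ := hc k z hz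
    obtain ⟨Q, hQ, hmin⟩ := (U.filter fun Q => z ∈ N Q k).exists_min_image e
      ⟨P, Finset.mem_filter.2 ⟨hP, hz'⟩⟩
    rw [Finset.mem_filter] at hQ
    exact ⟨Q, hQ.1, hQ.1, hz, hQ.2, fun Q' hQ' hlt h =>
      absurd hlt (not_lt.2 (hmin Q' (Finset.mem_filter.2 ⟨hQ', h⟩)))⟩

theorem Fam.inter_down {G : Set P2} {T : ℕ → Set P2} (hT : Fam G T) {N : ℕ → Set P2}
    (hm : ∀ k, MeasurableSet (N k)) (hd : ∀ k k' z, k' ≤ k → z ∈ N k → z ∈ N k') :
    Fam G (fun k => T k ∩ N k) := by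
  exact ⟨fun k => (hT.meas k).inter (hm k), fun k z hz => hT.sub k hz.1,
    fun z k1 k2 k3 h12 h23 h1 h3 => ⟨hT.conv z k1 k2 k3 h12 h23 h1.1 h3.1, hd k3 k2 z h23 h3.2⟩⟩

theorem Fam.diff_down {G : Set P2} {T : ℕ → Set P2} (hT : Fam G T) {N : ℕ → Set P2}
    (hm : ∀ k, MeasurableSet (N k)) (hd : ∀ k k' z, k' ≤ k → z ∈ N k → z ∈ N k') :
    Fam G (fun k => T k \ N k) := by
  exact ⟨fun k => (hT.meas k).diff (hm k), fun k z hz => hT.sub k hz.1,
    fun z k1 k2 k3 h12 h23 h1 h3 => ⟨hT.conv z k1 k2 k3 h12 h23 h1.1 h3.1,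
      fun h => h1.2 (hd k2 k1 z h12 h)⟩⟩

theorem measurePreserving_shear' (s : ℝ) :
    MeasurePreserving (fun z : P2 => ((z.1, z.2 + s * z.1) : P2)) volume volume :=
  (MeasurePreserving.id (volume : Measure ℝ)).skew_product (g := fun x y : ℝ => y + s * x)
    (measurable_snd.add (measurable_const.mul measurable_fst))
    (ae_of_all _ fun x => map_add_right_eq_self volume (s * x))

/-- integration along the lines of slope `s` -/
theorem lintegral_shear (s : ℝ) {F : P2 → ℝ≥0∞} (hF : Measurable F) :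
    ∫⁻ z, F z = ∫⁻ β : ℝ, ∫⁻ x : ℝ, F (x, β + s * x) := by
  rw [← (measurePreserving_shear' s).lintegral_comp hF, Measure.volume_eq_prod]
  exact lintegral_prod_symm' _ (hF.comp (measurePreserving_shear' s).measurable)

theorem measurePreserving_shear (s : ℝ) :
    MeasurePreserving (fun z : P2 => ((z.1, z.2 + s * z.1) : P2)) volume volume := by
  exact measurePreserving_shear' s

end Crest.Agent.R87
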