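import Crest.Agent.R87.Api1

/-! # R87 API 2: the kernel and the operators `Phi1`, `PhiR`, `PhiMax`. -/

set_option autoImplicit false

namespace Crest.Agent.R87

open MeasureTheory Set
open scoped ENNReal

theorem api2_deriv_zero {f : ℝ → ℝ} (hf : Differentiable ℝ f) {r : ℝ} (h : ∀ y, r ≤ |y| → f y = 0)
    (y : ℝ) (hy : r ≤ |y|) : deriv f y = 0 := by
  rcases le_total 0 y with h0 | h0
  · refine (uniqueDiffWithinAt_Ici y).eq_deriv _ (hf y).hasDerivAt.hasDerivWithinAt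
      ((hasDerivWithinAt_const y _ (0 : ℝ)).congr (fun x hx => h x ?_) (h y hy))
    rw [abs_of_nonneg h0] at hy
    exact hy.trans (le_trans hx (le_abs_self x))
  · refine (uniqueDiffWithinAt_Iic y).eq_deriv _ (hf y).hasDerivAt.hasDerivWithinAt
      ((hasDerivWithinAt_const y _ (0 : ℝ)).congr (fun x hx => h x ?_) (h y hy))
    rw [abs_of_nonpos h0] at hy
    exact hy.trans (le_trans (neg_le_neg hx) (neg_le_abs x))

theorem api2_iter {f : ℝ → ℝ} (hf : ContDiff ℝ (⊤ : ℕ∞) f) {r : ℝ} (h : ∀ y, r ≤ |y| → f y = 0)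
    (m : ℕ) : ContDiff ℝ (⊤ : ℕ∞) (iteratedDeriv m f) ∧ ∀ y, r ≤ |y| → iteratedDeriv m f y = 0 := by
  induction m with
  | zero => simpa using ⟨hf, h⟩
  | succ m ih =>
    rw [iteratedDeriv_succ]
    have h1 := contDiff_infty_iff_deriv.1 ih.1
    exact ⟨h1.2, api2_deriv_zero h1.1 ih.2⟩

theorem api2_bdd {f : ℝ → ℝ} (hf : ContDiff ℝ (⊤ : ℕ∞) f) {r : ℝ} (h : ∀ y, r ≤ |y| → f y = 0)
    (M : ℕ) : ∃ A : ℝ, 1 ≤ A ∧ ∀ i, i ≤ M → ∀ y, |iteratedDeriv i f y| ≤ A := by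
  have h1 : ∀ i, ∃ A : ℝ, 0 ≤ A ∧ ∀ y, |iteratedDeriv i f y| ≤ A := fun i => by
    obtain ⟨h2, h3⟩ := api2_iter hf h i
    obtain ⟨A, hA⟩ := (isCompact_Icc (a := -r) (b := r)).exists_bound_of_continuousOn
      h2.continuous.continuousOn
    refine ⟨|A|, abs_nonneg A, fun y => ?_⟩
    rcases le_total r |y| with h4 | h4
    · rw [h3 y h4, abs_zero]; exact abs_nonneg A
    · exact (hA y (abs_le.1 h4)).trans (le_abs_self A)
  choose A hA0 hA using h1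
  have h2 := Finset.sum_nonneg fun i (_ : i ∈ Finset.range (M + 1)) => hA0 i
  refine ⟨1 + ∑ i ∈ Finset.range (M + 1), A i, by linarith, fun i hi y => ?_⟩
  have h3 := Finset.single_le_sum (fun i (_ : i ∈ Finset.range (M + 1)) => hA0 i)
    (Finset.mem_range.2 (Nat.lt_succ_of_le hi))
  linarith [hA i y]

theorem api2_lip {f : ℝ → ℝ} (hf : ContDiff ℝ (⊤ : ℕ∞) f) {r : ℝ} (h : ∀ y, r ≤ |y| → f y = 0) :
    ∃ A : ℝ, 1 ≤ A ∧ (∀ y, |f y| ≤ A) ∧ ∀ y y', |f y - f y'| ≤ A * |y - y'| := by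
  obtain ⟨A, h1, hA⟩ := api2_bdd hf h 1
  refine ⟨A, h1, by simpa using hA 0 zero_le_one, fun y y' => ?_⟩
  have h2 := (contDiff_infty_iff_deriv.1 hf).1
  exact convex_univ.norm_image_sub_le_of_norm_deriv_le (fun x _ => h2 x)
    (fun x _ => by simpa using hA 1 le_rfl x) (mem_univ y') (mem_univ y)
theorem IsPsi.iter {Ψ : ℝ → ℝ} (h : IsPsi Ψ) (m : ℕ) : IsPsi (iteratedDeriv m Ψ) := by
  exact ⟨(api2_iter h.smooth h.supp m).1, (api2_iter h.smooth h.supp m).2⟩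

theorem IsPsi.exists_bound {Ψ : ℝ → ℝ} (h : IsPsi Ψ) (M : ℕ) :
    ∃ A : ℝ, 1 ≤ A ∧ ∀ i, i ≤ M → ∀ y, |iteratedDeriv i Ψ y| ≤ A := by
  exact api2_bdd h.smooth h.supp M

theorem IsB.exists_bound {b : ℝ → ℝ} (h : IsB b) (M : ℕ) :
    ∃ A : ℝ, 1 ≤ A ∧ ∀ i, i ≤ M → ∀ y, |iteratedDeriv i b y| ≤ A := by
  exact api2_bdd h.smooth h.supp M

theorem IsPsi.exists_lip {Ψ : ℝ → ℝ} (h : IsPsi Ψ) :
    ∃ A : ℝ, 1 ≤ A ∧ (∀ y, |Ψ y| ≤ A) ∧ ∀ y y', |Ψ y - Ψ y'| ≤ A * |y - y'| := by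
  exact api2_lip h.smooth h.supp

theorem IsB.exists_lip {b : ℝ → ℝ} (h : IsB b) :
    ∃ A : ℝ, 1 ≤ A ∧ (∀ y, |b y| ≤ A) ∧ ∀ y y', |b y - b y'| ≤ A * |y - y'| := by
  exact api2_lip h.smooth h.supp

/-- BILIP: `y ↦ y - t u(x,y)` expands distances by `99/100`, so the sublevel set has diameter `≤ 2.03 h`. -/
theorem Field.bilip {u : P2 → ℝ} {kmax : ℕ} (hu : Field u kmax) (x c t h : ℝ)
    (ht : |t| ≤ 2 ^ kmax) : volume {y : ℝ | |c - y + t * u (x, y)| ≤ h} ≤ ENNReal.ofReal (3 * h) := by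
  refine (Real.volume_le_diam _).trans (Metric.ediam_le fun y hy y' hy' => ?_)
  rw [edist_dist, Real.dist_eq]
  refine ENNReal.ofReal_le_ofReal ?_
  have h1 : |t * (u (x, y) - u (x, y'))| ≤ |y - y'| / 100 := by
    rw [abs_mul]
    calc _ ≤ 2 ^ kmax * (|y - y'| / (100 * 2 ^ kmax)) :=
          mul_le_mul ht (hu.lip x y y') (abs_nonneg _) (by positivity)
      _ = _ := by field_simp
  have h2 : y - y' = (c - y' + t * u (x, y')) - (c - y + t * u (x, y)) + t * (u (x, y) - u (x, y')) := by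
    ring
  have h3 : |y - y'| ≤ h + h + |y - y'| / 100 := by
    conv_lhs => rw [h2]
    exact (abs_add_le _ _).trans (add_le_add ((abs_sub _ _).trans (add_le_add hy' hy)) h1)
  have h4 := abs_nonneg (y - y')
  linarith

/-- two-dimensional form: over one dyadic interval of scale `k ≤ kmax`. -/
theorem Field.bilip2 {u : P2 → ℝ} {kmax : ℕ} (hu : Field u kmax) {k : ℕ} (hk : k ≤ kmax) (x' c h : ℝ) :
    volume {z : P2 | dI k z.1 = dI k x' ∧ |c - z.2 + (z.1 - x') * u z| ≤ h}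
      ≤ ENNReal.ofReal (3 * h * 2 ^ k) := by
  have hm : MeasurableSet {z : P2 | dI k z.1 = dI k x' ∧ |c - z.2 + (z.1 - x') * u z| ≤ h} := by
    have h1 := hu.meas
    have h2 : Measurable fun z : P2 => |c - z.2 + (z.1 - x') * u z| := by fun_prop
    exact (((measurable_dI k).comp measurable_fst) (measurableSet_singleton (dI k x'))).inter
      (measurableSet_le h2 measurable_const)
  rw [Measure.volume_eq_prod, Measure.prod_apply hm, ENNReal.ofReal_mul' (by positivity),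
    ← zpow_natCast, ← volume_dInt k (dI k x'), ← lintegral_indicator_const (measurableSet_dInt _ _)]
  refine lintegral_mono fun x => ?_
  by_cases hx : dI k x = dI k x'
  · rw [indicator_of_mem (mem_dInt.2 hx)]
    refine le_trans (measure_mono fun y hy => hy.2) (hu.bilip x c (x - x') h ?_)
    have h1 := abs_sub_lt_of_dI_eq hx
    rw [zpow_natCast] at h1
    exact h1.le.trans (pow_le_pow_right₀ one_le_two hk)
  · rw [show Prod.mk x ⁻¹' {z : P2 | dI k z.1 = dI k x' ∧ |c - z.2 + (z.1 - x') * u z| ≤ h} = ∅ from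
      eq_empty_of_forall_notMem fun y hy => hx hy.1, measure_empty]
    exact zero_le

theorem b_arg_ne_zero {b : ℝ → ℝ} (hb : IsB b) {k : ℕ} {x x' : ℝ}
    (h : b ((x' - cen k x) / 2 ^ k) ≠ 0) : dI k x' = dI k x := by
  have h1 : |(x' - cen k x) / 2 ^ k| < 1 / 2 := lt_of_not_ge fun h1 => h (hb.supp _ h1)
  have h2 : (0 : ℝ) < 2 ^ k := by positivity
  rw [abs_lt, lt_div_iff₀ h2, div_lt_iff₀ h2, cen, zpow_natCast] at h1
  refine mem_dInt.1 ⟨?_, ?_⟩ <;> rw [zpow_natCast] <;> linarith [h1.1, h1.2]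

theorem ker_ne_zero {b ψ : ℝ → ℝ} (hb : IsB b) (hψ : IsPsi ψ) {u : P2 → ℝ} {k : ℕ} {z z' : P2}
    (h : ker b ψ u k z z' ≠ 0) :
    dI k z'.1 = dI k z.1 ∧ |z'.2 - z.2 + (z.1 - z'.1) * u z| ≤ 1 := by
  unfold ker at h
  exact ⟨b_arg_ne_zero hb (right_ne_zero_of_mul (left_ne_zero_of_mul h)),
    (lt_of_not_ge fun h1 => right_ne_zero_of_mul h (hψ.supp _ h1)).le⟩

theorem measurable_ker {b ψ : ℝ → ℝ} (hb : IsB b) (hψ : IsPsi ψ) {u : P2 → ℝ} (hu : Measurable u)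
    (k : ℕ) : Measurable (fun p : P2 × P2 => ker b ψ u k p.1 p.2) := by
  have h1 := hb.smooth.continuous.measurable
  have h2 := hψ.smooth.continuous.measurable
  have h3 := measurable_haar k
  have h4 := measurable_cen k
  unfold ker
  fun_prop

theorem api2_ker_le {b ψ : ℝ → ℝ} {A B : ℝ} (hA : ∀ y, |b y| ≤ A) (hB : ∀ y, |ψ y| ≤ B) (u : P2 → ℝ)
    (k : ℕ) (z z' : P2) : |ker b ψ u k z z'| ≤ A * B / 2 ^ k := by
  have h1 := (abs_nonneg _).trans (hA 0)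
  rw [ker, abs_mul, abs_mul, abs_mul, abs_haar, abs_of_pos (by positivity)]
  calc _ ≤ ((2 : ℝ) ^ k)⁻¹ * 1 * A * B :=
        mul_le_mul (mul_le_mul_of_nonneg_left (hA _) (by positivity)) (hB _) (abs_nonneg _)
          (by positivity)
    _ = _ := by ring

theorem api2_coef_le {g : P2 → ℝ} (hg : Coef g) (z : P2) (a : ℝ) : |g z * a| ≤ |a| := by
  rw [abs_mul]
  exact mul_le_of_le_one_left (abs_nonneg _) (hg.bdd z)
theorem integrableOn_ker {b ψ : ℝ → ℝ} (hb : IsB b) (hψ : IsPsi ψ) {u : P2 → ℝ} (hu : Measurable u)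
    (k : ℕ) {A : Set P2} (hA : Bornology.IsBounded A) {g : P2 → ℝ} (hg : Coef g) (z' : P2) :
    IntegrableOn (fun z => g z * ker b ψ u k z z') A := by
  obtain ⟨A1, -, h1, -⟩ := hb.exists_lip
  obtain ⟨A2, -, h2, -⟩ := hψ.exists_lip
  have h3 : Measurable fun z => ker b ψ u k z z' :=
    (measurable_ker hb hψ hu k).comp (measurable_id.prodMk measurable_const)
  exact Measure.integrableOn_of_bounded hA.measure_lt_top.ne (hg.meas.mul h3).aestronglyMeasurable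
    (M := A1 * A2 / 2 ^ k) (Filter.Eventually.of_forall fun z =>
      (api2_coef_le hg z _).trans (api2_ker_le h1 h2 u k z z'))

theorem measurable_Phi1 {b ψ : ℝ → ℝ} (hb : IsB b) (hψ : IsPsi ψ) {u : P2 → ℝ} (hu : Measurable u)
    (k : ℕ) (A : Set P2) {g : P2 → ℝ} (hg : Coef g) : Measurable (Phi1 b ψ u k A g) := by
  exact (((hg.meas.comp measurable_fst).mul
    (measurable_ker hb hψ hu k)).stronglyMeasurable.integral_prod_left' (μ := volume.restrict A)).measurable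

theorem measurable_PhiR {b ψ : ℝ → ℝ} (hb : IsB b) (hψ : IsPsi ψ) {u : P2 → ℝ} (hu : Measurable u)
    (c k1 : ℕ) (S : ℕ → Set P2) {g : P2 → ℝ} (hg : Coef g) : Measurable (PhiR b ψ u c k1 S g) := by
  exact Finset.measurable_sum _ fun k _ => measurable_Phi1 hb hψ hu k _ hg

theorem measurable_PhiMax {b ψ : ℝ → ℝ} (hb : IsB b) (hψ : IsPsi ψ) {u : P2 → ℝ} (hu : Measurable u)
    (k1 : ℕ) (S : ℕ → Set P2) {g : P2 → ℝ} (hg : Coef g) : Measurable (PhiMax b ψ u k1 S g) := by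
  exact Measurable.iSup fun c => (measurable_PhiR hb hψ hu c k1 S hg).abs

theorem PhiMax_nonneg (b ψ : ℝ → ℝ) (u : P2 → ℝ) (k1 : ℕ) (S : ℕ → Set P2) (g : P2 → ℝ) (z' : P2) :
    0 ≤ PhiMax b ψ u k1 S g z' := by
  exact Real.iSup_nonneg fun _ => abs_nonneg _

/-- for every `c` (for `c > k1` the sum is empty). -/
theorem abs_PhiR_le_PhiMax (b ψ : ℝ → ℝ) (u : P2 → ℝ) (c k1 : ℕ) (S : ℕ → Set P2) (g : P2 → ℝ)
    (z' : P2) : |PhiR b ψ u c k1 S g z'| ≤ PhiMax b ψ u k1 S g z' := by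
  rcases le_or_gt c k1 with h | h
  · exact le_ciSup (f := fun c : Fin (k1 + 1) => |PhiR b ψ u c k1 S g z'|)
      (Set.finite_range _).bddAbove ⟨c, Nat.lt_succ_of_le h⟩
  · rw [PhiR, Finset.Icc_eq_empty (not_le.2 h), Finset.sum_empty, abs_zero]
    exact PhiMax_nonneg ..

theorem PhiMax_le {b ψ : ℝ → ℝ} {u : P2 → ℝ} {k1 : ℕ} {S : ℕ → Set P2} {g : P2 → ℝ} {z' : P2} {L : ℝ}
    (h : ∀ c, c ≤ k1 → |PhiR b ψ u c k1 S g z'| ≤ L) : PhiMax b ψ u k1 S g z' ≤ L := by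
  exact ciSup_le fun c => h c (Nat.le_of_lt_succ c.2)

theorem Phi1_union {b ψ : ℝ → ℝ} (hb : IsB b) (hψ : IsPsi ψ) {u : P2 → ℝ} (hu : Measurable u)
    (k : ℕ) {A A' : Set P2} (hA : Bornology.IsBounded A) (hA' : Bornology.IsBounded A')
    (hm : MeasurableSet A') (hd : Disjoint A A') {g : P2 → ℝ} (hg : Coef g) (z' : P2) :
    Phi1 b ψ u k (A ∪ A') g z' = Phi1 b ψ u k A g z' + Phi1 b ψ u k A' g z' := by
  exact setIntegral_union hd hm (integrableOn_ker hb hψ hu k hA hg z')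
    (integrableOn_ker hb hψ hu k hA' hg z')

theorem Phi1_biUnion {ι : Type*} {b ψ : ℝ → ℝ} (hb : IsB b) (hψ : IsPsi ψ) {u : P2 → ℝ}
    (hu : Measurable u) (k : ℕ) (V : Finset ι) {A : ι → Set P2} {G : Set P2}
    (hG : Bornology.IsBounded G) (hA : ∀ i ∈ V, A i ⊆ G) (hm : ∀ i ∈ V, MeasurableSet (A i))
    (hd : ∀ i ∈ V, ∀ j ∈ V, i ≠ j → Disjoint (A i) (A j)) {g : P2 → ℝ} (hg : Coef g) (z' : P2) :
    Phi1 b ψ u k (⋃ i ∈ V, A i) g z' = ∑ i ∈ V, Phi1 b ψ u k (A i) g z' := by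
  exact integral_biUnion_finset V hm (fun i hi j hj hij => hd i hi j hj hij)
    fun i hi => integrableOn_ker hb hψ hu k (hG.subset (hA i hi)) hg z'

/-- the operator vanishes where no term can contribute -/
theorem Phi1_eq_zero {b ψ : ℝ → ℝ} (hb : IsB b) (hψ : IsPsi ψ) {u : P2 → ℝ} {k : ℕ} {A : Set P2}
    (hA : MeasurableSet A) {g : P2 → ℝ} {z' : P2}
    (h : ∀ z ∈ A, dI k z'.1 = dI k z.1 → 1 < |z'.2 - z.2 + (z.1 - z'.1) * u z|) :
    Phi1 b ψ u k A g z' = 0 := by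
  refine setIntegral_eq_zero_of_forall_eq_zero fun z hz => ?_
  by_contra h1
  obtain ⟨h2, h3⟩ := ker_ne_zero hb hψ (right_ne_zero_of_mul h1)
  exact absurd (h z hz h2) (not_lt.2 h3)

/-- support of a tree -/
theorem PhiR_eq_zero_of_not_tube {b ψ : ℝ → ℝ} (hb : IsB b) (hψ : IsPsi ψ) {u : P2 → ℝ} {c k1 : ℕ}
    {S : ℕ → Set P2} (hS : ∀ k, MeasurableSet (S k)) {ϑ : ℝ} {P : Tile}
    (hn : ∀ k z, z ∈ S k → Tile.near u ϑ z k P) {g : P2 → ℝ} {z' : P2}
    (h : z' ∉ P.tube (2 * ϑ + 1)) : PhiR b ψ u c k1 S g z' = 0 := by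
  refine Finset.sum_eq_zero fun k _ => Phi1_eq_zero hb hψ (hS k) fun z hz h1 => ?_
  obtain ⟨h2, h3, h4, h5⟩ := hn k z hz
  refine lt_of_not_ge fun h6 => h ⟨(dI_eq_of_le (by exact_mod_cast h2) h1).trans h3, ?_⟩
  have h7 := abs_sub_lt_of_dI_eq h1
  rw [zpow_natCast] at h7
  have h8 : |(z'.1 - z.1) * (u z - P.s)| ≤ ϑ := by
    rw [abs_mul]
    exact (mul_le_mul_of_nonneg_right h7.le (abs_nonneg _)).trans h4
  have h9 : z'.2 - P.line z'.1 = (z'.2 - z.2 + (z.1 - z'.1) * u z) + (z.2 - P.line z.1) +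
      (z'.1 - z.1) * (u z - P.s) := by
    unfold Tile.line; ring
  rw [h9]
  linarith [abs_add_three (z'.2 - z.2 + (z.1 - z'.1) * u z) (z.2 - P.line z.1)
    ((z'.1 - z.1) * (u z - P.s))]

theorem api2_int_le {f : P2 → ℝ} {A S : Set P2} (hA : MeasurableSet A) {M V : ℝ} (hM : 0 ≤ M)
    (hV : 0 ≤ V) (h1 : ∀ z ∈ A, |f z| ≤ M) (h2 : ∀ z ∈ A, f z ≠ 0 → z ∈ S)
    (hS : volume S ≤ ENNReal.ofReal V) : |∫ z in A, f z| ≤ M * V := by
  refine (norm_integral_le_lintegral_norm (μ := volume.restrict A) f).trans ?_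
  refine ENNReal.toReal_le_of_le_ofReal (by positivity) ?_
  calc ∫⁻ z in A, ENNReal.ofReal ‖f z‖ ≤ ∫⁻ z in A, S.indicator (fun _ => ENNReal.ofReal M) z := by
        refine setLIntegral_mono' hA fun z hz => ?_
        by_cases h : f z = 0
        · simp [h]
        · rw [indicator_of_mem (h2 z hz h)]
          exact ENNReal.ofReal_le_ofReal (h1 z hz)
    _ ≤ ENNReal.ofReal M * volume S :=
        (setLIntegral_le_lintegral _ _).trans (lintegral_indicator_const_le _ _)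
    _ ≤ _ := by rw [ENNReal.ofReal_mul hM]; gcongr
/-- single scale bound and Lipschitz bound along a direction `s` close to all slopes. -/
theorem exists_Phi1_bound {b ψ : ℝ → ℝ} (hb : IsB b) (hψ : IsPsi ψ) : ∃ C : ℝ, 1 ≤ C ∧
    ∀ (kmax : ℕ) (u : P2 → ℝ), Field u kmax → ∀ k, k ≤ kmax → ∀ A : Set P2, MeasurableSet A →
      Bornology.IsBounded A → ∀ g, Coef g →
        (∀ z', |Phi1 b ψ u k A g z'| ≤ C) ∧
        (∀ z', ∫ z in A, |ker b ψ u k z z'| ≤ C) ∧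
        ∀ (s ρ : ℝ), 1 ≤ ρ → (∀ z ∈ A, 2 ^ k * |u z - s| ≤ ρ) → ∀ (z' : P2) (t : ℝ),
          |Phi1 b ψ u k A g (z'.1 + t, z'.2 + s * t) - Phi1 b ψ u k A g z'| ≤ C * ρ * |t| / 2 ^ k := by
  obtain ⟨A1, h11, h1, l1⟩ := hb.exists_lip
  obtain ⟨A2, h21, h2, l2⟩ := hψ.exists_lip
  have h12 : 1 ≤ A1 * A2 := one_le_mul_of_one_le_of_one_le h11 h21
  refine ⟨12 * (A1 * A2), by linarith, fun kmax u hu k hk A hA hAb g hg => ?_⟩
  have hp : (0 : ℝ) < 2 ^ k := by positivity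
  have e1 : A1 * A2 / 2 ^ k * (3 * 1 * 2 ^ k) ≤ 12 * (A1 * A2) := by
    rw [show A1 * A2 / 2 ^ k * (3 * 1 * 2 ^ k) = 3 * (A1 * A2) by field_simp]
    linarith
  have hs : ∀ z z' : P2, ker b ψ u k z z' ≠ 0 →
      z ∈ {z : P2 | dI k z.1 = dI k z'.1 ∧ |z'.2 - z.2 + (z.1 - z'.1) * u z| ≤ 1} := fun z z' h =>
    ⟨(ker_ne_zero hb hψ h).1.symm, (ker_ne_zero hb hψ h).2⟩
  refine ⟨fun z' => le_trans (api2_int_le hA (by positivity) (by positivity)
      (fun z _ => (api2_coef_le hg z _).trans (api2_ker_le h1 h2 u k z z'))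
      (fun z _ h => hs z z' (right_ne_zero_of_mul h)) (hu.bilip2 hk z'.1 z'.2 1)) e1,
    fun z' => (le_abs_self _).trans (le_trans (api2_int_le hA (by positivity) (by positivity)
      (fun z _ => (abs_abs _).trans_le (api2_ker_le h1 h2 u k z z'))
      (fun z _ h => hs z z' (abs_ne_zero.1 h)) (hu.bilip2 hk z'.1 z'.2 1)) e1),
    fun s ρ hρ hs' z' t => ?_⟩
  set z'' : P2 := (z'.1 + t, z'.2 + s * t) with hz''
  rw [Phi1, Phi1, ← integral_sub (integrableOn_ker hb hψ hu.meas k hAb hg z'')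
    (integrableOn_ker hb hψ hu.meas k hAb hg z')]
  refine le_trans (api2_int_le (M := 2 * (A1 * A2) * ρ * |t| / 2 ^ k / 2 ^ k) (V := 6 * 2 ^ k)
    (S := {z : P2 | dI k z.1 = dI k z''.1 ∧ |z''.2 - z.2 + (z.1 - z''.1) * u z| ≤ 1} ∪
      {z : P2 | dI k z.1 = dI k z'.1 ∧ |z'.2 - z.2 + (z.1 - z'.1) * u z| ≤ 1})
    hA (by positivity) (by positivity) (fun z hz => ?_) (fun z _ h => ?_) ?_) (le_of_eq ?_)
  · rw [← mul_sub]
    refine (api2_coef_le hg z _).trans ?_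
    set p1 := (z''.1 - cen k z.1) / 2 ^ k
    set p0 := (z'.1 - cen k z.1) / 2 ^ k
    set q1 := z''.2 - z.2 + (z.1 - z''.1) * u z
    set q0 := z'.2 - z.2 + (z.1 - z'.1) * u z
    have e2 : ker b ψ u k z z'' - ker b ψ u k z z' = ((2 : ℝ) ^ k)⁻¹ * haar k z.1 *
        ((b p1 - b p0) * ψ q1 + b p0 * (ψ q1 - ψ q0)) := by
      unfold ker; ring
    have e3 : |p1 - p0| = |t| / 2 ^ k := by
      rw [show p1 - p0 = t / 2 ^ k by simp only [p1, p0, hz'']; ring, abs_div, abs_of_pos hp]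
    have e4 : |q1 - q0| ≤ ρ * (|t| / 2 ^ k) := by
      rw [show q1 - q0 = -(t * (u z - s)) by simp only [q1, q0, hz'']; ring, abs_neg, abs_mul,
        mul_div_assoc', le_div_iff₀ hp]
      nlinarith [hs' z hz, abs_nonneg t]
    have e5 : |(b p1 - b p0) * ψ q1| ≤ A1 * (ρ * (|t| / 2 ^ k)) * A2 := by
      rw [abs_mul]
      refine mul_le_mul ((l1 _ _).trans ?_) (h2 _) (abs_nonneg _) (by positivity)
      rw [e3]
      exact mul_le_mul_of_nonneg_left (le_mul_of_one_le_left (by positivity) hρ) (by positivity)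
    have e6 : |b p0 * (ψ q1 - ψ q0)| ≤ A1 * (A2 * (ρ * (|t| / 2 ^ k))) := by
      rw [abs_mul]
      exact mul_le_mul (h1 _) ((l2 _ _).trans (by gcongr)) (abs_nonneg _) (by positivity)
    rw [e2, abs_mul, abs_mul, abs_haar, abs_of_pos (inv_pos.2 hp)]
    calc _ ≤ ((2 : ℝ) ^ k)⁻¹ * 1 * (A1 * (ρ * (|t| / 2 ^ k)) * A2 + A1 * (A2 * (ρ * (|t| / 2 ^ k)))) :=
          mul_le_mul_of_nonneg_left ((abs_add_le _ _).trans (add_le_add e5 e6)) (by positivity)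
      _ = _ := by ring
  · by_contra h3
    rw [mem_union, not_or] at h3
    rw [of_not_not (mt (hs z z'') h3.1), of_not_not (mt (hs z z') h3.2)] at h
    simp at h
  · refine (measure_union_le _ _).trans ((add_le_add (hu.bilip2 hk z''.1 z''.2 1)
      (hu.bilip2 hk z'.1 z'.2 1)).trans (le_of_eq ?_))
    rw [← ENNReal.ofReal_add (by positivity) (by positivity)]
    congr 1; ring
  · field_simp; ring

/-- `PhiR` is bounded and has bounded support. -/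
theorem PhiR_bdd_supp {b ψ : ℝ → ℝ} (hb : IsB b) (hψ : IsPsi ψ) {kmax : ℕ} {u : P2 → ℝ}
    (hu : Field u kmax) {G : Set P2} (hG : Bornology.IsBounded G) :
    ∃ L : ℝ, 0 < L ∧ ∀ (c k1 : ℕ), k1 ≤ kmax → ∀ S : ℕ → Set P2, (∀ k, MeasurableSet (S k)) →
      (∀ k, S k ⊆ G) → ∀ g, Coef g → ∀ z', |PhiR b ψ u c k1 S g z'| ≤ L ∧
        (L ≤ ‖z'‖ → PhiR b ψ u c k1 S g z' = 0) := by
  obtain ⟨C, hC, h⟩ := exists_Phi1_bound hb hψ
  obtain ⟨R, hR0, hR⟩ := hG.exists_pos_norm_le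
  have hp : (0 : ℝ) < 2 ^ kmax := by positivity
  have hq : (0 : ℝ) ≤ (kmax + 1) * C := by positivity
  refine ⟨(kmax + 1) * C + (R + 2 + 4 * 2 ^ kmax), by positivity,
    fun c k1 hk S hS hSG g hg z' => ⟨?_, fun hz => ?_⟩⟩
  · refine (Finset.abs_sum_le_sum_abs _ _).trans ((Finset.sum_le_card_nsmul _ _ C fun k hk' =>
      (h kmax u hu k ((Finset.mem_Icc.1 hk').2.trans hk) _ (hS k) (hG.subset (hSG k)) g hg).1 z').trans ?_)
    rw [nsmul_eq_mul, Nat.card_Icc]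
    have h1 : ((k1 + 1 - c : ℕ) : ℝ) ≤ kmax + 1 := by exact_mod_cast (by omega)
    nlinarith
  · refine Finset.sum_eq_zero fun k hk' => Phi1_eq_zero hb hψ (hS k) fun z hzS h1 => ?_
    have h2 := abs_sub_lt_of_dI_eq h1
    rw [zpow_natCast] at h2
    have h3 : |z'.1 - z.1| ≤ 2 ^ kmax :=
      h2.le.trans (pow_le_pow_right₀ one_le_two ((Finset.mem_Icc.1 hk').2.trans hk))
    have h4 := hR z (hSG k hzS)
    have h5 : |z.1| ≤ R := (norm_fst_le z).trans h4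
    have h6 : |z.2| ≤ R := (norm_snd_le z).trans h4
    refine lt_of_not_ge fun h7 => ?_
    have h8 : |(z.1 - z'.1) * u z| ≤ 2 ^ kmax * 4 := by
      rw [abs_mul, abs_sub_comm]
      exact mul_le_mul h3 (hu.bdd z) (abs_nonneg _) hp.le
    rw [Prod.norm_def, Real.norm_eq_abs, Real.norm_eq_abs] at hz
    rw [abs_le] at h3 h5 h6 h7 h8
    refine absurd hz (not_le.2 (max_lt ?_ ?_)) <;> rw [abs_lt] <;> constructor <;> linarith [h3.1, h3.2,
      h5.1, h5.2, h6.1, h6.2, h7.1, h7.2, h8.1, h8.2]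

/-- vertical derivative -/
theorem hasDerivAt_PhiR {b ψ : ℝ → ℝ} (hb : IsB b) (hψ : IsPsi ψ) {u : P2 → ℝ} (hu : Measurable u)
    (c k1 : ℕ) {S : ℕ → Set P2} {G : Set P2} (hG : Bornology.IsBounded G) (hS : ∀ k, S k ⊆ G)
    {g : P2 → ℝ} (hg : Coef g) (x y : ℝ) :
    HasDerivAt (fun y => PhiR b ψ u c k1 S g (x, y)) (PhiR b (deriv ψ) u c k1 S g (x, y)) y := by
  have hψ' : IsPsi (deriv ψ) := by simpa using hψ.iter 1
  obtain ⟨A1, -, h1, -⟩ := hb.exists_lip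
  obtain ⟨A2, -, h2, -⟩ := hψ'.exists_lip
  have hd := (contDiff_infty_iff_deriv.1 hψ.smooth).1
  unfold PhiR
  refine HasDerivAt.fun_sum fun k _ => ?_
  have hB := hG.subset (hS k)
  have : IsFiniteMeasure (volume.restrict (S k)) := isFiniteMeasure_restrict.2 hB.measure_lt_top.ne
  refine (hasDerivAt_integral_of_dominated_loc_of_deriv_le (μ := volume.restrict (S k))
    (F := fun y z => g z * ker b ψ u k z (x, y)) (F' := fun y z => g z * ker b (deriv ψ) u k z (x, y))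
    (bound := fun _ => A1 * A2 / 2 ^ k) (s := univ) Filter.univ_mem
    (Filter.Eventually.of_forall fun y => (integrableOn_ker hb hψ hu k hB hg (x, y)).1)
    (integrableOn_ker hb hψ hu k hB hg (x, y)) (integrableOn_ker hb hψ' hu k hB hg (x, y)).1
    (Filter.Eventually.of_forall fun z y _ =>
      (api2_coef_le hg z _).trans (api2_ker_le h1 h2 u k z _)) (integrable_const _)
    (Filter.Eventually.of_forall fun z y _ => ?_)).2
  unfold ker
  have h3 := (hd (y - z.2 + (z.1 - x) * u z)).hasDerivAt.comp y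
    (((hasDerivAt_id y).sub_const z.2).add_const ((z.1 - x) * u z))
  rw [mul_one] at h3
  exact (h3.const_mul (((2 : ℝ) ^ k)⁻¹ * haar k z.1 * b ((x - cen k z.1) / 2 ^ k))).const_mul (g z)

theorem api2_jensen {w F : ℝ → ℝ≥0∞} (hw : Measurable w) (hF : Measurable F) {p : ℕ} (hp : 1 ≤ p) :
    (∫⁻ y, w y * F y) ^ p ≤ (∫⁻ y, w y) ^ (p - 1) * ∫⁻ y, w y * F y ^ p := by
  have hp' : (1 : ℝ) ≤ p := by exact_mod_cast hp
  have h0 : (0 : ℝ) ≤ 1 - (p : ℝ)⁻¹ := sub_nonneg.2 (inv_le_one_of_one_le₀ hp')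
  have h1 := ENNReal.lintegral_mul_norm_pow_le (μ := volume) (f := fun y => w y * F y ^ p) (g := w)
    (hw.mul (hF.pow_const p)).aemeasurable hw.aemeasurable (p := (p : ℝ)⁻¹) (q := 1 - (p : ℝ)⁻¹)
    (by positivity) h0 (by ring)
  have h2 : ∀ y, (w y * F y ^ p) ^ (p : ℝ)⁻¹ * w y ^ (1 - (p : ℝ)⁻¹) = w y * F y := fun y => by
    rw [ENNReal.mul_rpow_of_nonneg _ _ (by positivity), ENNReal.pow_rpow_inv_natCast (by omega),
      mul_right_comm, ← ENNReal.rpow_add_of_nonneg _ _ (by positivity) h0, add_sub_cancel,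
      ENNReal.rpow_one]
  simp only [h2] at h1
  refine (pow_le_pow_left' h1 p).trans (le_of_eq ?_)
  rw [mul_pow, ENNReal.rpow_inv_natCast_pow (by omega), mul_comm, ← ENNReal.rpow_natCast,
    ← ENNReal.rpow_mul, ← ENNReal.rpow_natCast, Nat.cast_sub hp]
  congr 2
  field_simp
  simp
/-- Young's inequality for the vertical convolution in `L^p`, `p = 2, 4` (on a vertical strip). -/
theorem lintegral_vconv_pow {θ : ℝ → ℝ} (hθ : Measurable θ) (hi : Integrable θ) {f : P2 → ℝ}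
    (hf : Measurable f) {L : ℝ} (hL : ∀ z, |f z| ≤ L) {p : ℕ} (hp : 1 ≤ p) :
    ∫⁻ z, ENNReal.ofReal (|vconv θ f z| ^ p)
      ≤ ENNReal.ofReal ((∫ y, |θ y|) ^ p) * ∫⁻ z, ENNReal.ofReal (|f z| ^ p) := by
  have hw : Measurable fun y => ‖θ y‖ₑ := hθ.enorm
  have e1 : ∀ a : ℝ, ENNReal.ofReal (|a| ^ p) = ‖a‖ₑ ^ p := fun a => by
    rw [ENNReal.ofReal_pow (abs_nonneg a), ← Real.norm_eq_abs, ofReal_norm]
  have e2 : ENNReal.ofReal (∫ y, |θ y|) = ∫⁻ y, ‖θ y‖ₑ := ofReal_integral_norm_eq_lintegral_enorm hi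
  have hm : Measurable fun q : P2 × ℝ => ‖θ q.2‖ₑ * ‖f (q.1.1, q.1.2 - q.2)‖ₑ ^ p := by fun_prop
  simp only [e1]
  rw [ENNReal.ofReal_pow (integral_nonneg fun y => abs_nonneg _), e2]
  calc ∫⁻ z, ‖vconv θ f z‖ₑ ^ p
      ≤ ∫⁻ z : P2, (∫⁻ y, ‖θ y‖ₑ) ^ (p - 1) * ∫⁻ y, ‖θ y‖ₑ * ‖f (z.1, z.2 - y)‖ₑ ^ p := by
        refine lintegral_mono fun z => le_trans (pow_le_pow_left' ?_ p)
          (api2_jensen hw (F := fun y => ‖f (z.1, z.2 - y)‖ₑ) (by fun_prop) hp)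
        refine (enorm_integral_le_lintegral_enorm _).trans (le_of_eq ?_)
        simp only [enorm_mul]
    _ = (∫⁻ y, ‖θ y‖ₑ) ^ (p - 1) * ∫⁻ y, ‖θ y‖ₑ * ∫⁻ z, ‖f z‖ₑ ^ p := by
        rw [lintegral_const_mul _ hm.lintegral_prod_right', lintegral_lintegral_swap hm.aemeasurable]
        congr 1
        refine lintegral_congr fun y => ?_
        dsimp only
        rw [lintegral_const_mul _ (by fun_prop),
          ← lintegral_sub_right_eq_self (fun z : P2 => ‖f z‖ₑ ^ p) ((0, y) : P2)]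
        congr 1
        refine lintegral_congr fun z => ?_
        rw [show z - ((0, y) : P2) = (z.1, z.2 - y) from Prod.ext (sub_zero _) rfl]
    _ = _ := by
        rw [lintegral_mul_const _ hw, ← mul_assoc, ← pow_succ, Nat.sub_add_cancel hp]

theorem measurable_vconv {θ : ℝ → ℝ} (hθ : Measurable θ) {f : P2 → ℝ} (hf : Measurable f) :
    Measurable (vconv θ f) := by
  have hm : Measurable fun q : P2 × ℝ => θ q.2 * f (q.1.1, q.1.2 - q.2) := by fun_prop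
  exact hm.stronglyMeasurable.integral_prod_right'.measurable

theorem measurable_dconv {χ : ℝ → ℝ} (hχ : Measurable χ) (lam s : ℝ) {f : P2 → ℝ}
    (hf : Measurable f) : Measurable (dconv χ lam s f) := by
  have hm : Measurable fun q : P2 × ℝ => lam * χ (lam * q.2) * f (q.1.1 - q.2, q.1.2 - s * q.2) := by
    fun_prop
  exact hm.stronglyMeasurable.integral_prod_right'.measurable

theorem measurable_davg (κ : Measure ℝ) [IsProbabilityMeasure κ] (s : ℝ) {v : P2 → ℝ}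
    (hv : Measurable v) : Measurable (davg κ s v) := by
  have hm : Measurable fun q : P2 × ℝ => v (q.1.1 + q.2, q.1.2 + s * q.2) := by fun_prop
  exact hm.stronglyMeasurable.integral_prod_right'.measurable

end Crest.Agent.R87
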