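import Crest.Agent.R87.Api2

/-!
# R87 / BMax : `L⁴` maximal bound for sums of smooth mean zero bumps

The partial sums agree up to `O(L)` with the dyadic martingale `Y c` of averages; `Y c ^ 2` is expanded as a
Haar sum plus the square function, Doob's `L²` inequality is applied to the Haar sum, and the square function
is bounded by `Car4Stmt`.
-/

set_option autoImplicit false

namespace Crest.Agent.R87

open MeasureTheory Set
open scoped ENNReal

theorem bm_down {P : ℕ → Prop} (n : ℕ) (h0 : P (n + 1)) (hs : ∀ c, c ≤ n → P (c + 1) → P c) :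
    ∀ c, c ≤ n + 1 → P c := by
  intro c hc
  induction hc using Nat.decreasingInduction with
  | self => exact h0
  | of_succ k hk ih => exact hs k (by omega) ih

theorem bm_sum_bot (f : ℕ → ℝ) {c n : ℕ} (h : c ≤ n) :
    ∑ k ∈ Finset.Icc c n, f k = f c + ∑ k ∈ Finset.Icc (c + 1) n, f k := by
  rw [← Finset.insert_Icc_add_one_left_eq_Icc h, Finset.sum_insert (by simp)]

theorem bm_range (n : ℕ) : Finset.range (n + 1) = Finset.Icc 0 n := by
  ext k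
  simp

/-- geometric averages -/
noncomputable def bmR (a : ℕ → ℝ) (n c : ℕ) : ℝ := ∑ k ∈ Finset.Icc c n, |a k| * (2 ^ c / 2 ^ k)

theorem bmR_nonneg (a : ℕ → ℝ) (n c : ℕ) : 0 ≤ bmR a n c :=
  Finset.sum_nonneg fun _ _ => by positivity

theorem bmR_step (a : ℕ → ℝ) {n c : ℕ} (h : c ≤ n) : bmR a n c = |a c| + bmR a n (c + 1) / 2 := by
  unfold bmR
  rw [bm_sum_bot _ h, div_self (by positivity), mul_one, Finset.sum_div]
  congr 1
  refine Finset.sum_congr rfl fun k _ => ?_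
  rw [pow_succ]
  ring

theorem bmR_top (a : ℕ → ℝ) (n : ℕ) : bmR a n (n + 1) = 0 := by
  simp [bmR]

theorem bmR_le {a : ℕ → ℝ} {n : ℕ} {L : ℝ} (hL : 0 ≤ L) (h : ∀ k, k ≤ n → |a k| ≤ L) :
    ∀ c, c ≤ n + 1 → bmR a n c ≤ 2 * L := by
  refine bm_down n (by rw [bmR_top]; positivity) fun c hc ih => ?_
  rw [bmR_step a hc]
  linarith [h c hc]

theorem bmR_sq (a : ℕ → ℝ) (n : ℕ) : ∀ c, c ≤ n + 1 →
    ∑ j ∈ Finset.Icc c n, bmR a n j ^ 2 + bmR a n c ^ 2 ≤ 4 * ∑ j ∈ Finset.Icc c n, a j ^ 2 := by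
  refine bm_down n (by simp [bmR_top]) fun c hc ih => ?_
  rw [bm_sum_bot _ hc, bm_sum_bot (fun j => a j ^ 2) hc, bmR_step a hc, ← sq_abs (a c)]
  nlinarith [sq_nonneg (|a c| - bmR a n (c + 1) / 2)]

/-- primitive -/
noncomputable def bmP (b : ℝ → ℝ) (t : ℝ) : ℝ := ∫ s in (0 : ℝ)..t, b s

theorem bmP_sub {b : ℝ → ℝ} (hb : IsB b) (u v : ℝ) : bmP b v - bmP b u = ∫ s in u..v, b s :=
  intervalIntegral.integral_interval_sub_left (hb.smooth.continuous.intervalIntegrable _ _)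
    (hb.smooth.continuous.intervalIntegrable _ _)

theorem bmP_half {b : ℝ → ℝ} (hb : IsB b) : bmP b (1 / 2) - bmP b (-(1 / 2)) = 0 := by
  rw [bmP_sub hb, intervalIntegral.integral_eq_integral_of_support_subset, hb.mean]
  intro x hx
  by_contra h
  refine hx (hb.supp x ?_)
  rw [mem_Ioc, not_and_or, not_lt, not_le] at h
  rcases h with h | h
  · linarith [neg_abs_le x]
  · linarith [le_abs_self x]

theorem bmP_est {b : ℝ → ℝ} (hb : IsB b) {A : ℝ} (hA0 : 0 ≤ A)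
    (hA : ∀ y y', |b y - b y'| ≤ A * |y - y'|)
    {u v w h : ℝ} (hh : 0 < h) (hv : v = u + h) (h1 : u ≤ w) (h2 : w ≤ v) :
    |(bmP b v - bmP b u) / h - b w| ≤ A * h := by
  have e : (bmP b v - bmP b u) / h - b w = (∫ s in u..v, (b s - b w)) / h := by
    rw [intervalIntegral.integral_sub (hb.smooth.continuous.intervalIntegrable _ _)
      intervalIntegrable_const, intervalIntegral.integral_const, bmP_sub hb, hv]
    field_simp
    simp
  rw [e, abs_div, abs_of_pos hh, div_le_iff₀ hh]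
  have h3 := intervalIntegral.norm_integral_le_of_norm_le_const (a := u) (b := v) (C := A * h)
    (f := fun s => b s - b w) fun s hs => by
      rw [uIoc_of_le (h1.trans h2)] at hs
      refine (hA s w).trans (mul_le_mul_of_nonneg_left (abs_le.2 ⟨?_, ?_⟩) hA0)
      · linarith [hs.1]
      · linarith [hs.2]
  rwa [Real.norm_eq_abs, show v - u = h by linarith, abs_of_pos hh] at h3

/-- the average of the bump of scale `k` over the dyadic interval of scale `c` -/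
noncomputable def bmA (b : ℝ → ℝ) (k : ℕ) (c : ℤ) (x : ℝ) : ℝ :=
  (bmP b ((dI c x * 2 ^ c + 2 ^ c - cen k x) / 2 ^ k) - bmP b ((dI c x * 2 ^ c - cen k x) / 2 ^ k)) /
    (2 ^ c / 2 ^ k)

theorem bmA_self {b : ℝ → ℝ} (hb : IsB b) (k : ℕ) (x : ℝ) : bmA b k k x = 0 := by
  have h2 : (2 : ℝ) ^ k ≠ 0 := by positivity
  have e1 : ((dI k x : ℝ) * 2 ^ (k : ℤ) + 2 ^ (k : ℤ) - cen k x) / 2 ^ k = 1 / 2 := by
    rw [cen, zpow_natCast]
    field_simp
    ring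
  have e2 : ((dI k x : ℝ) * 2 ^ (k : ℤ) - cen k x) / 2 ^ k = -(1 / 2) := by
    rw [cen, zpow_natCast]
    field_simp
    ring
  rw [bmA, e1, e2, bmP_half hb, zero_div]

theorem bmA_est {b : ℝ → ℝ} (hb : IsB b) {A : ℝ} (hA0 : 0 ≤ A)
    (hA : ∀ y y', |b y - b y'| ≤ A * |y - y'|) (k : ℕ) (c : ℤ) (x : ℝ) :
    |bmA b k c x - b ((x - cen k x) / 2 ^ k)| ≤ A * (2 ^ c / 2 ^ k) := by
  have hx : x ∈ dInt c (dI c x) := mem_dInt.2 rfl
  refine bmP_est hb hA0 hA (by positivity) (by ring) ?_ ?_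
  · exact div_le_div_of_nonneg_right (by linarith [hx.1]) (by positivity)
  · exact div_le_div_of_nonneg_right (by linarith [hx.2]) (by positivity)

theorem bmA_congr (b : ℝ → ℝ) {k : ℕ} {c : ℤ} (h : c ≤ k) {x x' : ℝ} (e : dI c x = dI c x') :
    bmA b k c x = bmA b k c x' := by
  simp only [bmA, cen, e, dI_eq_of_le h e]

/-- the Haar coefficient -/
noncomputable def bmD (b : ℝ → ℝ) (k : ℕ) (j : ℤ) (x : ℝ) : ℝ :=
  (2 * bmP b ((dI j x * 2 ^ j + 2 ^ j / 2 - cen k x) / 2 ^ k) -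
    bmP b ((dI j x * 2 ^ j - cen k x) / 2 ^ k) -
    bmP b ((dI j x * 2 ^ j + 2 ^ j - cen k x) / 2 ^ k)) / (2 ^ j / 2 ^ k)

theorem bmD_congr (b : ℝ → ℝ) {k : ℕ} {c : ℤ} (h : c ≤ k) {x x' : ℝ} (e : dI c x = dI c x') :
    bmD b k c x = bmD b k c x' := by
  simp only [bmD, cen, e, dI_eq_of_le h e]

theorem bmA_step (b : ℝ → ℝ) (k : ℕ) (c : ℤ) (x : ℝ) :
    bmA b k c x = bmA b k (c + 1) x + haar (c + 1) x * bmD b k (c + 1) x := by
  have h2 : (2 : ℝ) ^ (c + 1) = 2 * 2 ^ c := by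
    rw [zpow_add_one₀ (by norm_num), mul_comm]
  have h3 : (2 : ℝ) ^ c ≠ 0 := by positivity
  have h4 : (2 : ℝ) ^ k ≠ 0 := by positivity
  obtain ⟨m, hm | hm⟩ := Int.even_or_odd' (dI c x)
  · have h1 : dI (c + 1) x = m := by rw [dI_succ, hm]; omega
    rw [haar_of_left hm]
    simp only [bmA, bmD, h1, hm, h2]
    push_cast
    rw [show (2 * m : ℝ) * 2 ^ c + 2 ^ c = m * (2 * 2 ^ c) + 2 * 2 ^ c / 2 by ring,
      show (2 * m : ℝ) * 2 ^ c = m * (2 * 2 ^ c) by ring]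
    field_simp
    ring
  · have h1 : dI (c + 1) x = m := by rw [dI_succ, hm]; omega
    rw [haar_of_right hm]
    simp only [bmA, bmD, h1, hm, h2]
    push_cast
    rw [show (2 * m + 1 : ℝ) * 2 ^ c + 2 ^ c = m * (2 * 2 ^ c) + 2 * 2 ^ c by ring,
      show (2 * m + 1 : ℝ) * 2 ^ c = m * (2 * 2 ^ c) + 2 * 2 ^ c / 2 by ring]
    field_simp
    ring

theorem bmD_le {b : ℝ → ℝ} (hb : IsB b) {A : ℝ} (hA0 : 0 ≤ A)
    (hA : ∀ y y', |b y - b y'| ≤ A * |y - y'|) (k : ℕ) (j : ℤ) (x : ℝ) :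
    |bmD b k j x| ≤ 2 * A * (2 ^ j / 2 ^ k) := by
  obtain ⟨c, rfl⟩ : ∃ c, j = c + 1 := ⟨j - 1, by ring⟩
  have h1 := bmA_est hb hA0 hA k c x
  have h2 := bmA_est hb hA0 hA k (c + 1) x
  have h3 : |bmD b k (c + 1) x| = |bmA b k c x - bmA b k (c + 1) x| := by
    rw [bmA_step b k c x, add_sub_cancel_left, abs_mul, abs_haar, one_mul]
  have h4 : A * ((2 : ℝ) ^ c / 2 ^ k) ≤ A * (2 ^ (c + 1) / 2 ^ k) := by
    gcongr
    · norm_num
    · omega
  rw [h3]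
  have h5 := abs_sub_le (bmA b k c x) (b ((x - cen k x) / 2 ^ k)) (bmA b k (c + 1) x)
  rw [abs_sub_comm (b _)] at h5
  linarith

/-- the martingale -/
noncomputable def bmY (b : ℝ → ℝ) (α : ℕ → ℤ → ℝ) (n c : ℕ) (x : ℝ) : ℝ :=
  ∑ k ∈ Finset.Icc c n, bmA b k c x * α k (dI k x)

/-- its Haar coefficients -/
noncomputable def bmG (b : ℝ → ℝ) (α : ℕ → ℤ → ℝ) (n c : ℕ) (x : ℝ) : ℝ :=
  ∑ k ∈ Finset.Icc c n, bmD b k c x * α k (dI k x)

theorem bmY_congr (b : ℝ → ℝ) (α : ℕ → ℤ → ℝ) (n c : ℕ) {x x' : ℝ} (e : dI c x = dI c x') :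
    bmY b α n c x = bmY b α n c x' := by
  refine Finset.sum_congr rfl fun k hk => ?_
  have h : (c : ℤ) ≤ k := by exact_mod_cast (Finset.mem_Icc.1 hk).1
  rw [bmA_congr b h e, dI_eq_of_le h e]

theorem bmG_congr (b : ℝ → ℝ) (α : ℕ → ℤ → ℝ) (n c : ℕ) {x x' : ℝ} (e : dI c x = dI c x') :
    bmG b α n c x = bmG b α n c x' := by
  refine Finset.sum_congr rfl fun k hk => ?_
  have h : (c : ℤ) ≤ k := by exact_mod_cast (Finset.mem_Icc.1 hk).1
  rw [bmD_congr b h e, dI_eq_of_le h e]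

theorem bmY_step {b : ℝ → ℝ} (hb : IsB b) (α : ℕ → ℤ → ℝ) {n c : ℕ} (h : c ≤ n) (x : ℝ) :
    bmY b α n c x = bmY b α n (c + 1) x + haar ((c + 1 : ℕ) : ℤ) x * bmG b α n (c + 1) x := by
  unfold bmY bmG
  rw [bm_sum_bot _ h, bmA_self hb, zero_mul, zero_add, Finset.mul_sum, ← Finset.sum_add_distrib]
  refine Finset.sum_congr rfl fun k _ => ?_
  push_cast
  rw [bmA_step b k c x]
  ring

theorem bmY_sq {b : ℝ → ℝ} (hb : IsB b) (α : ℕ → ℤ → ℝ) (n : ℕ) (x : ℝ) : ∀ c, c ≤ n + 1 →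
    bmY b α n c x ^ 2 =
      ∑ k ∈ Finset.Icc (c + 1) n, haar k x * (2 * bmY b α n k x * bmG b α n k x) +
        ∑ k ∈ Finset.Icc (c + 1) n, bmG b α n k x ^ 2 := by
  refine bm_down n (by simp [bmY]) fun c hc ih => ?_
  rw [bmY_step hb α hc]
  rcases hc.eq_or_lt with rfl | hc
  · simp [bmY, bmG]
  · rw [bm_sum_bot _ (show c + 1 ≤ n from hc),
      bm_sum_bot (fun k => bmG b α n k x ^ 2) (show c + 1 ≤ n from hc)]
    have h1 : haar ((c + 1 : ℕ) : ℤ) x ^ 2 = 1 := by rw [← sq_abs, abs_haar, one_pow]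
    linear_combination ih + bmG b α n (c + 1) x ^ 2 * h1

theorem bmG_le {b : ℝ → ℝ} (hb : IsB b) {A : ℝ} (hA0 : 0 ≤ A)
    (hA : ∀ y y', |b y - b y'| ≤ A * |y - y'|) (α : ℕ → ℤ → ℝ) (n c : ℕ) (x : ℝ) :
    |bmG b α n c x| ≤ 2 * A * bmR (fun k => α k (dI k x)) n c := by
  unfold bmG bmR
  rw [Finset.mul_sum]
  refine (Finset.abs_sum_le_sum_abs _ _).trans (Finset.sum_le_sum fun k _ => ?_)
  have h := bmD_le hb hA0 hA k c x
  rw [zpow_natCast] at h
  rw [abs_mul]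
  refine (mul_le_mul_of_nonneg_right h (abs_nonneg _)).trans (le_of_eq ?_)
  ring

theorem bmG_sq {b : ℝ → ℝ} (hb : IsB b) {A : ℝ} (hA0 : 0 ≤ A)
    (hA : ∀ y y', |b y - b y'| ≤ A * |y - y'|) (α : ℕ → ℤ → ℝ) (n : ℕ) (x : ℝ) :
    ∑ k ∈ Finset.range (n + 1), bmG b α n k x ^ 2 ≤
      16 * A ^ 2 * ∑ k ∈ Finset.range (n + 1), α k (dI k x) ^ 2 := by
  rw [bm_range]
  have h1 := bmR_sq (fun k => α k (dI k x)) n 0 (Nat.zero_le _)
  have h2 : ∑ k ∈ Finset.Icc 0 n, bmG b α n k x ^ 2 ≤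
      4 * A ^ 2 * ∑ k ∈ Finset.Icc 0 n, bmR (fun k => α k (dI k x)) n k ^ 2 := by
    rw [Finset.mul_sum]
    refine Finset.sum_le_sum fun k _ => ?_
    rw [← sq_abs]
    refine (pow_le_pow_left₀ (abs_nonneg _) (bmG_le hb hA0 hA α n k x) 2).trans (le_of_eq ?_)
    ring
  refine h2.trans ?_
  have h3 := sq_nonneg (bmR (fun k => α k (dI k x)) n 0)
  nlinarith [sq_nonneg A]

theorem bmY_est {b : ℝ → ℝ} (hb : IsB b) {A : ℝ} (hA0 : 0 ≤ A)
    (hA : ∀ y y', |b y - b y'| ≤ A * |y - y'|) {α : ℕ → ℤ → ℝ} {n : ℕ} {L : ℝ} (hL : 0 ≤ L)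
    (hα : ∀ k, k ≤ n → ∀ m, |α k m| ≤ L) {c : ℕ} (hc : c ≤ n + 1) (x : ℝ) :
    |bmY b α n c x - ∑ k ∈ Finset.Icc c n, b ((x - cen k x) / 2 ^ k) * α k (dI k x)| ≤
      2 * A * L := by
  have h1 := bmR_le (a := fun k => α k (dI k x)) hL (fun k hk => hα k hk _) c hc
  refine le_trans ?_ ((mul_le_mul_of_nonneg_left h1 hA0).trans (le_of_eq (by ring)))
  unfold bmY bmR
  rw [← Finset.sum_sub_distrib, Finset.mul_sum]
  refine (Finset.abs_sum_le_sum_abs _ _).trans (Finset.sum_le_sum fun k _ => ?_)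
  have h := bmA_est hb hA0 hA k c x
  rw [zpow_natCast] at h
  rw [← sub_mul, abs_mul]
  refine (mul_le_mul_of_nonneg_right h (abs_nonneg _)).trans (le_of_eq ?_)
  ring

theorem bm_dI_pt (k m : ℤ) : dI k ((m : ℝ) * 2 ^ k) = m := by
  rw [dI, mul_div_cancel_right₀ _ (by positivity), Int.floor_intCast]

theorem bm_lint {μ : Measure ℝ} {f p G : ℝ → ℝ} (hG : Measurable G) (hp : ∀ x, 0 ≤ p x)
    (hG0 : ∀ x, 0 ≤ G x) {a c : ℝ} (ha : 0 ≤ a) (hc : 0 ≤ c) (h : ∀ x, f x ≤ a * p x + c * G x) :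
    ∫⁻ x, ENNReal.ofReal (f x) ∂μ ≤ ENNReal.ofReal a * ∫⁻ x, ENNReal.ofReal (p x) ∂μ +
      ENNReal.ofReal c * ∫⁻ x, ENNReal.ofReal (G x) ∂μ := by
  rw [← lintegral_const_mul' _ _ ENNReal.ofReal_ne_top, ← lintegral_const_mul' _ _ ENNReal.ofReal_ne_top,
    ← lintegral_add_right _ (hG.ennreal_ofReal.const_mul _)]
  refine lintegral_mono fun x => ?_
  rw [← ENNReal.ofReal_mul ha, ← ENNReal.ofReal_mul hc,
    ← ENNReal.ofReal_add (mul_nonneg ha (hp x)) (mul_nonneg hc (hG0 x))]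
  exact ENNReal.ofReal_le_ofReal (h x)

theorem bm_alpha_le {k0 : ℕ} {α : ℕ → ℤ → ℝ} {L : ℝ} (hL : 0 ≤ L)
    (h : ∀ k, k ≤ k0 → ∀ m : ℤ, ∫⁻ x in dInt k m,
        ENNReal.ofReal (∑ k' ∈ Finset.range (k + 1), α k' (dI k' x) ^ 2)
          ≤ ENNReal.ofReal (L ^ 2 * 2 ^ k)) (k : ℕ) (hk : k ≤ k0) (m : ℤ) : |α k m| ≤ L := by
  have h1 : ∫⁻ _ in dInt k m, ENNReal.ofReal (α k m ^ 2) ≤ ENNReal.ofReal (L ^ 2 * 2 ^ k) := by
    refine le_trans (setLIntegral_mono' (measurableSet_dInt _ _) fun x hx => ?_) (h k hk m)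
    refine ENNReal.ofReal_le_ofReal ?_
    rw [Finset.sum_range_succ, mem_dInt.1 hx]
    exact le_add_of_nonneg_left (Finset.sum_nonneg fun _ _ => sq_nonneg _)
  rw [setLIntegral_const, volume_dInt, ← ENNReal.ofReal_mul (sq_nonneg _), zpow_natCast,
    ENNReal.ofReal_le_ofReal_iff (by positivity)] at h1
  exact abs_le_of_sq_le_sq' (le_of_mul_le_mul_right h1 (by positivity)) hL |> abs_le.2

theorem bmax (h1 : Car4Stmt) (h2 : DoobStmt) : BMaxStmt := by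
  intro b hb
  obtain ⟨A, hA1, hAb, hA⟩ := hb.exists_lip
  have hA0 : 0 ≤ A := by linarith
  refine ⟨100 * A, by positivity, fun k0 m0 α L hL hcar => ?_⟩
  have hα := bm_alpha_le hL hcar
  rcases hL.eq_or_lt with rfl | hL0
  · refine le_of_eq_of_le (lintegral_congr fun x => ?_) (le_of_eq_of_le lintegral_zero zero_le)
    have : ∀ c : Fin (k0 + 1),
        |∑ k ∈ Finset.Icc (c : ℕ) k0, b ((x - cen k x) / 2 ^ k) * α k (dI k x)| = 0 := by
      intro c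
      rw [abs_eq_zero]
      refine Finset.sum_eq_zero fun k hk => ?_
      rw [abs_nonpos_iff.1 (hα k (Finset.mem_Icc.1 hk).2 _), mul_zero]
    simp [this]
  set μ := volume.restrict (dInt k0 m0) with hμ
  set Sg : ℝ → ℝ := fun x => ∑ k ∈ Finset.range (k0 + 1), α k (dI k x) ^ 2 with hSg
  have hSg0 : ∀ x, 0 ≤ Sg x := fun x => Finset.sum_nonneg fun _ _ => sq_nonneg _
  have hSgm : Measurable Sg := Finset.measurable_sum _ fun k _ =>
    ((Measurable.of_discrete (f := α k)).comp (measurable_dI k)).pow_const 2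
  have hc4 : ∫⁻ x, ENNReal.ofReal (Sg x ^ 4) ∂μ ≤ ENNReal.ofReal (24 * (L ^ 2) ^ 4 * 2 ^ k0) :=
    h1 k0 m0 (fun k m => α k m ^ 2) (L ^ 2) (sq_nonneg _) (fun _ _ => sq_nonneg _) hcar
  have hvol : ∫⁻ _, ENNReal.ofReal 1 ∂μ = ENNReal.ofReal (2 ^ k0) := by
    rw [hμ, setLIntegral_const, volume_dInt, zpow_natCast, ENNReal.ofReal_one, one_mul]
  set G : ℝ → ℝ := fun x => A ^ 4 / L ^ 4 * Sg x ^ 4 + A ^ 4 * L ^ 4 * 1 with hG
  have hG0 : ∀ x, 0 ≤ G x := fun x => by have := hSg0 x; positivity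
  have hGm : Measurable G := by fun_prop
  set g : ℝ := 25 * A ^ 4 * L ^ 4 * 2 ^ k0 with hg
  have hg0 : 0 ≤ g := by positivity
  have hGi : ∫⁻ x, ENNReal.ofReal (G x) ∂μ ≤ ENNReal.ofReal g := by
    refine (bm_lint (p := fun x => Sg x ^ 4) (G := fun _ => 1) measurable_const
      (fun x => by have := hSg0 x; positivity) (fun _ => zero_le_one) (by positivity) (by positivity)
      fun x => le_rfl).trans ?_
    rw [hvol]
    refine (add_le_add (mul_le_mul_right hc4 _) le_rfl).trans (le_of_eq ?_)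
    rw [← ENNReal.ofReal_mul (by positivity), ← ENNReal.ofReal_mul (by positivity),
      ← ENNReal.ofReal_add (by positivity) (by positivity)]
    congr 1
    rw [hg]
    field_simp
    ring
  have hGS : ∀ x, 2 * (A ^ 2 * Sg x) ^ 2 ≤ G x := by
    intro x
    have e : G x - 2 * (A ^ 2 * Sg x) ^ 2 = A ^ 4 * (Sg x ^ 2 / L ^ 2 - L ^ 2) ^ 2 := by
      simp only [hG]
      field_simp
      ring
    have : 0 ≤ A ^ 4 * (Sg x ^ 2 / L ^ 2 - L ^ 2) ^ 2 := by positivity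
    linarith
  set M : ℝ → ℝ := fun x => ⨆ c : Fin (k0 + 1), |bmY b α k0 c x| with hM
  have hMle : ∀ x k, k ≤ k0 → |bmY b α k0 k x| ≤ M x := fun x k hk =>
    le_ciSup (f := fun c : Fin (k0 + 1) => |bmY b α k0 c x|) (Finite.bddAbove_range _)
      ⟨k, Nat.lt_succ_of_le hk⟩
  have hM0 : ∀ x, 0 ≤ M x := fun x => (abs_nonneg _).trans (hMle x 0 (Nat.zero_le _))
  set γ : ℕ → ℤ → ℝ := fun k m =>
    2 * bmY b α k0 k ((m : ℝ) * 2 ^ (k : ℤ)) * bmG b α k0 k ((m : ℝ) * 2 ^ (k : ℤ)) with hγ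
  have hγx : ∀ (k : ℕ) x, γ k (dI k x) = 2 * bmY b α k0 k x * bmG b α k0 k x := by
    intro k x
    simp only [hγ]
    rw [bmY_congr b α k0 k (bm_dI_pt k _), bmG_congr b α k0 k (bm_dI_pt k _)]
  have hdoob := h2 k0 m0 γ
  simp only [hγx] at hdoob
  set Nx : ℝ → ℝ := fun x => ⨆ c : Fin (k0 + 1),
    |∑ k ∈ Finset.Icc (c : ℕ) k0, haar k x * (2 * bmY b α k0 k x * bmG b α k0 k x)| with hNx
  have hNle : ∀ x c, c ≤ k0 →
      |∑ k ∈ Finset.Icc c k0, haar k x * (2 * bmY b α k0 k x * bmG b α k0 k x)| ≤ Nx x :=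
    fun x c hc => le_ciSup (f := fun c : Fin (k0 + 1) =>
      |∑ k ∈ Finset.Icc (c : ℕ) k0, haar k x * (2 * bmY b α k0 k x * bmG b α k0 k x)|)
      (Finite.bddAbove_range _) ⟨c, Nat.lt_succ_of_le hc⟩
  have hN0 : ∀ x, 0 ≤ Nx x := fun x => (abs_nonneg _).trans (hNle x 0 (Nat.zero_le _))
  have hMN : ∀ x, M x ^ 2 ≤ Nx x + 16 * A ^ 2 * Sg x := by
    intro x
    have a0 : 0 ≤ Nx x + 16 * A ^ 2 * Sg x := by have := hSg0 x; have := hN0 x; positivity
    rw [← Real.le_sqrt (hM0 x) a0]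
    refine ciSup_le fun c => Real.abs_le_sqrt ?_
    rw [bmY_sq hb α k0 x c (by omega)]
    refine add_le_add ?_ (le_trans ?_ (bmG_sq hb hA0 hA α k0 x))
    · rcases Nat.lt_or_ge k0 (c + 1) with hc | hc
      · rw [Finset.Icc_eq_empty_of_lt hc, Finset.sum_empty]
        exact hN0 x
      · exact (le_abs_self _).trans (hNle x _ hc)
    · refine Finset.sum_le_sum_of_subset_of_nonneg (fun k hk => ?_) fun _ _ _ => sq_nonneg _
      exact Finset.mem_range.2 (Nat.lt_succ_of_le (Finset.mem_Icc.1 hk).2)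
  have i1 : ∫⁻ x, ENNReal.ofReal (M x ^ 4) ∂μ ≤ ENNReal.ofReal 2 * ∫⁻ x, ENNReal.ofReal (Nx x ^ 2) ∂μ +
      ENNReal.ofReal 256 * ∫⁻ x, ENNReal.ofReal (G x) ∂μ := by
    refine bm_lint hGm (fun x => sq_nonneg _) hG0 (by norm_num) (by norm_num) fun x => ?_
    have a1 := pow_le_pow_left₀ (sq_nonneg _) (hMN x) 2
    nlinarith [hGS x, sq_nonneg (Nx x - 16 * A ^ 2 * Sg x)]
  have i2 : ∫⁻ x, ENNReal.ofReal (∑ k ∈ Finset.range (k0 + 1),
      (2 * bmY b α k0 k x * bmG b α k0 k x) ^ 2) ∂μ ≤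
      ENNReal.ofReal (1 / 16) * ∫⁻ x, ENNReal.ofReal (M x ^ 4) ∂μ +
        ENNReal.ofReal 8192 * ∫⁻ x, ENNReal.ofReal (G x) ∂μ := by
    refine bm_lint hGm (fun x => by positivity) hG0 (by norm_num) (by norm_num) fun x => ?_
    have a1 : ∑ k ∈ Finset.range (k0 + 1), (2 * bmY b α k0 k x * bmG b α k0 k x) ^ 2 ≤
        4 * M x ^ 2 * ∑ k ∈ Finset.range (k0 + 1), bmG b α k0 k x ^ 2 := by
      rw [Finset.mul_sum]
      refine Finset.sum_le_sum fun k hk => ?_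
      have a2 := pow_le_pow_left₀ (abs_nonneg _)
        (hMle x k (Nat.le_of_lt_succ (Finset.mem_range.1 hk))) 2
      rw [sq_abs] at a2
      nlinarith [sq_nonneg (bmG b α k0 k x)]
    have a3 := mul_le_mul_of_nonneg_left (bmG_sq hb hA0 hA α k0 x) (show 0 ≤ 4 * M x ^ 2 by positivity)
    nlinarith [hGS x, sq_nonneg (M x ^ 2 / 4 - 128 * A ^ 2 * Sg x)]
  have hfin : ∫⁻ x, ENNReal.ofReal (M x ^ 4) ∂μ ≠ ∞ := by
    have a1 : ∀ x, M x ≤ (k0 + 1) * (A * L) + 2 * A * L := by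
      intro x
      refine ciSup_le fun c => ?_
      have a2 := bmY_est hb hA0 hA hL hα (c := c) (by omega) x
      have a3 : |∑ k ∈ Finset.Icc (c : ℕ) k0, b ((x - cen k x) / 2 ^ k) * α k (dI k x)| ≤
          (k0 + 1) * (A * L) := by
        refine (Finset.abs_sum_le_sum_abs _ _).trans ((Finset.sum_le_card_nsmul _ _ (A * L)
          fun k hk => ?_).trans ?_)
        · rw [abs_mul]
          exact mul_le_mul (hAb _) (hα k (Finset.mem_Icc.1 hk).2 _) (abs_nonneg _) hA0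
        · rw [nsmul_eq_mul, Nat.card_Icc]
          refine mul_le_mul_of_nonneg_right ?_ (by positivity)
          exact_mod_cast Nat.sub_le _ _
      linarith [abs_sub_abs_le_abs_sub (bmY b α k0 c x)
        (∑ k ∈ Finset.Icc (c : ℕ) k0, b ((x - cen k x) / 2 ^ k) * α k (dI k x))]
    refine ne_top_of_le_ne_top ?_ (lintegral_mono fun x =>
      ENNReal.ofReal_le_ofReal (pow_le_pow_left₀ (hM0 x) (a1 x) 4))
    rw [hμ, setLIntegral_const, volume_dInt]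
    exact ENNReal.mul_ne_top ENNReal.ofReal_ne_top ENNReal.ofReal_ne_top
  obtain ⟨i, hi0, hi⟩ : ∃ i : ℝ, 0 ≤ i ∧ ∫⁻ x, ENNReal.ofReal (M x ^ 4) ∂μ = ENNReal.ofReal i :=
    ⟨_, ENNReal.toReal_nonneg, (ENNReal.ofReal_toReal hfin).symm⟩
  have i3 : ∫⁻ x, ENNReal.ofReal (Nx x ^ 2) ∂μ ≤ ENNReal.ofReal (4 * (1 / 16 * i + 8192 * g)) := by
    refine hdoob.trans ?_
    rw [ENNReal.ofReal_mul (by norm_num), ENNReal.ofReal_add (by positivity) (by positivity),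
      ENNReal.ofReal_mul (by norm_num), ENNReal.ofReal_mul (by norm_num), ← hi,
      ENNReal.ofReal_ofNat]
    exact mul_le_mul_right (i2.trans (add_le_add le_rfl (mul_le_mul_right hGi _))) _
  have i4 : i ≤ 2 * (4 * (1 / 16 * i + 8192 * g)) + 256 * g := by
    rw [← ENNReal.ofReal_le_ofReal_iff (by positivity), ← hi,
      ENNReal.ofReal_add (by positivity) (by positivity), ENNReal.ofReal_mul (by norm_num),
      ENNReal.ofReal_mul (p := 256) (by norm_num)]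
    exact i1.trans (add_le_add (mul_le_mul_right i3 _) (mul_le_mul_right hGi _))
  refine (bm_lint (p := fun x => M x ^ 4) (a := 8) (c := 128) hGm (fun x => by positivity) hG0
    (by norm_num) (by norm_num) fun x => ?_).trans ?_
  · have a1 : (⨆ c : Fin (k0 + 1),
        |∑ k ∈ Finset.Icc (c : ℕ) k0, b ((x - cen k x) / 2 ^ k) * α k (dI k x)|) ≤ M x + 2 * A * L := by
      refine ciSup_le fun c => ?_
      have a2 := bmY_est hb hA0 hA hL hα (c := c) (by omega) x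
      rw [abs_sub_comm] at a2
      linarith [abs_sub_abs_le_abs_sub
        (∑ k ∈ Finset.Icc (c : ℕ) k0, b ((x - cen k x) / 2 ^ k) * α k (dI k x)) (bmY b α k0 c x),
        hMle x c (Nat.le_of_lt_succ c.2)]
    refine (pow_le_pow_left₀ (Real.iSup_nonneg fun _ => abs_nonneg _) a1 4).trans ?_
    have a3 : A ^ 4 * L ^ 4 ≤ G x := by
      simp only [hG, mul_one]
      exact le_add_of_nonneg_left (by have := hSg0 x; positivity)
    have a4 := add_pow_le (hM0 x) (show 0 ≤ 2 * A * L by positivity) 4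
    norm_num at a4
    nlinarith
  · rw [hi]
    refine (add_le_add le_rfl (mul_le_mul_right hGi _)).trans ?_
    rw [← ENNReal.ofReal_mul (by norm_num), ← ENNReal.ofReal_mul (by norm_num),
      ← ENNReal.ofReal_add (by positivity) (by positivity)]
    refine ENNReal.ofReal_le_ofReal ?_
    have a1 : (100 * A * L) ^ 4 * 2 ^ k0 = 4000000 * g := by
      rw [hg]
      ring
    rw [a1]
    linarith

end Crest.Agent.R87
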