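import Crest.Agent.R87.Api1

/-! # R87: the `L⁴` bound of a positive Carleson sum -/

set_option autoImplicit false

namespace Crest.Agent.R87

open MeasureTheory Set
open scoped ENNReal

theorem car4_add_pow (B a : ℝ≥0∞) (p : ℕ) :
    (B + a) ^ (p + 1) ≤ B ^ (p + 1) + (p + 1 : ℕ) * (a * (B + a) ^ p) := by
  induction p with
  | zero => simp
  | succ p ih =>
    calc (B + a) ^ (p + 1 + 1) = (B + a) * (B + a) ^ (p + 1) := by ring
      _ ≤ (B + a) * (B ^ (p + 1) + (p + 1 : ℕ) * (a * (B + a) ^ p)) := by gcongr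
      _ = B ^ (p + 1 + 1) + (a * B ^ (p + 1) + (p + 1 : ℕ) * (a * (B + a) ^ (p + 1))) := by ring
      _ ≤ B ^ (p + 1 + 1) + (a * (B + a) ^ (p + 1) + (p + 1 : ℕ) * (a * (B + a) ^ (p + 1))) := by
        gcongr
        exact le_self_add
      _ = _ := by push_cast; ring

theorem car4_sum_pow (a : ℕ → ℝ≥0∞) (p n : ℕ) : (∑ k ∈ Finset.range n, a k) ^ (p + 1) ≤
    (p + 1 : ℕ) * ∑ k ∈ Finset.range n, a k * (∑ j ∈ Finset.range (k + 1), a j) ^ p := by
  induction n with
  | zero => simp
  | succ n ih =>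
    rw [Finset.sum_range_succ, Finset.sum_range_succ _ n, mul_add, Finset.sum_range_succ _ n]
    exact (car4_add_pow _ _ p).trans (by gcongr)

/-- an inequality on all intervals of one scale passes to the larger scales -/
theorem car4_up {f g : ℝ → ℝ≥0∞} {k : ℤ}
    (h : ∀ m, ∫⁻ x in dInt k m, f x ≤ ∫⁻ x in dInt k m, g x) {k' : ℤ} (hk : k ≤ k') :
    ∀ m, ∫⁻ x in dInt k' m, f x ≤ ∫⁻ x in dInt k' m, g x := by
  induction k', hk using Int.le_induction with
  | base => exact h
  | succ k' _ ih =>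
    intro m
    rw [dInt_succ, lintegral_union (measurableSet_dInt _ _) (disjoint_dInt _ (by omega)),
      lintegral_union (measurableSet_dInt _ _) (disjoint_dInt _ (by omega))]
    exact add_le_add (ih _) (ih _)

theorem car4_moment (k0 : ℕ) (a : ℕ → ℤ → ℝ≥0∞) (L : ℝ≥0∞)
    (h : ∀ k : ℕ, k ≤ k0 → ∀ m : ℤ, ∫⁻ x in dInt k m, ∑ j ∈ Finset.range (k + 1), a j (dI j x) ≤
      L * ENNReal.ofReal (2 ^ k)) (p : ℕ) : ∀ k : ℕ, k ≤ k0 → ∀ m : ℤ,
    ∫⁻ x in dInt k m, (∑ j ∈ Finset.range (k + 1), a j (dI j x)) ^ p ≤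
      p.factorial * L ^ p * ENNReal.ofReal (2 ^ k) := by
  have ma : ∀ j : ℕ, Measurable fun x => a j (dI j x) := fun j =>
    (measurable_of_countable (a j)).comp (measurable_dI j)
  have mA : ∀ n q : ℕ, Measurable fun x => (∑ j ∈ Finset.range n, a j (dI j x)) ^ q := fun n q =>
    (Finset.measurable_sum _ fun j _ => ma j).pow_const q
  induction p with
  | zero => intro k _ m; simp [volume_dInt]
  | succ p ih =>
    intro k hk m
    have key : ∀ j ∈ Finset.range (k + 1),
        ∫⁻ x in dInt k m, a j (dI j x) * (∑ i ∈ Finset.range (j + 1), a i (dI i x)) ^ p ≤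
          ∫⁻ x in dInt k m, p.factorial * L ^ p * a j (dI j x) := by
      intro j hj
      have hj' : j ≤ k := Nat.lt_succ_iff.1 (Finset.mem_range.1 hj)
      refine car4_up (k := j) (fun m' => ?_) (by exact_mod_cast hj') m
      rw [setLIntegral_congr_fun (measurableSet_dInt _ _) (g := fun x =>
          a j m' * (∑ i ∈ Finset.range (j + 1), a i (dI i x)) ^ p)
          fun x hx => by simp only [mem_dInt.1 hx],
        setLIntegral_congr_fun (measurableSet_dInt _ _)
          (f := fun x => p.factorial * L ^ p * a j (dI j x)) (g := fun x =>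
          p.factorial * L ^ p * a j m') fun x hx => by simp only [mem_dInt.1 hx],
        lintegral_const_mul _ (mA _ _), setLIntegral_const, volume_dInt, zpow_natCast]
      calc _ ≤ a j m' * (p.factorial * L ^ p * ENNReal.ofReal (2 ^ j)) := by
            gcongr
            exact ih j (hj'.trans hk) m'
        _ = _ := by ring
    calc _ ≤ ∫⁻ x in dInt k m, (p + 1 : ℕ) * ∑ j ∈ Finset.range (k + 1),
          a j (dI j x) * (∑ i ∈ Finset.range (j + 1), a i (dI i x)) ^ p :=
          lintegral_mono fun x => car4_sum_pow (fun j => a j (dI j x)) p (k + 1)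
      _ = (p + 1 : ℕ) * ∑ j ∈ Finset.range (k + 1), ∫⁻ x in dInt k m,
          a j (dI j x) * (∑ i ∈ Finset.range (j + 1), a i (dI i x)) ^ p := by
          rw [lintegral_const_mul _ (Finset.measurable_sum _ fun j _ => (ma j).fun_mul (mA _ _)),
            lintegral_finsetSum _ fun j _ => (ma j).fun_mul (mA _ _)]
      _ ≤ (p + 1 : ℕ) * ∑ j ∈ Finset.range (k + 1), ∫⁻ x in dInt k m,
          p.factorial * L ^ p * a j (dI j x) := by
          exact mul_le_mul_right (Finset.sum_le_sum key) _
      _ = (p + 1 : ℕ) * (p.factorial * L ^ p *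
          ∫⁻ x in dInt k m, ∑ j ∈ Finset.range (k + 1), a j (dI j x)) := by
          rw [lintegral_finsetSum _ fun j _ => ma j]
          simp only [lintegral_const_mul _ (ma _), Finset.mul_sum]
      _ ≤ (p + 1 : ℕ) * (p.factorial * L ^ p * (L * ENNReal.ofReal (2 ^ k))) := by
          gcongr
          exact h k hk m
      _ = _ := by rw [Nat.factorial_succ]; push_cast; ring

theorem car4 : Car4Stmt := by
  intro k0 m0 c L hL hc h
  have e : ∀ (n : ℕ) (x : ℝ), ENNReal.ofReal (∑ j ∈ Finset.range n, c j (dI j x)) =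
      ∑ j ∈ Finset.range n, ENNReal.ofReal (c j (dI j x)) := fun n x =>
    ENNReal.ofReal_sum_of_nonneg fun j _ => hc _ _
  have := car4_moment k0 (fun j m => ENNReal.ofReal (c j m)) (ENNReal.ofReal L)
    (fun k hk m => by
      rw [← ENNReal.ofReal_mul hL]
      simpa only [e] using h k hk m) 4 k0 le_rfl m0
  simp only [← e, ← ENNReal.ofReal_pow (Finset.sum_nonneg fun j _ => hc _ _)] at this
  refine this.trans_eq ?_
  rw [ENNReal.ofReal_mul (by positivity), ENNReal.ofReal_mul (by norm_num), ENNReal.ofReal_pow hL]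
  norm_num [Nat.factorial]

end Crest.Agent.R87
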