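import Crest.Agent.R87.Api2

/-! # R87: Carleson bound of the frozen coefficients (`CoefStmt`). -/

set_option autoImplicit false

namespace Crest.Agent.R87

open MeasureTheory Set
open scoped ENNReal

theorem cf_int_sq {α : ℤ → ℝ} {B : ℝ} (hB : ∀ m, |α m| ≤ B) (k' k m : ℤ) :
    IntegrableOn (fun x => α (dI k' x) ^ 2) (dInt k m) := by
  refine Measure.integrableOn_of_bounded (M := B ^ 2) (by rw [volume_dInt]; exact ENNReal.ofReal_ne_top)
    ((measurable_of_countable fun m => α m ^ 2).comp (measurable_dI k')).aestronglyMeasurable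
    (ae_of_all _ fun x => ?_)
  rw [Real.norm_eq_abs, abs_pow]
  exact pow_le_pow_left₀ (abs_nonneg _) (hB _) 2

theorem cf_int_mul {φ : P2 → ℝ} (hφ : Integrable φ) {α : ℤ → ℝ} {B : ℝ} (hB : ∀ m, |α m| ≤ B) (k' : ℤ) :
    Integrable fun z : P2 => φ z * α (dI k' z.1) :=
  hφ.mul_bdd ((measurable_of_countable α).comp
    ((measurable_dI k').comp measurable_fst)).aestronglyMeasurable (ae_of_all _ fun _ => hB _)

theorem cf_key {φ : P2 → ℝ} (hφ : Integrable φ) (k' : ℕ) {α : ℤ → ℝ} {B : ℝ} (hB : ∀ m, |α m| ≤ B)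
    (hα : ∀ m, α m = ((2 : ℝ) ^ k')⁻¹ * ∫ z in {z : P2 | dI k' z.1 = m}, φ z) (i : ℕ) (m : ℤ) :
    ∫ x in dInt ((k' : ℤ) + i) m, α (dI k' x) ^ 2 =
      ∫ z in {z : P2 | dI ((k' : ℤ) + i) z.1 = m}, φ z * α (dI k' z.1) := by
  induction i generalizing m with
  | zero =>
    simp only [Nat.cast_zero, add_zero]
    rw [setIntegral_congr_fun (measurableSet_dInt _ _) (g := fun _ => α m ^ 2)
      (fun x hx => by simp only [mem_dInt.1 hx]),
      setIntegral_congr_fun (measurableSet_dI_fst _ _) (g := fun z => φ z * α m)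
      (fun z hz => by simp only [show dI k' z.1 = m from hz]), integral_mul_const, setIntegral_const,
      Measure.real, volume_dInt, ENNReal.toReal_ofReal (by positivity), zpow_natCast, smul_eq_mul]
    have : ∫ z in {z : P2 | dI k' z.1 = m}, φ z = 2 ^ k' * α m := by
      rw [hα]
      field_simp
    rw [this]
    ring
  | succ i ih =>
    have e : (k' : ℤ) + (i + 1 : ℕ) = (k' : ℤ) + i + 1 := by push_cast; ring
    have e' : {z : P2 | dI ((k' : ℤ) + i + 1) z.1 = m} =
        {z : P2 | dI ((k' : ℤ) + i) z.1 = 2 * m} ∪ {z : P2 | dI ((k' : ℤ) + i) z.1 = 2 * m + 1} := by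
      ext z
      simp only [mem_union, mem_ofPred_eq, dI_succ]
      omega
    rw [e, dInt_succ, e', setIntegral_union (disjoint_dInt _ (by omega)) (measurableSet_dInt _ _)
      (cf_int_sq hB _ _ _) (cf_int_sq hB _ _ _), setIntegral_union
        (disjoint_left.2 fun z h h' => by
          have h1 : dI ((k' : ℤ) + i) z.1 = 2 * m := h
          have h2 : dI ((k' : ℤ) + i) z.1 = 2 * m + 1 := h'
          omega) (measurableSet_dI_fst _ _) (cf_int_mul hφ hB _).integrableOn
        (cf_int_mul hφ hB _).integrableOn, ih, ih]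

open Classical in
theorem cf_interval {p : ℕ → Prop} (hp : ∀ k1 k2 k3, k1 ≤ k2 → k2 ≤ k3 → p k1 → p k3 → p k2)
    {a k : ℕ} (hak : a ≤ k) (ha : p a) (hmin : ∀ j, j < a → ¬p j) (t t' : ℕ → ℝ)
    (ht : ∀ j, a ≤ j → t j = t' j) {M : ℝ} (hM : ∀ c, c ≤ k → |∑ j ∈ Finset.Icc c k, t' j| ≤ M) :
    |∑ j ∈ Finset.range (k + 1), if p j then t j else 0| ≤ 2 * M := by
  have hb : p (Nat.findGreatest p k) := Nat.findGreatest_spec hak ha
  have hbk : Nat.findGreatest p k ≤ k := Nat.findGreatest_le k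
  have hab : a ≤ Nat.findGreatest p k := Nat.le_findGreatest hak ha
  have hmax : ∀ j, j ≤ k → p j → j ≤ Nat.findGreatest p k := fun j hj h => Nat.le_findGreatest hj h
  generalize Nat.findGreatest p k = b at hb hbk hab hmax
  have e : (Finset.range (k + 1)).filter p = Finset.Ico a (b + 1) := by
    ext j
    simp only [Finset.mem_filter, Finset.mem_range, Finset.mem_Ico]
    constructor
    · rintro ⟨h1, h2⟩
      exact ⟨not_lt.1 fun h => hmin j h h2, Nat.lt_succ_of_le (hmax j (by omega) h2)⟩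
    · rintro ⟨h1, h2⟩
      exact ⟨by omega, hp a j b h1 (by omega) ha hb⟩
  rw [← Finset.sum_filter, e, Finset.sum_congr rfl fun j hj => ht j (Finset.mem_Ico.1 hj).1]
  have h1 := Finset.sum_Ico_consecutive t' (show a ≤ b + 1 by omega) (show b + 1 ≤ k + 1 by omega)
  have h2 := hM a hak
  have h3 : |∑ j ∈ Finset.Ico (b + 1) (k + 1), t' j| ≤ M := by
    rcases hbk.eq_or_lt with rfl | h
    · rw [Finset.Ico_self, Finset.sum_empty, abs_zero]
      exact (abs_nonneg _).trans h2
    · rw [Finset.Ico_add_one_right_eq_Icc]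
      exact hM _ h
  rw [← Finset.Ico_add_one_right_eq_Icc, ← h1] at h2
  rw [abs_le] at h2 h3 ⊢
  constructor <;> linarith [h2.1, h2.2, h3.1, h3.2]

/-- The Haar maximal function. -/
noncomputable def cfM (γ : ℕ → ℤ → ℝ) (k : ℕ) (x : ℝ) : ℝ :=
  ⨆ c : Fin (k + 1), |∑ j ∈ Finset.Icc (c : ℕ) k, haar j x * γ j (dI j x)|

theorem cf_measurable_M (γ : ℕ → ℤ → ℝ) (k : ℕ) : Measurable (cfM γ k) :=
  Measurable.iSup fun _ => (Finset.measurable_sum _ fun (j : ℕ) _ => (measurable_haar j).mul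
    ((measurable_of_countable (γ j)).comp (measurable_dI j))).abs

theorem cf_le_M (γ : ℕ → ℤ → ℝ) {c k : ℕ} (h : c ≤ k) (x : ℝ) :
    |∑ j ∈ Finset.Icc c k, haar j x * γ j (dI j x)| ≤ cfM γ k x :=
  le_ciSup (f := fun c : Fin (k + 1) => |∑ j ∈ Finset.Icc (c : ℕ) k, haar j x * γ j (dI j x)|)
    (Finite.bddAbove_range _) ⟨c, Nat.lt_succ_of_le h⟩

theorem coefL (h1 : DoobStmt) (h2 : LTStmt) : CoefStmt := by
  classical
  intro ψ hψ
  obtain ⟨A, hA1, hA, -⟩ := hψ.exists_lip
  have hA0 : 0 ≤ A := zero_le_one.trans hA1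
  refine ⟨8 * A, by positivity, fun u _ G hG S hS g hg s β ρ d k0 hd hρ hD k hk m => ?_⟩
  set γ := alpha ψ S g s β with hγ
  -- the integrands
  let φ : ℕ → P2 → ℝ := fun j => (S j).indicator fun z => g z * haar j z.1 * ψ (β - (z.2 - s * z.1))
  have hφ : ∀ j, Integrable (φ j) := fun j => by
    refine (integrable_indicator_iff (hS.meas j)).2 (Measure.integrableOn_of_bounded (M := A)
      (((hG.subset (hS.sub j)).measure_lt_top).ne) ?_ (ae_of_all _ fun z => ?_))
    · exact ((hg.meas.mul ((measurable_haar j).comp measurable_fst)).mul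
        (hψ.smooth.continuous.measurable.comp (by fun_prop))).aestronglyMeasurable
    · rw [Real.norm_eq_abs, abs_mul, abs_mul, abs_haar, mul_one]
      exact (mul_le_mul (hg.bdd z) (hA _) (abs_nonneg _) zero_le_one).trans_eq (one_mul A)
  have hα : ∀ (j : ℕ) (m' : ℤ), γ j m' = ((2 : ℝ) ^ j)⁻¹ * ∫ z in {z : P2 | dI j z.1 = m'}, φ j z :=
    fun j m' => by rw [hγ, alpha, setIntegral_indicator (hS.meas j), inter_comm]
  have hB : ∀ (j : ℕ) (m' : ℤ), |γ j m'| ≤ ((2 : ℝ) ^ j)⁻¹ * ∫ z, ‖φ j z‖ := fun j m' => by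
    rw [hα, abs_mul, abs_of_nonneg (by positivity : (0 : ℝ) ≤ ((2 : ℝ) ^ j)⁻¹)]
    refine mul_le_mul_of_nonneg_left (abs_integral_le_integral_abs.trans ?_) (by positivity)
    exact setIntegral_le_integral (hφ j).norm (ae_of_all _ fun _ => abs_nonneg _)
  -- the quantity to estimate
  set X : ℝ := ∫ x in dInt k m, ∑ j ∈ Finset.range (k + 1), γ j (dI j x) ^ 2 with hX
  have hX0 : 0 ≤ X := integral_nonneg fun x => Finset.sum_nonneg fun _ _ => sq_nonneg _
  have hXl : ∫⁻ x in dInt k m, ENNReal.ofReal (∑ j ∈ Finset.range (k + 1), γ j (dI j x) ^ 2) =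
      ENNReal.ofReal X :=
    (ofReal_integral_eq_lintegral_ofReal (integrable_finsetSum _ fun j _ => cf_int_sq (hB j) _ _ _)
      (ae_of_all _ fun x => Finset.sum_nonneg fun _ _ => sq_nonneg _)).symm
  have hX1 : X = ∫ z in {z : P2 | dI k z.1 = m}, ∑ j ∈ Finset.range (k + 1), φ j z * γ j (dI j z.1) := by
    rw [hX, integral_finsetSum _ fun j _ => cf_int_sq (hB j) _ _ _,
      integral_finsetSum _ fun j _ => (cf_int_mul (hφ j) (hB j) _).integrableOn]
    refine Finset.sum_congr rfl fun j hj => ?_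
    obtain ⟨i, rfl⟩ := Nat.exists_eq_add_of_le (Nat.lt_succ_iff.1 (Finset.mem_range.1 hj))
    exact_mod_cast cf_key (hφ j) j (hB j) (hα j) i m
  -- the partition argument
  let W : ℕ → Set P2 := fun j => S j ∩ {z | |z.2 - s * z.1 - β| ≤ 1}
  have hW : ∀ j, MeasurableSet (W j) := fun j =>
    (hS.meas j).inter (measurableSet_le (by fun_prop) measurable_const)
  let T : P2 → ℝ := fun z =>
    ∑ j ∈ Finset.range (k + 1), if z ∈ S j then haar j z.1 * γ j (dI j z.1) else 0
  have hZ : MeasurableSet {z : P2 | (∃ j, j ≤ k ∧ z ∈ W j) ∧ dI k z.1 = m} := by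
    refine MeasurableSet.inter ?_ (measurableSet_dI_fst _ _)
    show MeasurableSet {z : P2 | ∃ j, j ≤ k ∧ z ∈ W j}
    rw [ofPred_exists]
    exact MeasurableSet.iUnion fun j => (MeasurableSet.const _).inter (hW j)
  have hLT := h2 k m W (ENNReal.ofReal d) (fun z => ENNReal.ofReal |T z|)
    (fun x => ENNReal.ofReal (2 * cfM γ k x)) hW
    (measurable_const.mul (cf_measurable_M γ k)).ennreal_ofReal
    (fun j hj m' ⟨j', hj', z, hz, e⟩ => by
      refine le_trans (measure_mono ?_) ((hD j (hj.trans hk) m' ⟨j', hj', z, hz.1, e, hz.2⟩).trans_eq ?_)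
      · rintro w ⟨⟨i, hi, -, hw⟩, e'⟩
        exact ⟨hS.sub i hw.1, e', hw.2, le_trans (mul_le_mul_of_nonneg_right
          (pow_le_pow_right₀ one_le_two hi) (abs_nonneg _)) (hρ i w hw.1)⟩
      · rw [ENNReal.ofReal_mul hd, ENNReal.ofReal_pow zero_le_two, ENNReal.ofReal_ofNat])
    (fun z a ha hz hmin x hx => by
      refine ENNReal.ofReal_le_ofReal (cf_interval (p := fun j => z ∈ S j) (hS.conv z) ha hz.1
        (fun j hj h => hmin j hj ⟨h, hz.2⟩) _ (fun j => haar j x * γ j (dI j x)) (fun j hj => ?_)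
        fun c hc => cf_le_M γ hc x)
      have e1 : dI ((j : ℤ) - 1) x = dI ((j : ℤ) - 1) z.1 := dI_eq_of_le (by omega) hx
      have e2 : dI j x = dI j z.1 := dI_eq_of_le (by omega) hx
      simp only [haar, e1, e2])
  have hX2 : ENNReal.ofReal X ≤ ENNReal.ofReal A *
      ∫⁻ z in {z : P2 | (∃ j, j ≤ k ∧ z ∈ W j) ∧ dI k z.1 = m}, ENNReal.ofReal |T z| := by
    rw [hX1, ← lintegral_const_mul' _ _ ENNReal.ofReal_ne_top, ← lintegral_indicator hZ]
    refine (Real.ofReal_le_enorm _).trans ((enorm_integral_le_lintegral_enorm _).trans ?_)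
    rw [← lintegral_indicator (measurableSet_dI_fst _ _)]
    refine lintegral_mono fun z => ?_
    by_cases hz : dI k z.1 = m
    swap
    · rw [indicator_of_notMem (show z ∉ {z : P2 | dI k z.1 = m} from hz)]
      exact zero_le
    rw [indicator_of_mem (show z ∈ {z : P2 | dI k z.1 = m} from hz)]
    have e : ∑ j ∈ Finset.range (k + 1), φ j z * γ j (dI j z.1) =
        g z * ψ (β - (z.2 - s * z.1)) * T z := by
      rw [Finset.mul_sum]
      refine Finset.sum_congr rfl fun j _ => ?_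
      by_cases h : z ∈ S j
      · simp only [φ, indicator_of_mem h, if_pos h]
        ring
      · simp only [φ, indicator_of_notMem h, if_neg h, zero_mul, mul_zero]
    rw [e]
    by_cases hz' : ∃ j, j ≤ k ∧ z ∈ W j
    · rw [indicator_of_mem (show z ∈ {z : P2 | (∃ j, j ≤ k ∧ z ∈ W j) ∧ dI k z.1 = m} from ⟨hz', hz⟩),
        ← ENNReal.ofReal_mul hA0, Real.enorm_eq_ofReal_abs, abs_mul, abs_mul]
      refine ENNReal.ofReal_le_ofReal (mul_le_mul_of_nonneg_right ?_ (abs_nonneg _))
      exact (mul_le_mul (hg.bdd z) (hA _) (abs_nonneg _) zero_le_one).trans_eq (one_mul A)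
    · have : g z * ψ (β - (z.2 - s * z.1)) * T z = 0 := by
        by_cases hc : |z.2 - s * z.1 - β| ≤ 1
        · have : T z = 0 := Finset.sum_eq_zero fun j hj => if_neg fun h =>
            hz' ⟨j, Nat.lt_succ_iff.1 (Finset.mem_range.1 hj), h, hc⟩
          rw [this, mul_zero]
        · rw [hψ.supp _ (by rw [abs_sub_comm]; exact (not_le.1 hc).le), mul_zero, zero_mul]
      rw [this, enorm_zero]
      exact zero_le
  have hX3 : ENNReal.ofReal A * (2 * ENNReal.ofReal d *
      ∫⁻ x in dInt k m, ENNReal.ofReal (2 * cfM γ k x)) ≤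
      ENNReal.ofReal ((8 * A * d) ^ 2 / 2 * 2 ^ k + X / 2) := by
    have e : ENNReal.ofReal A * (2 * ENNReal.ofReal d) = ENNReal.ofReal (A * (2 * d)) := by
      rw [ENNReal.ofReal_mul hA0, ENNReal.ofReal_mul zero_le_two, ENNReal.ofReal_ofNat]
    rw [← mul_assoc, e, ← lintegral_const_mul' _ _ ENNReal.ofReal_ne_top]
    calc _ ≤ ∫⁻ x in dInt k m, (ENNReal.ofReal ((8 * A * d) ^ 2 / 2) +
          ENNReal.ofReal (1 / 8) * ENNReal.ofReal (cfM γ k x ^ 2)) := by
          refine lintegral_mono fun x => ?_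
          rw [← ENNReal.ofReal_mul (by positivity), ← ENNReal.ofReal_mul (by positivity),
            ← ENNReal.ofReal_add (by positivity) (by positivity)]
          exact ENNReal.ofReal_le_ofReal (by nlinarith [sq_nonneg (8 * A * d - cfM γ k x / 2)])
      _ = ENNReal.ofReal ((8 * A * d) ^ 2 / 2) * ENNReal.ofReal (2 ^ k) +
          ENNReal.ofReal (1 / 8) * ∫⁻ x in dInt k m, ENNReal.ofReal (cfM γ k x ^ 2) := by
          rw [lintegral_add_left measurable_const, lintegral_const_mul' _ _ ENNReal.ofReal_ne_top,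
            setLIntegral_const, volume_dInt, zpow_natCast]
      _ ≤ ENNReal.ofReal ((8 * A * d) ^ 2 / 2) * ENNReal.ofReal (2 ^ k) +
          ENNReal.ofReal (1 / 8) * (4 * ENNReal.ofReal X) := by
          rw [← hXl]
          gcongr
          exact h1 k m γ
      _ = _ := by
          rw [← ENNReal.ofReal_ofNat 4, ← ENNReal.ofReal_mul (by positivity),
            ← ENNReal.ofReal_mul (by positivity), ← ENNReal.ofReal_mul (by positivity),
            ← ENNReal.ofReal_add (by positivity) (by positivity)]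
          congr 1
          ring
  have hX4 := (ENNReal.ofReal_le_ofReal_iff (by positivity)).1
    (hX2.trans ((mul_le_mul_right hLT _).trans hX3))
  rw [hXl]
  exact ENNReal.ofReal_le_ofReal (by linarith)

end Crest.Agent.R87
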