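import Crest.Agent.R87.AOne

/-! # R87 part A: the two restricted estimates for the model operator -/

set_option autoImplicit false

namespace Crest.Agent.R87

open MeasureTheory Set
open scoped ENNReal

theorem a_core_num {K c r A : ℝ} {D j : ℕ} (hK : 1 ≤ K) (c0 : 0 < c) (c1 : c ≤ 1 / 2000)
    (c2 : ((2 : ℝ) ^ D) ^ (3 * c) ≤ 20 / 19) (c3 : (4 : ℝ) ^ c ≤ 20 / 19) (r0 : 0 < r) (A0 : 0 ≤ A)
    (h1 : A ≤ K * ((19 / 20) ^ j) ^ 2 * r ^ (1 / 2 : ℝ))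
    (h2 : r ≤ 1 → K * 2 ^ (D * j) ≤ r ^ (-(499 / 1000 : ℝ)) → A ≤ K * r ^ (501 / 1000 : ℝ))
    (h3 : A ≤ K * ((19 / 20) ^ j) ^ 2 * ((4 : ℝ) ^ j) ^ (1 / 2 : ℝ)) :
    A ≤ K ^ 2 * (19 / 20) ^ j * r ^ (1 / 2 + c) ∧ A ≤ K ^ 2 * (19 / 20) ^ j * r ^ (1 / 2 - c) := by
  have K0 : 0 < K := by linarith
  rcases le_total r 1 with r1 | r1
  · have a := a_core_small hK c0 c1 c2 r0 r1 A0 h1 (h2 r1)
    exact ⟨a, a.trans (mul_le_mul_of_nonneg_left
      (Real.rpow_le_rpow_of_exponent_ge r0 r1 (by linarith)) (by positivity))⟩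
  · have a : A ≤ K ^ 2 * (19 / 20) ^ j * r ^ (1 / 2 - c) := by
      have s0 : 0 < min r (4 ^ j) := lt_min r0 (by positivity)
      have a1 : A ≤ K * ((19 / 20) ^ j) ^ 2 * (min r (4 ^ j)) ^ (1 / 2 : ℝ) := by
        rcases min_choice r (4 ^ j) with e | e <;> rwa [e]
      have a2 : (min r (4 ^ j)) ^ (1 / 2 : ℝ) ≤ r ^ (1 / 2 - c) * (20 / 19) ^ j := by
        rw [show (1 / 2 : ℝ) = 1 / 2 - c + c by ring, Real.rpow_add s0, sub_add_cancel]
        refine mul_le_mul (Real.rpow_le_rpow s0.le (min_le_left _ _) (by linarith))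
          ((Real.rpow_le_rpow s0.le (min_le_right _ _) c0.le).trans ?_) (by positivity) (by positivity)
        rw [← Real.rpow_natCast_mul (by norm_num), mul_comm, Real.rpow_mul_natCast (by norm_num)]
        exact pow_le_pow_left₀ (by positivity) c3 j
      have a3 : ((19 / 20 : ℝ) ^ j) * (20 / 19) ^ j = 1 := by rw [← mul_pow]; norm_num
      calc A ≤ K * ((19 / 20) ^ j) ^ 2 * (r ^ (1 / 2 - c) * (20 / 19) ^ j) :=
            a1.trans (mul_le_mul_of_nonneg_left a2 (by positivity))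
        _ = K * (19 / 20) ^ j * r ^ (1 / 2 - c) * ((19 / 20) ^ j * (20 / 19) ^ j) := by ring
        _ ≤ _ := by rw [a3, mul_one]; gcongr; nlinarith
    exact ⟨a.trans (mul_le_mul_of_nonneg_left
      (Real.rpow_le_rpow_of_exponent_le r1 (by linarith)) (by positivity)), a⟩

theorem a_sum400 (n : ℕ) : ∑ j ∈ Finset.range n, ((j : ℝ) + 1) * (19 / 20) ^ j ≤ 400 := by
  have : ∑ j ∈ Finset.range n, ((j : ℝ) + 1) * (19 / 20) ^ j = 400 - (20 * n + 400) * (19 / 20) ^ n := by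
    induction n with
    | zero => simp
    | succ n ih => rw [Finset.sum_range_succ, ih]; push_cast; ring
  rw [this]
  exact sub_le_self _ (by positivity)

theorem a_cs {Φ : P2 → ℝ} (hΦ : Measurable Φ) {F : Set P2} {B X : ℝ} (hB : 0 ≤ B) (hX : 0 ≤ X)
    (h : ∫⁻ z, ENNReal.ofReal (Φ z ^ 2) ≤ ENNReal.ofReal B) (hF : volume F ≤ ENNReal.ofReal X) :
    ∫⁻ z in F, ENNReal.ofReal |Φ z| ≤ ENNReal.ofReal (√B * √X) := by
  have h1 := ENNReal.lintegral_mul_le_Lp_mul_Lq (volume.restrict F) Real.HolderConjugate.two_two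
    (f := fun z => ENNReal.ofReal |Φ z|) (g := fun _ => 1) hΦ.abs.ennreal_ofReal.aemeasurable aemeasurable_const
  have e : ∀ z, ENNReal.ofReal |Φ z| ^ (2 : ℝ) = ENNReal.ofReal (Φ z ^ 2) := fun z => by
    rw [ENNReal.ofReal_rpow_of_nonneg (abs_nonneg _) zero_le_two, Real.rpow_two, sq_abs]
  simp only [Pi.mul_apply, mul_one, e, ENNReal.one_rpow, setLIntegral_one] at h1
  rw [ENNReal.ofReal_mul (Real.sqrt_nonneg _), Real.sqrt_eq_rpow, Real.sqrt_eq_rpow,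
    ← ENNReal.ofReal_rpow_of_nonneg hB (by norm_num), ← ENNReal.ofReal_rpow_of_nonneg hX (by norm_num)]
  exact h1.trans (mul_le_mul' (ENNReal.rpow_le_rpow ((setLIntegral_le_lintegral _ _).trans h) (by norm_num))
    (ENNReal.rpow_le_rpow hF (by norm_num)))

theorem a_cs2 {Φ : P2 → ℝ} (hΦ : Measurable Φ) {F : Set P2} (hF : volume F ≠ ∞) {B X τ : ℝ} (hB : 0 ≤ B)
    (hX : 0 ≤ X) (hτ : 0 ≤ τ) (h : ∫⁻ z, ENNReal.ofReal (Φ z ^ 2) ≤ ENNReal.ofReal B)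
    (hv : volume {z | τ < |Φ z|} ≤ ENNReal.ofReal X) :
    ∫⁻ z in F, ENNReal.ofReal |Φ z| ≤ ENNReal.ofReal (τ * (volume F).toReal + √B * √X) := by
  have hm : MeasurableSet {z | τ < |Φ z|} := measurableSet_lt measurable_const hΦ.abs
  rw [← lintegral_inter_add_sdiff _ F hm, add_comm, ENNReal.ofReal_add (by positivity) (by positivity),
    ENNReal.ofReal_mul hτ, ENNReal.ofReal_toReal hF]
  refine add_le_add ?_ (a_cs hΦ hB hX h ((measure_mono inter_subset_right).trans hv))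
  refine (setLIntegral_mono measurable_const fun z hz => ENNReal.ofReal_le_ofReal (not_lt.1 hz.2)).trans ?_
  rw [setLIntegral_const]
  exact mul_le_mul_right (measure_mono sdiff_subset) _

theorem a_forest {Φ : P2 → ℝ} (hΦ : Measurable Φ) {F : Set P2} (hF : volume F ≠ ∞) {γ C2 C3 K c : ℝ} {D j : ℕ}
    (γ0 : 0 ≤ γ) (C20 : 0 ≤ C2) (C30 : 0 ≤ C3) (k1 : 1 + √C2 * √C3 ≤ K) (k2 : √C2 * 20 ≤ K) (k3 : C3 ≤ K)
    (c0 : 0 < c) (c1 : c ≤ 1 / 2000) (c2 : ((2 : ℝ) ^ D) ^ (3 * c) ≤ 20 / 19) (c3 : (4 : ℝ) ^ c ≤ 20 / 19)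
    (h1 : ∫⁻ z, ENNReal.ofReal (Φ z ^ 2) ≤ ENNReal.ofReal (C2 * (3 / 4) ^ j * γ))
    (h2 : ∀ τ : ℝ, C3 * 2 ^ (D * j) ≤ τ →
      volume {z | τ < |Φ z|} ≤ ENNReal.ofReal (C3 * τ ^ (-(2 + 1 / 100 : ℝ)) * γ))
    (h3 : volume {z | 0 < |Φ z|} ≤ ENNReal.ofReal (400 * 4 ^ j * γ)) :
    ∫⁻ z in F, ENNReal.ofReal |Φ z| ≤ ENNReal.ofReal ((19 / 20) ^ j *
        (K ^ 2 * (volume F).toReal ^ (1 / 2 + c) * γ ^ (1 / 2 - c))) ∧
      ∫⁻ z in F, ENNReal.ofReal |Φ z| ≤ ENNReal.ofReal ((19 / 20) ^ j *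
        (K ^ 2 * (volume F).toReal ^ (1 / 2 - c) * γ ^ (1 / 2 + c))) := by
  have B0 : 0 ≤ C2 * (3 / 4) ^ j * γ := by positivity
  have b1 := a_cs hΦ B0 ENNReal.toReal_nonneg h1 (ENNReal.ofReal_toReal hF).ge
  have b2 := fun τ (τ0 : 0 < τ) hτ => a_cs2 hΦ hF B0 (by positivity) τ0.le h1 (h2 τ hτ)
  have b3 := a_cs2 hΦ hF B0 (by positivity) le_rfl h1 h3
  have f0 : 0 ≤ (volume F).toReal := ENNReal.toReal_nonneg
  generalize (volume F).toReal = f at *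
  generalize ∫⁻ z in F, ENNReal.ofReal |Φ z| = I at *
  rcases γ0.eq_or_lt with rfl | γ1
  · simp only [mul_zero, Real.sqrt_zero, zero_mul, ENNReal.ofReal_zero] at b1
    exact ⟨b1.trans zero_le, b1.trans zero_le⟩
  rcases f0.eq_or_lt with rfl | f1
  · simp only [mul_zero, Real.sqrt_zero, ENNReal.ofReal_zero] at b1
    exact ⟨b1.trans zero_le, b1.trans zero_le⟩
  obtain ⟨r, rfl⟩ : ∃ r, f = r * γ := ⟨f / γ, by field_simp⟩
  have r0 : 0 < r := (mul_pos_iff_of_pos_right γ1).1 f1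
  have s1 : ∀ Y, 0 ≤ Y → √(C2 * (3 / 4) ^ j * γ) * √(Y * γ) ≤ √C2 * ((19 / 20) ^ j) ^ 2 * √Y * γ := fun Y hY => by
    rw [Real.sqrt_mul (by positivity), Real.sqrt_mul C20, Real.sqrt_mul hY]
    calc _ = √C2 * √((3 / 4) ^ j) * √Y * (√γ * √γ) := by ring
      _ ≤ _ := by rw [Real.mul_self_sqrt γ0]; gcongr; exact a_sqrt_geom j
  have s2 : ∀ X, 0 ≤ X → I ≤ ENNReal.ofReal (X * γ) → I.toReal / γ ≤ X := fun X hX h =>
    (div_le_iff₀ γ1).2 (ENNReal.toReal_le_of_le_ofReal (by positivity) h)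
  have s3 : ∀ a a' : ℝ, a + a' = 1 → I.toReal / γ ≤ K ^ 2 * (19 / 20) ^ j * r ^ a →
      I ≤ ENNReal.ofReal ((19 / 20) ^ j * (K ^ 2 * (r * γ) ^ a * γ ^ a')) := fun a a' e h => by
    rw [← ENNReal.ofReal_toReal (ne_top_of_le_ne_top ENNReal.ofReal_ne_top b1)]
    refine ENNReal.ofReal_le_ofReal (((div_le_iff₀ γ1).1 h).trans_eq ?_)
    rw [Real.mul_rpow r0.le γ0, mul_assoc (K ^ 2) _ (γ ^ a'), mul_assoc (r ^ a), ← Real.rpow_add γ1, e,
      Real.rpow_one]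
    ring
  have C1 : 0 ≤ √C2 * √C3 := by positivity
  have C4 : √C2 ≤ K := by linarith [Real.sqrt_nonneg C2]
  have K0 : 0 ≤ K := by linarith
  obtain ⟨d1, d2⟩ := a_core_num (K := K) (A := I.toReal / γ) (j := j) (by linarith) c0 c1 c2 c3 r0
    (by positivity) (s2 _ (by positivity) (b1.trans (ENNReal.ofReal_le_ofReal ((s1 r r0.le).trans (by
      rw [Real.sqrt_eq_rpow r]; gcongr)))))
    (fun r1 hτ => s2 _ (by positivity) ((b2 _ (by positivity) (le_trans (by gcongr) hτ)).trans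
      (ENNReal.ofReal_le_ofReal ((add_le_add le_rfl (s1 _ (by positivity))).trans (by
        have e1 : r ^ (-(499 / 1000 : ℝ)) * r = r ^ (501 / 1000 : ℝ) := by
          rw [← Real.rpow_add_one r0.ne']; norm_num
        have e2 : √((r ^ (-(499 / 1000 : ℝ))) ^ (-(2 + 1 / 100 : ℝ))) ≤ r ^ (501 / 1000 : ℝ) := by
          rw [Real.sqrt_eq_rpow, ← Real.rpow_mul r0.le, ← Real.rpow_mul r0.le]
          exact Real.rpow_le_rpow_of_exponent_ge r0 r1 (by norm_num)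
        have e3 : ((19 / 20 : ℝ) ^ j) ^ 2 ≤ 1 := pow_le_one₀ (by positivity) (pow_le_one₀ (by norm_num) (by norm_num))
        rw [← mul_assoc, e1, Real.sqrt_mul C30]
        calc _ ≤ r ^ (501 / 1000 : ℝ) * γ + √C2 * 1 * (√C3 * r ^ (501 / 1000 : ℝ)) * γ := by gcongr
          _ = (1 + √C2 * √C3) * r ^ (501 / 1000 : ℝ) * γ := by ring
          _ ≤ _ := by gcongr)))))
    (s2 _ (by positivity) (b3.trans (ENNReal.ofReal_le_ofReal ((add_le_add le_rfl (s1 _ (by positivity))).trans (by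
      rw [zero_mul, zero_add, Real.sqrt_mul (by norm_num), Real.sqrt_eq_rpow (4 ^ j),
        show √(400 : ℝ) = 20 by rw [Real.sqrt_eq_iff_mul_self_eq] <;> norm_num]
      calc _ = √C2 * 20 * ((19 / 20) ^ j) ^ 2 * ((4 : ℝ) ^ j) ^ (1 / 2 : ℝ) * γ := by ring
        _ ≤ _ := by gcongr)))))
  exact ⟨s3 _ _ (by ring) d1, s3 _ _ (by ring) d2⟩

theorem a_sum {Φ : ℕ → ℕ → P2 → ℝ} (hΦ : ∀ j j0, Measurable (Φ j j0)) {F : Set P2} {Z : ℝ} (Z0 : 0 ≤ Z) (n : ℕ)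
    (h : ∀ j j0, j0 ≤ j → ∫⁻ z in F, ENNReal.ofReal |Φ j j0 z| ≤ ENNReal.ofReal ((19 / 20) ^ j * Z)) :
    ∫⁻ z in F, ENNReal.ofReal |∑ j ∈ Finset.range n, ∑ j0 ∈ Finset.range (j + 1), Φ j j0 z| ≤
      ENNReal.ofReal (400 * Z) := by
  calc _ ≤ ∫⁻ z in F, ∑ j ∈ Finset.range n, ∑ j0 ∈ Finset.range (j + 1), ENNReal.ofReal |Φ j j0 z| := by
        refine lintegral_mono fun z => ?_
        simp only [← ENNReal.ofReal_sum_of_nonneg fun _ _ => abs_nonneg _]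
        rw [← ENNReal.ofReal_sum_of_nonneg fun _ _ => Finset.sum_nonneg fun _ _ => abs_nonneg _]
        exact ENNReal.ofReal_le_ofReal ((Finset.abs_sum_le_sum_abs _ _).trans
          (Finset.sum_le_sum fun _ _ => Finset.abs_sum_le_sum_abs _ _))
    _ ≤ ∑ j ∈ Finset.range n, ENNReal.ofReal (((j : ℝ) + 1) * (19 / 20) ^ j * Z) := by
        rw [lintegral_finsetSum _ fun j _ => Finset.measurable_sum _ fun j0 _ => (hΦ j j0).abs.ennreal_ofReal]
        refine Finset.sum_le_sum fun j _ => ?_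
        rw [lintegral_finsetSum _ fun j0 _ => (hΦ j j0).abs.ennreal_ofReal]
        refine (Finset.sum_le_card_nsmul _ _ _ fun j0 hj => h j j0 (by simpa [Nat.lt_succ_iff] using hj)).trans_eq ?_
        rw [Finset.card_range, nsmul_eq_mul, ← ENNReal.ofReal_natCast, ← ENNReal.ofReal_mul (Nat.cast_nonneg _),
          Nat.cast_succ, mul_assoc]
    _ ≤ _ := by
        rw [← ENNReal.ofReal_sum_of_nonneg fun _ _ => by positivity, ← Finset.sum_mul]
        exact ENNReal.ofReal_le_ofReal (mul_le_mul_of_nonneg_right (a_sum400 n) Z0)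

theorem core (h1 : ForestStmt) (h2 : L2Stmt) (h3 : TailStmt) : CoreStmt := by
  obtain ⟨CG, h1⟩ := h1
  obtain ⟨M0, h2⟩ := h2
  obtain ⟨M1, h3⟩ := h3
  refine ⟨max M0 M1, fun b Ψ hb hΨ => ?_⟩
  obtain ⟨C2, h2⟩ := h2 _ (le_max_left M0 M1) b Ψ hb hΨ
  obtain ⟨C3, D, C30, h3⟩ := h3 _ (le_max_right M0 M1) b Ψ hb hΨ CG
  have hψ := hΨ.iter (max M0 M1)
  generalize iteratedDeriv (max M0 M1) Ψ = ψ at *
  obtain ⟨c, c0, c1, c2, c3⟩ := a_exists_c D
  obtain ⟨K, k1, k2, k3⟩ : ∃ K : ℝ, 1 + √|C2| * √C3 ≤ K ∧ √|C2| * 20 ≤ K ∧ C3 ≤ K := by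
    have p1 : 0 ≤ √|C2| * √C3 := by positivity
    have p2 : 0 ≤ √|C2| * 20 := by positivity
    exact ⟨1 + √|C2| * √C3 + √|C2| * 20 + C3, by linarith, by linarith, by linarith⟩
  refine ⟨400 * K ^ 2, c, c0, by linarith, fun kmax u hu G hG hGb => ?_⟩
  obtain ⟨G', g1, g2, g3, J, ϑ, U, T, t1, t2, t3, t4⟩ := h1 kmax u hu G hG hGb
  refine ⟨G', g1, g2, g3, fun F _ hF g hg => ?_⟩
  have γ0 : 0 ≤ (volume G).toReal := ENNReal.toReal_nonneg
  have le : ∀ {j j0 : ℕ}, j0 ∈ Finset.range (j + 1) → j0 ≤ j := fun h => by simpa [Nat.lt_succ_iff] using h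
  have e : ∀ z, PhiR b ψ u 0 kmax (fun _ => G') g z = ∑ j ∈ Finset.range (J + 1), ∑ j0 ∈ Finset.range (j + 1),
      PhiR b ψ u 0 kmax (T j j0) g z := fun z => by
    simp only [PhiR]
    rw [Finset.sum_congr rfl fun j _ => Finset.sum_comm (s := Finset.range (j + 1)), Finset.sum_comm]
    refine Finset.sum_congr rfl fun k hk => ?_
    have m1 : ∀ j, ∀ j0 ∈ Finset.range (j + 1), MeasurableSet (T j j0 k) := fun j j0 h =>
      (t1 j j0 (le h)).fam.meas k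
    have m2 : ∀ j, ⋃ j0 ∈ Finset.range (j + 1), T j j0 k ⊆ G' := fun j => iUnion₂_subset fun j0 _ => t2 j j0 k
    rw [Finset.sum_congr rfl fun j _ => (Phi1_biUnion hb hψ hu.meas k _ hGb (fun j0 _ => (t2 j j0 k).trans g1)
      (m1 j) (fun j0 _ j1 _ h => t3 j j0 j j1 k (by simpa using h)) hg z).symm,
      ← Phi1_biUnion hb hψ hu.meas k _ hGb (fun j _ => (m2 j).trans g1)
      (fun j _ => Finset.measurableSet_biUnion _ (m1 j)) (fun j _ j' _ h => disjoint_iUnion₂_left.2 fun j0 _ =>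
        disjoint_iUnion₂_right.2 fun j1 _ => t3 j j0 j' j1 k (by simp [h])) hg z]
    refine setIntegral_congr_set (ae_eq_set.2 ⟨t4 k (Finset.mem_Icc.1 hk).2, ?_⟩)
    rw [sdiff_eq_empty.2 (iUnion₂_subset fun j _ => m2 j), measure_empty]
  have hm := fun j j0 => measurable_PhiR hb hψ hu.meas 0 kmax (T j j0) hg
  have key := fun j j0 (h : j0 ≤ j) => a_forest (hm j j0) hF γ0 (abs_nonneg C2) C30.le k1 k2 k3 c0 c1 c2 c3
    ((h2 CG kmax u hu G hG hGb j j0 _ _ _ (t1 j j0 h) g hg).trans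
      (ENNReal.ofReal_le_ofReal (by gcongr; exact le_abs_self _)))
    (h3 kmax u hu G hG hGb j j0 _ _ _ (t1 j j0 h) g hg) (by
      have hT := t1 j j0 h
      refine (measure_mono fun z hz => by_contra fun hc => ?_).trans
        ((a_tubes (U j j0) (ρ := 2 * ϑ j j0 + 1) (by linarith [hT.one_le])).trans (ENNReal.ofReal_le_ofReal ?_))
      · simp [a_supp hb hψ hT.fam.meas hT.cover hc] at hz
      · refine (mul_le_mul (show _ ≤ 400 * (2 : ℝ) ^ j by linarith [hT.one_le, hT.a_rad]) hT.a_tot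
          (a_totL_nonneg _) (by positivity)).trans_eq ?_
        rw [← mul_assoc, mul_assoc 400, ← mul_pow]
        norm_num)
  simp only [e, mul_assoc (400 : ℝ)]
  exact ⟨a_sum hm (by positivity) _ fun j j0 h => (key j j0 h).1,
    a_sum hm (by positivity) _ fun j j0 h => (key j j0 h).2⟩

end Crest.Agent.R87
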