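import Mathlib

/-!
# R87 (S0115, Stein's conjecture): definitions and the interfaces between the parts

The complete paper proof is in `Crest/Agent/R87/Read.lean`.  DO NOT EDIT this file (owner: helper91).
Everything is real valued, on `P2 = ℝ × ℝ` (points `z = (x, y)`), with Lebesgue measure `volume`.
-/

set_option autoImplicit false

namespace Crest.Agent.R87

open MeasureTheory Set
open scoped ENNReal

abbrev P2 := ℝ × ℝ

/-! ## Dyadic intervals, the model operator -/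

/-- index of the dyadic interval of length `2^k` that contains `x`. -/
noncomputable def dI (k : ℤ) (x : ℝ) : ℤ := ⌊x / 2 ^ k⌋

/-- the dyadic interval `[m 2^k, (m+1) 2^k)`; `x ∈ dInt k m ↔ dI k x = m`. -/
def dInt (k m : ℤ) : Set ℝ := Ico ((m : ℝ) * 2 ^ k) (((m : ℝ) + 1) * 2 ^ k)

/-- Haar sign at scale `2^k`: `+1` on the left half, `-1` on the right half of the dyadic interval. -/
noncomputable def haar (k : ℤ) (x : ℝ) : ℝ := if Even (dI (k - 1) x) then 1 else -1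

/-- centre of the dyadic interval of length `2^k` containing `x`. -/
noncomputable def cen (k : ℤ) (x : ℝ) : ℝ := ((dI k x : ℝ) + 1 / 2) * 2 ^ k

/-- kernel of the model operator at scale `2^k` (input point `z`, output point `z'`). -/
noncomputable def ker (b ψ : ℝ → ℝ) (u : P2 → ℝ) (k : ℕ) (z z' : P2) : ℝ :=
  ((2 : ℝ) ^ k)⁻¹ * haar k z.1 * b ((z'.1 - cen k z.1) / 2 ^ k) * ψ (z'.2 - z.2 + (z.1 - z'.1) * u z)

/-- one scale of the model operator, with the input restricted to the set `A`. -/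
noncomputable def Phi1 (b ψ : ℝ → ℝ) (u : P2 → ℝ) (k : ℕ) (A : Set P2) (g : P2 → ℝ) (z' : P2) : ℝ :=
  ∫ z in A, g z * ker b ψ u k z z'

/-- the scales `c ≤ k ≤ k1` of the model operator; the *term* `(z, k)` is present iff `z ∈ S k`. -/
noncomputable def PhiR (b ψ : ℝ → ℝ) (u : P2 → ℝ) (c k1 : ℕ) (S : ℕ → Set P2) (g : P2 → ℝ)
    (z' : P2) : ℝ :=
  ∑ k ∈ Finset.Icc c k1, Phi1 b ψ u k (S k) g z'

/-- maximal partial sum (from the top scale `k1` down). -/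
noncomputable def PhiMax (b ψ : ℝ → ℝ) (u : P2 → ℝ) (k1 : ℕ) (S : ℕ → Set P2) (g : P2 → ℝ)
    (z' : P2) : ℝ :=
  ⨆ c : Fin (k1 + 1), |PhiR b ψ u c k1 S g z'|

/-- horizontal bump: smooth, supported in `[-1/2, 1/2]`, mean zero. -/
structure IsB (b : ℝ → ℝ) : Prop where
  smooth : ContDiff ℝ (⊤ : ℕ∞) b
  supp : ∀ x, 1 / 2 ≤ |x| → b x = 0
  mean : ∫ x, b x = 0

/-- vertical profile: smooth, supported in `[-1, 1]`; the kernels are `ψ = iteratedDeriv m Ψ`. -/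
structure IsPsi (Ψ : ℝ → ℝ) : Prop where
  smooth : ContDiff ℝ (⊤ : ℕ∞) Ψ
  supp : ∀ y, 1 ≤ |y| → Ψ y = 0

/-- the slope field: measurable, bounded, Lipschitz in `y` with constant `1 / (100 * 2^kmax)`. -/
structure Field (u : P2 → ℝ) (kmax : ℕ) : Prop where
  meas : Measurable u
  bdd : ∀ z, |u z| ≤ 4
  lip : ∀ x y y', |u (x, y) - u (x, y')| ≤ |y - y'| / (100 * 2 ^ kmax)

/-- a family of terms: measurable, inside the bounded set `G`, and for each point `z` the set of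
scales is an interval. -/
structure Fam (G : Set P2) (S : ℕ → Set P2) : Prop where
  meas : ∀ k, MeasurableSet (S k)
  sub : ∀ k, S k ⊆ G
  conv : ∀ z k1 k2 k3, k1 ≤ k2 → k2 ≤ k3 → z ∈ S k1 → z ∈ S k3 → z ∈ S k2

/-- admissible coefficient function. -/
structure Coef (g : P2 → ℝ) : Prop where
  meas : Measurable g
  bdd : ∀ z, |g z| ≤ 1

/-- **Core**: two restricted estimates for the full model operator (all terms, `k ≤ kmax`), after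
passing to a major subset `G'` of `G`. The outer reduction proves `CoreStmt → S0115`. -/
def CoreStmt : Prop :=
  ∃ M : ℕ, ∀ b Ψ : ℝ → ℝ, IsB b → IsPsi Ψ → ∃ C c : ℝ, 0 < c ∧ c < 1 / 2 ∧
    ∀ (kmax : ℕ) (u : P2 → ℝ), Field u kmax → ∀ G : Set P2, MeasurableSet G → Bornology.IsBounded G →
      ∃ G' : Set P2, G' ⊆ G ∧ MeasurableSet G' ∧ volume G ≤ 2 * volume G' ∧
        ∀ F : Set P2, MeasurableSet F → volume F ≠ ∞ → ∀ g : P2 → ℝ, Coef g →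
          (∫⁻ z' in F, ENNReal.ofReal |PhiR b (iteratedDeriv M Ψ) u 0 kmax (fun _ => G') g z'|
              ≤ ENNReal.ofReal (C * (volume F).toReal ^ (1 / 2 + c) * (volume G).toReal ^ (1 / 2 - c))) ∧
          (∫⁻ z' in F, ENNReal.ofReal |PhiR b (iteratedDeriv M Ψ) u 0 kmax (fun _ => G') g z'|
              ≤ ENNReal.ofReal (C * (volume F).toReal ^ (1 / 2 - c) * (volume G).toReal ^ (1 / 2 + c)))

/-! ## Tiles and forests -/

/-- a tile: scale `2^k`, interval `dInt k m`, slope `σ / 2^k`, height `β` at the left endpoint. -/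
structure Tile where
  k : ℕ
  m : ℤ
  σ : ℤ
  β : ℤ
  deriving DecidableEq

namespace Tile

/-- length -/
noncomputable def len (P : Tile) : ℝ := 2 ^ P.k
/-- left endpoint -/
noncomputable def a (P : Tile) : ℝ := (P.m : ℝ) * 2 ^ P.k
/-- slope -/
noncomputable def s (P : Tile) : ℝ := (P.σ : ℝ) / 2 ^ P.k
/-- base line -/
noncomputable def line (P : Tile) (x : ℝ) : ℝ := (P.β : ℝ) + P.s * (x - P.a)
/-- the tube of vertical radius `ρ` -/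
def tube (P : Tile) (ρ : ℝ) : Set P2 := {z | dI P.k z.1 = P.m ∧ |z.2 - P.line z.1| ≤ ρ}
/-- the popular set: points of `G` in the unit strip above the base line where the field is within
`[s, s + 2^-k)`. For fixed `k` these sets partition `G`. -/
def pop (u : P2 → ℝ) (G : Set P2) (P : Tile) : Set P2 :=
  {z | z ∈ G ∧ dI P.k z.1 = P.m ∧ ⌊u z * 2 ^ P.k⌋ = P.σ ∧ ⌊z.2 - P.s * (z.1 - P.a)⌋ = P.β}
/-- the term `(z, k)` lies below the tile `P`, at distance at most `ρ`. Downward closed in `k`. -/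
def near (u : P2 → ℝ) (ρ : ℝ) (z : P2) (k : ℕ) (P : Tile) : Prop :=
  k ≤ P.k ∧ dI P.k z.1 = P.m ∧ 2 ^ k * |u z - P.s| ≤ ρ ∧ |z.2 - P.line z.1| ≤ ρ

end Tile

/-- counting function of the tubes of radius `ρ`. -/
noncomputable def cnt (U : Finset Tile) (ρ : ℝ) (z : P2) : ℝ :=
  ∑ P ∈ U, (P.tube ρ).indicator (fun _ => (1 : ℝ)) z

/-- total length -/
noncomputable def totL (U : Finset Tile) : ℝ := ∑ P ∈ U, P.len

/-- A forest: a family of terms `T` of density class `2^-j`, covered (radius `ϑ`) by the tops `U`,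
which have density at least `2^-j0`. -/
structure Forest (CG : ℝ) (u : P2 → ℝ) (kmax : ℕ) (G : Set P2) (j j0 : ℕ) (ϑ : ℝ) (U : Finset Tile)
    (T : ℕ → Set P2) : Prop where
  fam : Fam G T
  j0_le : j0 ≤ j
  one_le : 1 ≤ ϑ
  rad : ϑ ^ 16 * 2 ^ j0 ≤ 64 ^ 16 * 2 ^ j
  top_k : ∀ P ∈ U, P.k ≤ kmax
  cover : ∀ k z, z ∈ T k → ∃ P ∈ U, Tile.near u ϑ z k P
  dens : ∀ k z, z ∈ T k → ∀ (P : Tile) (ρ : ℝ), 1 ≤ ρ → P.k ≤ kmax → Tile.near u ρ z k P →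
    (volume (P.pop u G)).toReal * 2 ^ j ≤ 4 * ρ ^ 16 * P.len
  popular : ∀ P ∈ U, P.len ≤ 2 ^ j0 * (volume (P.pop u G)).toReal
  total : totL U ≤ 2 ^ j0 * (volume G).toReal
  count : ∫⁻ z, ENNReal.ofReal (cnt U 1 z ^ 2) ≤ ENNReal.ofReal (CG * 2 ^ (5 * j) * (volume G).toReal)

/-- **Part F** (density classes, tops, counting function). -/
def ForestStmt : Prop :=
  ∃ CG : ℝ, ∀ (kmax : ℕ) (u : P2 → ℝ), Field u kmax → ∀ G : Set P2, MeasurableSet G →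
    Bornology.IsBounded G →
    ∃ G' : Set P2, G' ⊆ G ∧ MeasurableSet G' ∧ volume G ≤ 2 * volume G' ∧
      ∃ (J : ℕ) (ϑ : ℕ → ℕ → ℝ) (U : ℕ → ℕ → Finset Tile) (T : ℕ → ℕ → ℕ → Set P2),
        (∀ j j0, j0 ≤ j → Forest CG u kmax G j j0 (ϑ j j0) (U j j0) (T j j0)) ∧
        (∀ j j0 k, T j j0 k ⊆ G') ∧
        (∀ j j0 j' j0' k, (j, j0) ≠ (j', j0') → Disjoint (T j j0 k) (T j' j0' k)) ∧
        (∀ k, k ≤ kmax → volume (G' \ ⋃ j ∈ Finset.range (J + 1), ⋃ j0 ∈ Finset.range (j + 1),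
          T j j0 k) = 0)

/-- **Part I** (`L²` bound with a gain in the density). -/
def L2Stmt : Prop :=
  ∃ M0 : ℕ, ∀ m, M0 ≤ m → ∀ b Ψ : ℝ → ℝ, IsB b → IsPsi Ψ → ∃ C : ℝ,
    ∀ (CG : ℝ) (kmax : ℕ) (u : P2 → ℝ), Field u kmax → ∀ G : Set P2, MeasurableSet G →
      Bornology.IsBounded G → ∀ (j j0 : ℕ) (ϑ : ℝ) (U : Finset Tile) (T : ℕ → Set P2),
        Forest CG u kmax G j j0 ϑ U T → ∀ g, Coef g →
          ∫⁻ z', ENNReal.ofReal (PhiR b (iteratedDeriv m Ψ) u 0 kmax T g z' ^ 2)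
            ≤ ENNReal.ofReal (C * (3 / 4) ^ j * (volume G).toReal)

/-- **Tail** (better than Chebyshev above the level `C 2^(D j)`). -/
def TailStmt : Prop :=
  ∃ M1 : ℕ, ∀ m, M1 ≤ m → ∀ b Ψ : ℝ → ℝ, IsB b → IsPsi Ψ → ∀ CG : ℝ, ∃ (C : ℝ) (D : ℕ), 0 < C ∧
    ∀ (kmax : ℕ) (u : P2 → ℝ), Field u kmax → ∀ G : Set P2, MeasurableSet G →
      Bornology.IsBounded G → ∀ (j j0 : ℕ) (ϑ : ℝ) (U : Finset Tile) (T : ℕ → Set P2),
        Forest CG u kmax G j j0 ϑ U T → ∀ g, Coef g → ∀ τ : ℝ, C * 2 ^ (D * j) ≤ τ →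
          volume {z' | τ < |PhiR b (iteratedDeriv m Ψ) u 0 kmax T g z'|}
            ≤ ENNReal.ofReal (C * τ ^ (-(2 + 1 / 100 : ℝ)) * (volume G).toReal)

/-- **Part L** (tree lemma in `L⁴` along one line of slope `s`, for a fat tree of radius `ρ`). -/
def T4Stmt : Prop :=
  ∀ b ψ : ℝ → ℝ, IsB b → IsPsi ψ → ∃ C : ℝ, 0 ≤ C ∧
    ∀ (kmax : ℕ) (u : P2 → ℝ), Field u kmax → ∀ G : Set P2, Bornology.IsBounded G →
      ∀ S : ℕ → Set P2, Fam G S → ∀ g, Coef g → ∀ (s : ℝ) (p : ℕ),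
        (∀ k z, z ∈ S k → 2 ^ k * |u z - s| ≤ 2 ^ p) → ∀ (k0 : ℕ), k0 ≤ kmax → ∀ (m0 : ℤ) (β : ℝ),
          ∫⁻ x in dInt k0 m0, ENNReal.ofReal (PhiMax b ψ u k0 S g (x, β + s * x) ^ 4)
            ≤ ENNReal.ofReal ((C * (p + 1) ^ 2) ^ 4 * 2 ^ k0)

/-! ## Weighted lacunary inequality and the kernels -/

/-- convolution along the direction `(1, s)` with the kernel `lam * χ (lam * t)`. -/
noncomputable def dconv (χ : ℝ → ℝ) (lam s : ℝ) (f : P2 → ℝ) (z : P2) : ℝ :=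
  ∫ t, lam * χ (lam * t) * f (z.1 - t, z.2 - s * t)

/-- vertical convolution. -/
noncomputable def vconv (θ : ℝ → ℝ) (f : P2 → ℝ) (z : P2) : ℝ := ∫ y, θ y * f (z.1, z.2 - y)

/-- average along the direction `(1, s)` with a measure `κ`. -/
noncomputable def davg (κ : Measure ℝ) (s : ℝ) (v : P2 → ℝ) (z : P2) : ℝ :=
  ∫ t, v (z.1 + t, z.2 + s * t) ∂κ

/-- the band pass kernel is `Y''`; `Y` is supported in `[-R, R]`. -/
structure IsY (Y : ℝ → ℝ) (A R : ℝ) : Prop where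
  smooth : ContDiff ℝ 3 Y
  supp : ∀ t, R ≤ |t| → Y t = 0
  n0 : ∫ t, |Y t| ≤ A
  n2 : ∫ t, |iteratedDeriv 2 Y t| ≤ A
  n3 : ∫ t, |iteratedDeriv 3 Y t| ≤ A

/-- **Part W** (weighted inequality for lacunary sums, maximal form). -/
def WBStmt : Prop :=
  ∃ C : ℝ, 0 ≤ C ∧ ∀ (Y : ℝ → ℝ) (A R : ℝ), 1 ≤ R → IsY Y A R → ∀ lam0 : ℝ, 0 < lam0 → ∀ n : ℕ,
    ∃ κ : ℕ → Measure ℝ, (∀ c, IsProbabilityMeasure (κ c)) ∧
      (∀ c, κ c {t | 4 * R * 2 ^ c / lam0 < |t|} = 0) ∧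
      ∀ (s : ℝ) (I : Finset ℕ) (thr : ℕ → ℕ) (v : ℕ → P2 → ℝ) (f : ℕ → P2 → ℝ) (N : ℕ → Set P2)
        (m0 : ℕ) (B : ℝ),
        (∀ a, Measurable (v a)) → (∀ a z, 0 ≤ v a z) → (∀ z, ∑ a ∈ I, v a z ≤ B) →
        (∀ z, (I.filter (fun a => v a z ≠ 0)).card ≤ m0) →
        (∀ c, Measurable (f c)) → (∃ L : ℝ, ∀ c z, |f c z| ≤ L ∧ (L ≤ ‖z‖ → f c z = 0)) →
        (∀ c, MeasurableSet (N c)) →
        (∀ a ∈ I, ∀ c, thr a ≤ c → ∀ z : P2, v a z ≠ 0 → ∀ t : ℝ, |t| ≤ 4 * R * 2 ^ c / lam0 →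
          (z.1 + t, z.2 + s * t) ∈ N c) →
        ∑ a ∈ I, ∫⁻ z, ENNReal.ofReal
            ((∑ c ∈ Finset.Ico (thr a) n, dconv (iteratedDeriv 2 Y) (lam0 / 2 ^ c) s (f c) z) ^ 2
              * √(v a z))
          ≤ ENNReal.ofReal (C * A ^ 2 * √m0) *
            (∑ c ∈ Finset.range n, ∫⁻ z, ENNReal.ofReal (f c z ^ 2 *
                √(davg (κ c) s (fun z => ∑ a ∈ I.filter (fun a => thr a ≤ c), v a z) z))
              + ENNReal.ofReal (√B / R ^ 4) *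
                ∑ c ∈ Finset.range n, ∫⁻ z in N c, ENNReal.ofReal (f c z ^ 2))

/-- dilation `α Λ(α y)`. -/
noncomputable def dil (Λ : ℝ → ℝ) (α : ℝ) (y : ℝ) : ℝ := α * Λ (α * y)

/-- the truncated band `2^i`. -/
noncomputable def band (Λ : ℝ → ℝ) (R : ℝ) (i : ℤ) (y : ℝ) : ℝ :=
  if |y| ≤ R / 2 ^ i then dil Λ (2 ^ (i + 1)) y - dil Λ (2 ^ i) y else 0

/-- `θ` is reproduced (up to `ε` in sup norm) by the band pass kernel along every slope difference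
of size between `σ` and `4σ`, with the frequency `lam = η σ`. -/
def Repro (Y θ : ℝ → ℝ) (η ε : ℝ) : Prop :=
  ∀ σ d : ℝ, 0 < σ → σ ≤ |d| → |d| ≤ 4 * σ → ∀ y,
    |θ y - ∫ t, η * σ * iteratedDeriv 2 Y (η * σ * t) * θ (y - d * t)| ≤ ε

/-- **Part K** (the kernels: a band limited approximate identity and its truncations). -/
def KerStmt : Prop :=
  ∃ (Λ : ℝ → ℝ) (A : ℝ), 1 ≤ A ∧ ContDiff ℝ 1 Λ ∧ Integrable Λ ∧ Integrable (deriv Λ) ∧
    Integrable (fun y => y * Λ y) ∧ ∫ y, Λ y = 1 ∧ ∫ y, |deriv Λ y| ≤ A ∧ ∫ y, |y * Λ y| ≤ A ∧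
    (∀ y, |Λ y| ≤ A) ∧
    ∀ R : ℝ, 1 ≤ R → ∃ Y : ℝ → ℝ, IsY Y A R ∧ ∀ i : ℤ,
      ∫ y, |band Λ R i y| ≤ A ∧
      ∫ y, |dil Λ (2 ^ (i + 1)) y - dil Λ (2 ^ i) y - band Λ R i y| ≤ A / R ^ 10 ∧
      Repro Y (band Λ R i) (2 ^ i) (A * 2 ^ i / R ^ 10)

/-! ## Slope nodes, visibility, perfect trees -/

/-- geometric parameters of the rank argument: slope grid origin `s0`, `K = 2^kK`, box parameter
`Λ = 2^kL`, basic vertical reach `t0`. -/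
structure Geo where
  s0 : ℝ
  kK : ℕ
  kL : ℕ
  t0 : ℝ

namespace Geo

/-- size of a slope node with cut `c`: `K / 2^c`. -/
noncomputable def sz (Γ : Geo) (c : ℕ) : ℝ := 2 ^ Γ.kK / 2 ^ c
/-- index of the node with cut `c` that contains the slope `s`. -/
noncomputable def idx (Γ : Geo) (c : ℕ) (s : ℝ) : ℤ := ⌊(s - Γ.s0) / Γ.sz c⌋
/-- left endpoint of the node `ν = (c, m)`. -/
noncomputable def lft (Γ : Geo) (ν : ℕ × ℤ) : ℝ := Γ.s0 + (ν.2 : ℝ) * Γ.sz ν.1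
/-- vertical reach at grade `γ`. -/
noncomputable def tt (Γ : Geo) (γ : ℝ) : ℝ := Γ.t0 + γ * (100 * 2 ^ Γ.kL)
/-- relative horizontal reach at grade `γ`. -/
noncomputable def ee (Γ : Geo) (γ : ℝ) : ℝ := γ * (100 * 2 ^ Γ.kL / 2 ^ Γ.kK)
/-- the tile `P` is visible from `z` at grade `γ`. -/
def vis (Γ : Geo) (γ : ℝ) (P : Tile) (z : P2) : Prop :=
  P.a - Γ.ee γ * P.len ≤ z.1 ∧ z.1 ≤ P.a + P.len + Γ.ee γ * P.len ∧ |z.2 - P.line z.1| ≤ Γ.tt γ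
/-- the tile `P` is a member of the node `ν`. -/
def mem (Γ : Geo) (P : Tile) (ν : ℕ × ℤ) : Prop := ν.1 ≤ P.k ∧ Γ.idx ν.1 P.s = ν.2

end Geo

/-- the node `ν'` is contained in the node `ν`. -/
def nsub (ν' ν : ℕ × ℤ) : Prop := ν.1 ≤ ν'.1 ∧ ν'.2 / 2 ^ (ν'.1 - ν.1) = ν.2

/-- `Perf Γ U γ z d ν`: below the node `ν` there is a perfect binary tree of depth `d` of nodes whose
leaves contain a member of `U` that is visible from `z` at grade `γ`. -/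
def Perf (Γ : Geo) (U : Finset Tile) (γ : ℝ) (z : P2) : ℕ → ℕ × ℤ → Prop
  | 0, ν => ∃ P ∈ U, Γ.mem P ν ∧ Γ.vis γ P z
  | d + 1, ν => ∃ ν0 ν1 : ℕ × ℤ, nsub ν0 ν ∧ nsub ν1 ν ∧ ¬ nsub ν0 ν1 ∧ ¬ nsub ν1 ν0 ∧
      Perf Γ U γ z d ν0 ∧ Perf Γ U γ z d ν1

/-- an assignment of the terms of `T` to the tops `U`, compatible with the slope grid of `Γ`. -/
structure Assign (u : P2 → ℝ) (kmax : ℕ) (G : Set P2) (ϑ : ℝ) (Γ : Geo) (U : Finset Tile)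
    (T : ℕ → Set P2) (S : Tile → ℕ → Set P2) : Prop where
  famT : Fam G T
  fam : ∀ P, Fam G (S P)
  top_k : ∀ P ∈ U, P.k ≤ kmax
  disj : ∀ P Q k, P ≠ Q → Disjoint (S P k) (S Q k)
  union : ∀ k, T k = ⋃ P ∈ U, S P k
  near : ∀ P k z, z ∈ S P k → Tile.near u ϑ z k P
  nest : ∀ P k z, z ∈ S P k → Γ.idx k (u z) = Γ.idx k P.s

/-- **Part S1** (recursion on the rank): on a set where the rank is below `r` and at most `n` tops
are visible, the band `θ` of the forest has small energy. -/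
def S1Stmt : Prop :=
  ∀ b ψ : ℝ → ℝ, IsB b → IsPsi ψ → ∃ C : ℝ, 1 ≤ C ∧
    ∀ (kmax : ℕ) (u : P2 → ℝ), Field u kmax → ∀ G : Set P2, Bornology.IsBounded G →
    ∀ (ϑ : ℝ) (Γ : Geo) (U : Finset Tile) (T : ℕ → Set P2) (S : Tile → ℕ → Set P2),
      1 ≤ ϑ → Assign u kmax G ϑ Γ U T S → ∀ g, Coef g →
    ∀ (Y θ : ℝ → ℝ) (A R H η ε : ℝ), 1 ≤ A → 1 ≤ R → 0 < η → 0 ≤ ε → 0 ≤ H → IsY Y A R →
      Measurable θ → Integrable θ → ∫ y, |θ y| ≤ A → (∀ y, H < |y| → θ y = 0) → Repro Y θ η ε →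
      8 * R / η ≤ 2 ^ Γ.kL → 3 ≤ Γ.kK → 2 * ϑ + 1 + H ≤ Γ.t0 →
    ∀ (r n : ℕ) (E : Set P2), MeasurableSet E → Bornology.IsBounded E → Γ.ee r ≤ 1 →
      (∀ z ∈ E, ∀ m : ℤ, ¬ Perf Γ U r z r (0, m)) →
      (∀ z ∈ E, ∀ V : Finset Tile, V ⊆ U → (∀ P ∈ V, Γ.vis r P z) → V.card ≤ n) →
      ∫⁻ z in E, ENNReal.ofReal (vconv θ (PhiR b ψ u 0 kmax T g) z ^ 2)
        ≤ ENNReal.ofReal ((C * A ^ 2) ^ (r + 2) *
            ((Γ.kK + 1) ^ 4 * √(Γ.tt r * totL U * n * (volume E).toReal)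
              + ϑ ^ 2 * n * (1 / R ^ 4 + ε ^ 2 * Γ.tt r ^ 2
                  + Γ.tt r * (2 ^ Γ.kL / 2 ^ Γ.kK) ^ 2) * totL U))

/-- **Part S2** (a perfect tree of popular tops is rare). -/
def S2Stmt : Prop :=
  ∀ (kmax : ℕ) (u : P2 → ℝ), Field u kmax → ∀ G : Set P2, MeasurableSet G →
    Bornology.IsBounded G → ∀ (j0 : ℕ) (U : Finset Tile), (∀ P ∈ U, P.k ≤ kmax) →
    (∀ P ∈ U, P.len ≤ 2 ^ j0 * (volume (P.pop u G)).toReal) →
    ∀ (Γ : Geo) (r N : ℕ) (η : ℝ), 0 < η → η ≤ 1 / 4 → (1 - η) ^ N < (1 / 2) ^ j0 →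
      340 * N + 170 ≤ r → 0 ≤ Γ.t0 → 6 ≤ Γ.kK → Γ.tt r + 1 ≤ 2 ^ Γ.kK →
      volume {z : P2 | (∃ m : ℤ, Perf Γ U r z r (0, m)) ∧
          ∀ P ∈ U, Γ.vis r P z → dI P.k z.1 = P.m}
        ≤ ENNReal.ofReal (2 * Γ.tt r * (8 * η) ^ N * totL U)

end Crest.Agent.R87
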