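import Crest.Agent.R87.Defs

/-!
# R87: one-dimensional dyadic lemmas shared by the parts L (`T4Stmt`) and I (`L2Stmt`)
Statements only (as `Prop`s); each is proved in its own file.  DO NOT EDIT (owner: helper91).
-/

set_option autoImplicit false

namespace Crest.Agent.R87

open MeasureTheory Set
open scoped ENNReal

/-- Doob's `L²` maximal inequality for Haar sums (file `Doob.lean`, `theorem doob : DoobStmt`). -/
def DoobStmt : Prop :=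
  ∀ (k0 : ℕ) (m0 : ℤ) (γ : ℕ → ℤ → ℝ),
    ∫⁻ x in dInt k0 m0, ENNReal.ofReal
        ((⨆ c : Fin (k0 + 1), |∑ k ∈ Finset.Icc (c : ℕ) k0, haar k x * γ k (dI k x)|) ^ 2)
      ≤ 4 * ∫⁻ x in dInt k0 m0, ENNReal.ofReal (∑ k ∈ Finset.range (k0 + 1), γ k (dI k x) ^ 2)

/-- `L⁴` bound of a positive Carleson sum (file `Car4.lean`, `theorem car4 : Car4Stmt`). -/
def Car4Stmt : Prop :=
  ∀ (k0 : ℕ) (m0 : ℤ) (c : ℕ → ℤ → ℝ) (L : ℝ), 0 ≤ L → (∀ k m, 0 ≤ c k m) →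
    (∀ k, k ≤ k0 → ∀ m : ℤ, ∫⁻ x in dInt k m,
        ENNReal.ofReal (∑ k' ∈ Finset.range (k + 1), c k' (dI k' x)) ≤ ENNReal.ofReal (L * 2 ^ k)) →
    ∫⁻ x in dInt k0 m0, ENNReal.ofReal ((∑ k ∈ Finset.range (k0 + 1), c k (dI k x)) ^ 4)
      ≤ ENNReal.ofReal (24 * L ^ 4 * 2 ^ k0)

/-- `L⁴` maximal bound for sums of smooth mean zero bumps with Carleson coefficients
(file `BMax.lean`, `theorem bmax : BMaxStmt`). -/
def BMaxStmt : Prop :=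
  ∀ b : ℝ → ℝ, IsB b → ∃ C : ℝ, 0 ≤ C ∧ ∀ (k0 : ℕ) (m0 : ℤ) (α : ℕ → ℤ → ℝ) (L : ℝ), 0 ≤ L →
    (∀ k, k ≤ k0 → ∀ m : ℤ, ∫⁻ x in dInt k m,
        ENNReal.ofReal (∑ k' ∈ Finset.range (k + 1), α k' (dI k' x) ^ 2)
          ≤ ENNReal.ofReal (L ^ 2 * 2 ^ k)) →
    ∫⁻ x in dInt k0 m0, ENNReal.ofReal
        ((⨆ c : Fin (k0 + 1),
          |∑ k ∈ Finset.Icc (c : ℕ) k0, b ((x - cen k x) / 2 ^ k) * α k (dI k x)|) ^ 4)
      ≤ ENNReal.ofReal ((C * L) ^ 4 * 2 ^ k0)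

/-- the Lacey-Thiele partition argument (file `LT.lean`, `theorem lt : LTStmt`).
`W k` is the set of points whose smallest scale is `k`. -/
def LTStmt : Prop :=
  ∀ (k0 : ℕ) (m0 : ℤ) (W : ℕ → Set P2) (D : ℝ≥0∞) (f : P2 → ℝ≥0∞) (F : ℝ → ℝ≥0∞),
    (∀ k, MeasurableSet (W k)) → Measurable F →
    (∀ k, k ≤ k0 → ∀ m : ℤ, (∃ k', k' ≤ k ∧ ∃ z ∈ W k', dI k z.1 = m) →
      volume {z : P2 | (∃ k', k ≤ k' ∧ k' ≤ k0 ∧ z ∈ W k') ∧ dI k z.1 = m} ≤ D * 2 ^ k) →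
    (∀ z : P2, ∀ k, k ≤ k0 → z ∈ W k → (∀ k', k' < k → z ∉ W k') → ∀ x : ℝ,
      dI ((k : ℤ) - 1) x = dI ((k : ℤ) - 1) z.1 → f z ≤ F x) →
    ∫⁻ z in {z : P2 | (∃ k, k ≤ k0 ∧ z ∈ W k) ∧ dI k0 z.1 = m0}, f z
      ≤ 2 * D * ∫⁻ x in dInt k0 m0, F x

/-- density hypothesis along the line `y = β + s x` (column of half height `h`, slope radius `ρ`):
above every interval that carries a term of `S` in the column, the set of points of `G` in the column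
with slope within `ρ / 2^k` of `s` has measure at most `d 2^k`. -/
def LineDens (u : P2 → ℝ) (G : Set P2) (S : ℕ → Set P2) (s β h ρ d : ℝ) (k0 : ℕ) : Prop :=
  ∀ k : ℕ, k ≤ k0 → ∀ m : ℤ,
    (∃ k', k' ≤ k ∧ ∃ z ∈ S k', dI k z.1 = m ∧ |z.2 - s * z.1 - β| ≤ h) →
    volume {z : P2 | z ∈ G ∧ dI k z.1 = m ∧ |z.2 - s * z.1 - β| ≤ h ∧ 2 ^ k * |u z - s| ≤ ρ}
      ≤ ENNReal.ofReal (d * 2 ^ k)

/-- frozen coefficient of the tree of slope `s` on the line `y = β + s x`. -/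
noncomputable def alpha (ψ : ℝ → ℝ) (S : ℕ → Set P2) (g : P2 → ℝ) (s β : ℝ) (k : ℕ) (m : ℤ) : ℝ :=
  ((2 : ℝ) ^ k)⁻¹ * ∫ z in S k ∩ {z : P2 | dI k z.1 = m}, g z * haar k z.1 * ψ (β - (z.2 - s * z.1))

/-- Carleson bound of the frozen coefficients (file `CoefL.lean`,
`theorem coefL : DoobStmt → LTStmt → CoefStmt`). -/
def CoefStmt : Prop :=
  ∀ ψ : ℝ → ℝ, IsPsi ψ → ∃ C : ℝ, 0 ≤ C ∧ ∀ (u : P2 → ℝ), Measurable u → ∀ G : Set P2,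
    Bornology.IsBounded G → ∀ S : ℕ → Set P2, Fam G S → ∀ g, Coef g → ∀ (s β ρ d : ℝ) (k0 : ℕ),
      0 ≤ d → (∀ k z, z ∈ S k → 2 ^ k * |u z - s| ≤ ρ) → LineDens u G S s β 1 ρ d k0 →
      ∀ k, k ≤ k0 → ∀ m : ℤ,
        ∫⁻ x in dInt k m, ENNReal.ofReal (∑ k' ∈ Finset.range (k + 1), alpha ψ S g s β k' (dI k' x) ^ 2)
          ≤ ENNReal.ofReal ((C * d) ^ 2 * 2 ^ k)

/-- positive coefficient: average of the weight `w k` over the column of half height `h`. -/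
noncomputable def pcoef (w : ℕ → P2 → ℝ) (s β h : ℝ) (k : ℕ) (m : ℤ) : ℝ :=
  ((2 : ℝ) ^ k)⁻¹ * ∫ z in {z : P2 | dI k z.1 = m ∧ |z.2 - s * z.1 - β| ≤ h}, w k z

/-- Carleson bound of positive coefficients (file `PosL.lean`, `theorem posL : LTStmt → PosStmt`). -/
def PosStmt : Prop :=
  ∀ (u : P2 → ℝ), Measurable u → ∀ G : Set P2, Bornology.IsBounded G → ∀ S : ℕ → Set P2,
    (∀ k, MeasurableSet (S k)) → (∀ k, S k ⊆ G) → ∀ (w : ℕ → P2 → ℝ) (s β h ρ d : ℝ) (k0 : ℕ),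
      0 ≤ d → (∀ k, Measurable (w k)) → (∀ k z, 0 ≤ w k z) → (∀ k z, z ∉ S k → w k z = 0) →
      (∀ z, ∑ k ∈ Finset.range (k0 + 1), w k z ≤ 2) →
      (∀ k z, z ∈ S k → 2 ^ k * |u z - s| ≤ ρ) → LineDens u G S s β h ρ d k0 →
      ∀ k, k ≤ k0 → ∀ m : ℤ,
        ∫⁻ x in dInt k m, ENNReal.ofReal (∑ k' ∈ Finset.range (k + 1), pcoef w s β h k' (dI k' x))
          ≤ ENNReal.ofReal (4 * d * 2 ^ k)

end Crest.Agent.R87
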