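import Crest.Agent.R87.Defs

/-! # R87: the weighted lacunary inequality (`WBStmt` of `Defs.lean` with the parentheses put right). -/

set_option autoImplicit false

namespace Crest.Agent.R87

open MeasureTheory Set
open scoped ENNReal

/-- **Part W** (weighted inequality for lacunary sums, maximal form). -/
def WBStmt2 : Prop :=
  ∃ C : ℝ, 0 ≤ C ∧ ∀ (Y : ℝ → ℝ) (A R : ℝ), 1 ≤ R → IsY Y A R → ∀ lam0 : ℝ, 0 < lam0 → ∀ n : ℕ,
    ∃ κ : ℕ → Measure ℝ, (∀ c, IsProbabilityMeasure (κ c)) ∧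
      (∀ c, κ c {t | 4 * R * 2 ^ c / lam0 < |t|} = 0) ∧
      ∀ (s : ℝ) (I : Finset ℕ) (thr : ℕ → ℕ) (v : ℕ → P2 → ℝ) (f : ℕ → P2 → ℝ) (N : ℕ → Set P2)
        (m0 : ℕ) (B : ℝ),
        (∀ a, Measurable (v a)) → (∀ a z, 0 ≤ v a z) → (∀ z, ∑ a ∈ I, v a z ≤ B) →
        (∀ z, (I.filter (fun a => v a z ≠ 0)).card ≤ m0) →
        (∀ c, Measurable (f c)) → (∃ L : ℝ, ∀ c z, |f c z| ≤ L ∧ (L ≤ ‖z‖ → f c z = 0)) →
        (∀ c, MeasurableSet (N c)) →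
        (∀ a ∈ I, ∀ c, thr a ≤ c → ∀ z : P2, v a z ≠ 0 → ∀ t : ℝ, |t| ≤ 4 * R * 2 ^ c / lam0 →
          (z.1 + t, z.2 + s * t) ∈ N c) →
        ∑ a ∈ I, ∫⁻ z, ENNReal.ofReal
            ((∑ c ∈ Finset.Ico (thr a) n, dconv (iteratedDeriv 2 Y) (lam0 / 2 ^ c) s (f c) z) ^ 2
              * √(v a z))
          ≤ ENNReal.ofReal (C * A ^ 2 * √m0) *
            ((∑ c ∈ Finset.range n, ∫⁻ z, ENNReal.ofReal (f c z ^ 2 *
                √(davg (κ c) s (fun z => ∑ a ∈ I.filter (fun a => thr a ≤ c), v a z) z)))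
              + ENNReal.ofReal (√B / R ^ 4) *
                ∑ c ∈ Finset.range n, ∫⁻ z in N c, ENNReal.ofReal (f c z ^ 2))

end Crest.Agent.R87
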