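import Crest.Agent.R87.Api1

/-! # R87: Doob's `L²` maximal inequality for Haar sums (Bellman function proof). -/

set_option autoImplicit false

namespace Crest.Agent.R87

open MeasureTheory Set
open scoped ENNReal

namespace DoobAux

/-- running maximum: `n` scales left, current value `a`, current maximum `M`. -/
noncomputable def mx (γ : ℕ → ℤ → ℝ) (x : ℝ) : ℕ → ℝ → ℝ → ℝ
  | 0, _, M => M
  | n + 1, a, M => mx γ x n (a + haar n x * γ n (dI n x)) (max M |a + haar n x * γ n (dI n x)|)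

/-- the Bellman function -/
def bel (a M : ℝ) : ℝ := 4 * a ^ 2 + 2 * M ^ 2 - 4 * |a| * M

theorem sq_le_bel (a M : ℝ) : M ^ 2 ≤ bel a M := by
  unfold bel
  have h := sq_abs a
  nlinarith [sq_nonneg (M - 2 * |a|)]

theorem bel_nonneg (a M : ℝ) : 0 ≤ bel a M := le_trans (sq_nonneg M) (sq_le_bel a M)

theorem bel_tangent (t M : ℝ) : bel t (max M |t|) ≤ 4 * t ^ 2 + 2 * M ^ 2 - 4 * |t| * M := by
  unfold bel
  rcases le_total M |t| with h | h
  · rw [max_eq_right h]
    nlinarith [sq_nonneg (|t| - M)]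
  · rw [max_eq_left h]

theorem bel_step {a M : ℝ} (h : |a| ≤ M) (g : ℝ) :
    bel (a + g) (max M |a + g|) + bel (a - g) (max M |a - g|) ≤ 2 * bel a M + 8 * g ^ 2 := by
  have h1 := bel_tangent (a + g) M
  have h2 := bel_tangent (a - g) M
  have hM : 0 ≤ M := le_trans (abs_nonneg a) h
  have h3 : 2 * |a| ≤ |a + g| + |a - g| := by
    have := abs_add_le (a + g) (a - g)
    have e : a + g + (a - g) = 2 * a := by ring
    rw [e, abs_mul] at this
    simpa using this
  have h4 := mul_le_mul_of_nonneg_right h3 hM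
  unfold bel at *
  nlinarith

theorem le_mx (γ : ℕ → ℤ → ℝ) (x : ℝ) : ∀ (n : ℕ) (a M : ℝ), M ≤ mx γ x n a M
  | 0, _, _ => le_rfl
  | n + 1, _, _ => le_trans (le_max_left _ _) (le_mx γ x n _ _)

theorem abs_le_mx (γ : ℕ → ℤ → ℝ) (x : ℝ) : ∀ (n : ℕ) (a M : ℝ), |a| ≤ M → ∀ c : ℕ,
    |a + ∑ k ∈ Finset.Ico c n, haar k x * γ k (dI k x)| ≤ mx γ x n a M
  | 0, a, M, h, c => by simpa [mx] using h
  | n + 1, a, M, h, c => by
    rcases Nat.lt_or_ge n c with hc | hc
    · rw [Finset.Ico_eq_empty_of_le hc, Finset.sum_empty, add_zero]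
      exact le_trans h (le_mx γ x _ _ _)
    · rw [Finset.sum_Ico_succ_top hc]
      have := abs_le_mx γ x n (a + haar n x * γ n (dI n x))
        (max M |a + haar n x * γ n (dI n x)|) (le_max_right _ _) c
      have e : a + (∑ k ∈ Finset.Ico c n, haar k x * γ k (dI k x) + haar n x * γ n (dI n x))
          = a + haar n x * γ n (dI n x) + ∑ k ∈ Finset.Ico c n, haar k x * γ k (dI k x) := by ring
      rw [e]
      exact this

theorem main (γ : ℕ → ℤ → ℝ) : ∀ (n : ℕ) (m : ℤ) (a M : ℝ), |a| ≤ M →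
    ∫⁻ x in dInt ((n : ℤ) - 1) m, ENNReal.ofReal (mx γ x n a M ^ 2)
      ≤ ENNReal.ofReal (bel a M * 2 ^ ((n : ℤ) - 1))
        + 4 * ∫⁻ x in dInt ((n : ℤ) - 1) m,
          ENNReal.ofReal (∑ k ∈ Finset.range n, γ k (dI k x) ^ 2)
  | 0, m, a, M, _ => by
    refine le_trans ?_ le_self_add
    simp only [mx]
    rw [setLIntegral_const, volume_dInt, ← ENNReal.ofReal_mul (sq_nonneg M)]
    exact ENNReal.ofReal_le_ofReal
      (mul_le_mul_of_nonneg_right (sq_le_bel a M) (by positivity))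
  | n + 1, m, a, M, h => by
    have e0 : ((n + 1 : ℕ) : ℤ) - 1 = ((n : ℤ) - 1) + 1 := by push_cast; ring
    have e1 : ((n : ℤ) - 1) + 1 = n := by ring
    have hd : Disjoint (dInt ((n : ℤ) - 1) (2 * m)) (dInt ((n : ℤ) - 1) (2 * m + 1)) :=
      disjoint_dInt _ (by omega)
    set g := γ n m with hg
    have hL : ∀ x ∈ dInt ((n : ℤ) - 1) (2 * m), haar n x = 1 ∧ dI n x = m := by
      intro x hx
      rw [mem_dInt] at hx
      have h1 := haar_of_left hx
      have h2 := dI_succ ((n : ℤ) - 1) x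
      rw [e1] at h1 h2
      refine ⟨h1, ?_⟩
      rw [h2, hx]; omega
    have hR : ∀ x ∈ dInt ((n : ℤ) - 1) (2 * m + 1), haar n x = -1 ∧ dI n x = m := by
      intro x hx
      rw [mem_dInt] at hx
      have h1 := haar_of_right hx
      have h2 := dI_succ ((n : ℤ) - 1) x
      rw [e1] at h1 h2
      refine ⟨h1, ?_⟩
      rw [h2, hx]; omega
    have iL := main γ n (2 * m) (a + g) (max M |a + g|) (le_max_right _ _)
    have iR := main γ n (2 * m + 1) (a - g) (max M |a - g|) (le_max_right _ _)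
    have cL : ∫⁻ x in dInt ((n : ℤ) - 1) (2 * m), ENNReal.ofReal (mx γ x (n + 1) a M ^ 2)
        = ∫⁻ x in dInt ((n : ℤ) - 1) (2 * m),
          ENNReal.ofReal (mx γ x n (a + g) (max M |a + g|) ^ 2) := by
      refine setLIntegral_congr_fun (measurableSet_dInt _ _) fun x hx => ?_
      obtain ⟨h1, h2⟩ := hL x hx
      simp only [mx, h1, h2, one_mul, hg]
    have cR : ∫⁻ x in dInt ((n : ℤ) - 1) (2 * m + 1), ENNReal.ofReal (mx γ x (n + 1) a M ^ 2)
        = ∫⁻ x in dInt ((n : ℤ) - 1) (2 * m + 1),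
          ENNReal.ofReal (mx γ x n (a - g) (max M |a - g|) ^ 2) := by
      refine setLIntegral_congr_fun (measurableSet_dInt _ _) fun x hx => ?_
      obtain ⟨h1, h2⟩ := hR x hx
      simp only [mx, h1, h2, neg_one_mul, hg, ← sub_eq_add_neg]
    have sq : ∀ m' : ℤ, (∀ x ∈ dInt ((n : ℤ) - 1) m', dI n x = m) →
        ∫⁻ x in dInt ((n : ℤ) - 1) m',
          ENNReal.ofReal (∑ k ∈ Finset.range (n + 1), γ k (dI k x) ^ 2)
        = (∫⁻ x in dInt ((n : ℤ) - 1) m',
            ENNReal.ofReal (∑ k ∈ Finset.range n, γ k (dI k x) ^ 2))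
          + ENNReal.ofReal (g ^ 2 * 2 ^ ((n : ℤ) - 1)) := by
      intro m' hm'
      rw [ENNReal.ofReal_mul (sq_nonneg g), ← volume_dInt _ m', ← setLIntegral_const,
        ← lintegral_add_right _ measurable_const]
      refine setLIntegral_congr_fun (measurableSet_dInt _ _) fun x hx => ?_
      simp only [Finset.sum_range_succ, hm' x hx]
      rw [ENNReal.ofReal_add (Finset.sum_nonneg fun _ _ => sq_nonneg _) (sq_nonneg _)]
    rw [e0, dInt_succ, lintegral_union (measurableSet_dInt _ _) hd,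
      lintegral_union (measurableSet_dInt _ _) hd, cL, cR, sq _ (fun x hx => (hL x hx).2),
      sq _ (fun x hx => (hR x hx).2)]
    set p : ℝ := 2 ^ ((n : ℤ) - 1) with hp
    have hp0 : 0 < p := by positivity
    have e2 : (2 : ℝ) ^ ((n : ℤ) - 1 + 1) = 2 * p := by
      rw [zpow_add_one₀ (by norm_num), hp]; ring
    rw [e2]
    have key : ENNReal.ofReal (bel (a + g) (max M |a + g|) * p)
        + ENNReal.ofReal (bel (a - g) (max M |a - g|) * p)
        ≤ ENNReal.ofReal (bel a M * (2 * p))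
          + 4 * (ENNReal.ofReal (g ^ 2 * p) + ENNReal.ofReal (g ^ 2 * p)) := by
      have b1 := bel_nonneg (a + g) (max M |a + g|)
      have b2 := bel_nonneg (a - g) (max M |a - g|)
      have b3 := bel_nonneg a M
      have e4 : (4 : ℝ≥0∞) = ENNReal.ofReal 4 := by norm_num
      rw [e4, ← ENNReal.ofReal_add (by positivity) (by positivity),
        ← ENNReal.ofReal_add (by positivity) (by positivity),
        ← ENNReal.ofReal_mul (by norm_num),
        ← ENNReal.ofReal_add (by positivity) (by positivity)]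
      refine ENNReal.ofReal_le_ofReal ?_
      have := mul_le_mul_of_nonneg_right (bel_step h g) hp0.le
      nlinarith
    refine le_trans (add_le_add iL iR) ?_
    calc _ = (ENNReal.ofReal (bel (a + g) (max M |a + g|) * p)
          + ENNReal.ofReal (bel (a - g) (max M |a - g|) * p))
          + (4 * (∫⁻ x in dInt ((n : ℤ) - 1) (2 * m),
              ENNReal.ofReal (∑ k ∈ Finset.range n, γ k (dI k x) ^ 2))
            + 4 * ∫⁻ x in dInt ((n : ℤ) - 1) (2 * m + 1),
              ENNReal.ofReal (∑ k ∈ Finset.range n, γ k (dI k x) ^ 2)) := by ring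
      _ ≤ _ := add_le_add key le_rfl
      _ = _ := by ring

end DoobAux

open DoobAux in
theorem doob : DoobStmt := by
  intro k0 m0 γ
  have h := main γ (k0 + 1) m0 0 0 (by simp)
  have e0 : ((k0 + 1 : ℕ) : ℤ) - 1 = k0 := by push_cast; ring
  rw [e0] at h
  have e1 : bel 0 0 = 0 := by simp [bel]
  rw [e1, zero_mul, ENNReal.ofReal_zero, zero_add] at h
  refine le_trans (lintegral_mono fun x => ENNReal.ofReal_le_ofReal ?_) h
  refine pow_le_pow_left₀ (Real.iSup_nonneg fun _ => abs_nonneg _) (ciSup_le fun c => ?_) 2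
  have := abs_le_mx γ x (k0 + 1) 0 0 (by simp) c
  rw [zero_add] at this
  rw [← Finset.Ico_add_one_right_eq_Icc]
  exact this

end Crest.Agent.R87
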