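import Crest.Agent.R87.Api1

/-!
# R87 / F1 : measure lemmas for the forest construction

Weak (1,1) bound for the counting functions `cnt U H`, strips, popular sets.
-/

set_option autoImplicit false

namespace Crest.Agent.R87

open MeasureTheory Set
open scoped ENNReal

/-- weak (1,1) bound for a counting measure on the line (greedy selection) -/
theorem f_weak1 {ι : Type*} (p : ι → ℝ) {lam : ℝ} (hl : 0 < lam) (S : Finset ι) :
    volume {y : ℝ | ∃ H : ℝ, 0 ≤ H ∧ lam * H < ((S.filter fun R => |y - p R| ≤ H).card : ℝ)} ≤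
      ENNReal.ofReal (4 * S.card / lam) := by
  classical
  induction S using Finset.strongInduction with
  | H S ih =>
    set W : Set ℕ := {n | ∃ y H : ℝ, 0 ≤ H ∧ lam * H < n ∧ n = (S.filter fun R => |y - p R| ≤ H).card}
      with hW
    rcases W.eq_empty_or_nonempty with h0 | h0
    · have : {y : ℝ | ∃ H : ℝ, 0 ≤ H ∧ lam * H < ((S.filter fun R => |y - p R| ≤ H).card : ℝ)} = ∅ := by
        refine eq_empty_of_forall_notMem fun y ⟨H, h1, h2⟩ => ?_
        have : (S.filter fun R => |y - p R| ≤ H).card ∈ W := ⟨y, H, h1, h2, rfl⟩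
        rw [h0] at this
        exact this
      rw [this, measure_empty]
      exact zero_le
    · have hb : BddAbove W := ⟨S.card, fun n ⟨y, H, _, _, e⟩ => e ▸ Finset.card_filter_le _ _⟩
      obtain ⟨y0, H0, a1, a2, a3⟩ := Nat.sSup_mem h0 hb
      set S0 := S.filter fun R => |y0 - p R| ≤ H0 with hS0
      have hmax : ∀ y H : ℝ, 0 ≤ H → lam * H < ((S.filter fun R => |y - p R| ≤ H).card : ℝ) →
          lam * H < (S0.card : ℝ) := fun y H h1 h2 => by
        have : (S.filter fun R => |y - p R| ≤ H).card ≤ sSup W := le_csSup hb ⟨y, H, h1, h2, rfl⟩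
        rw [a3] at this
        exact h2.trans_le (by exact_mod_cast this)
      rw [a3] at a2
      have hpos : (0 : ℝ) < S0.card := lt_of_le_of_lt (mul_nonneg hl.le a1) a2
      have hne : S0.Nonempty := Finset.card_pos.1 (by exact_mod_cast hpos)
      have hsub : S0 ⊆ S := Finset.filter_subset _ _
      have h1 := ih (S \ S0) (Finset.sdiff_ssubset hsub hne)
      have h2 : {y : ℝ | ∃ H : ℝ, 0 ≤ H ∧ lam * H < ((S.filter fun R => |y - p R| ≤ H).card : ℝ)} ⊆
          Icc (y0 - 2 * S0.card / lam) (y0 + 2 * S0.card / lam) ∪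
          {y : ℝ | ∃ H : ℝ, 0 ≤ H ∧ lam * H < (((S \ S0).filter fun R => |y - p R| ≤ H).card : ℝ)} := by
        rintro y ⟨H, b1, b2⟩
        by_cases hc : ∃ R ∈ S0, |y - p R| ≤ H
        · obtain ⟨R, c1, c2⟩ := hc
          have c3 := abs_le.1 (Finset.mem_filter.1 c1).2
          have c4 := abs_le.1 c2
          have c5 : H + H0 ≤ 2 * S0.card / lam := by
            rw [le_div_iff₀ hl]
            nlinarith [hmax y H b1 b2]
          exact Or.inl ⟨by linarith [c3.1, c3.2, c4.1], by linarith [c3.1, c3.2, c4.2]⟩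
        · refine Or.inr ⟨H, b1, b2.trans_le (Nat.cast_le.2 (Finset.card_le_card fun R hR => ?_))⟩
          have c1 := Finset.mem_filter.1 hR
          exact Finset.mem_filter.2 ⟨Finset.mem_sdiff.2 ⟨c1.1, fun h => hc ⟨R, h, c1.2⟩⟩, c1.2⟩
      refine ((measure_mono h2).trans (measure_union_le _ _)).trans ?_
      refine (add_le_add_right h1 _).trans_eq ?_
      have hle : (S0.card : ℝ) ≤ S.card := by exact_mod_cast Finset.card_le_card hsub
      rw [Real.volume_Icc, Finset.card_sdiff_of_subset hsub, Nat.cast_sub (Finset.card_le_card hsub),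
        ← ENNReal.ofReal_add (by
          have : 0 ≤ 2 * (S0.card : ℝ) / lam := by positivity
          linarith) (div_nonneg (by linarith) hl.le)]
      congr 1
      ring

theorem f_vol_slices {A : Set P2} (hA : MeasurableSet A) {F : ℝ → ℝ≥0∞}
    (h : ∀ x, volume {y : ℝ | (x, y) ∈ A} ≤ F x) : volume A ≤ ∫⁻ x, F x := by
  rw [Measure.volume_eq_prod, Measure.prod_apply hA]
  exact lintegral_mono h

theorem f_strip {Y : Set ℝ} (hY : MeasurableSet Y) {A : Set P2} (hA : MeasurableSet A) {h : ℝ}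
    (f : ℝ → ℝ) (hs : ∀ z ∈ A, z.1 ∈ Y ∧ f z.1 ≤ z.2 ∧ z.2 ≤ f z.1 + h) :
    volume A ≤ ENNReal.ofReal h * volume Y := by
  refine (f_vol_slices hA (F := Y.indicator fun _ => ENNReal.ofReal h) fun x => ?_).trans_eq ?_
  · by_cases hx : x ∈ Y
    · rw [indicator_of_mem hx]
      refine (measure_mono (t := Icc (f x) (f x + h)) fun y hy => (hs (x, y) hy).2).trans_eq ?_
      rw [Real.volume_Icc, add_sub_cancel_left]
    · have : {y : ℝ | (x, y) ∈ A} = ∅ := eq_empty_of_forall_notMem fun y hy => hx (hs (x, y) hy).1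
      rw [this, measure_empty]
      exact zero_le
  · rw [lintegral_indicator_const hY]

/-- sets with bounded overlap -/
theorem f_overlap {ι X : Type*} [MeasurableSpace X] (μ : Measure X) (I : Finset ι) (Y : ι → Set X)
    (hY : ∀ i, MeasurableSet (Y i)) {A : Set X} (hA : MeasurableSet A) (hsub : ∀ i ∈ I, Y i ⊆ A) (c : ℕ)
    (h : ∀ x, ∀ S : Finset ι, (∀ i ∈ S, i ∈ I ∧ x ∈ Y i) → S.card ≤ c) :
    ∑ i ∈ I, μ (Y i) ≤ c * μ A := by
  classical
  have e : ∑ i ∈ I, μ (Y i) = ∫⁻ x, ∑ i ∈ I, (Y i).indicator (fun _ => (1 : ℝ≥0∞)) x ∂μ := by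
    rw [lintegral_finsetSum _ fun i _ => measurable_const.indicator (hY i)]
    exact Finset.sum_congr rfl fun i _ => by rw [lintegral_indicator_const (hY i), one_mul]
  rw [e, ← lintegral_indicator_const hA]
  refine lintegral_mono fun x => ?_
  by_cases hx : x ∈ A
  · simp only [indicator_of_mem hx, indicator_apply]
    rw [← Finset.sum_filter, Finset.sum_const, nsmul_one]
    exact_mod_cast h x _ fun i hi => Finset.mem_filter.1 hi
  · exact (Finset.sum_eq_zero fun i hi => indicator_of_notMem (fun h => hx (hsub i hi h)) _).trans_le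
      zero_le

open Classical in
theorem f_cnt_eq (U : Finset Tile) (ρ : ℝ) (z : P2) :
    cnt U ρ z = ((U.filter fun P => z ∈ P.tube ρ).card : ℝ) := by
  simp only [cnt, indicator_apply]
  rw [← Finset.sum_filter, Finset.sum_const, nsmul_one]

theorem f_card_le_cnt {U S : Finset Tile} {ρ : ℝ} {z : P2} (h : ∀ P ∈ S, P ∈ U ∧ z ∈ P.tube ρ) :
    (S.card : ℝ) ≤ cnt U ρ z := by
  classical
  rw [f_cnt_eq]
  exact Nat.cast_le.2 (Finset.card_le_card fun P hP => Finset.mem_filter.2 (h P hP))

theorem f_measurable_cnt (U : Finset Tile) (ρ : ℝ) : Measurable (cnt U ρ) :=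
  Finset.measurable_sum _ fun P _ => measurable_const.indicator (P.measurableSet_tube ρ)

theorem f_len_pos (P : Tile) : 0 < P.len := by
  rw [Tile.len]
  positivity

theorem f_vol_I (P : Tile) : volume (dInt P.k P.m) = ENNReal.ofReal P.len := by
  rw [volume_dInt, zpow_natCast, Tile.len]

theorem f_totL_nonneg (U : Finset Tile) : 0 ≤ totL U := Finset.sum_nonneg fun P _ => (f_len_pos P).le

/-- the points from which too many tubes are seen -/
def badSet (U : Finset Tile) (lam : ℝ) : Set P2 := {z | ∃ H : ℕ, 1 ≤ H ∧ lam * H < cnt U H z}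

theorem measurableSet_badSet (U : Finset Tile) (lam : ℝ) : MeasurableSet (badSet U lam) := by
  have : badSet U lam = ⋃ H : ℕ, ⋃ _ : 1 ≤ H, {z | lam * H < cnt U H z} := by
    ext z
    simp [badSet]
  rw [this]
  exact MeasurableSet.iUnion fun H => MeasurableSet.iUnion fun _ =>
    measurableSet_lt measurable_const (f_measurable_cnt U H)

theorem volume_badSet (U : Finset Tile) {lam : ℝ} (hl : 0 < lam) :
    volume (badSet U lam) ≤ ENNReal.ofReal (4 * totL U / lam) := by
  classical
  refine (f_vol_slices (measurableSet_badSet U lam)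
    (F := fun x => ∑ P ∈ U, (dInt P.k P.m).indicator (fun _ => ENNReal.ofReal (4 / lam)) x)
    fun x => ?_).trans_eq ?_
  · refine le_trans (measure_mono ?_) ((f_weak1 (fun P : Tile => P.line x) hl
      (U.filter fun P => x ∈ dInt P.k P.m)).trans_eq ?_)
    · rintro y ⟨H, -, h2⟩
      refine ⟨H, Nat.cast_nonneg _, h2.trans_eq ?_⟩
      rw [f_cnt_eq, Finset.filter_filter]
      simp only [Tile.tube, mem_ofPred_eq, mem_dInt]
    · simp only [indicator_apply]
      rw [← Finset.sum_filter, Finset.sum_const, nsmul_eq_mul, ← ENNReal.ofReal_natCast,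
        ← ENNReal.ofReal_mul (Nat.cast_nonneg _)]
      congr 1
      ring
  · rw [lintegral_finsetSum _ fun P _ => measurable_const.indicator (measurableSet_dInt _ _), totL,
      Finset.mul_sum, Finset.sum_div, ENNReal.ofReal_sum_of_nonneg fun P _ =>
        div_nonneg (mul_nonneg (by norm_num) (f_len_pos P).le) hl.le]
    refine Finset.sum_congr rfl fun P _ => ?_
    rw [lintegral_indicator_const (measurableSet_dInt _ _), f_vol_I, ← ENNReal.ofReal_mul (by positivity)]
    congr 1
    ring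

theorem f_sub_a {P : Tile} {x : ℝ} (h : dI P.k x = P.m) : |x - P.a| ≤ P.len := by
  have h1 := mem_dInt.2 h
  rw [dInt, zpow_natCast] at h1
  rw [Tile.a, Tile.len, abs_le]
  have : (0 : ℝ) < 2 ^ P.k := by positivity
  constructor <;> linarith [h1.1, h1.2]

theorem f_dI_a (P : Tile) : dI P.k P.a = P.m := by
  refine mem_dInt.1 ?_
  rw [dInt, zpow_natCast, Tile.a]
  have : (0 : ℝ) < 2 ^ P.k := by positivity
  exact ⟨le_rfl, by linarith⟩

theorem f_line_diff (P Q : Tile) (x x' : ℝ) :
    |P.line x - Q.line x| ≤ |P.line x' - Q.line x'| + |P.s - Q.s| * |x - x'| := by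
  have : P.line x - Q.line x = P.line x' - Q.line x' + (P.s - Q.s) * (x - x') := by
    simp only [Tile.line]
    ring
  rw [this, ← abs_mul]
  exact abs_add_le _ _

theorem f_pop_strip {u : P2 → ℝ} {G : Set P2} {P : Tile} {z : P2} (h : z ∈ P.pop u G) :
    P.line z.1 ≤ z.2 ∧ z.2 ≤ P.line z.1 + 1 := by
  have h1 := Int.floor_eq_iff.1 h.2.2.2
  rw [Tile.line]
  constructor <;> linarith [h1.1, h1.2]

theorem f_pop_near {u : P2 → ℝ} {G : Set P2} {P : Tile} {z : P2} (h : z ∈ P.pop u G) :
    P.near u 1 z P.k := by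
  have h1 := f_pop_strip h
  have h2 := Int.floor_eq_iff.1 h.2.2.1
  refine ⟨le_rfl, h.2.1, ?_, abs_le.2 ⟨by linarith [h1.1], by linarith [h1.2]⟩⟩
  have h0 : (0 : ℝ) < 2 ^ P.k := by positivity
  rw [← abs_of_pos h0, ← abs_mul, mul_sub, Tile.s, mul_div_cancel₀ _ h0.ne', abs_le]
  constructor <;> linarith [h2.1, h2.2]

theorem f_pop_le {u : P2 → ℝ} (hu : Measurable u) {G : Set P2} (hG : MeasurableSet G) (P : Tile)
    {Y : Set ℝ} (hY : MeasurableSet Y) (h : ∀ z ∈ P.pop u G, z.1 ∈ Y) :
    volume (P.pop u G) ≤ volume Y := by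
  have := f_strip hY (P.measurableSet_pop hu hG) (h := 1) P.line fun z hz => ⟨h z hz, f_pop_strip hz⟩
  rwa [ENNReal.ofReal_one, one_mul] at this

theorem f_pop_le_len {u : P2 → ℝ} (hu : Measurable u) {G : Set P2} (hG : MeasurableSet G) (P : Tile) :
    (volume (P.pop u G)).toReal ≤ P.len := by
  refine ENNReal.toReal_le_of_le_ofReal (f_len_pos P).le ?_
  rw [← f_vol_I]
  exact f_pop_le hu hG P (measurableSet_dInt _ _) fun z hz => mem_dInt.2 hz.2.1

theorem f_near_mono {u : P2 → ℝ} {ρ ρ' : ℝ} {z : P2} {k : ℕ} {P : Tile} (h : P.near u ρ z k)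
    (hρ : ρ ≤ ρ') : P.near u ρ' z k :=
  ⟨h.1, h.2.1, h.2.2.1.trans hρ, h.2.2.2.trans hρ⟩

end Crest.Agent.R87
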