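import Crest.Agent.R87.Api1

/-!
# R87 / F2 : the dyadic counting lemma

Points `x R` with scales `k R` (the interval of `R` is the dyadic interval of scale `k R` around `x R`).
If above every interval of the family at most `D |V|` longer members have their point in `V`, then every `V`
containing an interval of the family contains at most `2 D |V|` points.
-/

set_option autoImplicit false

namespace Crest.Agent.R87

theorem f_dI_child (n : ℕ) (m : ℤ) (x : ℝ) :
    dI ((n + 1 : ℕ) : ℤ) x = m ↔ dI n x = 2 * m ∨ dI n x = 2 * m + 1 := by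
  rw [Nat.cast_succ, dI_succ]
  omega

theorem f_dy1 {ι : Type*} (S : Finset ι) (k : ι → ℕ) (x : ι → ℝ) {D : ℝ} (hD : 0 ≤ D)
    (H1 : ∀ (n : ℕ) (m : ℤ), (∃ R ∈ S, k R ≤ n ∧ dI n (x R) = m) →
      ((S.filter fun R => n ≤ k R ∧ dI n (x R) = m).card : ℝ) ≤ D * 2 ^ n) (n : ℕ) :
    ∀ m : ℤ, (∃ R ∈ S, k R ≤ n ∧ dI n (x R) = m) →
      ((S.filter fun R => dI n (x R) = m).card : ℝ) ≤ 2 * D * 2 ^ n := by
  classical
  induction n with
  | zero =>
    intro m hm
    have h := H1 0 m hm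
    simp only [zero_le, true_and] at h
    nlinarith
  | succ n ih =>
    intro m hm
    have h := H1 (n + 1) m hm
    have key : ∀ c : ℤ, (c = 2 * m ∨ c = 2 * m + 1) →
        ((S.filter fun R => dI n (x R) = c).card : ℝ) ≤ D * 2 ^ (n + 1) := by
      intro c hc
      by_cases h1 : ∃ R ∈ S, k R ≤ n ∧ dI n (x R) = c
      · refine (ih c h1).trans_eq ?_
        ring
      · refine le_trans (Nat.cast_le.2 (Finset.card_le_card fun R hR => ?_)) h
        obtain ⟨a1, a2⟩ := Finset.mem_filter.1 hR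
        refine Finset.mem_filter.2 ⟨a1, ?_, (f_dI_child n m _).2 (a2 ▸ hc)⟩
        by_contra h2
        exact h1 ⟨R, a1, by omega, a2⟩
    have hsub : (S.filter fun R => dI ((n + 1 : ℕ) : ℤ) (x R) = m) ⊆
        (S.filter fun R => dI n (x R) = 2 * m) ∪ S.filter fun R => dI n (x R) = 2 * m + 1 := by
      intro R hR
      obtain ⟨a1, a2⟩ := Finset.mem_filter.1 hR
      rw [← Finset.filter_or]
      exact Finset.mem_filter.2 ⟨a1, (f_dI_child n m _).1 a2⟩
    have h2 := (Nat.cast_le (α := ℝ)).2 ((Finset.card_le_card hsub).trans (Finset.card_union_le _ _))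
    rw [Nat.cast_add (R := ℝ)] at h2
    linarith [key _ (Or.inl rfl), key _ (Or.inr rfl)]

theorem f_dy2 {ι : Type*} (S : Finset ι) (k : ι → ℕ) (x : ι → ℝ) {D Δ : ℝ} (hD : 0 ≤ D) (hΔ : 0 ≤ Δ)
    (H1 : ∀ (n : ℕ) (m : ℤ), (∃ R ∈ S, k R ≤ n ∧ dI n (x R) = m) →
      ((S.filter fun R => n ≤ k R ∧ dI n (x R) = m).card : ℝ) ≤ D * 2 ^ n)
    (w : ℕ → ℤ → ℝ) (hw : ∀ n m, 0 ≤ w n m)
    (hadd : ∀ n m, w n (2 * m) + w n (2 * m + 1) ≤ w (n + 1) m)
    (H2 : ∀ R ∈ S, 2 ^ k R ≤ Δ * w (k R) (dI (k R) (x R))) (n : ℕ) :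
    ∀ m : ℤ, ((S.filter fun R => k R ≤ n ∧ dI n (x R) = m).card : ℝ) ≤ 2 * D * Δ * w n m := by
  classical
  have top : ∀ (n : ℕ) (m : ℤ), (∃ R ∈ S, k R = n ∧ dI n (x R) = m) →
      ((S.filter fun R => k R ≤ n ∧ dI n (x R) = m).card : ℝ) ≤ 2 * D * Δ * w n m := by
    rintro n m ⟨R, a1, a2, a3⟩
    have h1 := f_dy1 S k x hD H1 n m ⟨R, a1, a2.le, a3⟩
    have h2 := H2 R a1
    rw [a2, a3] at h2
    have h3 : (S.filter fun R => k R ≤ n ∧ dI n (x R) = m).card ≤ (S.filter fun R => dI n (x R) = m).card :=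
      Finset.card_le_card fun R hR =>
        Finset.mem_filter.2 ⟨(Finset.mem_filter.1 hR).1, (Finset.mem_filter.1 hR).2.2⟩
    refine ((Nat.cast_le.2 h3).trans h1).trans ?_
    rw [mul_assoc (2 * D)]
    exact mul_le_mul_of_nonneg_left h2 (by positivity)
  induction n with
  | zero =>
    intro m
    by_cases h : ∃ R ∈ S, k R = 0 ∧ dI (0 : ℕ) (x R) = m
    · exact top 0 m h
    · rw [Finset.filter_eq_empty_iff.2 fun R hR h1 => h ⟨R, hR, by omega, h1.2⟩, Finset.card_empty,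
        Nat.cast_zero]
      have := hw 0 m
      positivity
  | succ n ih =>
    intro m
    by_cases h : ∃ R ∈ S, k R = n + 1 ∧ dI (n + 1 : ℕ) (x R) = m
    · exact top _ m h
    · have hsub : (S.filter fun R => k R ≤ n + 1 ∧ dI ((n + 1 : ℕ) : ℤ) (x R) = m) ⊆
          (S.filter fun R => k R ≤ n ∧ dI n (x R) = 2 * m) ∪
            S.filter fun R => k R ≤ n ∧ dI n (x R) = 2 * m + 1 := by
        intro R hR
        obtain ⟨a1, a2, a3⟩ := Finset.mem_filter.1 hR
        have a4 : k R ≤ n := by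
          by_contra h2
          exact h ⟨R, a1, by omega, a3⟩
        rw [← Finset.filter_or]
        exact Finset.mem_filter.2 ⟨a1, ((f_dI_child n m _).1 a3).imp (fun e => ⟨a4, e⟩) fun e => ⟨a4, e⟩⟩
      have h2 := (Nat.cast_le (α := ℝ)).2 ((Finset.card_le_card hsub).trans (Finset.card_union_le _ _))
      rw [Nat.cast_add (R := ℝ)] at h2
      have h3 := mul_le_mul_of_nonneg_left (hadd n m) (by positivity : 0 ≤ 2 * D * Δ)
      linarith [ih (2 * m), ih (2 * m + 1)]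

end Crest.Agent.R87
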