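import Crest.Agent.R87.F1
import Crest.Agent.R87.F2

/-!
# R87 / F3 : the crossing estimate

For good tops `V ⊆ U` (pairwise not in relation `rel`, popular): `∫ (cnt V 1)² ≤ 840 λ Δ totL V`.
Fix `P`; the tubes `R`, `R.k ≤ P.k`, which cross `P` at a point `x R`.  If `len R |s_R - s_P| ≤ 8` then
`R.k = P.k` and `R` is seen from `P` at height `10`.  Otherwise the class of `R` is `i = log₂ |s_R - s_P|`,
`|R ∩ P| ≤ 8 / 2^i`, and a class has at most `10 λ 2^i Δ |Y i|` members by `f_dy2`.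
-/

set_option autoImplicit false

namespace Crest.Agent.R87

open MeasureTheory Set
open scoped ENNReal

/-- `P` lies below `Q` (the levels are compared separately) -/
def rel (P Q : Tile) : Prop :=
  (∀ x, dI P.k x = P.m → dI Q.k x = Q.m) ∧ P.len * |P.s - Q.s| ≤ 10 ∧ |P.line P.a - Q.line P.a| ≤ 10

/-- from some point of the base line of `P` few tubes are seen -/
def good (U : Finset Tile) (lam : ℝ) (P : Tile) : Prop :=
  ∃ x, dI P.k x = P.m ∧ ∀ H : ℝ, 1 ≤ H → cnt U H (x, P.line x) ≤ lam * H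

/-- `R` crosses `P` above `x` -/
def cross (R P : Tile) (x : ℝ) : Prop :=
  dI R.k x = R.m ∧ dI P.k x = P.m ∧ |R.line x - P.line x| ≤ 2

theorem f_up {k k' : ℕ} (h : k ≤ k') {x x' : ℝ} (e : dI k x = dI k x') : dI k' x = dI k' x' :=
  dI_eq_of_le (Int.ofNat_le.2 h) e

theorem f_close {k : ℕ} {x x' : ℝ} (e : dI k x = dI k x') : |x - x'| ≤ 2 ^ k := by
  have := abs_sub_lt_of_dI_eq e
  rw [zpow_natCast] at this
  exact this.le

theorem f_cross_of_mem {R P : Tile} {z : P2} (h : z ∈ P.tube 1 ∩ R.tube 1) : cross R P z.1 := by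
  have h1 := abs_le.1 h.1.2
  have h2 := abs_le.1 h.2.2
  exact ⟨h.2.1, h.1.1, abs_le.2 ⟨by linarith [h1.1, h2.2], by linarith [h1.2, h2.1]⟩⟩

theorem f_rel_of_cross {R P : Tile} {x : ℝ} (h : cross R P x) (hk : R.k ≤ P.k)
    (hs : R.len * |R.s - P.s| ≤ 8) : rel R P := by
  refine ⟨fun x' hx' => (f_up hk (hx'.trans h.1.symm)).trans h.2.1, by linarith, ?_⟩
  have h1 := f_line_diff R P R.a x
  have h2 := mul_le_mul_of_nonneg_left (f_sub_a h.1) (abs_nonneg (R.s - P.s))
  rw [abs_sub_comm R.a] at h1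
  linarith [h.2.2]

theorem f_area_le (R P : Tile) {θ : ℝ} (h0 : 0 < θ) (h : θ ≤ |R.s - P.s|) :
    volume (P.tube 1 ∩ R.tube 1) ≤ ENNReal.ofReal (8 / θ) := by
  have hne : R.s - P.s ≠ 0 := abs_pos.1 (h0.trans_le h)
  set c : ℝ := -(R.line 0 - P.line 0) / (R.s - P.s) with hc
  refine (f_strip (Y := Icc (c - 2 / θ) (c + 2 / θ)) measurableSet_Icc
    ((P.measurableSet_tube 1).inter (R.measurableSet_tube 1)) (h := 2) (fun x => P.line x - 1)
    fun z hz => ⟨?_, ?_⟩).trans_eq ?_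
  · have h1 := (f_cross_of_mem hz).2.2
    have e : R.line z.1 - P.line z.1 = (R.s - P.s) * (z.1 - c) := by
      rw [hc]
      field_simp
      simp only [Tile.line]
      ring
    rw [e, abs_mul] at h1
    have h2 : |z.1 - c| ≤ 2 / θ := by
      rw [le_div_iff₀ h0]
      nlinarith [abs_nonneg (z.1 - c)]
    have h3 := abs_le.1 h2
    exact ⟨by linarith [h3.1], by linarith [h3.2]⟩
  · have h1 := abs_le.1 hz.1.2
    exact ⟨by linarith [h1.1], by linarith [h1.2]⟩
  · rw [Real.volume_Icc, ← ENNReal.ofReal_mul (by norm_num)]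
    congr 1
    ring

/-- slopes seen along the base line of `P` -/
def Yset (u : P2 → ℝ) (P : Tile) (t : ℝ) : Set ℝ :=
  {x | t / 2 ≤ |u (x, P.line x) - P.s| ∧ |u (x, P.line x) - P.s| < 4 * t}

theorem measurableSet_Yset {u : P2 → ℝ} (hu : Measurable u) (P : Tile) (t : ℝ) :
    MeasurableSet (Yset u P t) := by
  have h : Measurable fun x : ℝ => |u (x, P.line x) - P.s| := by
    refine ((hu.comp (measurable_id.prodMk ?_)).sub_const _).abs
    unfold Tile.line
    fun_prop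
  exact (measurableSet_le measurable_const h).inter (measurableSet_lt h measurable_const)

theorem f_pop_Y {u : P2 → ℝ} {kmax : ℕ} (hu : Field u kmax) {G : Set P2} {R P : Tile} {x t : ℝ}
    (hk : R.k ≤ kmax) (h : cross R P x) (hs : 8 < R.len * |R.s - P.s|) (h1 : t ≤ |R.s - P.s|)
    (h2 : |R.s - P.s| < 2 * t) {z : P2} (hz : z ∈ R.pop u G) : z.1 ∈ Yset u P t := by
  obtain ⟨-, a1, a2, a3⟩ := f_pop_near hz
  have hl := f_len_pos R
  have b1 := f_line_diff R P z.1 x
  have b2 : |z.1 - x| ≤ R.len := f_close (a1.trans h.1.symm)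
  have b3 := hu.lip z.1 z.2 (P.line z.1)
  have b4 : R.len ≤ 2 ^ kmax := pow_le_pow_right₀ one_le_two hk
  change R.len * _ ≤ _ at a2
  have hθ := abs_nonneg (R.s - P.s)
  have c1 : |u z - R.s| ≤ |R.s - P.s| / 8 := by
    refine le_of_mul_le_mul_left ?_ hl
    linarith
  have c2 : |z.2 - P.line z.1| ≤ 2 * |R.s - P.s| * 2 ^ kmax := by
    have d1 := abs_sub_le z.2 (R.line z.1) (P.line z.1)
    have d2 := mul_le_mul_of_nonneg_left b2 hθ
    have d3 := mul_le_mul_of_nonneg_left b4 hθ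
    linarith [h.2.2]
  have c3 : |u z - u (z.1, P.line z.1)| ≤ |R.s - P.s| / 50 := by
    refine b3.trans ?_
    rw [div_le_iff₀ (by positivity)]
    linarith
  have c4 := abs_abs_sub_abs_le_abs_sub (u (z.1, P.line z.1) - P.s) (R.s - P.s)
  have c5 := abs_sub_le (u (z.1, P.line z.1)) (u z) R.s
  rw [abs_sub_comm _ (u z)] at c5
  rw [sub_sub_sub_cancel_right, abs_le] at c4
  constructor <;> linarith [c4.1, c4.2]

/-- one class of slopes -/
theorem f_class {u : P2 → ℝ} {kmax : ℕ} (hu : Field u kmax) {G : Set P2} (hG : MeasurableSet G)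
    {U B : Finset Tile} {lam Δ t : ℝ} (hlam : 0 ≤ lam) (hΔ : 0 ≤ Δ) (ht : 0 < t) {P : Tile} (x : Tile → ℝ)
    (hU : B ⊆ U) (hk : ∀ R ∈ B, R.k ≤ kmax) (hP : ∀ R ∈ B, R.k ≤ P.k)
    (hpop : ∀ R ∈ B, R.len ≤ Δ * (volume (R.pop u G)).toReal) (hgood : ∀ R ∈ B, good U lam R)
    (hx : ∀ R ∈ B, cross R P (x R)) (hs : ∀ R ∈ B, 8 < R.len * |R.s - P.s|)
    (h1 : ∀ R ∈ B, t ≤ |R.s - P.s|) (h2 : ∀ R ∈ B, |R.s - P.s| < 2 * t) :
    (B.card : ℝ) ≤ 10 * lam * t * Δ * (volume (Yset u P t ∩ dInt P.k P.m)).toReal := by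
  classical
  have hY := measurableSet_Yset hu.meas P t
  have hfin : ∀ (n : ℕ) (m : ℤ), volume (Yset u P t ∩ dInt n m) ≠ ∞ := fun n m =>
    ne_top_of_le_ne_top (by rw [volume_dInt]; exact ENNReal.ofReal_ne_top) (measure_mono inter_subset_right)
  have key := f_dy2 B Tile.k x (D := 5 * lam * t) (Δ := Δ) (by positivity) hΔ (fun n m hm => ?_)
    (fun n m => (volume (Yset u P t ∩ dInt n m)).toReal) (fun _ _ => ENNReal.toReal_nonneg)
    (fun n m => ?_) (fun R hR => ?_) P.k P.m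
  · rw [Finset.filter_true_of_mem fun R hR => ⟨hP R hR, (hx R hR).2.1⟩] at key
    refine key.trans_eq ?_
    ring
  · obtain ⟨Q, q1, q2, q3⟩ := hm
    obtain ⟨x0, a1, a2⟩ := hgood Q q1
    have a3 : dI n x0 = m := (f_up q2 (a1.trans (hx Q q1).1.symm)).trans q3
    have win : ∀ R ∈ B, dI n (x R) = m → |R.line x0 - P.line x0| ≤ 2 + 2 * t * 2 ^ n := by
      intro R hR e
      have b1 := f_line_diff R P x0 (x R)
      have b2 := mul_le_mul (h2 R hR).le (f_close (a3.trans e.symm)) (abs_nonneg _) (by positivity)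
      linarith [(hx R hR).2.2]
    have a4 : 4 ≤ t * 2 ^ n := by
      have b1 : Q.len ≤ 2 ^ n := pow_le_pow_right₀ one_le_two q2
      have b2 := mul_le_mul b1 (h2 Q q1).le (abs_nonneg _) (by positivity)
      linarith [hs Q q1]
    refine (f_card_le_cnt (U := U) (ρ := 5 * t * 2 ^ n) (z := (x0, Q.line x0)) fun R hR => ?_).trans
      ((a2 _ (by linarith)).trans_eq (by ring))
    obtain ⟨b1, b2, b3⟩ := Finset.mem_filter.1 hR
    refine ⟨hU b1, (f_up b2 (a3.trans b3.symm)).trans (hx R b1).1, ?_⟩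
    have c1 := abs_le.1 (win R b1 b3)
    have c2 := abs_le.1 (win Q q1 q3)
    exact abs_le.2 ⟨by linarith [c1.2, c2.1], by linarith [c1.1, c2.2]⟩
  · rw [← ENNReal.toReal_add (hfin _ _) (hfin _ _), ← measure_union
      ((disjoint_dInt _ (by omega)).mono inter_subset_right inter_subset_right)
      (hY.inter (measurableSet_dInt _ _)), ← inter_union_distrib_left, ← dInt_succ, Nat.cast_succ]
  · refine (hpop R hR).trans (mul_le_mul_of_nonneg_left (ENNReal.toReal_mono (hfin _ _) ?_) hΔ)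
    refine f_pop_le hu.meas hG R (hY.inter (measurableSet_dInt _ _)) fun z hz => ⟨?_, mem_dInt.2 ?_⟩
    · exact f_pop_Y hu (hk R hR) (hx R hR) (hs R hR) (h1 R hR) (h2 R hR) hz
    · exact hz.2.1.trans (hx R hR).1.symm

/-- all tubes which are not longer than `P` -/
theorem f_row {u : P2 → ℝ} {kmax : ℕ} (hu : Field u kmax) {G : Set P2} (hG : MeasurableSet G)
    {U V : Finset Tile} {lam Δ : ℝ} (hlam : 0 ≤ lam) (hΔ : 1 ≤ Δ) (hU : V ⊆ U)
    (hk : ∀ R ∈ V, R.k ≤ kmax) (hpop : ∀ R ∈ V, R.len ≤ Δ * (volume (R.pop u G)).toReal)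
    (hgood : ∀ R ∈ V, good U lam R) (hrel : ∀ R ∈ V, ∀ Q ∈ V, R.k < Q.k → ¬ rel R Q) {P : Tile}
    (hP : P ∈ V) :
    ∑ R ∈ V.filter (fun R => R.k ≤ P.k), volume (P.tube 1 ∩ R.tube 1) ≤
      ENNReal.ofReal (420 * lam * Δ * P.len) := by
  classical
  have hl := f_len_pos P
  have : ∀ R : Tile, ∃ x, (P.tube 1 ∩ R.tube 1).Nonempty → cross R P x := fun R => by
    by_cases h : (P.tube 1 ∩ R.tube 1).Nonempty
    · exact ⟨_, fun _ => f_cross_of_mem h.some_mem⟩
    · exact ⟨0, fun h' => (h h').elim⟩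
  choose x hx using this
  set W := (V.filter fun R => R.k ≤ P.k).filter fun R => (P.tube 1 ∩ R.tube 1).Nonempty with hW
  have hWm : ∀ R ∈ W, R ∈ V ∧ R.k ≤ P.k ∧ cross R P (x R) := fun R hR =>
    ⟨(Finset.mem_filter.1 (Finset.mem_filter.1 hR).1).1, (Finset.mem_filter.1 (Finset.mem_filter.1 hR).1).2,
      hx R (Finset.mem_filter.1 hR).2⟩
  have hW0 : ∑ R ∈ W, volume (P.tube 1 ∩ R.tube 1) =
      ∑ R ∈ V.filter (fun R => R.k ≤ P.k), volume (P.tube 1 ∩ R.tube 1) :=
    Finset.sum_filter_of_ne fun R _ h => nonempty_of_measure_ne_zero h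
  rw [← hW0, ← Finset.sum_filter_add_sum_filter_not W (fun R => R.len * |R.s - P.s| ≤ 8)]
  have hA : ∑ R ∈ W.filter (fun R => R.len * |R.s - P.s| ≤ 8), volume (P.tube 1 ∩ R.tube 1) ≤
      ENNReal.ofReal (20 * lam * P.len) := by
    obtain ⟨x0, a1, a2⟩ := hgood P hP
    have h1 : ((W.filter fun R => R.len * |R.s - P.s| ≤ 8).card : ℝ) ≤ lam * 10 := by
      refine (f_card_le_cnt (U := U) (ρ := 10) (z := (x0, P.line x0)) fun R hR => ?_).trans
        (a2 _ (by norm_num))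
      obtain ⟨b1, b2⟩ := Finset.mem_filter.1 hR
      obtain ⟨b3, b4, b5⟩ := hWm R b1
      have b6 : P.k ≤ R.k := not_lt.1 fun h => hrel R b3 P hP h (f_rel_of_cross b5 b4 b2)
      have b7 : dI R.k x0 = dI R.k (x R) := f_up b6 (a1.trans b5.2.1.symm)
      refine ⟨hU b3, b7.trans b5.1, ?_⟩
      have c1 := f_line_diff R P x0 (x R)
      have c2 : |R.s - P.s| * |x0 - x R| ≤ |R.s - P.s| * R.len :=
        mul_le_mul_of_nonneg_left (f_close b7) (abs_nonneg _)
      rw [abs_sub_comm]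
      linarith [b5.2.2]
    refine (Finset.sum_le_card_nsmul _ _ (ENNReal.ofReal (2 * 1 * P.len)) fun R _ =>
      (measure_mono inter_subset_left).trans_eq (P.volume_tube zero_le_one)).trans ?_
    rw [nsmul_eq_mul, ← ENNReal.ofReal_natCast, ← ENNReal.ofReal_mul (Nat.cast_nonneg _)]
    exact ENNReal.ofReal_le_ofReal (by nlinarith)
  set B := W.filter fun R => ¬ R.len * |R.s - P.s| ≤ 8 with hB
  have hBm : ∀ R ∈ B, R ∈ V ∧ R.k ≤ P.k ∧ cross R P (x R) ∧ 8 < R.len * |R.s - P.s| := fun R hR =>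
    ⟨(hWm R (Finset.mem_filter.1 hR).1).1, (hWm R (Finset.mem_filter.1 hR).1).2.1,
      (hWm R (Finset.mem_filter.1 hR).1).2.2, not_le.1 (Finset.mem_filter.1 hR).2⟩
  set cl : Tile → ℤ := fun R => Int.log 2 |R.s - P.s| with hcl
  have hcl' : ∀ R ∈ B, (2 : ℝ) ^ cl R ≤ |R.s - P.s| ∧ |R.s - P.s| < 2 * 2 ^ cl R := fun R hR => by
    have h0 : 0 < |R.s - P.s| := by
      have := (hBm R hR).2.2.2
      exact (mul_pos_iff_of_pos_left (f_len_pos R)).1 (by linarith)
    have h1 := Int.zpow_log_le_self (b := 2) one_lt_two h0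
    have h2 := Int.lt_zpow_succ_log_self (b := 2) one_lt_two |R.s - P.s|
    rw [Nat.cast_ofNat] at h1 h2
    rw [zpow_add_one₀ two_ne_zero, mul_comm] at h2
    exact ⟨h1, h2⟩
  have hC : ∑ R ∈ B, volume (P.tube 1 ∩ R.tube 1) ≤ ENNReal.ofReal (400 * lam * Δ * P.len) := by
    rw [← Finset.sum_fiberwise_of_maps_to (g := cl) (t := B.image cl) fun R hR => Finset.mem_image_of_mem _ hR]
    have h1 : ∀ i ∈ B.image cl, ∑ R ∈ B.filter (fun R => cl R = i), volume (P.tube 1 ∩ R.tube 1) ≤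
        ENNReal.ofReal (80 * lam * Δ) * volume (Yset u P (2 ^ i) ∩ dInt P.k P.m) := by
      intro i _
      have ht : (0 : ℝ) < 2 ^ i := by positivity
      have hm : ∀ R ∈ B.filter (fun R => cl R = i), R ∈ B ∧ (2 : ℝ) ^ i ≤ |R.s - P.s| ∧
          |R.s - P.s| < 2 * 2 ^ i := fun R hR => by
        obtain ⟨a1, rfl⟩ := Finset.mem_filter.1 hR
        exact ⟨a1, hcl' R a1⟩
      have h2 := f_class hu hG hlam (zero_le_one.trans hΔ) ht x (B := B.filter fun R => cl R = i)
        (fun R hR => hU (hBm R (hm R hR).1).1) (fun R hR => hk R (hBm R (hm R hR).1).1)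
        (fun R hR => (hBm R (hm R hR).1).2.1) (fun R hR => hpop R (hBm R (hm R hR).1).1)
        (fun R hR => hgood R (hBm R (hm R hR).1).1) (fun R hR => (hBm R (hm R hR).1).2.2.1)
        (fun R hR => (hBm R (hm R hR).1).2.2.2) (fun R hR => (hm R hR).2.1) fun R hR => (hm R hR).2.2
      refine (Finset.sum_le_card_nsmul _ _ (ENNReal.ofReal (8 / 2 ^ i)) fun R hR =>
        f_area_le R P ht (hm R hR).2.1).trans ?_
      have hfin : volume (Yset u P (2 ^ i) ∩ dInt P.k P.m) ≠ ∞ :=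
        ne_top_of_le_ne_top (by rw [volume_dInt]; exact ENNReal.ofReal_ne_top)
          (measure_mono inter_subset_right)
      rw [nsmul_eq_mul, ← ENNReal.ofReal_natCast, ← ENNReal.ofReal_mul (Nat.cast_nonneg _),
        ← ENNReal.ofReal_toReal hfin, ← ENNReal.ofReal_mul (by positivity)]
      refine ENNReal.ofReal_le_ofReal ((mul_le_mul_of_nonneg_right h2 (by positivity)).trans_eq ?_)
      field_simp
      ring
    refine (Finset.sum_le_sum h1).trans ?_
    rw [← Finset.mul_sum]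
    have h3 := f_overlap volume (B.image cl) (fun i => Yset u P (2 ^ i) ∩ dInt P.k P.m)
      (fun i => (measurableSet_Yset hu.meas P _).inter (measurableSet_dInt _ _)) (measurableSet_dInt P.k P.m)
      (fun _ _ => inter_subset_right) 5 fun y S hS => ?_
    · refine (mul_le_mul_right h3 _).trans_eq ?_
      rw [f_vol_I, ← ENNReal.ofReal_natCast, ← ENNReal.ofReal_mul (Nat.cast_nonneg _),
        ← ENNReal.ofReal_mul (by positivity)]
      congr 1
      push_cast
      ring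
    · have cmp : ∀ i i' : ℤ, y ∈ Yset u P (2 ^ i) → y ∈ Yset u P (2 ^ i') → i ≤ i' + 2 := by
        intro i i' a1 a2
        have a3 : (2 : ℝ) ^ i < 2 ^ (i' + 3) := by
          rw [zpow_add₀ two_ne_zero]
          norm_num
          linarith [a1.1, a2.2]
        have := (zpow_lt_zpow_iff_right₀ one_lt_two).1 a3
        omega
      rcases S.eq_empty_or_nonempty with rfl | ⟨i0, h⟩
      · exact Nat.zero_le _
      · refine (Finset.card_le_card (t := Finset.Icc (i0 - 2) (i0 + 2)) fun i hi => ?_).trans ?_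
        · have a1 := (hS i0 h).2.1
          have a2 := (hS i hi).2.1
          exact Finset.mem_Icc.2 ⟨by linarith [cmp _ _ a1 a2], cmp _ _ a2 a1⟩
        · rw [Int.card_Icc]
          omega
  refine (add_le_add hA hC).trans ?_
  rw [← ENNReal.ofReal_add (by positivity) (by positivity)]
  refine ENNReal.ofReal_le_ofReal ?_
  nlinarith [mul_le_mul_of_nonneg_left hΔ (mul_nonneg hlam hl.le)]

theorem f_cnt_sq (V : Finset Tile) :
    ∫⁻ z, ENNReal.ofReal (cnt V 1 z ^ 2) = ∑ P ∈ V, ∑ R ∈ V, volume (P.tube 1 ∩ R.tube 1) := by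
  classical
  have e : ∀ z, ENNReal.ofReal (cnt V 1 z ^ 2) =
      ∑ P ∈ V, ∑ R ∈ V, (P.tube 1 ∩ R.tube 1).indicator (fun _ => (1 : ℝ≥0∞)) z := fun z => by
    have h1 : ENNReal.ofReal (cnt V 1 z) = ∑ P ∈ V, (P.tube 1).indicator (fun _ => (1 : ℝ≥0∞)) z := by
      simp only [f_cnt_eq, indicator_apply]
      rw [← Finset.sum_filter, Finset.sum_const, nsmul_one, ENNReal.ofReal_natCast]
    rw [ENNReal.ofReal_pow (by rw [f_cnt_eq]; exact Nat.cast_nonneg _), h1, sq, Finset.sum_mul_sum]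
    refine Finset.sum_congr rfl fun P _ => Finset.sum_congr rfl fun R _ => ?_
    rw [← inter_indicator_mul]
    simp only [mul_one]
  have hm : ∀ P R : Tile, MeasurableSet (P.tube 1 ∩ R.tube 1) := fun P R =>
    (P.measurableSet_tube 1).inter (R.measurableSet_tube 1)
  simp only [e]
  rw [lintegral_finsetSum _ fun P _ => Finset.measurable_sum _ fun R _ => measurable_const.indicator (hm P R)]
  refine Finset.sum_congr rfl fun P _ => ?_
  rw [lintegral_finsetSum _ fun R _ => measurable_const.indicator (hm P R)]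
  exact Finset.sum_congr rfl fun R _ => by rw [lintegral_indicator_const (hm P R), one_mul]

/-- **crossing estimate** -/
theorem f_count {u : P2 → ℝ} {kmax : ℕ} (hu : Field u kmax) {G : Set P2} (hG : MeasurableSet G)
    {U V : Finset Tile} {lam Δ : ℝ} (hlam : 0 ≤ lam) (hΔ : 1 ≤ Δ) (hU : V ⊆ U)
    (hk : ∀ R ∈ V, R.k ≤ kmax) (hpop : ∀ R ∈ V, R.len ≤ Δ * (volume (R.pop u G)).toReal)
    (hgood : ∀ R ∈ V, good U lam R) (hrel : ∀ R ∈ V, ∀ Q ∈ V, R.k < Q.k → ¬ rel R Q) :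
    ∫⁻ z, ENNReal.ofReal (cnt V 1 z ^ 2) ≤ ENNReal.ofReal (840 * lam * Δ * totL V) := by
  classical
  have h1 : ∑ P ∈ V, ∑ R ∈ V.filter (fun R => R.k ≤ P.k), volume (P.tube 1 ∩ R.tube 1) ≤
      ENNReal.ofReal (420 * lam * Δ * totL V) := by
    rw [totL, Finset.mul_sum, ENNReal.ofReal_sum_of_nonneg fun P _ => by
      have := f_len_pos P
      positivity]
    exact Finset.sum_le_sum fun P hP => f_row hu hG hlam hΔ hU hk hpop hgood hrel hP
  have h2 : ∑ P ∈ V, ∑ R ∈ V.filter (fun R => ¬ R.k ≤ P.k), volume (P.tube 1 ∩ R.tube 1) ≤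
      ∑ P ∈ V, ∑ R ∈ V.filter (fun R => R.k ≤ P.k), volume (P.tube 1 ∩ R.tube 1) := by
    simp only [Finset.sum_filter]
    rw [Finset.sum_comm]
    refine Finset.sum_le_sum fun P _ => Finset.sum_le_sum fun R _ => ?_
    by_cases h : P.k ≤ R.k
    · rw [if_neg (not_not.2 h)]
      exact zero_le
    · rw [if_pos h, if_pos (not_le.1 h).le, inter_comm]
  have h0 := f_totL_nonneg V
  rw [f_cnt_sq]
  calc _ = ∑ P ∈ V, ∑ R ∈ V.filter (fun R => R.k ≤ P.k), volume (P.tube 1 ∩ R.tube 1) +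
        ∑ P ∈ V, ∑ R ∈ V.filter (fun R => ¬ R.k ≤ P.k), volume (P.tube 1 ∩ R.tube 1) := by
        rw [← Finset.sum_add_distrib]
        exact Finset.sum_congr rfl fun P _ => (Finset.sum_filter_add_sum_filter_not _ _ _).symm
    _ ≤ _ := add_le_add h1 (h2.trans h1)
    _ = _ := by
        rw [← ENNReal.ofReal_add (by positivity) (by positivity)]
        congr 1
        ring

end Crest.Agent.R87
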