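import Crest.Agent.R87.F3

/-!
# R87 / Forest : density classes, tops, removal of the exceptional set (`ForestStmt`)
-/

set_option autoImplicit false

namespace Crest.Agent.R87

open MeasureTheory Set
open scoped ENNReal

/-- only finitely many tiles meet `G` -/
theorem f_finite {u : P2 → ℝ} {kmax : ℕ} (hu : Field u kmax) {G : Set P2} (hG : Bornology.IsBounded G) :
    {P : Tile | P.k ≤ kmax ∧ (P.pop u G).Nonempty}.Finite := by
  obtain ⟨L, hL⟩ := hG.exists_norm_le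
  obtain ⟨N, hN⟩ := exists_nat_ge (L + 5 * 2 ^ kmax + 1)
  refine (((finite_Iic kmax).prod ((finite_Icc (-N : ℤ) N).prod ((finite_Icc (-N : ℤ) N).prod
    (finite_Icc (-N : ℤ) N)))).image fun q : ℕ × ℤ × ℤ × ℤ => Tile.mk q.1 q.2.1 q.2.2.1 q.2.2.2).subset ?_
  rintro P ⟨hk, z, hz⟩
  have key : ∀ n : ℤ, |(n : ℝ)| ≤ L + 5 * 2 ^ kmax + 1 → n ∈ Icc (-N : ℤ) N := fun n hn => by
    have : |n| ≤ N := by exact_mod_cast hn.trans hN
    exact abs_le.1 this
  obtain ⟨-, a1, a2, a3⟩ := f_pop_near hz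
  have b1 : |z.1| ≤ L := (norm_fst_le z).trans (hL z hz.1)
  have b2 : |z.2| ≤ L := (norm_snd_le z).trans (hL z hz.1)
  have b3 := f_sub_a a1
  have b4 : P.len ≤ 2 ^ kmax := pow_le_pow_right₀ one_le_two hk
  have b5 : 1 ≤ P.len := one_le_pow₀ one_le_two
  have b6 := hu.bdd z
  have b0 := (abs_nonneg _).trans b1
  change P.len * _ ≤ _ at a2
  have c1 : P.len * |P.s| ≤ 4 * P.len + 1 := by
    have := abs_sub_abs_le_abs_sub P.s (u z)
    rw [abs_sub_comm] at this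
    nlinarith
  refine ⟨(P.k, P.m, P.σ, P.β), ⟨hk, key _ ?_, key _ ?_, key _ ?_⟩, rfl⟩
  · have d1 : |P.a| = |(P.m : ℝ)| * P.len := by
      rw [Tile.a, abs_mul, Tile.len, abs_of_pos (by positivity : (0 : ℝ) < 2 ^ P.k)]
    have d2 := abs_sub_abs_le_abs_sub P.a z.1
    rw [abs_sub_comm] at d2
    nlinarith [abs_nonneg (P.m : ℝ)]
  · have d1 : |(P.σ : ℝ)| = P.len * |P.s| := by
      rw [Tile.s, abs_div, Tile.len, abs_of_pos (by positivity : (0 : ℝ) < 2 ^ P.k),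
        mul_div_cancel₀ _ (by positivity)]
    linarith
  · have d1 : (P.β : ℝ) = z.2 - (z.2 - P.line z.1) - P.s * (z.1 - P.a) := by
      rw [Tile.line]
      ring
    have d2 := abs_sub (z.2 - (z.2 - P.line z.1)) (P.s * (z.1 - P.a))
    have d3 := abs_sub z.2 (z.2 - P.line z.1)
    have d4 := mul_le_mul_of_nonneg_left b3 (abs_nonneg P.s)
    rw [abs_mul] at d2
    rw [d1]
    nlinarith

theorem f_near_rel {u : P2 → ℝ} {ρ : ℝ} {z : P2} {k : ℕ} {P Q : Tile} (h : P.near u ρ z k)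
    (hk : P.k ≤ Q.k) (hr : rel P Q) : Q.near u (ρ + 20) z k := by
  obtain ⟨a1, a2, a3, a4⟩ := h
  obtain ⟨b1, b2, b3⟩ := hr
  have c1 : (2 : ℝ) ^ k ≤ P.len := pow_le_pow_right₀ one_le_two a1
  refine ⟨a1.trans hk, b1 _ a2, ?_, ?_⟩
  · have d1 := mul_le_mul_of_nonneg_left (abs_sub_le (u z) P.s Q.s) (by positivity : (0 : ℝ) ≤ 2 ^ k)
    have d2 := mul_le_mul_of_nonneg_right c1 (abs_nonneg (P.s - Q.s))
    linarith
  · have d1 := abs_sub_le z.2 (P.line z.1) (Q.line z.1)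
    have d2 := f_line_diff P Q z.1 P.a
    have d3 := mul_le_mul_of_nonneg_left (f_sub_a a2) (abs_nonneg (P.s - Q.s))
    linarith

theorem f_pop_rel {u : P2 → ℝ} {G : Set P2} {z : P2} {P Q : Tile} (hP : z ∈ P.pop u G)
    (hQ : z ∈ Q.pop u G) (hk : P.k ≤ Q.k) : rel P Q := by
  obtain ⟨-, a1, a2, a3⟩ := f_pop_near hP
  obtain ⟨-, b1, b2, b3⟩ := Tile.near_down (f_pop_near hQ) hk
  refine f_rel_of_cross (x := z.1) ⟨a1, b1, ?_⟩ hk ?_
  · have := abs_sub_le (P.line z.1) z.2 (Q.line z.1)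
    rw [abs_sub_comm _ z.2] at this
    linarith
  · have h1 := abs_sub_le P.s (u z) Q.s
    rw [abs_sub_comm _ (u z)] at h1
    have h2 := mul_le_mul_of_nonneg_left h1 (f_len_pos P).le
    change P.len * _ ≤ _ at a2 b2
    linarith

theorem f_pop_eq {u : P2 → ℝ} {G : Set P2} {z : P2} {P Q : Tile} (hP : z ∈ P.pop u G)
    (hQ : z ∈ Q.pop u G) (hk : P.k = Q.k) : P = Q := by
  obtain ⟨k, m, σ, β⟩ := P
  obtain ⟨k', m', σ', β'⟩ := Q
  obtain ⟨-, a1, a2, a3⟩ := hP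
  obtain ⟨-, b1, b2, b3⟩ := hQ
  simp only [Tile.s, Tile.a] at *
  subst hk
  subst a1 a2 b1 b2
  rw [← a3, ← b3]

theorem f_total {u : P2 → ℝ} (hu : Measurable u) {G : Set P2} (hG : MeasurableSet G)
    (hfin : volume G ≠ ∞) {V : Finset Tile} {Δ : ℝ} (hΔ : 0 ≤ Δ)
    (hpop : ∀ R ∈ V, R.len ≤ Δ * (volume (R.pop u G)).toReal)
    (hrel : ∀ R ∈ V, ∀ Q ∈ V, R.k < Q.k → ¬ rel R Q) : totL V ≤ Δ * (volume G).toReal := by
  have h1 := f_overlap volume V (fun P => P.pop u G) (fun P => P.measurableSet_pop hu hG) hG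
    (fun _ _ _ hz => hz.1) 1 fun z S hS => Finset.card_le_one.2 fun P hP Q hQ => ?_
  · rw [Nat.cast_one, one_mul] at h1
    refine (Finset.sum_le_sum hpop).trans ?_
    rw [← Finset.mul_sum, ← ENNReal.toReal_sum fun P _ =>
      ne_top_of_le_ne_top hfin (measure_mono fun _ hz => hz.1)]
    exact mul_le_mul_of_nonneg_left (ENNReal.toReal_mono hfin h1) hΔ
  · obtain ⟨a1, a2⟩ := hS P hP
    obtain ⟨b1, b2⟩ := hS Q hQ
    rcases lt_trichotomy P.k Q.k with h | h | h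
    · exact (hrel P a1 Q b1 h (f_pop_rel a2 b2 h.le)).elim
    · exact f_pop_eq a2 b2 h
    · exact (hrel Q b1 P a1 h (f_pop_rel b2 a2 h.le)).elim

theorem f_bad {u : P2 → ℝ} {U : Finset Tile} {lam φ : ℝ} (hl : 0 ≤ lam) (hφ : 1 ≤ φ) {z : P2} {k : ℕ}
    {P : Tile} (h : P.near u φ z k) (hb : ¬ good U lam P) : z ∈ badSet U (lam / (3 * φ)) := by
  classical
  obtain ⟨-, a1, -, a2⟩ := h
  simp only [good, not_exists, not_and, not_forall, not_le] at hb
  obtain ⟨H, b1, b2⟩ := hb z.1 a1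
  have c1 := Nat.le_ceil (H + φ)
  have c2 := Nat.ceil_lt_add_one (by linarith : 0 ≤ H + φ)
  refine ⟨⌈H + φ⌉₊, Nat.one_le_iff_ne_zero.2 (Nat.ceil_pos.2 (by linarith)).ne',
    lt_of_le_of_lt ?_ (b2.trans_le ?_)⟩
  · rw [div_mul_eq_mul_div, div_le_iff₀ (by linarith), mul_assoc]
    exact mul_le_mul_of_nonneg_left (by nlinarith [mul_nonneg (sub_nonneg.2 b1) (sub_nonneg.2 hφ)]) hl
  · rw [f_cnt_eq U H]
    refine f_card_le_cnt fun R hR => ?_
    obtain ⟨d1, d2, d3⟩ := Finset.mem_filter.1 hR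
    refine ⟨d1, d2, ?_⟩
    have := abs_sub_le z.2 (P.line z.1) (R.line z.1)
    linarith

/-- the radii -/
noncomputable def fphi (i : ℕ) : ℝ := 64 * (2 : ℝ) ^ ((i : ℝ) / 16)

theorem fphi_pow (i : ℕ) : fphi i ^ 16 = 64 ^ 16 * 2 ^ i := by
  rw [fphi, mul_pow, ← Real.rpow_natCast (2 ^ _), ← Real.rpow_mul zero_le_two]
  norm_num

theorem fphi_ge (i : ℕ) : 64 ≤ fphi i :=
  le_mul_of_one_le_right (by norm_num) (Real.one_le_rpow one_le_two (by positivity))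

theorem fphi_le (i : ℕ) : fphi i ≤ 64 * 2 ^ i := by
  refine mul_le_mul_of_nonneg_left ?_ (by norm_num)
  rw [← Real.rpow_natCast]
  exact Real.rpow_le_rpow_of_exponent_le one_le_two (div_le_self (Nat.cast_nonneg _) (by norm_num))

/-- the numerical part of the density property -/
theorem f_dens {d l ρ : ℝ} (hl : 0 < l) (hd : d ≤ l) (hρ : 1 ≤ ρ) {j : ℕ}
    (h : ∀ j1, j1 < j → l ≤ 2 ^ j1 * d → fphi (j - 1 - j1) < ρ + 20) : d * 2 ^ j ≤ 4 * ρ ^ 16 * l := by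
  classical
  by_contra hc
  rw [not_le] at hc
  have h16 : 1 ≤ ρ ^ 16 := one_le_pow₀ hρ
  have hex : ∃ j1, l ≤ 2 ^ j1 * d := ⟨j, by nlinarith⟩
  have a1 := Nat.find_spec hex
  have a2 : 2 ^ Nat.find hex * d ≤ 2 * l := by
    rcases Nat.eq_zero_or_eq_succ_pred (Nat.find hex) with e | e
    · rw [e]
      linarith
    · have := Nat.find_min hex (m := (Nat.find hex).pred) (by omega)
      rw [e, Nat.succ_eq_add_one, pow_succ]
      linarith [not_le.1 this]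
  generalize Nat.find hex = j1 at a1 a2
  have hd0 : 0 < d := (mul_pos_iff_of_pos_left (by positivity)).1 (hl.trans_le a1)
  have a3 : j1 < j := by
    by_contra h3
    have : (2 : ℝ) ^ j ≤ 2 ^ j1 := pow_le_pow_right₀ one_le_two (not_lt.1 h3)
    nlinarith
  have a4 : fphi (j - 1 - j1) ≤ 64 * ρ := by linarith [h j1 a3 a1]
  have a5 := pow_le_pow_left₀ (by linarith [fphi_ge (j - 1 - j1)]) a4 16
  rw [fphi_pow, mul_pow] at a5
  have a6 : (2 : ℝ) ^ (j - 1 - j1) ≤ ρ ^ 16 := le_of_mul_le_mul_left a5 (by positivity)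
  have a7 : (2 : ℝ) ^ j = 2 ^ j1 * (2 * 2 ^ (j - 1 - j1)) := by
    rw [← pow_succ', ← pow_add]
    congr 1
    omega
  have a8 := mul_le_mul a2 a6 (by positivity) (by positivity)
  rw [a7] at hc
  linarith

theorem f_removed {J : ℕ} {g : ℝ} (hg : 0 ≤ g) {L : ℕ → ℝ} (hL : ∀ j, L j ≤ 2 ^ j * g) :
    ∑ j ∈ Finset.range (J + 1), ∑ j0 ∈ Finset.range (j + 1),
      4 * L j0 / (4096 * 8 ^ j / (3 * fphi (j - j0))) ≤ g / 2 := by
  have h1 : ∀ j ∈ Finset.range (J + 1), ∑ j0 ∈ Finset.range (j + 1),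
      4 * L j0 / (4096 * 8 ^ j / (3 * fphi (j - j0))) ≤ (1 / 2) ^ j * (g / 4) := by
    intro j _
    refine (Finset.sum_le_card_nsmul _ _ ((1 / 4) ^ j * (g / 4)) fun j0 hj => ?_).trans ?_
    · have a1 := fphi_ge (j - j0)
      have a2 : fphi (j - j0) * 2 ^ j0 ≤ 64 * 2 ^ j := by
        refine (mul_le_mul_of_nonneg_right (fphi_le _) (by positivity)).trans_eq ?_
        rw [mul_assoc, ← pow_add, Nat.sub_add_cancel (Nat.lt_succ_iff.1 (Finset.mem_range.1 hj))]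
      have a3 : (8 : ℝ) ^ j * (1 / 4) ^ j = 2 ^ j := by
        rw [← mul_pow]
        norm_num
      rw [div_div_eq_mul_div, div_le_iff₀ (by positivity)]
      calc _ ≤ 4 * (2 ^ j0 * g) * (3 * fphi (j - j0)) := by gcongr; exact hL j0
        _ = 12 * g * (fphi (j - j0) * 2 ^ j0) := by ring
        _ ≤ 12 * g * (64 * 2 ^ j) := by gcongr
        _ ≤ 1024 * g * 2 ^ j := by nlinarith [mul_nonneg hg (by positivity : (0 : ℝ) ≤ 2 ^ j)]
        _ = _ := by rw [← a3]; ring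
    · rw [Finset.card_range, nsmul_eq_mul, ← mul_assoc]
      refine mul_le_mul_of_nonneg_right ?_ (by positivity)
      have a1 : ((j + 1 : ℕ) : ℝ) ≤ 2 ^ j := by exact_mod_cast Nat.lt_two_pow_self
      refine (mul_le_mul_of_nonneg_right a1 (by positivity)).trans_eq ?_
      rw [← mul_pow]
      norm_num
  refine (Finset.sum_le_sum h1).trans ?_
  rw [← Finset.sum_mul]
  refine (mul_le_mul_of_nonneg_right (sum_geometric_two_le _) (by positivity)).trans_eq ?_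
  ring

theorem forest : ForestStmt := by
  classical
  refine ⟨840 * 4096, fun kmax u hu G hG hb => ?_⟩
  have hfin : volume G ≠ ∞ := hb.measure_lt_top.ne
  obtain ⟨T0, hT0⟩ : ∃ T0 : Finset Tile, ∀ P, P ∈ T0 ↔ P.k ≤ kmax ∧ (P.pop u G).Nonempty :=
    ⟨(f_finite hu hb).toFinset, fun P => Finite.mem_toFinset _⟩
  choose A hA1 hA2 hA3 using fun j : ℕ =>
    exists_tops (T0.filter fun P => P.len ≤ 2 ^ j * (volume (P.pop u G)).toReal) Tile.k rel
  have hAk : ∀ j, ∀ P ∈ A j, P.k ≤ kmax := fun j P hP => ((hT0 P).1 (Finset.mem_filter.1 (hA1 j hP)).1).1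
  have hAp : ∀ j, ∀ P ∈ A j, P.len ≤ 2 ^ j * (volume (P.pop u G)).toReal := fun j P hP =>
    (Finset.mem_filter.1 (hA1 j hP)).2
  have hAt : ∀ j, ∀ V ⊆ A j, totL V ≤ 2 ^ j * (volume G).toReal := fun j V hV =>
    f_total hu.meas hG hfin (by positivity) (fun R hR => hAp j R (hV hR))
      fun R hR Q hQ => hA3 j R (hV hR) Q (hV hQ)
  have htop : ∀ (j : ℕ) (P : Tile) (ρ : ℝ) (z : P2) (k : ℕ), P.k ≤ kmax →
      P.len ≤ 2 ^ j * (volume (P.pop u G)).toReal → P.near u ρ z k →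
      ∃ Q ∈ A j, Q.near u (ρ + 20) z k := by
    intro j P ρ z k h1 h2 h3
    have h4 : (P.pop u G).Nonempty := nonempty_of_measure_ne_zero (μ := volume) fun h => by
      rw [h, ENNReal.toReal_zero, mul_zero] at h2
      exact absurd h2 (not_le.2 (f_len_pos P))
    rcases hA2 j P (Finset.mem_filter.2 ⟨(hT0 P).2 ⟨h1, h4⟩, h2⟩) with h | ⟨Q, a1, a2, a3⟩
    · exact ⟨P, h, f_near_mono h3 (by linarith)⟩
    · exact ⟨Q, a1, f_near_rel h3 a2.le a3⟩
  obtain ⟨J, hJ⟩ : ∃ J : ℕ, ∀ P ∈ T0, volume (P.pop u G) ≠ 0 →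
      P.len ≤ 2 ^ J * (volume (P.pop u G)).toReal := by
    have h1 : ∀ P : Tile, ∃ j : ℕ, volume (P.pop u G) ≠ 0 →
        P.len ≤ 2 ^ j * (volume (P.pop u G)).toReal := fun P => by
      by_cases h : volume (P.pop u G) = 0
      · exact ⟨0, fun h' => (h' h).elim⟩
      · have h2 := ENNReal.toReal_pos h (ne_top_of_le_ne_top hfin (measure_mono fun _ hz => hz.1))
        obtain ⟨j, hj⟩ := pow_unbounded_of_one_lt (P.len / (volume (P.pop u G)).toReal) one_lt_two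
        exact ⟨j, fun _ => ((div_lt_iff₀ h2).1 hj).le⟩
    choose f hf using h1
    refine ⟨T0.sup f, fun P hP h => (hf P h).trans (mul_le_mul_of_nonneg_right ?_ ENNReal.toReal_nonneg)⟩
    exact pow_le_pow_right₀ one_le_two (Finset.le_sup hP)
  set Bad : Set P2 := ⋃ j ∈ Finset.range (J + 1), ⋃ j0 ∈ Finset.range (j + 1),
    badSet (A j0) (4096 * 8 ^ j / (3 * fphi (j - j0))) with hBad
  have hBm : MeasurableSet Bad := Finset.measurableSet_biUnion _ fun j _ =>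
    Finset.measurableSet_biUnion _ fun j0 _ => measurableSet_badSet _ _
  have hBv : volume Bad ≤ volume G / 2 := by
    have hp : ∀ j j0 : ℕ, (0 : ℝ) < 4096 * 8 ^ j / (3 * fphi (j - j0)) := fun j j0 => by
      have := fphi_ge (j - j0)
      positivity
    have hn : ∀ j j0 : ℕ, 0 ≤ 4 * totL (A j0) / (4096 * 8 ^ j / (3 * fphi (j - j0))) := fun j j0 =>
      div_nonneg (mul_nonneg (by norm_num) (f_totL_nonneg _)) (hp j j0).le
    refine (measure_biUnion_finset_le _ _).trans ((Finset.sum_le_sum fun j _ =>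
      (measure_biUnion_finset_le _ _).trans ((Finset.sum_le_sum fun j0 _ =>
        volume_badSet (A j0) (hp j j0)).trans_eq
        (ENNReal.ofReal_sum_of_nonneg fun j0 _ => hn j j0).symm)).trans ?_)
    rw [← ENNReal.ofReal_sum_of_nonneg fun j _ => Finset.sum_nonneg fun j0 _ => hn j j0]
    refine (ENNReal.ofReal_le_ofReal (f_removed ENNReal.toReal_nonneg (L := fun j => totL (A j))
      fun j => hAt j _ subset_rfl)).trans_eq ?_
    rw [ENNReal.ofReal_div_of_pos two_pos, ENNReal.ofReal_toReal hfin, ENNReal.ofReal_ofNat]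
  set N : ℕ → ℕ → ℕ → Set P2 := fun j j0 k =>
    {z | j ≤ J ∧ j0 ≤ j ∧ ∃ P ∈ A j0, P.near u (fphi (j - j0)) z k} with hN
  set E : ℕ → ℕ → ℕ → Set P2 := fun j j0 k =>
    ⋃ j', ⋃ j0', ⋃ _ : j' < j ∨ (j' = j ∧ j0' < j0), N j' j0' k with hE
  have hNm : ∀ j j0 k, MeasurableSet (N j j0 k) := fun j j0 k => by
    have : N j j0 k = ⋃ _ : j ≤ J, ⋃ _ : j0 ≤ j, ⋃ P ∈ A j0, {z | P.near u (fphi (j - j0)) z k} := by
      ext z
      simp only [hN, mem_ofPred_eq, mem_iUnion, exists_prop]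
    rw [this]
    exact MeasurableSet.iUnion fun _ => MeasurableSet.iUnion fun _ =>
      Finset.measurableSet_biUnion _ fun P _ => Tile.measurableSet_near hu.meas _ _ _
  have hNd : ∀ j j0 k k' z, k' ≤ k → z ∈ N j j0 k → z ∈ N j j0 k' :=
    fun j j0 k k' z hk ⟨a1, a2, P, a3, a4⟩ => ⟨a1, a2, P, a3, Tile.near_down a4 hk⟩
  have hEi : ∀ j j0 k z, z ∈ E j j0 k ↔ ∃ j' j0', (j' < j ∨ (j' = j ∧ j0' < j0)) ∧ z ∈ N j' j0' k :=
    fun j j0 k z => by simp only [hE, mem_iUnion, exists_prop]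
  have hG'm : MeasurableSet (G \ Bad) := hG.diff hBm
  refine ⟨G \ Bad, sdiff_subset, hG'm, ?_, J, fun j j0 => fphi (j - j0),
    fun j j0 => (A j0).filter (good (A j0) (4096 * 8 ^ j)),
    fun j j0 k => ((G \ Bad) ∩ N j j0 k) \ E j j0 k, fun j j0 hj => ?_, fun j j0 k z hz => hz.1.1,
    fun j j0 j' j0' k hne => ?_, fun k hk => ?_⟩
  · have h1 : volume G / 2 + volume G / 2 ≤ volume (G \ Bad) + volume G / 2 := by
      rw [ENNReal.add_halves]
      exact ((measure_mono (subset_sdiff_union _ _)).trans (measure_union_le _ _)).trans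
        (add_le_add_right hBv _)
    have h2 := (ENNReal.add_le_add_iff_right (ENNReal.div_ne_top hfin two_ne_zero)).1 h1
    rw [two_mul]
    exact (ENNReal.add_halves _).symm.trans_le (add_le_add h2 h2)
  · have hsub : (A j0).filter (good (A j0) (4096 * 8 ^ j)) ⊆ A j0 := Finset.filter_subset _ _
    have hφ : 1 ≤ fphi (j - j0) := by linarith [fphi_ge (j - j0)]
    have hF : Fam G fun _ => G \ Bad := ⟨fun _ => hG'm, fun _ => sdiff_subset, fun _ _ _ _ _ _ h _ => h⟩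
    refine ⟨(hF.inter_down (hNm j j0) (hNd j j0)).diff_down
        (fun k => MeasurableSet.iUnion fun _ => MeasurableSet.iUnion fun _ =>
          MeasurableSet.iUnion fun _ => hNm _ _ _) fun k k' z hk hz => ?_, hj, hφ, ?_,
      fun P hP => hAk j0 P (hsub hP), ?_, ?_, fun P hP => hAp j0 P (hsub hP), hAt j0 _ hsub, ?_⟩
    · obtain ⟨j', j0', a1, a2⟩ := (hEi _ _ _ _).1 hz
      exact (hEi _ _ _ _).2 ⟨j', j0', a1, hNd _ _ _ _ _ hk a2⟩
    · rw [fphi_pow, mul_assoc, ← pow_add, Nat.sub_add_cancel hj]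
    · rintro k z ⟨⟨⟨-, a1⟩, a2, -, P, a3, a4⟩, -⟩
      refine ⟨P, Finset.mem_filter.2 ⟨a3, not_not.1 fun h => a1 ?_⟩, a4⟩
      exact mem_iUnion₂.2 ⟨j, Finset.mem_range.2 (Nat.lt_succ_of_le a2), mem_iUnion₂.2
        ⟨j0, Finset.mem_range.2 (Nat.lt_succ_of_le hj), f_bad (by positivity) hφ a4 h⟩⟩
    · rintro k z ⟨⟨-, a1, -⟩, a2⟩ P ρ b1 b2 b3
      refine f_dens (f_len_pos P) (f_pop_le_len hu.meas hG P) b1 fun j1 c1 c2 => not_le.1 fun c3 => ?_
      obtain ⟨Q, d1, d2⟩ := htop j1 P ρ z k b2 c2 b3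
      exact a2 ((hEi _ _ _ _).2 ⟨j - 1, j1, Or.inl (by omega), by omega, by omega, Q, d1,
        f_near_mono d2 c3⟩)
    · refine (f_count hu hG (by positivity) (one_le_pow₀ one_le_two) hsub (fun P hP => hAk j0 P (hsub hP))
        (fun P hP => hAp j0 P (hsub hP)) (fun P hP => (Finset.mem_filter.1 hP).2)
        fun R hR Q hQ => hA3 j0 R (hsub hR) Q (hsub hQ)).trans (ENNReal.ofReal_le_ofReal ?_)
      have a1 : (2 : ℝ) ^ j0 ≤ 2 ^ j := pow_le_pow_right₀ one_le_two hj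
      have a2 : (2 : ℝ) ^ (5 * j) = 8 ^ j * 2 ^ j * 2 ^ j := by
        rw [pow_mul, ← mul_pow, ← mul_pow]
        norm_num
      calc _ ≤ 840 * (4096 * 8 ^ j) * 2 ^ j0 * (2 ^ j0 * (volume G).toReal) :=
            mul_le_mul_of_nonneg_left (hAt j0 _ hsub) (by positivity)
        _ ≤ 840 * (4096 * 8 ^ j) * 2 ^ j * (2 ^ j * (volume G).toReal) := by gcongr
        _ = _ := by rw [a2]; ring
  · refine disjoint_left.2 fun z h1 h2 => ?_
    have : (j' < j ∨ (j' = j ∧ j0' < j0)) ∨ (j < j' ∨ (j = j' ∧ j0 < j0')) := by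
      simp only [ne_eq, Prod.mk.injEq] at hne
      omega
    rcases this with h | h
    · exact h1.2 ((hEi _ _ _ _).2 ⟨j', j0', h, h2.1.2⟩)
    · exact h2.2 ((hEi _ _ _ _).2 ⟨j, j0, h, h1.1.2⟩)
  · obtain ⟨Z, hZ⟩ : ∃ Z : Finset Tile, ∀ P, P ∈ Z ↔ P ∈ T0 ∧ volume (P.pop u G) = 0 :=
      ⟨T0.filter fun P => volume (P.pop u G) = 0, fun P => Finset.mem_filter⟩
    have hnull : volume (⋃ P ∈ Z, Tile.pop u G P) = 0 := by
      refine le_antisymm ((measure_biUnion_finset_le _ _).trans_eq ?_) zero_le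
      exact Finset.sum_eq_zero fun P hP => ((hZ P).1 hP).2
    refine measure_mono_null ?_ hnull
    rintro z ⟨a1, a2⟩
    set P : Tile := ⟨k, dI k z.1, ⌊u z * 2 ^ k⌋,
      ⌊z.2 - (⌊u z * 2 ^ k⌋ : ℝ) / 2 ^ k * (z.1 - (dI k z.1 : ℝ) * 2 ^ k)⌋⟩ with hP
    have a3 : z ∈ P.pop u G := ⟨a1.1, rfl, rfl, rfl⟩
    have a4 : P ∈ T0 := (hT0 P).2 ⟨hk, z, a3⟩
    refine mem_iUnion₂.2 ⟨P, (hZ P).2 ⟨a4, not_not.1 fun h => a2 ?_⟩, a3⟩
    obtain ⟨Q, b1, b2⟩ := htop J P 1 z k hk (hJ P a4 h) (f_pop_near a3)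
    have hex : ∃ j, ∃ j0, z ∈ N j j0 k :=
      ⟨J, J, le_rfl, le_rfl, Q, b1, f_near_mono b2 (by linarith [fphi_ge (J - J)])⟩
    have hex2 := Nat.find_spec hex
    have c1 := Nat.find_spec hex2
    refine mem_iUnion₂.2 ⟨_, Finset.mem_range.2 (Nat.lt_succ_of_le c1.1), mem_iUnion₂.2
      ⟨_, Finset.mem_range.2 (Nat.lt_succ_of_le c1.2.1), ⟨a1, c1⟩, fun hz => ?_⟩⟩
    obtain ⟨j', j0', d1 | ⟨rfl, d1⟩, d2⟩ := (hEi _ _ _ _).1 hz
    · exact Nat.find_min hex d1 ⟨j0', d2⟩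
    · exact Nat.find_min hex2 d1 d2

end Crest.Agent.R87
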