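import Crest.Agent.R87.IBas1

/-! # R87 / IBas : elementary API for part I -/

set_option autoImplicit false
set_option linter.unusedVariables false

namespace Crest.Agent.R87.I2

open MeasureTheory Set
open scoped ENNReal

variable {f f' : ℝ → ℝ} {b ψ : ℝ → ℝ} {u : P2 → ℝ} {G : Set P2} {S : ℕ → Set P2} {g : P2 → ℝ}

theorem measurable_vv (hu : Measurable u) (s : ℝ) (k : ℕ) : Measurable (vv u s k) :=
  measurable_const.mul (hu.sub measurable_const).abs
theorem vv_nonneg (u : P2 → ℝ) (s : ℝ) (k : ℕ) (z : P2) : 0 ≤ vv u s k z := by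
  unfold vv; positivity
theorem vv_mono (u : P2 → ℝ) (s : ℝ) {k k' : ℕ} (h : k' ≤ k) (z : P2) : vv u s k' z ≤ vv u s k z :=
  mul_le_mul_of_nonneg_right (pow_le_pow_right₀ one_le_two h) (abs_nonneg _)

theorem ker_line (b ψ : ℝ → ℝ) (u : P2 → ℝ) (k : ℕ) (z : P2) (s β x : ℝ) :
    ker b ψ u k z (x, β + s * x) = ((2 : ℝ) ^ k)⁻¹ * haar k z.1 * b ((x - cen k z.1) / 2 ^ k) *
      ψ (β - (z.2 - s * z.1) + (z.1 - x) * (u z - s)) := by
  rw [ker]
  congr 2
  ring

theorem cen_eq {k : ℤ} {x x' : ℝ} (h : dI k x = dI k x') : cen k x = cen k x' := by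
  rw [cen, cen, h]

theorem mem_cI {k : ℕ} {x x' : ℝ} (h : dI k x' = dI k x) : x' ∈ cI k x := by
  have h1 := mem_dInt.2 h
  rw [dInt, zpow_natCast, add_mul, one_mul] at h1
  exact Ico_subset_Icc_self h1
theorem cI_subset {k k' : ℕ} (h : k ≤ k') (x : ℝ) : cI k x ⊆ cI k' x := by
  obtain ⟨i, rfl⟩ := Nat.exists_eq_add_of_le h
  have e := dI_add k i x
  have h0 : (0 : ℤ) < 2 ^ i := by positivity
  have h1 : dI k x / 2 ^ i * 2 ^ i ≤ dI k x := Int.ediv_mul_le _ h0.ne'
  have h2 : dI k x + 1 ≤ (dI k x / 2 ^ i + 1) * 2 ^ i := Int.lt_ediv_add_one_mul_self _ h0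
  rw [← e, ← Nat.cast_add] at h1 h2
  have h3 : (dI (k + i : ℕ) x : ℝ) * 2 ^ i ≤ dI k x := by exact_mod_cast h1
  have h4 : (dI k x : ℝ) + 1 ≤ (dI (k + i : ℕ) x + 1) * 2 ^ i := by exact_mod_cast h2
  have h5 : (0 : ℝ) < 2 ^ k := by positivity
  refine Icc_subset_Icc ?_ ?_ <;> rw [pow_add] <;> nlinarith
theorem abs_sub_le_of_mem_cI {k : ℕ} {x x1 x2 : ℝ} (h1 : x1 ∈ cI k x) (h2 : x2 ∈ cI k x) :
    |x1 - x2| ≤ 2 ^ k :=
  abs_le.2 ⟨by linarith [h1.1, h2.2], by linarith [h1.2, h2.1]⟩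

theorem measurableSet_col (k m : ℤ) (s β h : ℝ) :
    MeasurableSet {z : P2 | dI k z.1 = m ∧ |z.2 - s * z.1 - β| ≤ h} :=
  (measurableSet_dI_fst k m).inter (measurableSet_le
    (((measurable_snd.sub (measurable_fst.const_mul s)).sub_const β).abs) measurable_const)
/-- `lintegral_shear` -/
theorem volume_col (k : ℕ) (m : ℤ) (s β : ℝ) {h : ℝ} (hh : 0 ≤ h) :
    volume {z : P2 | dI k z.1 = m ∧ |z.2 - s * z.1 - β| ≤ h} = ENNReal.ofReal (2 * h * 2 ^ k) := by
  rw [← (measurePreserving_shear s).measure_preimage (measurableSet_col k m s β h).nullMeasurableSet]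
  have e : (fun z : P2 => ((z.1, z.2 + s * z.1) : P2)) ⁻¹'
      {z : P2 | dI k z.1 = m ∧ |z.2 - s * z.1 - β| ≤ h} = dInt k m ×ˢ Icc (β - h) (β + h) := by
    ext z
    simp only [mem_preimage, mem_ofPred_eq, add_sub_cancel_right, mem_prod, mem_dInt, mem_Icc, abs_le]
    refine and_congr_right fun _ => and_congr ?_ ?_ <;> constructor <;> intro <;> linarith
  rw [e, Measure.volume_eq_prod, Measure.prod_prod, volume_dInt, Real.volume_Icc, zpow_natCast,
    ← ENNReal.ofReal_mul (by positivity)]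
  congr 1
  ring

/-- induction on `n` -/
theorem geom_le {t ρ : ℝ} (ht : 0 ≤ t) (hρ : 0 ≤ ρ) (n : ℕ) :
    ∑ k ∈ Finset.range n, (if 2 ^ k * t ≤ ρ then 2 ^ k * t else 0) ≤ 2 * ρ := by
  induction n with
  | zero => simpa using hρ
  | succ n ih =>
    rw [Finset.sum_range_succ]
    split_ifs with h
    · have h1 : ∑ k ∈ Finset.range n, (if 2 ^ k * t ≤ ρ then 2 ^ k * t else 0) ≤
          ∑ k ∈ Finset.range n, 2 ^ k * t := Finset.sum_le_sum fun k _ => by
        split_ifs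
        exacts [le_rfl, by positivity]
      rw [← Finset.sum_mul, geom_sum_eq (by norm_num)] at h1
      norm_num at h1 ⊢
      nlinarith
    · simpa using ih

theorem ib_geom {ρ : ℝ} (hρ : 0 < ρ) {N : ℕ} (hN : 1 ≤ N) (n : ℕ) : ∀ t : ℝ, 0 ≤ t →
    ∑ k ∈ Finset.range n, (if ρ < 2 ^ k * t then 1 / (2 ^ k * t) ^ N else 0) ≤ 2 / max ρ t ^ N := by
  induction n with
  | zero => intro t ht; simp only [Finset.range_zero, Finset.sum_empty]; positivity
  | succ n ih =>
    intro t ht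
    have h1 := ih (2 * t) (by positivity)
    simp only [← mul_assoc, ← pow_succ] at h1
    rw [Finset.sum_range_succ', pow_zero, one_mul]
    split_ifs with h
    · have h0 : 0 < t := hρ.trans h
      rw [max_eq_right h.le]
      rw [max_eq_right (by linarith)] at h1
      have h2 : 2 / (2 * t) ^ N ≤ 1 / t ^ N := by
        rw [mul_pow, div_le_div_iff₀ (by positivity) (by positivity), one_mul]
        exact mul_le_mul_of_nonneg_right (le_self_pow₀ one_le_two (by omega)) (by positivity)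
      linarith [show 2 / t ^ N = 1 / t ^ N + 1 / t ^ N by ring]
    · rw [add_zero]
      refine h1.trans ?_
      gcongr
      linarith

/-- induction on `n` generalizing `t` (`Finset.sum_range_succ'`), with the bound `2 / max ρ t ^ N` -/
theorem geom_gt {t ρ : ℝ} (ht : 0 ≤ t) (hρ : 0 < ρ) {N : ℕ} (hN : 1 ≤ N) (n : ℕ) :
    ∑ k ∈ Finset.range n, (if ρ < 2 ^ k * t then 1 / (2 ^ k * t) ^ N else 0) ≤ 2 / ρ ^ N := by
  refine (ib_geom hρ hN n t ht).trans ?_
  gcongr
  exact le_max_left _ _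

end Crest.Agent.R87.I2
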