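import Crest.Agent.R87.IDefs

/-! # R87 / IBas1 : bounded measurable functions (aux prefix `ib1_`) -/

set_option autoImplicit false
set_option linter.unusedVariables false

namespace Crest.Agent.R87.I2

open MeasureTheory Set
open scoped ENNReal

variable {f f' : ℝ → ℝ} {b ψ : ℝ → ℝ} {u : P2 → ℝ} {G : Set P2} {S : ℕ → Set P2} {g : P2 → ℝ}

theorem Bm.const (c : ℝ) : Bm fun _ => c := ⟨measurable_const, |c|, fun _ => le_rfl⟩
theorem Bm.add (h : Bm f) (h' : Bm f') : Bm fun x => f x + f' x := by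
  obtain ⟨L, hL⟩ := h.bdd
  obtain ⟨L', hL'⟩ := h'.bdd
  exact ⟨h.meas.add h'.meas, L + L', fun x => (abs_add_le _ _).trans (add_le_add (hL x) (hL' x))⟩
theorem Bm.sub (h : Bm f) (h' : Bm f') : Bm fun x => f x - f' x := by
  obtain ⟨L, hL⟩ := h.bdd
  obtain ⟨L', hL'⟩ := h'.bdd
  exact ⟨h.meas.sub h'.meas, L + L', fun x => (abs_sub _ _).trans (add_le_add (hL x) (hL' x))⟩
theorem Bm.mul (h : Bm f) (h' : Bm f') : Bm fun x => f x * f' x := by
  obtain ⟨L, hL⟩ := h.bdd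
  obtain ⟨L', hL'⟩ := h'.bdd
  refine ⟨h.meas.mul h'.meas, L * L', fun x => ?_⟩
  rw [abs_mul]
  exact mul_le_mul (hL x) (hL' x) (abs_nonneg _) ((abs_nonneg _).trans (hL x))
theorem Bm.const_mul (c : ℝ) (h : Bm f) : Bm fun x => c * f x := (Bm.const c).mul h
theorem Bm.abs (h : Bm f) : Bm fun x => |f x| := by
  obtain ⟨L, hL⟩ := h.bdd
  exact ⟨h.meas.abs, L, fun x => by rw [abs_abs]; exact hL x⟩
theorem Bm.pow (h : Bm f) (n : ℕ) : Bm fun x => f x ^ n := by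
  obtain ⟨L, hL⟩ := h.bdd
  exact ⟨h.meas.pow_const n, L ^ n, fun x => by rw [abs_pow]; exact pow_le_pow_left₀ (abs_nonneg _) (hL x) n⟩
theorem Bm.sum {ι : Type} (t : Finset ι) {F : ι → ℝ → ℝ} (h : ∀ i ∈ t, Bm (F i)) :
    Bm fun x => ∑ i ∈ t, F i x := by
  classical
  induction t using Finset.induction_on with
  | empty => simpa using Bm.const 0
  | insert a t ha ih =>
    simp only [Finset.sum_insert ha]
    exact (h a (Finset.mem_insert_self _ _)).add (ih fun i hi => h i (Finset.mem_insert_of_mem hi))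
theorem Bm.intOn (h : Bm f) (k m : ℤ) : IntegrableOn f (dInt k m) := by
  obtain ⟨L, hL⟩ := h.bdd
  exact Measure.integrableOn_of_bounded (M := L) (by rw [volume_dInt]; exact ENNReal.ofReal_ne_top)
    h.meas.aestronglyMeasurable (Filter.Eventually.of_forall hL)
/-- a bounded function of the dyadic index -/
theorem Bm.step (k : ℤ) {c : ℤ → ℝ} {L : ℝ} (h : ∀ m, |c m| ≤ L) : Bm fun x => c (dI k x) := ⟨(measurable_of_countable c).comp (measurable_dI k), L, fun x => h _⟩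

theorem measureReal_dInt (k : ℕ) (m : ℤ) : (volume : Measure ℝ).real (dInt k m) = 2 ^ k := by
  rw [Measure.real, volume_dInt, ENNReal.toReal_ofReal (by positivity), zpow_natCast]

/-- from `lintegral` to `integral` -/
theorem integral_le_of_lintegral (h : Bm f) (h0 : ∀ x, 0 ≤ f x) {k m : ℤ} {c : ℝ} (hc : 0 ≤ c)
    (hl : ∫⁻ x in dInt k m, ENNReal.ofReal (f x) ≤ ENNReal.ofReal c) : ∫ x in dInt k m, f x ≤ c := by
  rw [← ofReal_integral_eq_lintegral_ofReal (h.intOn k m) (Filter.Eventually.of_forall h0)] at hl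
  exact (ENNReal.ofReal_le_ofReal_iff hc).1 hl

theorem bm_mn (hb : IsB b) {α : ℕ → ℤ → ℝ} {L : ℝ} (h : ∀ k m, |α k m| ≤ L) (k : ℕ) :
    Bm (mn b α k) := by
  obtain ⟨A, -, hA, -⟩ := hb.exists_lip
  have h1 : Bm fun x => b ((x - cen k x) / 2 ^ k) :=
    ⟨hb.smooth.continuous.measurable.comp ((measurable_id.sub (measurable_cen k)).div_const _), A, fun x => hA _⟩
  exact h1.mul (Bm.step k (h k))
theorem bm_mx (hb : IsB b) {α : ℕ → ℤ → ℝ} {L : ℝ} (h : ∀ k m, |α k m| ≤ L) (k0 : ℕ) :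
    Bm (mx b α k0) := by
  have h1 : ∀ c : ℕ, Bm fun x => |∑ k ∈ Finset.Icc c k0, mn b α k x| := fun c =>
    (Bm.sum _ fun k _ => bm_mn hb h k).abs
  refine ⟨Measurable.iSup fun c : Fin (k0 + 1) => (h1 c).meas, ?_⟩
  obtain ⟨M, hM⟩ := (Bm.sum Finset.univ fun (c : Fin (k0 + 1)) _ => h1 c).bdd
  refine ⟨M, fun x => ?_⟩
  rw [mx, abs_of_nonneg (Real.iSup_nonneg fun _ => abs_nonneg _)]
  refine ciSup_le fun c => le_trans ?_ ((le_abs_self _).trans (hM x))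
  exact Finset.single_le_sum (f := fun c : Fin (k0 + 1) => |∑ k ∈ Finset.Icc (c : ℕ) k0, mn b α k x|)
    (fun _ _ => abs_nonneg _) (Finset.mem_univ c)
theorem mx_nonneg (b : ℝ → ℝ) (α : ℕ → ℤ → ℝ) (k0 : ℕ) (x : ℝ) : 0 ≤ mx b α k0 x := Real.iSup_nonneg fun _ => abs_nonneg _
/-- for every `c` (the sum is empty for `c > k0`) -/
theorem abs_sum_le_mx (b : ℝ → ℝ) (α : ℕ → ℤ → ℝ) (c k0 : ℕ) (x : ℝ) :
    |∑ k ∈ Finset.Icc c k0, mn b α k x| ≤ mx b α k0 x := by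
  by_cases hc : c ≤ k0
  · exact le_ciSup (f := fun c : Fin (k0 + 1) => |∑ k ∈ Finset.Icc (c : ℕ) k0, mn b α k x|)
      (Set.finite_range _).bddAbove ⟨c, Nat.lt_succ_of_le hc⟩
  · rw [Finset.Icc_eq_empty hc, Finset.sum_empty, abs_zero]
    exact mx_nonneg b α k0 x
theorem bm_phL (hb : IsB b) (hψ : IsPsi ψ) (hu : Measurable u) (hG : Bornology.IsBounded G)
    (hS : ∀ k, S k ⊆ G) (hg : Coef g) (s β : ℝ) (k : ℕ) : Bm (phL b ψ u S g s β k) := by
  obtain ⟨A, -, hA, -⟩ := hb.exists_lip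
  obtain ⟨B, -, hB, -⟩ := hψ.exists_lip
  refine ⟨(measurable_Phi1 hb hψ hu k (S k) hg).comp (by fun_prop), A * B / 2 ^ k * volume.real (S k), fun x => ?_⟩
  exact norm_setIntegral_le_of_norm_le_const (f := fun z => g z * ker b ψ u k z (x, β + s * x))
    (hG.subset (hS k)).measure_lt_top fun z _ =>
    (api2_coef_le hg z _).trans (api2_ker_le hA hB u k z _)
theorem bm_par (ι k0 : ℕ) {A L : ℕ → ℝ → ℝ} (hA : ∀ k, Bm (A k)) (hL : ∀ k, Bm (L k)) :
    Bm (par ι k0 A L) := Bm.sum _ fun k _ => (hA k).mul (Bm.sum _ fun k' _ => hL k')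

theorem ib1_amgm {a a' : ℝ} (ha : 0 < a) (ha' : 0 < a') (F F' : ℝ) :
    F * F' ≤ a * a' / (4 * a ^ 4) * F ^ 4 + a * a' / (4 * a' ^ 4) * F' ^ 4 + a * a' / 2 := by
  obtain ⟨x, rfl⟩ : ∃ x, F = a * x := ⟨F / a, by field_simp⟩
  obtain ⟨y, rfl⟩ : ∃ y, F' = a' * y := ⟨F' / a', by field_simp⟩
  have h : x * y ≤ x ^ 4 / 4 + y ^ 4 / 4 + 1 / 2 := by
    nlinarith [sq_nonneg (x - y), sq_nonneg (x ^ 2 - 1), sq_nonneg (y ^ 2 - 1)]
  have := mul_le_mul_of_nonneg_left h (mul_pos ha ha').le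
  calc a * x * (a' * y) = a * a' * (x * y) := by ring
    _ ≤ _ := this
    _ = _ := by field_simp

/-- `F F' ≤ a a' (F⁴/(4a⁴) + F'⁴/(4a'⁴) + 1/2)` -/
theorem integral_mul_le_of_pow4 (h : Bm f) (h' : Bm f') {k : ℕ} {m : ℤ} {a a' : ℝ} (ha : 0 < a)
    (ha' : 0 < a') (h4 : ∫ x in dInt k m, f x ^ 4 ≤ a ^ 4 * 2 ^ k)
    (h4' : ∫ x in dInt k m, f' x ^ 4 ≤ a' ^ 4 * 2 ^ k) :
    ∫ x in dInt k m, f x * f' x ≤ a * a' * 2 ^ k := by
  have b1 := (h.pow 4).const_mul (a * a' / (4 * a ^ 4))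
  have b2 := (h'.pow 4).const_mul (a * a' / (4 * a' ^ 4))
  have b3 := Bm.const (a * a' / 2)
  refine (integral_mono ((h.mul h').intOn k m) (((b1.add b2).add b3).intOn k m)
    fun x => ib1_amgm ha ha' (f x) (f' x)).trans ?_
  rw [integral_add ((b1.add b2).intOn k m) (b3.intOn k m), integral_add (b1.intOn k m) (b2.intOn k m),
    integral_const_mul, integral_const_mul, setIntegral_const, measureReal_dInt, smul_eq_mul]
  have c1 := mul_le_mul_of_nonneg_left h4 (show 0 ≤ a * a' / (4 * a ^ 4) by positivity)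
  have c2 := mul_le_mul_of_nonneg_left h4' (show 0 ≤ a * a' / (4 * a' ^ 4) by positivity)
  refine (add_le_add (add_le_add c1 c2) le_rfl).trans (le_of_eq ?_)
  field_simp
  ring
theorem integral_le_of_pow4 (h : Bm f) {k : ℕ} {m : ℤ} {a : ℝ} (ha : 0 < a)
    (h4 : ∫ x in dInt k m, f x ^ 4 ≤ a ^ 4 * 2 ^ k) : ∫ x in dInt k m, f x ≤ a * 2 ^ k := by
  have := integral_mul_le_of_pow4 h (Bm.const 1) ha one_pos h4
    (by rw [setIntegral_const, measureReal_dInt, smul_eq_mul, mul_comm])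
  simpa using this

end Crest.Agent.R87.I2
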