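import Crest.Agent.R87.Api2

/-!
# R87 / IDefs : definitions and overview for the `L²` gain (`L2Stmt`; owner helper6).  DO NOT EDIT.

Everything happens on one line `y = β + s x` over one dyadic interval `I0 = dInt k0 m0`.  With
`γ = β - (y - s x)`, `θ = u z - s`, `v = 2^k |θ|` the kernel is `2^-k h(x) b_I(x') ψ(γ + (x - x') θ)` (`ker_line`).
A family `S` with `v ≤ ρ` splits as `phL = mn + er`, `|er| ≤ C ρ ps` (`Dec`, file `ITree`).
`‖Φ‖² = ∑_{ι = 0,1} ∑_P ∫ par ι (Φ[T]) (Φ[S P])`.  Short terms with `v ≤ ρ`: `IInner` (both densities, `IDens`).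
Short terms with `v > ρ`: integration by parts (`ISm`, `IPair`, `IOut`), except for `v ≤ ϑ²` against the
errors of the next `⌊ϑ⌋` scales, where the single scale bound `absBound` is used.  Assembly: `ILine`, `L2`.
-/

set_option autoImplicit false
set_option linter.unusedVariables false

namespace Crest.Agent.R87.I2

open MeasureTheory Set
open scoped ENNReal

/-- bounded and measurable -/
structure Bm (f : ℝ → ℝ) : Prop where
  meas : Measurable f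
  bdd : ∃ L : ℝ, ∀ x, |f x| ≤ L

/-- relative slope of the term `(z, k)` -/
noncomputable def vv (u : P2 → ℝ) (s : ℝ) (k : ℕ) (z : P2) : ℝ := 2 ^ k * |u z - s|

/-- one scale of the operator on the line -/
noncomputable def phL (b ψ : ℝ → ℝ) (u : P2 → ℝ) (S : ℕ → Set P2) (g : P2 → ℝ) (s β : ℝ) (k : ℕ)
    (x : ℝ) : ℝ := Phi1 b ψ u k (S k) g (x, β + s * x)

/-- main part -/
noncomputable def mn (b : ℝ → ℝ) (α : ℕ → ℤ → ℝ) (k : ℕ) (x : ℝ) : ℝ :=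
  b ((x - cen k x) / 2 ^ k) * α k (dI k x)

/-- maximal function of the main parts -/
noncomputable def mx (b : ℝ → ℝ) (α : ℕ → ℤ → ℝ) (k0 : ℕ) (x : ℝ) : ℝ :=
  ⨆ c : Fin (k0 + 1), |∑ k ∈ Finset.Icc (c : ℕ) k0, mn b α k x|

/-- error part -/
noncomputable def er (b ψ : ℝ → ℝ) (u : P2 → ℝ) (S : ℕ → Set P2) (g : P2 → ℝ) (s β : ℝ) (k : ℕ)
    (x : ℝ) : ℝ := phL b ψ u S g s β k x - mn b (alpha ψ S g s β) k x

/-- the weight `v / ρ` -/
noncomputable def wt (u : P2 → ℝ) (s ρ : ℝ) (S : ℕ → Set P2) (k : ℕ) : P2 → ℝ :=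
  (S k).indicator fun z => vv u s k z / ρ

/-- positive majorant of the error -/
noncomputable def ps (u : P2 → ℝ) (S : ℕ → Set P2) (s β ρ : ℝ) (k : ℕ) (x : ℝ) : ℝ :=
  pcoef (wt u s ρ S) s β (ρ + 1) k (dI k x)

/-- the paraproduct `∑_{k + ι ≤ k'' ≤ k0} A k · L k''` -/
noncomputable def par (ι k0 : ℕ) (A L : ℕ → ℝ → ℝ) (x : ℝ) : ℝ :=
  ∑ k ∈ Finset.range (k0 + 1), A k x * ∑ k' ∈ Finset.Icc (k + ι) k0, L k' x

/-- one-dimensional data of a tree: coefficients `α`, errors `E`, majorants `p`, size `a` -/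
structure Dec (b : ℝ → ℝ) (k0 : ℕ) (m0 : ℤ) (α : ℕ → ℤ → ℝ) (E p : ℕ → ℝ → ℝ) (a : ℝ) : Prop where
  pos : 0 < a
  bα : ∃ L : ℝ, ∀ k m, |α k m| ≤ L
  bE : ∀ k, Bm (E k)
  bp : ∀ k, Bm (p k)
  le : ∀ k x, |E k x| ≤ p k x
  sq : ∫ x in dInt k0 m0, ∑ k ∈ Finset.range (k0 + 1), α k (dI k x) ^ 2 ≤ a ^ 2 * 2 ^ k0
  mx4 : ∫ x in dInt k0 m0, mx b α k0 x ^ 4 ≤ a ^ 4 * 2 ^ k0
  p4 : ∫ x in dInt k0 m0, (∑ k ∈ Finset.range (k0 + 1), p k x) ^ 4 ≤ a ^ 4 * 2 ^ k0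

/-- smooth at scale `Λ⁻¹` with size `B` on the set `J` -/
structure Sm (M : ℕ) (J : Set ℝ) (Λ B : ℝ) (f : ℝ → ℝ) : Prop where
  cd : ContDiff ℝ M f
  bd : ∀ i, i ≤ M → ∀ x ∈ J, |iteratedDeriv i f x| ≤ B * Λ ^ i

/-- the closure of the dyadic interval of length `2^k` containing `x` -/
def cI (k : ℕ) (x : ℝ) : Set ℝ := Icc ((dI k x : ℝ) * 2 ^ k) ((dI k x : ℝ) * 2 ^ k + 2 ^ k)

end Crest.Agent.R87.I2
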