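import Crest.Agent.R87.IDens1

/-! # R87 / IDens : density of columns (aux prefix `id_`) -/

set_option autoImplicit false
set_option linter.unusedVariables false

namespace Crest.Agent.R87.I2

open MeasureTheory Set
open scoped ENNReal

theorem id_card (c : ℝ) {r : ℝ} (hr : 0 ≤ r) :
    ((Finset.Icc ⌊c - r⌋ ⌊c + r⌋).card : ℝ) ≤ 2 * r + 2 := by
  have h1 : ⌊c - r⌋ ≤ ⌊c + r⌋ + 1 := (Int.floor_mono (show c - r ≤ c + r by linarith)).trans (by omega)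
  have h2 := Int.card_Icc_of_le _ _ h1
  have h3 : ((Finset.Icc ⌊c - r⌋ ⌊c + r⌋).card : ℝ) = (⌊c + r⌋ : ℝ) + 1 - (⌊c - r⌋ : ℝ) := by
    exact_mod_cast h2
  have h4 := Int.floor_le (c + r)
  have h5 := Int.lt_floor_add_one (c - r)
  linarith

theorem id_mem {c r v : ℝ} (h : |v - c| ≤ r) : ⌊v⌋ ∈ Finset.Icc ⌊c - r⌋ ⌊c + r⌋ := by
  obtain ⟨h1, h2⟩ := abs_le.1 h
  exact Finset.mem_Icc.2 ⟨Int.floor_mono (by linarith), Int.floor_mono (by linarith)⟩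

theorem id_off {k : ℕ} {m : ℤ} {x d L : ℝ} (hx : dI k x = m) (hd : 2 ^ k * |d| ≤ L) :
    |d * (x - (m : ℝ) * 2 ^ k)| ≤ L := by
  obtain ⟨h1, h2⟩ := mem_dInt.2 hx
  rw [zpow_natCast] at h1 h2
  rw [abs_mul, abs_of_nonneg (sub_nonneg.2 h1), mul_comm]
  exact (mul_le_mul_of_nonneg_right (by linarith) (abs_nonneg d)).trans hd

/-- `cover_tiles` with `A = Icc ⌊s 2^k - ρ⌋ ⌊s 2^k + ρ⌋` (at most `2ρ+2 ≤ 4ρ` elements) and
`B σ = Icc ⌊c - (2ρ+2)⌋ ⌊c + (2ρ+2)⌋`, `c = β + s a` (as `y - s_σ (x-a) = (y - s x - β) + c + (s - s_σ)(x-a)`).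
If `z1 ∈ Z ∩ pop Q` and `(z0, k')` is the term in the hypothesis of `LineDens`, then `near (8ρ) z0 k' Q`:
`2^k |s - s_Q| ≤ ρ + 1`, `|y0 - line_Q x0| ≤ |y0 - s x0 - β| + |y1 - s x1 - β| + |y1 - line_Q x1| + |s - s_Q| |x0 - x1|`.
Then `Forest.dens` (`pop ⊆ G` has finite measure). -/
theorem lineDens : ∃ C : ℝ, 1 ≤ C ∧ ∀ {CG : ℝ} {u : P2 → ℝ} {kmax : ℕ} {G : Set P2} {j j0 : ℕ} {ϑ : ℝ}
    {U : Finset Tile} {T : ℕ → Set P2}, Bornology.IsBounded G → Forest CG u kmax G j j0 ϑ U T →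
    ∀ (S : ℕ → Set P2) (s β ρ : ℝ) (k0 : ℕ), k0 ≤ kmax → 1 ≤ ρ → (∀ k, S k ⊆ T k) →
      (∀ k z, z ∈ S k → 2 ^ k * |u z - s| ≤ ρ) →
      LineDens u G S s β (ρ + 1) ρ (C * ρ ^ 18 / 2 ^ j) k0 := by
  refine ⟨160 * 9 ^ 16, by norm_num, ?_⟩
  intro CG u kmax G j j0 ϑ U T hG hF S s β ρ k0 hk0 hρ hS hs k hk m ⟨k', hk', z0, hz0, hm0, hy0⟩
  have hK : (0 : ℝ) < 2 ^ k := by positivity
  have hJ : (0 : ℝ) < 2 ^ j := by positivity
  set c : ℝ := β + s * ((m : ℝ) * 2 ^ k) with hc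
  refine (cover_tiles (u := u) (G := G) (k := k) (m := m)
    (Finset.Icc ⌊s * 2 ^ k - ρ⌋ ⌊s * 2 ^ k + ρ⌋)
    (fun _ => Finset.Icc ⌊c - (2 * ρ + 2)⌋ ⌊c + (2 * ρ + 2)⌋)
    (D := 4 * (9 * ρ) ^ 16 * 2 ^ k / 2 ^ j) (by positivity) (fun _ => le_rfl)
    (fun z hz => ⟨hz.1, hz.2.1⟩) ?_).trans (ENNReal.ofReal_le_ofReal ?_)
  · rintro σ β' z ⟨-, hz1, hz2, hz3⟩ ⟨-, -, hp1, hp2⟩
    simp only [Tile.s, Tile.a] at hp1 hp2
    have h1 : |u z * 2 ^ k - s * 2 ^ k| ≤ ρ := by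
      rwa [← sub_mul, abs_mul, abs_of_pos hK, mul_comm]
    have h2 : 2 ^ k * |s - (σ : ℝ) / 2 ^ k| ≤ ρ + 1 := by
      have e : 2 ^ k * |s - (σ : ℝ) / 2 ^ k| = |s * 2 ^ k - σ| := by
        rw [← abs_of_pos hK, ← abs_mul, abs_of_pos hK]
        congr 1
        field_simp
      obtain ⟨h3, h4⟩ := Int.floor_eq_iff.1 hp1
      obtain ⟨h5, h6⟩ := abs_le.1 h1
      rw [e, abs_le]
      constructor <;> linarith
    have h3 : |z.2 - (σ : ℝ) / 2 ^ k * (z.1 - (m : ℝ) * 2 ^ k) - c| ≤ 2 * ρ + 2 := by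
      have e : z.2 - (σ : ℝ) / 2 ^ k * (z.1 - (m : ℝ) * 2 ^ k) - c =
          (z.2 - s * z.1 - β) + (s - (σ : ℝ) / 2 ^ k) * (z.1 - (m : ℝ) * 2 ^ k) := by
        rw [hc]
        ring
      rw [e]
      exact (abs_add_le _ _).trans (by linarith [id_off hz1 h2])
    refine ⟨hp1 ▸ id_mem h1, hp2 ▸ id_mem h3, ?_⟩
    have hn : Tile.near u (9 * ρ) z0 k' ⟨k, m, σ, β'⟩ := by
      refine ⟨hk', hm0, ?_, ?_⟩
      · simp only [Tile.s]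
        have h4 := hs k' z0 hz0
        have h5 : (2 : ℝ) ^ k' * |s - (σ : ℝ) / 2 ^ k| ≤ 2 ^ k * |s - (σ : ℝ) / 2 ^ k| :=
          mul_le_mul_of_nonneg_right (pow_le_pow_right₀ one_le_two hk') (abs_nonneg _)
        have h6 := mul_le_mul_of_nonneg_left (abs_sub_le (u z0) s ((σ : ℝ) / 2 ^ k))
          (show (0 : ℝ) ≤ 2 ^ k' by positivity)
        linarith
      · simp only [Tile.line, Tile.s, Tile.a]
        have e : z0.2 - ((β' : ℝ) + (σ : ℝ) / 2 ^ k * (z0.1 - (m : ℝ) * 2 ^ k)) =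
            (z0.2 - s * z0.1 - β) + (s - (σ : ℝ) / 2 ^ k) * (z0.1 - (m : ℝ) * 2 ^ k) + (c - β') := by
          rw [hc]
          ring
        obtain ⟨h4, h5⟩ := Int.floor_eq_iff.1 hp2
        obtain ⟨h6, h7⟩ := abs_le.1 h3
        obtain ⟨h8, h9⟩ := abs_le.1 hy0
        obtain ⟨h10, h11⟩ := abs_le.1 (id_off hm0 h2)
        rw [e, abs_le]
        constructor <;> linarith
    have hd := hF.dens k' z0 (hS k' hz0) ⟨k, m, σ, β'⟩ (9 * ρ) (by linarith) (hk.trans hk0) hn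
    have hfin : volume (Tile.pop u G ⟨k, m, σ, β'⟩) ≠ ∞ :=
      ne_top_of_le_ne_top hG.measure_lt_top.ne (measure_mono fun z hz => hz.1)
    rw [← ENNReal.ofReal_toReal hfin]
    refine ENNReal.ofReal_le_ofReal ?_
    rw [le_div_iff₀ hJ]
    exact hd
  · have h1 := id_card (s * 2 ^ k) (show 0 ≤ ρ by linarith)
    have h2 := id_card c (show 0 ≤ 2 * ρ + 2 by linarith)
    calc _ ≤ (4 * ρ) * (10 * ρ) * (4 * (9 * ρ) ^ 16 * 2 ^ k / 2 ^ j) :=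
          mul_le_mul_of_nonneg_right (mul_le_mul (by linarith) (by linarith) (Nat.cast_nonneg _)
            (by linarith)) (by positivity)
      _ = _ := by ring

end Crest.Agent.R87.I2
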