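import Crest.Agent.R87.IBas

/-! # R87 / IDens1 : covering by tiles, single scale bound (aux prefix `id1_`) -/

set_option autoImplicit false
set_option linter.unusedVariables false

namespace Crest.Agent.R87.I2

open MeasureTheory Set
open scoped ENNReal

/-- **Covering by popular sets.**  Every `z ∈ Z` lies in `pop` of the tile `⟨k, m, ⌊u z 2^k⌋, ⌊y - s_σ (x - a)⌋⟩`;
`measure_biUnion_finset_le` over the tiles `σ ∈ A`, `β ∈ B σ` whose `pop` meets `Z`. -/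
theorem cover_tiles {u : P2 → ℝ} {G Z : Set P2} {k : ℕ} {m : ℤ} (A : Finset ℤ) (B : ℤ → Finset ℤ)
    {n : ℕ} {D : ℝ} (hD0 : 0 ≤ D) (hB : ∀ σ, (B σ).card ≤ n) (hZ : ∀ z ∈ Z, z ∈ G ∧ dI k z.1 = m)
    (hA : ∀ σ β, ∀ z ∈ Z, z ∈ Tile.pop u G ⟨k, m, σ, β⟩ → σ ∈ A ∧ β ∈ B σ ∧
      volume (Tile.pop u G ⟨k, m, σ, β⟩) ≤ ENNReal.ofReal D) :
    volume Z ≤ ENNReal.ofReal (A.card * n * D) := by
  have hsub : Z ⊆ ⋃ σ ∈ A, ⋃ β ∈ B σ, Z ∩ Tile.pop u G ⟨k, m, σ, β⟩ := by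
    intro z hz
    have hp : z ∈ Tile.pop u G ⟨k, m, ⌊u z * 2 ^ k⌋,
        ⌊z.2 - (⌊u z * 2 ^ k⌋ : ℝ) / 2 ^ k * (z.1 - (m : ℝ) * 2 ^ k)⌋⟩ :=
      ⟨(hZ z hz).1, (hZ z hz).2, rfl, rfl⟩
    obtain ⟨h1, h2, -⟩ := hA _ _ z hz hp
    simp only [mem_iUnion]
    exact ⟨_, h1, _, h2, hz, hp⟩
  have hW : ∀ σ β, volume (Z ∩ Tile.pop u G ⟨k, m, σ, β⟩) ≤ ENNReal.ofReal D := by
    intro σ β
    rcases (Z ∩ Tile.pop u G ⟨k, m, σ, β⟩).eq_empty_or_nonempty with h | ⟨z, hz, hp⟩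
    · rw [h]; simp
    · exact (measure_mono inter_subset_right).trans (hA σ β z hz hp).2.2
  calc volume Z ≤ volume (⋃ σ ∈ A, ⋃ β ∈ B σ, Z ∩ Tile.pop u G ⟨k, m, σ, β⟩) := measure_mono hsub
    _ ≤ ∑ σ ∈ A, volume (⋃ β ∈ B σ, Z ∩ Tile.pop u G ⟨k, m, σ, β⟩) :=
        measure_biUnion_finset_le _ _
    _ ≤ ∑ σ ∈ A, (n : ℝ≥0∞) * ENNReal.ofReal D := by
        refine Finset.sum_le_sum fun σ _ => ?_
        calc volume (⋃ β ∈ B σ, Z ∩ Tile.pop u G ⟨k, m, σ, β⟩)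
            ≤ ∑ β ∈ B σ, volume (Z ∩ Tile.pop u G ⟨k, m, σ, β⟩) := measure_biUnion_finset_le _ _
          _ ≤ ∑ β ∈ B σ, ENNReal.ofReal D := Finset.sum_le_sum fun β _ => hW σ β
          _ = ((B σ).card : ℝ≥0∞) * ENNReal.ofReal D := by
              rw [Finset.sum_const, nsmul_eq_mul]
          _ ≤ (n : ℝ≥0∞) * ENNReal.ofReal D := by
              gcongr
              exact_mod_cast hB σ
    _ = ENNReal.ofReal (A.card * n * D) := by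
        rw [Finset.sum_const, nsmul_eq_mul, ENNReal.ofReal_mul (by positivity),
          ENNReal.ofReal_mul (by positivity), ENNReal.ofReal_natCast, ENNReal.ofReal_natCast,
          mul_assoc]

/-- **Single scale bound.**  `|Phi1| ≤ 2^-k ‖b‖ ‖ψ‖ |Z|`, `Z = {z ∈ A | ker ≠ 0}` (`ker_ne_zero`).  `cover_tiles` with
`B σ = Icc ⌊c - 2⌋ ⌊c + 2⌋`, `c = y' - s_σ (x' - a)` (as `y - y' - s_σ (x - x') = O(1) + (x-x')(u - s_σ)`);
a point `z ∈ Z ∩ pop Q` has `near 1 z k Q`, so `Forest.dens` with `ρ = 1`. -/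
theorem absBound {b ψ : ℝ → ℝ} (hb : IsB b) (hψ : IsPsi ψ) : ∃ C : ℝ, 1 ≤ C ∧
    ∀ {CG : ℝ} {u : P2 → ℝ} {kmax : ℕ} {G : Set P2} {j j0 : ℕ} {ϑ : ℝ} {U : Finset Tile}
      {T : ℕ → Set P2}, Measurable u → Bornology.IsBounded G → Forest CG u kmax G j j0 ϑ U T →
    ∀ (k : ℕ) (A : Set P2) (s ρ : ℝ), k ≤ kmax → MeasurableSet A → A ⊆ T k → 1 ≤ ρ →
      (∀ z ∈ A, 2 ^ k * |u z - s| ≤ ρ) → ∀ g, Coef g → ∀ z', |Phi1 b ψ u k A g z'| ≤ C * ρ / 2 ^ j := by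
  obtain ⟨Ab, hAb1, hAb, -⟩ := hb.exists_lip
  obtain ⟨Ap, hAp1, hAp, -⟩ := hψ.exists_lip
  refine ⟨80 * (Ab * Ap), by nlinarith, ?_⟩
  intro CG u kmax G j j0 ϑ U T hu hG hF k A s ρ hk hA hAT hρ hs g hg z'
  have h2k : (0 : ℝ) < 2 ^ k := by positivity
  set m : ℤ := dI k z'.1 with hm
  set Z : Set P2 := {z | z ∈ A ∧ ker b ψ u k z z' ≠ 0} with hZdef
  set S : Finset ℤ := Finset.Icc ⌊s * 2 ^ k - ρ⌋ ⌊s * 2 ^ k + ρ⌋ with hS
  set c : ℤ → ℝ := fun σ => z'.2 - (σ : ℝ) / 2 ^ k * (z'.1 - (m : ℝ) * 2 ^ k) with hc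
  have hScard : (S.card : ℝ) ≤ 4 * ρ := by
    rw [hS, Int.card_Icc]
    have h1 := Int.floor_le (s * 2 ^ k + ρ)
    have h2 := Int.lt_floor_add_one (s * 2 ^ k - ρ)
    have h3 : ⌊s * 2 ^ k - ρ⌋ ≤ ⌊s * 2 ^ k + ρ⌋ := Int.floor_le_floor (by linarith)
    have h4 : (((⌊s * 2 ^ k + ρ⌋ + 1 - ⌊s * 2 ^ k - ρ⌋).toNat : ℤ) : ℝ)
        = (⌊s * 2 ^ k + ρ⌋ : ℝ) + 1 - ⌊s * 2 ^ k - ρ⌋ := by
      rw [Int.toNat_of_nonneg (by omega)]; push_cast; ring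
    rw [Int.cast_natCast] at h4
    rw [h4]; linarith
  have hvol : volume Z ≤ ENNReal.ofReal (S.card * (5 : ℕ) * (4 * 2 ^ k / 2 ^ j)) := by
    refine cover_tiles (u := u) (G := G) (k := k) (m := m) S
      (fun σ => Finset.Icc (⌊c σ⌋ - 2) (⌊c σ⌋ + 2)) (by positivity) ?_ ?_ ?_
    · intro σ
      rw [Int.card_Icc]
      omega
    · intro z hz
      exact ⟨hF.fam.sub k (hAT hz.1), (ker_ne_zero hb hψ hz.2).1.symm⟩
    · intro σ β z hz hp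
      obtain ⟨hzG, hzm, hσ, hβ⟩ := hp
      simp only [Tile.s, Tile.a] at hzm hσ hβ
      obtain ⟨hk1, hk2⟩ := ker_ne_zero hb hψ hz.2
      have hσ1 : (σ : ℝ) ≤ u z * 2 ^ k := by rw [← hσ]; exact Int.floor_le _
      have hσ2 : u z * 2 ^ k < (σ : ℝ) + 1 := by rw [← hσ]; exact Int.lt_floor_add_one _
      have hβ1 : (β : ℝ) ≤ z.2 - (σ : ℝ) / 2 ^ k * (z.1 - (m : ℝ) * 2 ^ k) := by
        rw [← hβ]; exact Int.floor_le _
      have hβ2 : z.2 - (σ : ℝ) / 2 ^ k * (z.1 - (m : ℝ) * 2 ^ k) < (β : ℝ) + 1 := by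
        rw [← hβ]; exact Int.lt_floor_add_one _
      have hus : 2 ^ k * |u z - (σ : ℝ) / 2 ^ k| ≤ 1 := by
        have : 2 ^ k * |u z - (σ : ℝ) / 2 ^ k| = |u z * 2 ^ k - σ| := by
          rw [← abs_of_pos h2k, ← abs_mul, abs_of_pos h2k]
          congr 1; field_simp
        rw [this, abs_le]; constructor <;> linarith
      refine ⟨?_, ?_, ?_⟩
      · have h1 := hs z hz.1
        have h2 : |u z * 2 ^ k - s * 2 ^ k| ≤ ρ := by
          rw [← sub_mul, abs_mul, abs_of_pos h2k, mul_comm]; exact h1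
        rw [abs_le] at h2
        rw [hS, Finset.mem_Icc, ← hσ]
        exact ⟨Int.floor_le_floor (by linarith [h2.1]), Int.floor_le_floor (by linarith [h2.2])⟩
      · have hx : |z.1 - z'.1| ≤ 2 ^ k := by
          have := abs_sub_lt_of_dI_eq hk1.symm
          rw [zpow_natCast] at this
          exact this.le
        have h3 : |(z.1 - z'.1) * (u z - (σ : ℝ) / 2 ^ k)| ≤ 1 := by
          rw [abs_mul]
          exact (mul_le_mul_of_nonneg_right hx (abs_nonneg _)).trans hus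
        have h4 : z.2 - (σ : ℝ) / 2 ^ k * (z.1 - (m : ℝ) * 2 ^ k) - c σ
            = (z.1 - z'.1) * (u z - (σ : ℝ) / 2 ^ k) - (z'.2 - z.2 + (z.1 - z'.1) * u z) := by
          simp only [hc]; ring
        rw [abs_le] at h3 hk2
        rw [Finset.mem_Icc, ← hβ]
        constructor
        · have : ⌊c σ - ((2 : ℤ) : ℝ)⌋ ≤ ⌊z.2 - (σ : ℝ) / 2 ^ k * (z.1 - (m : ℝ) * 2 ^ k)⌋ :=
            Int.floor_le_floor (by push_cast; linarith [h3.1, hk2.2])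
          rwa [Int.floor_sub_intCast] at this
        · have : ⌊z.2 - (σ : ℝ) / 2 ^ k * (z.1 - (m : ℝ) * 2 ^ k)⌋ ≤ ⌊c σ + ((2 : ℤ) : ℝ)⌋ :=
            Int.floor_le_floor (by push_cast; linarith [h3.2, hk2.1])
          rwa [Int.floor_add_intCast] at this
      · have hn : Tile.near u 1 z k ⟨k, m, σ, β⟩ := by
          refine ⟨le_rfl, hzm, hus, ?_⟩
          simp only [Tile.line, Tile.s, Tile.a]
          rw [abs_le]; constructor <;> linarith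
        have hd := hF.dens k z (hAT hz.1) ⟨k, m, σ, β⟩ 1 le_rfl hk hn
        simp only [Tile.len, one_pow, mul_one] at hd
        have hfin : volume (Tile.pop u G ⟨k, m, σ, β⟩) ≠ ∞ :=
          ((measure_mono (fun w hw => hw.1)).trans_lt hG.measure_lt_top).ne
        rw [← ENNReal.ofReal_toReal hfin]
        apply ENNReal.ofReal_le_ofReal
        rw [le_div_iff₀ (by positivity)]
        exact hd
  have hmain := api2_int_le (f := fun z => g z * ker b ψ u k z z') (S := Z) hA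
    (M := Ab * Ap / 2 ^ k) (by positivity) (by positivity)
    (fun z _ => (api2_coef_le hg z _).trans (api2_ker_le hAb hAp u k z z'))
    (fun z hz h => ⟨hz, right_ne_zero_of_mul h⟩) hvol
  refine hmain.trans ?_
  calc Ab * Ap / 2 ^ k * (S.card * (5 : ℕ) * (4 * 2 ^ k / 2 ^ j))
      ≤ Ab * Ap / 2 ^ k * (4 * ρ * (5 : ℕ) * (4 * 2 ^ k / 2 ^ j)) := by gcongr
    _ = 80 * (Ab * Ap) * ρ / 2 ^ j := by push_cast; field_simp; ring

end Crest.Agent.R87.I2
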