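import Crest.Agent.R87.IInner1

/-! # R87 / IInner : two trees on the same line (one-dimensional; aux prefix `ii_`) -/

set_option autoImplicit false
set_option linter.unusedVariables false

namespace Crest.Agent.R87.I2

open MeasureTheory Set
open scoped ENNReal

variable {b : ℝ → ℝ}

theorem ii_swap (f : ℕ → ℕ → ℝ) (ι k0 : ℕ) :
    ∑ k ∈ Finset.range (k0 + 1), ∑ k' ∈ Finset.Icc (k + ι) k0, f k k' =
      ∑ k' ∈ Finset.range (k0 + 1), ∑ k ∈ Finset.range (k' + 1 - ι), f k k' :=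
  Finset.sum_comm' fun k k' => by
    simp only [Finset.mem_range, Finset.mem_Icc]
    omega

theorem ii_g1 (k ι k0 : ℕ) : ∑ k' ∈ Finset.Icc (k + ι) k0, ((2 : ℝ) ^ k / 2 ^ k') ≤ 2 := by
  have h := geom_sum_Ico_le_of_lt_one (x := (1 / 2 : ℝ)) (m := k) (n := k0 + 1) (by norm_num) (by norm_num)
  calc _ ≤ ∑ k' ∈ Finset.Ico k (k0 + 1), ((2 : ℝ) ^ k / 2 ^ k') :=
        Finset.sum_le_sum_of_subset_of_nonneg (fun i hi => by
          simp only [Finset.mem_Icc, Finset.mem_Ico] at hi ⊢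
          omega) fun _ _ _ => by positivity
    _ = 2 ^ k * ∑ k' ∈ Finset.Ico k (k0 + 1), (1 / 2 : ℝ) ^ k' := by
        rw [Finset.mul_sum]
        exact Finset.sum_congr rfl fun i _ => by rw [one_div, inv_pow, div_eq_mul_inv]
    _ ≤ 2 ^ k * ((1 / 2) ^ k / (1 - 1 / 2)) := mul_le_mul_of_nonneg_left h (by positivity)
    _ = 2 := by
        rw [one_div, inv_pow]
        field_simp
        norm_num

theorem ii_g2 (k' ι : ℕ) : ∑ k ∈ Finset.range (k' + 1 - ι), ((2 : ℝ) ^ k / 2 ^ k') ≤ 2 := by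
  calc _ ≤ ∑ k ∈ Finset.range (k' + 1), ((2 : ℝ) ^ k / 2 ^ k') :=
        Finset.sum_le_sum_of_subset_of_nonneg (Finset.range_mono (Nat.sub_le _ _)) fun _ _ _ => by positivity
    _ ≤ 2 := by
        rw [← Finset.sum_div, geom_sum_eq (by norm_num), div_le_iff₀ (by positivity), pow_succ]
        norm_num
        linarith

/-- pointwise Schur test: `|p||q| ≤ (a'/(2a)) p² + (a/(2a')) q²` and `∑ 2^k/2^k' ≤ 2` in either variable -/
theorem schur_pt (p q : ℕ → ℝ) {a a' : ℝ} (ha : 0 < a) (ha' : 0 < a') (ι k0 : ℕ) :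
    ∑ k ∈ Finset.range (k0 + 1), ∑ k' ∈ Finset.Icc (k + ι) k0, (2 ^ k / 2 ^ k') * (|p k| * |q k'|) ≤
      a' / a * ∑ k ∈ Finset.range (k0 + 1), p k ^ 2 + a / a' * ∑ k ∈ Finset.range (k0 + 1), q k ^ 2 := by
  have h1 : ∀ k k', |p k| * |q k'| ≤ a' / a / 2 * p k ^ 2 + a / a' / 2 * q k' ^ 2 := fun k k' => by
    rw [← sq_abs (p k), ← sq_abs (q k'), ← sub_nonneg]
    have : a' / a / 2 * |p k| ^ 2 + a / a' / 2 * |q k'| ^ 2 - |p k| * |q k'| =
        (a' * |p k| - a * |q k'|) ^ 2 / (2 * a * a') := by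
      field_simp
      ring
    rw [this]
    positivity
  calc _ ≤ ∑ k ∈ Finset.range (k0 + 1), ∑ k' ∈ Finset.Icc (k + ι) k0,
        (2 ^ k / 2 ^ k' * (a' / a / 2 * p k ^ 2) + 2 ^ k / 2 ^ k' * (a / a' / 2 * q k' ^ 2)) :=
        Finset.sum_le_sum fun k _ => Finset.sum_le_sum fun k' _ => by
          rw [← mul_add]
          exact mul_le_mul_of_nonneg_left (h1 k k') (by positivity)
    _ ≤ _ := by
        simp only [Finset.sum_add_distrib]
        rw [ii_swap (fun k k' => 2 ^ k / 2 ^ k' * (a / a' / 2 * q k' ^ 2)), Finset.mul_sum, Finset.mul_sum]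
        refine add_le_add (Finset.sum_le_sum fun k _ => ?_) (Finset.sum_le_sum fun k _ => ?_)
        · rw [← Finset.sum_mul]
          exact (mul_le_mul_of_nonneg_right (ii_g1 k ι k0) (by positivity)).trans (le_of_eq (by ring))
        · rw [← Finset.sum_mul]
          exact (mul_le_mul_of_nonneg_right (ii_g2 k ι) (by positivity)).trans (le_of_eq (by ring))

/-- `par (mn + E) (mn' + E') - par mn mn' = par mn E' + par E (mn' + E')`.  In `par mn E'` sum over `k` first: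
`∑_{k + ι ≤ k'} mn k = ∑_{Icc 0 k0} - ∑_{Icc (k'+1-ι) k0}`. -/
theorem par_pt (b : ℝ → ℝ) (α α' : ℕ → ℤ → ℝ) {E E' p p' : ℕ → ℝ → ℝ} (ι k0 : ℕ) (x : ℝ)
    (h : ∀ k, |E k x| ≤ p k x) (h' : ∀ k, |E' k x| ≤ p' k x) :
    |par ι k0 (fun k x => mn b α k x + E k x) (fun k x => mn b α' k x + E' k x) x -
        par ι k0 (mn b α) (mn b α') x| ≤
      2 * (mx b α k0 x * ∑ k ∈ Finset.range (k0 + 1), p' k x) +
        (∑ k ∈ Finset.range (k0 + 1), p k x) * mx b α' k0 x +
        (∑ k ∈ Finset.range (k0 + 1), p k x) * ∑ k ∈ Finset.range (k0 + 1), p' k x := by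
  have e : par ι k0 (fun k x => mn b α k x + E k x) (fun k x => mn b α' k x + E' k x) x -
      par ι k0 (mn b α) (mn b α') x =
      ∑ k' ∈ Finset.range (k0 + 1), (∑ k ∈ Finset.range (k' + 1 - ι), mn b α k x) * E' k' x +
        ∑ k ∈ Finset.range (k0 + 1), E k x * ∑ k' ∈ Finset.Icc (k + ι) k0, mn b α' k' x +
        ∑ k ∈ Finset.range (k0 + 1), E k x * ∑ k' ∈ Finset.Icc (k + ι) k0, E' k' x := by
    simp only [Finset.sum_mul]
    rw [← ii_swap fun k k' => mn b α k x * E' k' x]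
    simp only [par, ← Finset.sum_sub_distrib, ← Finset.sum_add_distrib]
    refine Finset.sum_congr rfl fun k _ => ?_
    rw [Finset.sum_add_distrib, ← Finset.mul_sum]
    ring
  have hp : ∀ k, 0 ≤ p k x := fun k => (abs_nonneg _).trans (h k)
  have hp' : ∀ k, 0 ≤ p' k x := fun k => (abs_nonneg _).trans (h' k)
  rw [e]
  refine (abs_add_three _ _ _).trans (add_le_add_three ?_ ?_ ?_)
  · rw [← mul_assoc, Finset.mul_sum]
    refine (Finset.abs_sum_le_sum_abs _ _).trans (Finset.sum_le_sum fun k hk => ?_)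
    rw [abs_mul]
    refine mul_le_mul ?_ (h' k) (abs_nonneg _) (mul_nonneg two_pos.le (mx_nonneg _ _ _ _))
    have hk' : k + 1 - ι ≤ k0 + 1 := by
      have := Finset.mem_range.1 hk
      omega
    have e1 := Finset.sum_range_add_sum_Ico (fun k => mn b α k x) hk'
    have e2 := abs_le.1 (abs_sum_le_mx b α 0 k0 x)
    have e3 := abs_le.1 (abs_sum_le_mx b α (k + 1 - ι) k0 x)
    rw [← Finset.Ico_add_one_right_eq_Icc] at e2 e3
    rw [← Finset.range_eq_Ico] at e2
    exact abs_le.2 ⟨by linarith [e2.1, e3.2], by linarith [e2.2, e3.1]⟩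
  · rw [Finset.sum_mul]
    refine (Finset.abs_sum_le_sum_abs _ _).trans (Finset.sum_le_sum fun k hk => ?_)
    rw [abs_mul]
    exact mul_le_mul (h k) (abs_sum_le_mx _ _ _ _ _) (abs_nonneg _) (hp k)
  · rw [Finset.sum_mul]
    refine (Finset.abs_sum_le_sum_abs _ _).trans (Finset.sum_le_sum fun k hk => ?_)
    rw [abs_mul]
    refine mul_le_mul (h k) ((Finset.abs_sum_le_sum_abs _ _).trans ((Finset.sum_le_sum fun i _ => h' i).trans
      (Finset.sum_le_sum_of_subset_of_nonneg (fun i hi => ?_) fun i _ _ => hp' i))) (abs_nonneg _) (hp k)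
    exact Finset.mem_range.2 (Nat.lt_succ_of_le (Finset.mem_Icc.1 hi).2)

theorem inner_bound (hb : IsB b) : ∃ C : ℝ, 0 ≤ C ∧ ∀ {k0 : ℕ} {m0 : ℤ} {α α' : ℕ → ℤ → ℝ}
    {E E' p p' : ℕ → ℝ → ℝ} {a a' : ℝ}, Dec b k0 m0 α E p a → Dec b k0 m0 α' E' p' a' → ∀ ι : ℕ,
    |∫ x in dInt k0 m0, par ι k0 (fun k x => mn b α k x + E k x) (fun k x => mn b α' k x + E' k x) x|
      ≤ C * a * a' * 2 ^ k0 := by
  obtain ⟨C, hC, H⟩ := mn_mul_mn hb
  refine ⟨2 * C + 4, by positivity, fun {k0 m0 α α' E E' p p' a a'} D D' ι => ?_⟩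
  obtain ⟨L, hL⟩ := D.bα
  obtain ⟨L', hL'⟩ := D'.bα
  have ha := D.pos
  have ha' := D'.pos
  have b1 := bm_mn hb hL
  have b1' := bm_mn hb hL'
  have b2 := bm_mx hb hL k0
  have b2' := bm_mx hb hL' k0
  have b3 : Bm fun x => ∑ k ∈ Finset.range (k0 + 1), p k x := Bm.sum _ fun k _ => D.bp k
  have b3' : Bm fun x => ∑ k ∈ Finset.range (k0 + 1), p' k x := Bm.sum _ fun k _ => D'.bp k
  have b4 : ∀ k : ℕ, Bm fun x => α k (dI k x) := fun k => Bm.step k (hL k)
  have b4' : ∀ k : ℕ, Bm fun x => α' k (dI k x) := fun k => Bm.step k (hL' k)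
  have b5 : Bm fun x => ∑ k ∈ Finset.range (k0 + 1), α k (dI k x) ^ 2 := Bm.sum _ fun k _ => (b4 k).pow 2
  have b5' : Bm fun x => ∑ k ∈ Finset.range (k0 + 1), α' k (dI k x) ^ 2 := Bm.sum _ fun k _ => (b4' k).pow 2
  have b6 : ∀ k k' : ℕ, Bm fun x => C * (2 ^ k / 2 ^ k') * (|α k (dI k x)| * |α' k' (dI k' x)|) :=
    fun k k' => Bm.const_mul _ ((b4 k).abs.mul (b4' k').abs)
  have bP := bm_par ι k0 (fun k => (b1 k).add (D.bE k)) fun k => (b1' k).add (D'.bE k)
  have bQ := bm_par ι k0 b1 b1'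
  have h1 : |∫ x in dInt k0 m0, par ι k0 (mn b α) (mn b α') x| ≤ 2 * C * a * a' * 2 ^ k0 := by
    simp only [par, Finset.mul_sum]
    rw [integral_finsetSum _ fun k _ => (Bm.sum _ fun k' _ => (b1 k).mul (b1' k')).intOn _ _]
    calc _ ≤ ∑ k ∈ Finset.range (k0 + 1), ∫ x in dInt k0 m0, ∑ k' ∈ Finset.Icc (k + ι) k0,
          C * (2 ^ k / 2 ^ k') * (|α k (dI k x)| * |α' k' (dI k' x)|) := by
          refine (Finset.abs_sum_le_sum_abs _ _).trans (Finset.sum_le_sum fun k hk => ?_)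
          rw [integral_finsetSum _ fun k' _ => ((b1 k).mul (b1' k')).intOn _ _,
            integral_finsetSum _ fun k' _ => (b6 k k').intOn _ _]
          refine (Finset.abs_sum_le_sum_abs _ _).trans (Finset.sum_le_sum fun k' hk' => ?_)
          exact abs_integral_le_of_pieces ((b1 k).mul (b1' k')) (b6 k k') (Nat.le_of_lt_succ (Finset.mem_range.1 hk))
            (fun m => H α α' k k' m ((Nat.le_add_right k ι).trans (Finset.mem_Icc.1 hk').1)) m0
      _ ≤ ∫ x in dInt k0 m0, (C * (a' / a) * ∑ k ∈ Finset.range (k0 + 1), α k (dI k x) ^ 2 +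
          C * (a / a') * ∑ k ∈ Finset.range (k0 + 1), α' k (dI k x) ^ 2) := by
          rw [← integral_finsetSum _ fun k _ => (Bm.sum _ fun k' _ => b6 k k').intOn _ _]
          refine integral_mono ((Bm.sum _ fun k _ => Bm.sum _ fun k' _ => b6 k k').intOn _ _)
            (((b5.const_mul _).add (b5'.const_mul _)).intOn _ _) fun x => ?_
          have := mul_le_mul_of_nonneg_left
            (schur_pt (fun k => α k (dI k x)) (fun k => α' k (dI k x)) ha ha' ι k0) hC
          simp only [mul_assoc, ← Finset.mul_sum, ← mul_add] at this ⊢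
          exact this
      _ ≤ C * (a' / a) * (a ^ 2 * 2 ^ k0) + C * (a / a') * (a' ^ 2 * 2 ^ k0) := by
          rw [integral_add ((b5.const_mul _).intOn _ _) ((b5'.const_mul _).intOn _ _), integral_const_mul,
            integral_const_mul]
          exact add_le_add (mul_le_mul_of_nonneg_left D.sq (by positivity))
            (mul_le_mul_of_nonneg_left D'.sq (by positivity))
      _ = _ := by
          field_simp
          ring
  have h2 := abs_integral_le_integral_abs.trans (integral_mono ((bP.sub bQ).abs.intOn k0 m0)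
    (((((b2.mul b3').const_mul 2).add (b3.mul b2')).add (b3.mul b3')).intOn k0 m0)
    fun x => par_pt b α α' ι k0 x (fun k => D.le k x) fun k => D'.le k x)
  rw [integral_sub (bP.intOn _ _) (bQ.intOn _ _),
    integral_add ((((b2.mul b3').const_mul 2).add (b3.mul b2')).intOn _ _) ((b3.mul b3').intOn _ _),
    integral_add (((b2.mul b3').const_mul 2).intOn _ _) ((b3.mul b2').intOn _ _), integral_const_mul] at h2
  have i1 := integral_mul_le_of_pow4 b2 b3' ha ha' D.mx4 D'.p4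
  have i2 := integral_mul_le_of_pow4 b3 b2' ha ha' D.p4 D'.mx4
  have i3 := integral_mul_le_of_pow4 b3 b3' ha ha' D.p4 D'.p4
  obtain ⟨u1, u2⟩ := abs_le.1 h1
  obtain ⟨v1, v2⟩ := abs_le.1 h2
  exact abs_le.2 ⟨by linarith, by linarith⟩

end Crest.Agent.R87.I2
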