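import Crest.Agent.R87.IBas

/-! # R87 / IInner1 : main parts are almost orthogonal (aux prefix `ii1_`) -/

set_option autoImplicit false
set_option linter.unusedVariables false

namespace Crest.Agent.R87.I2

open MeasureTheory Set
open scoped ENNReal

variable {b : ℝ → ℝ}

/-- splitting `I0` into the intervals of scale `k` (induction with `dInt_succ`) -/
theorem abs_integral_le_of_pieces {f F : ℝ → ℝ} (hf : Bm f) (hF : Bm F) {k k0 : ℕ} (hk : k ≤ k0)
    (h : ∀ m, |∫ x in dInt k m, f x| ≤ ∫ x in dInt k m, F x) (m0 : ℤ) :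
    |∫ x in dInt k0 m0, f x| ≤ ∫ x in dInt k0 m0, F x := by
  induction k0, hk using Nat.le_induction generalizing m0 with
  | base => exact h m0
  | succ k0 _ ih =>
    have hd := disjoint_dInt (k0 : ℤ) (show 2 * m0 ≠ 2 * m0 + 1 by omega)
    rw [Nat.cast_succ, dInt_succ,
      setIntegral_union hd (measurableSet_dInt _ _) (hf.intOn _ _) (hf.intOn _ _),
      setIntegral_union hd (measurableSet_dInt _ _) (hF.intOn _ _) (hF.intOn _ _)]
    exact (abs_add_le _ _).trans (add_le_add (ih _) (ih _))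

theorem ii1_mean (hb : IsB b) (k : ℕ) (x0 : ℝ) :
    ∫ x in dInt k (dI k x0), b ((x - cen k x0) / 2 ^ k) = 0 := by
  rw [setIntegral_eq_integral_of_forall_compl_eq_zero,
    integral_sub_right_eq_self (fun x => b (x / 2 ^ k)), Measure.integral_comp_div, hb.mean, smul_zero]
  intro x hx
  by_contra hc
  exact hx (mem_dInt.2 (b_arg_ne_zero hb hc))

/-- On `I = dInt k m` the coefficients and the centres are constant; `∫_I b((x - c)/2^k) = 0`, and
`b((x - c')/2^k')` oscillates by at most `A 2^k / 2^k'` on `I`. -/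
theorem mn_mul_mn (hb : IsB b) : ∃ C : ℝ, 0 ≤ C ∧ ∀ (α α' : ℕ → ℤ → ℝ) (k k' : ℕ) (m : ℤ), k ≤ k' →
    |∫ x in dInt k m, mn b α k x * mn b α' k' x| ≤
      ∫ x in dInt k m, C * (2 ^ k / 2 ^ k') * (|α k (dI k x)| * |α' k' (dI k' x)|) := by
  obtain ⟨A, hA1, hA, hL⟩ := hb.exists_lip
  refine ⟨A * A, by positivity, fun α α' k k' m hk => ?_⟩
  have hk0 : (0 : ℝ) < 2 ^ k := by positivity
  have hk1 : (0 : ℝ) < 2 ^ k' := by positivity
  obtain ⟨x0, rfl⟩ : ∃ x0 : ℝ, dI k x0 = m := by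
    refine ⟨m * 2 ^ (k : ℤ), mem_dInt.1 ⟨le_rfl, ?_⟩⟩
    exact mul_lt_mul_of_pos_right (lt_add_one _) (by positivity)
  have hbm : ∀ (c l : ℝ), Bm fun x => b ((x - c) / l) := fun c l =>
    ⟨hb.smooth.continuous.measurable.comp (by fun_prop), A, fun x => hA _⟩
  have hm := measurableSet_dInt k (dI k x0)
  have e1 : ∫ x in dInt k (dI k x0), mn b α k x * mn b α' k' x =
      ∫ x in dInt k (dI k x0), (α k (dI k x0) * α' k' (dI k' x0) *
        (b ((x - cen k x0) / 2 ^ k) * b ((x - cen k' x0) / 2 ^ k')) -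
        α k (dI k x0) * α' k' (dI k' x0) * b ((x0 - cen k' x0) / 2 ^ k') *
          b ((x - cen k x0) / 2 ^ k)) := by
    rw [integral_sub ((((hbm _ _).mul (hbm _ _)).const_mul _).intOn _ _)
      (((hbm _ _).const_mul _).intOn _ _), integral_const_mul _ fun x => b ((x - cen k x0) / 2 ^ k),
      ii1_mean hb, mul_zero, sub_zero]
    refine setIntegral_congr_fun hm fun x hx => ?_
    have h1 := mem_dInt.1 hx
    have h2 : dI k' x = dI k' x0 := dI_eq_of_le (by exact_mod_cast hk) h1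
    simp only [mn, cen_eq h1, cen_eq h2, h1, h2]
    ring
  have e2 : ∫ x in dInt k (dI k x0), A * A * (2 ^ k / 2 ^ k') * (|α k (dI k x)| * |α' k' (dI k' x)|) =
      ∫ x in dInt k (dI k x0), A * A * (2 ^ k / 2 ^ k') * (|α k (dI k x0)| * |α' k' (dI k' x0)|) := by
    refine setIntegral_congr_fun hm fun x hx => ?_
    have h1 := mem_dInt.1 hx
    have h2 : dI k' x = dI k' x0 := dI_eq_of_le (by exact_mod_cast hk) h1
    simp only [h1, h2]
  rw [e1, e2, ← Real.norm_eq_abs]
  refine norm_integral_le_of_norm_le ((Bm.const _).intOn _ _)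
    (ae_restrict_of_forall_mem hm fun x hx => ?_)
  have h1 := (abs_sub_lt_of_dI_eq (mem_dInt.1 hx)).le
  rw [zpow_natCast] at h1
  have h2 : |b ((x - cen k' x0) / 2 ^ k') - b ((x0 - cen k' x0) / 2 ^ k')| ≤ A * (2 ^ k / 2 ^ k') := by
    refine (hL _ _).trans (mul_le_mul_of_nonneg_left ?_ (by linarith))
    rw [← sub_div, sub_sub_sub_cancel_right, abs_div, abs_of_pos hk1]
    exact div_le_div_of_nonneg_right h1 hk1.le
  have h3 := mul_le_mul (hA ((x - cen k x0) / 2 ^ k)) h2 (abs_nonneg _) (by linarith)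
  rw [Real.norm_eq_abs, show ∀ a p q r : ℝ, a * (p * q) - a * r * p = p * (q - r) * a from
    fun a p q r => by ring, abs_mul, abs_mul, abs_mul, mul_assoc A A]
  exact mul_le_mul_of_nonneg_right h3 (by positivity)

end Crest.Agent.R87.I2
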