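import Crest.Agent.R87.IBas

/-! # R87 / IOut : summing the decay over the steep terms (aux prefix `io_`) -/

set_option autoImplicit false
set_option linter.unusedVariables false

namespace Crest.Agent.R87.I2

open MeasureTheory Set
open scoped ENNReal

variable {b ψ : ℝ → ℝ} {u : P2 → ℝ} {G : Set P2} {g : P2 → ℝ}

/-- Fubini (`integral_integral_swap`; bounded integrand on sets of finite measure) -/
theorem integral_phL_mul (hb : IsB b) (hψ : IsPsi ψ) (hu : Measurable u) (hG : Bornology.IsBounded G)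
    {O : ℕ → Set P2} (hOG : ∀ k, O k ⊆ G) (hg : Coef g) (s β : ℝ) (k : ℕ) (k0 m0 : ℤ) {H : ℝ → ℝ}
    (hH : Bm H) : ∫ x in dInt k0 m0, phL b ψ u O g s β k x * H x =
      ∫ z in O k, g z * ∫ x in dInt k0 m0, ker b ψ u k z (x, β + s * x) * H x := by
  obtain ⟨A, -, hA, -⟩ := hb.exists_lip
  obtain ⟨B, -, hB, -⟩ := hψ.exists_lip
  obtain ⟨L, hL⟩ := hH.bdd
  have : IsFiniteMeasure (volume.restrict (O k)) :=
    isFiniteMeasure_restrict.2 (hG.subset (hOG k)).measure_lt_top.ne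
  have : IsFiniteMeasure (volume.restrict (dInt k0 m0)) :=
    isFiniteMeasure_restrict.2 (by rw [volume_dInt]; exact ENNReal.ofReal_ne_top)
  have hm : Measurable fun p : ℝ × P2 => g p.2 * (ker b ψ u k p.2 (p.1, β + s * p.1) * H p.1) := by
    refine (hg.meas.comp measurable_snd).mul (Measurable.mul ?_ (hH.meas.comp measurable_fst))
    have h1 : Measurable fun p : ℝ × P2 => ((p.2, (p.1, β + s * p.1)) : P2 × P2) := by fun_prop
    exact (measurable_ker hb hψ hu k).comp h1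
  have hi : Integrable (Function.uncurry fun (x : ℝ) (z : P2) => g z * (ker b ψ u k z (x, β + s * x) * H x))
      ((volume.restrict (dInt k0 m0)).prod (volume.restrict (O k))) := by
    refine Integrable.of_bound hm.aestronglyMeasurable (A * B / 2 ^ k * L) (ae_of_all _ fun p => ?_)
    show |g p.2 * (ker b ψ u k p.2 (p.1, β + s * p.1) * H p.1)| ≤ _
    refine (api2_coef_le hg _ _).trans ?_
    rw [abs_mul]
    exact mul_le_mul (api2_ker_le hA hB u k _ _) (hL _) (abs_nonneg _)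
      ((abs_nonneg _).trans (api2_ker_le hA hB u k p.2 p.2))
  have h1 := integral_integral_swap hi
  simp only [integral_const_mul] at h1
  rw [← h1]
  refine integral_congr_ae (ae_of_all _ fun x => ?_)
  show (∫ z in O k, g z * ker b ψ u k z (x, β + s * x)) * H x = _
  rw [← integral_mul_const]
  simp only [mul_assoc]

theorem io_shear {F : ℝ → ℝ} (hF : Bm F) (k0 m0 : ℤ) (s β : ℝ) :
    Integrable (fun z : P2 => (dInt k0 m0).indicator F z.1 * (1 + (β - (z.2 - s * z.1)) ^ 2)⁻¹) ∧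
    ∫ z : P2, (dInt k0 m0).indicator F z.1 * (1 + (β - (z.2 - s * z.1)) ^ 2)⁻¹ =
      (∫ x in dInt k0 m0, F x) * Real.pi := by
  have hφ := measurePreserving_shear (-s)
  have h1 : Integrable ((dInt k0 m0).indicator F) :=
    (integrable_indicator_iff (measurableSet_dInt _ _)).2 (hF.intOn k0 m0)
  have h2 : Integrable fun y : ℝ => (1 + (β - y) ^ 2)⁻¹ :=
    Integrable.comp_sub_left (f := fun x : ℝ => (1 + x ^ 2)⁻¹) integrable_inv_one_add_sq β
  have hP : Integrable (fun z : P2 => (dInt k0 m0).indicator F z.1 * (1 + (β - z.2) ^ 2)⁻¹) :=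
    h1.mul_prod h2
  have e : (fun z : P2 => (dInt k0 m0).indicator F z.1 * (1 + (β - (z.2 - s * z.1)) ^ 2)⁻¹) =
      (fun z : P2 => (dInt k0 m0).indicator F z.1 * (1 + (β - z.2) ^ 2)⁻¹) ∘
        fun z : P2 => ((z.1, z.2 + -s * z.1) : P2) := by
    funext z
    simp only [Function.comp, neg_mul, ← sub_eq_add_neg]
  rw [e]
  refine ⟨hφ.integrable_comp_of_integrable hP, ?_⟩
  have h3 := integral_map (μ := volume) hφ.measurable.aemeasurable
    (f := fun z : P2 => (dInt k0 m0).indicator F z.1 * (1 + (β - z.2) ^ 2)⁻¹)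
    (by rw [hφ.map_eq]; exact hP.aestronglyMeasurable)
  rw [hφ.map_eq] at h3
  refine h3.symm.trans ?_
  have h4 := integral_prod_mul (μ := (volume : Measure ℝ)) (ν := (volume : Measure ℝ))
    ((dInt k0 m0).indicator F) (fun y : ℝ => (1 + (β - y) ^ 2)⁻¹)
  refine h4.trans ?_
  rw [integral_indicator (measurableSet_dInt _ _),
    integral_sub_left_eq_self (fun x : ℝ => (1 + x ^ 2)⁻¹) volume β, integral_univ_inv_one_add_sq]

theorem io_point (hb : IsB b) (hψ : IsPsi ψ) {s β ρ : ℝ} (hρ : 1 ≤ ρ) {k k0 : ℕ} (hk : k ≤ k0) (m0 : ℤ) {z : P2}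
    (hv : ρ < vv u s k z) {N : ℕ} {H F : ℝ → ℝ} (hF0 : ∀ x, 0 ≤ F x)
    (h : |∫ x, ker b ψ u k z (x, β + s * x) * H x| ≤ F z.1 / vv u s k z ^ (N + 2)) :
    |∫ x in dInt k0 m0, ker b ψ u k z (x, β + s * x) * H x| ≤
      (dInt k0 m0).indicator F z.1 * (1 + (β - (z.2 - s * z.1)) ^ 2)⁻¹ * (5 * (1 / vv u s k z ^ N)) := by
  have hv0 : 0 < vv u s k z := by linarith
  have hk' : (k : ℤ) ≤ k0 := by exact_mod_cast hk
  by_cases hex : ∃ x ∈ dInt k0 m0, ker b ψ u k z (x, β + s * x) ≠ 0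
  · obtain ⟨x, hx, hne⟩ := hex
    obtain ⟨e1, e2⟩ := ker_ne_zero hb hψ hne
    have hz : z.1 ∈ dInt k0 m0 := by
      rw [mem_dInt] at hx ⊢
      rw [← hx]
      exact (dI_eq_of_le hk' e1).symm
    have e3 : ∫ x in dInt k0 m0, ker b ψ u k z (x, β + s * x) * H x = ∫ x, ker b ψ u k z (x, β + s * x) * H x := by
      refine setIntegral_eq_integral_of_forall_compl_eq_zero fun y hy => ?_
      by_contra hne'
      have h1 := (ker_ne_zero hb hψ (left_ne_zero_of_mul hne')).1
      refine hy ?_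
      rw [mem_dInt] at hz ⊢
      rw [← hz]
      exact dI_eq_of_le hk' h1
    rw [e3, indicator_of_mem hz]
    refine h.trans ?_
    have e4 : |x - z.1| < 2 ^ k := by
      have := abs_sub_lt_of_dI_eq e1
      rwa [zpow_natCast] at this
    have e5 : |(z.1 - x) * (u z - s)| ≤ vv u s k z := by
      rw [abs_mul, abs_sub_comm]
      exact mul_le_mul_of_nonneg_right e4.le (abs_nonneg _)
    have e6 : |β - (z.2 - s * z.1)| ≤ 2 * vv u s k z := by
      have e7 : β - (z.2 - s * z.1) = (β + s * x - z.2 + (z.1 - x) * u z) - (z.1 - x) * (u z - s) := by ring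
      rw [e7]
      refine (abs_sub _ _).trans ?_
      have e8 : |β + s * x - z.2 + (z.1 - x) * u z| ≤ 1 := e2
      linarith
    have e7 : 1 + (β - (z.2 - s * z.1)) ^ 2 ≤ 5 * vv u s k z ^ 2 := by
      have := sq_le_sq' (abs_le.1 e6).1 (abs_le.1 e6).2
      nlinarith
    have e8 : F z.1 / vv u s k z ^ (N + 2) = F z.1 * (5 * vv u s k z ^ 2)⁻¹ * (5 * (1 / vv u s k z ^ N)) := by
      field_simp
      ring
    rw [e8]
    have := hF0 z.1
    gcongr
  · push Not at hex
    rw [setIntegral_eq_zero_of_forall_eq_zero (fun x hx => by rw [hex x hx, zero_mul]), abs_zero]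
    have : 0 ≤ (dInt k0 m0).indicator F z.1 := indicator_nonneg (fun x _ => hF0 x) _
    positivity

/-- `integral_phL_mul`.  The inner integral vanishes unless `z.1 ∈ I0` and `|γ| ≤ v + 1` (`ker_ne_zero`, `ker_line`), and then it
is the integral over `ℝ`; `1 + γ² ≤ 5 v²`, `geom_gt`, so the sum over `k` is at most
`∫ 1_{I0}(x) F(x) (10/ρ^N) (1 + γ²)⁻¹ dz = (10π/ρ^N) ∫_{I0} F` (`measurePreserving_shear`, `integral_prod_mul`,
`integral_univ_inv_one_add_sq`). -/
theorem outer_sum (hb : IsB b) (hψ : IsPsi ψ) (hu : Measurable u) (hG : Bornology.IsBounded G)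
    {O : ℕ → Set P2} (hO : ∀ k, MeasurableSet (O k)) (hOG : ∀ k, O k ⊆ G) (hg : Coef g) {s β ρ : ℝ}
    (hρ : 1 ≤ ρ) (hv : ∀ k z, z ∈ O k → ρ < vv u s k z) {N : ℕ} (hN : 1 ≤ N) (k0 : ℕ) (m0 : ℤ)
    {H : ℕ → ℝ → ℝ} (hH : ∀ k, Bm (H k)) {F : ℝ → ℝ} (hF : Bm F) (hF0 : ∀ x, 0 ≤ F x)
    (h : ∀ k, k ≤ k0 → ∀ z ∈ O k,
      |∫ x, ker b ψ u k z (x, β + s * x) * H k x| ≤ F z.1 / vv u s k z ^ (N + 2)) :
    |∫ x in dInt k0 m0, ∑ k ∈ Finset.range (k0 + 1), phL b ψ u O g s β k x * H k x| ≤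
      40 / ρ ^ N * ∫ x in dInt k0 m0, F x := by
  obtain ⟨hWi, hW⟩ := io_shear hF k0 m0 s β
  set W : P2 → ℝ := fun z => (dInt k0 m0).indicator F z.1 * (1 + (β - (z.2 - s * z.1)) ^ 2)⁻¹ with hWdef
  have hW0 : ∀ z, 0 ≤ W z := fun z => by
    have : 0 ≤ (dInt k0 m0).indicator F z.1 := indicator_nonneg (fun x _ => hF0 x) _
    show 0 ≤ (dInt k0 m0).indicator F z.1 * (1 + (β - (z.2 - s * z.1)) ^ 2)⁻¹
    positivity
  set c : ℕ → P2 → ℝ := fun k z => if ρ < vv u s k z then 1 / vv u s k z ^ N else 0 with hcdef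
  have hc0 : ∀ k z, 0 ≤ c k z := fun k z => by
    have := vv_nonneg u s k z
    show 0 ≤ if ρ < vv u s k z then 1 / vv u s k z ^ N else 0
    split_ifs
    · positivity
    · exact le_rfl
  have hc1 : ∀ k z, c k z ≤ 1 := fun k z => by
    show (if ρ < vv u s k z then 1 / vv u s k z ^ N else 0) ≤ 1
    split_ifs with h1
    · rw [div_le_one (pow_pos (by linarith) _)]
      exact one_le_pow₀ (by linarith)
    · exact zero_le_one
  have hcm : ∀ k, Measurable (c k) := fun k =>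
    Measurable.ite (measurableSet_lt measurable_const (measurable_vv hu s k))
      (measurable_const.div ((measurable_vv hu s k).pow_const N)) measurable_const
  have hWc : ∀ k, Integrable fun z => W z * (5 * c k z) := fun k =>
    hWi.mul_bdd (c := 5) ((hcm k).const_mul 5).aestronglyMeasurable (ae_of_all _ fun z => by
      rw [Real.norm_eq_abs, abs_of_nonneg (mul_nonneg (by norm_num) (hc0 k z))]
      linarith [hc1 k z])
  rw [integral_finsetSum _ fun k _ => ((bm_phL hb hψ hu hG hOG hg s β k).mul (hH k)).intOn _ _]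
  refine (Finset.abs_sum_le_sum_abs _ _).trans ?_
  have h1 : ∀ k ∈ Finset.range (k0 + 1), |∫ x in dInt k0 m0, phL b ψ u O g s β k x * H k x| ≤
      ∫ z, W z * (5 * c k z) := by
    intro k hk
    have hk' : k ≤ k0 := Nat.lt_succ_iff.1 (Finset.mem_range.1 hk)
    rw [integral_phL_mul hb hψ hu hG hOG hg s β k k0 m0 (hH k)]
    refine le_trans ?_ (setIntegral_le_integral (s := O k) (hWc k)
      (ae_of_all _ fun z => mul_nonneg (hW0 z) (mul_nonneg (by norm_num) (hc0 k z))))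
    rw [← Real.norm_eq_abs]
    refine norm_integral_le_of_norm_le (hWc k).integrableOn ?_
    refine (ae_restrict_iff' (hO k)).2 (ae_of_all _ fun z hz => ?_)
    rw [Real.norm_eq_abs]
    refine (api2_coef_le hg _ _).trans ?_
    refine (io_point hb hψ hρ hk' m0 (hv k z hz) hF0 (h k hk' z hz)).trans (le_of_eq ?_)
    show _ = W z * (5 * if ρ < vv u s k z then 1 / vv u s k z ^ N else 0)
    rw [if_pos (hv k z hz)]
  refine (Finset.sum_le_sum h1).trans ?_
  rw [← integral_finsetSum _ fun k _ => hWc k]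
  have hρ0 : 0 < ρ := by linarith
  have h2 : ∫ z, ∑ k ∈ Finset.range (k0 + 1), W z * (5 * c k z) ≤ ∫ z, W z * (10 / ρ ^ N) := by
    refine integral_mono (integrable_finsetSum _ fun k _ => hWc k) (hWi.mul_const _) fun z => ?_
    show ∑ k ∈ Finset.range (k0 + 1), W z * (5 * c k z) ≤ W z * (10 / ρ ^ N)
    rw [← Finset.mul_sum, ← Finset.mul_sum]
    refine mul_le_mul_of_nonneg_left ?_ (hW0 z)
    have h3 := geom_gt (abs_nonneg (u z - s)) hρ0 hN (k0 + 1)
    have h4 : ∑ k ∈ Finset.range (k0 + 1), c k z ≤ 2 / ρ ^ N := h3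
    have h5 : 10 / ρ ^ N = 5 * (2 / ρ ^ N) := by ring
    rw [h5]
    linarith
  refine h2.trans ?_
  rw [integral_mul_const, hW]
  have h3 : 0 ≤ ∫ x in dInt k0 m0, F x := integral_nonneg fun x => hF0 x
  have h4 : Real.pi ≤ 4 := Real.pi_le_four
  have h5 : 0 < 10 / ρ ^ N := by positivity
  calc (∫ x in dInt k0 m0, F x) * Real.pi * (10 / ρ ^ N) ≤ (∫ x in dInt k0 m0, F x) * 4 * (10 / ρ ^ N) := by
        gcongr
    _ = _ := by ring

end Crest.Agent.R87.I2
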