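import Crest.Agent.R87.IPair1

/-! # R87 / IPair : one steep term against a tree (aux prefix `ip_`) -/

set_option autoImplicit false
set_option linter.unusedVariables false

namespace Crest.Agent.R87.I2

open MeasureTheory Set
open scoped ENNReal

variable {b Ψ : ℝ → ℝ}

theorem ip_int {ψ : ℝ → ℝ} (hb : IsB b) (hψ : IsPsi ψ) (u : P2 → ℝ) (k : ℕ) (z : P2) (s β : ℝ) :
    Integrable fun x => ker b ψ u k z (x, β + s * x) := by
  obtain ⟨A, -, hA, -⟩ := hb.exists_lip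
  obtain ⟨A', -, hA', -⟩ := hψ.exists_lip
  have cb := hb.smooth.continuous
  have cψ := hψ.smooth.continuous
  have h : Bm fun x => ker b ψ u k z (x, β + s * x) := by
    simp only [ker_line]
    exact (Bm.const_mul _ ⟨by fun_prop, A, fun x => hA _⟩).mul ⟨by fun_prop, A', fun x => hA' _⟩
  refine (h.intOn k (dI k z.1)).integrable_of_forall_notMem_eq_zero fun x hx => ?_
  by_contra hc
  exact hx (mem_dInt.2 (ker_ne_zero hb hψ hc).1)

/-- `er_eq` (where the kernel does not vanish `dI k' x = dI k' z.1`), Fubini, then `abs_integral_le_ps`: for each `z'`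
apply `ker_decay` (`Λ = ϑ` in the first case, `Λ = 1` in the second) to
`f x = b((x - c')/2^k') (ψ(γ' + (z'.1 - x) θ') - ψ(γ'))` (`Sm.aff`, `Sm.aff_sub` with `x0 = z'.1`, `e = -θ'`,
`η = vv u s k' z'`, `Sm.mul`); `f` vanishes on `cI k z.1` if `|γ'| > ϑ + 1`. -/
theorem pair_er (hb : IsB b) (hΨ : IsPsi Ψ) {N m : ℕ} (hN : 1 ≤ N) (hm : 2 * N ≤ m) :
    ∃ C : ℝ, 1 ≤ C ∧ ∀ {u : P2 → ℝ} {G : Set P2} {S : ℕ → Set P2} {g : P2 → ℝ}, Measurable u →
      Bornology.IsBounded G → Fam G S → Coef g → ∀ (s β ϑ : ℝ), 1 ≤ ϑ →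
      (∀ k z, z ∈ S k → 2 ^ k * |u z - s| ≤ ϑ) → ∀ (k k' : ℕ) (z : P2), k ≤ k' → 1 ≤ vv u s k z →
      (ϑ ^ 2 ≤ vv u s k z ∨ ϑ * 2 ^ k ≤ 2 ^ k') →
      |∫ x, ker b (iteratedDeriv m Ψ) u k z (x, β + s * x) * er b (iteratedDeriv m Ψ) u S g s β k' x| ≤
        C * (ϑ * ps u S s β ϑ k' z.1) / vv u s k z ^ N := by
  obtain ⟨C0, hC0, hdec⟩ := ker_decay hb hΨ hm
  have hψ := hΨ.iter m
  set ψ := iteratedDeriv m Ψ with hψd
  obtain ⟨A, hA1, hA⟩ := hb.exists_bound (2 * N)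
  obtain ⟨A', hA1', hA'⟩ := hψ.exists_bound (2 * N)
  have cb := hb.smooth.continuous
  have cψ := hψ.smooth.continuous
  have hA0 : ∀ y, |b y| ≤ A := fun y => by simpa using hA 0 (Nat.zero_le _) y
  have hA0' : ∀ y, |ψ y| ≤ A' := fun y => by simpa using hA' 0 (Nat.zero_le _) y
  refine ⟨C0 * (2 ^ (2 * N) * A * A'), one_le_mul_of_one_le_of_one_le hC0
    (one_le_mul_of_one_le_of_one_le (one_le_mul_of_one_le_of_one_le (one_le_pow₀ one_le_two) hA1) hA1'), ?_⟩
  intro u G S g hu hG hS hg s β ϑ hϑ hr k k' z hk hv hcase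
  set D : Set P2 := S k' ∩ {w : P2 | dI k' w.1 = dI k' z.1} with hD
  let f : P2 → ℝ → ℝ := fun w x => b ((x - cen k' z.1) / 2 ^ k') *
    (ψ (β - (w.2 - s * w.1) + (w.1 - x) * (u w - s)) - ψ (β - (w.2 - s * w.1)))
  have hkk : ∀ x, ker b ψ u k z (x, β + s * x) ≠ 0 → dI k' x = dI k' z.1 := fun x hx =>
    dI_eq_of_le (by exact_mod_cast hk) (ker_ne_zero hb hψ hx).1
  have e1 : ∀ x, ker b ψ u k z (x, β + s * x) * er b ψ u S g s β k' x =
      ∫ w in D, ker b ψ u k z (x, β + s * x) * (g w * (((2 : ℝ) ^ k')⁻¹ * haar k' w.1) * f w x) := by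
    intro x
    rw [integral_const_mul]
    by_cases hx : ker b ψ u k z (x, β + s * x) = 0
    · rw [hx, zero_mul, zero_mul]
    · rw [er_eq hb hψ hu hG hS hg, hkk x hx, cen_eq (hkk x hx)]
      congr 2
      funext w
      simp only [f]; ring
  have hDf : volume D ≠ ∞ := (hG.subset fun w hw => hS.sub k' hw.1).measure_lt_top.ne
  have : IsFiniteMeasure (volume.restrict D) := isFiniteMeasure_restrict.2 hDf
  have p0 : (0 : ℝ) < 2 ^ k := by positivity
  have p0' : (0 : ℝ) < 2 ^ k' := by positivity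
  have hI : Integrable (Function.uncurry fun (x : ℝ) (w : P2) => ker b ψ u k z (x, β + s * x) *
      (g w * (((2 : ℝ) ^ k')⁻¹ * haar k' w.1) * f w x)) (volume.prod (volume.restrict D)) := by
    have hm1 : Measurable fun p : ℝ × P2 => g p.2 * (((2 : ℝ) ^ k')⁻¹ * haar k' p.2.1) * f p.2 p.1 := by
      have a1 := hg.meas
      have a2 := measurable_haar (k' : ℤ)
      have a3 := cb.measurable
      have a4 := cψ.measurable
      simp only [f]
      fun_prop
    refine ((ip_int hb hψ u k z s β).comp_fst _).mul_bdd (c := 1 * (((2 : ℝ) ^ k')⁻¹ * 1) * (A * (A' + A')))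
      hm1.aestronglyMeasurable (Filter.Eventually.of_forall fun p => ?_)
    simp only [f, Real.norm_eq_abs, abs_mul, abs_haar, abs_inv, abs_of_pos p0']
    gcongr
    · exact hg.bdd _
    · exact hA0 _
    · exact (abs_sub _ _).trans (add_le_add (hA0' _) (hA0' _))
  simp only [e1]
  rw [integral_integral_swap hI]
  have hv0 : 0 < vv u s k z ^ N := by positivity
  obtain ⟨Λ, hΛ1, hΛ2, hΛ3⟩ : ∃ Λ : ℝ, 1 ≤ Λ ∧ Λ ^ 2 ≤ vv u s k z ∧ ϑ * 2 ^ k ≤ Λ * 2 ^ k' := by
    rcases hcase with h | h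
    · exact ⟨ϑ, hϑ, h, mul_le_mul_of_nonneg_left (pow_le_pow_right₀ one_le_two hk) (by linarith)⟩
    · exact ⟨1, le_rfl, by simpa using hv, by linarith⟩
  have hkk' : (2 : ℝ) ^ k ≤ Λ * 2 ^ k' :=
    (pow_le_pow_right₀ one_le_two hk).trans (le_mul_of_one_le_left p0'.le hΛ1)
  have e2 : ∀ w, ∫ x, ker b ψ u k z (x, β + s * x) * (g w * (((2 : ℝ) ^ k')⁻¹ * haar k' w.1) * f w x) =
      g w * (((2 : ℝ) ^ k')⁻¹ * haar k' w.1) * ∫ x, ker b ψ u k z (x, β + s * x) * f w x := by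
    intro w
    rw [← integral_const_mul]
    congr 1; funext x; ring
  refine (abs_integral_le_ps hu hG hS hϑ hr β k' z.1
    (c := C0 * (2 ^ (2 * N) * A * A') / vv u s k z ^ N) (by positivity) ?_ ?_).trans (le_of_eq (by ring))
  · intro w hw hw'
    have hη := vv_nonneg u s k' w
    have h1 : Sm (2 * N) (cI k z.1) (Λ / 2 ^ k) A fun x => b (-cen k' z.1 / 2 ^ k' + ((2 : ℝ) ^ k')⁻¹ * x) :=
      Sm.aff (hb.smooth.of_le (WithTop.coe_le_coe.2 le_top)) hA (by
        rw [abs_of_pos (by positivity), inv_eq_one_div, div_le_div_iff₀ p0' p0]; linarith)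
    have h2 : Sm (2 * N) (cI k z.1) (Λ / 2 ^ k) (A' * vv u s k' w) fun x =>
        ψ ((β - (w.2 - s * w.1) + w.1 * (u w - s)) + -(u w - s) * x) -
          ψ ((β - (w.2 - s * w.1) + w.1 * (u w - s)) + -(u w - s) * w.1) := by
      refine Sm.aff_sub (by omega) (hψ.smooth.of_le (WithTop.coe_le_coe.2 le_top)) hA' ?_ ?_ fun x hx => ?_
      · rw [abs_neg, le_div_iff₀ p0]
        have := mul_le_mul_of_nonneg_right (hr k' w hw) p0.le
        refine le_of_mul_le_mul_right ?_ p0'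
        linarith
      · rw [abs_neg, ← mul_div_assoc, le_div_iff₀ p0, vv]
        have := mul_le_mul_of_nonneg_left hkk' (abs_nonneg (u w - s))
        linarith
      · rw [abs_neg, vv, mul_comm]
        exact mul_le_mul_of_nonneg_right (abs_sub_le_of_mem_cI (cI_subset hk _ hx) (mem_cI hw')) (abs_nonneg _)
    have h3 := Sm.mul (by positivity) (by positivity) (by positivity) h1 h2
    have e3 : f w = fun x => b (-cen k' z.1 / 2 ^ k' + ((2 : ℝ) ^ k')⁻¹ * x) *
        (ψ ((β - (w.2 - s * w.1) + w.1 * (u w - s)) + -(u w - s) * x) -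
          ψ ((β - (w.2 - s * w.1) + w.1 * (u w - s)) + -(u w - s) * w.1)) := by
      funext x
      simp only [f]
      congr 3 <;> ring
    have h4 := hdec u k z s β Λ _ (f w) hΛ1 hΛ2 (by positivity) (e3 ▸ h3)
    rw [e2, abs_mul, abs_mul, abs_mul, abs_haar, abs_of_pos (inv_pos.2 p0')]
    calc |g w| * (((2 : ℝ) ^ k')⁻¹ * 1) * |∫ x, ker b ψ u k z (x, β + s * x) * f w x|
        ≤ 1 * (((2 : ℝ) ^ k')⁻¹ * 1) * (C0 * (2 ^ (2 * N) * A * (A' * vv u s k' w)) / vv u s k z ^ N) := by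
          gcongr; exact hg.bdd _
      _ = _ := by ring
  · intro w hw hw' hγ
    rw [e2]
    refine mul_eq_zero_of_right _ (integral_eq_zero_of_ae (Filter.Eventually.of_forall fun x => ?_))
    by_cases hx : ker b ψ u k z (x, β + s * x) = 0
    · simp only [hx, zero_mul, Pi.zero_apply]
    · have a1 : |(w.1 - x) * (u w - s)| ≤ ϑ := by
        rw [abs_mul]
        exact (mul_le_mul_of_nonneg_right (abs_sub_le_of_mem_cI (mem_cI hw') (mem_cI (hkk x hx)))
          (abs_nonneg _)).trans (hr k' w hw)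
      have a2 : |β - (w.2 - s * w.1)| = |w.2 - s * w.1 - β| := abs_sub_comm _ _
      have a3 := abs_sub (β - (w.2 - s * w.1) + (w.1 - x) * (u w - s)) ((w.1 - x) * (u w - s))
      rw [add_sub_cancel_right] at a3
      simp only [f, Pi.zero_apply]
      rw [hψ.supp _ (by linarith), hψ.supp (β - (w.2 - s * w.1)) (by linarith), sub_zero, mul_zero, mul_zero]

end Crest.Agent.R87.I2
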