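import Crest.Agent.R87.IDens
import Crest.Agent.R87.IInner
import Crest.Agent.R87.IOut
import Crest.Agent.R87.IPair

/-! # R87 / ILine : the bound on one line (aux prefix `il_`) -/

set_option autoImplicit false
set_option linter.unusedVariables false

namespace Crest.Agent.R87.I2

open MeasureTheory Set
open scoped ENNReal

variable {b ψ Ψ : ℝ → ℝ} {u : P2 → ℝ} {G : Set P2} {g : P2 → ℝ}

theorem il_step (A E p : ℕ → ℝ) {c : ℝ} (hc : 0 ≤ c) (k0 ι : ℕ) (hA : ∀ k, k ≤ k0 → |A k| ≤ c)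
    (hE : ∀ k, |E k| ≤ p k) :
    |∑ k ∈ Finset.range (k0 + 1), A k * ∑ k' ∈ Finset.Icc (k + ι) k0, E k' -
        ∑ k ∈ Finset.range (k0 + 1), A k * ∑ k' ∈ Finset.Icc (k + (ι + 1)) k0, E k'| ≤
      c * ∑ k ∈ Finset.range (k0 + 1), p k := by
  have hp : ∀ k, 0 ≤ p k := fun k => (abs_nonneg _).trans (hE k)
  have e : ∀ k, ∑ k' ∈ Finset.Icc (k + ι) k0, E k' - ∑ k' ∈ Finset.Icc (k + (ι + 1)) k0, E k' =
      if k + ι ≤ k0 then E (k + ι) else 0 := by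
    intro k
    split_ifs with h
    · rw [← Finset.insert_Icc_add_one_left_eq_Icc h, Finset.sum_insert (by simp)]
      simp [add_assoc]
    · rw [Finset.Icc_eq_empty (by omega), Finset.Icc_eq_empty (by omega)]; simp
  rw [← Finset.sum_sub_distrib]
  simp_rw [← mul_sub, e]
  calc |∑ k ∈ Finset.range (k0 + 1), A k * if k + ι ≤ k0 then E (k + ι) else 0|
      ≤ ∑ k ∈ Finset.range (k0 + 1), |A k * if k + ι ≤ k0 then E (k + ι) else 0| :=
        Finset.abs_sum_le_sum_abs _ _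
    _ ≤ ∑ k ∈ Finset.range (k0 + 1), c * if k + ι ≤ k0 then p (k + ι) else 0 := by
        refine Finset.sum_le_sum fun k hk => ?_
        rw [abs_mul]
        refine mul_le_mul (hA k (by simpa [Nat.lt_succ_iff] using hk)) ?_ (abs_nonneg _) hc
        split_ifs
        · exact hE _
        · simp
    _ ≤ c * ∑ k ∈ Finset.range (k0 + 1), p k := by
        rw [← Finset.mul_sum, ← Finset.sum_filter]
        refine mul_le_mul_of_nonneg_left ?_ hc
        rw [← Finset.sum_image (s := (Finset.range (k0 + 1)).filter fun k => k + ι ≤ k0)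
          (g := fun k => k + ι) (f := p) (fun a _ b _ h => by simpa using h)]
        refine Finset.sum_le_sum_of_subset_of_nonneg ?_ fun i _ _ => hp i
        intro i hi
        simp only [Finset.mem_image, Finset.mem_filter, Finset.mem_range] at hi ⊢
        obtain ⟨k, ⟨_, h⟩, rfl⟩ := hi
        omega

theorem il_near (A E p : ℕ → ℝ) {c : ℝ} (hc : 0 ≤ c) (k0 ι : ℕ) (hA : ∀ k, k ≤ k0 → |A k| ≤ c)
    (hE : ∀ k, |E k| ≤ p k) (n : ℕ) :
    |∑ k ∈ Finset.range (k0 + 1), A k * ∑ k' ∈ Finset.Icc (k + ι) k0, E k' -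
        ∑ k ∈ Finset.range (k0 + 1), A k * ∑ k' ∈ Finset.Icc (k + (ι + n)) k0, E k'| ≤
      c * n * ∑ k ∈ Finset.range (k0 + 1), p k := by
  induction n with
  | zero => simp
  | succ n ih =>
    have h := il_step A E p hc k0 (ι + n) hA hE
    have := abs_sub_le (∑ k ∈ Finset.range (k0 + 1), A k * ∑ k' ∈ Finset.Icc (k + ι) k0, E k')
      (∑ k ∈ Finset.range (k0 + 1), A k * ∑ k' ∈ Finset.Icc (k + (ι + n)) k0, E k')
      (∑ k ∈ Finset.range (k0 + 1), A k * ∑ k' ∈ Finset.Icc (k + (ι + n + 1)) k0, E k')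
    rw [show ι + (n + 1) = ι + n + 1 from rfl]
    push_cast
    linarith

theorem il_int_ker (hb : IsB b) (hψ : IsPsi ψ) (hu : Measurable u) (k : ℕ) (z : P2) (s β : ℝ)
    {H : ℝ → ℝ} (hH : Bm H) : Integrable fun x => ker b ψ u k z (x, β + s * x) * H x := by
  obtain ⟨A, -, hA, -⟩ := hb.exists_lip
  obtain ⟨B, -, hB, -⟩ := hψ.exists_lip
  have h1 : Bm fun x => ker b ψ u k z (x, β + s * x) := by
    refine ⟨?_, A * B / 2 ^ k, fun x => api2_ker_le hA hB u k z _⟩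
    exact (measurable_ker hb hψ hu k).comp
      (f := fun x : ℝ => ((z, (x, β + s * x)) : P2 × P2)) (by fun_prop)
  refine ((h1.mul hH).intOn k (dI k z.1)).integrable_of_forall_notMem_eq_zero fun x hx => ?_
  by_contra h
  exact hx (mem_dInt.2 (ker_ne_zero hb hψ (left_ne_zero_of_mul h)).1)

theorem il_bm_er (hb : IsB b) (hψ : IsPsi ψ) (hu : Measurable u) (hG : Bornology.IsBounded G)
    {S : ℕ → Set P2} (hS : Fam G S) (hg : Coef g) (s β : ℝ) (k : ℕ) : Bm (er b ψ u S g s β k) := by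
  obtain ⟨A, -, hA, -⟩ := hψ.exists_lip
  exact (bm_phL hb hψ hu hG hS.sub hg s β k).sub
    (bm_mn hb (fun k m => abs_alpha_le hψ hA hS.meas hg s β k m) k)

/-- steep terms against the main parts -/
theorem il_outer_mn (hb : IsB b) (hΨ : IsPsi Ψ) {N m : ℕ} (hN : 1 ≤ N) (hm : 2 * (N + 2) ≤ m) :
    ∃ C : ℝ, 0 ≤ C ∧ ∀ {u : P2 → ℝ} {G : Set P2} {O : ℕ → Set P2} {g : P2 → ℝ}, Measurable u →
      Bornology.IsBounded G → (∀ k, MeasurableSet (O k)) → (∀ k, O k ⊆ G) → Coef g →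
      ∀ {s β ρ : ℝ}, 1 ≤ ρ → (∀ k z, z ∈ O k → ρ < vv u s k z) →
      ∀ {k0 : ℕ} {m0 : ℤ} {α : ℕ → ℤ → ℝ} {E p : ℕ → ℝ → ℝ} {a L : ℝ}, Dec b k0 m0 α E p a →
      (∀ k m, |α k m| ≤ L) → ∀ ι : ℕ,
      |∫ x in dInt k0 m0, par ι k0 (phL b (iteratedDeriv m Ψ) u O g s β) (mn b α) x| ≤
        C * (a + L) / ρ ^ N * 2 ^ k0 := by
  obtain ⟨C, hC1, hC⟩ := pair_mn hb hΨ (N := N + 2) (m := m) (by omega) hm
  refine ⟨40 * C, by positivity, ?_⟩
  intro u G O g hu hG hO hOG hg s β ρ hρ hv k0 m0 α E p a L hD hL ι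
  have hL0 : 0 ≤ L := (abs_nonneg _).trans (hL 0 0)
  have hmx := bm_mx hb hL k0
  have hF : Bm fun x => C * (mx b α k0 x + L) := (hmx.add (Bm.const L)).const_mul C
  have h := outer_sum hb (hΨ.iter m) hu hG hO hOG hg (s := s) (β := β) hρ hv hN k0 m0
    (H := fun k x => ∑ k' ∈ Finset.Icc (k + ι) k0, mn b α k' x)
    (fun k => Bm.sum _ fun i _ => bm_mn hb hL i) hF
    (fun x => by have := mx_nonneg b α k0 x; positivity)
    (fun k hk z hz => hC u k z s β α L (k + ι) k0 hL (by omega) (hρ.trans (hv k z hz).le))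
  refine h.trans ?_
  have h2 : ∫ x in dInt k0 m0, C * (mx b α k0 x + L) ≤ C * ((a + L) * 2 ^ k0) := by
    rw [integral_const_mul, integral_add (hmx.intOn _ _) ((Bm.const L).intOn _ _), setIntegral_const,
      measureReal_dInt, smul_eq_mul]
    have := integral_le_of_pow4 hmx hD.pos hD.mx4
    refine mul_le_mul_of_nonneg_left ?_ (by linarith)
    linarith
  calc 40 / ρ ^ N * ∫ x in dInt k0 m0, C * (mx b α k0 x + L)
      ≤ 40 / ρ ^ N * (C * ((a + L) * 2 ^ k0)) := mul_le_mul_of_nonneg_left h2 (by positivity)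
    _ = _ := by ring

/-- steep terms against the errors -/
theorem il_outer_er (hb : IsB b) (hΨ : IsPsi Ψ) {N m : ℕ} (hN : 1 ≤ N) (hm : 2 * (N + 2) ≤ m) :
    ∃ C : ℝ, 0 ≤ C ∧ ∀ {u : P2 → ℝ} {G : Set P2} {O S : ℕ → Set P2} {g : P2 → ℝ}, Measurable u →
      Bornology.IsBounded G → (∀ k, MeasurableSet (O k)) → (∀ k, O k ⊆ G) → Coef g → Fam G S →
      ∀ {s β ρ ϑ : ℝ}, 1 ≤ ρ → (∀ k z, z ∈ O k → ρ < vv u s k z) → 1 ≤ ϑ →
      (∀ k z, z ∈ S k → 2 ^ k * |u z - s| ≤ ϑ) →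
      ∀ {k0 : ℕ} {m0 : ℤ} {α : ℕ → ℤ → ℝ} {E : ℕ → ℝ → ℝ} {a Ct : ℝ}, 1 ≤ Ct →
      Dec b k0 m0 α E (fun k x => Ct * ϑ * ps u S s β ϑ k x) a → ∀ ι : ℕ,
      (∀ k z, z ∈ O k → ∀ k', k + ι ≤ k' → ϑ ^ 2 ≤ vv u s k z ∨ ϑ * 2 ^ k ≤ 2 ^ k') →
      |∫ x in dInt k0 m0, par ι k0 (phL b (iteratedDeriv m Ψ) u O g s β)
          (er b (iteratedDeriv m Ψ) u S g s β) x| ≤ C * a / ρ ^ N * 2 ^ k0 := by
  obtain ⟨C, hC1, hC⟩ := pair_er hb hΨ (N := N + 2) (m := m) (by omega) hm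
  refine ⟨40 * C, by positivity, ?_⟩
  intro u G O S g hu hG hO hOG hg hS s β ρ ϑ hρ hv hϑ hr k0 m0 α E a Ct hCt hD ι hι
  have hψ := hΨ.iter m
  have her := il_bm_er hb hψ hu hG hS hg s β
  have hP : Bm fun x => ∑ k ∈ Finset.range (k0 + 1), Ct * ϑ * ps u S s β ϑ k x :=
    Bm.sum _ fun i _ => hD.bp i
  have hp0 : ∀ k x, 0 ≤ ps u S s β ϑ k x := fun k x => ps_nonneg u S s β hϑ k x
  have h := outer_sum hb hψ hu hG hO hOG hg (s := s) (β := β) hρ hv hN k0 m0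
    (H := fun k x => ∑ k' ∈ Finset.Icc (k + ι) k0, er b (iteratedDeriv m Ψ) u S g s β k' x)
    (fun k => Bm.sum _ fun i _ => her i) (hP.const_mul C)
    (fun x => mul_nonneg (by linarith) (Finset.sum_nonneg fun i _ => by
      have := hp0 i x; positivity)) ?_
  · refine h.trans ?_
    have h2 : ∫ x in dInt k0 m0, C * ∑ k ∈ Finset.range (k0 + 1), Ct * ϑ * ps u S s β ϑ k x ≤
        C * (a * 2 ^ k0) := by
      rw [integral_const_mul]
      exact mul_le_mul_of_nonneg_left (integral_le_of_pow4 hP hD.pos hD.p4) (by linarith)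
    calc 40 / ρ ^ N * ∫ x in dInt k0 m0, C * ∑ k ∈ Finset.range (k0 + 1), Ct * ϑ * ps u S s β ϑ k x
        ≤ 40 / ρ ^ N * (C * (a * 2 ^ k0)) := mul_le_mul_of_nonneg_left h2 (by positivity)
      _ = _ := by ring
  · intro k hk z hz
    have hv1 : 1 ≤ vv u s k z := hρ.trans (hv k z hz).le
    simp_rw [Finset.mul_sum (Finset.Icc (k + ι) k0)]
    rw [integral_finsetSum _ fun i _ => il_int_ker hb hψ hu k z s β (her i)]
    refine (Finset.abs_sum_le_sum_abs _ _).trans ?_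
    rw [Finset.mul_sum, Finset.sum_div]
    refine (Finset.sum_le_sum (g := fun i => C * (Ct * ϑ * ps u S s β ϑ i z.1) / vv u s k z ^ (N + 2))
      fun i hi => ?_).trans (Finset.sum_le_sum_of_subset_of_nonneg ?_ fun i _ _ => ?_)
    · have hi' := (Finset.mem_Icc.1 hi).1
      refine (hC hu hG hS hg s β ϑ hϑ hr k i z (by omega) hv1 (hι k z hz i hi')).trans ?_
      refine div_le_div_of_nonneg_right (mul_le_mul_of_nonneg_left ?_ (by linarith)) (by positivity)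
      have := hp0 i z.1
      have h3 : 0 ≤ ϑ * ps u S s β ϑ i z.1 := by positivity
      nlinarith
    · intro i hi
      have := (Finset.mem_Icc.1 hi).2
      simp only [Finset.mem_range]; omega
    · have := hp0 i z.1
      positivity

theorem il_par_left (ι k0 : ℕ) {A A1 A2 : ℕ → ℝ → ℝ} (L : ℕ → ℝ → ℝ)
    (h : ∀ k x, A k x = A1 k x + A2 k x) (x : ℝ) :
    par ι k0 A L x = par ι k0 A1 L x + par ι k0 A2 L x := by
  simp only [par, h, add_mul, Finset.sum_add_distrib]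

theorem il_par_right (ι k0 : ℕ) (A : ℕ → ℝ → ℝ) {L L1 L2 : ℕ → ℝ → ℝ}
    (h : ∀ k x, L k x = L1 k x + L2 k x) (x : ℝ) :
    par ι k0 A L x = par ι k0 A L1 x + par ι k0 A L2 x := by
  simp only [par, h, mul_add, Finset.sum_add_distrib]

theorem il_phL_split (hb : IsB b) (hψ : IsPsi ψ) (hu : Measurable u) (hG : Bornology.IsBounded G)
    {T N : ℕ → Set P2} (hT : ∀ k, MeasurableSet (T k)) (hTG : ∀ k, T k ⊆ G)
    (hN : ∀ k, MeasurableSet (N k)) (hg : Coef g) (s β : ℝ) (k : ℕ) (x : ℝ) :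
    phL b ψ u T g s β k x = phL b ψ u (fun k => T k ∩ N k) g s β k x +
      phL b ψ u (fun k => T k \ N k) g s β k x := by
  unfold phL
  rw [← Phi1_union hb hψ hu k (hG.subset (inter_subset_left.trans (hTG k)))
    (hG.subset (sdiff_subset.trans (hTG k))) ((hT k).diff (hN k))
    (disjoint_sdiff_right.mono_left inter_subset_right) hg, inter_union_sdiff]

theorem il_abs5 {f1 f2 f3 f4 f5 f : ℝ → ℝ} (h1 : Bm f1) (h2 : Bm f2) (h3 : Bm f3) (h4 : Bm f4)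
    (h5 : Bm f5) (h : ∀ x, f x = f1 x + f2 x + f3 x + f4 x + f5 x) (k m : ℤ) :
    |∫ x in dInt k m, f x| ≤ |∫ x in dInt k m, f1 x| + |∫ x in dInt k m, f2 x| +
      |∫ x in dInt k m, f3 x| + |∫ x in dInt k m, f4 x| + |∫ x in dInt k m, f5 x| := by
  simp_rw [h]
  rw [integral_add (((h1.add h2).add h3).add h4 |>.intOn k m) (h5.intOn k m),
    integral_add (((h1.add h2).add h3).intOn k m) (h4.intOn k m),
    integral_add ((h1.add h2).intOn k m) (h3.intOn k m), integral_add (h1.intOn k m) (h2.intOn k m)]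
  refine (abs_add_le _ _).trans (add_le_add_left ?_ _)
  refine (abs_add_le _ _).trans (add_le_add_left ?_ _)
  refine (abs_add_le _ _).trans (add_le_add_left ?_ _)
  exact abs_add_le _ _

theorem line_bound (h1 : Car4Stmt) (h2 : BMaxStmt) (h3 : CoefStmt) (h4 : PosStmt) {b Ψ : ℝ → ℝ}
    (hb : IsB b) (hΨ : IsPsi Ψ) {N m : ℕ} (hN : 1 ≤ N) (hm : 2 * (N + 2) ≤ m) : ∃ C : ℝ, 0 ≤ C ∧
    ∀ {CG : ℝ} {u : P2 → ℝ} {kmax : ℕ} {G : Set P2} {j j0 : ℕ} {ϑ : ℝ} {U : Finset Tile}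
      {T S : ℕ → Set P2} {g : P2 → ℝ}, Measurable u → Bornology.IsBounded G →
      Forest CG u kmax G j j0 ϑ U T → Coef g → Fam G S → (∀ k, S k ⊆ T k) →
      ∀ (s β ρ : ℝ) (k0 ι : ℕ) (m0 : ℤ), (∀ k z, z ∈ S k → 2 ^ k * |u z - s| ≤ ϑ) → 1 ≤ ρ → k0 ≤ kmax →
      |∫ x in dInt k0 m0, par ι k0 (phL b (iteratedDeriv m Ψ) u T g s β)
          (phL b (iteratedDeriv m Ψ) u S g s β) x| ≤
        C * (ρ ^ 19 * ϑ ^ 19 / 4 ^ j + (1 + ϑ ^ 19 / 2 ^ j) / ρ ^ N + ϑ ^ 22 / 4 ^ j) * 2 ^ k0 := by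
  have hψ := hΨ.iter m
  obtain ⟨C1, hC1, hdens⟩ := lineDens
  obtain ⟨Ct, Ct', hCt, hCt', htree⟩ := tree_dec h1 h2 h3 h4 hb hψ
  obtain ⟨Ci, hCi, hinner⟩ := inner_bound hb
  obtain ⟨Ca, hCa, habs⟩ := absBound hb hψ
  obtain ⟨Cm, hCm, hmn⟩ := il_outer_mn hb hΨ hN hm
  obtain ⟨Ce, hCe, her⟩ := il_outer_er hb hΨ hN hm
  obtain ⟨A, hA1, hA, -⟩ := hψ.exists_lip
  set ψ := iteratedDeriv m Ψ with hψdef
  set D := Ct' * C1 with hD
  have hD0 : 0 ≤ D := by positivity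
  refine ⟨Ci * D * D + Cm * (D + 2 * A) + 2 * (Ce * D) + Ca * D, by positivity, ?_⟩
  intro CG u kmax G j j0 ϑ U T S g hu hG hF hg hS hST s β ρ k0 ι m0 hr hρ hk0
  have hϑ := hF.one_le
  have hT := hF.fam
  -- the splitting of `T`
  set N1 : ℕ → Set P2 := fun k => {z | vv u s k z ≤ ρ} with hN1
  set N2 : ℕ → Set P2 := fun k => {z | vv u s k z ≤ ϑ ^ 2} with hN2
  have mN1 : ∀ k, MeasurableSet (N1 k) := fun k =>
    measurableSet_le (measurable_vv hu s k) measurable_const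
  have mN2 : ∀ k, MeasurableSet (N2 k) := fun k =>
    measurableSet_le (measurable_vv hu s k) measurable_const
  set T0 : ℕ → Set P2 := fun k => T k ∩ N1 k with hT0
  set O : ℕ → Set P2 := fun k => T k \ N1 k with hO
  set O1 : ℕ → Set P2 := fun k => O k ∩ N2 k with hO1
  set O2 : ℕ → Set P2 := fun k => O k \ N2 k with hO2
  have fT0 : Fam G T0 := hT.inter_down mN1 fun k k' z hk hz => (vv_mono u s hk z).trans hz
  have mO : ∀ k, MeasurableSet (O k) := fun k => (hT.meas k).diff (mN1 k)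
  have mO1 : ∀ k, MeasurableSet (O1 k) := fun k => (mO k).inter (mN2 k)
  have mO2 : ∀ k, MeasurableSet (O2 k) := fun k => (mO k).diff (mN2 k)
  have sO : ∀ k, O k ⊆ G := fun k => sdiff_subset.trans (hT.sub k)
  have sO1 : ∀ k, O1 k ⊆ G := fun k => inter_subset_left.trans (sO k)
  have sO2 : ∀ k, O2 k ⊆ G := fun k => sdiff_subset.trans (sO k)
  have vO : ∀ k z, z ∈ O k → ρ < vv u s k z := fun k z hz => not_le.1 hz.2
  -- the two trees
  have rT0 : ∀ k z, z ∈ T0 k → 2 ^ k * |u z - s| ≤ ρ := fun k z hz => hz.2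
  have D0 := htree hu hG fT0 hg s β ρ (C1 * ρ ^ 18 / 2 ^ j) k0 m0 hρ (by positivity) rT0
    (hdens hG hF T0 s β ρ k0 hk0 hρ (fun k => inter_subset_left) rT0)
  have DS := htree hu hG hS hg s β ϑ (C1 * ϑ ^ 18 / 2 ^ j) k0 m0 hϑ (by positivity) hr
    (hdens hG hF S s β ϑ k0 hk0 hϑ hST hr)
  have hα : ∀ k m, |alpha ψ S g s β k m| ≤ 2 * A := fun k m => abs_alpha_le hψ hA hS.meas hg s β k m
  set n0 := ⌊ϑ⌋₊ with hn0
  have hn1 : (n0 : ℝ) ≤ ϑ := Nat.floor_le (by linarith)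
  have hn2 : ϑ ≤ 2 ^ n0 := by
    have h5 : ϑ < n0 + 1 := Nat.lt_floor_add_one ϑ
    have h6 : n0 + 1 ≤ 2 ^ n0 := Nat.lt_two_pow_self
    have h7 : ((n0 + 1 : ℕ) : ℝ) ≤ ((2 ^ n0 : ℕ) : ℝ) := by exact_mod_cast h6
    push_cast at h7
    linarith
  have bS := bm_phL hb hψ hu hG hS.sub hg s β
  have bE := DS.bE
  have bO := bm_phL hb hψ hu hG sO hg s β
  have bO1 := bm_phL hb hψ hu hG sO1 hg s β
  have bO2 := bm_phL hb hψ hu hG sO2 hg s β
  have eS : ∀ k x, phL b ψ u S g s β k x = mn b (alpha ψ S g s β) k x + er b ψ u S g s β k x := by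
    intro k x; simp [er]
  have key := il_abs5 (f := par ι k0 (phL b ψ u T g s β) (phL b ψ u S g s β))
    (bm_par ι k0 (bm_phL hb hψ hu hG fT0.sub hg s β) bS)
    (bm_par ι k0 bO (bm_mn hb hα)) (bm_par ι k0 bO2 bE) (bm_par (ι + n0) k0 bO1 bE)
    ((bm_par ι k0 bO1 bE).sub (bm_par (ι + n0) k0 bO1 bE)) ?_ k0 m0
  swap
  · intro x
    rw [il_par_left ι k0 _ (il_phL_split hb hψ hu hG hT.meas hT.sub mN1 hg s β) x,
      il_par_right ι k0 (phL b ψ u O g s β) eS x,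
      il_par_left ι k0 (er b ψ u S g s β) (il_phL_split hb hψ hu hG mO sO mN2 hg s β) x]
    ring
  -- the five bounds
  have b1 := hinner D0 DS ι
  have e1 : (fun k x => mn b (alpha ψ T0 g s β) k x + er b ψ u T0 g s β k x) = phL b ψ u T0 g s β := by
    funext k x; simp [er]
  have e2 : (fun k x => mn b (alpha ψ S g s β) k x + er b ψ u S g s β k x) = phL b ψ u S g s β := by
    funext k x; simp [er]
  rw [e1, e2] at b1
  have b2 := hmn hu hG mO sO hg (β := β) hρ vO DS hα ι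
  have b3 := her hu hG mO2 sO2 hg hS hρ (fun k z hz => vO k z hz.1) hϑ hr hCt DS ι
    (fun k z hz k' _ => Or.inl (not_le.1 hz.2).le)
  have b4 := her hu hG mO1 sO1 hg hS hρ (fun k z hz => vO k z hz.1) hϑ hr hCt DS (ι + n0)
    (fun k z hz k' hk' => Or.inr (by
      calc ϑ * 2 ^ k ≤ 2 ^ n0 * 2 ^ k := mul_le_mul_of_nonneg_right hn2 (by positivity)
        _ = 2 ^ (n0 + k) := by rw [pow_add]
        _ ≤ 2 ^ k' := pow_le_pow_right₀ one_le_two (by omega)))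
  have hP : Bm fun x => ∑ k ∈ Finset.range (k0 + 1), Ct * ϑ * ps u S s β ϑ k x :=
    Bm.sum _ fun i _ => DS.bp i
  have b5 : |∫ x in dInt k0 m0, (par ι k0 (phL b ψ u O1 g s β) (er b ψ u S g s β) x -
      par (ι + n0) k0 (phL b ψ u O1 g s β) (er b ψ u S g s β) x)| ≤
      Ca * ϑ ^ 2 / 2 ^ j * n0 * (Ct' * ϑ * (C1 * ϑ ^ 18 / 2 ^ j) * 2 ^ k0) := by
    refine (abs_integral_le_integral_abs).trans ?_
    refine (setIntegral_mono (((bm_par ι k0 bO1 bE).sub (bm_par (ι + n0) k0 bO1 bE)).abs.intOn _ _)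
      ((hP.const_mul (Ca * ϑ ^ 2 / 2 ^ j * n0)).intOn _ _) fun x => ?_).trans ?_
    · refine il_near (fun k => phL b ψ u O1 g s β k x) (fun k => er b ψ u S g s β k x)
        (fun k => Ct * ϑ * ps u S s β ϑ k x) (by positivity) k0 ι (fun k hk => ?_)
        (fun k => DS.le k x) n0
      exact habs hu hG hF k (O1 k) s (ϑ ^ 2) (hk.trans hk0) (mO1 k)
        (inter_subset_left.trans sdiff_subset) (one_le_pow₀ hϑ) (fun z hz => hz.2) g hg _
    · rw [integral_const_mul]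
      exact mul_le_mul_of_nonneg_left (integral_le_of_pow4 hP DS.pos DS.p4) (by positivity)
  -- arithmetic
  set X := ρ ^ 19 * ϑ ^ 19 / 4 ^ j with hX
  set Y := (1 + ϑ ^ 19 / 2 ^ j) / ρ ^ N with hY
  set Z := ϑ ^ 22 / 4 ^ j with hZ
  have hX0 : 0 ≤ X := by positivity
  have hY0 : 0 ≤ Y := by positivity
  have hZ0 : 0 ≤ Z := by positivity
  have h4j : (4 : ℝ) ^ j = 2 ^ j * 2 ^ j := by rw [← mul_pow]; norm_num
  have hq : (0 : ℝ) < 2 ^ k0 := by positivity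
  have c1 : Ci * (Ct' * ρ * (C1 * ρ ^ 18 / 2 ^ j)) * (Ct' * ϑ * (C1 * ϑ ^ 18 / 2 ^ j)) * 2 ^ k0 ≤
      Ci * D * D * (X + Y + Z) * 2 ^ k0 := by
    refine mul_le_mul_of_nonneg_right ?_ hq.le
    have : Ci * (Ct' * ρ * (C1 * ρ ^ 18 / 2 ^ j)) * (Ct' * ϑ * (C1 * ϑ ^ 18 / 2 ^ j)) =
        Ci * D * D * X := by
      rw [hX, hD, h4j]; field_simp
    rw [this]
    exact mul_le_mul_of_nonneg_left (by linarith) (by positivity)
  have hy : ∀ c : ℝ, 0 ≤ c → (Ct' * ϑ * (C1 * ϑ ^ 18 / 2 ^ j) + c) / ρ ^ N ≤ (D + c) * (X + Y + Z) := by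
    intro c hc
    refine le_trans ?_ (mul_le_mul_of_nonneg_left (show Y ≤ X + Y + Z by linarith) (add_nonneg hD0 hc))
    rw [hY, ← mul_div_assoc (D + c)]
    refine div_le_div_of_nonneg_right ?_ (pow_nonneg (by linarith) N)
    have e : Ct' * ϑ * (C1 * ϑ ^ 18 / 2 ^ j) = D * (ϑ ^ 19 / 2 ^ j) := by rw [hD]; ring
    rw [e]
    have : 0 ≤ ϑ ^ 19 / 2 ^ j := by positivity
    nlinarith
  have c2 : Cm * (Ct' * ϑ * (C1 * ϑ ^ 18 / 2 ^ j) + 2 * A) / ρ ^ N * 2 ^ k0 ≤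
      Cm * (D + 2 * A) * (X + Y + Z) * 2 ^ k0 := by
    refine mul_le_mul_of_nonneg_right ?_ hq.le
    rw [mul_div_assoc, mul_assoc Cm]
    exact mul_le_mul_of_nonneg_left (hy _ (by linarith)) hCm
  have c3 : Ce * (Ct' * ϑ * (C1 * ϑ ^ 18 / 2 ^ j)) / ρ ^ N * 2 ^ k0 ≤
      Ce * D * (X + Y + Z) * 2 ^ k0 := by
    refine mul_le_mul_of_nonneg_right ?_ hq.le
    rw [mul_div_assoc, mul_assoc Ce]
    have := hy 0 le_rfl
    rw [add_zero, add_zero] at this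
    exact mul_le_mul_of_nonneg_left this hCe
  have c5 : Ca * ϑ ^ 2 / 2 ^ j * n0 * (Ct' * ϑ * (C1 * ϑ ^ 18 / 2 ^ j) * 2 ^ k0) ≤
      Ca * D * (X + Y + Z) * 2 ^ k0 := by
    calc Ca * ϑ ^ 2 / 2 ^ j * n0 * (Ct' * ϑ * (C1 * ϑ ^ 18 / 2 ^ j) * 2 ^ k0)
        ≤ Ca * ϑ ^ 2 / 2 ^ j * ϑ * (Ct' * ϑ * (C1 * ϑ ^ 18 / 2 ^ j) * 2 ^ k0) := by gcongr
      _ = Ca * D * Z * 2 ^ k0 := by rw [hZ, hD, h4j]; field_simp
      _ ≤ Ca * D * (X + Y + Z) * 2 ^ k0 := by gcongr; linarith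
  calc _ ≤ _ := key
    _ ≤ Ci * D * D * (X + Y + Z) * 2 ^ k0 + Cm * (D + 2 * A) * (X + Y + Z) * 2 ^ k0 +
        Ce * D * (X + Y + Z) * 2 ^ k0 + Ce * D * (X + Y + Z) * 2 ^ k0 +
        Ca * D * (X + Y + Z) * 2 ^ k0 :=
      add_le_add (add_le_add (add_le_add (add_le_add (b1.trans c1) (b2.trans c2)) (b3.trans c3))
        (b4.trans c3)) (b5.trans c5)
    _ = _ := by ring

end Crest.Agent.R87.I2
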