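import Crest.Agent.R87.ITree1

/-! # R87 / ITree : a tree on a line (aux prefix `it_`) -/

set_option autoImplicit false
set_option linter.unusedVariables false

namespace Crest.Agent.R87.I2

open MeasureTheory Set
open scoped ENNReal

variable {b ψ : ℝ → ℝ} {u : P2 → ℝ} {G : Set P2} {S : ℕ → Set P2} {g : P2 → ℝ}

/-- `le`: `er_eq`, `abs_integral_le_ps`.  `sq`: `CoefStmt`.  `mx4`: `BMaxStmt`.  `p4`: `PosStmt` (`geom_le`), `Car4Stmt`. -/
theorem tree_dec (h1 : Car4Stmt) (h2 : BMaxStmt) (h3 : CoefStmt) (h4 : PosStmt) (hb : IsB b)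
    (hψ : IsPsi ψ) : ∃ C C' : ℝ, 1 ≤ C ∧ 1 ≤ C' ∧ ∀ {u : P2 → ℝ} {G : Set P2} {S : ℕ → Set P2}
      {g : P2 → ℝ}, Measurable u → Bornology.IsBounded G → Fam G S → Coef g →
      ∀ (s β ρ d : ℝ) (k0 : ℕ) (m0 : ℤ), 1 ≤ ρ → 0 < d → (∀ k z, z ∈ S k → 2 ^ k * |u z - s| ≤ ρ) →
      LineDens u G S s β (ρ + 1) ρ d k0 →
      Dec b k0 m0 (alpha ψ S g s β) (er b ψ u S g s β) (fun k x => C * ρ * ps u S s β ρ k x)
        (C' * ρ * d) := by
  obtain ⟨Ab, hAb1, hAb, -⟩ := hb.exists_lip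
  obtain ⟨A, hA1, hA, hL⟩ := hψ.exists_lip
  obtain ⟨Cb, hCb, h2⟩ := h2 b hb
  obtain ⟨Cc, hCc, h3⟩ := h3 ψ hψ
  have hC1 : 1 ≤ Ab * A := one_le_mul_of_one_le_of_one_le hAb1 hA1
  have hbc : 0 ≤ Cb * Cc := mul_nonneg hCb hCc
  refine ⟨Ab * A, Cc + Cb * Cc + 12 * (Ab * A), hC1, by linarith, ?_⟩
  intro u G S g hu hG hS hg s β ρ d k0 m0 hρ hd hr hD
  have hα := abs_alpha_le hψ hA hS.meas hg s β
  have hcar := h3 u hu G hG S hS g hg s β ρ d k0 hd.le hr (lineDens_mono (by linarith) hD)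
  have hps := fun k => bm_ps hu hS hρ hr β k
  have hk0 : (0 : ℝ) ≤ 2 ^ k0 := by positivity
  have hsz : ∀ c : ℝ, 0 ≤ c → c ≤ Cc + Cb * Cc + 12 * (Ab * A) →
      c * d ≤ (Cc + Cb * Cc + 12 * (Ab * A)) * ρ * d := fun c h0 hc =>
    mul_le_mul_of_nonneg_right (hc.trans (le_mul_of_one_le_right (h0.trans hc) hρ)) hd.le
  refine ⟨by positivity, ⟨_, hα⟩,
    fun k => (bm_phL hb hψ hu hG hS.sub hg s β k).sub (bm_mn hb hα k),
    fun k => (hps k).const_mul _, fun k x => ?_, ?_, ?_, ?_⟩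
  · rw [er_eq hb hψ hu hG hS hg]
    have hk : (0 : ℝ) < 2 ^ k := by positivity
    have hx : ∀ z : P2, dI k z.1 = dI k x → |(z.1 - x) * (u z - s)| ≤ vv u s k z := by
      intro z hz
      have h1 := (abs_sub_lt_of_dI_eq hz).le
      rw [zpow_natCast] at h1
      rw [abs_mul]
      exact mul_le_mul_of_nonneg_right h1 (abs_nonneg _)
    refine abs_integral_le_ps hu hG hS hρ hr β k x (by positivity) (fun z hz hz' => ?_)
      fun z hz hz' h0 => ?_
    · refine (api2_coef_le hg z _).trans ?_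
      rw [abs_mul, abs_mul, abs_mul, abs_haar, mul_one, abs_of_pos (inv_pos.2 hk)]
      have h5 := hL (β - (z.2 - s * z.1) + (z.1 - x) * (u z - s)) (β - (z.2 - s * z.1))
      rw [add_sub_cancel_left] at h5
      have h6 := h5.trans (mul_le_mul_of_nonneg_left (hx z hz') (by linarith))
      have h7 := mul_le_mul (hAb ((x - cen k x) / 2 ^ k)) h6 (abs_nonneg _) (by linarith)
      rw [mul_assoc]
      exact (mul_le_mul_of_nonneg_left h7 (inv_pos.2 hk).le).trans (le_of_eq (by ring))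
    · have h5 : |(z.1 - x) * (u z - s)| ≤ ρ := (hx z hz').trans (hr k z hz)
      rw [abs_sub_comm] at h0
      have h6 := abs_sub_abs_le_abs_add (β - (z.2 - s * z.1)) ((z.1 - x) * (u z - s))
      rw [hψ.supp _ (by linarith), hψ.supp _ (by linarith), sub_zero, mul_zero, mul_zero]
  · refine (integral_le_of_lintegral (Bm.sum _ fun (k : ℕ) _ => (Bm.step k (hα k)).pow 2)
      (fun x => Finset.sum_nonneg fun k _ => sq_nonneg _) (by positivity) (hcar k0 le_rfl m0)).trans ?_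
    exact mul_le_mul_of_nonneg_right
      (pow_le_pow_left₀ (by positivity) (hsz Cc hCc (by linarith)) 2) hk0
  · refine (integral_le_of_lintegral ((bm_mx hb hα k0).pow 4) (fun x => by positivity) (by positivity)
      (h2 k0 m0 _ (Cc * d) (by positivity) hcar)).trans ?_
    rw [← mul_assoc]
    exact mul_le_mul_of_nonneg_right
      (pow_le_pow_left₀ (by positivity) (hsz _ hbc (by linarith)) 4) hk0
  · have hρ0 : 0 < ρ := by linarith
    have hw : ∀ z, ∑ k ∈ Finset.range (k0 + 1), wt u s ρ S k z ≤ 2 := by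
      intro z
      have h5 := geom_le (abs_nonneg (u z - s)) hρ0.le (k0 + 1)
      rw [← div_le_iff₀ hρ0, Finset.sum_div] at h5
      refine le_trans (Finset.sum_le_sum fun k _ => ?_) h5
      by_cases hz : z ∈ S k
      · rw [wt, indicator_of_mem hz, if_pos (hr k z hz)]
        exact le_rfl
      · rw [wt, indicator_of_notMem hz]
        split_ifs <;> positivity
    have h5 := h4 u hu G hG S hS.meas hS.sub (wt u s ρ S) s β (ρ + 1) ρ d k0 hd.le
      (it1_wt_meas hu hS.meas s ρ) (it1_wt_nonneg u s hρ S)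
      (fun k z hz => indicator_of_notMem hz _) hw hr hD
    have h6 := h1 k0 m0 (pcoef (wt u s ρ S) s β (ρ + 1)) (4 * d) (by positivity)
      (fun k m => mul_nonneg (by positivity) (integral_nonneg fun z => it1_wt_nonneg u s hρ S k z)) h5
    have h7 := integral_le_of_lintegral ((Bm.sum (Finset.range (k0 + 1)) fun k _ => hps k).pow 4)
      (fun x => by positivity) (by positivity) h6
    simp only [← Finset.mul_sum, mul_pow (Ab * A * ρ), integral_const_mul]
    refine (mul_le_mul_of_nonneg_left h7 (by positivity)).trans ?_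
    rw [← mul_assoc]
    refine mul_le_mul_of_nonneg_right ?_ hk0
    have h8 : 12 * (Ab * A) * ρ * d ≤ (Cc + Cb * Cc + 12 * (Ab * A)) * ρ * d := by
      gcongr
      linarith
    refine le_trans ?_ (pow_le_pow_left₀ (by positivity) h8 4)
    have h9 : 0 ≤ (Ab * A * ρ * d) ^ 4 := by positivity
    calc (Ab * A * ρ) ^ 4 * (24 * (4 * d) ^ 4) = 6144 * (Ab * A * ρ * d) ^ 4 := by ring
      _ ≤ 20736 * (Ab * A * ρ * d) ^ 4 := by linarith
      _ = _ := by ring

end Crest.Agent.R87.I2
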