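import Crest.Agent.R87.ISm
import Crest.Agent.R87.ITree

/-! # R87 / IPair1 : one steep term against the main parts (aux prefix `ip1_`) -/

set_option autoImplicit false
set_option linter.unusedVariables false

namespace Crest.Agent.R87.I2

open MeasureTheory Set
open scoped ENNReal

variable {b Ψ : ℝ → ℝ}

theorem ip1_add {M : ℕ} {J : Set ℝ} {Λ B B' : ℝ} {f f' : ℝ → ℝ} (h : Sm M J Λ B f) (h' : Sm M J Λ B' f') :
    Sm M J Λ (B + B') fun x => f x + f' x := by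
  refine ⟨h.cd.add h'.cd, fun i hi x hx => ?_⟩
  have hi' : (i : WithTop ℕ∞) ≤ M := by exact_mod_cast hi
  rw [iteratedDeriv_fun_add (h.cd.of_le hi').contDiffAt (h'.cd.of_le hi').contDiffAt, add_mul]
  exact (abs_add_le _ _).trans (add_le_add (h.bd i hi x hx) (h'.bd i hi x hx))

theorem ip1_const_mul {M : ℕ} {J : Set ℝ} {Λ B a L : ℝ} {f : ℝ → ℝ} (hΛ : 0 ≤ Λ) (ha : |a| ≤ L)
    (h : Sm M J Λ B f) : Sm M J Λ (L * B) fun x => a * f x := by
  refine ⟨contDiff_const.mul h.cd, fun i hi x hx => ?_⟩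
  rw [iteratedDeriv_const_mul_field, abs_mul, mul_assoc]
  exact mul_le_mul ha (h.bd i hi x hx) (abs_nonneg _) ((abs_nonneg a).trans ha)

theorem ip1_sum {M : ℕ} {J : Set ℝ} {Λ : ℝ} (hΛ : 0 ≤ Λ) (t : Finset ℕ) {B : ℕ → ℝ} {f : ℕ → ℝ → ℝ}
    (h : ∀ i ∈ t, Sm M J Λ (B i) (f i)) : Sm M J Λ (∑ i ∈ t, B i) fun x => ∑ i ∈ t, f i x := by
  induction t using Finset.induction_on with
  | empty => simpa using ip1_const_mul (a := 0) (L := 0) hΛ (by simp) (Sm.one (M := M) (J := J) hΛ)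
  | insert a t ha ih =>
    simp only [Finset.sum_insert ha]
    exact ip1_add (h a (Finset.mem_insert_self _ _)) (ih fun i hi => h i (Finset.mem_insert_of_mem hi))

theorem ip1_geom {k c : ℕ} (hk : k ≤ c) (k0 : ℕ) : ∑ k' ∈ Finset.Icc c k0, (2 : ℝ) ^ k / 2 ^ k' ≤ 2 := by
  have h : ∀ n : ℕ, ∑ k' ∈ Finset.Ico k (k + n), (2 : ℝ) ^ k / 2 ^ k' = 2 - 2 / 2 ^ n := fun n => by
    induction n with
    | zero => simp
    | succ n ih =>
      rw [← add_assoc, Finset.sum_Ico_succ_top (Nat.le_add_right k n), ih, pow_add, pow_succ]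
      field_simp
      ring
  have h1 : (0 : ℝ) ≤ 2 / 2 ^ (k0 + 1) := by positivity
  refine (Finset.sum_le_sum_of_subset_of_nonneg (fun i hi => ?_) fun _ _ _ => by positivity).trans
    ((h (k0 + 1)).le.trans (by linarith))
  rw [Finset.mem_Icc] at hi
  rw [Finset.mem_Ico]
  omega

/-- Where the kernel does not vanish, `dI k x = dI k z.1`, hence
`mn k' x = mn k' z.1 + α k' (dI k' z.1) (b((x - c')/2^k') - b((z.1 - c')/2^k'))`, `c' = cen k' z.1`.
`ker_decay` with `Λ = 1` for `f = 1` (`Sm.one`, `abs_sum_le_mx`) and for each difference (`Sm.aff_sub` with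
`e = 2^-k'`, `η = 2^k/2^k'`); `∑ η ≤ 2`. -/
theorem pair_mn (hb : IsB b) (hΨ : IsPsi Ψ) {N m : ℕ} (hN : 1 ≤ N) (hm : 2 * N ≤ m) :
    ∃ C : ℝ, 1 ≤ C ∧ ∀ (u : P2 → ℝ) (k : ℕ) (z : P2) (s β : ℝ) (α : ℕ → ℤ → ℝ) (L : ℝ) (c k0 : ℕ),
      (∀ k m, |α k m| ≤ L) → k ≤ c → 1 ≤ vv u s k z →
      |∫ x, ker b (iteratedDeriv m Ψ) u k z (x, β + s * x) * ∑ k' ∈ Finset.Icc c k0, mn b α k' x| ≤
        C * (mx b α k0 z.1 + L) / vv u s k z ^ N := by
  obtain ⟨C, hC, hd⟩ := ker_decay hb hΨ hm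
  obtain ⟨A, hA, hb'⟩ := hb.exists_bound (2 * N)
  have hAC : 1 ≤ 2 * A := by linarith
  refine ⟨C * (2 * A), one_le_mul_of_one_le_of_one_le hC hAC, fun u k z s β α L c k0 hα hk hv => ?_⟩
  have L0 : 0 ≤ L := (abs_nonneg _).trans (hα 0 0)
  have m0 := mx_nonneg b α k0 z.1
  have hΛ : (0 : ℝ) ≤ 1 / 2 ^ k := by positivity
  have h1 : ∀ k' ∈ Finset.Icc c k0, Sm (2 * N) (cI k z.1) (1 / 2 ^ k) (L * (A * (2 ^ k / 2 ^ k'))) fun x =>
      α k' (dI k' z.1) * (b (-cen k' z.1 / 2 ^ k' + 1 / 2 ^ k' * x) -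
        b (-cen k' z.1 / 2 ^ k' + 1 / 2 ^ k' * z.1)) := fun k' hk' => by
    have a1 : (2 : ℝ) ^ k ≤ 2 ^ k' := pow_le_pow_right₀ one_le_two (hk.trans (Finset.mem_Icc.1 hk').1)
    have a2 : |(1 : ℝ) / 2 ^ k'| = 1 / 2 ^ k' := abs_of_pos (by positivity)
    refine ip1_const_mul hΛ (hα _ _) (Sm.aff_sub (by omega) (hb.smooth.of_le (WithTop.coe_le_coe.2 le_top)) hb'
      ?_ ?_ fun x hx => ?_)
    · rw [a2]
      exact one_div_le_one_div_of_le (by positivity) a1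
    · rw [a2]
      refine le_of_eq ?_
      field_simp
    · rw [a2, one_div_mul_eq_div]
      exact div_le_div_of_nonneg_right (abs_sub_le_of_mem_cI hx (mem_cI rfl)) (by positivity)
  have h2 := ip1_add (ip1_const_mul hΛ (abs_sum_le_mx b α c k0 z.1)
    (Sm.one (M := 2 * N) (J := cI k z.1) hΛ)) (ip1_sum hΛ _ h1)
  have h3 : ∑ k' ∈ Finset.Icc c k0, L * (A * ((2 : ℝ) ^ k / 2 ^ k')) ≤ L * (A * 2) := by
    rw [← Finset.mul_sum, ← Finset.mul_sum]
    exact mul_le_mul_of_nonneg_left (mul_le_mul_of_nonneg_left (ip1_geom hk k0) (by linarith)) L0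
  have h4 : 0 ≤ ∑ k' ∈ Finset.Icc c k0, L * (A * ((2 : ℝ) ^ k / 2 ^ k')) :=
    Finset.sum_nonneg fun _ _ => by positivity
  have h5 := hd u k z s β 1 _ _ le_rfl (by simpa using hv) (by positivity) h2
  refine le_of_eq_of_le (congrArg _ (integral_congr_ae (Filter.Eventually.of_forall fun x => ?_)))
    (h5.trans (div_le_div_of_nonneg_right ?_ (by positivity)))
  · by_cases h : ker b (iteratedDeriv m Ψ) u k z (x, β + s * x) = 0
    · simp only [h, zero_mul]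
    · have e := (ker_ne_zero hb (hΨ.iter m) h).1
      simp only
      congr 1
      rw [mul_one, ← Finset.sum_add_distrib]
      refine Finset.sum_congr rfl fun k' hk' => ?_
      have e' : dI k' x = dI k' z.1 :=
        dI_eq_of_le (by exact_mod_cast hk.trans (Finset.mem_Icc.1 hk').1) e
      have e1 : ∀ y : ℝ, -cen k' z.1 / 2 ^ k' + 1 / 2 ^ k' * y = (y - cen k' z.1) / 2 ^ k' := fun y => by ring
      rw [mn, mn, e', cen_eq e', e1, e1]
      ring
  · rw [mul_assoc]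
    refine mul_le_mul_of_nonneg_left ?_ (by linarith)
    have := le_mul_of_one_le_left m0 hAC
    linarith

end Crest.Agent.R87.I2
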