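import Crest.Agent.R87.ISm1

/-! # R87 / ISm : integration by parts (aux prefix `is_`) -/

set_option autoImplicit false
set_option linter.unusedVariables false

namespace Crest.Agent.R87.I2

open MeasureTheory Set
open scoped ENNReal

variable {M : ℕ} {J : Set ℝ} {Λ B B' A : ℝ} {f f' φ : ℝ → ℝ}

/-- `ker_line`; `decay (2N)` for `b((x - cen)/2^k) f(x)` (`Sm.aff`, `Sm.mul`, `b_arg_ne_zero`, `mem_cI`) and
`Ξ = Ψ^(m - 2N)`; `(Λ/v)^(2N) ≤ v^-N`. -/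
theorem ker_decay {b Ψ : ℝ → ℝ} (hb : IsB b) (hΨ : IsPsi Ψ) {N m : ℕ} (hm : 2 * N ≤ m) :
    ∃ C : ℝ, 1 ≤ C ∧ ∀ (u : P2 → ℝ) (k : ℕ) (z : P2) (s β Λ B : ℝ) (f : ℝ → ℝ), 1 ≤ Λ →
      Λ ^ 2 ≤ vv u s k z → 0 ≤ B → Sm (2 * N) (cI k z.1) (Λ / 2 ^ k) B f →
      |∫ x, ker b (iteratedDeriv m Ψ) u k z (x, β + s * x) * f x| ≤ C * B / vv u s k z ^ N := by
  obtain ⟨A, hA1, hA⟩ := hb.exists_bound (2 * N)
  obtain ⟨A', hA1', hA', -⟩ := (hΨ.iter (m - 2 * N)).exists_lip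
  refine ⟨2 ^ (2 * N) * A * A', one_le_mul_of_one_le_of_one_le
    (one_le_mul_of_one_le_of_one_le (one_le_pow₀ one_le_two) hA1) hA1',
    fun u k z s β Λ B f hΛ hv hB hf => ?_⟩
  have h2 : (0 : ℝ) < 2 ^ k := by positivity
  have hv0 : 0 < vv u s k z := lt_of_lt_of_le (by positivity) hv
  have hθ : 0 < |u z - s| := (mul_pos_iff_of_pos_left h2).1 hv0
  have e1 : ∀ x : ℝ, -cen k z.1 / 2 ^ k + ((2 : ℝ) ^ k)⁻¹ * x = (x - cen k z.1) / 2 ^ k :=
    fun x => by ring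
  have h1 : Sm (2 * N) (cI k z.1) (Λ / 2 ^ k) A
      fun x => b (-cen k z.1 / 2 ^ k + ((2 : ℝ) ^ k)⁻¹ * x) :=
    Sm.aff (hb.smooth.of_le (WithTop.coe_le_coe.2 le_top)) hA (by
      rw [abs_of_pos (inv_pos.2 h2), inv_eq_one_div]
      gcongr)
  have h3 := h1.mul (by positivity) (by linarith) hB hf
  simp only [e1] at h3
  have h4 := decay (2 * N) (hΨ.iter (m - 2 * N)).smooth hA' h2.le (abs_pos.1 hθ)
    (β - (z.2 - s * z.1) + z.1 * (u z - s)) h3.cd (fun x hx => by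
      by_contra h
      exact hx (mem_cI (b_arg_ne_zero hb (left_ne_zero_of_mul h)))) (h3.bd _ le_rfl)
  have e2 : iteratedDeriv (2 * N) (iteratedDeriv (m - 2 * N) Ψ) = iteratedDeriv m Ψ := by
    simp only [iteratedDeriv_eq_iterate]
    rw [← Function.iterate_add_apply, Nat.add_sub_cancel' hm]
  rw [e2] at h4
  have e3 : ∀ x, ker b (iteratedDeriv m Ψ) u k z (x, β + s * x) * f x =
      ((2 : ℝ) ^ k)⁻¹ * haar k z.1 * (b ((x - cen k z.1) / 2 ^ k) * f x *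
        iteratedDeriv m Ψ (β - (z.2 - s * z.1) + z.1 * (u z - s) - (u z - s) * x)) := fun x => by
    rw [ker_line, show β - (z.2 - s * z.1) + (z.1 - x) * (u z - s) =
      β - (z.2 - s * z.1) + z.1 * (u z - s) - (u z - s) * x by ring]
    ring
  simp only [e3]
  rw [integral_const_mul, abs_mul, abs_mul, abs_haar, mul_one, abs_of_pos (inv_pos.2 h2)]
  have h5 : Λ ^ (2 * N) ≤ vv u s k z ^ N := by
    rw [pow_mul]
    gcongr
  have hA0 : 0 ≤ A := by linarith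
  have hA0' : 0 ≤ A' := by linarith
  calc _ ≤ _ := mul_le_mul_of_nonneg_left h4 (inv_pos.2 h2).le
    _ = 2 ^ (2 * N) * A * A' * B / vv u s k z ^ N * (Λ ^ (2 * N) / vv u s k z ^ N) := by
      rw [div_mul_div_comm, ← pow_add, ← two_mul, vv, mul_pow, div_pow]
      field_simp
    _ ≤ _ := mul_le_of_le_one_right (by positivity) ((div_le_one (by positivity)).2 h5)

end Crest.Agent.R87.I2
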