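import Crest.Agent.R87.IBas

/-! # R87 / ISm1 : smooth functions, decay (aux prefix `is1_`) -/

set_option autoImplicit false
set_option linter.unusedVariables false

namespace Crest.Agent.R87.I2

open MeasureTheory Set
open scoped ENNReal

variable {M : ℕ} {J : Set ℝ} {Λ B B' A : ℝ} {f f' φ : ℝ → ℝ}

/-- Leibniz (`iteratedDeriv_mul` / `norm_iteratedFDeriv_mul_le`), `∑ choose i j = 2^i ≤ 2^M` -/
theorem Sm.mul (hΛ : 0 ≤ Λ) (hB : 0 ≤ B) (hB' : 0 ≤ B') (h : Sm M J Λ B f) (h' : Sm M J Λ B' f') :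
    Sm M J Λ (2 ^ M * B * B') fun x => f x * f' x := by
  refine ⟨h.cd.mul h'.cd, fun i hi x hx => ?_⟩
  have hi' : (i : WithTop ℕ∞) ≤ M := by exact_mod_cast hi
  rw [iteratedDeriv_fun_mul (h.cd.of_le hi').contDiffAt (h'.cd.of_le hi').contDiffAt]
  calc |∑ j ∈ Finset.range (i + 1),
        (i.choose j : ℝ) * iteratedDeriv j f x * iteratedDeriv (i - j) f' x|
      ≤ ∑ j ∈ Finset.range (i + 1), (i.choose j : ℝ) * (B * B' * Λ ^ i) := by
        refine (Finset.abs_sum_le_sum_abs _ _).trans (Finset.sum_le_sum fun j hj => ?_)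
        have hj' : j ≤ i := Nat.lt_succ_iff.1 (Finset.mem_range.1 hj)
        have h1 := h.bd j (hj'.trans hi) x hx
        have h2 := h'.bd (i - j) ((Nat.sub_le _ _).trans hi) x hx
        rw [abs_mul, abs_mul, Nat.abs_cast, mul_assoc]
        refine mul_le_mul_of_nonneg_left ?_ (Nat.cast_nonneg _)
        have e : Λ ^ i = Λ ^ j * Λ ^ (i - j) := by rw [← pow_add, Nat.add_sub_cancel' hj']
        calc _ ≤ (B * Λ ^ j) * (B' * Λ ^ (i - j)) :=
              mul_le_mul h1 h2 (abs_nonneg _) (by positivity)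
          _ = _ := by rw [e]; ring
    _ = 2 ^ i * (B * B' * Λ ^ i) := by
        rw [← Finset.sum_mul, ← Nat.cast_sum, Nat.sum_range_choose]; push_cast; rfl
    _ ≤ 2 ^ M * (B * B' * Λ ^ i) :=
        mul_le_mul_of_nonneg_right (pow_le_pow_right₀ (by norm_num) hi) (by positivity)
    _ = _ := by ring

theorem Sm.one (hΛ : 0 ≤ Λ) : Sm M J Λ 1 fun _ => 1 := by
  refine ⟨contDiff_const, fun i hi x hx => ?_⟩
  rw [iteratedDeriv_const]
  split_ifs with h0
  · subst h0; simp
  · simp only [abs_zero]; positivity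

theorem is1_aff (hφ : ContDiff ℝ M φ) {i : ℕ} (hi : i ≤ M) (c e x : ℝ) :
    iteratedDeriv i (fun x => φ (c + e * x)) x = e ^ i * iteratedDeriv i φ (c + e * x) := by
  have hi' : (i : WithTop ℕ∞) ≤ M := by exact_mod_cast hi
  have h1 : ContDiff ℝ i fun z => φ (c + z) :=
    (hφ.of_le hi').comp (contDiff_const.add contDiff_id)
  have h2 := congrFun (iteratedDeriv_comp_const_mul h1 e) x
  simp only [iteratedDeriv_comp_const_add] at h2
  exact h2

/-- `iteratedDeriv_comp_const_mul`, `iteratedDeriv_comp_const_add` -/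
theorem Sm.aff (hφ : ContDiff ℝ M φ) (hA : ∀ i, i ≤ M → ∀ y, |iteratedDeriv i φ y| ≤ A) {c e : ℝ}
    (he : |e| ≤ Λ) : Sm M J Λ A fun x => φ (c + e * x) := by
  have hA0 : 0 ≤ A := (abs_nonneg _).trans (hA 0 (Nat.zero_le _) 0)
  refine ⟨hφ.comp (contDiff_const.add (contDiff_const.mul contDiff_id)), fun i hi x hx => ?_⟩
  rw [is1_aff hφ hi, abs_mul, abs_pow, mul_comm]
  exact mul_le_mul (hA i hi _) (pow_le_pow_left₀ (abs_nonneg _) he i) (by positivity) hA0

/-- order `0` by the mean value theorem, order `i ≥ 1`: `|e|^i ≤ η Λ Λ^(i-1)` -/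
theorem Sm.aff_sub (hM : 1 ≤ M) (hφ : ContDiff ℝ M φ)
    (hA : ∀ i, i ≤ M → ∀ y, |iteratedDeriv i φ y| ≤ A) {c e η x0 : ℝ} (he : |e| ≤ Λ)
    (he' : |e| ≤ η * Λ) (hx : ∀ x ∈ J, |e| * |x - x0| ≤ η) :
    Sm M J Λ (A * η) fun x => φ (c + e * x) - φ (c + e * x0) := by
  have hA0 : 0 ≤ A := (abs_nonneg _).trans (hA 0 (Nat.zero_le _) 0)
  have hc : ContDiff ℝ M fun x => φ (c + e * x) :=
    hφ.comp (contDiff_const.add (contDiff_const.mul contDiff_id))
  refine ⟨hc.sub contDiff_const, fun i hi x hxJ => ?_⟩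
  rcases i with _ | i
  · simp only [iteratedDeriv_zero, pow_zero, mul_one]
    have hd : Differentiable ℝ φ := hφ.differentiable (by
      have : M ≠ 0 := by omega
      exact_mod_cast this)
    have h1 := Convex.norm_image_sub_le_of_norm_deriv_le (f := φ) (s := univ) (C := A)
      (fun y _ => hd y) (fun y _ => by simpa using hA 1 hM y) convex_univ
      (mem_univ (c + e * x0)) (mem_univ (c + e * x))
    have e1 : c + e * x - (c + e * x0) = e * (x - x0) := by ring
    rw [e1, Real.norm_eq_abs, Real.norm_eq_abs, abs_mul] at h1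
    exact h1.trans (mul_le_mul_of_nonneg_left (hx x hxJ) hA0)
  · have hi' : ((i + 1 : ℕ) : WithTop ℕ∞) ≤ M := by exact_mod_cast hi
    rw [iteratedDeriv_fun_sub (hc.of_le hi').contDiffAt contDiff_const.contDiffAt,
      iteratedDeriv_const, if_neg (Nat.succ_ne_zero i), sub_zero, is1_aff hφ hi, abs_mul, abs_pow,
      mul_comm]
    have h1 : |e| ^ (i + 1) ≤ η * Λ ^ (i + 1) := by
      rw [pow_succ', pow_succ', ← mul_assoc]
      exact mul_le_mul he' (pow_le_pow_left₀ (abs_nonneg _) he i) (by positivity)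
        ((abs_nonneg _).trans he')
    calc _ ≤ A * (η * Λ ^ (i + 1)) := mul_le_mul (hA _ hi _) h1 (by positivity) hA0
      _ = _ := by ring

theorem is1_int {a l : ℝ} {g : ℝ → ℝ} (hf : Continuous f) (hs : ∀ x, x ∉ Icc a (a + l) → f x = 0)
    (hg : Continuous g) : Integrable (f * g) :=
  (hf.mul hg).integrable_of_hasCompactSupport
    (HasCompactSupport.intro (isCompact_Icc (a := a) (b := a + l)) fun x hx => by simp [hs x hx])

/-- **DECAY**.  Induction on `M` generalizing `f`: `∫ f(x) Ξ^(M+1)(c - θ x) = θ⁻¹ ∫ f'(x) Ξ^(M)(c - θ x)`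
(`integral_mul_deriv_eq_deriv_mul_of_integrable`); `f'` vanishes on the open complement of `Icc`;
`iteratedDeriv_succ'`. -/
theorem decay (M : ℕ) {Ξ : ℝ → ℝ} (hΞ : ContDiff ℝ (⊤ : ℕ∞) Ξ) (hA : ∀ y, |Ξ y| ≤ A) {a l θ : ℝ}
    (hl : 0 ≤ l) (hθ : θ ≠ 0) (c : ℝ) (hf : ContDiff ℝ M f) (hs : ∀ x, x ∉ Icc a (a + l) → f x = 0)
    (hB : ∀ x ∈ Icc a (a + l), |iteratedDeriv M f x| ≤ B) :
    |∫ x, f x * iteratedDeriv M Ξ (c - θ * x)| ≤ A * B * l / |θ| ^ M := by
  have hA0 : 0 ≤ A := (abs_nonneg _).trans (hA 0)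
  induction M generalizing f with
  | zero =>
    simp only [iteratedDeriv_zero, pow_zero, div_one] at hB ⊢
    rw [← setIntegral_eq_integral_of_forall_compl_eq_zero (s := Icc a (a + l))
      (fun x hx => by rw [hs x hx, zero_mul])]
    have h1 := norm_setIntegral_le_of_norm_le_const (μ := volume) (s := Icc a (a + l))
      (f := fun x => f x * Ξ (c - θ * x)) (C := A * B) measure_Icc_lt_top (fun x hx => by
        rw [Real.norm_eq_abs, abs_mul, mul_comm]
        exact mul_le_mul (hA _) (hB x hx) (abs_nonneg _) hA0)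
    rw [Real.volume_real_Icc_of_le (by linarith), add_sub_cancel_left] at h1
    exact h1
  | succ M ih =>
    have hf' : ContDiff ℝ M (deriv f) := by
      have : ContDiff ℝ ((M : WithTop ℕ∞) + 1) f := by exact_mod_cast hf
      exact this.deriv'
    have hs' : ∀ x, x ∉ Icc a (a + l) → deriv f x = 0 := fun x hx => by
      have h1 : f =ᶠ[nhds x] fun _ => 0 :=
        Filter.mem_of_superset (isClosed_Icc.isOpen_compl.mem_nhds hx) fun y hy => hs y hy
      rw [h1.deriv_eq, deriv_const]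
    have h1 := ih hf' hs' (fun x hx => by rw [← iteratedDeriv_succ']; exact hB x hx)
    have hd : Differentiable ℝ f := hf.differentiable (by exact_mod_cast Nat.succ_ne_zero M)
    have hΞc : ∀ n : ℕ, Continuous (iteratedDeriv n Ξ) := fun n =>
      hΞ.continuous_iteratedDeriv n (by exact_mod_cast le_top)
    have hΞd : Differentiable ℝ (iteratedDeriv M Ξ) :=
      hΞ.differentiable_iteratedDeriv M (by exact_mod_cast WithTop.coe_lt_top M)
    have hG : ∀ x, HasDerivAt (fun x => iteratedDeriv M Ξ (c - θ * x))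
        (iteratedDeriv (M + 1) Ξ (c - θ * x) * (-θ)) x := fun x => by
      have h2 : HasDerivAt (fun x => c - θ * x) (-θ) x := by
        simpa using ((hasDerivAt_id x).const_mul θ).const_sub c
      rw [iteratedDeriv_succ]
      exact (hΞd _).hasDerivAt.comp x h2
    have hca : Continuous fun x : ℝ => c - θ * x := by fun_prop
    have h3 := integral_mul_deriv_eq_deriv_mul_of_integrable (u := f) (u' := deriv f)
      (v := fun x => iteratedDeriv M Ξ (c - θ * x))
      (v' := fun x => iteratedDeriv (M + 1) Ξ (c - θ * x) * (-θ))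
      (fun x _ => (hd x).hasDerivAt) (fun x _ => hG x)
      (is1_int hd.continuous hs (((hΞc _).comp hca).mul continuous_const))
      (is1_int hf'.continuous hs' ((hΞc _).comp hca))
      (is1_int hd.continuous hs ((hΞc _).comp hca))
    simp only [← mul_assoc, integral_mul_const] at h3
    have hθ' : 0 < |θ| := abs_pos.2 hθ
    have h4 := congrArg abs h3
    rw [abs_mul, abs_neg, abs_neg] at h4
    rw [pow_succ, ← div_div, le_div_iff₀ hθ', h4]
    exact h1

end Crest.Agent.R87.I2
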