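import Crest.Agent.R87.IBas

/-! # R87 / ITree1 : a tree on a line, basics (aux prefix `it1_`) -/

set_option autoImplicit false
set_option linter.unusedVariables false

namespace Crest.Agent.R87.I2

open MeasureTheory Set
open scoped ENNReal

variable {b ψ : ℝ → ℝ} {u : P2 → ℝ} {G : Set P2} {S : ℕ → Set P2} {g : P2 → ℝ}

/-- `volume_col` with `h = 1` -/
theorem abs_alpha_le {A : ℝ} (hψ : IsPsi ψ) (hA : ∀ y, |ψ y| ≤ A) (hS : ∀ k, MeasurableSet (S k))
    (hg : Coef g) (s β : ℝ) (k : ℕ) (m : ℤ) : |alpha ψ S g s β k m| ≤ 2 * A := by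
  have hA0 : 0 ≤ A := (abs_nonneg _).trans (hA 0)
  have hk : (0 : ℝ) < 2 ^ k := by positivity
  have h := api2_int_le (f := fun z => g z * haar k z.1 * ψ (β - (z.2 - s * z.1)))
    ((hS k).inter (measurableSet_dI_fst k m)) hA0 (V := 2 * 1 * 2 ^ k) (by positivity)
    (fun z _ => by
      rw [mul_assoc]
      refine (api2_coef_le hg z _).trans ?_
      rw [abs_mul, abs_haar, one_mul]
      exact hA _)
    (S := {z : P2 | dI k z.1 = m ∧ |z.2 - s * z.1 - β| ≤ 1})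
    (fun z hz h0 => ⟨hz.2, by
      by_contra hc
      refine h0 ?_
      rw [hψ.supp _ (by rw [abs_sub_comm]; exact (not_le.1 hc).le), mul_zero]⟩)
    (volume_col k m s β zero_le_one).le
  rw [alpha, abs_mul, abs_of_pos (inv_pos.2 hk), inv_mul_le_iff₀ hk]
  exact h.trans (le_of_eq (by ring))

/-- `ker_line`, `b_arg_ne_zero`, `cen_eq` -/
theorem er_eq (hb : IsB b) (hψ : IsPsi ψ) (hu : Measurable u) (hG : Bornology.IsBounded G)
    (hS : Fam G S) (hg : Coef g) (s β : ℝ) (k : ℕ) (x : ℝ) :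
    er b ψ u S g s β k x = ∫ z in S k ∩ {z : P2 | dI k z.1 = dI k x},
      g z * (((2 : ℝ) ^ k)⁻¹ * haar k z.1 * b ((x - cen k x) / 2 ^ k) *
        (ψ (β - (z.2 - s * z.1) + (z.1 - x) * (u z - s)) - ψ (β - (z.2 - s * z.1)))) := by
  obtain ⟨A, -, hA, -⟩ := hψ.exists_lip
  have hm : MeasurableSet (S k ∩ {z : P2 | dI k z.1 = dI k x}) :=
    (hS.meas k).inter (measurableSet_dI_fst k _)
  have hB : Bornology.IsBounded (S k ∩ {z : P2 | dI k z.1 = dI k x}) :=
    hG.subset (inter_subset_left.trans (hS.sub k))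
  have h1 := integrableOn_ker hb hψ hu k hB hg (x, β + s * x)
  have h2 : IntegrableOn (fun z : P2 => g z * haar k z.1 * ψ (β - (z.2 - s * z.1)))
      (S k ∩ {z : P2 | dI k z.1 = dI k x}) := by
    refine Measure.integrableOn_of_bounded (M := A) hB.measure_lt_top.ne ?_ (ae_of_all _ fun z => ?_)
    · exact ((hg.meas.mul ((measurable_haar k).comp measurable_fst)).mul
        (hψ.smooth.continuous.measurable.comp (by fun_prop))).aestronglyMeasurable
    · rw [Real.norm_eq_abs, mul_assoc]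
      refine (api2_coef_le hg z _).trans ?_
      rw [abs_mul, abs_haar, one_mul]
      exact hA _
  unfold er phL Phi1 mn alpha
  rw [setIntegral_eq_of_subset_of_forall_sdiff_eq_zero (hS.meas k)
    (inter_subset_left (t := {z : P2 | dI k z.1 = dI k x})), ← mul_assoc, ← integral_const_mul,
    ← integral_sub h1 (h2.const_mul _)]
  · refine setIntegral_congr_fun hm fun z hz => ?_
    simp only [ker_line, cen_eq hz.2]
    ring
  · intro z hz
    by_contra hc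
    exact hz.2 ⟨hz.1, (ker_ne_zero hb hψ (right_ne_zero_of_mul hc)).1.symm⟩

theorem it1_wt_nonneg (u : P2 → ℝ) (s : ℝ) {ρ : ℝ} (hρ : 1 ≤ ρ) (S : ℕ → Set P2) (k : ℕ) (z : P2) :
    0 ≤ wt u s ρ S k z :=
  indicator_nonneg (fun z _ => div_nonneg (vv_nonneg u s k z) (by linarith)) z

theorem it1_wt_le {s ρ : ℝ} (hρ : 1 ≤ ρ) (hr : ∀ k z, z ∈ S k → 2 ^ k * |u z - s| ≤ ρ) (k : ℕ) (z : P2) :
    |wt u s ρ S k z| ≤ 1 := by
  rw [abs_of_nonneg (it1_wt_nonneg u s hρ S k z)]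
  by_cases hz : z ∈ S k
  · rw [wt, indicator_of_mem hz]
    exact (div_le_one (by linarith)).2 (hr k z hz)
  · rw [wt, indicator_of_notMem hz]
    exact zero_le_one

theorem it1_wt_meas (hu : Measurable u) (hS : ∀ k, MeasurableSet (S k)) (s ρ : ℝ) (k : ℕ) :
    Measurable (wt u s ρ S k) :=
  ((measurable_vv hu s k).div_const ρ).indicator (hS k)

theorem ps_nonneg (u : P2 → ℝ) (S : ℕ → Set P2) (s β : ℝ) {ρ : ℝ} (hρ : 1 ≤ ρ) (k : ℕ) (x : ℝ) :
    0 ≤ ps u S s β ρ k x := by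
  exact mul_nonneg (by positivity) (integral_nonneg fun z => it1_wt_nonneg u s hρ S k z)

theorem it1_pcoef_le {s ρ : ℝ} (hρ : 1 ≤ ρ) (hr : ∀ k z, z ∈ S k → 2 ^ k * |u z - s| ≤ ρ) (β : ℝ)
    (k : ℕ) (m : ℤ) : |pcoef (wt u s ρ S) s β (ρ + 1) k m| ≤ 2 * (ρ + 1) := by
  have hk : (0 : ℝ) < 2 ^ k := by positivity
  have h := api2_int_le (f := wt u s ρ S k) (measurableSet_col k m s β (ρ + 1)) zero_le_one
    (V := 2 * (ρ + 1) * 2 ^ k) (by positivity) (fun z _ => it1_wt_le hρ hr k z) (fun z hz _ => hz)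
    (volume_col k m s β (by linarith)).le
  rw [pcoef, abs_mul, abs_of_pos (inv_pos.2 hk), inv_mul_le_iff₀ hk]
  exact h.trans (le_of_eq (by ring))

theorem bm_ps (hu : Measurable u) (hS : Fam G S) {s ρ : ℝ} (hρ : 1 ≤ ρ)
    (hr : ∀ k z, z ∈ S k → 2 ^ k * |u z - s| ≤ ρ) (β : ℝ) (k : ℕ) : Bm (ps u S s β ρ k) := by
  exact Bm.step k (c := pcoef (wt u s ρ S) s β (ρ + 1) k) (it1_pcoef_le hρ hr β k)

/-- integrals over the terms in one interval against functions dominated by `v` on the column -/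
theorem abs_integral_le_ps (hu : Measurable u) (hG : Bornology.IsBounded G) (hS : Fam G S) {s ρ : ℝ}
    (hρ : 1 ≤ ρ) (hr : ∀ k z, z ∈ S k → 2 ^ k * |u z - s| ≤ ρ) (β : ℝ) (k : ℕ) (x : ℝ) {F : P2 → ℝ}
    {c : ℝ} (hc : 0 ≤ c) (hF : ∀ z ∈ S k, dI k z.1 = dI k x → |F z| ≤ c * ((2 : ℝ) ^ k)⁻¹ * vv u s k z)
    (h0 : ∀ z ∈ S k, dI k z.1 = dI k x → ρ + 1 < |z.2 - s * z.1 - β| → F z = 0) :
    |∫ z in S k ∩ {z : P2 | dI k z.1 = dI k x}, F z| ≤ c * ρ * ps u S s β ρ k x := by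
  have hm : MeasurableSet (S k ∩ {z : P2 | dI k z.1 = dI k x}) :=
    (hS.meas k).inter (measurableSet_dI_fst k _)
  have hm' := measurableSet_col k (dI k x) s β (ρ + 1)
  have hρ0 : 0 < ρ := by linarith
  have h1 : IntegrableOn (wt u s ρ S k)
      {z : P2 | dI k z.1 = dI k x ∧ |z.2 - s * z.1 - β| ≤ ρ + 1} := by
    refine Measure.integrableOn_of_bounded (M := 1) ?_
      (it1_wt_meas hu hS.meas s ρ k).aestronglyMeasurable (ae_of_all _ fun z => it1_wt_le hρ hr k z)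
    rw [volume_col k _ s β (by linarith)]
    exact ENNReal.ofReal_ne_top
  unfold ps pcoef
  rw [← mul_assoc, ← integral_const_mul, ← integral_indicator hm, ← integral_indicator hm',
    ← Real.norm_eq_abs]
  refine norm_integral_le_of_norm_le ((integrable_indicator_iff hm').2 (h1.const_mul _))
    (ae_of_all _ fun z => ?_)
  have h2 : ∀ z, 0 ≤ c * ρ * ((2 : ℝ) ^ k)⁻¹ * wt u s ρ S k z := fun z =>
    mul_nonneg (by positivity) (it1_wt_nonneg u s hρ S k z)
  have h3 := indicator_nonneg (s := {z : P2 | dI k z.1 = dI k x ∧ |z.2 - s * z.1 - β| ≤ ρ + 1})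
    (fun z _ => h2 z) z
  by_cases hz : z ∈ S k ∩ {z : P2 | dI k z.1 = dI k x}
  · rw [indicator_of_mem hz]
    by_cases hz' : |z.2 - s * z.1 - β| ≤ ρ + 1
    · rw [indicator_of_mem (show z ∈ {z : P2 | dI k z.1 = dI k x ∧ |z.2 - s * z.1 - β| ≤ ρ + 1} from
        ⟨hz.2, hz'⟩), wt, indicator_of_mem hz.1]
      refine (hF z hz.1 hz.2).trans (le_of_eq ?_)
      field_simp
    · rw [h0 z hz.1 hz.2 (not_le.1 hz'), norm_zero]
      exact h3
  · rw [indicator_of_notMem hz, norm_zero]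
    exact h3

theorem lineDens_mono {s β h h' ρ d : ℝ} {k0 : ℕ} (hh : h' ≤ h) (H : LineDens u G S s β h ρ d k0) :
    LineDens u G S s β h' ρ d k0 := by
  rintro k hk m ⟨k', hk', z, hz, h1, h2⟩
  refine (measure_mono ?_).trans (H k hk m ⟨k', hk', z, hz, h1, h2.trans hh⟩)
  rintro z ⟨h1, h2, h3, h4⟩
  exact ⟨h1, h2, h3.trans hh, h4⟩

end Crest.Agent.R87.I2
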