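import Crest.Agent.R87.KerF

/-! # R87, part K: the kernels (`kerS : KerStmt`). -/

set_option autoImplicit false

namespace Crest.Agent.R87

open MeasureTheory Set Real
open scoped SchwartzMap ContDiff

namespace K

theorem IsY_mono {Y : ℝ → ℝ} {A A' R : ℝ} (h : IsY Y A R) (hA : A ≤ A') : IsY Y A' R :=
  ⟨h.smooth, h.supp, h.n0.trans hA, h.n2.trans hA, h.n3.trans hA⟩

/-- uniform bounds for the first three derivatives of a test function. -/
theorem exists_bd3 {κ : ℝ → ℝ} (hs : ContDiff ℝ ∞ κ) (hc : HasCompactSupport κ) :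
    ∃ K : ℝ, 0 ≤ K ∧ ∀ i, i ≤ 3 → ∀ t, |iteratedDeriv i κ t| ≤ K := by
  let f : 𝓢(ℝ, ℝ) := hc.toSchwartzMap hs
  have h : ∀ i t, |iteratedDeriv i κ t| ≤ SchwartzMap.seminorm ℝ 0 i f := by
    intro i t
    have := f.le_seminorm' ℝ 0 i t
    simp only [pow_zero, one_mul, Real.norm_eq_abs] at this
    exact this
  refine ⟨∑ i ∈ Finset.range 4, SchwartzMap.seminorm ℝ 0 i f,
    Finset.sum_nonneg fun i _ => apply_nonneg _ _, fun i hi t => (h i t).trans ?_⟩
  exact Finset.single_le_sum (f := fun i => SchwartzMap.seminorm ℝ 0 i f)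
    (fun i _ => apply_nonneg _ _) (Finset.mem_range.2 (by omega))

/-- the sum of the first derivatives. -/
noncomputable def W (X : ℝ → ℝ) (t : ℝ) : ℝ := ∑ i ∈ Finset.range 4, |iteratedDeriv i X t|

theorem W_nonneg (X : ℝ → ℝ) (t : ℝ) : 0 ≤ W X t := Finset.sum_nonneg fun _ _ => abs_nonneg _

theorem le_W (X : ℝ → ℝ) {i : ℕ} (hi : i ≤ 3) (t : ℝ) : |iteratedDeriv i X t| ≤ W X t :=
  Finset.single_le_sum (f := fun i => |iteratedDeriv i X t|) (fun _ _ => abs_nonneg _)
    (Finset.mem_range.2 (by omega))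

theorem W_int (X : 𝓢(ℝ, ℝ)) (k : ℕ) : Integrable (fun t : ℝ => |t| ^ k * W X t) := by
  simp only [W, Finset.mul_sum]
  exact integrable_finsetSum _ fun i _ => schwartz_int X k i

theorem W_int0 (X : 𝓢(ℝ, ℝ)) : Integrable (W X) := by
  simpa using W_int X 0

theorem mul_bd {κ X : ℝ → ℝ} (hκ : ContDiff ℝ ∞ κ) (hX : ContDiff ℝ ∞ X) {K : ℝ} (hK0 : 0 ≤ K)
    {t : ℝ} (hK : ∀ i, i ≤ 3 → |iteratedDeriv i κ t| ≤ K) {n : ℕ} (hn : n ≤ 3) :
    |iteratedDeriv n (κ * X) t| ≤ 8 * K * W X t := by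
  rw [iteratedDeriv_mul (hκ.of_le (by exact_mod_cast le_top)).contDiffAt
    (hX.of_le (by exact_mod_cast le_top)).contDiffAt]
  refine (Finset.abs_sum_le_sum_abs _ _).trans ?_
  have h1 : ∀ i ∈ Finset.range (n + 1),
      |(n.choose i : ℝ) * iteratedDeriv i κ t * iteratedDeriv (n - i) X t|
        ≤ (n.choose i : ℝ) * (K * W X t) := by
    intro i hi
    have hi' : i ≤ 3 := by have := Finset.mem_range.1 hi; omega
    rw [abs_mul, abs_mul, Nat.abs_cast, mul_assoc]
    exact mul_le_mul_of_nonneg_left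
      (mul_le_mul (hK i hi') (le_W X (by omega) t) (abs_nonneg _) hK0) (Nat.cast_nonneg _)
  refine (Finset.sum_le_sum h1).trans ?_
  rw [← Finset.sum_mul, ← Nat.cast_sum, Nat.sum_range_choose, mul_assoc]
  refine mul_le_mul_of_nonneg_right ?_ (mul_nonneg hK0 (W_nonneg X t))
  have : 2 ^ n ≤ 2 ^ 3 := Nat.pow_le_pow_right (by norm_num) hn
  exact_mod_cast this

/-- the truncated second primitive. -/
theorem exists_Y (X : 𝓢(ℝ, ℝ)) : ∃ A : ℝ, 1 ≤ A ∧ ∀ R : ℝ, 1 ≤ R → ∃ Y : ℝ → ℝ, IsY Y A R ∧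
    Integrable (iteratedDeriv 2 Y) ∧
    ∫ t, |iteratedDeriv 2 X t - iteratedDeriv 2 Y t| ≤ A / R ^ 10 := by
  obtain ⟨κ, hκs, hκc, -, -, hκ1, hκ0⟩ := exists_bump (1 / 2) 1 (by norm_num) (by norm_num)
  obtain ⟨K, hK0, hK⟩ := exists_bd3 hκs hκc
  have hI0 : 0 ≤ ∫ t, W X t := integral_nonneg fun t => W_nonneg X t
  have hI1 : 0 ≤ ∫ t : ℝ, |t| ^ 10 * W X t :=
    integral_nonneg fun t => mul_nonneg (by positivity) (W_nonneg X t)
  set I0 := ∫ t, W X t with hI0d
  set I1 := ∫ t : ℝ, |t| ^ 10 * W X t with hI1d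
  have hp0 : 0 ≤ 8 * K * I0 := by positivity
  have hp1 : 0 ≤ (8 * K + 1) * 2 ^ 10 * I1 := by positivity
  refine ⟨1 + 8 * K * I0 + (8 * K + 1) * 2 ^ 10 * I1, by linarith, fun R hR => ?_⟩
  have hR0 : 0 < R := by linarith
  let κR : ℝ → ℝ := fun t => κ (R⁻¹ * t)
  have hκR : ContDiff ℝ ∞ κR := hκs.comp (contDiff_const.mul contDiff_id)
  have hKR : ∀ t i, i ≤ 3 → |iteratedDeriv i κR t| ≤ K := by
    intro t i hi
    have := iteratedDeriv_comp_const_mul (n := i) (hκs.of_le (by exact_mod_cast le_top)) R⁻¹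
    rw [show iteratedDeriv i κR t = R⁻¹ ^ i * iteratedDeriv i κ (R⁻¹ * t) from congrFun this t,
      abs_mul]
    have h1 : |R⁻¹ ^ i| ≤ 1 := by
      rw [abs_of_nonneg (by positivity)]
      exact pow_le_one₀ (by positivity) (inv_le_one_of_one_le₀ hR)
    calc _ ≤ 1 * K := mul_le_mul h1 (hK i hi _) (abs_nonneg _) zero_le_one
      _ = K := one_mul K
  have hYs : ContDiff ℝ ∞ (κR * (X : ℝ → ℝ)) := hκR.mul (X.smooth ⊤)
  have hb : ∀ n, n ≤ 3 → ∀ t, |iteratedDeriv n (κR * (X : ℝ → ℝ)) t| ≤ 8 * K * W X t :=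
    fun n hn t => mul_bd hκR (X.smooth ⊤) hK0 (hKR t) hn
  have hc : ∀ n, Continuous (iteratedDeriv n (κR * (X : ℝ → ℝ))) := fun n =>
    hYs.continuous_iteratedDeriv n (by exact_mod_cast le_top)
  have hn : ∀ n, n ≤ 3 → ∫ t, |iteratedDeriv n (κR * (X : ℝ → ℝ)) t| ≤ 8 * K * I0 := by
    intro n hn
    rw [hI0d, ← integral_const_mul]
    exact integral_mono_of_nonneg (Filter.Eventually.of_forall fun t => abs_nonneg _)
      ((W_int0 X).const_mul _) (Filter.Eventually.of_forall (hb n hn))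
  refine ⟨κR * (X : ℝ → ℝ), ⟨contDiff_infty.1 hYs 3, fun t ht => ?_, ?_, ?_, ?_⟩,
    ?_, ?_⟩
  · have : 1 ≤ |R⁻¹ * t| := by
      rw [abs_mul, abs_of_pos (inv_pos.2 hR0), ← div_eq_inv_mul, le_div_iff₀ hR0]; linarith
    simp [κR, hκ0 _ this]
  · have := hn 0 (by norm_num)
    rw [iteratedDeriv_zero] at this
    linarith
  · linarith [hn 2 (by norm_num)]
  · linarith [hn 3 le_rfl]
  · exact ((W_int0 X).const_mul (8 * K)).mono' (hc 2).aestronglyMeasurable
      (Filter.Eventually.of_forall (hb 2 (by norm_num)))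
  · have hpt : ∀ t, |iteratedDeriv 2 X t - iteratedDeriv 2 (κR * (X : ℝ → ℝ)) t|
        ≤ (8 * K + 1) * 2 ^ 10 / R ^ 10 * (|t| ^ 10 * W X t) := by
      intro t
      by_cases ht : |t| < R / 2
      · have he : (κR * (X : ℝ → ℝ)) =ᶠ[nhds t] X := by
          have ho : IsOpen {s : ℝ | |s| < R / 2} := isOpen_lt continuous_abs continuous_const
          filter_upwards [ho.mem_nhds ht] with s hs
          have : |R⁻¹ * s| ≤ 1 / 2 := by
            rw [abs_mul, abs_of_pos (inv_pos.2 hR0), ← div_eq_inv_mul, div_le_iff₀ hR0]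
            have : |s| < R / 2 := hs
            linarith
          simp [κR, hκ1 _ this]
        rw [he.iteratedDeriv_eq 2, sub_self, abs_zero]
        have := W_nonneg X t
        positivity
      · have h1 : 1 ≤ 2 * |t| / R := by rw [le_div_iff₀ hR0]; linarith [not_lt.1 ht]
        have h2 : 1 ≤ (2 * |t| / R) ^ 10 := one_le_pow₀ h1
        have h3 : |iteratedDeriv 2 X t - iteratedDeriv 2 (κR * (X : ℝ → ℝ)) t|
            ≤ (8 * K + 1) * W X t := by
          refine (abs_sub _ _).trans ?_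
          linarith [hb 2 (by norm_num) t, le_W X (i := 2) (by norm_num) t]
        have h4 : 0 ≤ (8 * K + 1) * W X t := mul_nonneg (by positivity) (W_nonneg X t)
        calc _ ≤ (8 * K + 1) * W X t * 1 := by linarith
          _ ≤ (8 * K + 1) * W X t * (2 * |t| / R) ^ 10 := mul_le_mul_of_nonneg_left h2 h4
          _ = _ := by rw [div_pow, mul_pow]; ring
    calc _ ≤ ∫ t : ℝ, (8 * K + 1) * 2 ^ 10 / R ^ 10 * (|t| ^ 10 * W X t) :=
          integral_mono_of_nonneg (Filter.Eventually.of_forall fun t => abs_nonneg _)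
            ((W_int X 10).const_mul _) (Filter.Eventually.of_forall hpt)
      _ = (8 * K + 1) * 2 ^ 10 * I1 / R ^ 10 := by rw [integral_const_mul]; ring
      _ ≤ _ := by gcongr; linarith

/-- the constants of a Schwartz function. -/
theorem exists_D (B : 𝓢(ℝ, ℝ)) : ∃ D : ℝ, 1 ≤ D ∧ (∀ y, |B y| ≤ D) ∧ (∀ y, |y| ^ 10 * |B y| ≤ D) ∧
    ∫ y, |B y| ≤ D ∧ ∫ y : ℝ, |y| ^ 10 * |B y| ≤ D ∧ ∫ y, |deriv B y| ≤ D ∧ ∫ y, |y * B y| ≤ D := by
  obtain ⟨C0, hC0, h0⟩ := B.decay 0 0
  obtain ⟨C1, hC1, h1⟩ := B.decay 10 0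
  simp only [norm_iteratedFDeriv_zero, Real.norm_eq_abs, pow_zero, one_mul] at h0 h1
  have a1 : 0 ≤ ∫ y, |B y| := integral_nonneg fun _ => abs_nonneg _
  have a2 : 0 ≤ ∫ y : ℝ, |y| ^ 10 * |B y| := integral_nonneg fun _ => by positivity
  have a3 : 0 ≤ ∫ y, |deriv B y| := integral_nonneg fun _ => abs_nonneg _
  have a4 : 0 ≤ ∫ y, |y * B y| := integral_nonneg fun _ => abs_nonneg _
  refine ⟨1 + C0 + C1 + (∫ y, |B y|) + (∫ y : ℝ, |y| ^ 10 * |B y|) + (∫ y, |deriv B y|)
    + ∫ y, |y * B y|, by linarith, fun y => ?_, fun y => ?_, by linarith, by linarith, by linarith,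
    by linarith⟩
  · linarith [h0 y]
  · linarith [h1 y]

theorem int_dil (g : ℝ → ℝ) {a : ℝ} (ha : 0 < a) : ∫ y, a * g (a * y) = ∫ y, g y := by
  rw [integral_const_mul, Measure.integral_comp_mul_left, abs_of_pos (inv_pos.2 ha), smul_eq_mul,
    mul_inv_cancel_left₀ ha.ne']

/-- truncation of the dilate. -/
noncomputable def tr (B : ℝ → ℝ) (R a : ℝ) (y : ℝ) : ℝ := if |y| ≤ R / a then a * B (a * y) else 0

theorem measurable_tr {B : ℝ → ℝ} (hB : Continuous B) (R a : ℝ) : Measurable (tr B R a) := by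
  unfold tr
  refine Measurable.ite (measurableSet_le (by fun_prop) measurable_const) ?_ measurable_const
  exact (continuous_const.mul (hB.comp (continuous_const.mul continuous_id))).measurable

theorem abs_tr_le (B : ℝ → ℝ) (R : ℝ) {a : ℝ} (ha : 0 < a) (y : ℝ) :
    |tr B R a y| ≤ a * |B (a * y)| := by
  unfold tr
  split_ifs
  · rw [abs_mul, abs_of_pos ha]
  · rw [abs_zero]; positivity

theorem abs_tail_le (B : ℝ → ℝ) {R a : ℝ} (hR : 0 < R) (ha : 0 < a) (y : ℝ) :
    |a * B (a * y) - tr B R a y| ≤ (R ^ 10)⁻¹ * (a * (|a * y| ^ 10 * |B (a * y)|)) := by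
  unfold tr
  split_ifs with h
  · rw [sub_self, abs_zero]; positivity
  · rw [sub_zero, abs_mul, abs_of_pos ha]
    have h1 : R ≤ |a * y| := by
      rw [abs_mul, abs_of_pos ha]
      have := (div_lt_iff₀ ha).1 (not_le.1 h)
      linarith
    have h2 : R ^ 10 ≤ |a * y| ^ 10 := pow_le_pow_left₀ hR.le h1 10
    have h3 : 0 < R ^ 10 := by positivity
    rw [← div_eq_inv_mul, le_div_iff₀ h3]
    have h4 : 0 ≤ a * |B (a * y)| := by positivity
    calc _ ≤ a * |B (a * y)| * |a * y| ^ 10 := mul_le_mul_of_nonneg_left h2 h4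
      _ = _ := by ring

theorem abs_int_mul_le {f g : ℝ → ℝ} (hf : Integrable f) {M : ℝ} (hg : ∀ s, |g s| ≤ M) :
    |∫ s, f s * g s| ≤ (∫ s, |f s|) * M := by
  rw [← integral_mul_const]
  refine (abs_integral_le_integral_abs).trans ?_
  refine integral_mono_of_nonneg (Filter.Eventually.of_forall fun s => abs_nonneg _)
    (hf.abs.mul_const M) (Filter.Eventually.of_forall fun s => ?_)
  simp only [abs_mul]
  exact mul_le_mul_of_nonneg_left (hg s) (abs_nonneg _)

theorem int_mul {f g : ℝ → ℝ} (hf : Integrable f) (hm : Measurable g) {M : ℝ}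
    (hg : ∀ s, |g s| ≤ M) : Integrable (fun s => f s * g s) :=
  hf.mul_bdd (c := M) hm.aestronglyMeasurable (Filter.Eventually.of_forall hg)

/-- reproduction of the truncated band. -/
theorem repro_tr {B χ χ' : ℝ → ℝ} (hB : Continuous B) (hχ : Integrable χ) (hχ' : Integrable χ')
    (hrep : ∀ c : ℝ, 1 ≤ |c| → |c| ≤ 4 → ∀ y, ∫ s, χ s * B (y - c * s) = B y)
    {D A R a : ℝ} (hR : 0 < R) (ha : 0 < a) (hD0 : ∀ y, |B y| ≤ D)
    (hD1 : ∀ y, |y| ^ 10 * |B y| ≤ D) (h1 : ∫ s, |χ' s| ≤ A) (h2 : ∫ s, |χ s - χ' s| ≤ A / R ^ 10)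
    {σ d : ℝ} (hσ : 0 < σ) (hd1 : σ ≤ |d|) (hd2 : |d| ≤ 4 * σ) (y : ℝ) :
    |tr B R a y - ∫ t, a * σ * χ' (a * σ * t) * tr B R a (y - d * t)|
      ≤ D * (1 + 2 * A) * a / R ^ 10 := by
  have hl : 0 < a * σ := mul_pos ha hσ
  have hD : 0 ≤ D := (abs_nonneg _).trans (hD0 0)
  have hR10 : 0 < R ^ 10 := by positivity
  set e : ℝ := d / (a * σ) with he
  have hch : ∫ t, a * σ * χ' (a * σ * t) * tr B R a (y - d * t)
      = ∫ s, χ' s * tr B R a (y - e * s) := by
    rw [← int_dil (fun s => χ' s * tr B R a (y - e * s)) hl]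
    refine integral_congr_ae (Filter.Eventually.of_forall fun t => ?_)
    have : e * (a * σ * t) = d * t := by rw [he]; field_simp
    simp only [this]
    ring
  rw [hch]
  let T : ℝ → ℝ := fun y => a * B (a * y) - tr B R a y
  have hT : ∀ y, |T y| ≤ a * D / R ^ 10 := by
    intro y
    refine (abs_tail_le B hR ha y).trans ?_
    rw [← div_eq_inv_mul]
    gcongr
    exact hD1 _
  have hTm : Measurable T :=
    (continuous_const.mul (hB.comp (continuous_const.mul continuous_id))).measurable.sub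
      (measurable_tr hB R a)
  let G : ℝ → ℝ := fun s => a * B (a * y - d / σ * s)
  have hG : ∀ s, |G s| ≤ a * D := by
    intro s
    simp only [G]
    rw [abs_mul, abs_of_pos ha]
    exact mul_le_mul_of_nonneg_left (hD0 _) ha.le
  have hGm : Measurable G :=
    (continuous_const.mul (hB.comp (continuous_const.sub
      (continuous_const.mul continuous_id)))).measurable
  have hTe : Measurable fun s => T (y - e * s) := hTm.comp (by fun_prop)
  have hc1 : 1 ≤ |d / σ| := by rw [abs_div, abs_of_pos hσ, le_div_iff₀ hσ]; linarith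
  have hc4 : |d / σ| ≤ 4 := by rw [abs_div, abs_of_pos hσ, div_le_iff₀ hσ]; linarith
  have hr : ∫ s, χ s * G s = a * B (a * y) := by
    rw [← hrep _ hc1 hc4 (a * y), ← integral_const_mul]
    refine integral_congr_ae (Filter.Eventually.of_forall fun s => ?_)
    simp only [G]; ring
  have hsplit : ∫ s, χ' s * tr B R a (y - e * s)
      = (∫ s, χ s * G s) - (∫ s, (χ s - χ' s) * G s) - ∫ s, χ' s * T (y - e * s) := by
    have i1 : Integrable fun s => χ s * G s := int_mul hχ hGm hG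
    have i2 : Integrable fun s => (χ s - χ' s) * G s := int_mul (hχ.sub hχ') hGm hG
    have i12 : Integrable fun s => χ s * G s - (χ s - χ' s) * G s := i1.sub i2
    have i3 : Integrable fun s => χ' s * T (y - e * s) := int_mul hχ' hTe fun s => hT _
    rw [← integral_sub i1 i2, ← integral_sub i12 i3]
    refine integral_congr_ae (Filter.Eventually.of_forall fun s => ?_)
    have : a * (y - e * s) = a * y - d / σ * s := by rw [he]; field_simp
    simp only [T, G, this]; ring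
  have b1 := abs_int_mul_le (hχ.sub hχ') hG
  have b2 := abs_int_mul_le hχ' (g := fun s => T (y - e * s)) fun s => hT _
  simp only [Pi.sub_apply] at b1
  have b1' : |∫ s, (χ s - χ' s) * G s| ≤ A / R ^ 10 * (a * D) :=
    b1.trans (mul_le_mul_of_nonneg_right h2 (by positivity))
  have b2' : |∫ s, χ' s * T (y - e * s)| ≤ A * (a * D / R ^ 10) :=
    b2.trans (mul_le_mul_of_nonneg_right h1 (by positivity))
  have b0 := hT y
  have hid : tr B R a y - ∫ s, χ' s * tr B R a (y - e * s)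
      = -T y + (∫ s, (χ s - χ' s) * G s) + ∫ s, χ' s * T (y - e * s) := by
    rw [hsplit, hr]; simp only [T]; ring
  rw [hid]
  calc _ ≤ |-T y| + |∫ s, (χ s - χ' s) * G s| + |∫ s, χ' s * T (y - e * s)| := abs_add_three _ _ _
    _ ≤ a * D / R ^ 10 + A / R ^ 10 * (a * D) + A * (a * D / R ^ 10) := by
        rw [abs_neg]; linarith
    _ = _ := by ring

end K

open K in
theorem kerS : KerStmt := by
  obtain ⟨Λ, X, B, hΛ, hB, hrep⟩ := ker_core
  obtain ⟨A1, hA1, hY⟩ := exists_Y X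
  obtain ⟨D, hD, hD0, hD1, hD2, hD3, -, -⟩ := exists_D B
  obtain ⟨E, hE, hE0, -, -, -, hE1, hE2⟩ := exists_D Λ
  have hp : D * 1 ≤ D * (1 + 2 * A1) := mul_le_mul_of_nonneg_left (by linarith) (by linarith)
  have hp' : 1 * (1 + 2 * A1) ≤ D * (1 + 2 * A1) := mul_le_mul_of_nonneg_right hD (by linarith)
  refine ⟨Λ, E + D * (1 + 2 * A1), by linarith, Λ.smooth 1, Λ.integrable, ?_, ?_, hΛ, by linarith,
    by linarith, fun y => by linarith [hE0 y], fun R hR => ?_⟩
  · simpa using schwartz_int' Λ 1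
  · have := schwartz_int Λ 1 0
    simp only [pow_one, iteratedDeriv_zero, ← abs_mul] at this
    exact (integrable_norm_iff (continuous_id.mul Λ.continuous).aestronglyMeasurable).1 this
  obtain ⟨Y, hY1, hY2, hY3⟩ := hY R hR
  have hR0 : 0 < R := by linarith
  have hR10 : 0 < R ^ 10 := by positivity
  refine ⟨Y, IsY_mono hY1 (by linarith), fun i => ?_⟩
  have ha : (0 : ℝ) < 2 ^ i := by positivity
  have hdil : ∀ y, dil Λ (2 ^ (i + 1)) y - dil Λ (2 ^ i) y = 2 ^ i * B (2 ^ i * y) := by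
    intro y
    rw [hB, dil, dil, zpow_add_one₀ (by norm_num : (2 : ℝ) ≠ 0)]
    rw [show (2 : ℝ) ^ i * 2 * y = 2 * (2 ^ i * y) by ring]
    ring
  have hband : band Λ R i = tr B R (2 ^ i) := by
    funext y; rw [band, tr, hdil]
  rw [hband]
  generalize (2 : ℝ) ^ i = a at ha hdil ⊢
  refine ⟨?_, ?_, ?_⟩
  · calc _ ≤ ∫ y, a * |B (a * y)| :=
          integral_mono_of_nonneg (Filter.Eventually.of_forall fun _ => abs_nonneg _)
            ((B.integrable.abs.comp_mul_left' ha.ne').const_mul a)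
            (Filter.Eventually.of_forall (abs_tr_le B R ha))
      _ = ∫ y, |B y| := int_dil (fun y => |B y|) ha
      _ ≤ _ := by linarith
  · simp only [hdil]
    have hi : Integrable (fun y : ℝ => |y| ^ 10 * |B y|) := by simpa using schwartz_int B 10 0
    calc _ ≤ ∫ y, (R ^ 10)⁻¹ * (a * (|a * y| ^ 10 * |B (a * y)|)) :=
          integral_mono_of_nonneg (Filter.Eventually.of_forall fun _ => abs_nonneg _)
            (((hi.comp_mul_left' ha.ne').const_mul a).const_mul _)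
            (Filter.Eventually.of_forall (abs_tail_le B hR0 ha))
      _ = (R ^ 10)⁻¹ * ∫ y : ℝ, |y| ^ 10 * |B y| := by
          rw [integral_const_mul, int_dil (fun y => |y| ^ 10 * |B y|) ha]
      _ ≤ _ := by
          rw [← div_eq_inv_mul]
          gcongr
          linarith
  · intro σ d hσ hd1 hd2 y
    refine (repro_tr B.continuous (schwartz_int' X 2) hY2 hrep hR0 ha hD0 hD1 hY1.n2 hY3 hσ hd1
      hd2 y).trans ?_
    gcongr
    linarith

end Crest.Agent.R87
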