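import Crest.Agent.R87.Defs

/-! # R87, part K: the Fourier part (band limited kernels). -/

set_option autoImplicit false

namespace Crest.Agent.R87.K

open MeasureTheory Set Real
open scoped FourierTransform SchwartzMap ContDiff

/-- a smooth even bump. -/
theorem exists_bump (a b : ℝ) (ha : 0 < a) (hab : a < b) :
    ∃ φ : ℝ → ℝ, ContDiff ℝ ∞ φ ∧ HasCompactSupport φ ∧ (∀ x, φ (-x) = φ x) ∧ (∀ x, 0 ≤ φ x) ∧
      (∀ x, |x| ≤ a → φ x = 1) ∧ (∀ x, b ≤ |x| → φ x = 0) := by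
  let f : ContDiffBump (0 : ℝ) := ⟨a, b, ha, hab⟩
  refine ⟨f, f.contDiff, f.hasCompactSupport, f.neg, f.nonneg', fun x hx => ?_, fun x hx => ?_⟩
  · apply f.one_of_mem_closedBall
    simpa [f, Real.norm_eq_abs] using hx
  · apply f.zero_of_le_dist
    simpa [f, Real.norm_eq_abs] using hx

theorem ft_even (g : ℝ → ℂ) (he : ∀ x, g (-x) = g x) (y : ℝ) : 𝓕 g (-y) = 𝓕 g y := by
  rw [← Real.fourierInv_eq_fourier_neg, Real.fourierInv_eq_fourier_comp_neg]
  simp only [he]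

theorem ft_conj (ϖ : ℝ → ℝ) (y : ℝ) :
    (starRingEnd ℂ) (𝓕 (fun ξ => (ϖ ξ : ℂ)) y) = 𝓕 (fun ξ => (ϖ ξ : ℂ)) (-y) := by
  rw [Real.fourier_real_eq_integral_exp_smul, Real.fourier_real_eq_integral_exp_smul,
    ← integral_conj]
  refine integral_congr_ae (Filter.Eventually.of_forall fun v => ?_)
  simp only [smul_eq_mul, map_mul, Complex.conj_ofReal, ← Complex.exp_conj, Complex.conj_I]
  congr 2
  push_cast
  ring

/-- the Fourier transform of an even real test function is a real Schwartz function. -/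
theorem exists_ft (ϖ : ℝ → ℝ) (hs : ContDiff ℝ ∞ ϖ) (hc : HasCompactSupport ϖ)
    (he : ∀ x, ϖ (-x) = ϖ x) :
    ∃ L : 𝓢(ℝ, ℝ), (∀ y, (L y : ℂ) = 𝓕 (fun ξ => (ϖ ξ : ℂ)) y) ∧
      ∀ ζ, 𝓕 (fun y => (L y : ℂ)) ζ = ϖ ζ := by
  have hc' : HasCompactSupport (fun ξ => (ϖ ξ : ℂ)) :=
    hc.comp_left (g := fun x : ℝ => (x : ℂ)) (by simp)
  have hs' : ContDiff ℝ ∞ (fun ξ => (ϖ ξ : ℂ)) := Complex.ofRealCLM.contDiff.comp hs
  let f : 𝓢(ℝ, ℂ) := hc'.toSchwartzMap hs'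
  let L : 𝓢(ℝ, ℝ) := SchwartzMap.postcompCLM (𝕜 := ℝ) Complex.reCLM (𝓕 f)
  have he' : ∀ x, (fun ξ => (ϖ ξ : ℂ)) (-x) = (fun ξ => (ϖ ξ : ℂ)) x := fun x => by simp [he]
  have h1 : ∀ y, (L y : ℂ) = 𝓕 (fun ξ => (ϖ ξ : ℂ)) y := by
    intro y
    have h2 : L y = (𝓕 (fun ξ => (ϖ ξ : ℂ)) y).re := rfl
    rw [h2]
    apply Complex.conj_eq_iff_re.1
    rw [ft_conj, ft_even _ he']
  refine ⟨L, h1, fun ζ => ?_⟩
  have h3 : (fun y => (L y : ℂ)) = ((𝓕 f : 𝓢(ℝ, ℂ)) : ℝ → ℂ) := by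
    funext y; rw [h1]; rfl
  have h4 : 𝓕⁻ (𝓕 f) = f := FourierTransform.fourierInv_fourier_eq f
  have h5 : (𝓕⁻ (𝓕 f) : 𝓢(ℝ, ℂ)) (-ζ) = 𝓕 ((𝓕 f : 𝓢(ℝ, ℂ)) : ℝ → ℂ) ζ := by
    rw [SchwartzMap.fourierInv_coe, Real.fourierInv_eq_fourier_neg, neg_neg]
  rw [h3, ← h5, h4]
  change ((ϖ (-ζ) : ℝ) : ℂ) = _
  rw [he]

theorem iteratedDeriv_ofReal {f : ℝ → ℝ} (hf : ContDiff ℝ ∞ f) (n : ℕ) :
    iteratedDeriv n (fun y => (f y : ℂ)) = fun y => ((iteratedDeriv n f y : ℝ) : ℂ) := by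
  induction n with
  | zero => simp
  | succ n ih =>
    rw [iteratedDeriv_succ, iteratedDeriv_succ, ih]
    funext y
    have hd : DifferentiableAt ℝ (iteratedDeriv n f) y :=
      (hf.differentiable_iteratedDeriv n (by exact_mod_cast ENat.natCast_lt_top n)) y
    exact hd.hasDerivAt.ofReal_comp.deriv

theorem schwartz_int (X : 𝓢(ℝ, ℝ)) (k n : ℕ) :
    Integrable (fun t : ℝ => |t| ^ k * |iteratedDeriv n X t|) := by
  have := X.integrable_pow_mul_iteratedFDeriv volume k n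
  simpa only [norm_iteratedFDeriv_eq_norm_iteratedDeriv, Real.norm_eq_abs] using this

theorem schwartz_cont (X : 𝓢(ℝ, ℝ)) (n : ℕ) : Continuous (iteratedDeriv n X) :=
  (X.smooth ⊤).continuous_iteratedDeriv n (by exact_mod_cast le_top)

theorem schwartz_int' (X : 𝓢(ℝ, ℝ)) (n : ℕ) : Integrable (iteratedDeriv n X) := by
  have := schwartz_int X 0 n
  simp only [pow_zero, one_mul] at this
  exact (integrable_norm_iff (schwartz_cont X n).aestronglyMeasurable).1 this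

theorem ft_deriv2 (X : 𝓢(ℝ, ℝ)) (ζ : ℝ) :
    𝓕 (fun y => ((iteratedDeriv 2 X y : ℝ) : ℂ)) ζ
      = (2 * π * Complex.I * ζ) ^ 2 * 𝓕 (fun y => (X y : ℂ)) ζ := by
  have hs : ContDiff ℝ ∞ (fun y => (X y : ℂ)) := Complex.ofRealCLM.contDiff.comp (X.smooth ⊤)
  have h := Real.fourier_iteratedDeriv (f := fun y => (X y : ℂ)) (N := ⊤) (n := 2) hs
    (fun n _ => by
      rw [iteratedDeriv_ofReal (X.smooth ⊤)]
      exact (schwartz_int' X n).ofReal) le_top
  rw [iteratedDeriv_ofReal (X.smooth ⊤)] at h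
  rw [h]; simp only [smul_eq_mul]

/-- reproduction of a band limited function. -/
theorem repro_ft (χ : ℝ → ℝ) (β : ℝ → ℂ) (hχ : Integrable χ) (hβ : Integrable β)
    (hχc : Continuous χ) (hβc : Continuous β) (c y : ℝ)
    (h : ∀ ξ, β ξ ≠ 0 → 𝓕 (fun s => (χ s : ℂ)) (-(c * ξ)) = 1) :
    ∫ s, (χ s : ℂ) * 𝓕 β (y - c * s) = 𝓕 β y := by
  simp only [Real.fourier_real_eq_integral_exp_smul, smul_eq_mul] at h ⊢
  simp_rw [← integral_const_mul]
  rw [integral_integral_swap]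
  · refine integral_congr_ae (Filter.Eventually.of_forall fun ξ => ?_)
    by_cases hb : β ξ = 0
    · simp [hb]
    · have h1 := h ξ hb
      have h2 : ∀ s : ℝ, (χ s : ℂ) * (Complex.exp (↑(-2 * π * ξ * (y - c * s)) * Complex.I) * β ξ)
          = (Complex.exp (↑(-2 * π * ξ * y) * Complex.I) * β ξ) *
            (Complex.exp (↑(-2 * π * s * -(c * ξ)) * Complex.I) * (χ s : ℂ)) := by
        intro s
        have : ((-2 * π * ξ * (y - c * s) : ℝ) : ℂ) * Complex.I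
            = ↑(-2 * π * ξ * y) * Complex.I + ↑(-2 * π * s * -(c * ξ)) * Complex.I := by
          push_cast; ring
        rw [this, Complex.exp_add]; ring
      simp only [h2]
      rw [integral_const_mul, h1, mul_one]
  · have hi : Integrable (fun p : ℝ × ℝ => ‖χ p.1‖ * ‖β p.2‖) (volume.prod volume) :=
      hχ.norm.mul_prod hβ.norm
    refine hi.mono' ?_ (Filter.Eventually.of_forall fun p => ?_)
    · apply Continuous.aestronglyMeasurable
      unfold Function.uncurry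
      fun_prop
    · simp only [Function.uncurry, norm_mul, Complex.norm_exp_ofReal_mul_I, one_mul,
        Complex.norm_real, le_refl]

theorem ft_dil (g : ℝ → ℂ) (y : ℝ) : 𝓕 (fun ξ => g (2⁻¹ * ξ)) y = 2 * 𝓕 g (2 * y) := by
  simp only [Real.fourier_real_eq_integral_exp_smul, smul_eq_mul]
  have h := Measure.integral_comp_inv_mul_left
    (fun v : ℝ => Complex.exp (↑(-2 * π * v * (2 * y)) * Complex.I) * g v) 2
  have h2 : ∀ x : ℝ, -2 * π * (2⁻¹ * x) * (2 * y) = -2 * π * x * y := fun x => by ring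
  simp only [h2] at h
  rw [h]
  simp

/-- the band limited kernels. -/
theorem ker_core : ∃ Λ X B : 𝓢(ℝ, ℝ), ∫ y, Λ y = 1 ∧ (∀ y, B y = 2 * Λ (2 * y) - Λ y) ∧
    ∀ c : ℝ, 1 ≤ |c| → |c| ≤ 4 → ∀ y, ∫ s, iteratedDeriv 2 X s * B (y - c * s) = B y := by
  obtain ⟨φ, hφs, hφc, hφe, -, hφ1, hφ0⟩ := exists_bump 1 2 one_pos (by norm_num)
  obtain ⟨κ, hκs, -, hκe, hκn, hκ1, hκ0⟩ := exists_bump (1 / 2) 1 (by norm_num) (by norm_num)
  obtain ⟨ϖ, hϖs, hϖc, hϖe, -, hϖ1, -⟩ := exists_bump 16 17 (by norm_num) (by norm_num)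
  have hq : ∀ ζ : ℝ, 0 < ζ ^ 2 + κ ζ := by
    intro ζ
    by_cases h : ζ = 0
    · rw [h, hκ1 0 (by norm_num)]; norm_num
    · have := hκn ζ
      have : 0 < ζ ^ 2 := by positivity
      linarith
  let ρ : ℝ → ℝ := fun ζ => ϖ ζ * (-(4 * π ^ 2 * (ζ ^ 2 + κ ζ))⁻¹)
  have hρs : ContDiff ℝ ∞ ρ := by
    refine hϖs.mul (ContDiff.neg (ContDiff.inv ?_ fun ζ => ?_))
    · exact contDiff_const.mul ((contDiff_id.pow 2).add hκs)
    · have := hq ζ
      have := Real.pi_pos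
      positivity
  have hρc : HasCompactSupport ρ := hϖc.mul_right
  have hρe : ∀ x, ρ (-x) = ρ x := fun x => by simp [ρ, hϖe, hκe]
  let β : ℝ → ℝ := fun ξ => φ (2⁻¹ * ξ) - φ ξ
  have hφ2 : ContDiff ℝ ∞ (fun ξ : ℝ => φ (2⁻¹ * ξ)) := hφs.comp (contDiff_const.mul contDiff_id)
  have hφ2c : HasCompactSupport (fun ξ : ℝ => φ (2⁻¹ * ξ)) := by
    refine HasCompactSupport.intro (isCompact_Icc (a := -4) (b := 4)) fun x hx => hφ0 _ ?_
    rw [abs_mul, abs_of_pos (by norm_num : (0 : ℝ) < 2⁻¹)]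
    have : 4 ≤ |x| := by
      by_contra hh
      exact hx (abs_le.1 (not_le.1 hh).le)
    linarith
  have hβs : ContDiff ℝ ∞ β := hφ2.sub hφs
  have hβc : HasCompactSupport β := hφ2c.sub hφc
  have hβe : ∀ x, β (-x) = β x := fun x => by simp [β, hφe]
  obtain ⟨Λ, hΛ1, hΛ2⟩ := exists_ft φ hφs hφc hφe
  obtain ⟨X, -, hX2⟩ := exists_ft ρ hρs hρc hρe
  obtain ⟨B, hB1, -⟩ := exists_ft β hβs hβc hβe
  have hint : ∀ {g : ℝ → ℝ}, ContDiff ℝ ∞ g → HasCompactSupport g →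
      Integrable (fun ξ => (g ξ : ℂ)) := fun hg hc =>
    (hg.continuous.integrable_of_hasCompactSupport hc).ofReal
  refine ⟨Λ, X, B, ?_, fun y => ?_, fun c hc1 hc4 y => ?_⟩
  · have h := hΛ2 0
    rw [Real.fourier_real_eq_integral_exp_smul, hφ1 0 (by norm_num)] at h
    simp only [mul_zero, Complex.ofReal_zero, zero_mul, Complex.exp_zero, smul_eq_mul, one_mul,
      integral_complex_ofReal] at h
    exact_mod_cast h
  · apply Complex.ofReal_injective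
    push_cast
    rw [hB1, hΛ1, hΛ1, ← ft_dil]
    simp only [Real.fourier_real_eq, β]
    rw [← integral_sub]
    · refine integral_congr_ae (Filter.Eventually.of_forall fun v => ?_)
      simp [smul_sub]
    · have := (Real.fourierIntegral_convergent_iff (μ := volume) y).2 (hint hφ2 hφ2c)
      simpa [mul_comm] using this
    · have := (Real.fourierIntegral_convergent_iff (μ := volume) y).2 (hint hφs hφc)
      simpa [mul_comm] using this
  · apply Complex.ofReal_injective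
    rw [← integral_complex_ofReal]
    push_cast
    simp only [hB1]
    refine repro_ft _ _ (schwartz_int' X 2) (hint hβs hβc) (schwartz_cont X 2)
      (Complex.continuous_ofReal.comp hβs.continuous) c y fun ξ hξ => ?_
    have hξ1 : 1 ≤ |ξ| := by
      by_contra hh
      apply hξ
      have h1 : |ξ| ≤ 1 := (not_le.1 hh).le
      have h2 : |2⁻¹ * ξ| ≤ 1 := by
        rw [abs_mul, abs_of_pos (by norm_num : (0 : ℝ) < 2⁻¹)]; linarith
      simp [β, hφ1 _ h1, hφ1 _ h2]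
    have hξ4 : |ξ| ≤ 4 := by
      by_contra hh
      apply hξ
      have h1 : 2 ≤ |ξ| := by linarith [not_le.1 hh]
      have h2 : 2 ≤ |2⁻¹ * ξ| := by
        rw [abs_mul, abs_of_pos (by norm_num : (0 : ℝ) < 2⁻¹)]; linarith [not_le.1 hh]
      simp [β, hφ0 _ h1, hφ0 _ h2]
    have ha1 : 1 ≤ |-(c * ξ)| := by rw [abs_neg, abs_mul]; nlinarith
    have ha2 : |-(c * ξ)| ≤ 16 := by rw [abs_neg, abs_mul]; nlinarith [abs_nonneg c]
    rw [ft_deriv2, hX2]
    generalize -(c * ξ) = ζ at ha1 ha2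
    have hz : ζ ≠ 0 := by rintro rfl; simp at ha1; linarith
    have hρζ : ρ ζ = -(4 * π ^ 2 * ζ ^ 2)⁻¹ := by simp [ρ, hϖ1 _ ha2, hκ0 _ ha1]
    rw [hρζ]
    have hpi : (π : ℂ) ≠ 0 := by exact_mod_cast Real.pi_ne_zero
    have hz' : (ζ : ℂ) ≠ 0 := by exact_mod_cast hz
    push_cast
    rw [mul_pow, mul_pow, Complex.I_sq]
    field_simp
    norm_num

end Crest.Agent.R87.K
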