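import Crest.Agent.R87.ILine

/-! # R87 / L2 : the `L²` gain (aux prefix `l2_`) -/

set_option autoImplicit false
set_option linter.unusedVariables false

namespace Crest.Agent.R87

open MeasureTheory Set I2
open scoped ENNReal

theorem l2_sq (a : ℕ → ℝ) (n : ℕ) : (∑ k ∈ Finset.Icc 0 n, a k) ^ 2 =
    ∑ k ∈ Finset.range (n + 1), a k * ∑ k' ∈ Finset.Icc (k + 0) n, a k' +
      ∑ k ∈ Finset.range (n + 1), a k * ∑ k' ∈ Finset.Icc (k + 1) n, a k' := by
  induction n with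
  | zero => simp [sq]
  | succ n ih =>
    have e0 : ∑ k ∈ Finset.range (n + 1), a k * ∑ k' ∈ Finset.Icc (k + 0) (n + 1), a k' =
        ∑ k ∈ Finset.range (n + 1), a k * ∑ k' ∈ Finset.Icc (k + 0) n, a k' +
          (∑ k ∈ Finset.range (n + 1), a k) * a (n + 1) := by
      rw [Finset.sum_mul, ← Finset.sum_add_distrib]
      refine Finset.sum_congr rfl fun k hk => ?_
      rw [Finset.sum_Icc_succ_top (by have := Finset.mem_range.1 hk; omega), mul_add]
    have e1 : ∑ k ∈ Finset.range (n + 1), a k * ∑ k' ∈ Finset.Icc (k + 1) (n + 1), a k' =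
        ∑ k ∈ Finset.range (n + 1), a k * ∑ k' ∈ Finset.Icc (k + 1) n, a k' +
          (∑ k ∈ Finset.range (n + 1), a k) * a (n + 1) := by
      rw [Finset.sum_mul, ← Finset.sum_add_distrib]
      refine Finset.sum_congr rfl fun k hk => ?_
      rw [Finset.sum_Icc_succ_top (by have := Finset.mem_range.1 hk; omega), mul_add]
    have e2 : ∑ k ∈ Finset.Icc 0 n, a k = ∑ k ∈ Finset.range (n + 1), a k := by
      rw [Finset.range_eq_Ico]; rfl
    rw [Finset.sum_Icc_succ_top (Nat.zero_le _), Finset.sum_range_succ _ (n + 1),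
      Finset.sum_range_succ _ (n + 1), e0, e1, add_sq, ih, e2]
    simp
    ring

theorem l2_par_trunc (ι : ℕ) {k0 k1 : ℕ} (h : k0 ≤ k1) (A : ℕ → ℝ → ℝ) {L : ℕ → ℝ → ℝ}
    (hL : ∀ k x, k0 < k → L k x = 0) (x : ℝ) : par ι k1 A L x = par ι k0 A L x := by
  unfold par
  have e : ∀ k, ∑ k' ∈ Finset.Icc (k + ι) k1, L k' x = ∑ k' ∈ Finset.Icc (k + ι) k0, L k' x := by
    intro k
    symm
    refine Finset.sum_subset (Finset.Icc_subset_Icc_right h) fun i hi hi' => hL i x ?_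
    simp only [Finset.mem_Icc] at hi hi'
    omega
  simp_rw [e]
  symm
  refine Finset.sum_subset (Finset.range_subset_range.2 (by omega)) fun i hi hi' => ?_
  simp only [Finset.mem_range] at hi hi'
  rw [Finset.Icc_eq_empty (by omega)]
  simp

theorem l2_shear {F : P2 → ℝ} (hF : Measurable F) {L : ℝ} (hL : ∀ z, |F z| ≤ L) (P : Tile) {h B : ℝ}
    (hh : 0 ≤ h) (h0 : ∀ z, z ∉ P.tube h → F z = 0)
    (hB : ∀ β, |∫ x in dInt P.k P.m, F (x, β + P.s * x)| ≤ B) :
    Integrable F ∧ |∫ z, F z| ≤ 2 * h * B := by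
  have hI : Integrable F := by
    refine IntegrableOn.integrable_of_forall_notMem_eq_zero (s := P.tube h) ?_ h0
    refine Measure.integrableOn_of_bounded (M := L) ?_ hF.aestronglyMeasurable
      (Filter.Eventually.of_forall fun z => hL z)
    rw [P.volume_tube hh]; exact ENNReal.ofReal_ne_top
  refine ⟨hI, ?_⟩
  have hs := measurePreserving_shear P.s
  have e1 : ∫ z, F z = ∫ z : P2, F (z.1, z.2 + P.s * z.1) := by
    conv_lhs => rw [← hs.map_eq]
    rw [integral_map hs.measurable.aemeasurable hF.aestronglyMeasurable]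
  have hI2 : Integrable (fun z : P2 => F (z.1, z.2 + P.s * z.1)) (volume.prod volume) :=
    hs.integrable_comp_of_integrable hI
  rw [e1, Measure.volume_eq_prod, integral_prod_symm _ hI2]
  set c := (P.β : ℝ) - P.s * P.a with hc
  have e2 : ∀ β : ℝ, β ∉ Icc (c - h) (c + h) → ∫ x, F (x, β + P.s * x) = 0 := by
    intro β hβ
    have : ∀ x, F (x, β + P.s * x) = 0 := by
      intro x
      refine h0 _ fun hz => hβ ?_
      have h2 := hz.2
      simp only [Tile.line] at h2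
      rw [abs_le] at h2
      constructor <;> linarith [h2.1, h2.2]
    simp [this]
  rw [← setIntegral_eq_integral_of_forall_compl_eq_zero e2]
  have e3 : ∀ β : ℝ, ∫ x, F (x, β + P.s * x) = ∫ x in dInt P.k P.m, F (x, β + P.s * x) := by
    intro β
    refine (setIntegral_eq_integral_of_forall_compl_eq_zero fun x hx => h0 _ fun hz => hx ?_).symm
    exact mem_dInt.2 hz.1
  have := norm_setIntegral_le_of_norm_le_const (μ := (volume : Measure ℝ)) (s := Icc (c - h) (c + h))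
    (f := fun β => ∫ x, F (x, β + P.s * x)) (C := B) (by simp)
    (fun β _ => by rw [Real.norm_eq_abs, e3]; exact hB β)
  rw [Real.norm_eq_abs, Real.volume_real_Icc_of_le (by linarith)] at this
  refine this.trans (le_of_eq ?_)
  ring

theorem l2_arith {w ϑ t : ℝ} (hw : 1 ≤ w) (hϑ : 1 ≤ ϑ) (ht : 1 ≤ t)
    (h : ϑ ^ 16 * t ≤ 64 ^ 16 * w ^ 80) :
    ϑ * t * (w ^ 19 * ϑ ^ 19 / w ^ 160 + (1 + ϑ ^ 19 / w ^ 80) / w ^ 120 + ϑ ^ 22 / w ^ 160) ≤
      4 * 64 ^ 23 / w ^ 40 := by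
  have hw0 : 0 < w := by linarith
  have h1 : ϑ ≤ 64 * w ^ 5 := by
    refine le_of_pow_le_pow_left₀ (n := 16) (by norm_num) (by positivity) ?_
    calc ϑ ^ 16 ≤ ϑ ^ 16 * t := le_mul_of_one_le_right (by positivity) ht
      _ ≤ 64 ^ 16 * w ^ 80 := h
      _ = _ := by ring
  have hp : ∀ n : ℕ, n ≤ 7 → ϑ ^ 16 * t * ϑ ^ n ≤ 64 ^ 23 * w ^ (80 + 5 * n) := by
    intro n hn
    calc ϑ ^ 16 * t * ϑ ^ n ≤ 64 ^ 16 * w ^ 80 * (64 * w ^ 5) ^ n := by gcongr
      _ = 64 ^ (16 + n) * w ^ (80 + 5 * n) := by rw [mul_pow, ← pow_mul]; ring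
      _ ≤ 64 ^ 23 * w ^ (80 + 5 * n) := by
        gcongr
        · norm_num
        · omega
  have hd : ∀ (a : ℝ) (p q : ℕ), a ≤ 64 ^ 23 * w ^ p → p + 40 ≤ q → a / w ^ q ≤ 64 ^ 23 / w ^ 40 := by
    intro a p q ha hpq
    rw [div_le_div_iff₀ (by positivity) (by positivity)]
    calc a * w ^ 40 ≤ 64 ^ 23 * w ^ p * w ^ 40 := by gcongr
      _ = 64 ^ 23 * w ^ (p + 40) := by rw [pow_add]; ring
      _ ≤ 64 ^ 23 * w ^ q := by gcongr
  have t1 := hd (ϑ ^ 16 * t * ϑ ^ 4 * w ^ 19) (80 + 5 * 4 + 19) 160 (by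
    calc _ ≤ 64 ^ 23 * w ^ (80 + 5 * 4) * w ^ 19 :=
          mul_le_mul_of_nonneg_right (hp 4 (by norm_num)) (by positivity)
      _ = _ := by ring)
    (by norm_num)
  have t2 := hd (ϑ * t) (80 + 5 * 0) 120 (le_trans (by
    rw [pow_zero, mul_one]
    exact mul_le_mul_of_nonneg_right (le_self_pow₀ hϑ (by norm_num)) (by linarith)) (hp 0 (by norm_num)))
    (by norm_num)
  have t3 := hd _ (80 + 5 * 4) 200 (hp 4 (by norm_num)) (by norm_num)
  have t4 := hd _ (80 + 5 * 7) 160 (hp 7 le_rfl) (by norm_num)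
  calc _ = ϑ ^ 16 * t * ϑ ^ 4 * w ^ 19 / w ^ 160 + ϑ * t / w ^ 120 + ϑ ^ 16 * t * ϑ ^ 4 / w ^ 200 +
        ϑ ^ 16 * t * ϑ ^ 7 / w ^ 160 := by field_simp; ring
    _ ≤ 64 ^ 23 / w ^ 40 + 64 ^ 23 / w ^ 40 + 64 ^ 23 / w ^ 40 + 64 ^ 23 / w ^ 40 := by gcongr
    _ = _ := by ring

theorem l2_w (j : ℕ) : ∃ w : ℝ, 1 ≤ w ∧ w ^ 80 = 2 ^ j ∧ 1 / w ^ 40 ≤ (3 / 4) ^ j := by
  have h80 : (((2 : ℝ) ^ j) ^ ((80 : ℕ) : ℝ)⁻¹) ^ 80 = 2 ^ j :=
    Real.rpow_inv_natCast_pow (by positivity) (by norm_num)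
  have h1 : 1 ≤ ((2 : ℝ) ^ j) ^ ((80 : ℕ) : ℝ)⁻¹ :=
    Real.one_le_rpow (one_le_pow₀ one_le_two) (by positivity)
  refine ⟨_, h1, h80, ?_⟩
  generalize ((2 : ℝ) ^ j) ^ ((80 : ℕ) : ℝ)⁻¹ = w at h1 h80
  refine le_of_pow_le_pow_left₀ (n := 2) (by norm_num) (by positivity) ?_
  rw [div_pow, one_pow, ← pow_mul, h80, ← pow_mul, mul_comm j 2, pow_mul, ← one_div_pow]
  gcongr
  norm_num

theorem l2 (h1 : Car4Stmt) (h2 : BMaxStmt) (h3 : CoefStmt) (h4 : PosStmt) : L2Stmt := by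
  refine ⟨244, fun m hm b Ψ hb hΨ => ?_⟩
  obtain ⟨C, hC0, hC⟩ := line_bound h1 h2 h3 h4 hb hΨ (N := 120) (m := m) (by norm_num) (by omega)
  refine ⟨12 * C * (4 * 64 ^ 23), ?_⟩
  intro CG kmax u hu G hGm hG j j0 ϑ U T hF g hg
  have hψ := hΨ.iter m
  set ψ := iteratedDeriv m Ψ with hψdef
  have hϑ := hF.one_le
  have hT := hF.fam
  obtain ⟨S, hS, hSd, hSu, hSn, -⟩ := exists_assign hT U (fun P k => {z | Tile.near u ϑ z k P})
    (fun P k => Tile.measurableSet_near hu.meas ϑ k P) (fun P k k' z hk hz => Tile.near_down hz hk)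
    hF.cover
  obtain ⟨w, hw1, hw80, hw40⟩ := l2_w j
  obtain ⟨L, hL0, hL⟩ := PhiR_bdd_supp hb hψ hu hG
  set W := w ^ 19 * ϑ ^ 19 / 4 ^ j + (1 + ϑ ^ 19 / 2 ^ j) / w ^ 120 + ϑ ^ 22 / 4 ^ j with hW
  have hW0 : 0 ≤ W := by positivity
  set Q : ℕ → Tile → P2 → ℝ := fun ι P z =>
    ∑ k ∈ Finset.range (kmax + 1), Phi1 b ψ u k (T k) g z * PhiR b ψ u (k + ι) kmax (S P) g z with hQ
  have hQ1 : ∀ ι, ∀ P ∈ U, Integrable (Q ι P) ∧ |∫ z, Q ι P z| ≤ 2 * (2 * ϑ + 1) * (C * W * P.len) := by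
    intro ι P hP
    refine l2_shear (L := ∑ k ∈ Finset.range (kmax + 1), L * L) ?_ ?_ P (by linarith) ?_ ?_
    · exact Finset.measurable_sum _ fun k _ => (measurable_Phi1 hb hψ hu.meas k _ hg).mul
        (measurable_PhiR hb hψ hu.meas _ _ _ hg)
    · intro z
      refine (Finset.abs_sum_le_sum_abs _ _).trans (Finset.sum_le_sum fun k hk => ?_)
      rw [abs_mul]
      refine mul_le_mul ?_ (hL _ _ le_rfl _ (hS P).meas (hS P).sub g hg z).1 (abs_nonneg _) hL0.le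
      have := (hL k k (by have := Finset.mem_range.1 hk; omega) T hT.meas hT.sub g hg z).1
      simpa [PhiR] using this
    · intro z hz
      refine Finset.sum_eq_zero fun k _ => ?_
      rw [PhiR_eq_zero_of_not_tube hb hψ (hS P).meas (fun k z hz => hSn P k hz) hz, mul_zero]
    · intro β
      have hST : ∀ k, S P k ⊆ T k := fun k z hz => by
        rw [hSu k]; exact mem_biUnion hP hz
      have e : ∀ x, Q ι P (x, β + P.s * x) =
          par ι P.k (phL b ψ u T g P.s β) (phL b ψ u (S P) g P.s β) x := by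
        intro x
        rw [← l2_par_trunc ι (hF.top_k P hP)]
        · rfl
        · intro k x hk
          have : S P k = ∅ := eq_empty_of_forall_notMem fun z hz => by
            have := (hSn P k hz).1
            omega
          simp [phL, Phi1, this]
      simp_rw [e]
      exact hC hu.meas hG hF hg (hS P) hST P.s β w P.k ι P.m (fun k z hz => (hSn P k hz).2.2.1) hw1
        (hF.top_k P hP)
  have hsq : ∀ z, PhiR b ψ u 0 kmax T g z ^ 2 = ∑ P ∈ U, Q 0 P z + ∑ P ∈ U, Q 1 P z := by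
    intro z
    have e : ∀ c, ∑ k' ∈ Finset.Icc c kmax, Phi1 b ψ u k' (T k') g z =
        ∑ P ∈ U, PhiR b ψ u c kmax (S P) g z := by
      intro c
      unfold PhiR
      rw [Finset.sum_comm]
      refine Finset.sum_congr rfl fun k _ => ?_
      rw [hSu k]
      exact Phi1_biUnion hb hψ hu.meas k U hG (fun P _ => (hS P).sub k) (fun P _ => (hS P).meas k)
        (fun P _ P' _ h => hSd P P' k h) hg z
    rw [PhiR, l2_sq]
    simp only [e, hQ, Finset.mul_sum]
    rw [Finset.sum_comm, Finset.sum_comm (s := Finset.range (kmax + 1))]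
  have i0 : ∀ ι, Integrable fun z => ∑ P ∈ U, Q ι P z := fun ι =>
    integrable_finsetSum _ fun P hP => (hQ1 ι P hP).1
  have hb1 : ∀ ι, ∫ z, ∑ P ∈ U, Q ι P z ≤ 6 * C * (ϑ * 2 ^ j0 * W) * (volume G).toReal := by
    intro ι
    rw [integral_finsetSum _ fun P hP => (hQ1 ι P hP).1]
    calc ∑ P ∈ U, ∫ z, Q ι P z ≤ ∑ P ∈ U, 2 * (2 * ϑ + 1) * (C * W * P.len) :=
          Finset.sum_le_sum fun P hP => (le_abs_self _).trans (hQ1 ι P hP).2
      _ = 2 * (2 * ϑ + 1) * (C * W) * totL U := by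
          rw [totL, Finset.mul_sum]
          exact Finset.sum_congr rfl fun P _ => by ring
      _ ≤ 2 * (3 * ϑ) * (C * W) * (2 ^ j0 * (volume G).toReal) := by
          have : 0 ≤ totL U := Finset.sum_nonneg fun P _ => by unfold Tile.len; positivity
          have := hF.total
          gcongr
          linarith
      _ = _ := by ring
  have hI : Integrable fun z => PhiR b ψ u 0 kmax T g z ^ 2 := by
    simp_rw [hsq]; exact (i0 0).add (i0 1)
  rw [← ofReal_integral_eq_lintegral_ofReal hI (Filter.Eventually.of_forall fun z => sq_nonneg _)]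
  refine ENNReal.ofReal_le_ofReal ?_
  simp_rw [hsq]
  rw [integral_add (i0 0) (i0 1)]
  have ha : ϑ * 2 ^ j0 * W ≤ 4 * 64 ^ 23 * (3 / 4) ^ j := by
    have h4j : (4 : ℝ) ^ j = w ^ 160 := by
      rw [show 160 = 80 * 2 from rfl, pow_mul, hw80, ← pow_mul, mul_comm j 2, pow_mul]; norm_num
    have := l2_arith hw1 hϑ (one_le_pow₀ (n := j0) one_le_two) (by rw [hw80]; exact hF.rad)
    rw [hW, h4j, ← hw80]
    refine this.trans ?_
    rw [div_eq_mul_one_div]
    exact mul_le_mul_of_nonneg_left hw40 (by positivity)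
  have hv : 0 ≤ (volume G).toReal := ENNReal.toReal_nonneg
  have : 6 * C * (ϑ * 2 ^ j0 * W) * (volume G).toReal ≤
      6 * C * (4 * 64 ^ 23 * (3 / 4) ^ j) * (volume G).toReal := by gcongr
  have h0 := hb1 0
  have h1' := hb1 1
  calc _ ≤ 2 * (6 * C * (4 * 64 ^ 23 * (3 / 4) ^ j) * (volume G).toReal) := by linarith
    _ = _ := by ring

end Crest.Agent.R87
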