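import Crest.Agent.R87.Api1

/-! # R87: the Lacey-Thiele partition argument -/

set_option autoImplicit false

namespace Crest.Agent.R87

open MeasureTheory Set
open scoped ENNReal

/-- averaging a pointwise bound over an interval -/
theorem lt_avg {F : ℝ → ℝ≥0∞} (hF : Measurable F) {a D : ℝ≥0∞} {k : ℕ} {m : ℤ}
    (h : ∀ x ∈ dInt ((k : ℤ) - 1) m, a ≤ F x * (D * 2 ^ k)) :
    a ≤ 2 * D * ∫⁻ x in dInt ((k : ℤ) - 1) m, F x := by
  have h1 := setLIntegral_mono' (μ := volume) (measurableSet_dInt _ _) h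
  have e : (2 : ℝ≥0∞) ^ k = 2 * ENNReal.ofReal (2 ^ ((k : ℤ) - 1)) := by
    rw [← ENNReal.ofReal_ofNat 2, ← ENNReal.ofReal_pow zero_le_two,
      ← ENNReal.ofReal_mul zero_le_two, zpow_sub_one₀ two_ne_zero, zpow_natCast]
    congr 1
    ring
  rw [setLIntegral_const, lintegral_mul_const _ hF, volume_dInt, e] at h1
  refine (ENNReal.mul_le_mul_iff_left (c := ENNReal.ofReal (2 ^ ((k : ℤ) - 1)))
    (ENNReal.ofReal_pos.2 (by positivity)).ne' ENNReal.ofReal_ne_top).1 (h1.trans_eq ?_)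
  ring

theorem lt : LTStmt := by
  intro k0 m0 W D f F hW hF h1 h2
  have hm : ∀ k m : ℤ, MeasurableSet {z : P2 | (∃ k, k ≤ k0 ∧ z ∈ W k) ∧ dI k z.1 = m} := by
    intro k m
    refine MeasurableSet.inter (s₁ := {z : P2 | ∃ k, k ≤ k0 ∧ z ∈ W k}) ?_
      (((measurable_dI k).comp measurable_fst) (measurableSet_singleton m))
    rw [Set.setOf_exists]
    exact MeasurableSet.iUnion fun k => (MeasurableSet.const _).inter (hW k)
  have key : ∀ k : ℕ, k ≤ k0 → ∀ m : ℤ, (∃ k', k' ≤ k ∧ ∃ z ∈ W k', dI k z.1 = m) →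
      ∫⁻ z in {z : P2 | (∃ k, k ≤ k0 ∧ z ∈ W k) ∧ dI k z.1 = m}, f z
        ≤ 2 * D * ∫⁻ x in dInt k m, F x := by
    intro k
    induction k using Nat.strong_induction_on with
    | _ k ih =>
    intro hk m hup
    have e : (k : ℤ) = (k : ℤ) - 1 + 1 := by ring
    have child : ∀ m' : ℤ, m' / 2 = m →
        ∫⁻ z in {z : P2 | (∃ k, k ≤ k0 ∧ z ∈ W k) ∧ dI ((k : ℤ) - 1) z.1 = m'}, f z
          ≤ 2 * D * ∫⁻ x in dInt ((k : ℤ) - 1) m', F x := by
      intro m' hm'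
      by_cases h : ∃ k', k' < k ∧ ∃ z ∈ W k', dI ((k : ℤ) - 1) z.1 = m'
      · obtain ⟨k', hk', hz⟩ := h
        obtain ⟨j, rfl⟩ : ∃ j, k = j + 1 := ⟨k - 1, by omega⟩
        rw [Nat.cast_succ, add_sub_cancel_right] at hz ⊢
        exact ih j (Nat.lt_succ_self j) (by omega) m' ⟨k', by omega, hz⟩
      push Not at h
      refine lt_avg hF fun x hx => ?_
      classical
      calc _ ≤ ∫⁻ z in {z : P2 | (∃ k, k ≤ k0 ∧ z ∈ W k) ∧ dI ((k : ℤ) - 1) z.1 = m'}, F x := by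
            refine setLIntegral_mono' (hm _ _) fun z ⟨hz, hz'⟩ => ?_
            have h3 := Nat.find_spec hz
            have h4 : k ≤ Nat.find hz := not_lt.1 fun h4 => h _ h4 z h3.2 hz'
            refine h2 z _ h3.1 h3.2 (fun k' hk' h5 => Nat.find_min hz hk' ⟨by omega, h5⟩) x
              (dI_eq_of_le (k := (k : ℤ) - 1) (by omega) ?_)
            rw [mem_dInt.1 hx, hz']
        _ ≤ _ := by
            rw [setLIntegral_const]
            refine mul_le_mul_right ((measure_mono ?_).trans (h1 k hk m hup)) _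
            rintro z ⟨⟨k', h3, h4⟩, hz'⟩
            refine ⟨⟨k', not_lt.1 fun h5 => h _ h5 z h4 hz', h3, h4⟩, ?_⟩
            rw [e, dI_succ, hz', hm']
    calc _ ≤ ∫⁻ z in {z : P2 | (∃ k, k ≤ k0 ∧ z ∈ W k) ∧ dI ((k : ℤ) - 1) z.1 = 2 * m} ∪
          {z : P2 | (∃ k, k ≤ k0 ∧ z ∈ W k) ∧ dI ((k : ℤ) - 1) z.1 = 2 * m + 1}, f z := by
          refine lintegral_mono_set fun z ⟨hz, hz'⟩ => ?_
          rw [e, dI_succ] at hz'
          rcases (by omega : dI ((k : ℤ) - 1) z.1 = 2 * m ∨ dI ((k : ℤ) - 1) z.1 = 2 * m + 1) with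
            h | h
          · exact Or.inl ⟨hz, h⟩
          · exact Or.inr ⟨hz, h⟩
      _ ≤ _ := lintegral_union_le _ _ _
      _ ≤ _ := add_le_add (child _ (by omega)) (child _ (by omega))
      _ = _ := by
          rw [← mul_add, ← lintegral_union (measurableSet_dInt _ _) (disjoint_dInt _ (by omega)),
            ← dInt_succ, ← e]
  by_cases h : ∃ k', k' ≤ k0 ∧ ∃ z ∈ W k', dI k0 z.1 = m0
  · exact key k0 le_rfl m0 h
  · rw [Set.eq_empty_of_forall_notMem (s := {z : P2 | (∃ k, k ≤ k0 ∧ z ∈ W k) ∧ dI k0 z.1 = m0})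
      fun z ⟨⟨k, h3, h4⟩, h5⟩ => h ⟨k, h3, z, h4, h5⟩]
    simp

end Crest.Agent.R87
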