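import Crest.Agent.R87.OBand1

/-! Row 87, outer reduction: from the single band estimate to the full estimate. -/

set_option autoImplicit false

namespace Crest.Agent.R87

open MeasureTheory Set
open scoped ENNReal

theorem OBand_N2_scale1 {g : ℝ → ℝ} (hg : Measurable g) {t : ℝ} (ht : 0 < t) :
    N2 (fun y => g (t * y)) = ENNReal.ofReal t⁻¹ * N2 g := by
  have h1 : Measurable fun y => ENNReal.ofReal (g y ^ 2) := (hg.pow_const 2).ennreal_ofReal
  have h2 := lintegral_map (μ := (volume : Measure ℝ)) h1 (measurable_const_mul t)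
  rw [Real.map_volume_mul_left ht.ne', lintegral_smul_measure, abs_of_pos (inv_pos.2 ht)] at h2
  exact h2.symm

theorem OBand_N2_scale {g : ℝ × ℝ → ℝ} (hg : Measurable g) {t : ℝ} (ht : 0 < t) :
    N2 (fun z : ℝ × ℝ => g (z.1, t * z.2)) = ENNReal.ofReal t⁻¹ * N2 g := by
  rw [N2_prod hg, N2_prod (f := fun z : ℝ × ℝ => g (z.1, t * z.2))
    (hg.comp (measurable_fst.prodMk (measurable_snd.const_mul t))),
    ← lintegral_const_mul' _ _ ENNReal.ofReal_ne_top]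
  exact lintegral_congr fun x => OBand_N2_scale1 (g := fun y => g (x, y)) (hg.comp measurable_prodMk_left) ht

theorem OBand_measurable_cvY {ψ : ℝ → ℝ} (hψ : Measurable ψ) {f : ℝ × ℝ → ℝ} (hf : Measurable f) :
    Measurable fun p : ℝ × ℝ × ℝ => cvY ψ p.1 f p.2 :=
  measurable_cv (H := fun (p : ℝ × ℝ × ℝ) y => f (p.2.1, y)) hψ
    (hf.comp ((measurable_fst.snd.fst).prodMk measurable_snd)) measurable_fst measurable_snd.snd

/-- vertical dilation: with `f' (x, y) = f (x, t y)`, `u' (x, y) = u (x, t y) / t` (again `Fld κ`),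
`lop K u (cvY ψ t f) (x, t y) = lop K u' (cvY ψ 1 f') (x, y)` (`cv_eq`), and `N2 (fun z => g (z.1, t z.2)) = t⁻¹ N2 g`. -/
theorem SB.scale {ψ : ℝ → ℝ} {κ0 : ℝ} {C : ℝ≥0∞} (hψ : Measurable ψ) (h : SB ψ 1 κ0 C) {t : ℝ}
    (ht : 0 < t) : SB ψ t κ0 C := by
  intro κ u hu ε a hε hεa hκ f hf
  have hc : Continuous fun z : ℝ × ℝ => (z.1, t * z.2) := by fun_prop
  have hu' : Fld κ fun z : ℝ × ℝ => u (z.1, t * z.2) / t := by
    obtain ⟨m, hm⟩ := hu.bdd
    refine ⟨(hu.cont.comp hc).div_const t, ⟨m / t, fun z => ?_⟩, hu.nonneg, fun x y y' => ?_⟩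
    · rw [abs_div, abs_of_pos ht]
      exact div_le_div_of_nonneg_right (hm _) ht.le
    · rw [← sub_div, abs_div, abs_of_pos ht, div_le_iff₀ ht]
      refine (hu.lip x _ _).trans_eq ?_
      rw [← mul_sub, abs_mul, abs_of_pos ht]
      ring
  have hf' : Cc fun z : ℝ × ℝ => f (z.1, t * z.2) := by
    obtain ⟨R, M, -, -, -, h2⟩ := hf.box
    refine cc_of_box (hf.cont.comp hc) (R := max R (R / t)) fun z hz => h2 _ ?_
    rcases hz with hz | hz
    · exact Or.inl ((le_max_left _ _).trans_lt hz)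
    · refine Or.inr ?_
      have := (le_max_right _ _).trans_lt hz
      rw [div_lt_iff₀ ht] at this
      rwa [abs_mul, abs_of_pos ht, mul_comm]
  have key := h κ _ hu' ε a hε hεa hκ _ hf'
  have e : lop (Kt ε a) (fun z : ℝ × ℝ => u (z.1, t * z.2) / t) (cvY ψ 1 fun z : ℝ × ℝ => f (z.1, t * z.2)) =
      fun z : ℝ × ℝ => lop (Kt ε a) u (cvY ψ t f) (z.1, t * z.2) := by
    funext z
    simp only [lop, cvY, cv_eq _ _ ht, cv_eq _ _ one_pos]
    refine integral_congr_ae (ae_of_all _ fun s => ?_)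
    beta_reduce
    congr 2
    funext r
    congr 3
    field_simp
  have m1 : Measurable (lop (Kt ε a) u (cvY ψ t f)) :=
    measurable_lop (bmp_Kt hε).meas hu.cont.measurable
      ((OBand_measurable_cvY hψ hf.cont.measurable).comp measurable_prodMk_left)
  rw [e, OBand_N2_scale m1 ht, OBand_N2_scale hf.cont.measurable ht, mul_left_comm] at key
  exact (ENNReal.mul_le_mul_iff_right (ENNReal.ofReal_pos.2 (inv_pos.2 ht)).ne' ENNReal.ofReal_ne_top).1 key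

theorem OBand_cc_neg {ψ : ℝ → ℝ} (hψ : Cc ψ) : Cc fun r => ψ (-r) :=
  ⟨hψ.cont.comp continuous_neg, hψ.cpt.comp_homeomorph (Homeomorph.neg ℝ)⟩

/-- `Ψ = cv ψ 1 (ψ (-·))` is `C²` with compact support (`HasCompactSupport.contDiff_convolution_left`; `cv ψ 1 χ` is the
convolution `ψ ⋆[ContinuousLinearMap.mul ℝ ℝ] χ` up to commutativity), has mean zero and `Ψ 0 = ∫ ψ² > 0`. -/
theorem exists_double {ψ : ℝ → ℝ} (hψ : ContDiff ℝ 2 ψ) (hc : HasCompactSupport ψ) (h0 : ∫ r, ψ r = 0)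
    (hne : ψ ≠ 0) :
    ContDiff ℝ 2 (cv ψ 1 fun r => ψ (-r)) ∧ HasCompactSupport (cv ψ 1 fun r => ψ (-r)) ∧
      ∫ y, cv ψ 1 (fun r => ψ (-r)) y = 0 ∧ (cv ψ 1 fun r => ψ (-r)) ≠ 0 := by
  have c1 : Cc ψ := ⟨hψ.continuous, hc⟩
  have c2 := OBand_cc_neg c1
  obtain ⟨R, M, -, -, b1⟩ := c1.bmp
  refine ⟨?_, (Cc.cv b1 c2 one_pos).cpt, by rw [integral_cv b1 b1.neg, h0, zero_mul], fun h => ?_⟩
  · have e : (cv ψ 1 fun r => ψ (-r)) =
        convolution (fun r => ψ (-r)) ψ (ContinuousLinearMap.mul ℝ ℝ) volume := by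
      funext y
      simp only [cv, convolution, inv_one, one_mul, div_one, ContinuousLinearMap.mul_apply']
      exact integral_congr_ae (ae_of_all _ fun w => mul_comm _ _)
    rw [e]
    exact hc.contDiff_convolution_right (n := 2) _ c2.cont.locallyIntegrable hψ
  · have h1 := congrFun h 0
    rw [cv_eq _ _ one_pos] at h1
    simp only [one_mul, zero_sub, neg_neg, Pi.zero_apply] at h1
    obtain ⟨x, hx⟩ := Function.ne_iff.1 hne
    exact (Continuous.integral_pos_of_hasCompactSupport_nonneg_nonzero (μ := volume)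
      (f := fun r => ψ r * ψ r) (c1.cont.mul c1.cont) hc.mul_left (fun r => mul_self_nonneg _) (x := x)
      (mul_ne_zero hx hx)).ne' h1

/-- `H = lop K u f` is in `Cc`; `N2 H ≤ C ∫ t⁻¹ N2 (cvY Ψ t H)` (`N2_prod`, `SQ_ge`, `SQ_prod`); `cvY_lop`, `N2_add_le`;
`cvY Ψ t f = cvY ψ t (cvY ψ(-·) t f)` (`cv_cv`), `SB.scale`, `SQ_prod`, `SQ_le`; `cm_err`. -/
theorem full_of_SB {ψ : ℝ → ℝ} (hψ : ContDiff ℝ 2 ψ) (hc : HasCompactSupport ψ) (h0 : ∫ r, ψ r = 0)
    (hne : ψ ≠ 0) {κ0 : ℝ} {C : ℝ≥0∞} (hC : C < ∞) (hκ : κ0 ≤ 1 / 2) (h : SB ψ 1 κ0 C) :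
    ∃ C' : ℝ≥0∞, C' < ∞ ∧ Full κ0 C' := by
  have c1 : Cc ψ := ⟨hψ.continuous, hc⟩
  obtain ⟨R, M, -, -, b1⟩ := c1.bmp
  obtain ⟨d1, d2, d3, d4⟩ := exists_double hψ hc h0 hne
  have c3 : Cc (cv ψ 1 fun r => ψ (-r)) := ⟨d1.continuous, d2⟩
  obtain ⟨R3, M3, -, -, b3⟩ := c3.bmp
  obtain ⟨C1, hC1, k1⟩ := SQ_ge c3 d3 d4
  obtain ⟨C2, hC2, k2⟩ := SQ_le b1.neg (by rw [integral_neg_eq_self, h0])
  obtain ⟨C3, hC3, k3⟩ := cm_err d1 d2 d3
  refine ⟨C1 * (2 * C * C2 + 2 * C3), by finiteness, fun κ u hu ε a hε hεa hκa f hf => ?_⟩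
  have hK := bmp_Kt (a := a) hε
  have hH := Cc.lop hK hu hf
  have mf := hf.cont.measurable
  have a1 : N2 (lop (Kt ε a) u f) ≤ C1 * ∫⁻ t in Ioi (0 : ℝ), ENNReal.ofReal t⁻¹ *
      N2 (cvY (cv ψ 1 fun r => ψ (-r)) t (lop (Kt ε a) u f)) := by
    rw [N2_prod hH.cont.measurable, ← SQ_prod b3.meas hH.cont.measurable, ← lintegral_const_mul' _ _ hC1.ne]
    exact lintegral_mono fun x => k1 _ (hH.slice x)
  have a2 : ∫⁻ t in Ioi (0 : ℝ), ENNReal.ofReal t⁻¹ * N2 (cvY (fun r => ψ (-r)) t f) ≤ C2 * N2 f := by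
    rw [← SQ_prod b1.neg.meas mf, N2_prod mf, ← lintegral_const_mul' _ _ hC2.ne]
    refine lintegral_mono fun x => ?_
    obtain ⟨R', M', -, -, b⟩ := (hf.slice x).bmp
    exact k2 _ _ _ b
  have a3 := k3 κ ε a u f hu hf hε hεa (hκa.trans hκ)
  have a4 : ∀ t ∈ Ioi (0 : ℝ), ENNReal.ofReal t⁻¹ * N2 (cvY (cv ψ 1 fun r => ψ (-r)) t (lop (Kt ε a) u f)) ≤
      2 * C * (ENNReal.ofReal t⁻¹ * N2 (cvY (fun r => ψ (-r)) t f)) +
      2 * (ENNReal.ofReal t⁻¹ * N2 fun z => ∫ s, Kt ε a s * cm (cv ψ 1 fun r => ψ (-r)) u f t s z) := by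
    intro t ht
    have e1 : cvY (cv ψ 1 fun r => ψ (-r)) t f = cvY ψ t (cvY (fun r => ψ (-r)) t f) := by
      funext z
      obtain ⟨R', M', -, -, b⟩ := (hf.slice z.1).bmp
      exact congrFun (cv_cv b1 b1.neg b ht) z.2
    have a5 := (h.scale b1.meas ht) κ u hu ε a hε hεa hκa _ (Cc.cvY b1.neg hf ht)
    rw [← e1] at a5
    have a6 := N2_add_le (g := fun z => ∫ s, Kt ε a s * cm (cv ψ 1 fun r => ψ (-r)) u f t s z)
      (Cc.lop hK hu (Cc.cvY b3 hf ht)).cont.measurable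
    rw [funext (cvY_lop b3 hK hu hf ht)]
    refine (mul_le_mul_right (a6.trans (add_le_add (mul_le_mul_right a5 2) le_rfl)) _).trans_eq ?_
    ring
  have m1 : Measurable fun t : ℝ => ENNReal.ofReal t⁻¹ * N2 (cvY (fun r => ψ (-r)) t f) :=
    measurable_inv.ennreal_ofReal.mul
      (((OBand_measurable_cvY b1.neg.meas mf).pow_const 2).ennreal_ofReal.lintegral_prod_right')
  have a7 := setLIntegral_mono' (μ := volume) measurableSet_Ioi a4
  rw [lintegral_add_left (m1.const_mul _), lintegral_const_mul' _ _ (by finiteness),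
    lintegral_const_mul' _ _ (by finiteness)] at a7
  refine a1.trans ((mul_le_mul_right (a7.trans (add_le_add (mul_le_mul_right a2 _)
    (mul_le_mul_right a3 _))) _).trans_eq ?_)
  ring

end Crest.Agent.R87
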