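import Crest.Agent.R87.OSq

/-! Row 87, outer reduction: the lower bound for square functions (Calderón's formula). -/

set_option autoImplicit false

namespace Crest.Agent.R87

open MeasureTheory Set Filter Topology
open scoped ENNReal

/-- substitute `s = α r`; dominated convergence, `continuous_acor`, `abs_acor_le` -/
theorem tendsto_small {ω H : ℝ → ℝ} {R M : ℝ} (hω : Bmp ω R M) (hH : Cc H) :
    Tendsto (fun n : ℕ => ∫ s, (1 / ((n : ℝ) + 1))⁻¹ * ω (s / (1 / ((n : ℝ) + 1))) * acor H s) atTop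
      (𝓝 ((∫ r, ω r) * ∫ y, H y ^ 2)) := by
  obtain ⟨R', M', -, -, h⟩ := hH.bmp
  have hA := continuous_acor hH
  have e : ∀ n : ℕ, ∫ s, (1 / ((n : ℝ) + 1))⁻¹ * ω (s / (1 / ((n : ℝ) + 1))) * acor H s =
      ∫ r, ω r * acor H (1 / ((n : ℝ) + 1) * r) := fun n => OSq_scale _ _ (by positivity)
  have e0 : ∫ y, H y ^ 2 = acor H 0 := by simp [acor, sq]
  simp only [e]
  rw [← integral_mul_const]
  refine tendsto_integral_of_dominated_convergence (fun r => |ω r| * ∫ y, H y ^ 2)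
    (fun n => (hω.meas.mul (hA.measurable.comp (measurable_const_mul _))).aestronglyMeasurable)
    (hω.integrable.abs.mul_const _) (fun n => ae_of_all _ fun r => ?_) (ae_of_all _ fun r => ?_)
  · rw [Real.norm_eq_abs, abs_mul]
    exact mul_le_mul_of_nonneg_left (abs_acor_le h _) (abs_nonneg _)
  · rw [e0]
    refine (hA.tendsto 0 |>.comp ?_).const_mul _
    simpa using (tendsto_one_div_add_atTop_nhds_zero_nat (𝕜 := ℝ)).mul_const r

/-- bounded by `M (n+1)⁻¹ ∫ |acor H|` -/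
theorem tendsto_large {ω H : ℝ → ℝ} {R M : ℝ} (hω : Bmp ω R M) (hH : Cc H) :
    Tendsto (fun n : ℕ => ∫ s, ((n : ℝ) + 1)⁻¹ * ω (s / ((n : ℝ) + 1)) * acor H s) atTop (𝓝 0) := by
  obtain ⟨R', M', -, -, h⟩ := hH.bmp
  have hA := (OSq_abs h).integrable
  refine squeeze_zero_norm (a := fun n : ℕ => 1 / ((n : ℝ) + 1) * (M * ∫ s, |acor H s|)) (fun n => ?_) ?_
  · rw [← integral_const_mul, ← integral_const_mul]
    refine norm_integral_le_of_norm_le ((hA.abs.const_mul _).const_mul _) (ae_of_all _ fun s => ?_)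
    have := hω.bd (s / ((n : ℝ) + 1))
    rw [Real.norm_eq_abs, abs_mul, abs_mul, abs_of_pos (by positivity), one_div, mul_assoc]
    gcongr
  · simpa using (tendsto_one_div_add_atTop_nhds_zero_nat (𝕜 := ℝ)).mul_const (M * ∫ s, |acor H s|)

/-- `sq_trunc` and the two limits (`SQ` is the increasing limit) -/
theorem SQ_eq {ψ H : ℝ → ℝ} {R M : ℝ} (hψ : Bmp ψ R M) (h0 : ∫ r, ψ r = 0) (hH : Cc H) :
    SQ ψ H = ENNReal.ofReal ((∫ r, om (acor ψ) r) * ∫ y, H y ^ 2) := by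
  obtain ⟨R', M', -, -, h⟩ := hH.bmp
  have hω := bmp_om (OSq_abs hψ) (acor_neg ψ) (by rw [integral_acor hψ, h0]; simp)
  have h1 := ENNReal.tendsto_ofReal ((tendsto_small hω hH).sub (tendsto_large hω hH))
  have h2 := tendsto_atTop_iSup (f := fun n : ℕ => ∫⁻ t in Ioc (1 / ((n : ℝ) + 1)) ((n : ℝ) + 1),
    ENNReal.ofReal t⁻¹ * N2 (cv ψ t H)) fun n m hnm => lintegral_mono_set (OSq_mono hnm)
  rw [← OSq_iSup] at h2
  rw [sub_zero] at h1
  exact tendsto_nhds_unique h2 (h1.congr fun n => (sq_trunc hψ h (by positivity) (OSq_le n)).symm)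

/-- Take `H r = ψ (-r)`: `(t, y) ↦ cv ψ t H y` is continuous on `t > 0` (`cv_eq`) and equals `∫ ψ² > 0` at `(1, 0)`,
so `SQ ψ H > 0`. -/
theorem SQ_pos {ψ : ℝ → ℝ} (hψ : Cc ψ) (hne : ψ ≠ 0) : 0 < SQ ψ (fun r => ψ (-r)) := by
  obtain ⟨R, M, -, -, h⟩ := hψ.bmp
  have hH := h.neg.cc (hψ.cont.comp continuous_neg)
  refine pos_iff_ne_zero.2 fun h0 => hne ?_
  have hm : Measurable fun p : ℝ × ℝ => cv ψ p.1 (fun r => ψ (-r)) p.2 :=
    measurable_cv h.meas (H := fun _ r => ψ (-r)) (h.neg.meas.comp measurable_snd) measurable_fst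
      measurable_snd
  have hm' : Measurable fun t : ℝ => N2 (cv ψ t fun r => ψ (-r)) :=
    (hm.pow_const 2).ennreal_ofReal.lintegral_prod_right'
  rw [SQ, lintegral_eq_zero_iff (f := fun t => ENNReal.ofReal t⁻¹ * N2 (cv ψ t fun r => ψ (-r)))
    (measurable_inv.ennreal_ofReal.mul hm')] at h0
  have hc : Continuous fun t : ℝ => ∫ r, ψ r * ψ (t * r) :=
    continuous_of_dominated (bound := fun r => |ψ r| * M)
      (fun t => (h.meas.mul (h.meas.comp (measurable_const_mul _))).aestronglyMeasurable)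
      (fun t => ae_of_all _ fun r => by
        rw [Real.norm_eq_abs, abs_mul]
        exact mul_le_mul_of_nonneg_left (h.bd _) (abs_nonneg _))
      (h.integrable.abs.mul_const _)
      (ae_of_all _ fun r => continuous_const.mul (hψ.cont.comp (continuous_mul_const r)))
  have h1 : (fun t : ℝ => ∫ r, ψ r * ψ (t * r)) =ᵐ[volume.restrict (Ioi 0)] fun _ => 0 := by
    filter_upwards [h0, ae_restrict_mem measurableSet_Ioi] with t ht ht0
    have hcc := (hH.cv h ht0).cont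
    have h2 := (mul_eq_zero.1 ht).resolve_left (ENNReal.ofReal_pos.2 (inv_pos.2 ht0)).ne'
    rw [N2, lintegral_eq_zero_iff (hcc.measurable.pow_const 2).ennreal_ofReal] at h2
    have h3 : cv ψ t (fun r => ψ (-r)) = fun _ => 0 :=
      (hcc.ae_eq_iff_eq volume continuous_const).1 (h2.mono fun y hy =>
        pow_eq_zero_iff two_ne_zero |>.1 (le_antisymm (ENNReal.ofReal_eq_zero.1 hy) (sq_nonneg _)))
    simpa [cv_eq _ _ ht0] using congrFun h3 0
  have h4 := Measure.eqOn_open_of_ae_eq h1 isOpen_Ioi hc.continuousOn continuousOn_const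
    (mem_Ioi.2 one_pos)
  simp only [one_mul, ← sq] at h4
  rw [integral_eq_zero_iff_of_nonneg (fun r => sq_nonneg _) (OSq1_sq h)] at h4
  exact (hψ.cont.ae_eq_iff_eq volume continuous_const).1
    (h4.mono fun y hy => pow_eq_zero_iff two_ne_zero |>.1 hy)

theorem SQ_ge {ψ : ℝ → ℝ} (hψ : Cc ψ) (h0 : ∫ r, ψ r = 0) (hne : ψ ≠ 0) :
    ∃ C : ℝ≥0∞, C < ∞ ∧ ∀ H : ℝ → ℝ, Cc H → N2 H ≤ C * SQ ψ H := by
  obtain ⟨R, M, -, -, h⟩ := hψ.bmp
  have h1 := SQ_pos hψ hne
  rw [SQ_eq h h0 (h.neg.cc (hψ.cont.comp continuous_neg)), ENNReal.ofReal_pos] at h1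
  have h2 := pos_of_mul_pos_left h1 (integral_nonneg fun _ => sq_nonneg _)
  refine ⟨ENNReal.ofReal (∫ r, om (acor ψ) r)⁻¹, ENNReal.ofReal_lt_top, fun H hH => le_of_eq ?_⟩
  rw [SQ_eq h h0 hH, hH.nice1.N2_eq, ← ENNReal.ofReal_mul (by positivity), inv_mul_cancel_left₀ h2.ne']

/-- `N2_prod`, Tonelli -/
theorem SQ_prod {ψ : ℝ → ℝ} (hψ : Measurable ψ) {f : ℝ × ℝ → ℝ} (hf : Measurable f) :
    ∫⁻ x, SQ ψ (fun y => f (x, y)) =
      ∫⁻ t in Ioi (0 : ℝ), ENNReal.ofReal t⁻¹ * N2 (cvY ψ t f) := by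
  have hm : Measurable fun p : (ℝ × ℝ) × ℝ => cv ψ p.1.2 (fun y => f (p.1.1, y)) p.2 :=
    measurable_cv hψ (H := fun (p : (ℝ × ℝ) × ℝ) y => f (p.1.1, y)) (hf.comp (by fun_prop))
      (by fun_prop) measurable_snd
  have hm' : Measurable fun p : ℝ × ℝ => N2 (cv ψ p.2 fun y => f (p.1, y)) :=
    (hm.pow_const 2).ennreal_ofReal.lintegral_prod_right'
  have hm2 : Measurable fun p : ℝ × ℝ => ENNReal.ofReal p.2⁻¹ * N2 (cv ψ p.2 fun y => f (p.1, y)) :=
    measurable_snd.inv.ennreal_ofReal.mul hm'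
  unfold SQ
  rw [lintegral_lintegral_swap hm2.aemeasurable]
  refine lintegral_congr fun t => ?_
  have hm3 : Measurable (cvY ψ t f) :=
    hm.comp (f := fun z : ℝ × ℝ => ((z.1, t), z.2)) (by fun_prop)
  rw [lintegral_const_mul' _ _ ENNReal.ofReal_ne_top, N2_prod hm3]
  rfl

end Crest.Agent.R87
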