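import Crest.Agent.R87.OCom
import Crest.Agent.R87.OSq2

/-! Row 87, outer reduction: from the single band estimate to the full estimate. -/

set_option autoImplicit false

namespace Crest.Agent.R87

open MeasureTheory Set
open scoped ENNReal

/-- the commutator at `(s, t, z)` -/
noncomputable def cm (ψ : ℝ → ℝ) (u f : ℝ × ℝ → ℝ) (t s : ℝ) (z : ℝ × ℝ) : ℝ :=
  cv ψ t (fun y => f (z.1 - s, y - s * u (z.1, y))) z.2 - cvY ψ t f (z.1 - s, z.2 - s * u z)

/-- `measurable_cv` -/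
theorem measurable_cm {ψ : ℝ → ℝ} {u f : ℝ × ℝ → ℝ} (hψ : Measurable ψ) (hu : Measurable u)
    (hf : Measurable f) : Measurable fun p : ℝ × ℝ × ℝ × ℝ => cm ψ u f p.1 p.2.1 p.2.2 := by
  exact (measurable_cv hψ (H := fun (p : ℝ × ℝ × ℝ × ℝ) y => f (p.2.2.1 - p.2.1, y - p.2.1 * u (p.2.2.1, y)))
    (by fun_prop) measurable_fst (by fun_prop)).sub
    (measurable_cv hψ (H := fun (p : ℝ × ℝ × ℝ × ℝ) y => f (p.2.2.1 - p.2.1, y))
      (y := fun p => p.2.2.2 - p.2.1 * u p.2.2) (by fun_prop) measurable_fst (by fun_prop))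

/-- Fubini in `(w, s)` (bounded integrand, bounded support) -/
theorem cvY_lop {ψ K : ℝ → ℝ} {R M R' M' κ t : ℝ} {u f : ℝ × ℝ → ℝ} (hψ : Bmp ψ R M)
    (hK : Bmp K R' M') (hu : Fld κ u) (hf : Cc f) (ht : 0 < t) (z : ℝ × ℝ) :
    cvY ψ t (lop K u f) z = lop K u (cvY ψ t f) z + ∫ s, K s * cm ψ u f t s z := by
  obtain ⟨-, B, -, -, hB, -⟩ := hf.box
  obtain ⟨-, B', -, -, hB', -⟩ := (hf.cvY hψ ht).box
  have h1 := hu.cont
  have h2 := hf.cont
  have h3 := (hf.cvY hψ ht).cont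
  have hI : Integrable (Function.uncurry fun w s : ℝ => t⁻¹ * ψ ((z.2 - w) / t) * K s *
      f (z.1 - s, w - s * u (z.1, w))) (volume.prod volume) :=
    ((((hψ.integrable.comp_div ht.ne').comp_sub_left z.2).const_mul t⁻¹).mul_prod hK.integrable).mul_bdd
      (Continuous.aestronglyMeasurable (by fun_prop)) (ae_of_all _ fun _ => hB _)
  have e : ∀ s, ∫ w, t⁻¹ * ψ ((z.2 - w) / t) * K s * f (z.1 - s, w - s * u (z.1, w)) =
      K s * cv ψ t (fun y => f (z.1 - s, y - s * u (z.1, y))) z.2 := fun s => by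
    rw [cv, ← integral_const_mul]
    exact integral_congr_ae (ae_of_all _ fun w => by ring)
  have h4 := hI.integral_prod_right
  have h5 := integral_integral_swap hI
  simp only [Function.uncurry_apply_pair, e] at h4 h5
  have h6 : Integrable fun s => K s * cvY ψ t f (z.1 - s, z.2 - s * u z) :=
    hK.integrable.mul_bdd (Continuous.aestronglyMeasurable (by fun_prop)) (ae_of_all _ fun _ => hB' _)
  simp only [cm, mul_sub]
  rw [integral_sub h4 h6, ← h5, lop, add_sub_cancel, cvY, cv]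
  simp only [lop, ← integral_const_mul, mul_assoc]

theorem OBand1_meas {α X : Type*} [MeasurableSpace α] [MeasureSpace X] [SFinite (volume : Measure X)]
    {g : α → X → ℝ} (hg : Measurable fun p : α × X => g p.1 p.2) : Measurable fun a => N2 (g a) :=
  Measurable.lintegral_prod_right' (f := fun p : α × X => ENNReal.ofReal (g p.1 p.2 ^ 2)) (by fun_prop)

theorem OBand1_mcm {α : Type*} [MeasurableSpace α] {ψ : ℝ → ℝ} {u f : ℝ × ℝ → ℝ} (hψ : Measurable ψ)
    (hu : Measurable u) (hf : Measurable f) {t s : α → ℝ} {z : α → ℝ × ℝ} (ht : Measurable t)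
    (hs : Measurable s) (hz : Measurable z) : Measurable fun a => cm ψ u f (t a) (s a) (z a) :=
  (measurable_cm hψ hu hf).comp (ht.prodMk (hs.prodMk hz))

/-- `comm_sq` with `φ y = y - s u (x, y)` (`Fld.pert`), `F y = f (x - s, y)`; integrate in `x` (`N2_prod`, Tonelli,
translation) -/
theorem cm_sq {ψ : ℝ → ℝ} (hψ : ContDiff ℝ 2 ψ) (hc : HasCompactSupport ψ) (h0 : ∫ r, ψ r = 0) :
    ∃ C : ℝ≥0∞, C < ∞ ∧ ∀ (κ s : ℝ) (u f : ℝ × ℝ → ℝ), Fld κ u → Cc f → κ * |s| ≤ 1 / 2 →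
      ∫⁻ t in Ioi (0 : ℝ), ENNReal.ofReal t⁻¹ * N2 (cm ψ u f t s) ≤
        C * ENNReal.ofReal ((κ * |s|) ^ 2) * N2 f := by
  obtain ⟨C, hC, H⟩ := comm_sq hψ hc h0
  refine ⟨C, hC, fun κ s u f hu hf hs => ?_⟩
  have hm := fun {α : Type} [MeasurableSpace α] => @OBand1_mcm α _ _ _ _ hψ.continuous.measurable
    hu.cont.measurable hf.cont.measurable
  have h1 : Measurable fun p : ℝ × ℝ => N2 fun y => cm ψ u f p.1 s (p.2, y) :=
    OBand1_meas (hm (by fun_prop) (by fun_prop) (by fun_prop))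
  calc _ = ∫⁻ t in Ioi (0 : ℝ), ∫⁻ x, ENNReal.ofReal t⁻¹ * N2 fun y => cm ψ u f t s (x, y) :=
        lintegral_congr fun t => by
          rw [N2_prod (f := cm ψ u f t s) (hm measurable_const measurable_const measurable_id),
            lintegral_const_mul' _ _ ENNReal.ofReal_ne_top]
    _ = ∫⁻ x, ∫⁻ t in Ioi (0 : ℝ), ENNReal.ofReal t⁻¹ * N2 fun y => cm ψ u f t s (x, y) :=
        lintegral_lintegral_swap (Measurable.aemeasurable (Measurable.mul (by fun_prop) h1))
    _ ≤ ∫⁻ x, C * ENNReal.ofReal ((κ * |s|) ^ 2) * N2 fun y => f (x - s, y) :=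
        lintegral_mono fun x => by simpa only [cm, cvY] using H _ _ _ (hu.pert x hs) (hf.slice (x - s))
    _ = _ := by
        rw [lintegral_const_mul' _ _ (ENNReal.mul_ne_top hC.ne ENNReal.ofReal_ne_top),
          lintegral_sub_right_eq_self fun x => N2 fun y => f (x, y), N2_prod hf.cont.measurable]

/-- `Kt s * cm s = (Kt s * |s|) * (cm s / |s|)`, `|Kt s * |s|| ≤ 1_{|s| < a}`, `sq_integral_le`, Tonelli, `cm_sq`:
the bound is `2 a · 2 a · C κ²` and `κ a ≤ 1/2` -/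
theorem cm_err {ψ : ℝ → ℝ} (hψ : ContDiff ℝ 2 ψ) (hc : HasCompactSupport ψ) (h0 : ∫ r, ψ r = 0) :
    ∃ C : ℝ≥0∞, C < ∞ ∧ ∀ (κ ε a : ℝ) (u f : ℝ × ℝ → ℝ), Fld κ u → Cc f → 0 < ε → ε < a →
      κ * a ≤ 1 / 2 →
      ∫⁻ t in Ioi (0 : ℝ), ENNReal.ofReal t⁻¹ * N2 (fun z => ∫ s, Kt ε a s * cm ψ u f t s z) ≤
        C * N2 f := by
  obtain ⟨C, hC, H⟩ := cm_sq hψ hc h0
  refine ⟨C, hC, fun κ ε a u f hu hf hε hεa ha => ?_⟩
  have hm := fun {α : Type} [MeasurableSpace α] => @OBand1_mcm α _ _ _ _ hψ.continuous.measurable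
    hu.cont.measurable hf.cont.measurable
  have hK := (bmp_Kt (a := a) hε).meas
  have hk : Bmp (fun s => Kt ε a s * |s|) a 1 := ⟨by fun_prop, fun s => by
    unfold Kt
    split_ifs with h
    · rw [abs_mul, abs_inv, abs_abs, inv_mul_cancel₀ (hε.trans h.1).ne']
    · simp, fun s hs => by rw [Kt, if_neg fun h => hs.not_gt h.2, zero_mul]⟩
  have hA := hk.lintegral_le
  set A := ∫⁻ s, ENNReal.ofReal |Kt ε a s * (|s|)| with hA'
  have hA1 : A ≠ ∞ := ne_top_of_le_ne_top ENNReal.ofReal_ne_top hA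
  have h1 : Measurable fun p : ℝ × ℝ => N2 (cm ψ u f p.1 p.2) :=
    OBand1_meas (hm (by fun_prop) (by fun_prop) (by fun_prop))
  have h2 : ∀ t, N2 (fun z => ∫ s, Kt ε a s * cm ψ u f t s z) ≤ A * ∫⁻ s,
      ENNReal.ofReal |Kt ε a s * (|s|)| * ENNReal.ofReal (|s|⁻¹ ^ 2) * N2 (cm ψ u f t s) := fun t => by
    have h3 : Measurable fun p : (ℝ × ℝ) × ℝ => cm ψ u f t p.2 p.1 :=
      hm (by fun_prop) (by fun_prop) (by fun_prop)
    calc _ ≤ ∫⁻ z, A * ∫⁻ s, ENNReal.ofReal |Kt ε a s * (|s|)| *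
          ENNReal.ofReal ((|s|⁻¹ * cm ψ u f t s z) ^ 2) := by
          refine lintegral_mono fun z => le_trans (le_of_eq ?_) (sq_integral_le volume hk.meas.aemeasurable
            (Measurable.aemeasurable (Measurable.mul (by fun_prop) (h3.comp measurable_prodMk_left))))
          refine congrArg (fun x => ENNReal.ofReal (x ^ 2)) (integral_congr_ae (ae_of_all _ fun s => ?_))
          dsimp only
          rcases eq_or_ne s 0 with rfl | hs
          · simp [Kt]
          · rw [mul_assoc, mul_inv_cancel_left₀ (abs_ne_zero.2 hs)]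
      _ = _ := by
          rw [lintegral_const_mul' _ _ hA1, lintegral_lintegral_swap (Measurable.aemeasurable (by fun_prop))]
          congr 2
          ext s
          rw [lintegral_const_mul' _ _ ENNReal.ofReal_ne_top, mul_assoc, ← N2_const_mul, N2]
  calc _ ≤ ∫⁻ t in Ioi (0 : ℝ), A * ∫⁻ s, ENNReal.ofReal |Kt ε a s * (|s|)| * ENNReal.ofReal (|s|⁻¹ ^ 2) *
        (ENNReal.ofReal t⁻¹ * N2 (cm ψ u f t s)) := by
        refine lintegral_mono fun t => (mul_le_mul_right (h2 t) _).trans_eq ?_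
        rw [mul_left_comm, ← lintegral_const_mul' _ _ ENNReal.ofReal_ne_top]
        simp only [mul_left_comm (ENNReal.ofReal t⁻¹)]
    _ = A * ∫⁻ s, ENNReal.ofReal |Kt ε a s * (|s|)| * ENNReal.ofReal (|s|⁻¹ ^ 2) *
        ∫⁻ t in Ioi (0 : ℝ), ENNReal.ofReal t⁻¹ * N2 (cm ψ u f t s) := by
        rw [lintegral_const_mul' _ _ hA1, lintegral_lintegral_swap (Measurable.aemeasurable (by fun_prop))]
        simp only [lintegral_const_mul' _ _ (ENNReal.mul_ne_top ENNReal.ofReal_ne_top ENNReal.ofReal_ne_top)]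
    _ ≤ A * ∫⁻ s, ENNReal.ofReal |Kt ε a s * (|s|)| * (ENNReal.ofReal (κ ^ 2) * (C * N2 f)) := by
        refine mul_le_mul_right (lintegral_mono fun s => ?_) _
        by_cases hs : ε < |s| ∧ |s| < a
        · rw [mul_assoc]
          refine mul_le_mul_right ((mul_le_mul_right (H κ s u f hu hf
            ((mul_le_mul_of_nonneg_left hs.2.le hu.nonneg).trans ha)) _).trans_eq ?_) _
          rw [mul_comm C, mul_assoc, ← mul_assoc, ← ENNReal.ofReal_mul (sq_nonneg _), ← mul_pow, mul_comm κ,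
            inv_mul_cancel_left₀ (hε.trans hs.1).ne']
        · simp [Kt, hs]
    _ ≤ _ := by
        rw [lintegral_mul_const _ (by fun_prop), ← hA', ← mul_assoc, ← mul_assoc]
        refine mul_le_of_le_one_left' ((mul_le_mul_left (mul_le_mul' hA hA) _).trans ?_)
        have h4 : 0 < a := hε.trans hεa
        rw [← ENNReal.ofReal_mul (by positivity), ← ENNReal.ofReal_mul (by positivity), ENNReal.ofReal_le_one]
        nlinarith [mul_nonneg hu.nonneg h4.le]

end Crest.Agent.R87
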