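import Crest.Agent.R87.OBas2

/-! Row 87, outer reduction: basic facts on `N2`, `cv`, `cvY`, `lop`. -/

set_option autoImplicit false

namespace Crest.Agent.R87

open MeasureTheory Set
open scoped ENNReal

/-- `loc t G` is `cv` of the indicator of `[-1, 1]` with `|G|`; Young -/
theorem N2_loc_le {G : ℝ → ℝ} (hG : Measurable G) {t : ℝ} (ht : 0 < t) :
    N2 (loc t G) ≤ 4 * N2 G := by
  have hb : Bmp ((Icc (-1 : ℝ) 1).indicator fun _ => (1 : ℝ)) 1 1 := by
    refine ⟨measurable_const.indicator measurableSet_Icc, fun y => ?_, fun y hy => ?_⟩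
    · by_cases h : y ∈ Icc (-1 : ℝ) 1 <;> simp [h]
    · rw [indicator_of_notMem (show y ∉ Icc (-1 : ℝ) 1 from fun h => not_le.2 hy (abs_le.2 h))]
  have e : loc t G = cv ((Icc (-1 : ℝ) 1).indicator fun _ => (1 : ℝ)) t (fun w => |G w|) := by
    funext y
    unfold loc cv
    rw [← integral_indicator measurableSet_Icc, ← integral_const_mul]
    refine integral_congr_ae (Filter.Eventually.of_forall fun w => ?_)
    have h : (y - w) / t ∈ Icc (-1 : ℝ) 1 ↔ w ∈ Icc (y - t) (y + t) := by
      rw [mem_Icc, mem_Icc, le_div_iff₀ ht, div_le_iff₀ ht]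
      constructor <;> rintro ⟨h1, h2⟩ <;> constructor <;> linarith
    beta_reduce
    by_cases hw : w ∈ Icc (y - t) (y + t)
    · rw [indicator_of_mem hw, indicator_of_mem (h.2 hw), mul_one]
    · rw [indicator_of_notMem hw, indicator_of_notMem (fun h' => hw (h.1 h')), mul_zero, zero_mul]
  rw [e]
  refine (N2_cv_le hb.meas hG.abs ht).trans ?_
  rw [N2_congr_abs (f := fun w => |G w|) (g := G) fun w => abs_abs _]
  refine mul_le_mul_left ((pow_le_pow_left' hb.lintegral_le 2).trans (le_of_eq ?_)) _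
  norm_num

theorem measurable_loc {α : Type*} [MeasurableSpace α] {G : α → ℝ → ℝ}
    (hG : Measurable fun p : α × ℝ => G p.1 p.2) {t y : α → ℝ} (ht : Measurable t)
    (hy : Measurable y) : Measurable fun p => loc (t p) (G p) (y p) := by
  have e : (fun p => loc (t p) (G p) (y p)) = fun p => (t p)⁻¹ * ∫ w,
      {q : α × ℝ | y q.1 - t q.1 ≤ q.2 ∧ q.2 ≤ y q.1 + t q.1}.indicator (fun q => |G q.1 q.2|) (p, w) := by
    funext p
    unfold loc
    rw [← integral_indicator measurableSet_Icc]
    rfl
  rw [e]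
  refine ht.inv.mul (StronglyMeasurable.integral_prod_right' (ν := volume)
    (Measurable.stronglyMeasurable (hG.abs.indicator ?_))).measurable
  exact (measurableSet_le (by fun_prop) measurable_snd).inter
    (measurableSet_le measurable_snd (by fun_prop))

/-! ### line operators -/

theorem measurable_lop {K : ℝ → ℝ} {u f : ℝ × ℝ → ℝ} (hK : Measurable K) (hu : Measurable u)
    (hf : Measurable f) : Measurable (lop K u f) := by
  have h1 : Measurable fun q : (ℝ × ℝ) × ℝ => K q.2 * f (q.1.1 - q.2, q.1.2 - q.2 * u q.1) := by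
    fun_prop
  exact (h1.stronglyMeasurable.integral_prod_right' (ν := volume)).measurable

/-- `continuous_of_dominated`; `u` is bounded -/
theorem Cc.lop {K : ℝ → ℝ} {R M κ : ℝ} {u f : ℝ × ℝ → ℝ} (hK : Bmp K R M) (hu : Fld κ u)
    (hf : Cc f) : Cc (lop K u f) := by
  obtain ⟨R', M', h1, -, h3, h4⟩ := hf.box
  obtain ⟨m, hm⟩ := hu.bdd
  have hm0 : 0 ≤ m := (abs_nonneg _).trans (hm 0)
  have hc := hu.cont
  refine cc_of_box (R := |R| * (1 + m) + R') ?_ fun z hz => ?_
  · exact OBas2_cont hK (G := fun (z : ℝ × ℝ) s => f (z.1 - s, z.2 - s * u z))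
      (hf.cont.comp (by fun_prop)) fun _ _ => h3 _
  · refine (integral_congr_ae (Filter.Eventually.of_forall fun s => ?_)).trans (integral_zero _ _)
    by_cases hs : R < |s|
    · rw [hK.supp s hs, zero_mul]
    · have h5 : |s| ≤ |R| := (not_lt.1 hs).trans (le_abs_self R)
      have h6 : 0 ≤ |R| * m := mul_nonneg (abs_nonneg R) hm0
      rw [h4, mul_zero]
      rcases hz with hz | hz
      · left
        have := abs_sub_abs_le_abs_sub z.1 s
        change R' < |z.1 - s|
        linarith
      · right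
        have h7 := abs_sub_abs_le_abs_sub z.2 (s * u z)
        have h8 : |s * u z| ≤ |R| * m := by
          rw [abs_mul]
          exact mul_le_mul h5 (hm z) (abs_nonneg _) (abs_nonneg _)
        change R' < |z.2 - s * u z|
        linarith [abs_nonneg R]

theorem lop_add {K K' : ℝ → ℝ} {R M R' M' κ : ℝ} {u f : ℝ × ℝ → ℝ} (hK : Bmp K R M)
    (hK' : Bmp K' R' M') (hu : Fld κ u) (hf : Cc f) (z : ℝ × ℝ) :
    lop (fun s => K s + K' s) u f z = lop K u f z + lop K' u f z := by
  obtain ⟨_, M'', -, -, h3, -⟩ := hf.box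
  have hm : AEStronglyMeasurable (fun s : ℝ => f (z.1 - s, z.2 - s * u z)) volume :=
    (hf.cont.comp (by fun_prop)).aestronglyMeasurable
  unfold lop
  simp only [add_mul]
  exact integral_add (hK.integrable.mul_bdd hm (c := M'') (Filter.Eventually.of_forall fun _ => h3 _))
    (hK'.integrable.mul_bdd hm (c := M'') (Filter.Eventually.of_forall fun _ => h3 _))

theorem lop_const_mul (c : ℝ) (K : ℝ → ℝ) (u f : ℝ × ℝ → ℝ) (z : ℝ × ℝ) :
    lop (fun s => c * K s) u f z = c * lop K u f z := by
  unfold lop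
  simp only [mul_assoc]
  exact integral_const_mul _ _

end Crest.Agent.R87
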