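import Crest.Agent.R87.ODefs

/-! Row 87, outer reduction: basic facts on `N2`, `cv`, `cvY`, `lop`. -/

set_option autoImplicit false

namespace Crest.Agent.R87

open MeasureTheory Set
open scoped ENNReal

section N2
variable {X : Type*} [MeasureSpace X]

theorem N2_mono {f g : X → ℝ} (h : ∀ x, |f x| ≤ |g x|) : N2 f ≤ N2 g :=
  lintegral_mono fun x => ENNReal.ofReal_le_ofReal (sq_le_sq.2 (h x))

theorem N2_congr_abs {f g : X → ℝ} (h : ∀ x, |f x| = |g x|) : N2 f = N2 g :=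
  le_antisymm (N2_mono fun x => (h x).le) (N2_mono fun x => (h x).ge)

/-- `(a + b)² ≤ 2 a² + 2 b²`, `lintegral_add_left` -/
theorem N2_add_le {f g : X → ℝ} (hf : Measurable f) :
    N2 (fun x => f x + g x) ≤ 2 * N2 f + 2 * N2 g := by
  unfold N2
  rw [← lintegral_const_mul' _ _ (by simp), ← lintegral_const_mul' _ _ (by simp),
    ← lintegral_add_left (by fun_prop)]
  refine lintegral_mono fun x => ?_
  have h2 : (2 : ℝ≥0∞) = ENNReal.ofReal 2 := by simp
  beta_reduce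
  rw [h2, ← ENNReal.ofReal_mul (by norm_num), ← ENNReal.ofReal_mul (by norm_num),
    ← ENNReal.ofReal_add (by positivity) (by positivity)]
  exact ENNReal.ofReal_le_ofReal (by nlinarith [sq_nonneg (f x - g x)])

theorem N2_const_mul (c : ℝ) (f : X → ℝ) :
    N2 (fun x => c * f x) = ENNReal.ofReal (c ^ 2) * N2 f := by
  unfold N2
  rw [← lintegral_const_mul' _ _ ENNReal.ofReal_ne_top]
  refine lintegral_congr fun x => ?_
  rw [mul_pow, ENNReal.ofReal_mul (sq_nonneg c)]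

theorem OBas1_int {f : X → ℝ} (hf : Measurable f) {M : ℝ} (hM : ∀ x, |f x| ≤ M)
    (h : volume (Function.support f) < ∞) : Integrable f := by
  rw [← integrableOn_iff_integrable_of_support_subset (s := Function.support f) subset_rfl]
  exact Measure.integrableOn_of_bounded h.ne hf.aestronglyMeasurable (M := M)
    (Filter.Eventually.of_forall fun x => hM x)

theorem OBas1_sq {f : X → ℝ} (hf : Nice f) : Integrable fun x => f x ^ 2 := by
  obtain ⟨M, hM⟩ := hf.bd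
  refine OBas1_int (hf.meas.pow_const 2) (M := M ^ 2) (fun x => ?_) (lt_of_le_of_lt
    (measure_mono fun x hx => ?_) hf.fin)
  · rw [abs_pow]
    exact pow_le_pow_left₀ (abs_nonneg _) (hM x) 2
  · intro h
    exact hx (by simp [h])

theorem OBas1_N2_eq {f : X → ℝ} (hf : Nice f) : N2 f = ENNReal.ofReal (∫ x, f x ^ 2) :=
  (ofReal_integral_eq_lintegral_ofReal (OBas1_sq hf)
    (Filter.Eventually.of_forall fun x => sq_nonneg (f x))).symm

theorem Nice.N2_lt_top {f : X → ℝ} (hf : Nice f) : N2 f < ∞ := by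
  rw [OBas1_N2_eq hf]
  exact ENNReal.ofReal_lt_top

theorem Nice.integrable {f : X → ℝ} (hf : Nice f) : Integrable f :=
  let ⟨_, hM⟩ := hf.bd
  OBas1_int hf.meas hM hf.fin

theorem Nice.N2_eq {f : X → ℝ} (hf : Nice f) : N2 f = ENNReal.ofReal (∫ x, f x ^ 2) :=
  OBas1_N2_eq hf

theorem Nice.add {f g : X → ℝ} (hf : Nice f) (hg : Nice g) : Nice (fun x => f x + g x) := by
  obtain ⟨M, hM⟩ := hf.bd
  obtain ⟨M', hM'⟩ := hg.bd
  refine ⟨hf.meas.add hg.meas, ⟨M + M', fun x => (abs_add_le _ _).trans (add_le_add (hM x) (hM' x))⟩,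
    lt_of_le_of_lt ((measure_mono (Function.support_add f g)).trans (measure_union_le _ _))
      (ENNReal.add_lt_top.2 ⟨hf.fin, hg.fin⟩)⟩

theorem Nice.const_mul {f : X → ℝ} (hf : Nice f) (c : ℝ) : Nice (fun x => c * f x) := by
  obtain ⟨M, hM⟩ := hf.bd
  refine ⟨hf.meas.const_mul c, ⟨|c| * M, fun x => ?_⟩,
    lt_of_le_of_lt (measure_mono fun x hx => ?_) hf.fin⟩
  · rw [abs_mul]
    exact mul_le_mul_of_nonneg_left (hM x) (abs_nonneg c)
  · intro h
    exact hx (by simp [h])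

theorem Nice.indicator {f : X → ℝ} (hf : Nice f) {S : Set X} (hS : MeasurableSet S) :
    Nice (S.indicator f) := by
  obtain ⟨M, hM⟩ := hf.bd
  refine ⟨hf.meas.indicator hS, ⟨M, fun x => ?_⟩,
    lt_of_le_of_lt (measure_mono fun x hx => ?_) hf.fin⟩
  · by_cases hx : x ∈ S
    · rw [indicator_of_mem hx]
      exact hM x
    · rw [indicator_of_notMem hx, abs_zero]
      exact (abs_nonneg _).trans (hM x)
  · intro h
    apply hx
    by_cases hx : x ∈ S
    · rw [indicator_of_mem hx, h]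
    · rw [indicator_of_notMem hx]

/-- weighted Cauchy-Schwarz: `|∫ K G| ≤ ∫⁻ |K|^{1/2} (|K|^{1/2} |G|)`, `ENNReal.lintegral_mul_le_Lp_mul_Lq`
(`enorm_integral_le_lintegral_enorm`; no integrability needed) -/
theorem sq_integral_le {α : Type*} [MeasurableSpace α] (μ : Measure α) {K G : α → ℝ}
    (hK : AEMeasurable K μ) (hG : AEMeasurable G μ) :
    ENNReal.ofReal ((∫ s, K s * G s ∂μ) ^ 2) ≤
      (∫⁻ s, ENNReal.ofReal |K s| ∂μ) * ∫⁻ s, ENNReal.ofReal |K s| * ENNReal.ofReal (G s ^ 2) ∂μ := by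
  have h1 : ENNReal.ofReal ((∫ s, K s * G s ∂μ) ^ 2) = ‖∫ s, K s * G s ∂μ‖ₑ ^ 2 := by
    rw [← sq_abs, ENNReal.ofReal_pow (abs_nonneg _), Real.enorm_eq_ofReal_abs]
  have hsq : ∀ a : ℝ≥0∞, (a ^ (1 / 2 : ℝ)) ^ (2 : ℝ) = a := fun a => by
    rw [← ENNReal.rpow_mul]
    norm_num
  have h2 := ENNReal.lintegral_mul_le_Lp_mul_Lq μ Real.HolderConjugate.two_two
    (f := fun s => ENNReal.ofReal |K s| ^ (1 / 2 : ℝ))
    (g := fun s => (ENNReal.ofReal |K s| * ENNReal.ofReal (G s ^ 2)) ^ (1 / 2 : ℝ))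
    (by fun_prop) (by fun_prop)
  simp only [hsq] at h2
  have h3 : ‖∫ s, K s * G s ∂μ‖ₑ ≤ ∫⁻ s, ((fun s => ENNReal.ofReal |K s| ^ (1 / 2 : ℝ)) *
      fun s => (ENNReal.ofReal |K s| * ENNReal.ofReal (G s ^ 2)) ^ (1 / 2 : ℝ)) s ∂μ := by
    refine (enorm_integral_le_lintegral_enorm _).trans (le_of_eq (lintegral_congr fun s => ?_))
    rw [Pi.mul_apply, ← ENNReal.mul_rpow_of_nonneg _ _ (by norm_num), ← mul_assoc,
      ← ENNReal.ofReal_mul (abs_nonneg _), ← ENNReal.ofReal_mul (by positivity),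
      ENNReal.ofReal_rpow_of_nonneg (by positivity) (by norm_num), Real.enorm_eq_ofReal_abs,
      ← Real.sqrt_eq_rpow, ← Real.sqrt_sq_eq_abs]
    congr 2
    rw [abs_mul_abs_self]
    ring
  rw [h1]
  refine (pow_le_pow_left' (h3.trans h2) 2).trans (le_of_eq ?_)
  rw [← ENNReal.mul_rpow_of_nonneg _ _ (by norm_num), ← ENNReal.rpow_two, hsq]

end N2

theorem N2_prod {f : ℝ × ℝ → ℝ} (hf : Measurable f) : N2 f = ∫⁻ x, N2 (fun y => f (x, y)) := by
  unfold N2
  rw [Measure.volume_eq_prod, lintegral_prod _ (by fun_prop)]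

theorem OBas1_nice {X : Type*} [MeasureSpace X] [TopologicalSpace X] [OpensMeasurableSpace X]
    [IsFiniteMeasureOnCompacts (volume : Measure X)] {f : X → ℝ} (hf : Cc f) : Nice f := by
  obtain ⟨M, hM⟩ := hf.cont.bounded_above_of_compact_support hf.cpt
  exact ⟨hf.cont.measurable, ⟨M, hM⟩,
    lt_of_le_of_lt (measure_mono (subset_tsupport f)) hf.cpt.isCompact.measure_lt_top⟩

theorem Cc.nice {f : ℝ × ℝ → ℝ} (hf : Cc f) : Nice f := OBas1_nice hf

theorem Cc.nice1 {f : ℝ → ℝ} (hf : Cc f) : Nice f := OBas1_nice hf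

theorem OBas1_box {X : Type*} [NormedAddCommGroup X] {f : X → ℝ} (hf : Cc f) :
    ∃ R M, 0 < R ∧ 0 < M ∧ (∀ z, |f z| ≤ M) ∧ ∀ z, R < ‖z‖ → f z = 0 := by
  obtain ⟨M, hM⟩ := hf.cont.bounded_above_of_compact_support hf.cpt
  obtain ⟨R, hR, h⟩ := hf.cpt.isCompact.isBounded.exists_pos_norm_le
  refine ⟨R, |M| + 1, hR, by positivity, fun z => ?_, fun z hz => ?_⟩
  · exact (hM z).trans (by linarith [le_abs_self M])
  · by_contra h0
    exact absurd (h z (subset_tsupport f h0)) (not_le.2 hz)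

theorem Cc.bmp {f : ℝ → ℝ} (hf : Cc f) : ∃ R M, 0 < R ∧ 0 < M ∧ Bmp f R M := by
  obtain ⟨R, M, h1, h2, h3, h4⟩ := OBas1_box hf
  exact ⟨R, M, h1, h2, hf.cont.measurable, h3, h4⟩

theorem Bmp.nonneg {f : ℝ → ℝ} {R M : ℝ} (hf : Bmp f R M) : 0 ≤ M :=
  (abs_nonneg _).trans (hf.bd 0)

theorem Bmp.mono {f : ℝ → ℝ} {R M R' M' : ℝ} (hf : Bmp f R M) (hR : R ≤ R') (hM : M ≤ M') :
    Bmp f R' M' :=
  ⟨hf.meas, fun y => (hf.bd y).trans hM, fun y hy => hf.supp y (hR.trans_lt hy)⟩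

theorem OBas1_supp {f : ℝ → ℝ} {R M : ℝ} (hf : Bmp f R M) : Function.support f ⊆ Icc (-R) R :=
  fun y hy => abs_le.1 (not_lt.1 fun h => hy (hf.supp y h))

theorem OBas1_bnice {f : ℝ → ℝ} {R M : ℝ} (hf : Bmp f R M) : Nice f :=
  ⟨hf.meas, ⟨M, hf.bd⟩, lt_of_le_of_lt (measure_mono (OBas1_supp hf)) measure_Icc_lt_top⟩

theorem Bmp.integrable {f : ℝ → ℝ} {R M : ℝ} (hf : Bmp f R M) : Integrable f :=
  (OBas1_bnice hf).integrable

theorem Bmp.neg {f : ℝ → ℝ} {R M : ℝ} (hf : Bmp f R M) : Bmp (fun r => f (-r)) R M :=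
  ⟨hf.meas.comp measurable_neg, fun y => hf.bd _, fun y hy => hf.supp _ (by rwa [abs_neg])⟩

theorem Bmp.nice {f : ℝ → ℝ} {R M : ℝ} (hf : Bmp f R M) : Nice f := OBas1_bnice hf

theorem Bmp.cc {f : ℝ → ℝ} {R M : ℝ} (hf : Bmp f R M) (hc : Continuous f) : Cc f :=
  ⟨hc, HasCompactSupport.of_support_subset_isCompact isCompact_Icc (OBas1_supp hf)⟩

/-- a function in `Cc` on the plane is bounded and vanishes outside a square -/
theorem Cc.box {f : ℝ × ℝ → ℝ} (hf : Cc f) :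
    ∃ R M, 0 < R ∧ 0 < M ∧ (∀ z, |f z| ≤ M) ∧ ∀ z, R < |z.1| ∨ R < |z.2| → f z = 0 := by
  obtain ⟨R, M, h1, h2, h3, h4⟩ := OBas1_box hf
  refine ⟨R, M, h1, h2, h3, fun z hz => h4 z ?_⟩
  rcases hz with hz | hz
  · exact hz.trans_le (norm_fst_le z)
  · exact hz.trans_le (norm_snd_le z)

theorem cc_of_box {f : ℝ × ℝ → ℝ} (hc : Continuous f) {R : ℝ}
    (h : ∀ z, R < |z.1| ∨ R < |z.2| → f z = 0) : Cc f := by
  refine ⟨hc, HasCompactSupport.of_support_subset_isCompact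
    ((isCompact_Icc (a := -R) (b := R)).prod (isCompact_Icc (a := -R) (b := R))) fun z hz => ?_⟩
  exact ⟨abs_le.1 (not_lt.1 fun h' => hz (h z (Or.inl h'))),
    abs_le.1 (not_lt.1 fun h' => hz (h z (Or.inr h')))⟩

theorem Cc.slice {f : ℝ × ℝ → ℝ} (hf : Cc f) (x : ℝ) : Cc (fun y => f (x, y)) := by
  obtain ⟨R, M, -, -, h3, h4⟩ := hf.box
  have hc : Continuous fun y => f (x, y) := hf.cont.comp (by fun_prop)
  exact Bmp.cc (R := R) (M := M) ⟨hc.measurable, fun y => h3 _, fun y hy => h4 _ (Or.inr hy)⟩ hc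

theorem bmp_Kt {ε a : ℝ} (hε : 0 < ε) : Bmp (Kt ε a) a ε⁻¹ := by
  refine ⟨?_, fun y => ?_, fun y hy => ?_⟩
  · unfold Kt
    refine Measurable.ite ?_ measurable_inv measurable_const
    exact (measurableSet_lt measurable_const measurable_abs).inter
      (measurableSet_lt measurable_abs measurable_const)
  · unfold Kt
    split_ifs with h
    · rw [abs_inv]
      exact inv_anti₀ hε h.1.le
    · rw [abs_zero]
      positivity
  · unfold Kt
    rw [if_neg fun h => lt_asymm h.2 hy]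

end Crest.Agent.R87
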