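import Crest.Agent.R87.OBas1

/-! Row 87, outer reduction: basic facts on `N2`, `cv`, `cvY`, `lop`. -/

set_option autoImplicit false

namespace Crest.Agent.R87

open MeasureTheory Set
open scoped ENNReal

/-! ### convolutions -/

/-- substitution `w = y - t r` -/
theorem cv_eq (ψ H : ℝ → ℝ) {t : ℝ} (ht : 0 < t) (y : ℝ) :
    cv ψ t H y = ∫ r, ψ r * H (y - t * r) := by
  unfold cv
  rw [← integral_sub_left_eq_self _ volume y]
  have h := Measure.integral_comp_mul_left
    (fun w => t⁻¹ * ψ ((y - (y - w)) / t) * H (y - w)) t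
  rw [abs_of_pos (inv_pos.2 ht), smul_eq_mul] at h
  rw [← mul_inv_cancel_left₀ ht.ne' (∫ w, t⁻¹ * ψ ((y - (y - w)) / t) * H (y - w)), ← h,
    ← integral_const_mul]
  refine integral_congr_ae (Filter.Eventually.of_forall fun r => ?_)
  beta_reduce
  rw [sub_sub_cancel, mul_div_cancel_left₀ _ ht.ne']
  field_simp

/-- `StronglyMeasurable.integral_prod_right` -/
theorem measurable_cv {α : Type*} [MeasurableSpace α] {ψ : ℝ → ℝ} (hψ : Measurable ψ)
    {H : α → ℝ → ℝ} (hH : Measurable fun p : α × ℝ => H p.1 p.2) {t y : α → ℝ}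
    (ht : Measurable t) (hy : Measurable y) : Measurable fun p => cv ψ (t p) (H p) (y p) := by
  unfold cv
  have h1 : Measurable fun q : α × ℝ => (t q.1)⁻¹ * ψ ((y q.1 - q.2) / t q.1) * H q.1 q.2 :=
    ((ht.comp measurable_fst).inv.mul (hψ.comp (((hy.comp measurable_fst).sub measurable_snd).div
      (ht.comp measurable_fst)))).mul hH
  exact (h1.stronglyMeasurable.integral_prod_right' (ν := volume)).measurable

theorem OBas2_bd {ψ G : ℝ → ℝ} {R M M' : ℝ} (hψ : Bmp ψ R M) (hG : ∀ r, |G r| ≤ M') (hR : 0 ≤ R) :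
    |∫ r, ψ r * G r| ≤ 2 * R * M * M' := by
  have h := norm_integral_le_of_norm_le (μ := volume) (f := fun r => ψ r * G r)
    (g := (Icc (-R) R).indicator fun _ => M * M')
    ((integrable_indicator_iff measurableSet_Icc).2 (integrableOn_const measure_Icc_lt_top.ne))
    (Filter.Eventually.of_forall fun r => ?_)
  · rw [integral_indicator measurableSet_Icc, setIntegral_const, Real.volume_real_Icc_of_le (by linarith),
      smul_eq_mul] at h
    exact h.trans (le_of_eq (by ring))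
  · by_cases hr : r ∈ Icc (-R) R
    · rw [indicator_of_mem hr, Real.norm_eq_abs, abs_mul]
      exact mul_le_mul (hψ.bd r) (hG r) (abs_nonneg _) hψ.nonneg
    · rw [indicator_of_notMem hr, hψ.supp r (not_le.1 fun h => hr (abs_le.1 h)), zero_mul, norm_zero]

theorem OBas2_zero {ψ H : ℝ → ℝ} {R M R' t y : ℝ} (hψ : Bmp ψ R M) (hH : ∀ y, R' < |y| → H y = 0)
    (ht : 0 < t) (hy : R * t + R' < |y|) : cv ψ t H y = 0 := by
  rw [cv_eq ψ H ht]
  refine (integral_congr_ae (Filter.Eventually.of_forall fun r => ?_)).trans (integral_zero _ _)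
  by_cases hr : R < |r|
  · rw [hψ.supp r hr, zero_mul]
  · rw [hH, mul_zero]
    have h1 := abs_sub_abs_le_abs_sub y (t * r)
    rw [abs_mul, abs_of_pos ht] at h1
    nlinarith [not_lt.1 hr]

theorem Bmp.cv {ψ H : ℝ → ℝ} {R M R' M' t : ℝ} (hψ : Bmp ψ R M) (hH : Bmp H R' M') (hR : 0 ≤ R)
    (ht : 0 < t) : Bmp (cv ψ t H) (R * t + R') (2 * R * M * M') := by
  refine ⟨measurable_cv (H := fun _ : ℝ => H) hψ.meas (hH.meas.comp measurable_snd)
    measurable_const measurable_id, fun y => ?_, fun y hy => OBas2_zero hψ hH.supp ht hy⟩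
  rw [cv_eq ψ H ht]
  exact OBas2_bd hψ (fun r => hH.bd _) hR

theorem OBas2_cont {X : Type*} [TopologicalSpace X] [FirstCountableTopology X] {ψ : ℝ → ℝ}
    {R M M' : ℝ} (hψ : Bmp ψ R M) {G : X → ℝ → ℝ} (hG : Continuous fun p : X × ℝ => G p.1 p.2)
    (hb : ∀ x r, |G x r| ≤ M') : Continuous fun x => ∫ r, ψ r * G x r := by
  refine continuous_of_dominated (bound := fun r => ‖ψ r‖ * M') (fun x => ?_)
    (fun x => Filter.Eventually.of_forall fun r => ?_) (hψ.integrable.norm.mul_const _)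
    (Filter.Eventually.of_forall fun r => ?_)
  · exact (hψ.meas.mul (hG.comp (Continuous.prodMk_right x)).measurable).aestronglyMeasurable
  · rw [norm_mul]
    exact mul_le_mul_of_nonneg_left (hb x r) (norm_nonneg _)
  · exact continuous_const.mul (hG.comp (Continuous.prodMk_left r))

/-- `cv_eq`, `continuous_of_dominated` -/
theorem Cc.cv {ψ H : ℝ → ℝ} {R M t : ℝ} (hψ : Bmp ψ R M) (hH : Cc H) (ht : 0 < t) :
    Cc (cv ψ t H) := by
  obtain ⟨R', M', -, -, h⟩ := hH.bmp
  refine ((hψ.mono (le_abs_self R) le_rfl).cv h (abs_nonneg R) ht).cc ?_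
  have e : R87.cv ψ t H = fun y => ∫ r, ψ r * H (y - t * r) := funext (cv_eq ψ H ht)
  rw [e]
  exact OBas2_cont hψ (G := fun y r => H (y - t * r)) (hH.cont.comp (by fun_prop)) fun _ _ => h.bd _

theorem Cc.cvY {ψ : ℝ → ℝ} {f : ℝ × ℝ → ℝ} {R M t : ℝ} (hψ : Bmp ψ R M) (hf : Cc f) (ht : 0 < t) :
    Cc (cvY ψ t f) := by
  obtain ⟨R', M', h1, -, h3, h4⟩ := hf.box
  have e : R87.cvY ψ t f = fun z => ∫ r, ψ r * f (z.1, z.2 - t * r) :=
    funext fun z => cv_eq ψ _ ht z.2
  refine cc_of_box (R := |R| * t + R') ?_ fun z hz => ?_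
  · rw [e]
    exact OBas2_cont hψ (G := fun (z : ℝ × ℝ) r => f (z.1, z.2 - t * r)) (hf.cont.comp (by fun_prop))
      fun _ _ => h3 _
  · rcases hz with hz | hz
    · have h5 : R' < |z.1| := by nlinarith [abs_nonneg R]
      rw [e]
      simp only [fun y => h4 (z.1, y) (Or.inl h5), mul_zero, integral_zero]
    · exact OBas2_zero (hψ.mono (le_abs_self R) le_rfl) (fun y hy => h4 _ (Or.inr hy)) ht hz

/-- Young's inequality: `cv_eq`, `sq_integral_le`, Tonelli, translation invariance -/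
theorem N2_cv_le {ψ H : ℝ → ℝ} (hψ : Measurable ψ) (hH : Measurable H) {t : ℝ} (ht : 0 < t) :
    N2 (cv ψ t H) ≤ (∫⁻ r, ENNReal.ofReal |ψ r|) ^ 2 * N2 H := by
  have hm : Measurable fun p : ℝ × ℝ =>
      ENNReal.ofReal |ψ p.2| * ENNReal.ofReal (H (p.1 - t * p.2) ^ 2) := by fun_prop
  calc N2 (cv ψ t H) ≤ ∫⁻ y, (∫⁻ r, ENNReal.ofReal |ψ r|) *
        ∫⁻ r, ENNReal.ofReal |ψ r| * ENNReal.ofReal (H (y - t * r) ^ 2) := by
        refine lintegral_mono fun y => ?_
        beta_reduce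
        rw [cv_eq ψ H ht]
        exact sq_integral_le volume hψ.aemeasurable (G := fun r => H (y - t * r)) (by fun_prop)
    _ = (∫⁻ r, ENNReal.ofReal |ψ r|) *
        ∫⁻ r, ∫⁻ y, ENNReal.ofReal |ψ r| * ENNReal.ofReal (H (y - t * r) ^ 2) := by
        rw [lintegral_const_mul _ hm.lintegral_prod_right', lintegral_lintegral_swap hm.aemeasurable]
    _ = (∫⁻ r, ENNReal.ofReal |ψ r|) * ∫⁻ r, ENNReal.ofReal |ψ r| * N2 H := by
        congr 1
        refine lintegral_congr fun r => ?_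
        rw [lintegral_const_mul' _ _ ENNReal.ofReal_ne_top,
          lintegral_sub_right_eq_self (fun y => ENNReal.ofReal (H y ^ 2))]
        rfl
    _ = _ := by rw [lintegral_mul_const _ (by fun_prop), sq, mul_assoc]

theorem N2_cvY_le {ψ : ℝ → ℝ} {f : ℝ × ℝ → ℝ} (hψ : Measurable ψ) (hf : Measurable f) {t : ℝ}
    (ht : 0 < t) : N2 (cvY ψ t f) ≤ (∫⁻ r, ENNReal.ofReal |ψ r|) ^ 2 * N2 f := by
  have h1 : Measurable (cvY ψ t f) :=
    measurable_cv (H := fun (z : ℝ × ℝ) y => f (z.1, y)) hψ (by fun_prop) measurable_const measurable_snd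
  rw [N2_prod h1, N2_prod hf, ← lintegral_const_mul]
  · exact lintegral_mono fun x => N2_cv_le hψ (H := fun y => f (x, y)) (by fun_prop) ht
  · exact Measurable.lintegral_prod_right' (f := fun p : ℝ × ℝ => ENNReal.ofReal (f p ^ 2))
      (by fun_prop)

theorem Bmp.lintegral_le {ψ : ℝ → ℝ} {R M : ℝ} (hψ : Bmp ψ R M) :
    ∫⁻ r, ENNReal.ofReal |ψ r| ≤ ENNReal.ofReal (2 * R * M) := by
  calc ∫⁻ r, ENNReal.ofReal |ψ r| ≤ ∫⁻ r, (Icc (-R) R).indicator (fun _ => ENNReal.ofReal M) r := by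
        refine lintegral_mono fun r => ?_
        by_cases hr : r ∈ Icc (-R) R
        · rw [indicator_of_mem hr]
          exact ENNReal.ofReal_le_ofReal (hψ.bd r)
        · simp [hψ.supp r (not_le.1 fun h => hr (abs_le.1 h))]
    _ = _ := by
        rw [lintegral_indicator measurableSet_Icc, setLIntegral_const, Real.volume_Icc,
          ← ENNReal.ofReal_mul hψ.nonneg]
        congr 1
        ring

theorem OBas2_int {ψ χ : ℝ → ℝ} {R M R' M' : ℝ} (hψ : Bmp ψ R M) (hχ : Bmp χ R' M') :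
    Integrable (fun p : ℝ × ℝ => ψ p.2 * χ (p.1 - p.2)) (volume.prod volume) :=
  hψ.integrable.convolution_integrand (ContinuousLinearMap.mul ℝ ℝ) hχ.integrable

/-- associativity (Fubini) -/
theorem cv_cv {ψ χ H : ℝ → ℝ} {R M R' M' R'' M'' t : ℝ} (hψ : Bmp ψ R M) (hχ : Bmp χ R' M')
    (hH : Bmp H R'' M'') (ht : 0 < t) : cv (cv ψ 1 χ) t H = cv ψ t (cv χ t H) := by
  funext y
  have hi : Integrable (Function.uncurry fun r s => ψ s * χ (r - s) * H (y - t * r))
      (volume.prod volume) :=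
    (OBas2_int hψ hχ).mul_bdd (c := M'') (g := fun p : ℝ × ℝ => H (y - t * p.1))
      (hH.meas.comp (by fun_prop)).aestronglyMeasurable
      (Filter.Eventually.of_forall fun p => hH.bd _)
  rw [cv_eq _ _ ht, cv_eq _ _ ht]
  simp only [cv_eq _ _ ht, cv_eq _ _ one_pos, one_mul, ← integral_mul_const]
  rw [integral_integral_swap hi]
  refine integral_congr_ae (Filter.Eventually.of_forall fun s => ?_)
  beta_reduce
  rw [← integral_const_mul, ← integral_add_right_eq_self _ s]
  refine integral_congr_ae (Filter.Eventually.of_forall fun r => ?_)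
  beta_reduce
  rw [add_sub_cancel_right, mul_assoc, show y - t * (r + s) = y - t * s - t * r by ring]

theorem integral_cv {ψ χ : ℝ → ℝ} {R M R' M' : ℝ} (hψ : Bmp ψ R M) (hχ : Bmp χ R' M') :
    ∫ y, cv ψ 1 χ y = (∫ y, ψ y) * ∫ y, χ y := by
  simp only [cv_eq _ _ one_pos, one_mul]
  rw [integral_integral_swap (f := fun y r => ψ r * χ (y - r)) (OBas2_int hψ hχ), ← integral_mul_const]
  refine integral_congr_ae (Filter.Eventually.of_forall fun s => ?_)
  beta_reduce
  rw [integral_const_mul, integral_sub_right_eq_self χ s]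

end Crest.Agent.R87
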