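import Crest.Agent.R87.ORes1

/-! Row 87, outer reduction: calculus of bounded kernels. -/

set_option autoImplicit false

namespace Crest.Agent.R87

open MeasureTheory Set
open scoped ENNReal

theorem Bd.mono {k : P2 × P2 → ℝ} {C C' : ℝ} (h : Bd k C) (hC : C ≤ C') : Bd k C' := by
  exact fun g f hg hf => (h g f hg hf).trans (by gcongr)

theorem Bd.sub {k k' : P2 × P2 → ℝ} {C C' : ℝ} (hk : MB k) (hk' : MB k') (h : Bd k C) (h' : Bd k' C') :
    Bd (fun p => k p - k' p) (C + C') := by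
  intro g f hg hf
  have e : bil (fun p => k p - k' p) g f = bil k g f - bil k' g f := by
    rw [bil, bil, bil, ← integral_sub (integrable_bil hk hg.nice hf.nice) (integrable_bil hk' hg.nice hf.nice)]
    exact integral_congr_ae (Filter.Eventually.of_forall fun p => by ring)
  rw [e]
  refine (abs_sub _ _).trans ((add_le_add (h g f hg hf) (h' g f hg hf)).trans_eq (by ring))

theorem Bd.const_mul {k : P2 × P2 → ℝ} {C : ℝ} (h : Bd k C) (c : ℝ) :
    Bd (fun p => c * k p) (|c| * C) := by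
  intro g f hg hf
  have e : bil (fun p => c * k p) g f = c * bil k g f := by
    rw [bil, bil, ← integral_const_mul]
    exact integral_congr_ae (Filter.Eventually.of_forall fun p => by ring)
  rw [e, abs_mul]
  exact (mul_le_mul_of_nonneg_left (h g f hg hf) (abs_nonneg c)).trans_eq (by ring)

/-- Fubini (`integral_integral_swap`; the integrand is dominated by `B |g p.1| |f p.2|`),
`norm_setIntegral_le_of_norm_le_const` -/
theorem Bd.avg {α β C : ℝ} (hαβ : α ≤ β) {k : ℝ → P2 × P2 → ℝ}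
    (hm : Measurable fun q : ℝ × P2 × P2 => k q.1 q.2) (hb : ∃ B, ∀ t ∈ Ioc α β, ∀ p, |k t p| ≤ B)
    (h : ∀ t ∈ Ioc α β, Bd (k t) C) : Bd (fun p => ∫ t in Ioc α β, k t p) ((β - α) * C) := by
  intro g f hg hf
  obtain ⟨B, hB⟩ := hb
  have hi : Integrable (Function.uncurry fun (t : ℝ) (p : P2 × P2) => g p.1 * k t p * f p.2)
      ((volume.restrict (Ioc α β)).prod volume) := by
    have h1 : Integrable (fun q : ℝ × P2 × P2 => B * (|g q.2.1| * |f q.2.2|)) ((volume.restrict (Ioc α β)).prod volume) :=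
      (integrable_const B).mul_prod (hg.nice.integrable.abs.mul_prod hf.nice.integrable.abs)
    refine h1.mono' (((hg.nice.meas.comp measurable_snd.fst).mul hm).mul
      (hf.nice.meas.comp measurable_snd.snd)).aestronglyMeasurable ?_
    refine (Measure.quasiMeasurePreserving_fst.ae (ae_restrict_mem measurableSet_Ioc)).mono fun q hq => ?_
    have := hB q.1 hq q.2
    simp only [Function.uncurry, Real.norm_eq_abs, abs_mul]
    calc |g q.2.1| * |k q.1 q.2| * |f q.2.2| ≤ |g q.2.1| * B * |f q.2.2| := by gcongr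
      _ = _ := by ring
  have e : bil (fun p => ∫ t in Ioc α β, k t p) g f = ∫ t in Ioc α β, bil (k t) g f := by
    simp only [bil]
    rw [integral_integral_swap hi]
    simp only [integral_mul_const, integral_const_mul]
  have := norm_setIntegral_le_of_norm_le_const (μ := volume) (s := Ioc α β) measure_Ioc_lt_top
    (f := fun t => bil (k t) g f) fun t ht => h t ht g f hg hf
  rw [Real.volume_real_Ioc_of_le hαβ] at this
  rw [e]
  exact le_of_le_of_eq this (by ring)

noncomputable def OBd_A {σ : ℝ} (hσ : 0 < σ) (θ : ℝ) : P2 ≃ₜ P2 :=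
  ((Homeomorph.addRight θ).trans (Homeomorph.mulLeft₀ σ hσ.ne')).prodCongr (Homeomorph.refl ℝ)

theorem OBd_map {σ : ℝ} (hσ : 0 < σ) (θ : ℝ) :
    Measure.map (OBd_A hσ θ) volume = ENNReal.ofReal σ⁻¹ • volume := by
  have h1 : Measure.map (fun x : ℝ => σ * (x + θ)) volume = ENNReal.ofReal σ⁻¹ • volume := by
    rw [← abs_of_pos (inv_pos.2 hσ), ← Real.map_volume_mul_left hσ.ne']
    conv_rhs => rw [← map_add_right_eq_self volume θ]
    rw [Measure.map_map (by fun_prop) (by fun_prop)]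
    rfl
  have h2 := Measure.map_prod_map (f := fun x : ℝ => σ * (x + θ)) (g := id) (volume : Measure ℝ) (volume : Measure ℝ)
    (by fun_prop) measurable_id
  rw [h1, Measure.map_id, Measure.prod_smul_left] at h2
  exact h2.symm

/-- `A z = (σ (z.1 + θ), z.2)` is a measurable equivalence with `map A volume = ofReal σ⁻¹ • volume`
(`Measure.map_prod_map`, `Real.map_volume_mul_left`, `map_add_right_eq_self`); `integral_map_equiv` -/
theorem integral_aff {σ : ℝ} (hσ : 0 < σ) (θ : ℝ) (F : P2 → ℝ) :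
    ∫ z, F z = σ * ∫ z : P2, F (σ * (z.1 + θ), z.2) := by
  have h := (OBd_A hσ θ).measurableEmbedding.integral_map (μ := volume) F
  rw [OBd_map, integral_smul_measure, ENNReal.toReal_ofReal (inv_pos.2 hσ).le, smul_eq_mul,
    inv_mul_eq_iff_eq_mul₀ hσ.ne'] at h
  exact h

theorem integral_aff2 {σ : ℝ} (hσ : 0 < σ) (θ : ℝ) (F : P2 × P2 → ℝ) :
    ∫ p, F p = σ ^ 2 * ∫ p : P2 × P2, F ((σ * (p.1.1 + θ), p.1.2), (σ * (p.2.1 + θ), p.2.2)) := by
  have h := ((OBd_A hσ θ).prodCongr (OBd_A hσ θ)).measurableEmbedding.integral_map (μ := volume) F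
  have h2 := Measure.map_prod_map (volume : Measure P2) (volume : Measure P2) (OBd_A hσ θ).measurable
    (OBd_A hσ θ).measurable
  simp only [OBd_map] at h2
  rw [Measure.prod_smul_left, Measure.prod_smul_right] at h2
  rw [show Measure.map ((OBd_A hσ θ).prodCongr (OBd_A hσ θ)) volume = _ from h2.symm, integral_smul_measure,
    integral_smul_measure, ENNReal.toReal_ofReal (inv_pos.2 hσ).le, smul_eq_mul, smul_eq_mul,
    inv_mul_eq_iff_eq_mul₀ hσ.ne', inv_mul_eq_iff_eq_mul₀ hσ.ne', ← mul_assoc, ← sq] at h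
  exact h

theorem Cc.aff {σ : ℝ} (hσ : 0 < σ) (θ : ℝ) {f : P2 → ℝ} (hf : Cc f) :
    Cc fun z : P2 => f (σ * (z.1 + θ), z.2) := by
  exact ⟨hf.cont.comp (OBd_A hσ θ).continuous, hf.cpt.comp_homeomorph (OBd_A hσ θ)⟩

/-- horizontal change of variables: `integral_aff2`, `integral_aff`, `Cc.aff` -/
theorem Bd.aff {k : P2 × P2 → ℝ} {C σ : ℝ} (h : Bd k C) (hσ : 0 < σ) (θ : ℝ) :
    Bd (fun p => σ⁻¹ * k ((p.1.1 / σ - θ, p.1.2), (p.2.1 / σ - θ, p.2.2))) C := by
  intro g f hg hf
  have h1 := h _ _ (hg.aff hσ θ) (hf.aff hσ θ)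
  have e : ∀ x : ℝ, σ * (x + θ) / σ - θ = x := fun x => by rw [mul_div_cancel_left₀ _ hσ.ne', add_sub_cancel_right]
  have e2 : bil (fun p => σ⁻¹ * k ((p.1.1 / σ - θ, p.1.2), (p.2.1 / σ - θ, p.2.2))) g f =
      σ * bil k (fun z : P2 => g (σ * (z.1 + θ), z.2)) fun z : P2 => f (σ * (z.1 + θ), z.2) := by
    rw [bil, bil, integral_aff2 hσ θ, sq, mul_assoc, ← integral_const_mul]
    congr 1
    refine integral_congr_ae (Filter.Eventually.of_forall fun p => ?_)
    simp only [e, Prod.mk.eta]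
    field_simp
  rw [e2, integral_aff hσ θ fun z => g z ^ 2, integral_aff hσ θ fun z => f z ^ 2, abs_mul, abs_of_pos hσ,
    Real.sqrt_mul hσ.le, Real.sqrt_mul hσ.le]
  refine (mul_le_mul_of_nonneg_left h1 hσ.le).trans_eq ?_
  nth_rewrite 1 [← Real.mul_self_sqrt hσ.le]
  ring

end Crest.Agent.R87
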