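import Crest.Agent.R87.ORes1

/-! Row 87, outer reduction: the line operator as a bilinear form. -/

set_option autoImplicit false

namespace Crest.Agent.R87

open MeasureTheory Set
open scoped ENNReal

theorem mb_lker {κ : ℝ → ℝ → ℝ} {ψ : ℝ → ℝ} {u : P2 → ℝ} (hκ : MB fun q : ℝ × ℝ => κ q.1 q.2) (hψ : MB ψ)
    (hu : Measurable u) : MB (lker κ ψ u) := by
  obtain ⟨B, hB⟩ := hκ.bd
  obtain ⟨B', hB'⟩ := hψ.bd
  refine ⟨(hκ.meas.comp (f := fun p : P2 × P2 => (p.1.1, p.2.1)) (by fun_prop)).mul (hψ.meas.comp (by fun_prop)),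
    B * B', fun p => ?_⟩
  rw [lker, abs_mul]
  exact mul_le_mul (hB (p.1.1, p.2.1)) (hB' _) (abs_nonneg _) ((abs_nonneg _).trans (hB (0, 0)))

theorem Bmp.mb {ψ : ℝ → ℝ} {R M : ℝ} (h : Bmp ψ R M) : MB ψ :=
  ⟨h.meas, M, h.bd⟩

/-- for fixed `z`: `integral_prod` in `z' = (x', y')`, substitution `x' = z.1 - s` (`integral_sub_left_eq_self`) -/
theorem integral_lker {K ψ : ℝ → ℝ} {R M R' M' : ℝ} (hK : Bmp K R M) (hψ : Bmp ψ R' M') (u : P2 → ℝ)
    {f : P2 → ℝ} (hf : Cc f) (z : P2) :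
    ∫ z', lker (fun x x' => K (x - x')) ψ u (z, z') * f z' = lop K u (cvY (fun r => ψ (-r)) 1 f) z := by
  have hi : Integrable (fun z' : P2 => lker (fun x x' => K (x - x')) ψ u (z, z') * f z') (volume.prod volume) := by
    refine Integrable.bdd_mul (c := M * M') hf.nice.integrable ?_ (ae_of_all _ fun z' => ?_)
    · exact ((hK.meas.comp (f := fun z' : P2 => z.1 - z'.1) (by fun_prop)).mul
        (hψ.meas.comp (f := fun z' : P2 => z'.2 - z.2 + (z.1 - z'.1) * u z) (by fun_prop))).aestronglyMeasurable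
    · rw [lker, Real.norm_eq_abs, abs_mul]
      exact mul_le_mul (hK.bd _) (hψ.bd _) (abs_nonneg _) hK.nonneg
  rw [Measure.volume_eq_prod, integral_prod _ hi, lop,
    ← integral_sub_left_eq_self (fun s => K s * cvY (fun r => ψ (-r)) 1 f (z.1 - s, z.2 - s * u z)) volume z.1]
  refine integral_congr_ae (ae_of_all _ fun x => ?_)
  simp only [lker, cvY, cv, sub_sub_cancel, inv_one, one_mul, div_one]
  rw [← integral_const_mul]
  refine integral_congr_ae (ae_of_all _ fun y => ?_)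
  have e : y - z.2 + (z.1 - x) * u z = -(z.2 - (z.1 - x) * u z - y) := by ring
  simp only [e, mul_assoc]

/-- `integral_prod`, `integrable_bil` -/
theorem bil_lker {K ψ : ℝ → ℝ} {R M R' M' : ℝ} (hK : Bmp K R M) (hψ : Bmp ψ R' M') {u : P2 → ℝ}
    (hu : Measurable u) {g f : P2 → ℝ} (hg : Cc g) (hf : Cc f) :
    bil (lker (fun x x' => K (x - x')) ψ u) g f = ∫ z, g z * lop K u (cvY (fun r => ψ (-r)) 1 f) z := by
  have hk : MB (lker (fun x x' => K (x - x')) ψ u) :=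
    mb_lker ⟨hK.meas.comp (measurable_fst.sub measurable_snd), M, fun _ => hK.bd _⟩ hψ.mb hu
  rw [bil, Measure.volume_eq_prod, integral_prod _ (integrable_bil hk hg.nice hf.nice)]
  refine integral_congr_ae (ae_of_all _ fun z => ?_)
  simp only [mul_assoc]
  rw [integral_const_mul, integral_lker hK hψ u hf z]

/-- duality: test with `g = H`, the function on the left (`Cc.lop`, `Cc.cvY`, `Nice.N2_eq`) -/
theorem N2_le_of_bd {K ψ : ℝ → ℝ} {R M R' M' κ C : ℝ} (hK : Bmp K R M) (hψ : Bmp ψ R' M') {u : P2 → ℝ}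
    (hu : Fld κ u) (h : Bd (lker (fun x x' => K (x - x')) ψ u) C) {f : P2 → ℝ} (hf : Cc f) :
    N2 (lop K u (cvY (fun r => ψ (-r)) 1 f)) ≤ ENNReal.ofReal (C ^ 2) * N2 f := by
  have hH : Cc (lop K u (cvY (fun r => ψ (-r)) 1 f)) := Cc.lop hK hu (Cc.cvY hψ.neg hf one_pos)
  have h1 := h _ f hH hf
  rw [bil_lker hK hψ hu.cont.measurable hH hf] at h1
  simp only [← sq] at h1
  rw [hH.nice.N2_eq, hf.nice.N2_eq, ← ENNReal.ofReal_mul (sq_nonneg _)]
  refine ENNReal.ofReal_le_ofReal ?_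
  have hA : 0 ≤ ∫ z, lop K u (cvY (fun r => ψ (-r)) 1 f) z ^ 2 := integral_nonneg fun _ => sq_nonneg _
  have hB : 0 ≤ ∫ z, f z ^ 2 := integral_nonneg fun _ => sq_nonneg _
  generalize ∫ z, lop K u (cvY (fun r => ψ (-r)) 1 f) z ^ 2 = A at *
  generalize ∫ z, f z ^ 2 = B at *
  rw [abs_of_nonneg hA] at h1
  have h2 := Real.sq_sqrt hA
  have h3 := Real.sq_sqrt hB
  nlinarith [sq_nonneg (√A - C * √B)]

end Crest.Agent.R87
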