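import Crest.Agent.R87.OBas

/-! Row 87, outer reduction: Carleson's embedding theorem on the line. -/

set_option autoImplicit false

namespace Crest.Agent.R87

open MeasureTheory Set
open scoped ENNReal

/-- If `loc t G y > l` then `l t < ∫_I |G| ≤ ∫_{I ∩ {|G| > l/4}} |G| + (l/4) 2t`. -/
theorem loc_gt {G : ℝ → ℝ} {R M : ℝ} (hG : Bmp G R M) {t y l : ℝ} (ht : 0 < t) (hl : 0 < l)
    (h : l < loc t G y) :
    ENNReal.ofReal (l * t / 2) ≤
      ∫⁻ w in Icc (y - t) (y + t) ∩ {w | l / 4 < |G w|}, ENNReal.ofReal |G w| := by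
  have hS : MeasurableSet {w | l / 4 < |G w|} :=
    measurableSet_lt measurable_const (continuous_abs.measurable.comp hG.meas)
  have hint : Integrable (fun w => |G w|) (volume.restrict (Icc (y - t) (y + t))) :=
    hG.integrable.abs.integrableOn
  have h1 : l * t ≤ ∫ w in Icc (y - t) (y + t), |G w| := by
    unfold loc at h
    have := mul_lt_mul_of_pos_left h ht
    rw [← mul_assoc, mul_inv_cancel₀ ht.ne', one_mul] at this
    linarith [mul_comm l t]
  have h2 : ENNReal.ofReal (l * t) ≤ ∫⁻ w in Icc (y - t) (y + t), ENNReal.ofReal |G w| := by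
    rw [← ofReal_integral_eq_lintegral_ofReal hint (ae_of_all _ fun w => abs_nonneg _)]
    exact ENNReal.ofReal_le_ofReal h1
  have h3 : ∫⁻ w in Icc (y - t) (y + t) \ {w | l / 4 < |G w|}, ENNReal.ofReal |G w| ≤
      ENNReal.ofReal (l * t / 2) := by
    calc ∫⁻ w in Icc (y - t) (y + t) \ {w | l / 4 < |G w|}, ENNReal.ofReal |G w|
        ≤ ∫⁻ _w in Icc (y - t) (y + t) \ {w | l / 4 < |G w|}, ENNReal.ofReal (l / 4) := by
          refine setLIntegral_mono' (measurableSet_Icc.diff hS) fun w hw => ?_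
          exact ENNReal.ofReal_le_ofReal (not_lt.1 hw.2)
      _ ≤ ∫⁻ _w in Icc (y - t) (y + t), ENNReal.ofReal (l / 4) :=
          lintegral_mono_set sdiff_subset
      _ = ENNReal.ofReal (l * t / 2) := by
          rw [setLIntegral_const, Real.volume_Icc, ← ENNReal.ofReal_mul (by positivity)]
          congr 1; ring
  rw [← lintegral_inter_add_sdiff (fun w => ENNReal.ofReal |G w|) _ hS] at h2
  have h4 : ENNReal.ofReal (l * t) = ENNReal.ofReal (l * t / 2) + ENNReal.ofReal (l * t / 2) := by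
    rw [← ENNReal.ofReal_add (by positivity) (by positivity)]
    congr 1; ring
  rw [h4] at h2
  exact (ENNReal.add_le_add_iff_right ENNReal.ofReal_ne_top).1 (h2.trans (add_le_add le_rfl h3))

/-- Vitali: `Vitali.exists_disjoint_subfamily_covering_enlargement_closedBall` for the balls `closedBall y t`,
`(t, y) ∈ E` (radii are bounded by `loc_gt`); the subfamily is countable
(`Set.PairwiseDisjoint.countable_of_nonempty_interior`); `closedBall y t ⊆ closedBall y' (5 t')` gives `t ≤ 5 t'`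
and `y ∈ Icc (y' - 5 t') (y' + 5 t')`.  So `ν E ≤ ∑ A 5 t' ≤ A (10 / l) ∫_{|G| > l/4} |G|`. -/
theorem carl_weak {γ : ℝ × ℝ → ℝ≥0∞} (hγ : Measurable γ) {A : ℝ≥0∞} (hA : Carl γ A) {G : ℝ → ℝ}
    {R M : ℝ} (hG : Bmp G R M) {l : ℝ} (hl : 0 < l) :
    ∫⁻ p in {p : ℝ × ℝ | 0 < p.1 ∧ l < loc p.1 G p.2}, γ p ≤
      A * ENNReal.ofReal (10 / l) * ∫⁻ w in {w | l / 4 < |G w|}, ENNReal.ofReal |G w| := by
  classical
  set E : Set (ℝ × ℝ) := {p : ℝ × ℝ | 0 < p.1 ∧ l < loc p.1 G p.2} with hE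
  set S : Set ℝ := {w | l / 4 < |G w|} with hSdef
  have hS : MeasurableSet S :=
    measurableSet_lt measurable_const (continuous_abs.measurable.comp hG.meas)
  have hr : ∀ p ∈ E, p.1 ≤ 2 * |2 * R * M| / l := by
    intro p hp
    have h1 := loc_gt hG hp.1 hl hp.2
    have h2 : ENNReal.ofReal (l * p.1 / 2) ≤ ENNReal.ofReal |2 * R * M| :=
      h1.trans ((setLIntegral_le_lintegral _ _).trans
        (hG.lintegral_le.trans (ENNReal.ofReal_le_ofReal (le_abs_self _))))
    rw [ENNReal.ofReal_le_ofReal_iff (abs_nonneg _)] at h2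
    rw [le_div_iff₀ hl]
    linarith [mul_comm l p.1]
  obtain ⟨u, huE, hdis, hcov⟩ :=
    Vitali.exists_disjoint_subfamily_covering_enlargement_closedBall E (fun p => p.2) (fun p => p.1) _ hr
      5 (by norm_num)
  have hcount : u.Countable := by
    refine hdis.countable_of_nonempty_interior fun p hp => ⟨p.2, ?_⟩
    rw [mem_interior_iff_mem_nhds]
    exact Metric.closedBall_mem_nhds _ (huE hp).1
  have := hcount.to_subtype
  have hsub : E ⊆ ⋃ b : u, Ioc (0 : ℝ) (5 * b.1.1) ×ˢ Icc (b.1.2 - 5 * b.1.1) (b.1.2 + 5 * b.1.1) := by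
    intro p hp
    obtain ⟨b, hb, hpb⟩ := hcov p hp
    have hp0 : 0 < p.1 := hp.1
    rw [Real.closedBall_eq_Icc, Real.closedBall_eq_Icc] at hpb
    have a1 := hpb (show p.2 - p.1 ∈ Icc (p.2 - p.1) (p.2 + p.1) from ⟨le_rfl, by linarith⟩)
    have a2 := hpb (show p.2 + p.1 ∈ Icc (p.2 - p.1) (p.2 + p.1) from ⟨by linarith, le_rfl⟩)
    refine mem_iUnion.2 ⟨⟨b, hb⟩, ⟨hp0, ?_⟩, ?_, ?_⟩
    · show p.1 ≤ 5 * b.1
      linarith [a1.1, a2.2]
    · show b.2 - 5 * b.1 ≤ p.2
      linarith [a1.1]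
    · show p.2 ≤ b.2 + 5 * b.1
      linarith [a2.2]
  calc ∫⁻ p in E, γ p
      ≤ ∫⁻ p in ⋃ b : u, Ioc (0 : ℝ) (5 * b.1.1) ×ˢ Icc (b.1.2 - 5 * b.1.1) (b.1.2 + 5 * b.1.1), γ p :=
        lintegral_mono_set hsub
    _ ≤ ∑' b : u, ∫⁻ p in Ioc (0 : ℝ) (5 * b.1.1) ×ˢ Icc (b.1.2 - 5 * b.1.1) (b.1.2 + 5 * b.1.1), γ p :=
        lintegral_iUnion_le _ _
    _ ≤ ∑' b : u, A * ENNReal.ofReal (10 / l) *
          ∫⁻ w in Icc (b.1.2 - b.1.1) (b.1.2 + b.1.1) ∩ S, ENNReal.ofReal |G w| := by
        refine ENNReal.tsum_le_tsum fun b => ?_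
        have hb := huE b.2
        have hb0 : 0 < b.1.1 := hb.1
        rw [Measure.volume_eq_prod, ← Measure.prod_restrict, lintegral_prod _ hγ.aemeasurable]
        refine (hA b.1.2 (5 * b.1.1) (by positivity)).trans ?_
        rw [mul_assoc]
        refine mul_le_mul_right ?_ _
        refine le_trans (le_of_eq ?_) (mul_le_mul_right (loc_gt hG hb0 hl hb.2) _)
        rw [← ENNReal.ofReal_mul (by positivity)]
        congr 1; field_simp; ring
    _ = A * ENNReal.ofReal (10 / l) *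
          ∫⁻ w in ⋃ b : u, Icc (b.1.2 - b.1.1) (b.1.2 + b.1.1) ∩ S, ENNReal.ofReal |G w| := by
        rw [ENNReal.tsum_mul_left, lintegral_iUnion (fun b => measurableSet_Icc.inter hS)]
        intro b b' hbb
        have := hdis b.2 b'.2 (fun h => hbb (Subtype.ext h))
        simp only [Function.onFun, Real.closedBall_eq_Icc] at this ⊢
        exact this.mono inter_subset_left inter_subset_left
    _ ≤ _ := by
        refine mul_le_mul_right (lintegral_mono_set ?_) _
        exact iUnion_subset fun b => inter_subset_right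

/-- layer cake for the measure `(volume.restrict {0 < p.1}).withDensity γ`
(`lintegral_comp_eq_lintegral_meas_lt_mul` with `g l = 2 l`), then Tonelli:
`∫ 2 l (10 / l) ∫_{|G| > l/4} |G| dl = 20 ∫ |G| 4 |G|`. -/
theorem carl_embed {γ : ℝ × ℝ → ℝ≥0∞} (hγ : Measurable γ) {A : ℝ≥0∞} (hA : Carl γ A) {G : ℝ → ℝ}
    {R M : ℝ} (hG : Bmp G R M) :
    ∫⁻ t in Ioi (0 : ℝ), ∫⁻ y, γ (t, y) * ENNReal.ofReal (loc t G y ^ 2) ≤ 80 * A * N2 G := by
  have hloc : Measurable fun p : ℝ × ℝ => loc p.1 G p.2 :=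
    measurable_loc (G := fun _ => G) (hG.meas.comp measurable_snd) measurable_fst measurable_snd
  have hGa : Measurable fun w => |G w| := continuous_abs.measurable.comp hG.meas
  set ν : Measure (ℝ × ℝ) := (volume.restrict (Ioi (0 : ℝ) ×ˢ (univ : Set ℝ))).withDensity γ with hν
  have hm2 : Measurable fun p : ℝ × ℝ => ENNReal.ofReal (loc p.1 G p.2 ^ 2) :=
    (hloc.pow_const 2).ennreal_ofReal
  have e1 : ∫⁻ t in Ioi (0 : ℝ), ∫⁻ y, γ (t, y) * ENNReal.ofReal (loc t G y ^ 2) =
      ∫⁻ p, ENNReal.ofReal (loc p.1 G p.2 ^ 2) ∂ν := by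
    rw [hν, lintegral_withDensity_eq_lintegral_mul _ hγ hm2, Measure.volume_eq_prod,
      ← Measure.prod_restrict, lintegral_prod _ (hγ.mul hm2).aemeasurable, Measure.restrict_univ]
    rfl
  have hnn : 0 ≤ᵐ[ν] fun p : ℝ × ℝ => loc p.1 G p.2 := by
    refine (withDensity_absolutelyContinuous _ _).ae_le ?_
    refine (ae_restrict_iff' (measurableSet_Ioi.prod MeasurableSet.univ)).2 (ae_of_all _ fun p hp => ?_)
    have hp0 : 0 < p.1 := hp.1
    exact mul_nonneg (inv_nonneg.2 hp0.le) (integral_nonneg fun w => abs_nonneg _)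
  have e2 := lintegral_comp_eq_lintegral_meas_lt_mul ν hnn hloc.aemeasurable
    (g := fun l => 2 * l) (fun t _ => (continuous_const.mul continuous_id).intervalIntegrable _ _)
    ((ae_restrict_iff' measurableSet_Ioi).2 (ae_of_all _ fun l hl => by
      have : 0 < l := hl
      positivity))
  have e3 : ∀ x : ℝ, ∫ t in (0 : ℝ)..x, 2 * t = x ^ 2 := by
    intro x
    rw [intervalIntegral.integral_const_mul, integral_id]; ring
  simp only [e3] at e2
  rw [e1, e2]
  set μ : Measure ℝ := volume.withDensity fun w => ENNReal.ofReal |G w| with hμ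
  have e4 := lintegral_eq_lintegral_meas_lt μ (f := fun w => 4 * |G w|)
    (ae_of_all _ fun w => by positivity) (hGa.const_mul 4).aemeasurable
  have e5 : ∫⁻ w, ENNReal.ofReal (4 * |G w|) ∂μ = 4 * N2 G := by
    rw [hμ, lintegral_withDensity_eq_lintegral_mul _ hGa.ennreal_ofReal
      (hGa.const_mul 4).ennreal_ofReal, N2, ← lintegral_const_mul' _ _ (by norm_num)]
    refine lintegral_congr fun w => ?_
    simp only [Pi.mul_apply]
    rw [← ENNReal.ofReal_mul (abs_nonneg _), ← ENNReal.ofReal_ofNat 4,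
      ← ENNReal.ofReal_mul (by norm_num)]
    congr 1
    rw [← sq_abs]; ring
  calc ∫⁻ l in Ioi (0 : ℝ), ν {p | l < loc p.1 G p.2} * ENNReal.ofReal (2 * l)
      ≤ ∫⁻ l in Ioi (0 : ℝ), 20 * A * μ {w | l < 4 * |G w|} := by
        refine setLIntegral_mono' measurableSet_Ioi fun l hl => ?_
        have hl0 : 0 < l := hl
        have hs1 : MeasurableSet {p : ℝ × ℝ | l < loc p.1 G p.2} := measurableSet_lt measurable_const hloc
        have hs2 : MeasurableSet {w | l < 4 * |G w|} :=
          measurableSet_lt measurable_const (hGa.const_mul 4)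
        rw [hν, hμ, withDensity_apply _ hs1, withDensity_apply _ hs2, Measure.restrict_restrict hs1]
        have s1 : {p : ℝ × ℝ | l < loc p.1 G p.2} ∩ Ioi (0 : ℝ) ×ˢ (univ : Set ℝ) =
            {p : ℝ × ℝ | 0 < p.1 ∧ l < loc p.1 G p.2} := by
          ext p; simp [and_comm]
        have s2 : {w | l < 4 * |G w|} = {w | l / 4 < |G w|} := by
          ext w; simp only [mem_ofPred_eq]; constructor <;> intro h <;> linarith
        rw [s1, s2]
        refine (mul_le_mul_left (carl_weak hγ hA hG hl0) _).trans (le_of_eq ?_)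
        have : ENNReal.ofReal (10 / l) * ENNReal.ofReal (2 * l) = 20 := by
          rw [← ENNReal.ofReal_mul (by positivity), ← ENNReal.ofReal_ofNat 20]
          congr 1; field_simp; ring
        rw [← this]; ring
    _ ≤ 20 * A * ∫⁻ l in Ioi (0 : ℝ), μ {w | l < 4 * |G w|} := by
        have : Measurable fun l : ℝ => μ {w | l < 4 * |G w|} := by
          refine Antitone.measurable fun a b hab => measure_mono fun w hw => ?_
          exact lt_of_le_of_lt hab hw
        rw [lintegral_const_mul _ this]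
    _ = 80 * A * N2 G := by
        rw [← e4, e5]; ring

end Crest.Agent.R87
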