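import Crest.Agent.R87.OSq1

/-! Row 87, outer reduction: square functions on the line, without Fourier transform.

For `ψ` in `Bmp` with mean zero let `Ψ = acor ψ` (even, bounded, supported in `[-2R, 2R]`, mean zero) and
`ω = om Ψ`, `ω r = r⁻¹ ∫_0^r Ψ` (bounded by `sup |Ψ|`, vanishing for `|r| > 2R` because `∫_0^∞ Ψ = 0`).  Then
`∫_α^β ‖ψ_t * H‖² dt/t = ∫ (ω(s/α)/α - ω(s/β)/β) (acor H)(s) ds`. -/

set_option autoImplicit false

namespace Crest.Agent.R87

open MeasureTheory Set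
open scoped ENNReal

theorem OSq_fub {ψ H F : ℝ → ℝ} {M : ℝ} (hψ : Integrable ψ) (hH : Measurable H) (hb : ∀ y, |H y| ≤ M)
    (hF : Integrable F) (t : ℝ) :
    ∫ y, (∫ r, ψ r * H (y - t * r)) * F y = ∫ r, ψ r * ∫ y, H (y - t * r) * F y := by
  simp only [← integral_mul_const, ← integral_const_mul]
  have hi : Integrable (fun p : ℝ × ℝ => H (p.1 - t * p.2) * (F p.1 * ψ p.2)) (volume.prod volume) :=
    (hF.mul_prod hψ).bdd_mul (hH.comp (by fun_prop)).aestronglyMeasurable (ae_of_all _ fun p => hb _)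
  rw [integral_integral_swap (hi.congr (ae_of_all _ fun p => by simp only [Function.uncurry]; ring))]
  simp only [mul_assoc]

theorem OSq_scale (ω A : ℝ → ℝ) {α : ℝ} (hα : 0 < α) :
    ∫ s, α⁻¹ * ω (s / α) * A s = ∫ r, ω r * A (α * r) := by
  have h := cv_eq (fun r => ω (-r)) A hα 0
  rw [← integral_neg_eq_self] at h
  simpa [cv, neg_div] using h

theorem OSq_int {ω A : ℝ → ℝ} {M : ℝ} (hω : Measurable ω) (hb : ∀ r, |ω r| ≤ M) (hA : Integrable A)
    (α : ℝ) : Integrable fun s => α⁻¹ * ω (s / α) * A s := by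
  simp only [mul_assoc]
  exact (hA.bdd_mul (hω.comp (measurable_id.div_const α)).aestronglyMeasurable
    (ae_of_all _ fun s => hb _)).const_mul _

theorem OSq_abs {ψ : ℝ → ℝ} {R M : ℝ} (hψ : Bmp ψ R M) : Bmp (acor ψ) (2 * |R|) (2 * |R| * M ^ 2) :=
  (hψ.mono (le_abs_self R) le_rfl).acor (abs_nonneg R)

theorem OSq_Ioi : Ioi (0 : ℝ) = ⋃ n : ℕ, Ioc (1 / ((n : ℝ) + 1)) ((n : ℝ) + 1) := by
  ext t
  simp only [mem_Ioi, mem_iUnion, mem_Ioc]
  refine ⟨fun ht => ?_, fun ⟨n, h, _⟩ => lt_trans (by positivity) h⟩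
  obtain ⟨n, hn⟩ := exists_nat_gt (max t t⁻¹)
  refine ⟨n, ?_, by linarith [le_max_left t t⁻¹]⟩
  rw [one_div, inv_lt_comm₀ (by positivity) ht]
  linarith [le_max_right t t⁻¹]

theorem OSq_mono : Monotone fun n : ℕ => Ioc (1 / ((n : ℝ) + 1)) ((n : ℝ) + 1) := fun n m h =>
  Ioc_subset_Ioc (by gcongr) (by gcongr)

theorem OSq_le (n : ℕ) : 1 / ((n : ℝ) + 1) ≤ (n : ℝ) + 1 := by
  have : (1 : ℝ) ≤ n + 1 := le_add_of_nonneg_left (Nat.cast_nonneg n)
  exact ((div_le_one (by positivity)).2 this).trans this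

theorem OSq_iSup (ψ H : ℝ → ℝ) : SQ ψ H =
    ⨆ n : ℕ, ∫⁻ t in Ioc (1 / ((n : ℝ) + 1)) ((n : ℝ) + 1), ENNReal.ofReal t⁻¹ * N2 (cv ψ t H) := by
  rw [SQ, OSq_Ioi, setLIntegral_iUnion_of_directed _ OSq_mono.directed_le]

/-- Fubini (`cv_eq`): `∫ (∫ ψ r H (y - t r)) (∫ ψ r' H (y - t r')) dy = ∫∫ ψ r ψ r' acor H (t (r - r'))` -/
theorem integral_cv_sq {ψ H : ℝ → ℝ} {R M R' M' t : ℝ} (hψ : Bmp ψ R M) (hH : Bmp H R' M')
    (ht : 0 < t) : ∫ y, cv ψ t H y ^ 2 = ∫ s, t⁻¹ * acor ψ (s / t) * acor H s := by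
  have hg := (hψ.mono (le_abs_self R) le_rfl).cv hH (abs_nonneg R) ht
  have hA := OSq_abs hH
  have h1 : ∀ r, ∫ y, H (y - t * r) * cv ψ t H y = ∫ u, acor H (t * u) * ψ (r - -1 * u) := fun r => by
    have h2 := OSq_fub hψ.integrable hH.meas hH.bd (hH.integrable.comp_sub_right (t * r)) t
    simp only [← cv_eq ψ H ht] at h2
    simp only [mul_comm (H _) (cv ψ t H _)]
    rw [h2, ← integral_add_left_eq_self _ r]
    refine integral_congr_ae (ae_of_all _ fun u => ?_)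
    simp only
    rw [← acor_neg, acor, ← integral_add_right_eq_self _ (t * r), mul_comm]
    congr 1
    · refine integral_congr_ae (ae_of_all _ fun y => ?_)
      simp only
      congr 2 <;> ring
    · congr 1
      ring
  calc ∫ y, cv ψ t H y ^ 2 = ∫ y, (∫ r, ψ r * H (y - t * r)) * cv ψ t H y := by
        simp only [← cv_eq ψ H ht, sq]
    _ = ∫ r, (∫ u, acor H (t * u) * ψ (r - -1 * u)) * ψ r := by
        rw [OSq_fub hψ.integrable hH.meas hH.bd hg.integrable]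
        simp only [h1, mul_comm (ψ _)]
    _ = _ := by
        rw [OSq_fub (hA.integrable.comp_mul_left' ht.ne') hψ.meas hψ.bd hψ.integrable, OSq_scale _ _ ht]
        refine integral_congr_ae (ae_of_all _ fun u => ?_)
        simp only [neg_mul, one_mul, sub_neg_eq_add]
        rw [mul_comm]
        rfl

/-- `integral_cv_sq`, Fubini on `Ioc α β × ℝ`, `scale_avg` -/
theorem sq_trunc {ψ H : ℝ → ℝ} {R M R' M' α β : ℝ} (hψ : Bmp ψ R M) (hH : Bmp H R' M')
    (hα : 0 < α) (hαβ : α ≤ β) :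
    ∫⁻ t in Ioc α β, ENNReal.ofReal t⁻¹ * N2 (cv ψ t H) =
      ENNReal.ofReal ((∫ s, α⁻¹ * om (acor ψ) (s / α) * acor H s) -
        ∫ s, β⁻¹ * om (acor ψ) (s / β) * acor H s) := by
  have hΨ := OSq_abs hψ
  have hA := (OSq_abs hH).integrable
  have hi : Integrable (fun p : ℝ × ℝ => p.1⁻¹ * (p.1⁻¹ * acor ψ (p.2 / p.1)) * acor H p.2)
      ((volume.restrict (Ioc α β)).prod volume) := by
    have h1 : Integrable (fun p : ℝ × ℝ => (1 : ℝ) * acor H p.2)
      ((volume.restrict (Ioc α β)).prod volume) := (integrable_const (1 : ℝ)).mul_prod hA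
    simp only [one_mul] at h1
    refine h1.bdd_mul (c := α⁻¹ * (α⁻¹ * (2 * |R| * M ^ 2)))
      (measurable_fst.inv.mul (measurable_fst.inv.mul
        (hΨ.meas.comp (measurable_snd.div measurable_fst)))).aestronglyMeasurable ?_
    filter_upwards [Measure.quasiMeasurePreserving_fst.ae (ae_restrict_mem measurableSet_Ioc)]
      with p hp
    have h2 : 0 < p.1 := hα.trans hp.1
    have h3 := hΨ.bd (p.2 / p.1)
    have h4 := hp.1.le
    rw [Real.norm_eq_abs, abs_mul, abs_mul, abs_inv, abs_of_pos h2]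
    gcongr
  have h5 : ∀ t ∈ Ioc α β, ∫ s, t⁻¹ * (t⁻¹ * acor ψ (s / t)) * acor H s =
      t⁻¹ * ∫ y, cv ψ t H y ^ 2 := fun t ht => by
    rw [integral_cv_sq hψ hH (hα.trans ht.1), ← integral_const_mul]
    simp only [mul_assoc]
  have h6 : ∫⁻ t in Ioc α β, ENNReal.ofReal t⁻¹ * N2 (cv ψ t H) =
      ∫⁻ t in Ioc α β, ENNReal.ofReal (∫ s, t⁻¹ * (t⁻¹ * acor ψ (s / t)) * acor H s) :=
    setLIntegral_congr_fun measurableSet_Ioc fun t ht => by
      have h7 := hα.trans ht.1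
      rw [h5 t ht, ((hψ.mono (le_abs_self R) le_rfl).cv hH (abs_nonneg R) h7).nice.N2_eq,
        ENNReal.ofReal_mul (by positivity)]
  rw [h6, ← ofReal_integral_eq_lintegral_ofReal hi.integral_prod_left, integral_integral_swap hi,
    ← integral_sub (OSq_int (measurable_om hΨ) (abs_om_le hΨ) hA _)
      (OSq_int (measurable_om hΨ) (abs_om_le hΨ) hA _)]
  · congr 1
    refine integral_congr_ae ?_
    filter_upwards [Measure.ae_ne volume 0] with s hs
    rw [integral_mul_const, scale_avg hΨ hα hαβ hs, sub_mul]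
  · filter_upwards [ae_restrict_mem measurableSet_Ioc] with t ht
    have h7 := hα.trans ht.1
    simp only [Pi.zero_apply]
    rw [h5 t ht]
    positivity

/-- `Ioi 0 = ⋃ n, Ioc (1/(n+1)) (n+1)`, `setLIntegral_iUnion_of_directed`; each of the two terms of `sq_trunc` is at
most `(∫ |ω|) ∫ H²` -/
theorem SQ_le {ψ : ℝ → ℝ} {R M : ℝ} (hψ : Bmp ψ R M) (h0 : ∫ r, ψ r = 0) :
    ∃ C : ℝ≥0∞, C < ∞ ∧ ∀ (H : ℝ → ℝ) (R' M' : ℝ), Bmp H R' M' → SQ ψ H ≤ C * N2 H := by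
  have hω := bmp_om (OSq_abs hψ) (acor_neg ψ) (by rw [integral_acor hψ, h0]; simp)
  refine ⟨ENNReal.ofReal (2 * ∫ r, |om (acor ψ) r|), ENNReal.ofReal_lt_top, fun H R' M' hH => ?_⟩
  have h1 : ∀ α : ℝ, 0 < α → |∫ s, α⁻¹ * om (acor ψ) (s / α) * acor H s| ≤
      (∫ r, |om (acor ψ) r|) * ∫ y, H y ^ 2 := fun α hα => by
    rw [OSq_scale _ _ hα, ← integral_mul_const]
    refine norm_integral_le_of_norm_le (G := ℝ) (hω.integrable.abs.mul_const _)
      (ae_of_all _ fun r => ?_)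
    rw [Real.norm_eq_abs, abs_mul]
    exact mul_le_mul_of_nonneg_left (abs_acor_le hH _) (abs_nonneg _)
  rw [OSq_iSup, hH.nice.N2_eq, ← ENNReal.ofReal_mul (by positivity)]
  refine iSup_le fun n => ?_
  rw [sq_trunc hψ hH (by positivity) (OSq_le n)]
  refine ENNReal.ofReal_le_ofReal ?_
  linarith [abs_le.1 (h1 (1 / ((n : ℝ) + 1)) (by positivity)), abs_le.1 (h1 ((n : ℝ) + 1) (by positivity))]

end Crest.Agent.R87
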