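import Crest.Agent.R87.OBas

/-! Row 87, outer reduction: the `T(1)` theorem for square functions on the line.

With an even smooth bump `a` of integral one on `[-1, 1]` and `p r = 1_{r > 0} - ∫_{-∞}^r a`:
`η G = η (G - a_t * G) + η (a_t * G - (a_t * G)(y)) + (η 1)(y) (a_t * G)(y)`, where
`G - a_t * G = (t p_t * G)'` and `(a_t * G)' = t⁻¹ (a')_t * G`. -/

set_option autoImplicit false

namespace Crest.Agent.R87

open MeasureTheory Set
open scoped ENNReal

/-- Difference quotients: `∫ η y (H (y + h) - H y)/h = ∫ (η (y - h) - η y)/h H y`, `h ↓ 0` (dominated convergence, mean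
value theorem); or integration by parts for absolutely continuous functions. -/
theorem lip_parts {η H H' : ℝ → ℝ} {L α β : ℝ} (hη : ∀ y y', |η y - η y'| ≤ L * |y - y'|)
    (h0 : ∀ y, y ∉ Icc α β → η y = 0) (hH : ∀ y, HasDerivAt H (H' y) y) (hH' : Continuous H') :
    |∫ y, η y * H' y| ≤ L * ∫ y in Icc α β, |H y| := by
  have hL : 0 ≤ L := by simpa using (abs_nonneg _).trans (hη 1 0)
  rcases lt_or_ge β α with hab | hab
  · have : ∀ y, η y = 0 := fun y => h0 y (by simp [Icc_eq_empty_of_lt hab])
    simp [this, Icc_eq_empty_of_lt hab]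
  have hlip : LipschitzWith (Real.toNNReal L) η := LipschitzWith.of_dist_le' fun x y => by
    simpa only [Real.dist_eq] using hη x y
  have hz : closure (Icc α β)ᶜ ⊆ {y | η y = 0} :=
    (isClosed_eq hlip.continuous continuous_const).closure_subset_iff.2 h0
  have ha : η α = 0 := hz (closure_mono (show Iio α ⊆ (Icc α β)ᶜ from fun y hy h => not_le.2 hy h.1) (by simp))
  have hb : η β = 0 := hz (closure_mono (show Ioi β ⊆ (Icc α β)ᶜ from fun y hy h => not_le.2 hy h.2) (by simp))
  have hd : deriv H = H' := funext fun y => (hH y).deriv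
  have hC : ContDiff ℝ 1 H := contDiff_one_iff_deriv.2 ⟨fun y => (hH y).differentiableAt, hd ▸ hH'⟩
  have key := (hlip.lipschitzOnWith (s := uIcc α β)).absolutelyContinuousOnInterval.integral_mul_deriv_eq_deriv_mul
    hC.contDiffOn.absolutelyContinuousOnInterval
  rw [hd, ha, hb, zero_mul, zero_mul, sub_zero, zero_sub, intervalIntegral.integral_of_le hab,
    intervalIntegral.integral_of_le hab, ← integral_Icc_eq_integral_Ioc, ← integral_Icc_eq_integral_Ioc,
    setIntegral_eq_integral_of_forall_compl_eq_zero fun y hy => by rw [h0 y hy, zero_mul]] at key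
  rw [key, abs_neg, ← integral_const_mul]
  have hi : IntegrableOn (fun y => |H y|) (Icc α β) := hC.continuous.abs.integrableOn_Icc
  rw [← Real.norm_eq_abs]
  refine norm_integral_le_of_norm_le (hi.const_mul L) (Filter.Eventually.of_forall fun y => ?_)
  rw [norm_mul]
  refine mul_le_mul_of_nonneg_right ?_ (norm_nonneg _)
  exact norm_deriv_le_of_lip' hL (Filter.Eventually.of_forall fun x => hη x y)

/-- the pointwise estimate; `c ≥ 0` follows from `bd`.  Second term: for `|y - y'| ≤ R t`,
`|a_t G y' - a_t G y| ≤ ∫_{Icc (y - R t) (y + R t)} t⁻¹ |a'_t G|` (FTC) and `∫ |η| ≤ 2 R c`. -/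
theorem ker_pointwise {η : ℝ × ℝ × ℝ → ℝ} {R c : ℝ} (hη : Ker η R c) (hR : 0 < R) {G A A' Q : ℝ → ℝ}
    {t : ℝ} (ht : 0 < t) (hG : Continuous G) (hA' : Continuous A')
    (hA : ∀ y, HasDerivAt A (t⁻¹ * A' y) y) (hQ : ∀ y, HasDerivAt (fun y => t * Q y) (G y - A y) y)
    (y : ℝ) :
    |(∫ y', η (t, y, y') * G y') - (∫ y', η (t, y, y')) * A y| ≤
      c * R * loc (R * t) Q y + 2 * c * R ^ 2 * loc (R * t) A' y := by
  have hc : 0 ≤ c := by
    have := (abs_nonneg _).trans (hη.bd t y y ht)
    exact (div_nonneg_iff.1 this).elim (fun h => h.1) fun h => absurd h.2 (not_le.2 ht)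
  have h0 : ∀ y', y' ∉ Icc (y - R * t) (y + R * t) → η (t, y, y') = 0 := fun y' hy' => by
    refine hη.supp t y y' ht (lt_of_not_ge fun h => hy' ?_)
    obtain ⟨h1, h2⟩ := abs_le.1 h
    exact ⟨by linarith, by linarith⟩
  have hcont : Continuous fun y' => η (t, y, y') := (LipschitzWith.of_dist_le' (K := c / t ^ 2) fun x z => by
    simpa only [Real.dist_eq] using hη.lip t y x z ht).continuous
  have hAc : Continuous A := continuous_iff_continuousAt.2 fun x => (hA x).continuousAt
  have hint : ∀ F : ℝ → ℝ, Continuous F → Integrable fun y' => η (t, y, y') * F y' := fun F hF =>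
    (hcont.mul hF).integrable_of_hasCompactSupport (HasCompactSupport.intro (K := Icc (y - R * t) (y + R * t)) isCompact_Icc
      fun x hx => by simp [h0 x hx])
  have e : (∫ y', η (t, y, y') * G y') - (∫ y', η (t, y, y')) * A y =
      (∫ y', η (t, y, y') * (G y' - A y')) + ∫ y', η (t, y, y') * (A y' - A y) := by
    rw [← integral_add (hint (fun y' => G y' - A y') (hG.sub hAc)) (hint (fun y' => A y' - A y) (hAc.sub continuous_const)),
      ← integral_mul_const, ← integral_sub (hint _ hG) (hint (fun _ => A y) continuous_const)]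
    congr 1
    ext y'
    ring
  have hRt : 0 < R * t := by positivity
  rw [e]
  refine (abs_add_le _ _).trans (add_le_add ?_ ?_)
  · refine (lip_parts (fun x z => hη.lip t y x z ht) h0 hQ (hG.sub hAc)).trans (le_of_eq ?_)
    simp only [abs_mul, abs_of_pos ht, integral_const_mul, loc]
    field_simp
  · have hB : ∀ y' ∈ Icc (y - R * t) (y + R * t), |A y' - A y| ≤ R * loc (R * t) A' y := fun y' hy' => by
      have hc' : Continuous fun x => t⁻¹ * A' x := continuous_const.mul hA'
      rw [← intervalIntegral.integral_eq_sub_of_hasDerivAt (fun x _ => hA x) (hc'.intervalIntegrable _ _)]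
      refine intervalIntegral.norm_integral_le_integral_norm_uIoc.trans ((setIntegral_mono_set
        (t := Icc (y - R * t) (y + R * t)) hc'.norm.integrableOn_Icc (Filter.Eventually.of_forall fun x => norm_nonneg _)
        (LE.le.eventuallyLE (uIoc_subset_uIcc.trans (uIcc_subset_Icc ⟨by linarith, by linarith⟩ hy')))).trans
        (le_of_eq ?_))
      simp only [Real.norm_eq_abs, abs_mul, abs_of_pos (inv_pos.2 ht), integral_const_mul, loc]
      field_simp
    rw [← setIntegral_eq_integral_of_forall_compl_eq_zero (s := Icc (y - R * t) (y + R * t)) fun x hx => by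
      rw [h0 x hx, zero_mul], ← Real.norm_eq_abs]
    refine (norm_setIntegral_le_of_norm_le_const (C := c / t * (R * loc (R * t) A' y)) measure_Icc_lt_top
      fun x hx => ?_).trans (le_of_eq ?_)
    · rw [norm_mul]
      exact mul_le_mul (hη.bd t y x ht) (hB x hx) (norm_nonneg _) (by positivity)
    · rw [Real.volume_real_Icc_of_le (by linarith)]
      field_simp
      ring

theorem abs_cv_le_loc {a G : ℝ → ℝ} {M R' M' t : ℝ} (ha : Bmp a 1 M) (hG : Bmp G R' M') (ht : 0 < t)
    (y : ℝ) : |cv a t G y| ≤ M * loc t G y := by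
  rw [cv, loc, ← setIntegral_eq_integral_of_forall_compl_eq_zero (s := Icc (y - t) (y + t)) fun w hw => ?_,
    ← mul_assoc, ← integral_const_mul, ← Real.norm_eq_abs]
  · refine norm_integral_le_of_norm_le (hG.integrable.abs.integrableOn.const_mul _) (Filter.Eventually.of_forall fun w => ?_)
    rw [norm_mul, norm_mul, Real.norm_of_nonneg (inv_pos.2 ht).le, mul_comm M]
    exact mul_le_mul_of_nonneg_right (mul_le_mul_of_nonneg_left (ha.bd _) (inv_pos.2 ht).le) (norm_nonneg _)
  · rw [ha.supp, mul_zero, zero_mul]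
    rw [abs_div, abs_of_pos ht, one_lt_div ht]
    refine lt_of_not_ge fun h => hw ?_
    obtain ⟨h1, h2⟩ := abs_le.1 h
    exact ⟨by linarith, by linarith⟩

end Crest.Agent.R87
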