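import Crest.Agent.R87.OT1a
import Crest.Agent.R87.OT1b
import Crest.Agent.R87.OSq
import Crest.Agent.R87.OCarl

/-! Row 87, outer reduction: the `T(1)` theorem for square functions on the line.

With an even smooth bump `a` of integral one on `[-1, 1]` and `p r = 1_{r > 0} - ∫_{-∞}^r a`:
`η G = η (G - a_t * G) + η (a_t * G - (a_t * G)(y)) + (η 1)(y) (a_t * G)(y)`, where
`G - a_t * G = (t p_t * G)'` and `(a_t * G)' = t⁻¹ (a')_t * G`. -/

set_option autoImplicit false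

namespace Crest.Agent.R87

open MeasureTheory Set
open scoped ENNReal

theorem OT1_sq {F b x y z : ℝ} (h1 : |F - b| ≤ y + z) (h2 : |b| ≤ x) :
    F ^ 2 ≤ 3 * x ^ 2 + 3 * y ^ 2 + 3 * z ^ 2 := by
  have h3 : |F| ≤ x + y + z := by
    have := abs_add_le (F - b) b
    rw [sub_add_cancel] at this
    linarith
  have h4 : F ^ 2 ≤ (x + y + z) ^ 2 := by
    rw [← sq_abs F]
    exact pow_le_pow_left₀ (abs_nonneg _) h3 2
  nlinarith [sq_nonneg (x - y), sq_nonneg (x - z), sq_nonneg (y - z)]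

theorem OT1_meas {ψ G : ℝ → ℝ} (hψ : Measurable ψ) (hG : Measurable G) :
    Measurable fun t : ℝ => ENNReal.ofReal t⁻¹ * N2 (cv ψ t G) := by
  refine measurable_inv.ennreal_ofReal.mul ?_
  have h : Measurable fun p : ℝ × ℝ => cv ψ p.1 G p.2 :=
    measurable_cv (H := fun _ => G) hψ (hG.comp measurable_snd) measurable_fst measurable_snd
  exact Measurable.lintegral_prod_right (f := fun t y => ENNReal.ofReal (cv ψ t G y ^ 2))
    (h.pow_const 2).ennreal_ofReal

/-- the estimate at one scale -/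
theorem OT1_scale {η : ℝ × ℝ × ℝ → ℝ} {R c M R' M' : ℝ} (hη : Ker η R c) (hR : 0 < R)
    {a a' p G : ℝ → ℝ} (ha : Bmp a 1 M) (ha' : Bmp a' 1 M) (hp : Bmp p 1 M) (hG : Cc G)
    (hG' : Bmp G R' M') {t : ℝ} (ht : 0 < t)
    (hd : ∀ y, HasDerivAt (cv a t G) (t⁻¹ * cv a' t G y) y ∧
      HasDerivAt (fun y => t * cv p t G y) (G y - cv a t G y) y) :
    N2 (fun y => ∫ y', η (t, y, y') * G y') ≤
      ENNReal.ofReal (3 * M ^ 2) *
          (∫⁻ y, ENNReal.ofReal ((∫ y', η (t, y, y')) ^ 2) * ENNReal.ofReal (loc t G y ^ 2))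
        + ENNReal.ofReal (12 * R ^ 2) * ENNReal.ofReal (c ^ 2) * N2 (cv p t G)
        + ENNReal.ofReal (48 * R ^ 4) * ENNReal.ofReal (c ^ 2) * N2 (cv a' t G) := by
  have hRt : 0 < R * t := mul_pos hR ht
  have mQ : Measurable (cv p t G) := (hG.cv hp ht).cont.measurable
  have mA : Measurable (cv a' t G) := (hG.cv ha' ht).cont.measurable
  have mlQ : Measurable (loc (R * t) (cv p t G)) :=
    measurable_loc (G := fun _ => cv p t G) (t := fun _ => R * t) (y := fun y => y)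
      (mQ.comp measurable_snd) measurable_const measurable_id
  have mlA : Measurable (loc (R * t) (cv a' t G)) :=
    measurable_loc (G := fun _ => cv a' t G) (t := fun _ => R * t) (y := fun y => y)
      (mA.comp measurable_snd) measurable_const measurable_id
  have pw : ∀ y, ENNReal.ofReal ((∫ y', η (t, y, y') * G y') ^ 2) ≤
      ENNReal.ofReal (3 * M ^ 2) *
          (ENNReal.ofReal ((∫ y', η (t, y, y')) ^ 2) * ENNReal.ofReal (loc t G y ^ 2))
        + ENNReal.ofReal (3 * R ^ 2 * c ^ 2) * ENNReal.ofReal (loc (R * t) (cv p t G) y ^ 2)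
        + ENNReal.ofReal (12 * R ^ 4 * c ^ 2) * ENNReal.ofReal (loc (R * t) (cv a' t G) y ^ 2) := by
    intro y
    have h1 := ker_pointwise hη hR ht hG.cont (hG.cv ha' ht).cont (fun y => (hd y).1)
      (fun y => (hd y).2) y
    have h2 : |(∫ y', η (t, y, y')) * cv a t G y| ≤ |∫ y', η (t, y, y')| * (M * loc t G y) := by
      rw [abs_mul]
      exact mul_le_mul_of_nonneg_left (abs_cv_le_loc ha hG' ht y) (abs_nonneg _)
    have h3 := OT1_sq h1 h2
    rw [← ENNReal.ofReal_mul (sq_nonneg _), ← ENNReal.ofReal_mul (by positivity),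
      ← ENNReal.ofReal_mul (by positivity), ← ENNReal.ofReal_mul (by positivity),
      ← ENNReal.ofReal_add (by positivity) (by positivity),
      ← ENNReal.ofReal_add (by positivity) (by positivity)]
    refine ENNReal.ofReal_le_ofReal (h3.trans_eq ?_)
    rw [mul_pow, sq_abs]
    ring
  refine (lintegral_mono pw).trans ?_
  rw [lintegral_add_right _ ((mlA.pow_const 2).ennreal_ofReal.const_mul _),
    lintegral_add_right _ ((mlQ.pow_const 2).ennreal_ofReal.const_mul _),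
    lintegral_const_mul' _ _ ENNReal.ofReal_ne_top, lintegral_const_mul' _ _ ENNReal.ofReal_ne_top,
    lintegral_const_mul' _ _ ENNReal.ofReal_ne_top]
  have e4 : (4 : ℝ≥0∞) = ENNReal.ofReal 4 := by norm_num
  refine add_le_add (add_le_add le_rfl ?_) ?_
  · refine (mul_le_mul_right (N2_loc_le mQ hRt) _).trans_eq ?_
    rw [← mul_assoc, e4, ← ENNReal.ofReal_mul (by positivity), ← ENNReal.ofReal_mul (by positivity)]
    congr 2
    ring
  · refine (mul_le_mul_right (N2_loc_le mA hRt) _).trans_eq ?_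
    rw [← mul_assoc, e4, ← ENNReal.ofReal_mul (by positivity), ← ENNReal.ofReal_mul (by positivity)]
    congr 2
    ring

/-- `exists_bumps`, `ker_pointwise`, `N2_loc_le`, `SQ_le` for `p` and `a'`, `abs_cv_le_loc`, `carl_embed` -/
theorem t1_sq {R : ℝ} (hR : 0 < R) : ∃ C : ℝ≥0∞, C < ∞ ∧ ∀ (η : ℝ × ℝ × ℝ → ℝ) (c : ℝ) (A : ℝ≥0∞),
    Ker η R c →
    Carl (fun p => ENNReal.ofReal p.1⁻¹ * ENNReal.ofReal ((∫ y', η (p.1, p.2, y')) ^ 2)) A →
    ∀ G : ℝ → ℝ, Cc G →
    ∫⁻ t in Ioi (0 : ℝ), ENNReal.ofReal t⁻¹ * N2 (fun y => ∫ y', η (t, y, y') * G y') ≤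
      C * (ENNReal.ofReal (c ^ 2) + A) * N2 G := by
  obtain ⟨a, a', p, M, ha, ha', hp, i1, i2, -, hd⟩ := exists_bumps
  obtain ⟨Cp, hCp, sp⟩ := SQ_le hp i2
  obtain ⟨Ca, hCa, sa⟩ := SQ_le ha' i1
  refine ⟨ENNReal.ofReal (3 * M ^ 2) * 80 + ENNReal.ofReal (12 * R ^ 2) * Cp
    + ENNReal.ofReal (48 * R ^ 4) * Ca, ?_, fun η c A hη hA G hG => ?_⟩
  · refine ENNReal.add_lt_top.2 ⟨ENNReal.add_lt_top.2 ⟨?_, ?_⟩, ?_⟩
    · exact ENNReal.mul_lt_top ENNReal.ofReal_lt_top (by norm_num)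
    · exact ENNReal.mul_lt_top ENNReal.ofReal_lt_top hCp
    · exact ENNReal.mul_lt_top ENNReal.ofReal_lt_top hCa
  obtain ⟨R', M', -, -, hG'⟩ := hG.bmp
  have mb : Measurable fun q : ℝ × ℝ => ∫ y', η (q.1, q.2, y') := by
    have h : Measurable fun r : (ℝ × ℝ) × ℝ => η (r.1.1, r.1.2, r.2) := hη.meas.comp (by fun_prop)
    exact (StronglyMeasurable.integral_prod_right (f := fun (q : ℝ × ℝ) y' => η (q.1, q.2, y'))
      h.stronglyMeasurable).measurable
  have mγ : Measurable fun q : ℝ × ℝ =>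
      ENNReal.ofReal q.1⁻¹ * ENNReal.ofReal ((∫ y', η (q.1, q.2, y')) ^ 2) :=
    measurable_fst.inv.ennreal_ofReal.mul (mb.pow_const 2).ennreal_ofReal
  have hc := carl_embed mγ hA hG'
  have step : ∫⁻ t in Ioi (0 : ℝ), ENNReal.ofReal t⁻¹ * N2 (fun y => ∫ y', η (t, y, y') * G y') ≤
      ∫⁻ t in Ioi (0 : ℝ), (ENNReal.ofReal (3 * M ^ 2) *
          (∫⁻ y, ENNReal.ofReal t⁻¹ * ENNReal.ofReal ((∫ y', η (t, y, y')) ^ 2) *
            ENNReal.ofReal (loc t G y ^ 2))
        + ENNReal.ofReal (12 * R ^ 2) * ENNReal.ofReal (c ^ 2) * (ENNReal.ofReal t⁻¹ * N2 (cv p t G))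
        + ENNReal.ofReal (48 * R ^ 4) * ENNReal.ofReal (c ^ 2) *
          (ENNReal.ofReal t⁻¹ * N2 (cv a' t G))) := by
    refine setLIntegral_mono' measurableSet_Ioi fun t ht => ?_
    refine (mul_le_mul_right (OT1_scale hη hR ha ha' hp hG hG' ht (hd G t hG ht)) _).trans_eq ?_
    simp only [mul_assoc (ENNReal.ofReal t⁻¹)]
    rw [lintegral_const_mul' _ _ ENNReal.ofReal_ne_top]
    ring
  refine step.trans ?_
  rw [lintegral_add_right _ ((OT1_meas ha'.meas hG'.meas).const_mul _),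
    lintegral_add_right _ ((OT1_meas hp.meas hG'.meas).const_mul _),
    lintegral_const_mul' _ _ ENNReal.ofReal_ne_top,
    lintegral_const_mul' _ _ (ENNReal.mul_ne_top ENNReal.ofReal_ne_top ENNReal.ofReal_ne_top),
    lintegral_const_mul' _ _ (ENNReal.mul_ne_top ENNReal.ofReal_ne_top ENNReal.ofReal_ne_top)]
  have b1 := sp G R' M' hG'
  have b2 := sa G R' M' hG'
  unfold SQ at b1 b2
  calc _ ≤ ENNReal.ofReal (3 * M ^ 2) * (80 * A * N2 G)
        + ENNReal.ofReal (12 * R ^ 2) * ENNReal.ofReal (c ^ 2) * (Cp * N2 G)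
        + ENNReal.ofReal (48 * R ^ 4) * ENNReal.ofReal (c ^ 2) * (Ca * N2 G) := by gcongr
    _ ≤ ENNReal.ofReal (3 * M ^ 2) * (80 * (ENNReal.ofReal (c ^ 2) + A) * N2 G)
        + ENNReal.ofReal (12 * R ^ 2) * (ENNReal.ofReal (c ^ 2) + A) * (Cp * N2 G)
        + ENNReal.ofReal (48 * R ^ 4) * (ENNReal.ofReal (c ^ 2) + A) * (Ca * N2 G) := by
      gcongr
      exacts [le_add_self, le_self_add, le_self_add]
    _ = _ := by ring

end Crest.Agent.R87
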