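import Crest.Agent.R87.OCom1
import Crest.Agent.R87.OT1

/-! Row 87, outer reduction: the commutator of a convolution with a bi-Lipschitz change of variables. -/

set_option autoImplicit false

namespace Crest.Agent.R87

open MeasureTheory Set
open scoped ENNReal

theorem OCom_int {ψ : ℝ → ℝ} {R M : ℝ} (hψ : Bmp ψ R M) (c : ℝ) {g : ℝ → ℝ} (hg : Measurable g)
    {H : ℝ → ℝ} (hH : Integrable H) : Integrable fun w => c * ψ (g w) * H w := by
  refine hH.bdd_mul (c := |c| * M) ((hψ.meas.comp hg).const_mul c).aestronglyMeasurable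
    (ae_of_all _ fun w => ?_)
  rw [Real.norm_eq_abs, abs_mul]
  exact mul_le_mul_of_nonneg_left (hψ.bd _) (abs_nonneg _)

theorem OCom_int2 {ψ : ℝ → ℝ} {R M : ℝ} (hψ : Bmp ψ R M) (c : ℝ) {g : ℝ → ℝ} (hg : Measurable g)
    {α β : ℝ} (h : ∀ w, w ∉ Icc α β → R < |g w|) : Integrable fun w => c * ψ (g w) := by
  have h1 : Integrable ((Icc α β).indicator fun _ => (1 : ℝ)) :=
    (integrableOn_const (by simp)).integrable_indicator measurableSet_Icc
  refine (OCom_int hψ c hg h1).congr (ae_of_all _ fun w => ?_)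
  by_cases hw : w ∈ Icc α β
  · simp [hw]
  · simp [hw, hψ.supp _ (h w hw)]

theorem OCom_J_nonneg {φ J : ℝ → ℝ} {e : ℝ} (hφ : Pert e φ) (hJ1 : ∀ w, |J w - 1| ≤ 2 * e) (w : ℝ) :
    0 ≤ J w := by
  have h1 := (abs_le.1 (hJ1 w)).1
  have h2 := hφ.half
  linarith

theorem OCom_far {R t a w : ℝ} (ht : 0 < t) (h : R * t < |a - w|) : R < |(a - w) / t| := by
  rw [abs_div, abs_of_pos ht, lt_div_iff₀ ht]
  exact h

theorem OCom_eta_int {ψ φ J : ℝ → ℝ} {R M e t : ℝ} (hψ : Bmp ψ R M) (hR : 0 ≤ R)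
    (h0 : ∫ r, ψ r = 0) (hφ : Pert e φ) (hJ : Measurable J) (hJ1 : ∀ w, |J w - 1| ≤ 2 * e)
    (h : Measure.map φ volume = volume.withDensity (fun w => ENNReal.ofReal (J w)))
    (ht : 0 < t) (y : ℝ) :
    ∫ y', eta ψ φ (t, y, y') = -cv ψ t (fun w => J w - 1) (φ y) := by
  have hφm := hφ.continuous.measurable
  have hRt : 0 ≤ R * t := by positivity
  have i1 : ∀ a : ℝ, Integrable fun w => t⁻¹ * ψ ((a - w) / t) := fun a =>
    OCom_int2 hψ _ (by fun_prop) (α := a - R * t) (β := a + R * t) fun w hw => OCom_far ht (by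
      by_contra hh
      have := abs_le.1 (not_lt.1 hh)
      exact hw ⟨by linarith [this.2], by linarith [this.1]⟩)
  have i2 : Integrable fun w => t⁻¹ * ψ ((φ y - φ w) / t) :=
    OCom_int2 hψ _ (by fun_prop) (α := y - 2 * (R * t)) (β := y + 2 * (R * t)) fun w hw =>
      OCom_far ht (by
        by_contra hh
        have a1 := (hφ.le y w).1
        have a2 := hφ.half
        have a3 : |y - w| ≤ 2 * (R * t) := by nlinarith [abs_nonneg (y - w), not_lt.1 hh]
        have := abs_le.1 a3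
        exact hw ⟨by linarith [this.2], by linarith [this.1]⟩)
  have z1 : ∀ a : ℝ, ∫ w, t⁻¹ * ψ ((a - w) / t) = 0 := fun a => by
    have := cv_eq ψ (fun _ => 1) ht a
    simp only [cv, mul_one] at this
    rw [this, h0]
  have i3 : Integrable fun w => t⁻¹ * ψ ((φ y - w) / t) * J w := by
    refine (i1 (φ y)).mul_bdd (c := 2) hJ.aestronglyMeasurable (ae_of_all _ fun w => ?_)
    have a1 := abs_le.1 (hJ1 w)
    have a2 := hφ.half
    rw [Real.norm_eq_abs, abs_le]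
    constructor <;> linarith [a1.1, a1.2]
  have e1 : ∫ w, t⁻¹ * ψ ((φ y - φ w) / t) = ∫ w, t⁻¹ * ψ ((φ y - w) / t) * J w :=
    integral_comp_density hφm hJ (OCom_J_nonneg hφ hJ1) h
      (F := fun w => t⁻¹ * ψ ((φ y - w) / t)) ((hψ.meas.comp (by fun_prop)).const_mul _)
  simp only [eta, cv, mul_sub, mul_one]
  rw [integral_sub (i1 y) i2, integral_sub i3 (i1 _), z1, z1, e1]
  ring

theorem OCom_meas_N2 {ψ H : ℝ → ℝ} (hψ : Measurable ψ) (hH : Measurable H) :
    Measurable fun t : ℝ => ENNReal.ofReal t⁻¹ * N2 (cv ψ t H) := by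
  refine (measurable_inv.ennreal_ofReal).mul ?_
  have h : Measurable fun p : ℝ × ℝ => cv ψ p.1 H p.2 :=
    measurable_cv hψ (H := fun _ => H) (hH.comp measurable_snd) measurable_fst measurable_snd
  exact Measurable.lintegral_prod_right' (f := fun p : ℝ × ℝ => ENNReal.ofReal (cv ψ p.1 H p.2 ^ 2))
    (h.pow_const 2).ennreal_ofReal

theorem OCom_meas_cv {ψ H : ℝ → ℝ} (hψ : Measurable ψ) (hH : Measurable H) (t : ℝ) :
    Measurable (cv ψ t H) :=
  measurable_cv hψ (H := fun _ => H) (hH.comp measurable_snd) measurable_const measurable_id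

/-- `∫ eta (t, y, ·) = 0 - ∫ ψ_t (φ y - w) J w dw = - cv ψ t (J - 1) (φ y)` (`integral_comp_density`, mean zero);
for `t ≤ r`, `|y - y₀| ≤ r` one may replace `J - 1` by its restriction `b` to
`Icc (φ y₀ - (R + 2) r) (φ y₀ + (R + 2) r)`; then `Pert.N2_comp_le`, `SQ_le`, `N2 b ≤ 4 e² 2 (R + 2) r`. -/
theorem carl_eta {ψ : ℝ → ℝ} {R M : ℝ} (hψ : Bmp ψ R M) (h0 : ∫ r, ψ r = 0) :
    ∃ C : ℝ≥0∞, C < ∞ ∧ ∀ (e : ℝ) (φ : ℝ → ℝ), Pert e φ →
      Carl (fun p => ENNReal.ofReal p.1⁻¹ * ENNReal.ofReal ((∫ y', eta ψ φ (p.1, p.2, y')) ^ 2))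
        (C * ENNReal.ofReal (e ^ 2)) := by
  wlog hR : 0 ≤ R generalizing R
  · exact this (hψ.mono (not_le.1 hR).le le_rfl) le_rfl
  obtain ⟨C, hC, hSQ⟩ := SQ_le hψ h0
  refine ⟨2 * C * ENNReal.ofReal (8 * (R + 2)), by finiteness, fun e φ hφ y₀ r hr => ?_⟩
  obtain ⟨J, hJ, hJ1, h⟩ := hφ.exists_density
  have he := hφ.nonneg
  set S := Icc (φ y₀ - (R + 2) * r) (φ y₀ + (R + 2) * r) with hS
  set b : ℝ → ℝ := S.indicator fun w => J w - 1 with hb
  have hbm : Measurable b := (hJ.sub_const 1).indicator measurableSet_Icc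
  have hbb : Bmp b (|φ y₀| + (R + 2) * r) (2 * e) := by
    refine ⟨hbm, fun w => ?_, fun w hw => ?_⟩
    · by_cases hw : w ∈ S
      · rw [hb, indicator_of_mem hw]
        exact hJ1 w
      · rw [hb, indicator_of_notMem hw, abs_zero]
        positivity
    · refine indicator_of_notMem (fun hw' => ?_) _
      have a1 := le_abs_self (φ y₀)
      have a2 := neg_abs_le (φ y₀)
      have : |w| ≤ |φ y₀| + (R + 2) * r := abs_le.2 ⟨by linarith [hw'.1], by linarith [hw'.2]⟩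
      linarith
  have hNb : N2 b ≤ ENNReal.ofReal ((2 * e) ^ 2) * ENNReal.ofReal (2 * (R + 2) * r) := by
    calc N2 b ≤ ∫⁻ w, S.indicator (fun _ => ENNReal.ofReal ((2 * e) ^ 2)) w := by
          refine lintegral_mono fun w => ?_
          by_cases hw : w ∈ S
          · rw [indicator_of_mem hw]
            refine ENNReal.ofReal_le_ofReal ?_
            rw [← sq_abs]
            exact pow_le_pow_left₀ (abs_nonneg _) (hbb.bd w) 2
          · simp [hb, hw]
      _ = _ := by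
          rw [lintegral_indicator_const measurableSet_Icc, Real.volume_Icc]
          congr 2
          ring
  have key : ∀ t ∈ Ioc (0 : ℝ) r, ∀ y ∈ Icc (y₀ - r) (y₀ + r),
      (∫ y', eta ψ φ (t, y, y')) ^ 2 = cv ψ t b (φ y) ^ 2 := fun t ht y hy => by
    rw [OCom_eta_int hψ hR h0 hφ hJ hJ1 h ht.1, neg_sq]
    congr 1
    refine integral_congr_ae (ae_of_all _ fun w => ?_)
    by_cases hw : w ∈ S
    · simp only [hb, indicator_of_mem hw]
    · have : R < |(φ y - w) / t| := OCom_far ht.1 (by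
        by_contra hh
        have a1 := abs_le.1 (not_lt.1 hh)
        have a2 := (hφ.le y y₀).2
        have a3 : |y - y₀| ≤ r := abs_le.2 ⟨by linarith [hy.1], by linarith [hy.2]⟩
        have a4 : (1 + e) * |y - y₀| ≤ 2 * r :=
          mul_le_mul (by linarith [hφ.half]) a3 (abs_nonneg _) zero_le_two
        have a5 := abs_le.1 (a2.trans a4)
        have a6 : R * t ≤ R * r := mul_le_mul_of_nonneg_left ht.2 hR
        exact hw ⟨by linarith [a1.2, a5.1], by linarith [a1.1, a5.2]⟩)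
      simp only [hψ.supp _ this, mul_zero, zero_mul]
  calc ∫⁻ t in Ioc (0 : ℝ) r, ∫⁻ y in Icc (y₀ - r) (y₀ + r),
        ENNReal.ofReal t⁻¹ * ENNReal.ofReal ((∫ y', eta ψ φ (t, y, y')) ^ 2)
      ≤ ∫⁻ t in Ioc (0 : ℝ) r, 2 * (ENNReal.ofReal t⁻¹ * N2 (cv ψ t b)) := by
        refine setLIntegral_mono' measurableSet_Ioc fun t ht => ?_
        rw [lintegral_const_mul' _ _ ENNReal.ofReal_ne_top, mul_left_comm]
        refine mul_le_mul_right (le_trans ?_ (hφ.N2_comp_le (OCom_meas_cv hψ.meas hbm t))) _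
        rw [setLIntegral_congr_fun measurableSet_Icc
          (g := fun y => ENNReal.ofReal (cv ψ t b (φ y) ^ 2)) fun y hy => by
            simp only [key t ht y hy]]
        exact setLIntegral_le_lintegral _ _
    _ ≤ 2 * SQ ψ b := by
        rw [lintegral_const_mul' _ _ (by norm_num)]
        exact mul_le_mul_right (lintegral_mono_set Ioc_subset_Ioi_self) _
    _ ≤ 2 * (C * (ENNReal.ofReal ((2 * e) ^ 2) * ENNReal.ofReal (2 * (R + 2) * r))) :=
        mul_le_mul_right ((hSQ b _ _ hbb).trans (mul_le_mul_right hNb _)) _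
    _ = _ := by
        have e1 : ENNReal.ofReal ((2 * e) ^ 2) * ENNReal.ofReal (2 * (R + 2) * r) =
            ENNReal.ofReal (8 * (R + 2)) * (ENNReal.ofReal (e ^ 2) * ENNReal.ofReal r) := by
          rw [← ENNReal.ofReal_mul (sq_nonneg _), ← ENNReal.ofReal_mul (sq_nonneg _),
            ← ENNReal.ofReal_mul (by positivity)]
          congr 1
          ring
        rw [e1]
        ring

/-- `cv ψ t F (φ y) = ∫ ψ_t (φ y - w) F w J w + ∫ ψ_t (φ y - w) F w (1 - J w)` -/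
theorem comm_eq {ψ φ J F : ℝ → ℝ} {R M e t : ℝ} (hψ : Bmp ψ R M) (hφ : Pert e φ) (hJ : Measurable J)
    (hJ1 : ∀ w, |J w - 1| ≤ 2 * e)
    (h : Measure.map φ volume = volume.withDensity (fun w => ENNReal.ofReal (J w)))
    (hF : Cc F) (ht : 0 < t) (y : ℝ) :
    cv ψ t (fun y => F (φ y)) y - cv ψ t F (φ y) =
      (∫ y', eta ψ φ (t, y, y') * F (φ y')) - cv ψ t (fun w => F w * (1 - J w)) (φ y) := by
  have hφm := hφ.continuous.measurable
  have iF : Integrable F := hF.nice1.integrable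
  have iFφ : Integrable fun y => F (φ y) := (hφ.cc_comp hF).nice1.integrable
  have iFJ : Integrable fun w => F w * J w := by
    refine iF.mul_bdd (c := 2) hJ.aestronglyMeasurable (ae_of_all _ fun w => ?_)
    have a1 := abs_le.1 (hJ1 w)
    have a2 := hφ.half
    rw [Real.norm_eq_abs, abs_le]
    constructor <;> linarith [a1.1, a1.2]
  have i1 := OCom_int hψ t⁻¹ (g := fun w => (y - w) / t) (by fun_prop) iFφ
  have i2 := OCom_int hψ t⁻¹ (g := fun w => (φ y - φ w) / t) (by fun_prop) iFφ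
  have i3 := OCom_int hψ t⁻¹ (g := fun w => (φ y - w) / t) (by fun_prop) iF
  have i4 := OCom_int hψ t⁻¹ (g := fun w => (φ y - w) / t) (by fun_prop) iFJ
  have e1 : ∫ w, t⁻¹ * ψ ((φ y - φ w) / t) * F (φ w) =
      ∫ w, t⁻¹ * ψ ((φ y - w) / t) * F w * J w :=
    integral_comp_density hφm hJ (OCom_J_nonneg hφ hJ1) h
      (F := fun w => t⁻¹ * ψ ((φ y - w) / t) * F w)
      (((hψ.meas.comp (by fun_prop)).const_mul _).mul hF.cont.measurable)
  simp only [eta, cv, mul_sub, sub_mul, mul_one]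
  rw [integral_sub i1 i2, integral_sub i3 i4, e1]
  simp only [mul_assoc]
  ring

/-- `comm_eq`, `t1_sq`, `ker_eta`, `carl_eta`, `SQ_le`, `Pert.N2_comp_le` -/
theorem comm_sq {ψ : ℝ → ℝ} (hψ : ContDiff ℝ 2 ψ) (hc : HasCompactSupport ψ) (h0 : ∫ r, ψ r = 0) :
    ∃ C : ℝ≥0∞, C < ∞ ∧ ∀ (e : ℝ) (φ F : ℝ → ℝ), Pert e φ → Cc F →
      ∫⁻ t in Ioi (0 : ℝ), ENNReal.ofReal t⁻¹ *
        N2 (fun y => cv ψ t (fun y => F (φ y)) y - cv ψ t F (φ y)) ≤
      C * ENNReal.ofReal (e ^ 2) * N2 F := by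
  obtain ⟨R0, M, -, -, hb⟩ := Cc.bmp ⟨hψ.continuous, hc⟩
  obtain ⟨R, C0, hR, hker⟩ := ker_eta hψ hc
  obtain ⟨C1, hC1, ht1⟩ := t1_sq hR
  obtain ⟨C2, hC2, hcarl⟩ := carl_eta hb h0
  obtain ⟨C3, hC3, hSQ⟩ := SQ_le hb h0
  refine ⟨4 * C3 * 4 + 2 * (C1 * (ENNReal.ofReal (C0 ^ 2) + C2) * 2), by finiteness,
    fun e φ F hφ hF => ?_⟩
  obtain ⟨J, hJ, hJ1, h⟩ := hφ.exists_density
  obtain ⟨RF, MF, -, hMF, hFb⟩ := hF.bmp
  have he := hφ.nonneg
  set H : ℝ → ℝ := fun w => F w * (1 - J w) with hH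
  have hHm : Measurable H := hFb.meas.mul (hJ.const_sub 1)
  have hHle : ∀ w, |H w| ≤ |2 * e * F w| := fun w => by
    rw [hH, abs_mul, abs_mul, abs_sub_comm, mul_comm, abs_of_nonneg (by positivity : 0 ≤ 2 * e)]
    exact mul_le_mul_of_nonneg_right (hJ1 w) (abs_nonneg _)
  have hHb : Bmp H RF (2 * e * MF) := by
    refine ⟨hHm, fun w => (hHle w).trans ?_, fun w hw => by simp [hH, hFb.supp w hw]⟩
    rw [abs_mul, abs_of_nonneg (by positivity : 0 ≤ 2 * e)]
    exact mul_le_mul_of_nonneg_left (hFb.bd w) (by positivity)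
  have hNH : N2 H ≤ 4 * ENNReal.ofReal (e ^ 2) * N2 F := by
    refine (N2_mono hHle).trans (le_of_eq ?_)
    rw [N2_const_mul, mul_pow, ENNReal.ofReal_mul (by norm_num)]
    norm_num
  have h1 := ht1 (eta ψ φ) (C0 * e) _ (hker e φ hφ) (hcarl e φ hφ) _ (hφ.cc_comp hF)
  have h2 : ∀ t ∈ Ioi (0 : ℝ), ENNReal.ofReal t⁻¹ *
      N2 (fun y => cv ψ t (fun y => F (φ y)) y - cv ψ t F (φ y)) ≤
      4 * (ENNReal.ofReal t⁻¹ * N2 (cv ψ t H)) +
        2 * (ENNReal.ofReal t⁻¹ * N2 fun y => ∫ y', eta ψ φ (t, y, y') * F (φ y')) := fun t ht => by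
    have hm := OCom_meas_cv hb.meas hHm t
    have a1 : (fun y => cv ψ t (fun y => F (φ y)) y - cv ψ t F (φ y)) =
        fun y => -cv ψ t H (φ y) + ∫ y', eta ψ φ (t, y, y') * F (φ y') := by
      funext y
      rw [comm_eq hb hφ hJ hJ1 h hF ht y]
      ring
    have a2 : N2 (fun y => -cv ψ t H (φ y)) ≤ 2 * N2 (cv ψ t H) :=
      (N2_congr_abs (g := fun y => cv ψ t H (φ y)) fun y => abs_neg _).le.trans (hφ.N2_comp_le hm)
    rw [a1]
    refine (mul_le_mul_right ((N2_add_le (hm.comp hφ.continuous.measurable).neg).trans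
      (add_le_add (mul_le_mul_right a2 2) le_rfl)) _).trans (le_of_eq ?_)
    ring
  refine (setLIntegral_mono' measurableSet_Ioi h2).trans ?_
  rw [lintegral_add_left ((OCom_meas_N2 hb.meas hHm).const_mul 4),
    lintegral_const_mul' _ _ (by norm_num), lintegral_const_mul' _ _ (by norm_num)]
  have h3 : SQ ψ H ≤ C3 * (4 * ENNReal.ofReal (e ^ 2) * N2 F) :=
    (hSQ H _ _ hHb).trans (mul_le_mul_right hNH _)
  have h4 := h1.trans (mul_le_mul_right (hφ.N2_comp_le hFb.meas) _)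
  refine (add_le_add (mul_le_mul_right h3 4) (mul_le_mul_right h4 2)).trans (le_of_eq ?_)
  rw [mul_pow, ENNReal.ofReal_mul (sq_nonneg _)]
  ring

end Crest.Agent.R87
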