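import Crest.Agent.R87.OLip

/-! Row 87, outer reduction: the commutator of a convolution with a bi-Lipschitz change of variables. -/

set_option autoImplicit false

namespace Crest.Agent.R87

open MeasureTheory Set
open scoped ENNReal

/-- difference kernel -/
noncomputable def eta (ψ φ : ℝ → ℝ) (p : ℝ × ℝ × ℝ) : ℝ :=
  p.1⁻¹ * (ψ ((p.2.1 - p.2.2) / p.1) - ψ ((φ p.2.1 - φ p.2.2) / p.1))

theorem OCom1_g {ψ : ℝ → ℝ} (hψ : ContDiff ℝ 2 ψ) (hc : HasCompactSupport ψ) :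
    ∃ R M : ℝ, 0 < R ∧ 0 ≤ M ∧ (∀ α β, R < |α| → |β| ≤ |α| / 2 → ψ α - ψ (α + β) = 0) ∧
      (∀ α β, |ψ α - ψ (α + β)| ≤ M * |β|) ∧
      ∀ α β α' β', |ψ α - ψ (α + β) - (ψ α' - ψ (α' + β'))| ≤ M * |β| * |α - α'| + M * |β - β'| := by
  obtain ⟨R, hR, h0⟩ := hc.exists_pos_le_norm
  obtain ⟨M₁, h1⟩ := hψ.lipschitzWith_of_hasCompactSupport hc two_ne_zero
  have hd : ContDiff ℝ 1 (deriv ψ) := ContDiff.deriv' (n := 1) hψ
  obtain ⟨M₂, h2⟩ := hd.lipschitzWith_of_hasCompactSupport hc.deriv one_ne_zero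
  have hD := hψ.differentiable two_ne_zero
  have l1 : ∀ x y, |ψ x - ψ y| ≤ (M₁ + M₂) * |x - y| := fun x y =>
    (h1.dist_le_mul x y).trans (mul_le_mul_of_nonneg_right (le_add_of_nonneg_right M₂.2) (abs_nonneg _))
  have l2 : ∀ x y, |deriv ψ x - deriv ψ y| ≤ (M₁ + M₂) * |x - y| := fun x y =>
    (h2.dist_le_mul x y).trans (mul_le_mul_of_nonneg_right (le_add_of_nonneg_left M₁.2) (abs_nonneg _))
  refine ⟨2 * R, M₁ + M₂, by positivity, by positivity, fun α β a b => ?_, fun α β => by simpa using l1 α (α + β),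
    fun α β α' β' => ?_⟩
  · have := abs_add_le (α + β) (-β)
    rw [add_neg_cancel_right, abs_neg] at this
    rw [h0 α (by rw [Real.norm_eq_abs]; linarith), h0 _ (by rw [Real.norm_eq_abs]; linarith), sub_self]
  · have a1 : |ψ α - ψ (α + β) - (ψ α' - ψ (α' + β))| ≤ (M₁ + M₂) * |β| * |α - α'| :=
      (convex_univ (𝕜 := ℝ)).norm_image_sub_le_of_norm_hasDerivWithin_le (f := fun x => ψ x - ψ (x + β))
        (f' := fun x => deriv ψ x - deriv ψ (x + β))
        (fun x _ => ((hD x).hasDerivAt.sub ((hD (x + β)).hasDerivAt.comp_add_const x β)).hasDerivWithinAt)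
        (fun x _ => by simpa using l2 x (x + β)) (mem_univ α') (mem_univ α)
    have a2 := l1 (α' + β') (α' + β)
    rw [add_sub_add_left_eq_sub, abs_sub_comm β'] at a2
    rw [show ψ α - ψ (α + β) - (ψ α' - ψ (α' + β')) =
      ψ α - ψ (α + β) - (ψ α' - ψ (α' + β)) + (ψ (α' + β') - ψ (α' + β)) by ring]
    exact (abs_add_le _ _).trans (add_le_add a1 a2)

/-- Let `ψ` vanish outside `[-R₀, R₀]`, `|ψ'|, |ψ''| ≤ M`; `R = 2 R₀`.  With `α = (y - y')/t`,
`β = (φ y - φ y' - (y - y'))/t`, `|β| ≤ e |α|`, `g (α, β) = ψ α - ψ (α + β)`: `g = 0` for `|α| > R`,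
`|g| ≤ M |β|`, and `|g (α, β) - g (α', β')| ≤ M |α - α'| |β| + M |β - β'|` (mean value theorem in `α`); use it with
`(α, β)` the point with `|α| ≤ R` (if neither point is such, both values vanish). -/
theorem ker_eta {ψ : ℝ → ℝ} (hψ : ContDiff ℝ 2 ψ) (hc : HasCompactSupport ψ) :
    ∃ R C : ℝ, 0 < R ∧ ∀ (e : ℝ) (φ : ℝ → ℝ), Pert e φ → Ker (eta ψ φ) R (C * e) := by
  obtain ⟨R, M, hR, hM, g0, g1, g2⟩ := OCom1_g hψ hc
  refine ⟨R, M * R + M, hR, fun e φ hφ => ?_⟩
  have he := hφ.nonneg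
  have hη : ∀ t y y', eta ψ φ (t, y, y') =
      t⁻¹ * (ψ ((y - y') / t) - ψ ((y - y') / t + (φ y - φ y' - (y - y')) / t)) := fun t y y' => by
    simp only [eta]
    congr 3
    ring
  have hβ : ∀ t y y', 0 < t → |(φ y - φ y' - (y - y')) / t| ≤ e * |(y - y') / t| := fun t y y' ht => by
    rw [abs_div, abs_div, ← mul_div_assoc]
    exact div_le_div_of_nonneg_right (hφ.lip y y') (abs_nonneg _)
  have hs : ∀ t y y', 0 < t → R < |(y - y') / t| → eta ψ φ (t, y, y') = 0 := fun t y y' ht h => by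
    rw [hη, g0 _ _ h ((hβ t y y' ht).trans (by nlinarith [hφ.half, abs_nonneg ((y - y') / t)])), mul_zero]
  have hl : ∀ t y y' y'', 0 < t → |(y - y') / t| ≤ R →
      |eta ψ φ (t, y, y') - eta ψ φ (t, y, y'')| ≤ (M * R + M) * e / t ^ 2 * |y' - y''| := fun t y y' y'' ht h => by
    rw [hη, hη, ← mul_sub, abs_mul, abs_of_pos (inv_pos.2 ht)]
    have a1 : |(y - y') / t - (y - y'') / t| = |y' - y''| / t := by
      rw [← sub_div, abs_div, abs_of_pos ht, sub_sub_sub_cancel_left, abs_sub_comm]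
    have a2 : |(φ y - φ y' - (y - y')) / t - (φ y - φ y'' - (y - y'')) / t| ≤ e * (|y' - y''| / t) := by
      rw [← sub_div, abs_div, abs_of_pos ht, ← mul_div_assoc, abs_sub_comm,
        show φ y - φ y'' - (y - y'') - (φ y - φ y' - (y - y')) = φ y' - φ y'' - (y' - y'') by ring]
      exact div_le_div_of_nonneg_right (hφ.lip _ _) ht.le
    have a3 := (hβ t y y' ht).trans (mul_le_mul_of_nonneg_left h he)
    refine (mul_le_mul_of_nonneg_left (g2 _ _ _ _) (inv_pos.2 ht).le).trans ?_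
    rw [a1]
    calc _ ≤ t⁻¹ * (M * (e * R) * (|y' - y''| / t) + M * (e * (|y' - y''| / t))) := by gcongr
      _ = _ := by field_simp
  have hm := hψ.continuous.measurable
  have hm' := hφ.continuous.measurable
  refine ⟨by unfold eta; fun_prop, fun t y y' ht h => hs t y y' ht ?_, fun t y y' ht => ?_,
    fun t y y' y'' ht => ?_⟩
  · rwa [abs_div, abs_of_pos ht, lt_div_iff₀ ht]
  · by_cases h : R < |(y - y') / t|
    · rw [hs t y y' ht h, abs_zero]
      positivity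
    · have a3 := (hβ t y y' ht).trans (mul_le_mul_of_nonneg_left (not_lt.1 h) he)
      rw [hη, abs_mul, abs_of_pos (inv_pos.2 ht), div_eq_inv_mul ((M * R + M) * e) t]
      refine mul_le_mul_of_nonneg_left ((g1 _ _).trans ?_) (inv_pos.2 ht).le
      nlinarith [mul_le_mul_of_nonneg_left a3 hM, mul_nonneg hM he]
  · by_cases h : |(y - y') / t| ≤ R
    · exact hl t y y' y'' ht h
    by_cases h' : |(y - y'') / t| ≤ R
    · rw [abs_sub_comm, abs_sub_comm y']
      exact hl t y y'' y' ht h'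
    rw [hs t y y' ht (not_le.1 h), hs t y y'' ht (not_le.1 h'), sub_self, abs_zero]
    positivity

end Crest.Agent.R87
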