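import Mathlib

/-!
# Row 87 (S0115), outer reduction: definitions.  DO NOT CHANGE (owner helper13).

Everything is real valued.  Points of the plane are pairs `(x, y) : ℝ × ℝ`.
-/

set_option autoImplicit false

namespace Crest.Agent.R87

open MeasureTheory Set
open scoped ENNReal

/-- square of the `L²` norm -/
noncomputable def N2 {X : Type*} [MeasureSpace X] (f : X → ℝ) : ℝ≥0∞ :=
  ∫⁻ x, ENNReal.ofReal (f x ^ 2)

/-- bounded by `M`, measurable, vanishing outside `[-R, R]` -/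
structure Bmp (ψ : ℝ → ℝ) (R M : ℝ) : Prop where
  meas : Measurable ψ
  bd : ∀ y, |ψ y| ≤ M
  supp : ∀ y, R < |y| → ψ y = 0

/-- continuous with compact support -/
structure Cc {X : Type*} [TopologicalSpace X] (f : X → ℝ) : Prop where
  cont : Continuous f
  cpt : HasCompactSupport f

/-- convolution with `ψ` dilated to scale `t` -/
noncomputable def cv (ψ : ℝ → ℝ) (t : ℝ) (H : ℝ → ℝ) (y : ℝ) : ℝ :=
  ∫ w, t⁻¹ * ψ ((y - w) / t) * H w

/-- the same in the vertical variable -/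
noncomputable def cvY (ψ : ℝ → ℝ) (t : ℝ) (f : ℝ × ℝ → ℝ) (z : ℝ × ℝ) : ℝ :=
  cv ψ t (fun y => f (z.1, y)) z.2

/-- square function -/
noncomputable def SQ (ψ H : ℝ → ℝ) : ℝ≥0∞ :=
  ∫⁻ t in Ioi (0 : ℝ), ENNReal.ofReal t⁻¹ * N2 (cv ψ t H)

/-- integration along the line of slope `u z` through `z` against the kernel `K` -/
noncomputable def lop (K : ℝ → ℝ) (u f : ℝ × ℝ → ℝ) (z : ℝ × ℝ) : ℝ :=
  ∫ s, K s * f (z.1 - s, z.2 - s * u z)

/-- truncated Hilbert kernel -/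
noncomputable def Kt (ε a s : ℝ) : ℝ := if ε < |s| ∧ |s| < a then s⁻¹ else 0

/-- a bounded continuous slope field, `κ`-Lipschitz in the vertical variable -/
structure Fld (κ : ℝ) (u : ℝ × ℝ → ℝ) : Prop where
  cont : Continuous u
  bdd : ∃ m, ∀ z, |u z| ≤ m
  nonneg : 0 ≤ κ
  lip : ∀ x y y', |u (x, y) - u (x, y')| ≤ κ * |y - y'|

/-- `φ - id` is `e`-Lipschitz -/
structure Pert (e : ℝ) (φ : ℝ → ℝ) : Prop where
  nonneg : 0 ≤ e
  half : e ≤ 1 / 2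
  lip : ∀ y y', |φ y - φ y' - (y - y')| ≤ e * |y - y'|

/-- single band estimate at vertical scale `t` -/
def SB (ψ : ℝ → ℝ) (t κ0 : ℝ) (C : ℝ≥0∞) : Prop :=
  ∀ (κ : ℝ) (u : ℝ × ℝ → ℝ), Fld κ u → ∀ ε a : ℝ, 0 < ε → ε < a → κ * a ≤ κ0 →
    ∀ f : ℝ × ℝ → ℝ, Cc f → N2 (lop (Kt ε a) u (cvY ψ t f)) ≤ C * N2 f

/-- the full estimate for slope fields -/
def Full (κ0 : ℝ) (C : ℝ≥0∞) : Prop :=
  ∀ (κ : ℝ) (u : ℝ × ℝ → ℝ), Fld κ u → ∀ ε a : ℝ, 0 < ε → ε < a → κ * a ≤ κ0 →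
    ∀ f : ℝ × ℝ → ℝ, Cc f → N2 (lop (Kt ε a) u f) ≤ C * N2 f

/-- local `L¹` mass at scale `t` (twice the average over `[y - t, y + t]`) -/
noncomputable def loc (t : ℝ) (G : ℝ → ℝ) (y : ℝ) : ℝ := t⁻¹ * ∫ w in Icc (y - t) (y + t), |G w|

/-- `γ (t, y) dy dt` is a Carleson measure with constant `A` -/
def Carl (γ : ℝ × ℝ → ℝ≥0∞) (A : ℝ≥0∞) : Prop :=
  ∀ y₀ r : ℝ, 0 < r →
    ∫⁻ t in Ioc (0 : ℝ) r, ∫⁻ y in Icc (y₀ - r) (y₀ + r), γ (t, y) ≤ A * ENNReal.ofReal r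

/-- a family of kernels `η (t, y, y')` at scale `t`, of size `c`, Lipschitz in `y'` -/
structure Ker (η : ℝ × ℝ × ℝ → ℝ) (R c : ℝ) : Prop where
  meas : Measurable η
  supp : ∀ t y y', 0 < t → R * t < |y - y'| → η (t, y, y') = 0
  bd : ∀ t y y', 0 < t → |η (t, y, y')| ≤ c / t
  lip : ∀ t y y' y'', 0 < t → |η (t, y, y') - η (t, y, y'')| ≤ c / t ^ 2 * |y' - y''|

/-- measurable, bounded, vanishing outside a set of finite measure -/
structure Nice {X : Type*} [MeasureSpace X] (f : X → ℝ) : Prop where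
  meas : Measurable f
  bd : ∃ M, ∀ x, |f x| ≤ M
  fin : volume (Function.support f) < ∞

end Crest.Agent.R87
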