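import Crest.Agent.R87.OBas
import Crest.Agent.R87.Defs

/-!
# Row 87 (S0115), outer reduction: definitions for the passage from `CoreStmt` to the single band estimate.
DO NOT CHANGE (owner helper13).
-/

set_option autoImplicit false

namespace Crest.Agent.R87

open MeasureTheory Set
open scoped ENNReal

/-- measurable and bounded -/
structure MB {α : Type*} [MeasurableSpace α] (k : α → ℝ) : Prop where
  meas : Measurable k
  bd : ∃ B, ∀ p, |k p| ≤ B

/-- the bilinear form of the kernel `k` -/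
noncomputable def bil {X : Type*} [MeasureSpace X] (k : X × X → ℝ) (g f : X → ℝ) : ℝ :=
  ∫ p : X × X, g p.1 * k p * f p.2

/-- restricted bound on `G' × F`, measured with `G` -/
def RBd {X : Type*} [MeasureSpace X] (k : X × X → ℝ) (C α β : ℝ) (G' G : Set X) : Prop :=
  ∀ F : Set X, MeasurableSet F → volume F ≠ ∞ → ∀ g f : X → ℝ, Measurable g → Measurable f →
    (∀ z, |g z| ≤ 1) → (∀ z, |f z| ≤ 1) →
    |∫ p in G' ×ˢ F, g p.1 * k p * f p.2| ≤ C * (volume F).toReal ^ α * (volume G).toReal ^ β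

/-- restricted bound with major subsets, for the subsets of `S` -/
def RW {X : Type*} [MeasureSpace X] (k : X × X → ℝ) (S : Set X) (C α β : ℝ) : Prop :=
  ∀ G : Set X, MeasurableSet G → G ⊆ S →
    ∃ G' : Set X, G' ⊆ G ∧ MeasurableSet G' ∧ volume G ≤ 2 * volume G' ∧ RBd k C α β G' G

/-- restricted bound for the subsets of `S` -/
def RS {X : Type*} [MeasureSpace X] (k : X × X → ℝ) (S : Set X) (C α β : ℝ) : Prop :=
  ∀ G : Set X, MeasurableSet G → G ⊆ S → RBd k C α β G G

/-- `L²` bound for the kernel `k` on the plane -/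
def Bd (k : P2 × P2 → ℝ) (C : ℝ) : Prop :=
  ∀ g f : P2 → ℝ, Cc g → Cc f → |bil k g f| ≤ C * √(∫ z, g z ^ 2) * √(∫ z, f z ^ 2)

/-- a horizontal kernel `κ` times the vertical profile along the line of slope `u` -/
noncomputable def lker (κ : ℝ → ℝ → ℝ) (ψ : ℝ → ℝ) (u : P2 → ℝ) (p : P2 × P2) : ℝ :=
  κ p.1.1 p.2.1 * ψ (p.2.2 - p.1.2 + (p.1.1 - p.2.1) * u p.1)

/-- one scale of the horizontal model kernel, dilated by `σ` and translated -/
noncomputable def hk (b : ℝ → ℝ) (σ θ : ℝ) (k : ℕ) (x x' : ℝ) : ℝ :=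
  (σ * 2 ^ k)⁻¹ * haar k (x / σ - θ) * b ((x' / σ - θ - cen k (x / σ - θ)) / 2 ^ k)

/-- Haar sign on `[0, 1)` -/
noncomputable def hs (r : ℝ) : ℝ := if r < 1 / 2 then 1 else -1

/-- translation average of the model kernel -/
noncomputable def kk (b : ℝ → ℝ) (s : ℝ) : ℝ := ∫ r in (0 : ℝ)..1, hs r * b (r - 1 / 2 - s)

/-- dilation average -/
noncomputable def Kav (k : ℝ → ℝ) (α β s : ℝ) : ℝ := ∫ l in Ioc α β, l⁻¹ * (l⁻¹ * k (s / l))

/-- the model bound: all scales below `n` -/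
def Model (b ψ : ℝ → ℝ) (C : ℝ) : Prop :=
  ∀ (n : ℕ) (u : P2 → ℝ), Field u n → Bd (fun p => ∑ k ∈ Finset.range n, ker b ψ u k p.1 p.2) C

end Crest.Agent.R87
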