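import Crest.Agent.R87.OGeo

/-! Row 87, outer reduction: back to the statement. -/

set_option autoImplicit false

namespace Crest.Agent.R87

open MeasureTheory Set
open scoped ENNReal

/-- the plane as a product -/
noncomputable def OFin_e : ℝ × ℝ ≃ᵐ EuclideanSpace ℝ (Fin 2) :=
  MeasurableEquiv.finTwoArrow.symm.trans (MeasurableEquiv.toLp 2 (Fin 2 → ℝ))

theorem OFin_e0 (z : ℝ × ℝ) : OFin_e z 0 = z.1 := rfl
theorem OFin_e1 (z : ℝ × ℝ) : OFin_e z 1 = z.2 := rfl

theorem OFin_mp : MeasurePreserving OFin_e volume volume :=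
  (PiLp.volume_preserving_toLp (Fin 2)).comp (volume_preserving_finTwoArrow ℝ).symm

theorem OFin_cont : Continuous OFin_e :=
  (PiLp.continuous_toLp 2 _).comp (continuous_pi fun i => by
    fin_cases i
    · exact continuous_fst
    · exact continuous_snd)

theorem OFin_dist (z w : ℝ × ℝ) : ‖OFin_e z - OFin_e w‖ = √((z.1 - w.1) ^ 2 + (z.2 - w.2) ^ 2) := by
  rw [EuclideanSpace.norm_eq, Fin.sum_univ_two]
  simp only [PiLp.sub_apply, OFin_e0, OFin_e1, Real.norm_eq_abs, sq_abs]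

theorem OFin_norm (g : EuclideanSpace ℝ (Fin 2) → ℂ) : eLpNorm g 2 volume =
    (∫⁻ z, ENNReal.ofReal ((g (OFin_e z)).re ^ 2) + ENNReal.ofReal ((g (OFin_e z)).im ^ 2)) ^ (1 / 2 : ℝ) := by
  rw [eLpNorm_eq_lintegral_rpow_enorm_toReal two_ne_zero ENNReal.ofNat_ne_top, ENNReal.toReal_ofNat,
    ← OFin_mp.lintegral_comp_emb OFin_e.measurableEmbedding]
  congr 1
  refine lintegral_congr fun z => ?_
  rw [← ENNReal.ofReal_add (sq_nonneg _) (sq_nonneg _), ← ofReal_norm,
    ENNReal.ofReal_rpow_of_nonneg (norm_nonneg _) zero_le_two, Real.rpow_two, Complex.sq_norm,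
    Complex.normSq_apply, sq, sq]

theorem OFin_int {ε a : ℝ} (hε : 0 < ε) {F : ℝ → ℂ} (hF : Continuous F) (L : ℂ →L[ℝ] ℝ) :
    L (∫ t in Ioo (-a) (-ε) ∪ Ioo ε a, F t / (t : ℂ)) = ∫ t, Kt ε a t * L (F t) := by
  have hm : MeasurableSet (Ioo (-a) (-ε) ∪ Ioo ε a) := measurableSet_Ioo.union measurableSet_Ioo
  have hi : IntegrableOn (fun t : ℝ => F t / (t : ℂ)) (Ioo (-a) (-ε) ∪ Ioo ε a) := by
    refine (ContinuousOn.integrableOn_compact (K := Icc (-a) (-ε) ∪ Icc ε a)
      (isCompact_Icc.union isCompact_Icc) ?_).mono_set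
      (union_subset_union Ioo_subset_Icc_self Ioo_subset_Icc_self)
    refine hF.continuousOn.div Complex.continuous_ofReal.continuousOn fun t ht h0 => ?_
    have : t = 0 := by exact_mod_cast h0
    rcases ht with ht | ht
    · linarith [ht.2]
    · linarith [ht.1]
  rw [← L.integral_comp_comm hi, ← integral_indicator hm]
  refine integral_congr_ae (ae_of_all _ fun t => ?_)
  have e : t ∈ Ioo (-a) (-ε) ∪ Ioo ε a ↔ ε < |t| ∧ |t| < a := by
    simp only [mem_union, mem_Ioo, lt_abs, abs_lt]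
    constructor
    · rintro (h | h)
      · exact ⟨Or.inr (by linarith), by linarith, by linarith⟩
      · exact ⟨Or.inl h.1, by linarith, h.2⟩
    · rintro ⟨h | h, h1, h2⟩
      · exact Or.inr ⟨h, h2⟩
      · exact Or.inl ⟨h1, by linarith⟩
  by_cases ht : t ∈ Ioo (-a) (-ε) ∪ Ioo ε a
  · simp only [indicator_of_mem ht, Kt, if_pos (e.1 ht)]
    rw [div_eq_inv_mul, ← Complex.ofReal_inv, ← Complex.real_smul, map_smul, smul_eq_mul]
  · simp only [indicator_of_notMem ht, Kt, if_neg (mt e.2 ht), zero_mul]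

theorem OFin_meas (ε a : ℝ) {p q f : ℝ × ℝ → ℝ} (hp : Continuous p) (hq : Continuous q)
    (hf : Continuous f) : Measurable (vop ε a p q f) := by
  have hK : Measurable (Kt ε a) :=
    Measurable.ite ((measurableSet_lt measurable_const measurable_abs).inter
      (measurableSet_lt measurable_abs measurable_const)) measurable_inv measurable_const
  have h1 : Continuous fun w : (ℝ × ℝ) × ℝ => f (w.1.1 - w.2 * p w.1, w.1.2 - w.2 * q w.1) := by
    fun_prop
  exact (((hK.comp measurable_snd).mul h1.measurable).stronglyMeasurable.integral_prod_right'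
    (ν := volume)).measurable

/-- `a = min (κ0 / 8) (1 / 16)`.  Let `e z = !₂[z.1, z.2] : EuclideanSpace ℝ (Fin 2)`; it is measure preserving
(`EuclideanSpace.volume_preserving_symm_measurableEquiv_toLp`/`PiLp.volume_preserving_toLp`,
`volume_preserving_finTwoArrow`).  `p z = v (e z) 0`, `q z = v (e z) 1`.  The set integral is
`∫ t, Kt ε a t * f (..)`; its real and imaginary parts are `vop` of `re (f ∘ e)`, `im (f ∘ e)` (`integral_re`,
`integral_im`; the integrand is bounded with bounded support).  `eLpNorm g 2 = (∫⁻ ‖g‖ₑ²)^(1/2)`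
(`eLpNorm_eq_lintegral_rpow_enorm_toReal`), `‖w‖² = re² + im²`; `vop_le`, `vop_le'`. -/
theorem final_of_full {κ0 : ℝ} {C : ℝ≥0∞} (hκ : 0 < κ0) (hC : C < ∞) (h : Full κ0 C) :
    ∃ a : ℝ, 0 < a ∧ a < 1 / 2 ∧ ∃ C : ℝ, ∀ v : EuclideanSpace ℝ (Fin 2) → EuclideanSpace ℝ (Fin 2),
      (∀ x, ‖v x‖ = 1) → LipschitzWith 1 v → ∀ f : SchwartzMap (EuclideanSpace ℝ (Fin 2)) ℂ, ∀ ε : ℝ, 0 < ε → ε < a →
        MeasureTheory.eLpNorm
            (fun x : EuclideanSpace ℝ (Fin 2) => ∫ t in Set.Ioo (-a) (-ε) ∪ Set.Ioo ε a, f (x - t • v x) / (t : ℂ)) 2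
            MeasureTheory.volume ≤
          ENNReal.ofReal C * MeasureTheory.eLpNorm (⇑f) 2 MeasureTheory.volume := by
  set a := min (κ0 / 8) (1 / 16) with ha
  have ha1 : 8 * a ≤ κ0 := by linarith [min_le_left (κ0 / 8) (1 / 16)]
  have ha2 : a ≤ 1 / 16 := min_le_right _ _
  set D := 4 * (2 * C + 64) with hD
  have hD' : D ≠ ∞ := by
    have := hC.ne
    finiteness
  refine ⟨a, by positivity, by linarith, (D ^ (1 / 2 : ℝ)).toReal, fun v hv hl f ε hε hεa => ?_⟩
  set p : ℝ × ℝ → ℝ := fun z => v (OFin_e z) 0 with hp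
  set q : ℝ × ℝ → ℝ := fun z => v (OFin_e z) 1 with hq
  have hc : ∀ i, Continuous fun z => v (OFin_e z) i := fun i =>
    (EuclideanSpace.proj i).continuous.comp (hl.continuous.comp OFin_cont)
  have h1 : ∀ z, p z ^ 2 + q z ^ 2 = 1 := fun z => by
    have := EuclideanSpace.real_norm_sq_eq (v (OFin_e z))
    rw [hv, Fin.sum_univ_two, one_pow] at this
    exact this.symm
  have h2 : ∀ i z w, |v (OFin_e z) i - v (OFin_e w) i| ≤ √((z.1 - w.1) ^ 2 + (z.2 - w.2) ^ 2) := by
    intro i z w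
    have k1 := PiLp.norm_apply_le (v (OFin_e z) - v (OFin_e w)) i
    have k2 := hl.norm_sub_le (OFin_e z) (OFin_e w)
    rw [NNReal.coe_one, one_mul, OFin_dist] at k2
    exact k1.trans k2
  have h3 : ∀ i x y y', |v (OFin_e (x, y)) i - v (OFin_e (x, y')) i| ≤ |y - y'| := fun i x y y' => by
    simpa [Real.sqrt_sq_eq_abs] using h2 i (x, y) (x, y')
  have h4 : ∀ i x x' y, |v (OFin_e (x, y)) i - v (OFin_e (x', y)) i| ≤ |x - x'| := fun i x x' y => by
    simpa [Real.sqrt_sq_eq_abs] using h2 i (x, y) (x', y)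
  have h5 : ∀ g : ℝ × ℝ → ℝ, Continuous g → N2 (vop ε a p q g) ≤ D * N2 g := fun g hg =>
    vop_le' (by linarith) h1 (fun g hg => vop_le h hε hεa ha1 (by linarith) (hc 0) (hc 1) h1 (h3 0) (h3 1)
      (h4 0) (h4 1) hg) hg
  have h6 : ∀ (L : ℂ →L[ℝ] ℝ) z, L (∫ t in Set.Ioo (-a) (-ε) ∪ Set.Ioo ε a,
      f (OFin_e z - t • v (OFin_e z)) / (t : ℂ)) = vop ε a p q (fun z => L (f (OFin_e z))) z := by
    intro L z
    rw [OFin_int hε (F := fun t => f (OFin_e z - t • v (OFin_e z))) (f.continuous.comp (by fun_prop))]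
    refine integral_congr_ae (ae_of_all _ fun t => ?_)
    have e : OFin_e z - t • v (OFin_e z) = OFin_e (z.1 - t * p z, z.2 - t * q z) := by
      ext i
      fin_cases i <;> rfl
    simp only [e]
  have h7 : ∀ L : ℂ →L[ℝ] ℝ, Continuous fun z => L (f (OFin_e z)) := fun L =>
    L.continuous.comp (f.continuous.comp OFin_cont)
  rw [ENNReal.ofReal_toReal (ENNReal.rpow_ne_top_of_nonneg (by norm_num) hD'), OFin_norm, OFin_norm,
    ← ENNReal.mul_rpow_of_nonneg _ _ (by norm_num)]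
  refine ENNReal.rpow_le_rpow ?_ (by norm_num)
  have k1 := h6 Complex.reCLM
  have k2 := h6 Complex.imCLM
  simp only [Complex.reCLM_apply, Complex.imCLM_apply] at k1 k2
  simp only [k1, k2]
  refine (lintegral_add_left ((OFin_meas ε a (hc 0) (hc 1)
    (h7 Complex.reCLM)).pow_const 2).ennreal_ofReal _).trans_le ?_
  refine (add_le_add (h5 _ (h7 Complex.reCLM)) (h5 _ (h7 Complex.imCLM))).trans ?_
  rw [← mul_add]
  exact mul_le_mul_right (le_lintegral_add _ _) _

end Crest.Agent.R87
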