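import Crest.Agent.R87.OGeo1

/-! Row 87, outer reduction: from slope fields to unit vector fields. -/

set_option autoImplicit false

namespace Crest.Agent.R87

open MeasureTheory Set
open scoped ENNReal

/-- the operator for a vector field -/
noncomputable def vop (ε a : ℝ) (p q f : ℝ × ℝ → ℝ) (z : ℝ × ℝ) : ℝ :=
  ∫ t, Kt ε a t * f (z.1 - t * p z, z.2 - t * q z)

/-- `u = slp p q` is `Fld 8`; `trunc_change` with `F s = f (x - s, y - s u)`; `Full`, `N2_lop_le` for `Ke` and `|f|` -/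
theorem vop_half {κ0 : ℝ} {C : ℝ≥0∞} (h : Full κ0 C) {ε a : ℝ} (hε : 0 < ε) (hεa : ε < a)
    (ha : 8 * a ≤ κ0) (ha' : 8 * a ≤ 1 / 2) {p q f : ℝ × ℝ → ℝ} (hp : Continuous p) (hq : Continuous q)
    (h1 : ∀ z, p z ^ 2 + q z ^ 2 = 1) (hpl : ∀ x y y', |p (x, y) - p (x, y')| ≤ |y - y'|)
    (hql : ∀ x y y', |q (x, y) - q (x, y')| ≤ |y - y'|) (hf : Cc f) :
    N2 ({z | 1 / 2 ≤ p z ^ 2}.indicator (vop ε a p q f)) ≤ (2 * C + 64) * N2 f := by
  have hu : Fld 8 fun z => slp (p z) (q z) :=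
    ⟨(hp.mul hq).div ((hp.pow 2).max continuous_const) fun z =>
        (lt_of_lt_of_le (by norm_num) (le_max_right _ _)).ne',
      ⟨1, fun z => abs_slp_le (h1 z)⟩, by norm_num,
      fun x y y' => slp_lip (h1 _) (h1 _) (hpl x y y') (hql x y y')⟩
  obtain ⟨R, M, -, -, hM, -⟩ := hf.box
  have hK := bmp_Ke hε hεa
  have e1 : N2 (fun z => |lop (Kt ε a) (fun z => slp (p z) (q z)) f z|) ≤ C * N2 f :=
    (N2_congr_abs fun _ => abs_abs _).trans_le (h 8 _ hu ε a hε hεa ha f hf)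
  have e2 : N2 (lop (Ke ε a) (fun z => slp (p z) (q z)) fun z => |f z|) ≤ 2 * 4 ^ 2 * N2 f := by
    refine (N2_lop_le hu hK.meas (fun s hs => ?_) hf.cont.abs.measurable).trans ?_
    · linarith [not_lt.1 fun h => hs (hK.supp s h)]
    · rw [N2_congr_abs (g := f) fun _ => abs_abs _]
      gcongr
      exact lintegral_Ke hε hεa
  refine (N2_mono fun z => ?_).trans ((N2_add_le (measurable_lop (bmp_Kt (a := a) hε).meas hu.cont.measurable
    hf.cont.measurable).abs).trans ((add_le_add (mul_le_mul_right e1 2) (mul_le_mul_right e2 2)).trans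
      (le_of_eq (by ring))))
  by_cases hz : 1 / 2 ≤ p z ^ 2
  · rw [indicator_of_mem (show z ∈ {z | 1 / 2 ≤ p z ^ 2} from hz)]
    refine le_trans ?_ (le_abs_self _)
    have := trunc_change (F := fun s => f (z.1 - s, z.2 - s * slp (p z) (q z))) (M := M)
      (hf.cont.measurable.comp (by fun_prop)) (fun s => hM _) hε hεa hz (by nlinarith [h1 z, sq_nonneg (q z)])
    simp only [mul_assoc, mul_slp hz] at this
    exact this
  · rw [indicator_of_notMem (show z ∉ {z | 1 / 2 ≤ p z ^ 2} from hz), abs_zero]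
    exact abs_nonneg _

theorem OGeo_swap (f : ℝ × ℝ → ℝ) : N2 (fun z : ℝ × ℝ => f z.swap) = N2 f :=
  lintegral_prod_swap (μ := volume) (ν := volume) fun z => ENNReal.ofReal (f z ^ 2)

/-- two halves; the second one by swapping the coordinates (`Measure.measurePreserving_swap`) -/
theorem vop_le {κ0 : ℝ} {C : ℝ≥0∞} (h : Full κ0 C) {ε a : ℝ} (hε : 0 < ε) (hεa : ε < a)
    (ha : 8 * a ≤ κ0) (ha' : 8 * a ≤ 1 / 2) {p q f : ℝ × ℝ → ℝ} (hp : Continuous p) (hq : Continuous q)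
    (h1 : ∀ z, p z ^ 2 + q z ^ 2 = 1) (hpl : ∀ x y y', |p (x, y) - p (x, y')| ≤ |y - y'|)
    (hql : ∀ x y y', |q (x, y) - q (x, y')| ≤ |y - y'|)
    (hpl' : ∀ x x' y, |p (x, y) - p (x', y)| ≤ |x - x'|)
    (hql' : ∀ x x' y, |q (x, y) - q (x', y)| ≤ |x - x'|) (hf : Cc f) :
    N2 (vop ε a p q f) ≤ 4 * (2 * C + 64) * N2 f := by
  have e1 := vop_half h hε hεa ha ha' hp hq h1 hpl hql hf
  have e2 := vop_half h hε hεa ha ha' (hq.comp continuous_swap) (hp.comp continuous_swap)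
    (fun z => (add_comm _ _).trans (h1 z.swap)) (fun x y y' => hql' y y' x) (fun x y y' => hpl' y y' x)
    (f := fun z => f z.swap) ⟨hf.cont.comp continuous_swap, hf.cpt.comp_homeomorph (Homeomorph.prodComm ℝ ℝ)⟩
  have e3 : N2 ({z | 1 / 2 ≤ q z ^ 2}.indicator (vop ε a p q f)) ≤ (2 * C + 64) * N2 f := by
    rw [← OGeo_swap, ← OGeo_swap f]
    exact e2
  have hm : Measurable (vop ε a p q f) := by
    have hK := (bmp_Kt (a := a) hε).meas
    have hc := hf.cont
    refine (StronglyMeasurable.integral_prod_right (f := fun (z : ℝ × ℝ) (t : ℝ) =>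
      Kt ε a t * f (z.1 - t * p z, z.2 - t * q z)) (Measurable.stronglyMeasurable ?_)).measurable
    exact (hK.comp measurable_snd).mul (Continuous.measurable (by fun_prop))
  have hS : MeasurableSet {z | 1 / 2 ≤ p z ^ 2} := (isClosed_le continuous_const (hp.pow 2)).measurableSet
  have e4 : N2 ({z | 1 / 2 ≤ p z ^ 2}ᶜ.indicator (vop ε a p q f)) ≤ (2 * C + 64) * N2 f := by
    refine (N2_mono fun z => ?_).trans e3
    by_cases hz : 1 / 2 ≤ p z ^ 2
    · rw [indicator_of_notMem (show z ∉ {z | 1 / 2 ≤ p z ^ 2}ᶜ from not_not.2 hz), abs_zero]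
      exact abs_nonneg _
    · rw [indicator_of_mem (show z ∈ {z | 1 / 2 ≤ p z ^ 2}ᶜ from hz),
        indicator_of_mem (show z ∈ {z | 1 / 2 ≤ q z ^ 2} by change 1 / 2 ≤ q z ^ 2; linarith [h1 z])]
  refine (N2_mono fun z => ?_).trans ((N2_add_le (hm.indicator hS)).trans
    ((add_le_add (mul_le_mul_right e1 2) (mul_le_mul_right e4 2)).trans (le_of_eq (by ring))))
  rw [indicator_self_add_compl_apply]

/-- remove the compact support: `f_n = χ_n f` with a continuous cut-off `0 ≤ χ_n ≤ 1`, `χ_n = 1` on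
`closedBall 0 (n + 1)`, compact support; `vop f_n = vop f` on `closedBall 0 n` (`|t| < a ≤ 1`, `|p|, |q| ≤ 1`);
`setLIntegral_iUnion_of_directed` -/
theorem vop_le' {D : ℝ≥0∞} {ε a : ℝ} (ha : a ≤ 1) {p q : ℝ × ℝ → ℝ} (h1 : ∀ z, p z ^ 2 + q z ^ 2 = 1)
    (h : ∀ f, Cc f → N2 (vop ε a p q f) ≤ D * N2 f) {f : ℝ × ℝ → ℝ} (hf : Continuous f) :
    N2 (vop ε a p q f) ≤ D * N2 f := by
  rw [N2, ← setLIntegral_univ, ← Metric.iUnion_closedBall_nat (0 : ℝ × ℝ), setLIntegral_iUnion_of_directed _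
    (Monotone.directed_le fun m n hmn => Metric.closedBall_subset_closedBall (Nat.cast_le.2 hmn))]
  refine iSup_le fun n => ?_
  have hc : Cc fun z : ℝ × ℝ => max 0 (min 1 (n + 2 - ‖z‖)) * f z := by
    refine cc_of_box (by fun_prop) (R := n + 2) fun z hz => ?_
    have : (n : ℝ) + 2 < ‖z‖ := hz.elim (fun h => h.trans_le (norm_fst_le z)) fun h => h.trans_le (norm_snd_le z)
    rw [max_eq_left ((min_le_right _ _).trans (by linarith)), zero_mul]
  refine le_trans ?_ ((h _ hc).trans (mul_le_mul_right (N2_mono fun z => ?_) D))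
  · refine le_trans (le_of_eq (setLIntegral_congr_fun Metric.isClosed_closedBall.measurableSet fun z hz => ?_))
      (setLIntegral_le_lintegral _ _)
    simp only [vop]
    congr 3
    funext t
    by_cases ht : ε < |t| ∧ |t| < a
    · have hb : ∀ r : ℝ, r ^ 2 ≤ 1 → |t * r| ≤ 1 := fun r hr => by
        rw [abs_mul]
        exact mul_le_one₀ (ht.2.le.trans ha) (abs_nonneg _) ((sq_le_one_iff_abs_le_one r).1 hr)
      have h2 : ‖((t * p z, t * q z) : ℝ × ℝ)‖ ≤ 1 :=
        max_le (hb _ (by nlinarith [h1 z, sq_nonneg (q z)])) (hb _ (by nlinarith [h1 z, sq_nonneg (p z)]))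
      have h3 : ‖((z.1 - t * p z, z.2 - t * q z) : ℝ × ℝ)‖ ≤ n + 1 :=
        (norm_sub_le z (t * p z, t * q z)).trans (add_le_add (mem_closedBall_zero_iff.1 hz) h2)
      rw [min_eq_left (by linarith), max_eq_right zero_le_one, one_mul]
    · rw [Kt, if_neg ht, zero_mul, zero_mul]
  · rw [abs_mul]
    refine mul_le_of_le_one_left (abs_nonneg _) ?_
    rw [abs_of_nonneg (le_max_left _ _)]
    exact max_le zero_le_one (min_le_left _ _)

end Crest.Agent.R87
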