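import Crest.Agent.R87.OLip

/-! Row 87, outer reduction: from slope fields to unit vector fields. -/

set_option autoImplicit false

namespace Crest.Agent.R87

open MeasureTheory Set
open scoped ENNReal

/-- slope of a unit vector, cut off near the vertical -/
noncomputable def slp (p q : ℝ) : ℝ := p * q / max (p ^ 2) (1 / 2)

theorem OGeo1_num {p q : ℝ} (h : p ^ 2 + q ^ 2 = 1) : |p * q| ≤ 1 / 2 :=
  abs_le.2 ⟨by nlinarith [sq_nonneg (p + q)], by nlinarith [sq_nonneg (p - q)]⟩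

theorem abs_slp_le {p q : ℝ} (h : p ^ 2 + q ^ 2 = 1) : |slp p q| ≤ 1 := by
  have h1 : (1 / 2 : ℝ) ≤ max (p ^ 2) (1 / 2) := le_max_right _ _
  have h2 : (0 : ℝ) < max (p ^ 2) (1 / 2) := by linarith
  rw [slp, abs_div, abs_of_pos h2, div_le_one h2]
  exact (OGeo1_num h).trans h1

/-- numerators `|N| ≤ 1/2`, `|N - N'| ≤ 2 d`; denominators in `[1/2, 1]`, `|D - D'| ≤ 2 d` -/
theorem slp_lip {p q p' q' d : ℝ} (h : p ^ 2 + q ^ 2 = 1) (h' : p' ^ 2 + q' ^ 2 = 1) (hp : |p - p'| ≤ d)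
    (hq : |q - q'| ≤ d) : |slp p q - slp p' q'| ≤ 8 * d := by
  have hd : 0 ≤ d := (abs_nonneg _).trans hp
  have b1 : |p| ≤ 1 := abs_le_one_iff_mul_self_le_one.2 (by nlinarith [sq_nonneg q])
  have b2 : |p'| ≤ 1 := abs_le_one_iff_mul_self_le_one.2 (by nlinarith [sq_nonneg q'])
  have b3 : |q'| ≤ 1 := abs_le_one_iff_mul_self_le_one.2 (by nlinarith [sq_nonneg p'])
  have n1 : |p * q - p' * q'| ≤ 2 * d := by
    rw [show p * q - p' * q' = p * (q - q') + q' * (p - p') by ring]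
    refine (abs_add_le _ _).trans ?_
    rw [abs_mul, abs_mul]
    have := mul_le_mul b1 hq (abs_nonneg _) zero_le_one
    have := mul_le_mul b3 hp (abs_nonneg _) zero_le_one
    linarith
  have n2 : |max (p' ^ 2) (1 / 2) - max (p ^ 2) (1 / 2)| ≤ 2 * d := by
    refine (abs_max_sub_max_le_abs _ _ _).trans ?_
    rw [show p' ^ 2 - p ^ 2 = -((p + p') * (p - p')) by ring, abs_neg, abs_mul]
    exact mul_le_mul ((abs_add_le _ _).trans (by linarith)) hp (abs_nonneg _) (by norm_num)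
  have n3 := OGeo1_num h'
  unfold slp
  set D := max (p ^ 2) (1 / 2)
  set D' := max (p' ^ 2) (1 / 2)
  have d1 : (1 / 2 : ℝ) ≤ D := le_max_right _ _
  have d2 : (1 / 2 : ℝ) ≤ D' := le_max_right _ _
  have d3 : 0 < D := by linarith
  have d4 : 0 < D' := by linarith
  rw [show p * q / D - p' * q' / D' = (p * q - p' * q') / D + p' * q' * (D' - D) / (D * D') by
    field_simp; ring]
  refine (abs_add_le _ _).trans ?_
  have e1 : |(p * q - p' * q') / D| ≤ 4 * d := by
    rw [abs_div, abs_of_pos d3, div_le_iff₀ d3]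
    nlinarith
  have e2 : |p' * q' * (D' - D) / (D * D')| ≤ 4 * d := by
    rw [abs_div, abs_of_pos (mul_pos d3 d4), div_le_iff₀ (mul_pos d3 d4), abs_mul]
    have c1 := mul_le_mul n3 n2 (abs_nonneg _) (by norm_num)
    have c2 : 1 / 2 * (1 / 2) ≤ D * D' := mul_le_mul d1 d2 (by norm_num) d3.le
    nlinarith
  linarith

theorem mul_slp {p q : ℝ} (h : 1 / 2 ≤ p ^ 2) : p * slp p q = q := by
  have h0 : p ≠ 0 := by
    rintro rfl
    norm_num at h
  rw [slp, max_eq_left h]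
  field_simp

/-- kernel dominating the change of truncation -/
noncomputable def Ke (ε a s : ℝ) : ℝ :=
  (if ε / 2 ≤ |s| ∧ |s| ≤ ε then 2 / ε else 0) + if a / 2 ≤ |s| ∧ |s| ≤ a then 2 / a else 0

theorem OGeo1_meas (e : ℝ) : MeasurableSet {s : ℝ | e / 2 ≤ |s| ∧ |s| ≤ e} :=
  (measurableSet_le measurable_const measurable_abs).inter
    (measurableSet_le measurable_abs measurable_const)

theorem OGeo1_nonneg {ε a : ℝ} (hε : 0 < ε) (h : ε < a) (s : ℝ) : 0 ≤ Ke ε a s := by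
  have ha : 0 < a := hε.trans h
  unfold Ke
  split_ifs <;> positivity

theorem bmp_Ke {ε a : ℝ} (hε : 0 < ε) (h : ε < a) : Bmp (Ke ε a) a (2 / ε + 2 / a) := by
  have ha : 0 < a := hε.trans h
  refine ⟨?_, fun y => ?_, fun y hy => ?_⟩
  · exact (Measurable.ite (OGeo1_meas ε) measurable_const measurable_const).add
      (Measurable.ite (OGeo1_meas a) measurable_const measurable_const)
  · rw [abs_of_nonneg (OGeo1_nonneg hε h y)]
    have h1 : 0 < 2 / ε := by positivity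
    have h2 : 0 < 2 / a := by positivity
    unfold Ke
    split_ifs <;> linarith
  · unfold Ke
    rw [if_neg fun hh => by linarith [hh.2], if_neg fun hh => by linarith [hh.2], add_zero]

theorem OGeo1_lint {e : ℝ} (he : 0 < e) :
    ∫⁻ s : ℝ, ENNReal.ofReal (if e / 2 ≤ |s| ∧ |s| ≤ e then 2 / e else 0) ≤ 2 := by
  have h1 : (fun s : ℝ => ENNReal.ofReal (if e / 2 ≤ |s| ∧ |s| ≤ e then 2 / e else 0)) =
      {s : ℝ | e / 2 ≤ |s| ∧ |s| ≤ e}.indicator fun _ => ENNReal.ofReal (2 / e) := by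
    funext s
    simp only [indicator, mem_ofPred_eq]
    split_ifs <;> simp
  have h2 : volume {s : ℝ | e / 2 ≤ |s| ∧ |s| ≤ e} ≤ ENNReal.ofReal e := by
    have h3 : {s : ℝ | e / 2 ≤ |s| ∧ |s| ≤ e} ⊆ Icc (-e) (-(e / 2)) ∪ Icc (e / 2) e := by
      intro s hs
      rcases abs_cases s with h | h
      · exact Or.inr ⟨by linarith [hs.1], by linarith [hs.2]⟩
      · exact Or.inl ⟨by linarith [hs.2], by linarith [hs.1]⟩
    refine (measure_mono h3).trans ((measure_union_le _ _).trans (le_of_eq ?_))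
    rw [Real.volume_Icc, Real.volume_Icc, ← ENNReal.ofReal_add (by linarith) (by linarith)]
    congr 1
    ring
  rw [h1, lintegral_indicator_const (OGeo1_meas e)]
  refine (mul_le_mul_right h2 _).trans (le_of_eq ?_)
  rw [← ENNReal.ofReal_mul (by positivity), div_mul_cancel₀ _ he.ne', ENNReal.ofReal_ofNat]

theorem lintegral_Ke {ε a : ℝ} (hε : 0 < ε) (h : ε < a) : ∫⁻ s, ENNReal.ofReal |Ke ε a s| ≤ 4 := by
  have ha : 0 < a := hε.trans h
  have h1 : ∀ s, ENNReal.ofReal |Ke ε a s| ≤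
      ENNReal.ofReal (if ε / 2 ≤ |s| ∧ |s| ≤ ε then 2 / ε else 0) +
        ENNReal.ofReal (if a / 2 ≤ |s| ∧ |s| ≤ a then 2 / a else 0) := by
    intro s
    rw [abs_of_nonneg (OGeo1_nonneg hε h s)]
    exact ENNReal.ofReal_add_le
  refine (lintegral_mono h1).trans ?_
  rw [lintegral_add_left (Measurable.ite (OGeo1_meas ε) measurable_const measurable_const).ennreal_ofReal]
  refine (add_le_add (OGeo1_lint hε) (OGeo1_lint ha)).trans (le_of_eq ?_)
  norm_num

theorem OGeo1_diff {ε a q : ℝ} (hε : 0 < ε) (h : ε < a) (h1 : 1 / 2 ≤ q) (h2 : q ≤ 1) (s : ℝ) :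
    |Kt (q * ε) (q * a) s - Kt ε a s| ≤ Ke ε a s := by
  have ha : 0 < a := hε.trans h
  have k0 := OGeo1_nonneg hε h s
  have c1 : ε / 2 ≤ q * ε := by nlinarith
  have c2 : q * ε ≤ ε := by nlinarith
  have c3 : a / 2 ≤ q * a := by nlinarith
  have c4 : q * a ≤ a := by nlinarith
  unfold Kt
  by_cases g1 : q * ε < |s| ∧ |s| < q * a <;> by_cases g2 : ε < |s| ∧ |s| < a
  · rw [if_pos g1, if_pos g2, sub_self, abs_zero]
    exact k0
  · have g3 : |s| ≤ ε := by
      by_contra g4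
      exact g2 ⟨not_le.1 g4, by linarith [g1.2]⟩
    have g4 : ε / 2 ≤ |s| := by linarith [g1.1]
    rw [if_pos g1, if_neg g2, sub_zero, abs_inv, Ke, if_pos ⟨g4, g3⟩]
    refine le_trans ?_ (le_add_of_nonneg_right (by split_ifs <;> positivity))
    rw [← inv_div]
    exact inv_anti₀ (by positivity) g4
  · have g3 : q * a ≤ |s| := by
      by_contra g4
      exact g1 ⟨by linarith [g2.1], not_le.1 g4⟩
    have g4 : a / 2 ≤ |s| := by linarith
    rw [if_neg g1, if_pos g2, zero_sub, abs_neg, abs_inv, Ke, if_pos (And.intro g4 g2.2.le)]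
    refine le_trans ?_ (le_add_of_nonneg_left (by split_ifs <;> positivity))
    rw [← inv_div]
    exact inv_anti₀ (by positivity) g4
  · rw [if_neg g1, if_neg g2, sub_self, abs_zero]
    exact k0

/-- substitute `s = p t` (`Measure.integral_comp_mul_left`): the left integral is `± ∫ Kt (|p| ε) (|p| a) s * F s`, and
`|Kt (|p| ε) (|p| a) s - Kt ε a s| ≤ Ke ε a s` for `1/2 ≤ |p| ≤ 1`. -/
theorem trunc_change {F : ℝ → ℝ} {M ε a p : ℝ} (hF : Measurable F) (hM : ∀ s, |F s| ≤ M) (hε : 0 < ε)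
    (h : ε < a) (hp : 1 / 2 ≤ p ^ 2) (hp1 : p ^ 2 ≤ 1) :
    |∫ t, Kt ε a t * F (t * p)| ≤ |∫ s, Kt ε a s * F s| + ∫ s, Ke ε a s * |F s| := by
  have h0 : p ≠ 0 := by
    rintro rfl
    norm_num at hp
  have q0 : 0 < |p| := abs_pos.2 h0
  have q1 : 1 / 2 ≤ |p| := by
    rw [← sq_abs] at hp
    nlinarith
  have q2 : |p| ≤ 1 := by
    rw [← sq_abs] at hp1
    nlinarith
  have hi : ∀ {K : ℝ → ℝ} {R M' : ℝ}, Bmp K R M' → Integrable fun s => K s * F s := fun hK =>
    hK.integrable.mul_bdd hF.aestronglyMeasurable (Filter.Eventually.of_forall hM)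
  have e1 : (fun t => Kt ε a t * F (t * p)) =
      fun t => p * (fun s => Kt (|p| * ε) (|p| * a) s * F s) (t * p) := by
    funext t
    simp only [Kt, abs_mul, mul_comm |t| |p|, mul_lt_mul_iff_right₀ q0]
    split_ifs with hh
    · rw [mul_inv, ← mul_assoc, mul_left_comm p, mul_inv_cancel₀ h0, mul_one]
    · simp
  rw [e1, integral_const_mul, Measure.integral_comp_mul_right
    (fun s => Kt (|p| * ε) (|p| * a) s * F s) p, smul_eq_mul, abs_mul, abs_mul, abs_abs, abs_inv,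
    mul_inv_cancel_left₀ q0.ne']
  have e2 : ∫ s, Kt (|p| * ε) (|p| * a) s * F s =
      (∫ s, Kt ε a s * F s) + ∫ s, (Kt (|p| * ε) (|p| * a) s * F s - Kt ε a s * F s) := by
    rw [integral_sub (hi (bmp_Kt (mul_pos q0 hε))) (hi (bmp_Kt hε))]
    ring
  rw [e2]
  refine (abs_add_le _ _).trans (add_le_add le_rfl ?_)
  rw [← Real.norm_eq_abs]
  refine norm_integral_le_of_norm_le ((bmp_Ke hε h).integrable.mul_bdd (c := M)
    hF.abs.aestronglyMeasurable (Filter.Eventually.of_forall fun s => ?_))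
    (Filter.Eventually.of_forall fun s => ?_)
  · rw [Real.norm_eq_abs, abs_abs]
    exact hM s
  · rw [← sub_mul, Real.norm_eq_abs, abs_mul]
    exact mul_le_mul_of_nonneg_right (OGeo1_diff hε h q1 q2 s) (abs_nonneg _)

end Crest.Agent.R87
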