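import Crest.Agent.R87.ODefs2

/-! Row 87, outer reduction: the choice of the bumps. -/

set_option autoImplicit false

namespace Crest.Agent.R87

open MeasureTheory Set
open scoped ENNReal

theorem OKer1_cpt {f : ℝ → ℝ} {R : ℝ} (h : ∀ x, R ≤ |x| → f x = 0) : HasCompactSupport f := by
  refine HasCompactSupport.intro (isCompact_Icc (a := -R) (b := R)) fun x hx => h x ?_
  by_contra hlt
  exact hx (mem_Icc.2 (abs_le.1 (not_le.1 hlt).le))

theorem OKer1_bd {f : ℝ → ℝ} (hc : Continuous f) {R : ℝ} (h : ∀ x, R ≤ |x| → f x = 0) :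
    ∃ M, ∀ x, |f x| ≤ M := by
  obtain ⟨M, hM⟩ := hc.bounded_above_of_compact_support (OKer1_cpt h)
  exact ⟨M, fun x => by simpa using hM x⟩

theorem OKer1_deriv_supp {f : ℝ → ℝ} {R R' : ℝ} (hR : R < R') (h : ∀ x, R ≤ |x| → f x = 0) :
    ∀ x, R' ≤ |x| → deriv f x = 0 := by
  intro x hx
  have : f =ᶠ[nhds x] fun _ => 0 := by
    have ho : IsOpen {y : ℝ | R < |y|} := isOpen_lt continuous_const continuous_abs
    filter_upwards [ho.mem_nhds (show x ∈ {y : ℝ | R < |y|} from lt_of_lt_of_le hR hx)] with y hy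
    exact h y (le_of_lt hy)
  rw [this.deriv_eq, deriv_const]

theorem OKer1_iter_supp {f : ℝ → ℝ} {R R' : ℝ} (hR : R < R') (h : ∀ x, R ≤ |x| → f x = 0) (m : ℕ) :
    ∀ x, R' ≤ |x| → iteratedDeriv m f x = 0 := by
  intro x hx
  have : f =ᶠ[nhds x] fun _ => 0 := by
    have ho : IsOpen {y : ℝ | R < |y|} := isOpen_lt continuous_const continuous_abs
    filter_upwards [ho.mem_nhds (show x ∈ {y : ℝ | R < |y|} from lt_of_lt_of_le hR hx)] with y hy
    exact h y (le_of_lt hy)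
  rw [this.iteratedDeriv_eq, iteratedDeriv_const]
  simp

theorem OKer1_smooth_deriv {f : ℝ → ℝ} (h : ContDiff ℝ (⊤ : ℕ∞) f) : ContDiff ℝ (⊤ : ℕ∞) (deriv f) :=
  (contDiff_infty_iff_deriv.1 h).2

theorem OKer1_smooth_iter {f : ℝ → ℝ} (h : ContDiff ℝ (⊤ : ℕ∞) f) (m : ℕ) :
    ContDiff ℝ (⊤ : ℕ∞) (iteratedDeriv m f) := by
  rw [iteratedDeriv_eq_iterate]
  exact h.iterate_deriv m

theorem OKer1_int_deriv {f : ℝ → ℝ} (h : ContDiff ℝ (⊤ : ℕ∞) f) {R : ℝ} (hs : ∀ x, R ≤ |x| → f x = 0) :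
    ∫ x, deriv f x = 0 := by
  have hd : Differentiable ℝ f := (contDiff_infty_iff_deriv.1 h).1
  refine integral_eq_zero_of_hasDerivAt_of_integrable (f := f) (fun x => (hd x).hasDerivAt) ?_ ?_
  · exact (OKer1_smooth_deriv h).continuous.integrable_of_hasCompactSupport
      (OKer1_cpt (OKer1_deriv_supp (lt_add_one R) hs))
  · exact h.continuous.integrable_of_hasCompactSupport (OKer1_cpt hs)

theorem OKer1_bump (r R : ℝ) (hr : 0 < r) (hR : r < R) :
    ∃ φ : ℝ → ℝ, ContDiff ℝ (⊤ : ℕ∞) φ ∧ φ 0 = 1 ∧ ∀ x, R ≤ |x| → φ x = 0 := by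
  let φ : ContDiffBump (0 : ℝ) := ⟨r, R, hr, hR⟩
  refine ⟨φ, φ.contDiff, φ.one_of_mem_closedBall (Metric.mem_closedBall_self hr.le), fun x hx => ?_⟩
  exact φ.zero_of_le_dist (by simpa using hx)

theorem OKer1_meas_hs : Measurable hs :=
  Measurable.ite measurableSet_Iio measurable_const measurable_const

theorem OKer1_abs_hs (r : ℝ) : |hs r| = 1 := by
  unfold hs
  split_ifs <;> simp

/-- `|hs| = 1`; for `1 < |s|` and `r ∈ [0, 1]`, `1/2 ≤ |r - 1/2 - s|`; `kk b` is continuous or measurable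
(`StronglyMeasurable.integral_prod_right`) -/
theorem IsB.bmp_kk {b : ℝ → ℝ} (hb : IsB b) : ∃ M, Bmp (kk b) 1 M := by
  obtain ⟨M, hM⟩ := OKer1_bd hb.smooth.continuous hb.supp
  have hbm : Measurable b := hb.smooth.continuous.measurable
  refine ⟨M, ?_, fun s => ?_, fun s hs' => ?_⟩
  · have hm : Measurable fun p : ℝ × ℝ => hs p.2 * b (p.2 - 1 / 2 - p.1) :=
      (OKer1_meas_hs.comp measurable_snd).mul (hbm.comp (by fun_prop))
    have h1 := hm.stronglyMeasurable.integral_prod_right'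
      (ν := (volume : Measure ℝ).restrict (Ioc 0 1))
    have e : kk b = fun s => ∫ r in Ioc (0 : ℝ) 1, hs r * b (r - 1 / 2 - s) := by
      funext s
      unfold kk
      rw [intervalIntegral.integral_of_le zero_le_one]
    rw [e]
    exact h1.measurable
  · unfold kk
    have := intervalIntegral.norm_integral_le_of_norm_le_const (a := 0) (b := 1) (C := M)
      (f := fun r => hs r * b (r - 1 / 2 - s)) fun r _ => by
        rw [Real.norm_eq_abs, abs_mul, OKer1_abs_hs, one_mul]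
        exact hM _
    simpa using this
  · unfold kk
    refine (intervalIntegral.integral_congr (g := fun _ => (0 : ℝ)) fun r hr => ?_).trans
      intervalIntegral.integral_zero
    rw [uIcc_of_le zero_le_one] at hr
    have : b (r - 1 / 2 - s) = 0 := by
      refine hb.supp _ ?_
      have h1 := hr.1
      have h2 := hr.2
      rcases lt_abs.1 hs' with h | h
      · exact le_abs.2 (Or.inr (by linarith))
      · exact le_abs.2 (Or.inl (by linarith))
    simp only [this, mul_zero]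

/-- `φ : ContDiffBump 0` with `rIn = 1/4`, `rOut = 1/3`, `b = deriv (deriv φ)` (vanishes outside
`tsupport φ = closedBall 0 (1/3)`, `support_deriv_subset`).  FTC on `[0, 1/2]` and `[1/2, 1]`:
`kk b s = 2 φ'(-s) - φ'(-1/2 - s) - φ'(1/2 - s)`, whose primitive is
`-2 φ(-s) + φ(-1/2 - s) + φ(1/2 - s)`: it is `-2` at `s = 0` and `0` for `1 ≤ |s|`. -/
theorem exists_b : ∃ b : ℝ → ℝ, IsB b ∧ ∀ r : ℝ, 1 ≤ |r| → ∫ x in (0 : ℝ)..r, kk b x = 2 := by
  obtain ⟨φ, hφ, h0, hs'⟩ := OKer1_bump (1 / 4) (1 / 3) (by norm_num) (by norm_num)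
  have hφ1 := OKer1_smooth_deriv hφ
  have hφ2 := OKer1_smooth_deriv hφ1
  have s1 := OKer1_deriv_supp (show (1 / 3 : ℝ) < 2 / 5 by norm_num) hs'
  have s2 := OKer1_deriv_supp (show (2 / 5 : ℝ) < 1 / 2 by norm_num) s1
  have d0 : Differentiable ℝ φ := (contDiff_infty_iff_deriv.1 hφ).1
  have d1 : Differentiable ℝ (deriv φ) := (contDiff_infty_iff_deriv.1 hφ1).1
  have c1 := hφ1.continuous
  have c2 := hφ2.continuous
  refine ⟨deriv (deriv φ), ⟨hφ2, s2, OKer1_int_deriv hφ1 s1⟩, fun r hr => ?_⟩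
  have ftc : ∀ s a c : ℝ, ∫ r in a..c, deriv (deriv φ) (r - 1 / 2 - s)
      = deriv φ (c - 1 / 2 - s) - deriv φ (a - 1 / 2 - s) := by
    intro s a c
    refine intervalIntegral.integral_eq_sub_of_hasDerivAt
      (f := fun r => deriv φ (r - 1 / 2 - s)) (fun x _ => ?_)
      ((c2.comp (by fun_prop)).intervalIntegrable _ _)
    have h1 : HasDerivAt (fun r : ℝ => r - 1 / 2 - s) 1 x :=
      ((hasDerivAt_id x).sub_const _).sub_const _
    have h2 := (d1 (x - 1 / 2 - s)).hasDerivAt.comp x h1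
    rw [mul_one] at h2
    exact h2
  have hk : ∀ s, kk (deriv (deriv φ)) s
      = 2 * deriv φ (-s) - deriv φ (-1 / 2 - s) - deriv φ (1 / 2 - s) := by
    intro s
    unfold kk
    have cb : Continuous fun r : ℝ => deriv (deriv φ) (r - 1 / 2 - s) := c2.comp (by fun_prop)
    have e1 : ∫ r in (0 : ℝ)..(1 / 2), hs r * deriv (deriv φ) (r - 1 / 2 - s)
        = ∫ r in (0 : ℝ)..(1 / 2), deriv (deriv φ) (r - 1 / 2 - s) := by
      refine intervalIntegral.integral_congr_ae ?_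
      filter_upwards [compl_mem_ae_iff.2 (measure_singleton (1 / 2 : ℝ))] with r hr1 hr2
      rw [uIoc_of_le (by norm_num)] at hr2
      have : r < 1 / 2 := lt_of_le_of_ne hr2.2 hr1
      rw [hs, if_pos this, one_mul]
    have e2 : ∫ r in (1 / 2 : ℝ)..1, hs r * deriv (deriv φ) (r - 1 / 2 - s)
        = ∫ r in (1 / 2 : ℝ)..1, -deriv (deriv φ) (r - 1 / 2 - s) := by
      refine intervalIntegral.integral_congr fun r hr => ?_
      rw [uIcc_of_le (by norm_num)] at hr
      simp only [hs, if_neg (not_lt.2 hr.1), neg_one_mul]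
    have ii : ∀ a c : ℝ, IntervalIntegrable (fun r => hs r * deriv (deriv φ) (r - 1 / 2 - s))
        volume a c := by
      intro a c
      refine (cb.intervalIntegrable (μ := volume) a c).mono_fun
        (OKer1_meas_hs.mul cb.measurable).aestronglyMeasurable ?_
      refine Filter.Eventually.of_forall fun r => ?_
      simp only [norm_mul, Real.norm_eq_abs, OKer1_abs_hs, one_mul, le_refl]
    rw [← intervalIntegral.integral_add_adjacent_intervals (ii 0 (1 / 2)) (ii (1 / 2) 1), e1, e2,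
      intervalIntegral.integral_neg, ftc, ftc]
    have a1 : (1 / 2 : ℝ) - 1 / 2 - s = -s := by ring
    have a2 : (0 : ℝ) - 1 / 2 - s = -1 / 2 - s := by ring
    have a3 : (1 : ℝ) - 1 / 2 - s = 1 / 2 - s := by ring
    rw [a1, a2, a3]
    ring
  simp_rw [hk]
  have hF : ∀ x : ℝ, HasDerivAt (fun s => -2 * φ (-s) + φ (-1 / 2 - s) + φ (1 / 2 - s))
      (2 * deriv φ (-x) - deriv φ (-1 / 2 - x) - deriv φ (1 / 2 - x)) x := by
    intro x
    have g1 := (d0 (-x)).hasDerivAt.comp x (hasDerivAt_neg x)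
    have g2 := (d0 (-1 / 2 - x)).hasDerivAt.comp x ((hasDerivAt_id x).const_sub (-1 / 2))
    have g3 := (d0 (1 / 2 - x)).hasDerivAt.comp x ((hasDerivAt_id x).const_sub (1 / 2))
    have := ((g1.const_mul (-2)).add g2).add g3
    refine this.congr_deriv ?_
    ring
  rw [intervalIntegral.integral_eq_sub_of_hasDerivAt (fun x _ => hF x)
    (Continuous.intervalIntegrable (by fun_prop) _ _)]
  have z1 : φ (-r) = 0 := hs' _ (by rw [abs_neg]; linarith)
  have z2 : φ (-1 / 2 - r) = 0 := hs' _ (by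
    rcases le_abs.1 hr with h | h
    · exact le_abs.2 (Or.inr (by linarith))
    · exact le_abs.2 (Or.inl (by linarith)))
  have z3 : φ (1 / 2 - r) = 0 := hs' _ (by
    rcases le_abs.1 hr with h | h
    · exact le_abs.2 (Or.inr (by linarith))
    · exact le_abs.2 (Or.inl (by linarith)))
  have z4 : φ (-1 / 2 - 0) = 0 := hs' _ (le_abs.2 (Or.inr (by norm_num)))
  have z5 : φ (1 / 2 - 0) = 0 := hs' _ (le_abs.2 (Or.inl (by norm_num)))
  simp only [z1, z2, z3, z4, z5, neg_zero, h0]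
  norm_num

/-- a function with compact support and zero derivative vanishes (`is_const_of_deriv_eq_zero`) -/
theorem iteratedDeriv_ne_zero {φ : ℝ → ℝ} (hφ : ContDiff ℝ (⊤ : ℕ∞) φ) (hc : HasCompactSupport φ) (hne : φ ≠ 0)
    (m : ℕ) : iteratedDeriv m φ ≠ 0 := by
  induction m with
  | zero => simpa using hne
  | succ m ih =>
    intro h
    apply ih
    rw [iteratedDeriv_succ] at h
    have hd : Differentiable ℝ (iteratedDeriv m φ) :=
      (contDiff_infty_iff_deriv.1 (OKer1_smooth_iter hφ m)).1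
    have hcst := is_const_of_deriv_eq_zero hd fun x => congrFun h x
    obtain ⟨R, hR⟩ := hc.isCompact.isBounded.subset_ball 0
    have hs : ∀ x, R ≤ |x| → φ x = 0 := fun x hx => by
      by_contra h0
      have := hR (subset_tsupport φ h0)
      rw [Metric.mem_ball, Real.dist_eq, sub_zero] at this
      linarith
    funext x
    rw [hcst x (R + 1)]
    exact OKer1_iter_supp (lt_add_one R) hs m _ (le_abs_self _)

/-- `Ψ = deriv φ` for a bump `φ` with `rOut = 1/2`; `iteratedDeriv m (deriv φ) = deriv (iteratedDeriv m φ)`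
(`iteratedDeriv_succ`, `iteratedDeriv_succ'`), `integral_eq_zero_of_hasDerivAt_of_integrable` -/
theorem exists_psi (m : ℕ) : ∃ Ψ : ℝ → ℝ, IsPsi Ψ ∧ IsPsi (iteratedDeriv m Ψ) ∧
    ∫ y, iteratedDeriv m Ψ y = 0 ∧ iteratedDeriv m Ψ ≠ 0 := by
  obtain ⟨φ, hφ, h0, hs'⟩ := OKer1_bump (1 / 4) (1 / 2) (by norm_num) (by norm_num)
  have s1 := OKer1_deriv_supp (show (1 / 2 : ℝ) < 3 / 4 by norm_num) hs'
  have hφ1 := OKer1_smooth_deriv hφ
  refine ⟨deriv φ, ⟨hφ1, fun y hy => s1 y (by linarith)⟩,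
    ⟨OKer1_smooth_iter hφ1 m, OKer1_iter_supp (by norm_num) s1 m⟩, ?_, ?_⟩
  · rw [← iteratedDeriv_succ', iteratedDeriv_succ]
    exact OKer1_int_deriv (OKer1_smooth_iter hφ m) (OKer1_iter_supp (lt_add_one _) hs' m)
  · rw [← iteratedDeriv_succ']
    refine iteratedDeriv_ne_zero hφ (OKer1_cpt hs') (fun h => ?_) _
    rw [h] at h0
    simp at h0

theorem IsPsi.bmp {ψ : ℝ → ℝ} (h : IsPsi ψ) : ∃ M, Bmp ψ 1 M := by
  obtain ⟨M, hM⟩ := OKer1_bd h.smooth.continuous h.supp
  exact ⟨M, h.smooth.continuous.measurable, hM, fun y hy => h.supp y hy.le⟩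

theorem IsB.bmp {b : ℝ → ℝ} (h : IsB b) : ∃ M, Bmp b 1 M := by
  obtain ⟨M, hM⟩ := OKer1_bd h.smooth.continuous h.supp
  exact ⟨M, h.smooth.continuous.measurable, hM, fun y hy => h.supp y (by linarith)⟩

theorem IsPsi.neg_props {ψ : ℝ → ℝ} (h : IsPsi ψ) (h0 : ∫ y, ψ y = 0) (hne : ψ ≠ 0) :
    ContDiff ℝ 2 (fun r => ψ (-r)) ∧ HasCompactSupport (fun r => ψ (-r)) ∧ ∫ r, ψ (-r) = 0 ∧
      (fun r => ψ (-r)) ≠ 0 := by
  refine ⟨(contDiff_infty.1 h.smooth 2).comp contDiff_neg,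
    OKer1_cpt (R := 1) fun x hx => h.supp _ (by rwa [abs_neg]), ?_, fun h1 => hne ?_⟩
  · rw [integral_neg_eq_self ψ volume, h0]
  · funext x
    simpa using congrFun h1 (-x)

end Crest.Agent.R87
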