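import Crest.Agent.R87.OBas

/-! Row 87, outer reduction: square functions on the line, without Fourier transform.

For `ψ` in `Bmp` with mean zero let `Ψ = acor ψ` (even, bounded, supported in `[-2R, 2R]`, mean zero) and
`ω = om Ψ`, `ω r = r⁻¹ ∫_0^r Ψ` (bounded by `sup |Ψ|`, vanishing for `|r| > 2R` because `∫_0^∞ Ψ = 0`).  Then
`∫_α^β ‖ψ_t * H‖² dt/t = ∫ (ω(s/α)/α - ω(s/β)/β) (acor H)(s) ds`. -/

set_option autoImplicit false

namespace Crest.Agent.R87

open MeasureTheory Set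
open scoped ENNReal

/-- autocorrelation -/
noncomputable def acor (ψ : ℝ → ℝ) (s : ℝ) : ℝ := ∫ r, ψ (r + s) * ψ r

noncomputable def om (k : ℝ → ℝ) (r : ℝ) : ℝ := r⁻¹ * ∫ x in (0 : ℝ)..r, k x

/-- substitution `r = s / ℓ` (`integral_image_eq_integral_abs_deriv_smul` on `Ioo α β`, valid for every `k`;
treat `s > 0`, `s < 0`), then `intervalIntegral.integral_interval_sub_left` -/
theorem scale_avg {k : ℝ → ℝ} {R M : ℝ} (hk : Bmp k R M) {α β s : ℝ} (hα : 0 < α) (hαβ : α ≤ β)
    (hs : s ≠ 0) :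
    ∫ l in Ioc α β, l⁻¹ * (l⁻¹ * k (s / l)) = α⁻¹ * om k (s / α) - β⁻¹ * om k (s / β) := by
  have hβ : 0 < β := hα.trans_le hαβ
  have h1 := intervalIntegral.integral_comp_mul_deriv_of_deriv_nonpos (a := α) (b := β)
    (f := fun l => l⁻¹) (f' := fun l => -(l ^ 2)⁻¹) (g := fun x => k (s * x))
    (continuousOn_inv₀.mono fun x hx => (lt_of_lt_of_le (lt_min hα hβ) hx.1).ne')
    (fun x hx => hasDerivAt_inv ((lt_min hα hβ).trans hx.1).ne')
    fun x _ => neg_nonpos.2 (by positivity)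
  have hi := fun a b => hk.integrable.intervalIntegrable (a := a) (b := b)
  rw [intervalIntegral.integral_comp_mul_left _ hs,
    ← intervalIntegral.integral_interval_sub_left (hi 0 _) (hi 0 _)] at h1
  have h2 : ∫ l in Ioc α β, l⁻¹ * (l⁻¹ * k (s / l)) =
      -∫ x in α..β, ((fun x => k (s * x)) ∘ fun l => l⁻¹) x * -(x ^ 2)⁻¹ := by
    rw [← intervalIntegral.integral_neg, intervalIntegral.integral_of_le hαβ]
    refine integral_congr_ae (ae_of_all _ fun l => ?_)
    simp only [Function.comp, div_eq_mul_inv]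
    ring
  rw [h2, h1]
  simp only [om, div_eq_mul_inv, smul_eq_mul]
  field_simp
  ring

theorem measurable_om {k : ℝ → ℝ} {R M : ℝ} (hk : Bmp k R M) : Measurable (om k) := by
  exact measurable_inv.mul (hk.integrable.continuous_primitive 0).measurable

theorem abs_om_le {k : ℝ → ℝ} {R M : ℝ} (hk : Bmp k R M) (r : ℝ) : |om k r| ≤ M := by
  rcases eq_or_ne r 0 with rfl | hr
  · simpa [om] using hk.nonneg
  have h1 := intervalIntegral.norm_integral_le_of_norm_le_const (a := 0) (b := r) (f := k) (C := M)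
    fun x _ => hk.bd x
  rw [om, abs_mul, abs_inv, inv_mul_le_iff₀ (abs_pos.2 hr), mul_comm]
  simpa using h1

theorem OSq1_neg (ψ : ℝ → ℝ) (s : ℝ) : acor ψ (-s) = acor ψ s := by
  rw [acor, ← integral_add_right_eq_self _ s]
  simp only [acor, add_neg_cancel_right, mul_comm]

theorem OSq1_cv (ψ : ℝ → ℝ) : acor ψ = cv ψ 1 fun r => ψ (-r) := by
  funext s
  rw [cv_eq _ _ one_pos, ← OSq1_neg, acor]
  simp only [one_mul, neg_sub, ← sub_eq_add_neg]
  simp only [mul_comm]

theorem OSq1_sq {H : ℝ → ℝ} {R M : ℝ} (hH : Bmp H R M) : Integrable fun y => H y ^ 2 := by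
  refine Bmp.integrable (R := R) (M := M ^ 2) ⟨hH.meas.pow_const 2, fun y => ?_, fun y hy => ?_⟩
  · rw [abs_pow]
    exact pow_le_pow_left₀ (abs_nonneg _) (hH.bd y) 2
  · simp [hH.supp y hy]

theorem Bmp.acor {ψ : ℝ → ℝ} {R M : ℝ} (hψ : Bmp ψ R M) (hR : 0 ≤ R) :
    Bmp (acor ψ) (2 * R) (2 * R * M ^ 2) := by
  rw [OSq1_cv]
  exact (hψ.cv hψ.neg hR one_pos).mono (le_of_eq (by ring)) (le_of_eq (by ring))

theorem acor_neg (ψ : ℝ → ℝ) (s : ℝ) : acor ψ (-s) = acor ψ s := by
  exact OSq1_neg ψ s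

theorem integral_acor {ψ : ℝ → ℝ} {R M : ℝ} (hψ : Bmp ψ R M) : ∫ s, acor ψ s = (∫ r, ψ r) ^ 2 := by
  rw [OSq1_cv, integral_cv hψ hψ.neg, integral_neg_eq_self, sq]

/-- `2 |ab| ≤ a² + b²` -/
theorem abs_acor_le {H : ℝ → ℝ} {R M : ℝ} (hH : Bmp H R M) (s : ℝ) : |acor H s| ≤ ∫ y, H y ^ 2 := by
  have h1 := OSq1_sq hH
  have h2 := h1.comp_add_right s
  have h3 := norm_integral_le_of_norm_le (f := fun r => H (r + s) * H r)
    ((h2.add h1).div_const 2) (ae_of_all _ fun r => by
      rw [Real.norm_eq_abs, abs_le]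
      simp only [Pi.add_apply]
      constructor <;> nlinarith [sq_nonneg (H (r + s) + H r), sq_nonneg (H (r + s) - H r)])
  simp only [Pi.add_apply] at h3
  rw [integral_div, integral_add h2 h1, integral_add_right_eq_self (fun y => H y ^ 2) s] at h3
  exact h3.trans (le_of_eq (by ring))

theorem continuous_acor {H : ℝ → ℝ} (hH : Cc H) : Continuous (acor H) := by
  obtain ⟨R, M, -, -, h⟩ := hH.bmp
  rw [OSq1_cv]
  exact ((h.neg.cc (hH.cont.comp continuous_neg)).cv h one_pos).cont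

/-- an even function of mean zero -/
theorem bmp_om {k : ℝ → ℝ} {R M : ℝ} (hk : Bmp k R M) (he : ∀ s, k (-s) = k s) (h0 : ∫ s, k s = 0) :
    Bmp (om k) R M := by
  refine ⟨measurable_om hk, abs_om_le hk, fun r hr => ?_⟩
  have hi := fun a b => hk.integrable.intervalIntegrable (a := a) (b := b)
  have h1 : ∀ x, ∫ y in (0 : ℝ)..(-x), k y = -∫ y in (0 : ℝ)..x, k y := fun x => by
    have := intervalIntegral.integral_comp_neg (a := 0) (b := x) k
    simp only [he, neg_zero] at this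
    rw [this, intervalIntegral.integral_symm]
  have h2 : ∫ y in (-|r|)..|r|, k y = 0 := by
    rw [intervalIntegral.integral_eq_integral_of_support_subset, h0]
    intro x hx
    have := abs_lt.1 ((not_lt.1 fun h => hx (hk.supp x h)).trans_lt hr)
    exact ⟨this.1, this.2.le⟩
  rw [← intervalIntegral.integral_interval_sub_left (hi 0 _) (hi 0 _), h1] at h2
  have h3 : ∫ y in (0 : ℝ)..r, k y = 0 := by
    rcases abs_choice r with h | h
    · rw [h] at h2
      linarith
    · rw [h, h1] at h2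
      linarith
  rw [om, h3, mul_zero]

end Crest.Agent.R87
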