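import Crest.Agent.R87.ODefs2
import Crest.Agent.R87.OSq1
import Crest.Agent.R87.Api1

/-! Row 87, outer reduction: averaging the model kernel over translations and dilations. -/

set_option autoImplicit false

namespace Crest.Agent.R87

open MeasureTheory Set
open scoped ENNReal

/-- `measurable_haar`, `measurable_cen` -/
theorem measurable_hk {b : ℝ → ℝ} (hb : Measurable b) (k : ℕ) :
    Measurable fun q : ℝ × ℝ × ℝ × ℝ => hk b q.1 q.2.1 k q.2.2.1 q.2.2.2 := by
  have h1 := measurable_haar k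
  have h2 := measurable_cen k
  unfold hk
  fun_prop

theorem abs_hk_le {b : ℝ → ℝ} {M σ : ℝ} (hb : ∀ x, |b x| ≤ M) (hσ : 0 < σ) (θ : ℝ) (k : ℕ) (x x' : ℝ) :
    |hk b σ θ k x x'| ≤ σ⁻¹ * M := by
  rw [hk, abs_mul, abs_mul, abs_haar, mul_one, abs_of_pos (by positivity)]
  refine mul_le_mul (inv_anti₀ hσ (le_mul_of_one_le_right hσ.le (one_le_pow₀ one_le_two))) (hb _) (abs_nonneg _)
    (by positivity)

/-- with `w = (x/σ - θ) / 2^k`: `dI k = ⌊w⌋`, `dI (k-1) = ⌊2 w⌋ = 2 ⌊w⌋ + (0 or 1)` -/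
theorem hk_eq (b : ℝ → ℝ) {σ : ℝ} (hσ : 0 < σ) (θ : ℝ) (k : ℕ) (x x' : ℝ) :
    hk b σ θ k x x' = (σ * 2 ^ k)⁻¹ * (hs (Int.fract ((x / σ - θ) / 2 ^ k)) *
      b (Int.fract ((x / σ - θ) / 2 ^ k) - 1 / 2 - (x - x') / (σ * 2 ^ k))) := by
  obtain ⟨w, hw⟩ : ∃ w, w = (x / σ - θ) / 2 ^ k := ⟨_, rfl⟩
  have e1 : dI k (x / σ - θ) = ⌊w⌋ := by rw [dI, zpow_natCast, hw]
  have e2 : dI (k - 1) (x / σ - θ) = ⌊2 * w⌋ := by
    rw [dI, zpow_sub_one₀ two_ne_zero, zpow_natCast, hw]
    congr 1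
    field_simp
  have f0 := Int.fract_nonneg w
  have f1 := Int.fract_lt_one w
  have f2 := Int.floor_add_fract w
  have e3 : haar k (x / σ - θ) = hs (Int.fract w) := by
    rw [haar, e2, hs]
    by_cases h : Int.fract w < 1 / 2
    · have : ⌊2 * w⌋ = 2 * ⌊w⌋ := Int.floor_eq_iff.2 ⟨by push_cast; linarith, by push_cast; linarith⟩
      rw [this, if_pos (even_two_mul _), if_pos h]
    · have : ⌊2 * w⌋ = 2 * ⌊w⌋ + 1 := Int.floor_eq_iff.2 ⟨by push_cast; linarith, by push_cast; linarith⟩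
      rw [this, if_neg (Int.not_even_iff_odd.2 (odd_two_mul_add_one _)), if_neg h]
  rw [hk, e3, cen, e1, zpow_natCast, ← hw, mul_assoc]
  congr 3
  rw [Int.fract]
  generalize (⌊w⌋ : ℝ) = m
  rw [hw]
  field_simp
  ring

/-- `P w = hs (fract w) * b (fract w - 1/2 - s)` is `1`-periodic, bounded, measurable and `∫_0^1 P = kk b s`;
substitute `w = (x/σ - θ)/2^k` (`intervalIntegral.integral_comp_div`, `integral_comp_sub_left`): an interval of
length `2^(n-k)`; `Function.Periodic.intervalIntegral_add_zsmul_eq`, `Function.Periodic.intervalIntegral_add_eq` -/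
theorem avg_trans {b : ℝ → ℝ} {R M σ : ℝ} (hb : Bmp b R M) (hσ : 0 < σ) {k n : ℕ} (hk' : k ≤ n) (x x' : ℝ) :
    ∫ θ in Ioc (0 : ℝ) (2 ^ n), hk b σ θ k x x' =
      2 ^ n * ((σ * 2 ^ k)⁻¹ * kk b ((x - x') / (σ * 2 ^ k))) := by
  obtain ⟨s, hs'⟩ : ∃ s, s = (x - x') / (σ * 2 ^ k) := ⟨_, rfl⟩
  let P : ℝ → ℝ := fun w => hs (Int.fract w) * b (Int.fract w - 1 / 2 - s)
  have hP : Function.Periodic P 1 := fun w => by simp only [P, Int.fract_add_one]
  have mh : Measurable hs := Measurable.ite measurableSet_Iio measurable_const measurable_const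
  have mP : Measurable P := (mh.comp measurable_fract).mul (hb.meas.comp ((measurable_fract.sub_const _).sub_const _))
  have iP : ∀ t₁ t₂, IntervalIntegrable P volume t₁ t₂ := fun t₁ t₂ => by
    refine intervalIntegrable_iff.2 (Measure.integrableOn_of_bounded (M := M) measure_Ioc_lt_top.ne
      mP.aestronglyMeasurable (Filter.Eventually.of_forall fun w => ?_))
    have : |hs (Int.fract w)| = 1 := by
      unfold hs
      split_ifs <;> simp
    rw [Real.norm_eq_abs, abs_mul, this, one_mul]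
    exact hb.bd _
  have h0 : ∫ w in (0 : ℝ)..0 + 1, P w = kk b s := by
    rw [zero_add, kk, intervalIntegral.integral_of_le zero_le_one, intervalIntegral.integral_of_le zero_le_one,
      integral_Ioc_eq_integral_Ioo, integral_Ioc_eq_integral_Ioo]
    refine setIntegral_congr_fun measurableSet_Ioo fun w hw => ?_
    simp only [P, Int.fract_eq_self.2 ⟨hw.1.le, hw.2⟩]
  obtain ⟨m, rfl⟩ := Nat.exists_eq_add_of_le hk'
  have e : (x / σ - 0) / 2 ^ k = (x / σ - 2 ^ (k + m)) / 2 ^ k + ((2 ^ m : ℕ) : ℤ) • (1 : ℝ) := by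
    rw [zsmul_eq_mul]
    push_cast
    field_simp
    ring
  simp only [hk_eq b hσ, ← hs']
  rw [integral_const_mul, ← intervalIntegral.integral_of_le (by positivity),
    intervalIntegral.integral_comp_sub_left (fun u => P (u / 2 ^ k)),
    intervalIntegral.integral_comp_div P (by positivity), e, hP.intervalIntegral_add_zsmul_eq _ _ iP,
    hP.intervalIntegral_add_eq _ 0, h0, smul_eq_mul, zsmul_eq_mul]
  push_cast
  ring

theorem OKer2_bd {k : ℝ → ℝ} {R M α l : ℝ} (hk : Bmp k R M) (hα : 0 < α) (hl : α ≤ l) (s : ℝ) :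
    ‖l⁻¹ * (l⁻¹ * k (s / l))‖ ≤ α⁻¹ * (α⁻¹ * M) := by
  have hl0 : 0 < l := hα.trans_le hl
  have h1 := inv_anti₀ hα hl
  rw [norm_mul, norm_mul, Real.norm_of_nonneg (inv_pos.2 hl0).le]
  exact mul_le_mul h1 (mul_le_mul h1 (hk.bd _) (norm_nonneg _) (by positivity)) (by positivity) (by positivity)

theorem OKer2_int {k : ℝ → ℝ} {R M α c : ℝ} (hk : Bmp k R M) (hα : 0 < α) (hc : 0 < c) (β s : ℝ) :
    IntegrableOn (fun l => (c * l)⁻¹ * ((c * l)⁻¹ * k (s / (c * l)))) (Ioc α β) := by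
  have := hk.meas
  refine Measure.integrableOn_of_bounded (M := (c * α)⁻¹ * ((c * α)⁻¹ * M)) measure_Ioc_lt_top.ne
    (Measurable.aestronglyMeasurable (by fun_prop)) ?_
  filter_upwards [ae_restrict_mem measurableSet_Ioc] with l hl
  exact OKer2_bd hk (by positivity) (mul_le_mul_of_nonneg_left hl.1.le hc.le) s

/-- each term is `∫ l in ε 2^j..ε 2^(j+1), l⁻¹ * (l⁻¹ * k (s / l))` (`intervalIntegral.integral_comp_mul_left`);
`intervalIntegral.sum_integral_adjacent_intervals` -/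
theorem avg_dil {k : ℝ → ℝ} {R M ε : ℝ} (hk : Bmp k R M) (hε : 0 < ε) (n : ℕ) (s : ℝ) :
    ∫ l in Ioc (1 : ℝ) 2, l⁻¹ * ∑ j ∈ Finset.range n, (ε * l * 2 ^ j)⁻¹ * k (s / (ε * l * 2 ^ j)) =
      Kav k ε (ε * 2 ^ n) s := by
  have e : ∀ (l : ℝ) (j : ℕ), l⁻¹ * ((ε * l * 2 ^ j)⁻¹ * k (s / (ε * l * 2 ^ j))) =
      ε * 2 ^ j * ((ε * 2 ^ j * l)⁻¹ * ((ε * 2 ^ j * l)⁻¹ * k (s / (ε * 2 ^ j * l)))) := fun l j => by
    rw [mul_right_comm ε l, ← mul_assoc (ε * 2 ^ j), mul_inv (ε * 2 ^ j) l, mul_inv_cancel_left₀ (by positivity)]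
  simp only [Finset.mul_sum, e]
  rw [integral_finsetSum _ fun j _ => (OKer2_int hk one_pos (by positivity) 2 s).const_mul _]
  have key := intervalIntegral.sum_integral_adjacent_intervals (μ := volume) (f := fun l => l⁻¹ * (l⁻¹ * k (s / l)))
    (a := fun j => ε * 2 ^ j) (n := n) fun j _ => by
      rw [intervalIntegrable_iff_integrableOn_Ioc_of_le (by gcongr; exacts [one_le_two, Nat.le_succ j])]
      simpa using OKer2_int hk (α := ε * 2 ^ j) (by positivity) one_pos (ε * 2 ^ (j + 1)) s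
  rw [pow_zero, mul_one, intervalIntegral.integral_of_le
    (le_mul_of_one_le_right hε.le (one_le_pow₀ one_le_two))] at key
  rw [Kav, ← key]
  refine Finset.sum_congr rfl fun j _ => ?_
  rw [integral_const_mul, ← intervalIntegral.integral_of_le one_le_two,
    intervalIntegral.mul_integral_comp_mul_left (f := fun l => l⁻¹ * (l⁻¹ * k (s / l))), mul_one, pow_succ, mul_assoc]

theorem bmp_Kav {k : ℝ → ℝ} {M α β : ℝ} (hk : Bmp k 1 M) (hα : 0 < α) (hαβ : α ≤ β) :
    Bmp (Kav k α β) β ((β - α) * (α⁻¹ * (α⁻¹ * M))) := by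
  have := hk.meas
  refine ⟨?_, fun s => ?_, fun s hs => ?_⟩
  · exact (StronglyMeasurable.integral_prod_right' (ν := volume.restrict (Ioc α β))
      (f := fun p : ℝ × ℝ => p.2⁻¹ * (p.2⁻¹ * k (p.1 / p.2))) (Measurable.stronglyMeasurable (by fun_prop))).measurable
  · rw [Kav, ← Real.norm_eq_abs, mul_comm, ← Real.volume_real_Ioc_of_le hαβ]
    exact norm_setIntegral_le_of_norm_le_const measure_Ioc_lt_top fun l hl => OKer2_bd hk hα hl.1.le s
  · refine setIntegral_eq_zero_of_forall_eq_zero fun l hl => ?_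
    have hl0 : 0 < l := hα.trans hl.1
    rw [hk.supp, mul_zero, mul_zero]
    rw [abs_div, abs_of_pos hl0, one_lt_div hl0]
    exact hl.2.trans_lt hs

/-- for `s ≠ 0`, `scale_avg`; `|om k| ≤ M`, `om k r = 2 / r` for `1 ≤ |r|`.  Hence the integrand is at most
`(M/ε) 1_{|s| ≤ ε} + (M/A + 2/a) 1_{|s| ≤ A}`. -/
theorem kav_err {k : ℝ → ℝ} {M ε a A : ℝ} (hk : Bmp k 1 M)
    (h2 : ∀ r : ℝ, 1 ≤ |r| → ∫ x in (0 : ℝ)..r, k x = 2) (hε : 0 < ε) (hεa : ε < a) (haA : a ≤ A)
    (hA : A ≤ 2 * a) :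
    ∫⁻ s, ENNReal.ofReal |Kav k ε A s - 2 * Kt ε a s| ≤ ENNReal.ofReal (4 * M + 8) := by
  have hM := hk.nonneg
  have ha : 0 < a := hε.trans hεa
  have hA0 : 0 < A := ha.trans_le haA
  have far : ∀ α s : ℝ, 0 < α → α < |s| → α⁻¹ * om k (s / α) = 2 * s⁻¹ := fun α s hα h => by
    have hs : s ≠ 0 := abs_pos.1 (hα.trans h)
    rw [om, h2 _ (by rw [abs_div, abs_of_pos hα]; exact ((one_lt_div hα).2 h).le)]
    field_simp
  have near : ∀ α s : ℝ, 0 < α → |α⁻¹ * om k (s / α)| ≤ M / α := fun α s hα => by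
    rw [abs_mul, abs_of_pos (inv_pos.2 hα), inv_mul_eq_div]
    exact div_le_div_of_nonneg_right (abs_om_le hk _) hα.le
  have key : ∀ᵐ s : ℝ, ENNReal.ofReal |Kav k ε A s - 2 * Kt ε a s| ≤
      (Icc (-ε) ε).indicator (fun _ => ENNReal.ofReal (M / ε)) s +
        (Icc (-A) A).indicator (fun _ => ENNReal.ofReal (M / A + 2 / a)) s := by
    filter_upwards [compl_mem_ae_iff.2 (measure_singleton (0 : ℝ))] with s (hs : s ≠ 0)
    rw [Kav, scale_avg hk hε (by linarith) hs, Kt]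
    have n1 := near ε s hε
    have n2 := near A s hA0
    have p1 : 0 ≤ 2 / a := by positivity
    rcases le_or_gt |s| ε with h1 | h1
    · rw [if_neg fun h => absurd h.1 (not_lt.2 h1), indicator_of_mem (mem_Icc.2 (abs_le.1 h1)),
        indicator_of_mem (mem_Icc.2 (abs_le.1 (by linarith))), ← ENNReal.ofReal_add (by positivity) (by positivity),
        mul_zero, sub_zero]
      exact ENNReal.ofReal_le_ofReal ((abs_sub _ _).trans (by linarith))
    refine le_add_left ?_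
    rw [far ε s hε h1]
    rcases le_or_gt |s| A with h3 | h3
    · rw [indicator_of_mem (mem_Icc.2 (abs_le.1 h3))]
      refine ENNReal.ofReal_le_ofReal ?_
      rcases lt_or_ge |s| a with h4 | h4
      · rw [if_pos ⟨h1, h4⟩, sub_sub_cancel_left, abs_neg]
        linarith
      · rw [if_neg fun h => absurd h.2 (not_lt.2 h4), mul_zero, sub_zero]
        have : |2 * s⁻¹| ≤ 2 / a := by
          rw [abs_mul, abs_two, abs_inv, div_eq_mul_inv]
          exact mul_le_mul_of_nonneg_left (inv_anti₀ ha h4) zero_le_two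
        exact (abs_sub _ _).trans (by linarith)
    · rw [far A s hA0 h3, if_neg fun h => absurd h.2 (not_lt.2 (by linarith))]
      simp
  refine (lintegral_mono_ae key).trans ?_
  rw [lintegral_add_left (measurable_const.indicator measurableSet_Icc), lintegral_indicator_const measurableSet_Icc,
    lintegral_indicator_const measurableSet_Icc, Real.volume_Icc, Real.volume_Icc, ← ENNReal.ofReal_mul (by positivity),
    ← ENNReal.ofReal_mul (by positivity), ← ENNReal.ofReal_add (mul_nonneg (by positivity) (by linarith))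
      (mul_nonneg (by positivity) (by linarith))]
  refine ENNReal.ofReal_le_ofReal ?_
  have e : M / ε * (ε - -ε) + (M / A + 2 / a) * (A - -A) = 4 * M + 4 * (A / a) := by
    field_simp
    ring
  have : A / a ≤ 2 := (div_le_iff₀ ha).2 hA
  linarith

end Crest.Agent.R87
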