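import Crest.Agent.R87.OLip1

/-! Row 87, outer reduction: bi-Lipschitz changes of variables on the line. -/

set_option autoImplicit false

namespace Crest.Agent.R87

open MeasureTheory Set
open scoped ENNReal

theorem Pert.lintegral_comp_le {e : ℝ} {φ : ℝ → ℝ} (h : Pert e φ) {F : ℝ → ℝ≥0∞}
    (hF : Measurable F) : ∫⁻ y, F (φ y) ≤ 2 * ∫⁻ w, F w := by
  obtain ⟨J, hJ, hJ1, hd⟩ := h.exists_density
  rw [← lintegral_map hF h.continuous.measurable, hd, lintegral_withDensity_eq_lintegral_mul _ hJ.ennreal_ofReal hF,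
    ← lintegral_const_mul _ hF]
  refine lintegral_mono fun w => ?_
  refine mul_le_mul_left ?_ _
  have h1 := (abs_le.mp (hJ1 w)).2
  have h2 := h.half
  rw [← ENNReal.ofReal_ofNat]
  exact ENNReal.ofReal_le_ofReal (by linarith)

theorem Pert.N2_comp_le {e : ℝ} {φ : ℝ → ℝ} (h : Pert e φ) {F : ℝ → ℝ} (hF : Measurable F) :
    N2 (fun y => F (φ y)) ≤ 2 * N2 F :=
  h.lintegral_comp_le (F := fun w => ENNReal.ofReal (F w ^ 2)) (hF.pow_const 2).ennreal_ofReal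

theorem Pert.cc_comp {e : ℝ} {φ : ℝ → ℝ} (h : Pert e φ) {F : ℝ → ℝ} (hF : Cc F) :
    Cc (fun y => F (φ y)) :=
  ⟨hF.cont.comp h.continuous,
    hF.cpt.comp_isClosedEmbedding ((OLip1_anti h).isClosedEmbedding (OLip1_lip h).uniformContinuous)⟩

theorem Fld.pert {κ : ℝ} {u : ℝ × ℝ → ℝ} (hu : Fld κ u) (x : ℝ) {s : ℝ} (hs : κ * |s| ≤ 1 / 2) :
    Pert (κ * |s|) (fun y => y - s * u (x, y)) := by
  refine ⟨mul_nonneg hu.nonneg (abs_nonneg _), hs, fun y y' => ?_⟩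
  have e : y - s * u (x, y) - (y' - s * u (x, y')) - (y - y') = -(s * (u (x, y) - u (x, y'))) := by ring
  rw [e, abs_neg, abs_mul, mul_comm κ, mul_assoc]
  exact mul_le_mul_of_nonneg_left (hu.lip x y y') (abs_nonneg _)

/-- `N2_prod`, `Pert.N2_comp_le`, translation in `x` -/
theorem Fld.N2_shift_le {κ : ℝ} {u : ℝ × ℝ → ℝ} (hu : Fld κ u) {s : ℝ} (hs : κ * |s| ≤ 1 / 2)
    {f : ℝ × ℝ → ℝ} (hf : Measurable f) :
    N2 (fun z : ℝ × ℝ => f (z.1 - s, z.2 - s * u z)) ≤ 2 * N2 f := by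
  have hm := hu.cont.measurable
  rw [N2_prod (f := fun z : ℝ × ℝ => f (z.1 - s, z.2 - s * u z)) (hf.comp (by fun_prop)), N2_prod hf,
    ← lintegral_sub_right_eq_self (fun x => N2 fun y => f (x, y)) s, ← lintegral_const_mul' _ _ (by norm_num)]
  exact lintegral_mono fun x =>
    (hu.pert x hs).N2_comp_le (F := fun y => f (x - s, y)) (hf.comp measurable_prodMk_left)

/-- integrable kernels: `sq_integral_le`, Tonelli, `Fld.N2_shift_le` -/
theorem N2_lop_le {κ : ℝ} {u : ℝ × ℝ → ℝ} (hu : Fld κ u) {K : ℝ → ℝ} (hK : Measurable K)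
    (hKs : ∀ s, K s ≠ 0 → κ * |s| ≤ 1 / 2) {f : ℝ × ℝ → ℝ} (hf : Measurable f) :
    N2 (lop K u f) ≤ 2 * (∫⁻ s, ENNReal.ofReal |K s|) ^ 2 * N2 f := by
  have hm := hu.cont.measurable
  have hKa : Measurable fun s => ENNReal.ofReal |K s| := hK.abs.ennreal_ofReal
  have hj : Measurable fun p : (ℝ × ℝ) × ℝ =>
      ENNReal.ofReal |K p.2| * ENNReal.ofReal (f (p.1.1 - p.2, p.1.2 - p.2 * u p.1) ^ 2) :=
    (hKa.comp measurable_snd).mul ((hf.comp (by fun_prop)).pow_const 2).ennreal_ofReal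
  calc N2 (lop K u f) ≤ ∫⁻ z : ℝ × ℝ, (∫⁻ s, ENNReal.ofReal |K s|) *
        ∫⁻ s, ENNReal.ofReal |K s| * ENNReal.ofReal (f (z.1 - s, z.2 - s * u z) ^ 2) :=
        lintegral_mono fun z => sq_integral_le volume hK.aemeasurable (hf.comp (by fun_prop)).aemeasurable
    _ = (∫⁻ s, ENNReal.ofReal |K s|) * ∫⁻ s, ∫⁻ z : ℝ × ℝ,
        ENNReal.ofReal |K s| * ENNReal.ofReal (f (z.1 - s, z.2 - s * u z) ^ 2) := by
        rw [lintegral_const_mul _ hj.lintegral_prod_right', lintegral_lintegral_swap hj.aemeasurable]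
    _ ≤ (∫⁻ s, ENNReal.ofReal |K s|) * ∫⁻ s, ENNReal.ofReal |K s| * (2 * N2 f) := by
        refine mul_le_mul_right (lintegral_mono fun s => ?_) _
        rw [lintegral_const_mul' _ _ ENNReal.ofReal_ne_top]
        by_cases h0 : K s = 0
        · simp [h0]
        · exact mul_le_mul_right (hu.N2_shift_le (hKs s h0) hf) _
    _ = _ := by
        rw [lintegral_mul_const _ hKa]
        ring

end Crest.Agent.R87
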