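import Crest.Agent.R87.OBas

/-! Row 87, outer reduction: bi-Lipschitz changes of variables on the line. -/

set_option autoImplicit false

namespace Crest.Agent.R87

open MeasureTheory Set
open scoped ENNReal

theorem OLip1_le {e : ℝ} {φ : ℝ → ℝ} (h : Pert e φ) (y y' : ℝ) :
    (1 - e) * |y - y'| ≤ |φ y - φ y'| ∧ |φ y - φ y'| ≤ (1 + e) * |y - y'| := by
  have h1 := h.lip y y'
  have h2 := abs_sub_abs_le_abs_sub (φ y - φ y') (y - y')
  have h3 := abs_sub_abs_le_abs_sub (y - y') (φ y - φ y')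
  rw [abs_sub_comm (y - y')] at h3
  constructor <;> linarith

theorem OLip1_lip {e : ℝ} {φ : ℝ → ℝ} (h : Pert e φ) : LipschitzWith (1 + e).toNNReal φ :=
  LipschitzWith.of_dist_le' fun y y' => (OLip1_le h y y').2

theorem OLip1_anti {e : ℝ} {φ : ℝ → ℝ} (h : Pert e φ) : AntilipschitzWith (1 - e)⁻¹.toNNReal φ := by
  have h0 : 0 < 1 - e := by linarith [h.half]
  refine AntilipschitzWith.of_le_mul_dist fun y y' => ?_
  rw [Real.coe_toNNReal _ (inv_pos.mpr h0).le, Real.dist_eq, Real.dist_eq, ← div_eq_inv_mul, le_div_iff₀ h0,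
    mul_comm]
  exact (OLip1_le h y y').1

theorem Pert.continuous {e : ℝ} {φ : ℝ → ℝ} (h : Pert e φ) : Continuous φ :=
  (OLip1_lip h).continuous

theorem Pert.le {e : ℝ} {φ : ℝ → ℝ} (h : Pert e φ) (y y' : ℝ) :
    (1 - e) * |y - y'| ≤ |φ y - φ y'| ∧ |φ y - φ y'| ≤ (1 + e) * |y - y'| :=
  OLip1_le h y y'

/-- `φ` is continuous and tends to `±∞` at `±∞` (`Continuous.surjective`) -/
theorem Pert.surjective {e : ℝ} {φ : ℝ → ℝ} (h : Pert e φ) : Function.Surjective φ := by
  have h1 := h.half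
  refine h.continuous.surjective ?_ ?_
  · refine Filter.tendsto_atTop_mono' _ (f₁ := fun y => 1 / 2 * y + φ 0) ?_
      (Filter.tendsto_atTop_add_const_right _ _ (Filter.tendsto_id.const_mul_atTop (by norm_num)))
    filter_upwards [Filter.eventually_ge_atTop 0] with y hy
    have h2 := (abs_le.mp (h.lip y 0)).1
    rw [sub_zero, abs_of_nonneg hy] at h2
    nlinarith
  · refine Filter.tendsto_atBot_mono' _ (f₂ := φ) (f₁ := fun y => 1 / 2 * y + φ 0) ?_
      (Filter.tendsto_atBot_add_const_right _ _ (Filter.tendsto_id.const_mul_atBot (by norm_num : (0 : ℝ) < 1 / 2)))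
    filter_upwards [Filter.eventually_le_atBot 0] with y hy
    have h2 := (abs_le.mp (h.lip y 0)).2
    rw [sub_zero, abs_of_nonpos hy] at h2
    nlinarith

/-- `LipschitzWith.hausdorffMeasure_image_le`, `AntilipschitzWith.hausdorffMeasure_preimage_le` with `d = 1`,
`hausdorffMeasure_real`, `φ '' (φ ⁻¹' S) = S` -/
theorem Pert.volume_preimage {e : ℝ} {φ : ℝ → ℝ} (h : Pert e φ) (S : Set ℝ) :
    ENNReal.ofReal (1 - e) * volume (φ ⁻¹' S) ≤ volume S ∧
      volume S ≤ ENNReal.ofReal (1 + e) * volume (φ ⁻¹' S) := by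
  have h0 : 0 < 1 - e := by linarith [h.half]
  constructor
  · have h1 := (OLip1_anti h).hausdorffMeasure_preimage_le zero_le_one S
    rw [hausdorffMeasure_real, ENNReal.rpow_one] at h1
    refine (mul_le_mul_right h1 _).trans_eq ?_
    change ENNReal.ofReal (1 - e) * (ENNReal.ofReal (1 - e)⁻¹ * volume S) = _
    rw [← mul_assoc, ← ENNReal.ofReal_mul h0.le, mul_inv_cancel₀ h0.ne', ENNReal.ofReal_one, one_mul]
  · have h1 := (OLip1_lip h).hausdorffMeasure_image_le zero_le_one (φ ⁻¹' S)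
    rwa [hausdorffMeasure_real, ENNReal.rpow_one, image_preimage_eq _ h.surjective] at h1

/-- Radon-Nikodym: `μ = map φ volume ≤ (1 - e)⁻¹ • volume` is σ-finite (finite on compact sets) and absolutely
continuous; `ρ = μ.rnDeriv volume` satisfies `(1 + e)⁻¹ ≤ ρ ≤ (1 - e)⁻¹` a.e.
(`ae_le_of_forall_setLIntegral_le_of_sigmaFinite`); `J = clamp of ρ.toReal to [1 - 2 e, 1 + 2 e]`. -/
theorem Pert.exists_density {e : ℝ} {φ : ℝ → ℝ} (h : Pert e φ) :
    ∃ J : ℝ → ℝ, Measurable J ∧ (∀ w, |J w - 1| ≤ 2 * e) ∧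
      Measure.map φ volume = volume.withDensity (fun w => ENNReal.ofReal (J w)) := by
  have he0 := h.nonneg
  have he1 := h.half
  have hm := h.continuous.measurable
  have hup : ∀ S, MeasurableSet S → Measure.map φ volume S ≤ ENNReal.ofReal (1 + 2 * e) * volume S := by
    intro S hS
    rw [Measure.map_apply hm hS]
    refine le_trans ?_ (mul_le_mul_right (h.volume_preimage S).1 _)
    rw [← mul_assoc, ← ENNReal.ofReal_mul (by linarith)]
    exact le_mul_of_one_le_left' (ENNReal.one_le_ofReal.mpr (by nlinarith))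
  have hlo : ∀ S, MeasurableSet S → ENNReal.ofReal (1 - 2 * e) * volume S ≤ Measure.map φ volume S := by
    intro S hS
    rw [Measure.map_apply hm hS]
    refine (mul_le_mul_right (h.volume_preimage S).2 _).trans ?_
    rw [← mul_assoc, ← ENNReal.ofReal_mul (by linarith)]
    exact mul_le_of_le_one_left' (ENNReal.ofReal_le_one.mpr (by nlinarith))
  have hac : Measure.map φ volume ≪ volume :=
    Measure.absolutelyContinuous_of_le_smul (c := ENNReal.ofReal (1 + 2 * e)) (Measure.le_iff.mpr hup)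
  set ρ := (Measure.map φ volume).rnDeriv volume with hρ
  have hρm : Measurable ρ := Measure.measurable_rnDeriv _ _
  have a1 : ρ ≤ᵐ[volume] fun _ => ENNReal.ofReal (1 + 2 * e) := by
    refine ae_le_of_forall_setLIntegral_le_of_sigmaFinite hρm fun S hS _ => ?_
    rw [Measure.setLIntegral_rnDeriv hac, setLIntegral_const]
    exact hup S hS
  have a2 : (fun _ => ENNReal.ofReal (1 - 2 * e)) ≤ᵐ[volume] ρ := by
    refine ae_le_of_forall_setLIntegral_le_of_sigmaFinite measurable_const fun S hS _ => ?_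
    rw [Measure.setLIntegral_rnDeriv hac, setLIntegral_const]
    exact hlo S hS
  refine ⟨fun w => max (1 - 2 * e) (min (1 + 2 * e) (ρ w).toReal),
    measurable_const.max (measurable_const.min hρm.ennreal_toReal), fun w => ?_, ?_⟩
  · have b1 := le_max_left (1 - 2 * e) (min (1 + 2 * e) (ρ w).toReal)
    have b2 : max (1 - 2 * e) (min (1 + 2 * e) (ρ w).toReal) ≤ 1 + 2 * e :=
      max_le (by linarith) (min_le_left _ _)
    rw [abs_le]
    constructor <;> linarith
  · rw [← Measure.withDensity_rnDeriv_eq _ _ hac]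
    refine withDensity_congr_ae ?_
    filter_upwards [a1, a2] with w h1 h2
    have b0 : ρ w ≠ ∞ := ne_top_of_le_ne_top ENNReal.ofReal_ne_top h1
    have b1 : (ρ w).toReal ≤ 1 + 2 * e := ENNReal.toReal_le_of_le_ofReal (by linarith) h1
    have b2 : 1 - 2 * e ≤ (ρ w).toReal := (ENNReal.ofReal_le_iff_le_toReal b0).mp h2
    rw [min_eq_right b1, max_eq_right b2, ENNReal.ofReal_toReal b0]

/-- `integral_map`, `integral_withDensity_eq_integral_toReal_smul` -/
theorem integral_comp_density {φ J : ℝ → ℝ} (hφ : Measurable φ) (hJ : Measurable J)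
    (hJ0 : ∀ w, 0 ≤ J w)
    (h : Measure.map φ volume = volume.withDensity (fun w => ENNReal.ofReal (J w)))
    {F : ℝ → ℝ} (hF : Measurable F) : ∫ y, F (φ y) = ∫ w, F w * J w := by
  rw [← integral_map hφ.aemeasurable hF.aestronglyMeasurable, h,
    integral_withDensity_eq_integral_toReal_smul hJ.ennreal_ofReal (ae_of_all _ fun _ => ENNReal.ofReal_lt_top)]
  refine integral_congr_ae (ae_of_all _ fun w => ?_)
  simp only [ENNReal.toReal_ofReal (hJ0 w), smul_eq_mul, mul_comm]

end Crest.Agent.R87
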