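import Crest.Agent.R87.OMod2
import Crest.Agent.R87.OBd2
import Crest.Agent.R87.OLip

/-! Row 87, outer reduction: the single band estimate. -/

set_option autoImplicit false

namespace Crest.Agent.R87

open MeasureTheory Set
open scoped ENNReal

theorem o_exists_dyadic {ε a : ℝ} (hε : 0 < ε) (h : ε < a) : ∃ n : ℕ, a ≤ ε * 2 ^ n ∧ ε * 2 ^ n ≤ 2 * a := by
  obtain ⟨n, h1, h2⟩ := exists_nat_pow_near ((one_le_div hε).2 h.le) one_lt_two
  rw [le_div_iff₀ hε] at h1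
  rw [div_lt_iff₀ hε] at h2
  refine ⟨n + 1, by linarith, ?_⟩
  rw [pow_succ]
  linarith

/-- `A = ε 2^n`, `K = Kav (kk b) ε A`, `Kt = (1/2) K + (-1/2) (K - 2 Kt)` (`lop_add`, `lop_const_mul`,
`N2_add_le`); `N2_le_of_bd` with `Model.dl`; `N2_lop_le` with `kav_err` (support in `|s| ≤ 2a`), `N2_cvY_le` -/
theorem SB_of_model {b ψ : ℝ → ℝ} {C : ℝ} (h : Model b ψ C) (hC : 0 ≤ C) (hb : IsB b) (hψ : IsPsi ψ)
    (h2 : ∀ r : ℝ, 1 ≤ |r| → ∫ x in (0 : ℝ)..r, kk b x = 2) :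
    ∃ C' : ℝ≥0∞, C' < ∞ ∧ SB (fun r => ψ (-r)) 1 (1 / 400) C' := by
  obtain ⟨M, hM⟩ := hb.bmp_kk
  obtain ⟨M', hM'⟩ := hψ.bmp
  refine ⟨2 * ENNReal.ofReal ((2 * C) ^ 2) +
    2 * (2 * ENNReal.ofReal (4 * M + 8) ^ 2 * ENNReal.ofReal (2 * 1 * M') ^ 2), by finiteness,
    fun κ u hu ε a hε hεa hκ f hf => ?_⟩
  obtain ⟨n, h3, h4⟩ := o_exists_dyadic hε hεa
  have hκA : κ * (ε * 2 ^ n) ≤ 1 / 200 := by nlinarith [hu.nonneg]
  have hK := bmp_Kav hM hε (hεa.le.trans h3)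
  have hT := bmp_Kt (a := a) hε
  have hT2 : Bmp (fun s => 2 * Kt ε a s) a (2 * ε⁻¹) :=
    ⟨hT.meas.const_mul 2, fun s => by rw [abs_mul, abs_two]; linarith [hT.bd s],
      fun s hs => by rw [hT.supp s hs, mul_zero]⟩
  have hE : Bmp (fun s => Kav (kk b) ε (ε * 2 ^ n) s - 2 * Kt ε a s) (ε * 2 ^ n) (_ + _) :=
    ⟨hK.meas.sub hT2.meas, fun s => (abs_sub _ _).trans (add_le_add (hK.bd s) (hT2.bd s)),
      fun s hs => by rw [hK.supp s hs, hT.supp s (h3.trans_lt hs), mul_zero, sub_zero]⟩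
  have hF := hf.cvY hM'.neg one_pos
  have e1 := N2_le_of_bd hK hM' hu (h.dl hC hb hψ hu hε (n := n) (by linarith)) hf
  have e2 : N2 (fun z => -lop (fun s => Kav (kk b) ε (ε * 2 ^ n) s - 2 * Kt ε a s) u (cvY (fun r => ψ (-r)) 1 f) z) ≤
      2 * ENNReal.ofReal (4 * M + 8) ^ 2 * ENNReal.ofReal (2 * 1 * M') ^ 2 * N2 f := by
    refine (N2_congr_abs fun _ => abs_neg _).trans_le ((N2_lop_le hu hE.meas (fun s hs => ?_)
      hF.cont.measurable).trans ?_)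
    · have := mul_le_mul_of_nonneg_left (not_lt.1 fun h => hs (hE.supp s h)) hu.nonneg
      linarith
    · rw [mul_assoc (2 * _)]
      refine mul_le_mul' ?_ ((N2_cvY_le hM'.neg.meas hf.cont.measurable one_pos).trans ?_)
      · gcongr
        exact kav_err hM h2 hε hεa h3 h4
      · gcongr
        exact hM'.neg.lintegral_le
  refine (N2_mono fun z => ?_).trans ((N2_add_le (measurable_lop hK.meas hu.cont.measurable
    hF.cont.measurable)).trans ((add_le_add (mul_le_mul_right e1 2) (mul_le_mul_right e2 2)).trans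
      (le_of_eq (by ring))))
  have e3 := lop_add hE hT2 hu hF z
  simp only [sub_add_cancel, lop_const_mul] at e3
  rw [show lop (Kav (kk b) ε (ε * 2 ^ n)) u (cvY (fun r => ψ (-r)) 1 f) z = _ from e3, add_neg_cancel_comm, abs_mul,
    abs_two]
  linarith [abs_nonneg (lop (Kt ε a) u (cvY (fun r => ψ (-r)) 1 f) z)]

end Crest.Agent.R87
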