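import Crest.Agent.R87.ORes
import Crest.Agent.R87.OKer1
import Crest.Agent.R87.Api2

/-! Row 87, outer reduction: the `L²` bound for the model operator. -/

set_option autoImplicit false

namespace Crest.Agent.R87

open MeasureTheory Set
open scoped ENNReal

theorem OMod1_bd {b ψ : ℝ → ℝ} (hb : IsB b) (hψ : IsPsi ψ) (u : P2 → ℝ) :
    ∃ M, ∀ k z z', |ker b ψ u k z z'| ≤ M := by
  obtain ⟨M1, h1⟩ := hb.bmp
  obtain ⟨M2, h2⟩ := hψ.bmp
  have h0 : 0 ≤ M1 := (abs_nonneg _).trans (h1.bd 0)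
  refine ⟨M1 * M2, fun k z z' => ?_⟩
  rw [ker, abs_mul, abs_mul, abs_mul, abs_haar, mul_one]
  refine mul_le_mul ((mul_le_of_le_one_left (abs_nonneg _) ?_).trans (h1.bd _)) (h2.bd _)
    (abs_nonneg _) h0
  rw [abs_of_nonneg (by positivity)]
  exact inv_le_one_of_one_le₀ (one_le_pow₀ one_le_two)

/-- `measurable_ker`, `abs_haar`, `IsB.bmp`, `IsPsi.bmp` -/
theorem mb_sum_ker {b ψ : ℝ → ℝ} (hb : IsB b) (hψ : IsPsi ψ) {u : P2 → ℝ} (hu : Measurable u)
    (I : Finset ℕ) : MB fun p : P2 × P2 => ∑ k ∈ I, ker b ψ u k p.1 p.2 := by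
  obtain ⟨M, hM⟩ := OMod1_bd hb hψ u
  exact ⟨Finset.measurable_sum _ fun k _ => measurable_ker hb hψ hu k, I.card • M, fun p =>
    (Finset.abs_sum_le_sum_abs _ _).trans (Finset.sum_le_card_nsmul _ _ _ fun k _ => hM k _ _)⟩

theorem field_mono {u : P2 → ℝ} {n m : ℕ} (h : Field u n) (hm : m ≤ n) : Field u m := by
  refine ⟨h.meas, h.bdd, fun x y y' => (h.lip x y y').trans ?_⟩
  have : (2 : ℝ) ^ m ≤ 2 ^ n := pow_le_pow_right₀ one_le_two hm
  gcongr

/-- Fubini: `∫_{G' × F} g k f = ∫ z' in F, PhiR z' * f z'` (`Measure.prod_restrict`, `integral_prod_symm`,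
`integrableOn_bil`, `integral_finset_sum`, `Nat.range_succ_eq_Icc_zero`); `enorm_integral_le_lintegral_enorm` -/
theorem abs_setIntegral_ker_le {b ψ : ℝ → ℝ} (hb : IsB b) (hψ : IsPsi ψ) {u : P2 → ℝ} (hu : Measurable u)
    (n : ℕ) {G' F : Set P2} (hGm : MeasurableSet G') (hFm : MeasurableSet F) (hG' : volume G' ≠ ∞)
    (hF : volume F ≠ ∞) {g f : P2 → ℝ} (hg : Coef g)
    (hf : Coef f) {B : ℝ} (hB : 0 ≤ B)
    (h : ∫⁻ z' in F, ENNReal.ofReal |PhiR b ψ u 0 n (fun _ => G') g z'| ≤ ENNReal.ofReal B) :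
    |∫ p in G' ×ˢ F, g p.1 * (∑ k ∈ Finset.range (n + 1), ker b ψ u k p.1 p.2) * f p.2| ≤ B := by
  obtain ⟨M, hM⟩ := OMod1_bd hb hψ u
  have hi := integrableOn_bil (mb_sum_ker hb hψ hu (Finset.range (n + 1))) ⟨hg.meas, 1, hg.bdd⟩
    ⟨hf.meas, 1, hf.bdd⟩ hG' hF
  rw [IntegrableOn, Measure.volume_eq_prod, ← Measure.prod_restrict] at hi
  have e : ∀ y, ∫ x in G', g x * (∑ k ∈ Finset.range (n + 1), ker b ψ u k x y) * f y =
      PhiR b ψ u 0 n (fun _ => G') g y * f y := fun y => by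
    rw [integral_mul_const, PhiR, ← Nat.range_succ_eq_Icc_zero]
    simp only [Finset.mul_sum, Phi1]
    rw [integral_finsetSum _ fun k _ => ?_]
    refine Measure.integrableOn_of_bounded hG' (hg.meas.mul ((measurable_ker hb hψ hu k).comp
      (measurable_id.prodMk measurable_const))).aestronglyMeasurable (M := M) (.of_forall fun x => ?_)
    rw [Real.norm_eq_abs, abs_mul]
    exact (mul_le_of_le_one_left (abs_nonneg _) (hg.bdd x)).trans (hM _ _ _)
  rw [Measure.volume_eq_prod, ← Measure.prod_restrict, integral_prod_symm _ hi]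
  simp only [e]
  rw [← ENNReal.ofReal_le_ofReal_iff hB, ← Real.enorm_eq_ofReal_abs]
  refine (enorm_integral_le_lintegral_enorm _).trans (le_trans (lintegral_mono fun y => ?_) h)
  rw [Real.enorm_eq_ofReal_abs, abs_mul]
  exact ENNReal.ofReal_le_ofReal (mul_le_of_le_one_right (abs_nonneg _) (hf.bdd y))

/-- replace the constant `C` of `CoreStmt` by `|C|`; `bd_of_rw`; `n = 0` is the zero kernel, for `n = m + 1` use
`kmax = m` -/
theorem model_of_core (h : CoreStmt) : ∃ M : ℕ, ∀ b Ψ : ℝ → ℝ, IsB b → IsPsi Ψ →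
    IsPsi (iteratedDeriv M Ψ) → ∃ C : ℝ, 0 ≤ C ∧ Model b (iteratedDeriv M Ψ) C := by
  obtain ⟨M, h⟩ := h
  refine ⟨M, fun b Ψ hb hΨ hψ => ?_⟩
  obtain ⟨C, c, hc, hc', h⟩ := h b Ψ hb hΨ
  obtain ⟨D, hD, hbd⟩ := bd_of_rw hc hc'
  refine ⟨D * |C|, by positivity, fun n u hu => ?_⟩
  rcases n with _ | n
  · intro g f _ _
    simp only [bil, Finset.range_zero, Finset.sum_empty, mul_zero, zero_mul, integral_zero, abs_zero]
    positivity
  refine hbd _ _ (mb_sum_ker hb hψ hu.meas _) (abs_nonneg _) fun S hS => ⟨fun G hG hGS => ?_,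
    fun G hG hGS => ?_⟩
  all_goals
    obtain ⟨G', h1, h2, h3, h4⟩ := h n u (field_mono hu n.le_succ) G hG (hS.subset hGS)
    refine ⟨G', h1, h2, h3, fun F hF hF' g f gm fm gb fb => abs_setIntegral_ker_le hb hψ hu.meas n
      h2 hF ((hS.subset (h1.trans hGS)).measure_lt_top).ne hF' ⟨gm, gb⟩ ⟨fm, fb⟩ (by positivity) ?_⟩
  · refine (h4 F hF hF' g ⟨gm, gb⟩).1.trans (ENNReal.ofReal_le_ofReal ?_)
    gcongr
    exact le_abs_self C
  · refine (h4 F hF hF' g ⟨gm, gb⟩).2.trans (ENNReal.ofReal_le_ofReal ?_)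
    gcongr
    exact le_abs_self C

end Crest.Agent.R87
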