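import Crest.Agent.R87.OMod1
import Crest.Agent.R87.OBd
import Crest.Agent.R87.OKer2

/-! Row 87, outer reduction: averaging the model bound. -/

set_option autoImplicit false

namespace Crest.Agent.R87

open MeasureTheory Set
open scoped ENNReal

/-- `Finset.sum_range_add`, `Bd.sub`, `field_mono` -/
theorem Model.block {b ψ : ℝ → ℝ} {C : ℝ} (h : Model b ψ C) (hb : IsB b) (hψ : IsPsi ψ) {u : P2 → ℝ}
    {k0 n : ℕ} (hu : Field u (k0 + n)) :
    Bd (fun p => ∑ j ∈ Finset.range n, ker b ψ u (k0 + j) p.1 p.2) (2 * C) := by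
  have h1 := Bd.sub (mb_sum_ker hb hψ hu.meas (Finset.range (k0 + n)))
    (mb_sum_ker hb hψ hu.meas (Finset.range k0)) (h (k0 + n) u hu)
    (h k0 u (field_mono hu (Nat.le_add_right _ _)))
  rw [two_mul]
  convert h1 using 2 with p
  rw [Finset.sum_range_add, add_sub_cancel_left]

/-- `Bd.aff` applied to `Model.block` for the field `u' z = σ * u (σ * (z.1 + θ), z.2)` -/
theorem Model.af {b ψ : ℝ → ℝ} {C : ℝ} (h : Model b ψ C) (hb : IsB b) (hψ : IsPsi ψ) {κ m σ : ℝ}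
    {u : P2 → ℝ} (hu : Fld κ u) (hm : ∀ z, |u z| ≤ m) (hσ : 0 < σ) (hσm : σ * m ≤ 4) {k0 n : ℕ}
    (hκ : σ * κ * (100 * 2 ^ (k0 + n)) ≤ 1) (θ : ℝ) :
    Bd (lker (fun x x' => ∑ j ∈ Finset.range n, hk b σ θ (k0 + j) x x') ψ u) (2 * C) := by
  have hf : Field (fun z : P2 => σ * u (σ * (z.1 + θ), z.2)) (k0 + n) := by
    refine ⟨?_, fun z => ?_, fun x y y' => ?_⟩
    · have := hu.cont.measurable
      fun_prop
    · rw [abs_mul, abs_of_pos hσ]
      exact (mul_le_mul_of_nonneg_left (hm _) hσ.le).trans hσm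
    · dsimp only
      rw [← mul_sub, abs_mul, abs_of_pos hσ, le_div_iff₀ (by positivity)]
      calc σ * |u (σ * (x + θ), y) - u (σ * (x + θ), y')| * (100 * 2 ^ (k0 + n))
          ≤ σ * (κ * |y - y'|) * (100 * 2 ^ (k0 + n)) := by
            gcongr
            exact hu.lip _ _ _
        _ = σ * κ * (100 * 2 ^ (k0 + n)) * |y - y'| := by ring
        _ ≤ |y - y'| := mul_le_of_le_one_left (abs_nonneg _) hκ
  have h1 := (h.block hb hψ hf).aff hσ θ
  convert h1 using 2 with p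
  obtain ⟨⟨x, y⟩, x', y'⟩ := p
  unfold lker hk ker
  dsimp only
  rw [Finset.sum_mul, Finset.mul_sum]
  refine Finset.sum_congr rfl fun j _ => ?_
  have e1 : σ * (x / σ - θ + θ) = x := by
    rw [sub_add_cancel, mul_div_cancel₀ _ hσ.ne']
  have e2 : (x / σ - θ - (x' / σ - θ)) * (σ * u (x, y)) = (x - x') * u (x, y) := by
    field_simp
    ring
  rw [e1, e2, mul_inv]
  ring

/-- `Bd.avg` over `θ ∈ Ioc 0 (2^(k0+n))`, `Bd.const_mul` with `(2^(k0+n))⁻¹`, `avg_trans` -/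
theorem Model.tr {b ψ : ℝ → ℝ} {C : ℝ} (h : Model b ψ C) (hb : IsB b) (hψ : IsPsi ψ) {κ m σ : ℝ}
    {u : P2 → ℝ} (hu : Fld κ u) (hm : ∀ z, |u z| ≤ m) (hσ : 0 < σ) (hσm : σ * m ≤ 4) {k0 n : ℕ}
    (hκ : σ * κ * (100 * 2 ^ (k0 + n)) ≤ 1) :
    Bd (lker (fun x x' => ∑ j ∈ Finset.range n,
      (σ * 2 ^ (k0 + j))⁻¹ * kk b ((x - x') / (σ * 2 ^ (k0 + j)))) ψ u) (2 * C) := by
  obtain ⟨M, hM⟩ := hb.bmp
  obtain ⟨Mψ, hMψ⟩ := hψ.bmp
  have hM0 : 0 ≤ M := (abs_nonneg _).trans (hM.bd 0)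
  have hN : (0 : ℝ) < 2 ^ (k0 + n) := by positivity
  have hmu := hu.cont.measurable
  have hmψ := hMψ.meas
  have h1 := (Bd.avg (α := 0) (β := 2 ^ (k0 + n)) hN.le
    (k := fun θ => lker (fun x x' => ∑ j ∈ Finset.range n, hk b σ θ (k0 + j) x x') ψ u) (by
      unfold lker
      refine Measurable.mul (Finset.measurable_fun_sum _ fun j _ => ?_) (by fun_prop)
      exact (measurable_hk hM.meas (k0 + j)).comp
        (f := fun q : ℝ × P2 × P2 => (σ, q.1, q.2.1.1, q.2.2.1)) (by fun_prop))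
    ⟨n * (σ⁻¹ * M) * Mψ, fun θ _ p => by
      unfold lker
      rw [abs_mul]
      refine mul_le_mul ((Finset.abs_sum_le_sum_abs _ _).trans ?_) (hMψ.bd _) (abs_nonneg _)
        (by positivity)
      refine (Finset.sum_le_sum fun j _ => abs_hk_le hM.bd hσ θ _ _ _).trans ?_
      simp⟩
    (fun θ _ => h.af hb hψ hu hm hσ hσm hκ θ)).const_mul (2 ^ (k0 + n))⁻¹
  rw [sub_zero, abs_of_pos (inv_pos.2 hN), ← mul_assoc, inv_mul_cancel₀ hN.ne', one_mul] at h1
  convert h1 using 2 with p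
  unfold lker
  dsimp only
  rw [integral_mul_const, integral_finsetSum, ← mul_assoc, Finset.mul_sum]
  · congr 1
    refine Finset.sum_congr rfl fun j hj => ?_
    rw [avg_trans hM hσ (Nat.add_le_add_left (Finset.mem_range.1 hj).le k0), ← mul_assoc,
      inv_mul_cancel₀ hN.ne', one_mul]
  · intro j _
    refine Integrable.of_bound (Measurable.aestronglyMeasurable ?_) (σ⁻¹ * M)
      (Filter.Eventually.of_forall fun θ => abs_hk_le hM.bd hσ θ _ _ _)
    exact (measurable_hk hM.meas (k0 + j)).comp (f := fun θ : ℝ => (σ, θ, p.1.1, p.2.1)) (by fun_prop)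

/-- choose `k0` with `2 ε m ≤ 4 * 2^k0` (`m ≥ 0` a bound of `u`), `σ = ε l / 2^k0`, so that
`σ 2^(k0+j) = ε l 2^j`; `Bd.const_mul` with `l⁻¹ ≤ 1`, `Bd.avg` over `l ∈ Ioc 1 2`, `avg_dil` -/
theorem Model.dl {b ψ : ℝ → ℝ} {C : ℝ} (h : Model b ψ C) (hC : 0 ≤ C) (hb : IsB b) (hψ : IsPsi ψ)
    {κ ε : ℝ} {u : P2 → ℝ} (hu : Fld κ u) (hε : 0 < ε) {n : ℕ} (hκ : 200 * (κ * (ε * 2 ^ n)) ≤ 1) :
    Bd (lker (fun x x' => Kav (kk b) ε (ε * 2 ^ n) (x - x')) ψ u) (2 * C) := by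
  obtain ⟨M, hM⟩ := hb.bmp_kk
  obtain ⟨Mψ, hMψ⟩ := hψ.bmp
  obtain ⟨m, hm⟩ := hu.bdd
  have hM0 : 0 ≤ M := (abs_nonneg _).trans (hM.bd 0)
  have hm0 : 0 ≤ m := (abs_nonneg _).trans (hm 0)
  have hκ0 := hu.nonneg
  obtain ⟨k0, hk0⟩ := pow_unbounded_of_one_lt (ε * m) (one_lt_two (α := ℝ))
  have hmu := hu.cont.measurable
  have hmψ := hMψ.meas
  have hmk := hM.meas
  have h1 := Bd.avg (α := 1) (β := 2) (C := 2 * C) one_le_two
    (k := fun l p => l⁻¹ * lker (fun x x' => ∑ j ∈ Finset.range n,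
      (ε * l * 2 ^ j)⁻¹ * kk b ((x - x') / (ε * l * 2 ^ j))) ψ u p) (by
      unfold lker
      refine Measurable.mul (by fun_prop)
        (Measurable.mul (Finset.measurable_fun_sum _ fun j _ => ?_) (by fun_prop))
      fun_prop)
    ⟨n * (ε⁻¹ * M) * Mψ, fun l hl p => by
      have hl0 : 0 < l := zero_lt_one.trans hl.1
      unfold lker
      rw [abs_mul, abs_mul, abs_of_pos (inv_pos.2 hl0)]
      refine (mul_le_of_le_one_left (by positivity) (inv_le_one_of_one_le₀ hl.1.le)).trans ?_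
      refine mul_le_mul ((Finset.abs_sum_le_sum_abs _ _).trans ?_) (hMψ.bd _) (abs_nonneg _)
        (by positivity)
      refine (Finset.sum_le_sum (g := fun _ => ε⁻¹ * M) fun j _ => ?_).trans (by simp)
      rw [abs_mul, abs_of_pos (by positivity)]
      refine mul_le_mul (inv_anti₀ hε ?_) (hM.bd _) (abs_nonneg _) (by positivity)
      rw [mul_assoc]
      exact le_mul_of_one_le_right hε.le
        (one_le_mul_of_one_le_of_one_le hl.1.le (one_le_pow₀ one_le_two))⟩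
    (fun l hl => by
      have hl0 : 0 < l := zero_lt_one.trans hl.1
      have hσ : 0 < ε * l / 2 ^ k0 := by positivity
      have e : ∀ j : ℕ, ε * l / 2 ^ k0 * 2 ^ (k0 + j) = ε * l * 2 ^ j := fun j => by
        rw [pow_add]
        field_simp
      have h2 := h.tr hb hψ hu hm hσ (k0 := k0) (n := n) (by
        rw [div_mul_eq_mul_div, div_le_iff₀ (by positivity)]
        have : ε * l * m ≤ ε * 2 * m := by gcongr; exact hl.2
        have h3 : (0 : ℝ) < 2 ^ k0 := by positivity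
        linarith) (by
        calc ε * l / 2 ^ k0 * κ * (100 * 2 ^ (k0 + n))
            = 100 * κ * (ε * l / 2 ^ k0 * 2 ^ (k0 + n)) := by ring
          _ = 100 * κ * (ε * l * 2 ^ n) := by rw [e]
          _ ≤ 100 * κ * (ε * 2 * 2 ^ n) := by gcongr; exact hl.2
          _ = 200 * (κ * (ε * 2 ^ n)) := by ring
          _ ≤ 1 := hκ)
      simp only [e] at h2
      refine (h2.const_mul l⁻¹).mono ?_
      rw [abs_of_pos (inv_pos.2 hl0)]
      exact mul_le_of_le_one_left (by positivity) (inv_le_one_of_one_le₀ hl.1.le))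
  rw [show (2 : ℝ) - 1 = 1 by norm_num, one_mul] at h1
  convert h1 using 2 with p
  unfold lker
  dsimp only
  simp only [← mul_assoc]
  rw [integral_mul_const, ← avg_dil hM hε n]

end Crest.Agent.R87
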