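import Crest.Agent.R87.OBas

/-! Row 87, outer reduction: layers of a function, Schur's test. -/

set_option autoImplicit false

namespace Crest.Agent.R87

open MeasureTheory Set
open scoped ENNReal

/-- Let `d l = volume {z | l < |f z|}`, `λ n = sInf {l | 0 ≤ l ∧ d l ≤ ofReal (V / 2^n)}`.  Then `λ 0 = 0`, `λ` is
monotone, `d (λ n) ≤ V / 2^n` (`{λ < |f|} = ⋃ m, {λ + 1/(m+1) < |f|}`, `Monotone.measure_iUnion`).
`F n = {λ n < |f| ≤ λ (n+1)}`, `a n = λ (n+1)`; `support f \ ⋃ F n ⊆ {λ n < |f|}` for every `n`.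
With `E n = {λ n / 2 < |f|}` (decreasing; `volume (E n) > V / 2^n` if `λ n > 0`):
`4 f² ≥ ∑_{n < N} (λ (n+1)² - λ n²) 1_{E (n+1)}` pointwise, so
`4 ∫ f² ≥ ∑_{n < N} (λ (n+1)² - λ n²) V / 2^(n+1) ≥ (1/2) ∑_{n < N} λ (n+1)² V / 2^(n+1)`. -/
theorem exists_layers {X : Type*} [MeasureSpace X] {f : X → ℝ} (hf : Nice f) {V : ℝ} (hV : 0 < V)
    (hs : volume (Function.support f) ≤ ENNReal.ofReal V) :
    ∃ (F : ℕ → Set X) (a : ℕ → ℝ), (∀ n, MeasurableSet (F n)) ∧ Pairwise (Function.onFun Disjoint F) ∧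
      (∀ n, F n ⊆ Function.support f) ∧ (∀ n, volume (F n) ≤ ENNReal.ofReal (V / 2 ^ n)) ∧
      (∀ n, 0 ≤ a n) ∧ (∀ n, ∀ z ∈ F n, |f z| ≤ a n) ∧
      volume (Function.support f \ ⋃ n, F n) = 0 ∧
      ∀ N, ∑ n ∈ Finset.range N, a n ^ 2 * (V / 2 ^ n) ≤ 16 * ∫ z, f z ^ 2 := by
  classical
  obtain ⟨M, hM⟩ := hf.bd
  have hfa : Measurable fun z => |f z| := hf.meas.abs
  have hE : ∀ l : ℝ, MeasurableSet {z | l < |f z|} := fun l => measurableSet_lt measurable_const hfa
  have hanti : ∀ {l l' : ℝ}, l ≤ l' → {z | l' < |f z|} ⊆ {z | l < |f z|} := fun h z hz => h.trans_lt hz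
  have hsupp : ∀ {l : ℝ}, 0 ≤ l → {z | l < |f z|} ⊆ Function.support f := fun h z hz =>
    abs_pos.1 (h.trans_lt hz)
  set S : ℕ → Set ℝ := fun n => {l | 0 ≤ l ∧ volume {z | l < |f z|} ≤ ENNReal.ofReal (V / 2 ^ n)} with hS
  have Sne : ∀ n, (S n).Nonempty := fun n => ⟨max M 0, le_max_right _ _, by
    have : {z | max M 0 < |f z|} = ∅ :=
      eq_empty_of_forall_notMem fun z hz => not_le.2 hz ((hM z).trans (le_max_left _ _))
    rw [this, measure_empty]
    exact zero_le⟩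
  have Sbd : ∀ n, BddBelow (S n) := fun n => ⟨0, fun l hl => hl.1⟩
  obtain ⟨lam, hlam⟩ : ∃ lam : ℕ → ℝ, ∀ n, lam n = sInf (S n) := ⟨_, fun _ => rfl⟩
  have l0 : ∀ n, 0 ≤ lam n := fun n => hlam n ▸ le_csInf (Sne n) fun l hl => hl.1
  have l00 : lam 0 = 0 := by
    refine le_antisymm ?_ (l0 0)
    rw [hlam]
    refine csInf_le (Sbd 0) ⟨le_rfl, (measure_mono (hsupp le_rfl)).trans ?_⟩
    simpa using hs
  have lm : ∀ n, lam n ≤ lam (n + 1) := fun n => by
    rw [hlam, hlam]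
    refine csInf_le_csInf (Sbd n) (Sne _) fun l hl => ⟨hl.1, hl.2.trans (ENNReal.ofReal_le_ofReal ?_)⟩
    exact div_le_div_of_nonneg_left hV.le (by positivity) (pow_le_pow_right₀ one_le_two (Nat.le_succ n))
  have lmono : Monotone lam := monotone_nat_of_le_succ lm
  have d1 : ∀ n, volume {z | lam n < |f z|} ≤ ENNReal.ofReal (V / 2 ^ n) := fun n => by
    have e : {z | lam n < |f z|} = ⋃ m : ℕ, {z | lam n + 1 / ((m : ℝ) + 1) < |f z|} := by
      ext z
      simp only [mem_ofPred_eq, mem_iUnion]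
      constructor
      · intro h
        obtain ⟨m, hm⟩ := exists_nat_one_div_lt (sub_pos.2 h)
        exact ⟨m, by linarith⟩
      · rintro ⟨m, hm⟩
        have : (0 : ℝ) < 1 / ((m : ℝ) + 1) := by positivity
        linarith
    rw [e, Monotone.measure_iUnion fun m m' h => hanti
      (add_le_add le_rfl (Nat.one_div_le_one_div h))]
    refine iSup_le fun m => ?_
    have : sInf (S n) < lam n + 1 / ((m : ℝ) + 1) := by
      rw [← hlam]
      exact lt_add_of_pos_right _ (by positivity)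
    obtain ⟨l, hl, h⟩ := exists_lt_of_csInf_lt (Sne n) this
    exact (measure_mono (hanti h.le)).trans hl.2
  have d2 : ∀ n, 0 < lam n → V / 2 ^ n ≤ volume.real {z | lam n / 2 < |f z|} := fun n h => by
    have h1 : lam n / 2 ∉ S n := fun hm => by
      have := csInf_le (Sbd n) hm
      rw [← hlam] at this
      linarith
    have h2 : ENNReal.ofReal (V / 2 ^ n) ≤ volume {z | lam n / 2 < |f z|} :=
      (not_le.1 fun h3 => h1 ⟨by linarith, h3⟩).le
    exact (ENNReal.ofReal_le_iff_le_toReal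
      ((measure_mono (hsupp (by linarith))).trans_lt hf.fin).ne).1 h2
  refine ⟨fun n => {z | lam n < |f z|} ∩ {z | |f z| ≤ lam (n + 1)}, fun n => lam (n + 1),
    fun n => (hE _).inter (measurableSet_le hfa measurable_const), ?_,
    fun n => inter_subset_left.trans (hsupp (l0 n)), fun n => (measure_mono inter_subset_left).trans (d1 n),
    fun n => l0 _, fun n z hz => hz.2, ?_, fun N => ?_⟩
  · refine (pairwise_disjoint_on _).2 fun m n h => Set.disjoint_left.2 fun z h1 h2 => ?_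
    exact not_le.2 h2.1 (le_trans h1.2 (lmono h))
  · have key : ∀ n, Function.support f \ (⋃ n, {z | lam n < |f z|} ∩ {z | |f z| ≤ lam (n + 1)}) ⊆
        {z | lam n < |f z|} := fun n z hz => by
      induction n with
      | zero =>
        rw [l00]
        exact abs_pos.2 hz.1
      | succ n ih => exact not_le.1 fun h : |f z| ≤ lam (n + 1) => hz.2 (mem_iUnion.2 ⟨n, ih, h⟩)
    have ht : Filter.Tendsto (fun n : ℕ => ENNReal.ofReal (V / 2 ^ n)) Filter.atTop (nhds 0) := by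
      rw [← ENNReal.ofReal_zero]
      exact ENNReal.tendsto_ofReal (tendsto_const_nhds.div_atTop
        (tendsto_pow_atTop_atTop_of_one_lt one_lt_two))
    exact le_antisymm (ge_of_tendsto' ht fun n => (measure_mono (key n)).trans (d1 n)) zero_le
  · have c0 : ∀ n, 0 ≤ lam (n + 1) ^ 2 - lam n ^ 2 := fun n =>
      sub_nonneg.2 (pow_le_pow_left₀ (l0 n) (lm n) 2)
    have pt : ∀ z N, ∑ n ∈ Finset.range N, {z | lam (n + 1) / 2 < |f z|}.indicator
          (fun _ => lam (n + 1) ^ 2 - lam n ^ 2) z ≤ lam N ^ 2 ∧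
        ∑ n ∈ Finset.range N, {z | lam (n + 1) / 2 < |f z|}.indicator
          (fun _ => lam (n + 1) ^ 2 - lam n ^ 2) z ≤ 4 * f z ^ 2 := fun z N => by
      induction N with
      | zero => exact ⟨by simpa using sq_nonneg _, by simpa using sq_nonneg _⟩
      | succ N ih =>
        rw [Finset.sum_range_succ]
        by_cases h : z ∈ {z | lam (N + 1) / 2 < |f z|}
        · rw [indicator_of_mem h]
          have h1 : lam (N + 1) / 2 < |f z| := h
          have h2 := pow_le_pow_left₀ (by linarith [l0 (N + 1)]) h1.le 2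
          rw [sq_abs] at h2
          exact ⟨by linarith [ih.1], by linarith [ih.1]⟩
        · rw [indicator_of_notMem h]
          exact ⟨by linarith [ih.1, c0 N], by linarith [ih.2]⟩
    have hi : ∀ n, Integrable ({z | lam (n + 1) / 2 < |f z|}.indicator
        fun _ => lam (n + 1) ^ 2 - lam n ^ 2) := fun n =>
      (integrableOn_const ((measure_mono (hsupp (by linarith [l0 (n + 1)]))).trans_lt hf.fin).ne).integrable_indicator
        (hE _)
    have h1 := integral_mono (integrable_finsetSum _ fun n _ => hi n) ((OBas1_sq hf).const_mul 4)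
      fun z => (pt z N).2
    rw [integral_finsetSum _ fun n _ => hi n, integral_const_mul] at h1
    have h2 : ∑ n ∈ Finset.range N, (lam (n + 1) ^ 2 - lam n ^ 2) * (V / 2 ^ (n + 1)) ≤ 4 * ∫ z, f z ^ 2 := by
      refine le_trans (Finset.sum_le_sum fun n _ => ?_) h1
      rw [integral_indicator_const _ (hE _), smul_eq_mul, mul_comm]
      rcases (l0 (n + 1)).eq_or_lt with h | h
      · have : lam n = 0 := le_antisymm (h ▸ lm n) (l0 n)
        simp [← h, this]
      · exact mul_le_mul_of_nonneg_right (d2 _ h) (c0 n)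
    have h3 : ∀ N, ∑ n ∈ Finset.range N, lam (n + 1) ^ 2 * (V / 2 ^ n) + 2 * (lam N ^ 2 * (V / 2 ^ N)) =
        4 * ∑ n ∈ Finset.range N, (lam (n + 1) ^ 2 - lam n ^ 2) * (V / 2 ^ (n + 1)) := fun N => by
      induction N with
      | zero => simp [l00]
      | succ N ih =>
        rw [Finset.sum_range_succ, Finset.sum_range_succ, mul_add 4, ← ih, pow_succ (2 : ℝ) N]
        generalize ∑ n ∈ Finset.range N, lam (n + 1) ^ 2 * (V / 2 ^ n) = A
        field_simp
        ring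
    have h4 : 0 ≤ lam N ^ 2 * (V / 2 ^ N) := by positivity
    linarith [h3 N]

/-- `∑_j q^|i - j| ≤ 2 / (1 - q)` (natural subtraction: `i - j + (j - i) = |i - j|`) -/
theorem sum_pow_dist_le {q : ℝ} (h0 : 0 ≤ q) (h1 : q < 1) (N i : ℕ) :
    ∑ j ∈ Finset.range N, q ^ (i - j + (j - i)) ≤ 2 / (1 - q) := by
  have hq : 0 < 1 - q := sub_pos.2 h1
  have geo : ∀ (s : Finset ℕ) (g : ℕ → ℕ), Set.InjOn g s → ∑ j ∈ s, q ^ g j ≤ (1 - q)⁻¹ := fun s g hg => by
    rw [← Finset.sum_image (f := fun k => q ^ k) hg, ← tsum_geometric_of_lt_one h0 h1]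
    exact (summable_geometric_of_lt_one h0 h1).sum_le_tsum _ fun _ _ => by positivity
  rw [← Finset.sum_filter_add_sum_filter_not (Finset.range N) (fun j => j ≤ i), div_eq_mul_inv, two_mul]
  refine add_le_add (geo _ _ fun a ha b hb h => ?_) (geo _ _ fun a ha b hb h => ?_)
  · have a1 := (Finset.mem_filter.1 ha).2
    have b1 := (Finset.mem_filter.1 hb).2
    omega
  · have a1 := (Finset.mem_filter.1 ha).2
    have b1 := (Finset.mem_filter.1 hb).2
    omega

/-- Cauchy-Schwarz on `range N ×ˢ range N` with the weights `q^|i - j|` -/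
theorem schur_fin {q : ℝ} (h0 : 0 ≤ q) (h1 : q < 1) (N : ℕ) (x y : ℕ → ℝ) :
    ∑ i ∈ Finset.range N, ∑ j ∈ Finset.range N, x i * y j * q ^ (i - j + (j - i)) ≤
      2 / (1 - q) * √(∑ i ∈ Finset.range N, x i ^ 2) * √(∑ j ∈ Finset.range N, y j ^ 2) := by
  have hq : 0 < 1 - q := sub_pos.2 h1
  have hK : 0 ≤ 2 / (1 - q) := by positivity
  have w0 : ∀ p : ℕ × ℕ, 0 ≤ q ^ (p.1 - p.2 + (p.2 - p.1)) := fun p => by positivity
  have cs := Real.sum_mul_le_sqrt_mul_sqrt (Finset.range N ×ˢ Finset.range N)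
    (fun p => x p.1 * √(q ^ (p.1 - p.2 + (p.2 - p.1)))) (fun p => y p.2 * √(q ^ (p.1 - p.2 + (p.2 - p.1))))
  simp only [mul_pow, Real.sq_sqrt (w0 _)] at cs
  have e : ∀ p : ℕ × ℕ, x p.1 * √(q ^ (p.1 - p.2 + (p.2 - p.1))) * (y p.2 * √(q ^ (p.1 - p.2 + (p.2 - p.1)))) =
      x p.1 * y p.2 * q ^ (p.1 - p.2 + (p.2 - p.1)) := fun p => by
    rw [mul_mul_mul_comm, Real.mul_self_sqrt (w0 p)]
  simp only [e] at cs
  rw [Finset.sum_product, Finset.sum_product, Finset.sum_product_right] at cs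
  refine cs.trans ?_
  have a : ∑ i ∈ Finset.range N, ∑ j ∈ Finset.range N, x i ^ 2 * q ^ (i - j + (j - i)) ≤
      2 / (1 - q) * ∑ i ∈ Finset.range N, x i ^ 2 := by
    rw [Finset.mul_sum]
    refine Finset.sum_le_sum fun i _ => ?_
    rw [← Finset.mul_sum, mul_comm]
    exact mul_le_mul_of_nonneg_right (sum_pow_dist_le h0 h1 N i) (sq_nonneg _)
  have b : ∑ j ∈ Finset.range N, ∑ i ∈ Finset.range N, y j ^ 2 * q ^ (i - j + (j - i)) ≤
      2 / (1 - q) * ∑ j ∈ Finset.range N, y j ^ 2 := by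
    rw [Finset.mul_sum]
    refine Finset.sum_le_sum fun j _ => ?_
    rw [← Finset.mul_sum, mul_comm]
    refine mul_le_mul_of_nonneg_right (le_of_eq_of_le ?_ (sum_pow_dist_le h0 h1 N j)) (sq_nonneg _)
    exact Finset.sum_congr rfl fun i _ => by rw [add_comm]
  refine (mul_le_mul (Real.sqrt_le_sqrt a) (Real.sqrt_le_sqrt b) (Real.sqrt_nonneg _)
    (Real.sqrt_nonneg _)).trans (le_of_eq ?_)
  rw [Real.sqrt_mul hK, Real.sqrt_mul hK, mul_mul_mul_comm, Real.mul_self_sqrt hK, mul_assoc]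

end Crest.Agent.R87
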