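import Crest.Agent.R87.ORes1
import Crest.Agent.R87.ORes2

/-! Row 87, outer reduction: from restricted estimates to the `L²` bound. -/

set_option autoImplicit false

namespace Crest.Agent.R87

open MeasureTheory Set
open scoped ENNReal

theorem ORes_pow {c y : ℝ} (hy : 0 < y) (n : ℕ) :
    (y / 2 ^ n) ^ (1 / 2 + c) * y ^ (1 / 2 - c) = √(y / 2 ^ n) * √y * ((2 : ℝ) ^ (-c)) ^ n := by
  have hx : 0 < y / 2 ^ n := by positivity
  rw [Real.rpow_add hx, Real.rpow_sub hy, Real.sqrt_eq_rpow, Real.sqrt_eq_rpow,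
    Real.div_rpow hy.le (by positivity) c, ← Real.rpow_mul_natCast (by norm_num), mul_comm (-c),
    Real.rpow_natCast_mul (by norm_num), Real.rpow_neg (by positivity)]
  have h1 : 0 < y ^ c := Real.rpow_pos_of_pos hy c
  have h2 : 0 < ((2 : ℝ) ^ n) ^ c := by positivity
  field_simp

/-- with `q = 2^(-c)`: if `j ≤ i` use the second bound, if `i ≤ j` the first one -/
theorem min_bound {c V A B C T : ℝ} (hc : 0 < c) (hc' : c < 1 / 2) (hV : 0 < V) (hC : 0 ≤ C) (i j : ℕ)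
    (hA0 : 0 ≤ A) (hB0 : 0 ≤ B) (hA : A ≤ V / 2 ^ j) (hB : B ≤ V / 2 ^ i)
    (h1 : T ≤ C * A ^ (1 / 2 + c) * B ^ (1 / 2 - c)) (h2 : T ≤ C * A ^ (1 / 2 - c) * B ^ (1 / 2 + c)) :
    T ≤ C * √(V / 2 ^ i) * √(V / 2 ^ j) * ((2 : ℝ) ^ (-c)) ^ (i - j + (j - i)) := by
  have hp : 0 ≤ 1 / 2 + c := by linarith
  have hm : 0 ≤ 1 / 2 - c := by linarith
  rcases le_total i j with hij | hij
  · obtain ⟨n, rfl⟩ := Nat.exists_eq_add_of_le hij
    have e1 : i - (i + n) + (i + n - i) = n := by omega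
    have e2 : V / 2 ^ (i + n) = V / 2 ^ i / 2 ^ n := by
      rw [pow_add, div_div]
    rw [e1]
    rw [e2] at hA ⊢
    have h3 := ORes_pow (c := c) (y := V / 2 ^ i) (by positivity) n
    calc T ≤ C * A ^ (1 / 2 + c) * B ^ (1 / 2 - c) := h1
      _ ≤ C * (V / 2 ^ i / 2 ^ n) ^ (1 / 2 + c) * (V / 2 ^ i) ^ (1 / 2 - c) := by gcongr
      _ = _ := by
        rw [mul_assoc, h3]
        ring
  · obtain ⟨n, rfl⟩ := Nat.exists_eq_add_of_le hij
    have e1 : j + n - j + (j - (j + n)) = n := by omega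
    have e2 : V / 2 ^ (j + n) = V / 2 ^ j / 2 ^ n := by
      rw [pow_add, div_div]
    rw [e1]
    rw [e2] at hB ⊢
    have h3 := ORes_pow (c := c) (y := V / 2 ^ j) (by positivity) n
    calc T ≤ C * A ^ (1 / 2 - c) * B ^ (1 / 2 + c) := h2
      _ ≤ C * (V / 2 ^ j) ^ (1 / 2 - c) * (V / 2 ^ j / 2 ^ n) ^ (1 / 2 + c) := by gcongr
      _ = _ := by
        rw [mul_assoc, mul_comm ((V / 2 ^ j) ^ (1 / 2 - c)), h3]
        ring

/-- `exists_layers` for `g` (sets `G i`, numbers `a i`) and `f` (sets `F j`, numbers `b j`) with the same `V`.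
`bil k g f = ∫_{(⋃ G i) × (⋃ F j)}` (the integrand vanishes a.e. outside) is the limit of
`∫_{(⋃_{i<N} G i) × (⋃_{j<N} F j)} = ∑_{i,j<N} ∫_{G i × F j}` (`tendsto_setIntegral_of_monotone`,
`integral_biUnion_finset`, `integrable_bil`); `RBd.scale`, `min_bound`, `schur_fin` with
`x i = a i √(V/2^i)`; `D = 16 * (2 / (1 - q))`. -/
theorem strong_of_rs {X : Type*} [MeasureSpace X] [SigmaFinite (volume : Measure X)] {c : ℝ} (hc : 0 < c)
    (hc' : c < 1 / 2) : ∃ D : ℝ, 0 ≤ D ∧ ∀ (k : X × X → ℝ) (S : Set X) (C : ℝ), MB k → 0 ≤ C →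
      RS k S C (1 / 2 + c) (1 / 2 - c) → RS k S C (1 / 2 - c) (1 / 2 + c) →
      ∀ g f : X → ℝ, Nice g → Nice f → Function.support g ⊆ S →
        |bil k g f| ≤ D * C * √(∫ z, g z ^ 2) * √(∫ z, f z ^ 2) := by
  have hq0 : (0 : ℝ) ≤ (2 : ℝ) ^ (-c) := by positivity
  have hq1 : (2 : ℝ) ^ (-c) < 1 := Real.rpow_lt_one_of_one_lt_of_neg (by norm_num) (by linarith)
  set q : ℝ := (2 : ℝ) ^ (-c) with hq
  have hD : 0 ≤ 2 / (1 - q) := div_nonneg (by norm_num) (by linarith)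
  refine ⟨16 * (2 / (1 - q)), by positivity, fun k S C hk hC h1 h2 g f hg hf hS => ?_⟩
  set V : ℝ := (volume (Function.support g)).toReal + (volume (Function.support f)).toReal + 1 with hVdef
  have hV : 0 < V := by positivity
  have hgV : volume (Function.support g) ≤ ENNReal.ofReal V := by
    rw [← ENNReal.ofReal_toReal hg.fin.ne]
    refine ENNReal.ofReal_le_ofReal ?_
    have := ENNReal.toReal_nonneg (a := volume (Function.support f))
    linarith
  have hfV : volume (Function.support f) ≤ ENNReal.ofReal V := by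
    rw [← ENNReal.ofReal_toReal hf.fin.ne]
    refine ENNReal.ofReal_le_ofReal ?_
    have := ENNReal.toReal_nonneg (a := volume (Function.support g))
    linarith
  obtain ⟨G, a, hGm, hGd, hGs, hGv, ha0, hGa, hG0, hGsum⟩ := exists_layers hg hV hgV
  obtain ⟨F, b, hFm, hFd, hFs, hFv, hb0, hFb, hF0, hFsum⟩ := exists_layers hf hV hfV
  have hint := integrable_bil hk hg hf
  set Φ : X × X → ℝ := fun p => g p.1 * k p * f p.2 with hΦ
  have hsum : HasSum (fun n : ℕ × ℕ => ∫ p in G n.1 ×ˢ F n.2, Φ p)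
      (∫ p in ⋃ n : ℕ × ℕ, G n.1 ×ˢ F n.2, Φ p) := by
    refine hasSum_integral_iUnion (fun n => (hGm n.1).prod (hFm n.2)) ?_ hint.integrableOn
    intro n m hnm
    show Disjoint (G n.1 ×ˢ F n.2) (G m.1 ×ˢ F m.2)
    rw [Set.disjoint_prod]
    by_cases h : n.1 = m.1
    · exact Or.inr (hFd fun h' => hnm (Prod.ext h h'))
    · exact Or.inl (hGd h)
  have heq : ∫ p in ⋃ n : ℕ × ℕ, G n.1 ×ˢ F n.2, Φ p = bil k g f := by
    refine setIntegral_eq_integral_of_ae_compl_eq_zero ?_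
    have e1 : ∀ᵐ p : X × X, p.1 ∉ Function.support g \ ⋃ n, G n :=
      (Measure.quasiMeasurePreserving_fst (μ := (volume : Measure X)) (ν := (volume : Measure X))).ae
        (measure_eq_zero_iff_ae_notMem.1 hG0)
    have e2 : ∀ᵐ p : X × X, p.2 ∉ Function.support f \ ⋃ n, F n :=
      (Measure.quasiMeasurePreserving_snd (μ := (volume : Measure X)) (ν := (volume : Measure X))).ae
        (measure_eq_zero_iff_ae_notMem.1 hF0)
    filter_upwards [e1, e2] with p h1 h2 hp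
    by_contra hne
    have hg0 : g p.1 ≠ 0 := fun h => hne (by simp [hΦ, h])
    have hf0 : f p.2 ≠ 0 := fun h => hne (by simp [hΦ, h])
    have h3 : p.1 ∈ ⋃ n, G n := by
      by_contra h
      exact h1 ⟨hg0, h⟩
    have h4 : p.2 ∈ ⋃ n, F n := by
      by_contra h
      exact h2 ⟨hf0, h⟩
    obtain ⟨i, hi⟩ := mem_iUnion.1 h3
    obtain ⟨j, hj⟩ := mem_iUnion.1 h4
    exact hp (mem_iUnion.2 ⟨(i, j), hi, hj⟩)
  rw [heq] at hsum
  have hterm : ∀ i j : ℕ, |∫ p in G i ×ˢ F j, Φ p| ≤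
      C * (a i * √(V / 2 ^ i) * (b j * √(V / 2 ^ j)) * q ^ (i - j + (j - i))) := by
    intro i j
    have hFf : volume (F j) ≠ ∞ := ne_top_of_le_ne_top ENNReal.ofReal_ne_top (hFv j)
    have hGS : G i ⊆ S := (hGs i).trans hS
    have e1 := (h1 (G i) (hGm i) hGS).scale (hGm i) (hFm j) hFf hg.meas hf.meas (ha0 i) (hb0 j) (hGa i) (hFb j)
    have e2 := (h2 (G i) (hGm i) hGS).scale (hGm i) (hFm j) hFf hg.meas hf.meas (ha0 i) (hb0 j) (hGa i) (hFb j)
    have hab : 0 ≤ a i * b j * C := mul_nonneg (mul_nonneg (ha0 i) (hb0 j)) hC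
    have e3 := min_bound (T := |∫ p in G i ×ˢ F j, Φ p|) hc hc' hV hab i j
      (A := (volume (F j)).toReal) (B := (volume (G i)).toReal) ENNReal.toReal_nonneg ENNReal.toReal_nonneg
      (ENNReal.toReal_le_of_le_ofReal (by positivity) (hFv j))
      (ENNReal.toReal_le_of_le_ofReal (by positivity) (hGv i))
      (e1.trans (le_of_eq (by ring))) (e2.trans (le_of_eq (by ring)))
    refine e3.trans (le_of_eq ?_)
    rw [← hq]
    ring
  have hfin : ∀ s : Finset (ℕ × ℕ), ∑ n ∈ s, |∫ p in G n.1 ×ˢ F n.2, Φ p| ≤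
      16 * (2 / (1 - q)) * C * √(∫ z, g z ^ 2) * √(∫ z, f z ^ 2) := by
    intro s
    obtain ⟨N, hN⟩ : ∃ N, s ⊆ Finset.range N ×ˢ Finset.range N := by
      refine ⟨s.sup (fun n => n.1 + n.2) + 1, fun n hn => ?_⟩
      have := Finset.le_sup (f := fun n : ℕ × ℕ => n.1 + n.2) hn
      simp only [Finset.mem_product, Finset.mem_range]
      constructor <;> omega
    have e1 : ∑ n ∈ s, |∫ p in G n.1 ×ˢ F n.2, Φ p| ≤
        ∑ n ∈ Finset.range N ×ˢ Finset.range N, |∫ p in G n.1 ×ˢ F n.2, Φ p| :=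
      Finset.sum_le_sum_of_subset_of_nonneg hN fun _ _ _ => abs_nonneg _
    refine e1.trans ?_
    rw [Finset.sum_product]
    have e2 : ∑ i ∈ Finset.range N, ∑ j ∈ Finset.range N, |∫ p in G i ×ˢ F j, Φ p| ≤
        C * ∑ i ∈ Finset.range N, ∑ j ∈ Finset.range N,
          a i * √(V / 2 ^ i) * (b j * √(V / 2 ^ j)) * q ^ (i - j + (j - i)) := by
      rw [Finset.mul_sum]
      refine Finset.sum_le_sum fun i _ => ?_
      rw [Finset.mul_sum]
      exact Finset.sum_le_sum fun j _ => hterm i j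
    refine e2.trans ?_
    have e3 := schur_fin hq0 hq1 N (fun i => a i * √(V / 2 ^ i)) (fun j => b j * √(V / 2 ^ j))
    have e4 : ∀ (a : ℕ → ℝ) (I : ℝ), ∑ n ∈ Finset.range N, a n ^ 2 * (V / 2 ^ n) ≤ 16 * I →
        √(∑ i ∈ Finset.range N, (a i * √(V / 2 ^ i)) ^ 2) ≤ 4 * √I := by
      intro a I h
      have : ∑ i ∈ Finset.range N, (a i * √(V / 2 ^ i)) ^ 2 = ∑ n ∈ Finset.range N, a n ^ 2 * (V / 2 ^ n) :=
        Finset.sum_congr rfl fun i _ => by rw [mul_pow, Real.sq_sqrt (by positivity)]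
      rw [this]
      refine (Real.sqrt_le_sqrt h).trans (le_of_eq ?_)
      rw [Real.sqrt_mul (by norm_num), show (16 : ℝ) = 4 ^ 2 by norm_num, Real.sqrt_sq (by norm_num)]
    have e5 := e4 a _ (hGsum N)
    have e6 := e4 b _ (hFsum N)
    calc C * ∑ i ∈ Finset.range N, ∑ j ∈ Finset.range N,
          a i * √(V / 2 ^ i) * (b j * √(V / 2 ^ j)) * q ^ (i - j + (j - i))
        ≤ C * (2 / (1 - q) * (4 * √(∫ z, g z ^ 2)) * (4 * √(∫ z, f z ^ 2))) := by
          refine mul_le_mul_of_nonneg_left (e3.trans ?_) hC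
          gcongr
      _ = _ := by ring
  rw [abs_le]
  constructor
  · rw [neg_le]
    refine hasSum_le_of_sum_le hsum.neg fun s => le_trans (Finset.sum_le_sum fun n _ => ?_) (hfin s)
    exact neg_le_abs _
  · exact hasSum_le_of_sum_le hsum fun s => le_trans (Finset.sum_le_sum fun n _ => le_abs_self _) (hfin s)

theorem ORes_mono {X : Type*} [MeasureSpace X] {k : X × X → ℝ} {S : Set X} {C C' α β : ℝ}
    (h : RS k S C α β) (hC : C ≤ C') : RS k S C' α β := by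
  intro G hG hS F hF hF' g f hg hf hg1 hf1
  refine (h G hG hS F hF hF' g f hg hf hg1 hf1).trans ?_
  gcongr

/-- `S = tsupport g`; `rs_of_rw` twice (enlarge both constants to their maximum), `strong_of_rs` -/
theorem bd_of_rw {c : ℝ} (hc : 0 < c) (hc' : c < 1 / 2) : ∃ D : ℝ, 0 ≤ D ∧
    ∀ (k : P2 × P2 → ℝ) (C : ℝ), MB k → 0 ≤ C →
      (∀ S : Set P2, Bornology.IsBounded S →
        RW k S C (1 / 2 + c) (1 / 2 - c) ∧ RW k S C (1 / 2 - c) (1 / 2 + c)) → Bd k (D * C) := by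
  obtain ⟨D, hD, H⟩ := strong_of_rs (X := P2) hc hc'
  obtain ⟨D1, hD1, H1⟩ := rs_of_rw (X := P2) (β := 1 / 2 - c) (by linarith)
  obtain ⟨D2, hD2, H2⟩ := rs_of_rw (X := P2) (β := 1 / 2 + c) (by linarith)
  refine ⟨D * (D1 + D2), by positivity, fun k C hk hC hRW g f hg hf => ?_⟩
  have hcpt : IsCompact (tsupport g) := hg.cpt
  obtain ⟨r1, r2⟩ := hRW (tsupport g) hcpt.isBounded
  have hv : volume (tsupport g) ≠ ∞ := hcpt.measure_lt_top.ne
  have e1 := ORes_mono (C' := (D1 + D2) * C) (H1 k _ C _ hk hv hC r1) (by nlinarith)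
  have e2 := ORes_mono (C' := (D1 + D2) * C) (H2 k _ C _ hk hv hC r2) (by nlinarith)
  have e3 := H k _ _ hk (by positivity) e1 e2 g f hg.nice hf.nice (subset_tsupport g)
  rw [mul_assoc D]
  exact e3

end Crest.Agent.R87
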