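import Crest.Agent.R87.ODefs2

/-! Row 87, outer reduction: removing the major subsets. -/

set_option autoImplicit false

namespace Crest.Agent.R87

open MeasureTheory Set
open scoped ENNReal

variable {X : Type*} [MeasureSpace X] [SigmaFinite (volume : Measure X)]

/-- bounded by a constant on a set of finite measure (`Measure.prod_prod`, `Measure.integrableOn_of_bounded`) -/
theorem integrableOn_bil {k : X × X → ℝ} (hk : MB k) {g f : X → ℝ} (hg : MB g) (hf : MB f) {G F : Set X}
    (hG : volume G ≠ ∞) (hF : volume F ≠ ∞) :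
    IntegrableOn (fun p : X × X => g p.1 * k p * f p.2) (G ×ˢ F) := by
  obtain ⟨B1, h1⟩ := hk.bd
  obtain ⟨B2, h2⟩ := hg.bd
  obtain ⟨B3, h3⟩ := hf.bd
  refine Measure.integrableOn_of_bounded (M := B2 * B1 * B3) ?_
    (((hg.meas.comp measurable_fst).mul hk.meas).mul (hf.meas.comp measurable_snd)).aestronglyMeasurable
    (Filter.Eventually.of_forall fun p => ?_)
  · rw [Measure.volume_eq_prod, Measure.prod_prod]
    exact ENNReal.mul_ne_top hG hF
  · rw [Real.norm_eq_abs, abs_mul, abs_mul]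
    have a1 := (abs_nonneg _).trans (h2 p.1)
    have a2 := (abs_nonneg _).trans (h1 p)
    exact mul_le_mul (mul_le_mul (h2 _) (h1 _) (abs_nonneg _) a1) (h3 _) (abs_nonneg _)
      (mul_nonneg a1 a2)

/-- `Integrable.mul_prod`, `Integrable.bdd_mul` -/
theorem integrable_bil {k : X × X → ℝ} (hk : MB k) {g f : X → ℝ} (hg : Nice g) (hf : Nice f) :
    Integrable (fun p : X × X => g p.1 * k p * f p.2) := by
  obtain ⟨B, hB⟩ := hk.bd
  have h := (hg.integrable.mul_prod hf.integrable).mul_bdd hk.meas.aestronglyMeasurable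
    (Filter.Eventually.of_forall hB)
  simp only [mul_right_comm _ (k _)]
  exact h

theorem ORes1_norm {Y : Type*} [MeasurableSpace Y] {G : Set Y} (hG : MeasurableSet G) {g : Y → ℝ}
    (hg : Measurable g) {a : ℝ} (ha : 0 ≤ a) (hga : ∀ z ∈ G, |g z| ≤ a) :
    ∃ g' : Y → ℝ, Measurable g' ∧ (∀ z, |g' z| ≤ 1) ∧ ∀ z ∈ G, g z = a * g' z := by
  refine ⟨G.indicator fun z => g z / a, (hg.div_const a).indicator hG, fun z => ?_, fun z hz => ?_⟩
  · by_cases hz : z ∈ G
    · rw [indicator_of_mem hz, abs_div, abs_of_nonneg ha]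
      exact div_le_one_of_le₀ (hga z hz) ha
    · rw [indicator_of_notMem hz, abs_zero]
      exact zero_le_one
  · rw [indicator_of_mem hz]
    rcases ha.eq_or_lt with rfl | ha
    · rw [zero_mul]
      exact abs_nonpos_iff.1 (hga z hz)
    · rw [mul_div_cancel₀ _ ha.ne']

/-- apply the bound to `G'.indicator (g / a)` and `F.indicator (f / b)` (if `a = 0` then `g = 0` on `G'`) -/
theorem RBd.scale {k : X × X → ℝ} {C α β : ℝ} {G' G : Set X} (h : RBd k C α β G' G)
    (hG' : MeasurableSet G') {F : Set X} (hF : MeasurableSet F) (hF' : volume F ≠ ∞) {g f : X → ℝ}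
    (hg : Measurable g) (hf : Measurable f) {a b : ℝ} (ha : 0 ≤ a) (hb : 0 ≤ b)
    (hga : ∀ z ∈ G', |g z| ≤ a) (hfb : ∀ z ∈ F, |f z| ≤ b) :
    |∫ p in G' ×ˢ F, g p.1 * k p * f p.2| ≤
      a * b * (C * (volume F).toReal ^ α * (volume G).toReal ^ β) := by
  obtain ⟨g', m1, b1, e1⟩ := ORes1_norm hG' hg ha hga
  obtain ⟨f', m2, b2, e2⟩ := ORes1_norm hF hf hb hfb
  have e : ∫ p in G' ×ˢ F, g p.1 * k p * f p.2 = a * b * ∫ p in G' ×ˢ F, g' p.1 * k p * f' p.2 := by
    rw [← integral_const_mul]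
    refine setIntegral_congr_fun (hG'.prod hF) fun p hp => ?_
    rw [e1 _ hp.1, e2 _ hp.2]
    ring
  rw [e, abs_mul, abs_of_nonneg (mul_nonneg ha hb)]
  exact mul_le_mul_of_nonneg_left (h F hF hF' g' f' m1 m2 b1 b2) (mul_nonneg ha hb)

/-- `D = (1 - 2 ^ (-β))⁻¹`.  Fix `F, g, f` and `|k| ≤ B`.  Induction on `N`: for every measurable `G ⊆ S`,
`|∫_{G × F}| ≤ D C |F|^α |G|^β + B |F| |G| / 2^N`, because `G × F = G' × F ∪ (G \ G') × F`,
`|G \ G'| ≤ |G| / 2` and `1 + D 2^(-β) = D`.  Then `N → ∞`. -/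
theorem rs_of_rw {β : ℝ} (hβ : 0 < β) : ∃ D : ℝ, 0 ≤ D ∧ ∀ (k : X × X → ℝ) (S : Set X) (C α : ℝ), MB k →
    volume S ≠ ∞ → 0 ≤ C → RW k S C α β → RS k S (D * C) α β := by
  set r : ℝ := (1 / 2) ^ β with hr
  have hr0 : 0 < r := by positivity
  have hr1 : r < 1 := Real.rpow_lt_one (by norm_num) (by norm_num) hβ
  set D : ℝ := (1 - r)⁻¹ with hD
  have hD0 : 0 ≤ D := inv_nonneg.2 (by linarith)
  have hD1 : 1 + D * r = D := by
    have : (1 - r) ≠ 0 := by linarith
    rw [hD]
    field_simp
    ring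
  refine ⟨D, hD0, fun k S C α hk hS hC hW G hG hGS F hF hF' g f hg hf hg1 hf1 => ?_⟩
  obtain ⟨B, hB⟩ := hk.bd
  set a : ℝ := (volume F).toReal ^ α with ha
  have ha0 : 0 ≤ a := by positivity
  have key : ∀ N : ℕ, ∀ G : Set X, MeasurableSet G → G ⊆ S →
      |∫ p in G ×ˢ F, g p.1 * k p * f p.2| ≤ D * C * a * (volume G).toReal ^ β +
        |B| * (volume F).toReal * (volume G).toReal * (1 / 2) ^ N := by
    intro N
    induction N with
    | zero =>
      intro G hG hGS
      have hG' : volume G ≠ ∞ := ne_top_of_le_ne_top hS (measure_mono hGS)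
      refine le_trans ?_ (le_add_of_nonneg_left (by positivity))
      rw [← Real.norm_eq_abs]
      refine (norm_setIntegral_le_of_norm_le_const (C := |B|) ?_ fun p _ => ?_).trans (le_of_eq ?_)
      · rw [Measure.volume_eq_prod, Measure.prod_prod]
        exact ENNReal.mul_lt_top hG'.lt_top hF'.lt_top
      · rw [Real.norm_eq_abs, abs_mul, abs_mul]
        calc _ ≤ 1 * |B| * 1 := mul_le_mul (mul_le_mul (hg1 _) ((hB p).trans (le_abs_self B))
              (abs_nonneg _) zero_le_one) (hf1 _) (abs_nonneg _) (by positivity)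
          _ = _ := by ring
      · rw [Measure.real, Measure.volume_eq_prod, Measure.prod_prod, ENNReal.toReal_mul]
        ring
    | succ N ih =>
      intro G hG hGS
      have hG0 : volume G ≠ ∞ := ne_top_of_le_ne_top hS (measure_mono hGS)
      obtain ⟨G', s1, m1, v1, r1⟩ := hW G hG hGS
      have hG1 : volume G' ≠ ∞ := ne_top_of_le_ne_top hG0 (measure_mono s1)
      have hG2 : volume (G \ G') ≠ ∞ := ne_top_of_le_ne_top hG0 (measure_mono sdiff_subset)
      have e : ∫ p in G ×ˢ F, g p.1 * k p * f p.2 = (∫ p in G' ×ˢ F, g p.1 * k p * f p.2) +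
          ∫ p in (G \ G') ×ˢ F, g p.1 * k p * f p.2 := by
        rw [← setIntegral_union (Set.disjoint_prod.2 (Or.inl disjoint_sdiff_right))
          ((hG.diff m1).prod hF) (integrableOn_bil ⟨hk.meas, B, hB⟩ ⟨hg, 1, hg1⟩ ⟨hf, 1, hf1⟩ hG1 hF')
          (integrableOn_bil ⟨hk.meas, B, hB⟩ ⟨hg, 1, hg1⟩ ⟨hf, 1, hf1⟩ hG2 hF'), ← union_prod,
          union_sdiff_cancel s1]
      have v2 : (volume (G \ G')).toReal ≤ (volume G).toReal * (1 / 2) := by
        have c1 : (volume G).toReal ≤ 2 * (volume G').toReal := by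
          have := ENNReal.toReal_mono (ENNReal.mul_ne_top (by norm_num) hG1) v1
          rwa [ENNReal.toReal_mul, ENNReal.toReal_ofNat] at this
        have c2 : (volume G).toReal = (volume G').toReal + (volume (G \ G')).toReal := by
          rw [← ENNReal.toReal_add hG1 hG2, ← measure_union disjoint_sdiff_right (hG.diff m1),
            union_sdiff_cancel s1]
        linarith
      have v3 : (volume (G \ G')).toReal ^ β ≤ (volume G).toReal ^ β * r := by
        rw [hr, ← Real.mul_rpow ENNReal.toReal_nonneg (by norm_num)]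
        exact Real.rpow_le_rpow ENNReal.toReal_nonneg v2 hβ.le
      have i1 := r1 F hF hF' g f hg hf hg1 hf1
      have i2 := ih (G \ G') (hG.diff m1) (sdiff_subset.trans hGS)
      have i3 := mul_le_mul_of_nonneg_left v3 (show 0 ≤ D * C * a by positivity)
      have i4 := mul_le_mul_of_nonneg_left v2
        (show 0 ≤ |B| * (volume F).toReal * (1 / 2) ^ N by positivity)
      rw [e, pow_succ]
      refine (abs_add_le _ _).trans ?_
      have i5 : C * a * (volume G).toReal ^ β + D * C * a * ((volume G).toReal ^ β * r) =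
          D * C * a * (volume G).toReal ^ β := by
        linear_combination (C * a * (volume G).toReal ^ β) * hD1
      linarith
  have hl := ((tendsto_pow_atTop_nhds_zero_of_lt_one (r := (1 / 2 : ℝ)) (by norm_num)
    (by norm_num)).const_mul (|B| * (volume F).toReal * (volume G).toReal)).const_add
    (D * C * a * (volume G).toReal ^ β)
  rw [mul_zero, add_zero] at hl
  exact ge_of_tendsto' hl fun N => key N G hG hGS

end Crest.Agent.R87
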