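import Crest.Agent.R87.OBas

/-! Row 87, outer reduction: the `T(1)` theorem for square functions on the line.

With an even smooth bump `a` of integral one on `[-1, 1]` and `p r = 1_{r > 0} - ∫_{-∞}^r a`:
`η G = η (G - a_t * G) + η (a_t * G - (a_t * G)(y)) + (η 1)(y) (a_t * G)(y)`, where
`G - a_t * G = (t p_t * G)'` and `(a_t * G)' = t⁻¹ (a')_t * G`. -/

set_option autoImplicit false

namespace Crest.Agent.R87

open MeasureTheory Set
open scoped ENNReal

theorem OT1a_prim {f : ℝ → ℝ} (hf : Continuous f) (hi : Integrable f) (r : ℝ) :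
    HasDerivAt (fun r => ∫ x in Iic r, f x) (f r) r := by
  have h := (intervalIntegral.integral_hasDerivAt_right (hf.intervalIntegrable 0 r)
    (hf.stronglyMeasurableAtFilter _ _) hf.continuousAt).add_const (∫ x in Iic 0, f x)
  refine h.congr_of_eventuallyEq (Filter.Eventually.of_forall fun r => ?_)
  simp only [← intervalIntegral.integral_Iic_sub_Iic hi.integrableOn hi.integrableOn]
  ring

theorem OT1a_int {f G : ℝ → ℝ} {M : ℝ} (hf : Measurable f) (hb : ∀ x, |f x| ≤ M) (hG : Cc G) (t y : ℝ) :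
    Integrable fun w => f ((y - w) / t) * G w :=
  (hG.cont.integrable_of_hasCompactSupport hG.cpt).bdd_mul (c := M) (hf.comp (by fun_prop)).aestronglyMeasurable
    (Filter.Eventually.of_forall fun w => hb _)

theorem OT1a_der {f f' G : ℝ → ℝ} {M : ℝ} (hf : ∀ x, HasDerivAt f (f' x) x) (hf' : Continuous f') (hb : ∀ x, |f x| ≤ M)
    (hb' : ∀ x, |f' x| ≤ M) (hG : Cc G) {t : ℝ} (ht : 0 < t) (y : ℝ) :
    HasDerivAt (fun y => ∫ w, f ((y - w) / t) * G w) (cv f' t G y) y := by
  have hc : Continuous f := continuous_iff_continuousAt.2 fun x => (hf x).continuousAt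
  have hGc := hG.cont
  refine (hasDerivAt_integral_of_dominated_loc_of_deriv_le (μ := volume) (F := fun y w => f ((y - w) / t) * G w)
    (F' := fun y w => t⁻¹ * f' ((y - w) / t) * G w) (bound := fun w => t⁻¹ * M * ‖G w‖) Filter.univ_mem
    (Filter.Eventually.of_forall fun x => (OT1a_int hc.measurable hb hG t x).aestronglyMeasurable)
    (OT1a_int hc.measurable hb hG t y) (Continuous.aestronglyMeasurable (by fun_prop))
    (Filter.Eventually.of_forall fun w x _ => ?_)
    ((hG.cont.integrable_of_hasCompactSupport hG.cpt).norm.const_mul _)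
    (Filter.Eventually.of_forall fun w x _ => ?_)).2
  · rw [norm_mul, norm_mul, Real.norm_of_nonneg (inv_pos.2 ht).le]
    exact mul_le_mul_of_nonneg_right (mul_le_mul_of_nonneg_left (hb' _) (inv_pos.2 ht).le) (norm_nonneg _)
  · have h1 : HasDerivAt (fun x => (x - w) / t) (1 / t) x := ((hasDerivAt_id x).sub_const w).div_const t
    have h2 := ((hf ((x - w) / t)).comp x h1).mul_const (G w)
    refine h2.congr_deriv ?_
    ring

/-- Take `a = (b : ContDiffBump 0).normed volume` with `rOut = 1` (`normed_neg`, `integral_normed`), `a' = deriv a`,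
`p r = (if 0 < r then 1 else 0) - ∫ x in Iic r, a x`.  Mean of `p`: `p (-r) = - p r` for `r ≠ 0`.  Derivatives:
`cv a t G y = ∫ w, t⁻¹ a((y - w)/t) G w` (`hasDerivAt_integral_of_dominated_loc_of_deriv_le`);
`t * cv p t G y = ∫ w in Iio y, G w - ∫ w, A((y - w)/t) G w` with `A' = a`. -/
theorem exists_bumps : ∃ (a a' p : ℝ → ℝ) (M : ℝ), Bmp a 1 M ∧ Bmp a' 1 M ∧ Bmp p 1 M ∧
    ∫ r, a' r = 0 ∧ ∫ r, p r = 0 ∧ Continuous a' ∧
    ∀ (G : ℝ → ℝ) (t : ℝ), Cc G → 0 < t → ∀ y,
      HasDerivAt (cv a t G) (t⁻¹ * cv a' t G y) y ∧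
      HasDerivAt (fun y => t * cv p t G y) (G y - cv a t G y) y := by
  let b : ContDiffBump (0 : ℝ) := ⟨1 / 2, 1, by norm_num, by norm_num⟩
  obtain ⟨a, ha⟩ : ∃ a, a = b.normed volume := ⟨_, rfl⟩
  have hC : ContDiff ℝ 1 a := ha ▸ b.contDiff_normed (n := 1)
  have hcs : HasCompactSupport a := ha ▸ b.hasCompactSupport_normed
  have hts : tsupport a = Metric.closedBall 0 1 := ha ▸ b.tsupport_normed_eq
  have h1 : ∫ x, a x = 1 := ha ▸ b.integral_normed
  have hn : ∀ x, 0 ≤ a x := ha ▸ b.nonneg_normed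
  have hev : ∀ x, a (-x) = a x := ha ▸ b.normed_neg
  have hac := hC.continuous
  have hd : ∀ x, HasDerivAt a (deriv a x) x := fun x => (hC.differentiable one_ne_zero x).hasDerivAt
  have hdc : Continuous (deriv a) := hC.continuous_deriv le_rfl
  have hai : Integrable a := hac.integrable_of_hasCompactSupport hcs
  have hout : ∀ y : ℝ, 1 < |y| → y ∉ tsupport a := fun y hy => by simpa [hts] using hy
  have hs : ∀ y : ℝ, 1 < |y| → a y = 0 := fun y hy => image_eq_zero_of_notMem_tsupport (hout y hy)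
  obtain ⟨M₁, hM₁⟩ := hcs.exists_bound_of_continuous hac
  obtain ⟨M₂, hM₂⟩ := hcs.deriv.exists_bound_of_continuous hdc
  obtain ⟨A, hA⟩ : ∃ A : ℝ → ℝ, A = fun r => ∫ x in Iic r, a x := ⟨_, rfl⟩
  have hAd : ∀ r, HasDerivAt A (a r) r := hA ▸ OT1a_prim hac hai
  have hAc : Continuous A := continuous_iff_continuousAt.2 fun x => (hAd x).continuousAt
  have hA0 : ∀ r, 0 ≤ A r := fun r => hA ▸ integral_nonneg hn
  have hAneg : ∀ r, A (-r) = 1 - A r := fun r => by
    simp only [hA]
    rw [← integral_comp_neg_Ioi, ← h1, ← intervalIntegral.integral_Iic_add_Ioi (b := r) hai.integrableOn hai.integrableOn]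
    simp [hev]
  have hA1 : ∀ r, A r ≤ 1 := fun r => by linarith [hAneg r, hA0 (-r)]
  have hAl : ∀ r, r < -1 → A r = 0 := fun r hr => by
    simp only [hA]
    exact setIntegral_eq_zero_of_forall_eq_zero fun x (hx : x ≤ r) => hs x (lt_abs.2 (Or.inr (by linarith)))
  obtain ⟨M, m₁, m₂, m₃⟩ : ∃ M, M₁ ≤ M ∧ M₂ ≤ M ∧ 1 ≤ M :=
    ⟨max M₁ (max M₂ 1), le_max_left _ _, le_max_of_le_right (le_max_left _ _), le_max_of_le_right (le_max_right _ _)⟩
  have ba : ∀ x, |a x| ≤ M := fun x => (hM₁ x).trans m₁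
  have bA : ∀ x, |A x| ≤ M := fun x => abs_le.2 ⟨by linarith [hA0 x], (hA1 x).trans m₃⟩
  have mH : Measurable fun r : ℝ => if 0 < r then (1 : ℝ) else 0 :=
    Measurable.ite measurableSet_Ioi measurable_const measurable_const
  refine ⟨a, deriv a, fun r => (if 0 < r then 1 else 0) - A r, M, ⟨hac.measurable, ba, hs⟩,
    ⟨hdc.measurable, fun x => (hM₂ x).trans m₂, fun y hy => ?_⟩, ⟨mH.sub hAc.measurable, fun r => ?_, fun r hr => ?_⟩,
    integral_eq_zero_of_hasDerivAt_of_integrable hd (hdc.integrable_of_hasCompactSupport hcs.deriv) hai, ?_, hdc,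
    fun G t hG ht y => ⟨?_, ?_⟩⟩
  · by_contra h
    exact hout y hy (support_deriv_subset h)
  · have := hA0 r
    have := hA1 r
    split_ifs <;> exact abs_le.2 ⟨by linarith, by linarith⟩
  · rcases lt_abs.1 hr with h | h
    · have := hAl (-r) (by linarith)
      rw [if_pos (by linarith)]
      linarith [hAneg r]
    · rw [if_neg (by linarith), hAl r (by linarith), sub_zero]
  · have e := integral_neg_eq_self (fun r : ℝ => (if 0 < r then (1 : ℝ) else 0) - A r) volume
    have e' : ∫ r : ℝ, ((if 0 < -r then (1 : ℝ) else 0) - A (-r)) = ∫ r : ℝ, -((if 0 < r then (1 : ℝ) else 0) - A r) := by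
      refine integral_congr_ae ?_
      filter_upwards [compl_mem_ae_iff.2 (measure_singleton (0 : ℝ))] with r (hr : r ≠ 0)
      rw [hAneg]
      rcases hr.lt_or_gt with h | h
      · rw [if_pos (by linarith), if_neg (by linarith)]
        ring
      · rw [if_neg (by linarith), if_pos h]
        ring
    rw [e', integral_neg] at e
    linarith
  · refine ((OT1a_der hd hdc ba (fun x => (hM₂ x).trans m₂) hG ht y).const_mul t⁻¹).congr_of_eventuallyEq
      (Filter.Eventually.of_forall fun y => ?_)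
    simp only [cv, mul_assoc, integral_const_mul]
  · have hGi : Integrable G := hG.cont.integrable_of_hasCompactSupport hG.cpt
    refine ((OT1a_prim hG.cont hGi y).sub (OT1a_der hAd hac bA ba hG ht y)).congr_of_eventuallyEq
      (Filter.Eventually.of_forall fun y => ?_)
    simp only [cv, mul_assoc, integral_const_mul, Pi.sub_apply]
    rw [mul_inv_cancel_left₀ ht.ne', integral_Iic_eq_integral_Iio, ← integral_indicator measurableSet_Iio,
      ← integral_sub (hGi.indicator measurableSet_Iio) (OT1a_int hAc.measurable bA hG t y)]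
    congr 1
    ext w
    rw [sub_mul, indicator_apply]
    simp [div_pos_iff_of_pos_right ht]

end Crest.Agent.R87
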