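import Crest.Agent.R87.OMod
import Crest.Agent.R87.OBand
import Crest.Agent.R87.OFin

/-! Row 87: the outer reduction `CoreStmt → S0115`. -/

set_option autoImplicit false

namespace Crest.Agent.R87

open MeasureTheory Set
open scoped ENNReal

theorem outer (h : CoreStmt) :
    ∃ a : ℝ, 0 < a ∧ a < 1 / 2 ∧ ∃ C : ℝ, ∀ v : EuclideanSpace ℝ (Fin 2) → EuclideanSpace ℝ (Fin 2),
      (∀ x, ‖v x‖ = 1) → LipschitzWith 1 v → ∀ f : SchwartzMap (EuclideanSpace ℝ (Fin 2)) ℂ, ∀ ε : ℝ, 0 < ε → ε < a →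
        MeasureTheory.eLpNorm
            (fun x : EuclideanSpace ℝ (Fin 2) => ∫ t in Set.Ioo (-a) (-ε) ∪ Set.Ioo ε a, f (x - t • v x) / (t : ℂ)) 2
            MeasureTheory.volume ≤
          ENNReal.ofReal C * MeasureTheory.eLpNorm (⇑f) 2 MeasureTheory.volume := by
  obtain ⟨M, hM⟩ := model_of_core h
  obtain ⟨b, hb, h2⟩ := exists_b
  obtain ⟨Ψ, hΨ, hψ, h0, hne⟩ := exists_psi M
  obtain ⟨C, hC, hmod⟩ := hM b Ψ hb hΨ hψ
  obtain ⟨C', hC', hSB⟩ := SB_of_model hmod hC hb hψ h2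
  obtain ⟨p1, p2, p3, p4⟩ := hψ.neg_props h0 hne
  obtain ⟨C'', hC'', hF⟩ := full_of_SB p1 p2 p3 p4 hC' (by norm_num) hSB
  exact final_of_full (by norm_num) hC'' hF

end Crest.Agent.R87
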