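import Crest.Agent.R87.Api1

/-! # R87: Carleson bound of the positive coefficients (`LTStmt → PosStmt`). -/

set_option autoImplicit false

namespace Crest.Agent.R87

open MeasureTheory Set
open scoped ENNReal

theorem posL_col (s β h : ℝ) : MeasurableSet {z : P2 | |z.2 - s * z.1 - β| ≤ h} :=
  measurableSet_le (by fun_prop) measurable_const

theorem posL_int (k m : ℤ) : MeasurableSet {z : P2 | dI k z.1 = m} :=
  (measurable_dI k).comp measurable_fst (measurableSet_singleton m)

/-- one scale: Tonelli -/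
theorem posL_scale {w : ℕ → P2 → ℝ} (s β h : ℝ) {k' k : ℕ} (hk : k' ≤ k) (m : ℤ)
    (hw : Measurable (w k')) (h0 : ∀ z, 0 ≤ w k' z) :
    ∫⁻ x in dInt k m, ENNReal.ofReal (pcoef w s β h k' (dI k' x)) ≤
      ∫⁻ z in {z : P2 | dI k z.1 = m ∧ |z.2 - s * z.1 - β| ≤ h}, ENNReal.ofReal (w k' z) := by
  have hp : (0 : ℝ) < 2 ^ k' := by positivity
  set A : ℤ → ℤ → Set P2 := fun k m => {z | dI k z.1 = m ∧ |z.2 - s * z.1 - β| ≤ h} with hA
  have hAm : ∀ k m, MeasurableSet (A k m) := fun k m => (posL_int k m).inter (posL_col s β h)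
  set c : ℝ≥0∞ := ENNReal.ofReal ((2 : ℝ) ^ k')⁻¹ with hc
  have h1 : ∀ x, ENNReal.ofReal (pcoef w s β h k' (dI k' x)) ≤
      ∫⁻ z, (A k' (dI k' x)).indicator (fun z => c * ENNReal.ofReal (w k' z)) z := by
    intro x
    rw [pcoef, ENNReal.ofReal_mul (inv_pos.2 hp).le, lintegral_indicator (hAm _ _),
      lintegral_const_mul _ hw.ennreal_ofReal]
    refine mul_le_mul_right ?_ _
    have h2 := enorm_integral_le_lintegral_enorm (μ := volume.restrict (A k' (dI k' x))) (w k')
    rw [Real.enorm_eq_ofReal (integral_nonneg h0)] at h2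
    simpa only [Real.enorm_eq_ofReal (h0 _)] using h2
  have hm : Measurable (Function.uncurry fun (x : ℝ) (z : P2) =>
      (A k' (dI k' x)).indicator (fun z => c * ENNReal.ofReal (w k' z)) z) :=
    Measurable.indicator (f := fun p : ℝ × P2 => c * ENNReal.ofReal (w k' p.2))
      (s := {p : ℝ × P2 | p.2 ∈ A k' (dI k' p.1)})
      ((hw.comp measurable_snd).ennreal_ofReal.const_mul c)
      ((measurableSet_eq_fun ((measurable_dI k').comp measurable_snd.fst)
        ((measurable_dI k').comp measurable_fst)).inter (measurable_snd (posL_col s β h)))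
  refine (lintegral_mono h1).trans ?_
  rw [lintegral_lintegral_swap hm.aemeasurable, ← lintegral_indicator (hAm k m)]
  refine lintegral_mono fun z => ?_
  by_cases hz : z ∈ A k m
  · rw [indicator_of_mem hz]
    calc _ ≤ ∫⁻ x, (dInt k' (dI k' z.1)).indicator (fun _ => c * ENNReal.ofReal (w k' z)) x := by
          refine lintegral_mono' Measure.restrict_le_self fun x => ?_
          by_cases hx : z ∈ A k' (dI k' x)
          · simp only [indicator_of_mem hx, indicator_of_mem (mem_dInt.2 hx.1.symm), le_refl]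
          · simp only [indicator_of_notMem hx, zero_le]
      _ = _ := by
          rw [lintegral_indicator_const (measurableSet_dInt _ _), volume_dInt, mul_right_comm, hc,
            ← ENNReal.ofReal_mul (inv_pos.2 hp).le, zpow_natCast, inv_mul_cancel₀ hp.ne',
            ENNReal.ofReal_one, one_mul]
  · rw [indicator_of_notMem hz, setLIntegral_congr_fun (measurableSet_dInt _ _) (g := fun _ => 0)
      fun x hx => indicator_of_notMem (fun hx' => hz ⟨(dI_eq_of_le (by exact_mod_cast hk)
        hx'.1).trans (mem_dInt.1 hx), hx'.2⟩) _, lintegral_zero]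

theorem posL (h : LTStmt) : PosStmt := by
  intro u _ G _ S hS hSG w s β hh ρ d k0 hd hw h0 hz h2 hρ hL k hk m
  have hW : ∀ k, MeasurableSet (S k ∩ {z : P2 | |z.2 - s * z.1 - β| ≤ hh}) :=
    fun k => (hS k).inter (posL_col s β hh)
  have h1 := h k m (fun k => S k ∩ {z : P2 | |z.2 - s * z.1 - β| ≤ hh}) (ENNReal.ofReal d)
    (fun _ => 1) (fun _ => 1) hW measurable_const (fun k1 hk1 m1 ⟨k', l1, z, l2, l3⟩ => by
      refine le_trans (measure_mono ?_) ((hL k1 (hk1.trans hk) m1 ⟨k', l1, z, l2.1, l3, l2.2⟩).trans_eq ?_)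
      · rintro z ⟨⟨j, j1, -, j2⟩, j3⟩
        refine ⟨hSG j j2.1, j3, j2.2, le_trans ?_ (hρ j z j2.1)⟩
        exact mul_le_mul_of_nonneg_right (pow_le_pow_right₀ one_le_two j1) (abs_nonneg _)
      · rw [ENNReal.ofReal_mul hd, ENNReal.ofReal_pow zero_le_two, ENNReal.ofReal_ofNat])
    fun _ _ _ _ _ _ _ => le_rfl
  set Z := {z : P2 | (∃ j, j ≤ k ∧ z ∈ S j ∩ {z : P2 | |z.2 - s * z.1 - β| ≤ hh}) ∧ dI k z.1 = m}
    with hZ
  have hZm : MeasurableSet Z := by
    exact measurableSet_setOfPred.2 ((Measurable.exists fun j =>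
      measurable_const.and (hW j).mem).and (posL_int k m).mem)
  rw [setLIntegral_one, setLIntegral_one, volume_dInt] at h1
  have hp : ∀ k' m', 0 ≤ pcoef w s β hh k' m' := fun k' m' =>
    mul_nonneg (by positivity) (integral_nonneg (h0 k'))
  simp only [ENNReal.ofReal_sum_of_nonneg fun k' _ => hp k' _]
  rw [lintegral_finsetSum (f := fun (k' : ℕ) x => ENNReal.ofReal (pcoef w s β hh k' (dI k' x))) _
    fun k' _ => (measurable_of_countable
      fun m' => ENNReal.ofReal (pcoef w s β hh k' m')).comp (measurable_dI k')]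
  refine (Finset.sum_le_sum fun k' hk' => posL_scale s β hh
    (Nat.lt_succ_iff.1 (Finset.mem_range.1 hk')) m (hw k') (h0 k')).trans ?_
  rw [← lintegral_finsetSum _ fun k' _ => (hw k').ennreal_ofReal]
  calc _ ≤ ∫⁻ z, Z.indicator (fun _ => 2) z := by
        rw [← lintegral_indicator (s := {z : P2 | dI k z.1 = m ∧ |z.2 - s * z.1 - β| ≤ hh})
          ((posL_int k m).inter (posL_col s β hh))]
        refine lintegral_mono fun z => ?_
        by_cases hzZ : z ∈ Z
        · rw [indicator_of_mem hzZ]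
          refine (indicator_le_self _ _ z).trans ?_
          rw [← ENNReal.ofReal_sum_of_nonneg fun k' _ => h0 k' z, ← ENNReal.ofReal_ofNat]
          refine ENNReal.ofReal_le_ofReal (le_trans ?_ (h2 z))
          exact Finset.sum_le_sum_of_subset_of_nonneg (Finset.range_subset_range.2 (by omega))
            fun j _ _ => h0 j z
        · rw [indicator_of_notMem hzZ]
          refine indicator_apply_le' (fun hz' => (Finset.sum_eq_zero fun j hj => ?_).le) fun _ => le_rfl
          rw [hz j z fun hj' => hzZ ⟨⟨j, Nat.lt_succ_iff.1 (Finset.mem_range.1 hj), hj', hz'.2⟩, hz'.1⟩,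
            ENNReal.ofReal_zero]
    _ ≤ 2 * (2 * ENNReal.ofReal d * ENNReal.ofReal (2 ^ (k : ℤ))) := by
        rw [lintegral_indicator_const hZm]
        exact mul_le_mul_right h1 _
    _ = _ := by
        rw [ENNReal.ofReal_mul (by positivity), ENNReal.ofReal_mul (by norm_num), ENNReal.ofReal_ofNat,
          zpow_natCast]
        ring

end Crest.Agent.R87
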