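import Crest.Agent.R87.S1Defs

/-! # R87 S1A: basic facts (parameters, visibility, the functions `F ν`, the nodes `wn`). -/

set_option autoImplicit false

namespace Crest.Agent.R87

open MeasureTheory Set
open scoped ENNReal Classical

namespace S1Data

variable {D : S1Data}


theorem Lam_pos : 0 < D.Lam := by
  unfold Lam
  positivity

theorem one_le_Lam : 1 ≤ D.Lam := by
  exact one_le_pow₀ one_le_two

/-- from `hee` -/
theorem lam_le (h : D.Ok) (hr : 1 ≤ D.r) : 100 * D.Lam ≤ 2 ^ D.Γ.kK := by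
  have h1 := h.hee
  have h2 : (1 : ℝ) ≤ D.r := by exact_mod_cast hr
  have h3 : (0 : ℝ) ≤ 100 * 2 ^ D.Γ.kL / 2 ^ D.Γ.kK := by positivity
  rw [Geo.ee] at h1
  exact (div_le_one (by positivity)).1 ((le_mul_of_one_le_left h3 h2).trans h1)

theorem two_pow_kb (c : ℕ) : (2 : ℝ) ^ D.kb c = D.Lam / D.Γ.sz c := by
  rw [kb, zpow_add₀ two_ne_zero, zpow_sub₀ two_ne_zero, zpow_natCast, zpow_natCast, zpow_natCast, Lam, Geo.sz]
  field_simp

theorem lam0_pos (h : D.Ok) : 0 < D.lam0 := by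
  have := h.hη
  unfold lam0
  positivity

theorem lam0_div (c : ℕ) : D.lam0 / 2 ^ c = D.η * D.Γ.sz c := by
  rw [lam0, Geo.sz, mul_div_assoc]

/-- from `hkL` -/
theorem transport_le (h : D.Ok) (c : ℕ) :
    4 * D.R * 2 ^ c / D.lam0 ≤ D.Lam / (2 * D.Γ.sz c) := by
  have h1 := h.hη
  calc 4 * D.R * 2 ^ c / D.lam0 = 8 * D.R / D.η * (2 ^ c / (2 * 2 ^ D.Γ.kK)) := by
        rw [lam0]; field_simp; ring
    _ ≤ 2 ^ D.Γ.kL * (2 ^ c / (2 * 2 ^ D.Γ.kK)) := mul_le_mul_of_nonneg_right h.hkL (by positivity)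
    _ = _ := by rw [Lam, Geo.sz]; field_simp

theorem t0_nonneg (h : D.Ok) : 0 ≤ D.Γ.t0 := by
  linarith [h.ht0, h.hϑ, h.hH]

theorem s1a_len_pos (P : Tile) : 0 < P.len := by
  unfold Tile.len
  positivity

theorem s1a_move {γ γ' : ℝ} {P : Tile} {z z' : P2} (hv : D.Γ.vis γ P z)
    (hx : |z'.1 - z.1| ≤ (γ' - γ) * (100 * D.Lam / 2 ^ D.Γ.kK) * P.len)
    (hy : |z'.2 - z.2 - P.s * (z'.1 - z.1)| ≤ (γ' - γ) * (100 * D.Lam)) : D.Γ.vis γ' P z' := by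
  obtain ⟨h1, h2, h3⟩ := hv
  simp only [Geo.vis, Geo.ee, Geo.tt, Tile.line, Lam, abs_le] at *
  refine ⟨by linarith [hx.1], by linarith [hx.2], by linarith [hy.1, h3.1], by linarith [hy.2, h3.2]⟩

theorem vis_mono {γ γ' : ℝ} (hγ : γ ≤ γ') {P : Tile} {z : P2} (hv : D.Γ.vis γ P z) :
    D.Γ.vis γ' P z := by
  have h1 := sub_nonneg.2 hγ
  have h2 := D.Lam_pos
  have h3 := s1a_len_pos P
  refine s1a_move hv ?_ ?_
  · rw [sub_self, abs_zero]
    positivity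
  · rw [sub_self, sub_self, mul_zero, sub_zero, abs_zero]
    positivity

/-- moving the point costs grade -/
theorem vis_move {γ γ' : ℝ} {P : Tile} {z z' : P2} (hv : D.Γ.vis γ P z)
    (hx : |z'.1 - z.1| ≤ (γ' - γ) * (100 * D.Lam / 2 ^ D.Γ.kK) * P.len)
    (hy : |z'.2 - z.2 - P.s * (z'.1 - z.1)| ≤ (γ' - γ) * (100 * D.Lam)) : D.Γ.vis γ' P z' := by
  exact s1a_move hv hx hy

/-- moving along a slope `s` within `5 σ_c` of the slope of a tile of scale `≥ c`, by at most `2 Λ / σ_c`,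
costs grade `1/4`. (`len P ≥ 2^c = K / σ_c`.) -/
theorem vis_shift {γ : ℝ} {P : Tile} {z : P2} {c : ℕ} {s t : ℝ} (hv : D.Γ.vis γ P z) (hc : c ≤ P.k)
    (hs : |P.s - s| ≤ 5 * D.Γ.sz c) (ht : |t| ≤ 2 * D.Lam / D.Γ.sz c) :
    D.Γ.vis (γ + 1 / 4) P (z.1 + t, z.2 + s * t) := by
  have h2 := D.Lam_pos
  have h3 := D.Γ.sz_pos c
  refine s1a_move hv ?_ ?_
  · have h4 : (2 : ℝ) ^ c ≤ P.len := pow_le_pow_right₀ one_le_two hc
    have h5 : 2 * D.Lam / D.Γ.sz c = 2 * (D.Lam / 2 ^ D.Γ.kK) * 2 ^ c := by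
      rw [Geo.sz]; field_simp
    have h6 : 0 ≤ D.Lam / 2 ^ D.Γ.kK := by positivity
    rw [add_sub_cancel_left, add_sub_cancel_left, mul_div_assoc]
    nlinarith [mul_le_mul_of_nonneg_left h4 h6, mul_nonneg h6 (s1a_len_pos P).le]
  · have h4 := mul_le_mul hs ht (abs_nonneg _) (by positivity)
    have h5 : 5 * D.Γ.sz c * (2 * D.Lam / D.Γ.sz c) = 10 * D.Lam := by field_simp; norm_num
    rw [add_sub_cancel_left, add_sub_cancel_left, add_sub_cancel_left, ← sub_mul, abs_mul, abs_sub_comm]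
    linarith

theorem perf_grade_mono {γ γ' : ℝ} (hγ : γ ≤ γ') {z : P2} {d : ℕ} {ν : ℕ × ℤ}
    (hp : Perf D.Γ D.U γ z d ν) : Perf D.Γ D.U γ' z d ν := by
  exact hp.transfer fun _ _ _ hv => vis_mono hγ hv

theorem Cnt.mono {γ γ' : ℝ} (hγ : γ ≤ γ') {ν ν' : ℕ × ℤ} (hν : nsub ν' ν) {z : P2}
    (hc : D.Cnt γ' ν z) : D.Cnt γ ν' z := by
  exact fun V hV h => hc V hV fun P hP => ⟨D.Γ.mem_mono hν (h P hP).1, vis_mono hγ (h P hP).2⟩

theorem measurableSet_Cnt (γ : ℝ) (ν : ℕ × ℤ) : MeasurableSet {z | D.Cnt γ ν z} := by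
  have : Countable Tile := Function.Injective.countable (f := fun P : Tile => (P.k, P.m, P.σ, P.β))
    fun ⟨_, _, _, _⟩ ⟨_, _, _, _⟩ h => by simpa using h
  exact (Measurable.forall fun V => measurable_const.imp ((Measurable.forall fun P => measurable_const.imp
    (measurable_const.and (measurableSet_setOfPred.1 (D.Γ.measurableSet_vis γ P)))).imp
      measurable_const)).setOf

theorem volume_vis (h : D.Ok) {γ : ℝ} (h0 : 0 ≤ γ) (hγ : γ ≤ D.r) (P : Tile) :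
    volume {z | D.Γ.vis γ P z} ≤ ENNReal.ofReal (6 * D.Γ.tt D.r * P.len) := by
  have h1 := D.Lam_pos
  have h2 := s1a_len_pos P
  have h3 := t0_nonneg h
  have e0 : 0 ≤ D.Γ.ee γ := by unfold Geo.ee; positivity
  have e1 : D.Γ.ee γ ≤ 1 := (mul_le_mul_of_nonneg_right hγ (by positivity)).trans h.hee
  have t0 : 0 ≤ D.Γ.tt γ := by unfold Geo.tt; positivity
  have t1 : D.Γ.tt γ ≤ D.Γ.tt D.r := add_le_add le_rfl (mul_le_mul_of_nonneg_right hγ (by positivity))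
  rw [Measure.volume_eq_prod, Measure.prod_apply (D.Γ.measurableSet_vis γ P)]
  have e : ∀ x : ℝ, volume (Prod.mk x ⁻¹' {z | D.Γ.vis γ P z}) ≤
      (Icc (P.a - P.len) (P.a + 2 * P.len)).indicator (fun _ => ENNReal.ofReal (2 * D.Γ.tt D.r)) x := by
    intro x
    by_cases hx : x ∈ Icc (P.a - P.len) (P.a + 2 * P.len)
    · rw [indicator_of_mem hx]
      refine (measure_mono (t := Icc (P.line x - D.Γ.tt D.r) (P.line x + D.Γ.tt D.r)) fun y hy => ?_).trans ?_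
      · have := abs_le.1 (hy.2.2.trans t1)
        exact ⟨by linarith [this.1], by linarith [this.2]⟩
      · rw [Real.volume_Icc]
        exact ENNReal.ofReal_le_ofReal (by linarith)
    · have : Prod.mk x ⁻¹' {z | D.Γ.vis γ P z} = ∅ := eq_empty_of_forall_notMem fun y hy =>
        hx ⟨by nlinarith [hy.1], by nlinarith [hy.2.1]⟩
      rw [this, measure_empty]
      exact zero_le
  refine (lintegral_mono e).trans ?_
  rw [lintegral_indicator_const measurableSet_Icc, Real.volume_Icc, ← ENNReal.ofReal_mul (by linarith)]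
  exact ENNReal.ofReal_le_ofReal (le_of_eq (by ring))

/-- by `Assign.nest` and `Assign.near` (a term `(z,k)` of `S P` has `k ≤ P.k`); `Phi1_biUnion`. -/
theorem phiN_eq_sum (h : D.Ok) (ν : ℕ × ℤ) (z : P2) :
    D.PhiN ν z = ∑ P ∈ D.U.filter (fun P => D.Γ.mem P ν), D.PhiU P ν.1 z := by
  simp only [PhiN, PhiU, PhiR]
  rw [Finset.sum_comm]
  refine Finset.sum_congr rfl fun k hk => ?_
  have hk' := (Finset.mem_Icc.1 hk).1
  rw [← Phi1_biUnion h.hb h.hψ h.hu.meas k _ h.hG (fun P _ => (h.asg.fam P).sub k)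
    (fun P _ => (h.asg.fam P).meas k) (fun P _ Q _ hPQ => h.asg.disj P Q k hPQ) h.hg]
  congr 1
  ext w
  simp only [h.asg.union k, mem_inter_iff, mem_iUnion, Finset.mem_filter, mem_ofPred_eq, exists_prop]
  constructor
  · rintro ⟨⟨P, hP, hw⟩, e⟩
    exact ⟨P, ⟨hP, hk'.trans (h.asg.near P k w hw).1,
      (D.Γ.idx_eq_of_le hk' (h.asg.nest P k w hw)).symm.trans e⟩, hw⟩
  · rintro ⟨P, ⟨hP, e⟩, hw⟩
    exact ⟨⟨P, hP, hw⟩, (D.Γ.idx_eq_of_le hk' (h.asg.nest P k w hw)).trans e.2⟩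

theorem s1a_int {θ : ℝ → ℝ} (hθ : Integrable θ) {f : P2 → ℝ} (hf : Measurable f) {L : ℝ}
    (hL : ∀ z, |f z| ≤ L) (z : P2) : Integrable fun y => θ y * f (z.1, z.2 - y) :=
  hθ.mul_bdd (hf.comp (by fun_prop)).aestronglyMeasurable (Filter.Eventually.of_forall fun _ => hL _)

theorem s1a_MU_bdd (h : D.Ok) : ∃ L : ℝ, ∀ P z, |D.MU P z| ≤ L := by
  obtain ⟨L, -, hL⟩ := PhiR_bdd_supp h.hb h.hψ h.hu h.hG
  refine ⟨L, fun P z => ?_⟩
  rw [MU, abs_of_nonneg (PhiMax_nonneg _ _ _ _ _ _ _)]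
  exact PhiMax_le fun c _ => (hL c _ le_rfl _ (h.asg.fam P).meas (h.asg.fam P).sub _ h.hg z).1

theorem F_eq_sum (h : D.Ok) (ν : ℕ × ℤ) (z : P2) :
    D.F ν z = ∑ P ∈ D.U.filter (fun P => D.Γ.mem P ν), vconv D.θ (D.PhiU P ν.1) z := by
  obtain ⟨L, hL⟩ := s1a_MU_bdd h
  simp only [F, vconv, phiN_eq_sum h, Finset.mul_sum]
  exact integral_finsetSum _ fun P _ => s1a_int h.θi (measurable_PhiR h.hb h.hψ h.hu.meas _ _ _ h.hg)
    (fun z => (abs_PhiR_le_PhiMax _ _ _ _ _ _ _ _).trans ((le_abs_self _).trans (hL P z))) z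

/-- `PhiR_eq_zero_of_not_tube`, `θs`, `ht0` -/
theorem vconv_PhiU_eq_zero (h : D.Ok) {P : Tile} (c : ℕ) {z : P2} (hv : ¬ D.Γ.vis 0 P z) :
    vconv D.θ (D.PhiU P c) z = 0 := by
  refine integral_eq_zero_of_ae (Filter.Eventually.of_forall fun y => ?_)
  by_cases hy : D.H < |y|
  · simp [h.θs y hy]
  refine mul_eq_zero_of_right _ (PhiR_eq_zero_of_not_tube h.hb h.hψ (h.asg.fam P).meas
    (h.asg.near P) fun ht => hv ?_)
  have h1 := mem_dInt.2 ht.1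
  have h2 := ht.2
  have h3 := abs_add_le (z.2 - y - P.line z.1) y
  simp only [dInt, zpow_natCast, mem_Ico] at h1 h2
  simp only [Geo.vis, Geo.ee, Geo.tt, zero_mul, sub_zero, add_zero, Tile.a, Tile.len]
  rw [show z.2 - y - P.line z.1 + y = z.2 - P.line z.1 by ring] at h3
  exact ⟨h1.1, by linarith [h1.2], by linarith [h.ht0, not_lt.1 hy]⟩

theorem abs_vconv_PhiU_le (h : D.Ok) (P : Tile) (c : ℕ) (z : P2) :
    |vconv D.θ (D.PhiU P c) z| ≤ vconv (fun y => |D.θ y|) (D.MU P) z := by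
  obtain ⟨L, hL⟩ := s1a_MU_bdd h
  refine norm_integral_le_of_norm_le (f := fun y => D.θ y * D.PhiU P c (z.1, z.2 - y)) (s1a_int h.θi.abs (measurable_PhiMax h.hb h.hψ h.hu.meas _ _ h.hg)
    (hL P) z) (Filter.Eventually.of_forall fun y => ?_)
  rw [Real.norm_eq_abs, abs_mul]
  exact mul_le_mul_of_nonneg_left (abs_PhiR_le_PhiMax _ _ _ _ _ _ _ _) (abs_nonneg _)

theorem F_eq_zero_of_not_perf (h : D.Ok) {γ : ℝ} (hγ : 0 ≤ γ) {ν : ℕ × ℤ} {z : P2}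
    (hp : ¬ Perf D.Γ D.U γ z 0 ν) : D.F ν z = 0 := by
  rw [F_eq_sum h]
  refine Finset.sum_eq_zero fun P hP => vconv_PhiU_eq_zero h _ fun hv => hp ?_
  exact ⟨P, (Finset.mem_filter.1 hP).1, (Finset.mem_filter.1 hP).2, vis_mono hγ hv⟩

theorem F_eq_zero_of_not_mem (h : D.Ok) {ν : ℕ × ℤ} (hν : ν ∉ D.nodes) (z : P2) : D.F ν z = 0 := by
  rw [F_eq_sum h]
  refine Finset.sum_eq_zero fun P hP => absurd ?_ hν
  obtain ⟨h1, h2, h3⟩ := Finset.mem_filter.1 hP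
  exact Finset.mem_image.2 ⟨(ν.1, P), Finset.mem_product.2
    ⟨Finset.mem_range.2 (Nat.lt_succ_of_le (h2.trans (h.asg.top_k P h1))), h1⟩, Prod.ext rfl h3⟩

theorem measurable_F (h : D.Ok) (ν : ℕ × ℤ) : Measurable (D.F ν) := by
  exact measurable_vconv h.θm (measurable_PhiR h.hb h.hψ h.hu.meas _ _ _ h.hg)

theorem F_bdd (h : D.Ok) : ∃ L : ℝ, ∀ ν z, |D.F ν z| ≤ L ∧ (L ≤ ‖z‖ → D.F ν z = 0) := by
  obtain ⟨L, L0, hL⟩ := PhiR_bdd_supp h.hb h.hψ h.hu h.hG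
  have hN : ∀ ν z, |D.PhiN ν z| ≤ L ∧ (L ≤ ‖z‖ → D.PhiN ν z = 0) := fun ν =>
    hL _ _ le_rfl _ (fun k => (h.asg.famT.meas k).inter
      (((D.Γ.measurable_idx ν.1).comp h.hu.meas) (measurableSet_singleton ν.2)))
      (fun k => inter_subset_left.trans (h.asg.famT.sub k)) _ h.hg
  have hA := h.hA
  have hH := h.hH
  refine ⟨D.A * L + L + D.H, fun ν z => ⟨?_, fun hz => ?_⟩⟩
  · have h1 : |D.F ν z| ≤ ∫ y, |D.θ y| * L :=
      norm_integral_le_of_norm_le (f := fun y => D.θ y * D.PhiN ν (z.1, z.2 - y)) (h.θi.abs.mul_const L)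
        (Filter.Eventually.of_forall fun y => by
        rw [Real.norm_eq_abs, abs_mul]
        exact mul_le_mul_of_nonneg_left (hN _ _).1 (abs_nonneg _))
    rw [integral_mul_const] at h1
    nlinarith [mul_le_mul_of_nonneg_right h.θn L0.le]
  · refine integral_eq_zero_of_ae (Filter.Eventually.of_forall fun y => ?_)
    by_cases hy : D.H < |y|
    · simp [h.θs y hy]
    refine mul_eq_zero_of_right _ ((hN _ _).2 ?_)
    have h1 := norm_add_le ((z.1, z.2 - y) : P2) (0, y)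
    simp only [Prod.mk_add_mk, add_zero, sub_add_cancel, Prod.mk.eta, Prod.norm_mk (0 : ℝ) y, norm_zero,
      Real.norm_eq_abs, abs_nonneg, max_eq_right] at h1
    nlinarith [not_lt.1 hy]

theorem MU_bdd (h : D.Ok) : ∃ L : ℝ, ∀ P z, |D.MU P z| ≤ L := by
  exact s1a_MU_bdd h

theorem measurable_MU (h : D.Ok) (P : Tile) : Measurable (D.MU P) := by
  exact measurable_PhiMax h.hb h.hψ h.hu.meas _ _ h.hg

theorem wn_self (T : ℕ × ℤ) : D.wn 0 T T.1 = T := by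
  simp [wn, Geo.idx_lft]

theorem wn_of_nsub {T ν : ℕ × ℤ} (h : nsub T ν) : D.wn 0 T ν.1 = ν := by
  simp [wn, ((D.Γ.nsub_iff_idx T ν).1 h).2]

theorem nsub_wn {T : ℕ × ℤ} {a : ℕ} (ha : a ≤ T.1) : nsub T (D.wn 0 T a) := by
  exact (D.Γ.nsub_iff_idx _ _).2 ⟨ha, (add_zero _).symm⟩

theorem nsub_wn_wn (T : ℕ × ℤ) {a c : ℕ} (ha : a ≤ c) : nsub (D.wn 0 T c) (D.wn 0 T a) := by
  exact D.Γ.nsub_of_idx (s := D.Γ.lft T) ha (add_zero _).symm (add_zero _).symm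

theorem lft_wn (δ : ℤ) (T : ℕ × ℤ) (c : ℕ) :
    D.Γ.lft (D.wn δ T c) = D.Γ.lft (D.wn 0 T c) + δ * D.Γ.sz c := by
  simp only [Geo.lft, wn]
  push_cast
  ring

theorem s1a_up (δ : ℤ) (T : ℕ × ℤ) (a : ℕ) {c c' : ℕ} (hc : c ≤ c')
    (h : nsub (D.wn δ T c) (D.wn 0 T a)) : nsub (D.wn δ T c') (D.wn 0 T a) := by
  induction c', hc using Nat.le_induction with
  | base => exact h
  | succ c _ ih =>
    obtain ⟨a1, a2, a3⟩ := (D.Γ.nsub_iff _ _).1 ih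
    obtain ⟨-, b2, b3⟩ := (D.Γ.nsub_iff _ _).1 (D.nsub_wn_wn T (a := a) (c := c) a1)
    obtain ⟨-, c2, c3⟩ := (D.Γ.nsub_iff _ _).1 (D.nsub_wn_wn T (Nat.le_succ c))
    refine (D.Γ.nsub_iff _ _).2 ⟨Nat.le_succ_of_le a1, ?_⟩
    have h1 := D.Γ.sz_succ c
    have h2 := D.Γ.sz_pos (c + 1)
    rw [lft_wn δ] at a2 a3 ⊢
    simp only [wn, Nat.succ_eq_add_one] at *
    rcases le_total (0 : ℝ) δ with hδ | hδ
    · exact ⟨by nlinarith, by nlinarith⟩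
    · exact ⟨by nlinarith, by nlinarith⟩

/-- the set of `c` with `nsub (wn δ T c) (wn 0 T a)` is upward closed (use `Geo.nsub_iff`). -/
theorem thr_le_iff (δ : ℤ) (T : ℕ × ℤ) (a : ℕ) {c : ℕ} (hc : c ≤ D.kmax) :
    D.thr δ T a ≤ c ↔ nsub (D.wn δ T c) (D.wn 0 T a) := by
  constructor
  · intro h
    by_contra hn
    have : Finset.range (c + 1) ⊆ (Finset.range (D.kmax + 1)).filter
        (fun c => ¬ nsub (D.wn δ T c) (D.wn 0 T a)) := fun e he => by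
      have he' := Finset.mem_range.1 he
      exact Finset.mem_filter.2 ⟨Finset.mem_range.2 (by omega), fun h' => hn (s1a_up δ T a (by omega) h')⟩
    have h1 := Finset.card_le_card this
    rw [Finset.card_range] at h1
    exact absurd (h1.trans h) (by omega)
  · intro h
    refine (Finset.card_le_card (t := Finset.range c) fun e he => ?_).trans (Finset.card_range c).le
    exact Finset.mem_range.2 (not_le.1 fun h' => (Finset.mem_filter.1 he).2 (s1a_up δ T a h' h))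

theorem s1a_close (s s' : ℝ) {c c' : ℕ} (hc : c ≤ c') (h : |D.Γ.idx c' s - D.Γ.idx c' s'| ≤ 1) :
    |D.Γ.idx c s - D.Γ.idx c s'| ≤ 1 := by
  induction c', hc using Nat.le_induction with
  | base => exact h
  | succ c _ ih =>
    refine ih ?_
    rw [D.Γ.idx_add c 1 s, D.Γ.idx_add c 1 s', pow_one]
    rw [abs_le] at h ⊢
    omega

theorem s1a_lt {δ δ' : ℤ} (hδ : δ ∈ dW) {T : ℕ × ℤ} {c c' : ℕ} {s : ℝ} (h2 : D.isW δ' T c')
    (e1 : D.Γ.idx c s = (D.wn δ T c).2) (e2 : D.Γ.idx c' s = (D.wn δ' T c').2) : ¬ c < c' := fun hc => by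
  obtain ⟨e, rfl⟩ : ∃ e, c' = e + 1 := ⟨c' - 1, by omega⟩
  have h3 := h2.2.2
  simp only [wn] at e1 e2
  rw [← e2, Nat.add_sub_cancel, ← pow_one (2 : ℤ), ← D.Γ.idx_add e 1 s] at h3
  have h4 := s1a_close s _ (Nat.le_of_lt_succ hc) h3
  rw [e1, add_sub_cancel_left, abs_le] at h4
  simp only [dW, Finset.mem_insert, Finset.mem_singleton] at hδ
  omega

/-- the Whitney nodes of `T` are pairwise disjoint -/
theorem isW_unique {δ δ' : ℤ} (hδ : δ ∈ dW) (hδ' : δ' ∈ dW) {T : ℕ × ℤ} {c c' : ℕ} {s : ℝ}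
    (h1 : D.isW δ T c) (h2 : D.isW δ' T c') (e1 : D.Γ.idx c s = (D.wn δ T c).2)
    (e2 : D.Γ.idx c' s = (D.wn δ' T c').2) : c = c' ∧ δ = δ' := by
  obtain rfl : c = c' := le_antisymm (not_lt.1 (s1a_lt hδ' h1 e2 e1)) (not_lt.1 (s1a_lt hδ h2 e1 e2))
  exact ⟨rfl, add_left_cancel (e1.symm.trans e2)⟩

theorem wn_dist {δ : ℤ} (hδ : δ ∈ dW) {T : ℕ × ℤ} {c : ℕ} {s : ℝ}
    (e : D.Γ.idx c s = (D.wn δ T c).2) :
    D.Γ.sz c ≤ |D.Γ.lft T - s| ∧ |D.Γ.lft T - s| ≤ 4 * D.Γ.sz c := by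
  have h1 := (D.Γ.idx_eq_iff (D.wn δ T c) s).1 e
  have h2 := (D.Γ.idx_eq_iff (D.wn 0 T c) (D.Γ.lft T)).1 (add_zero _).symm
  have h3 := D.Γ.sz_pos c
  rw [lft_wn δ] at h1
  change _ ∧ _ < _ + D.Γ.sz c at h1 h2
  simp only [dW, Finset.mem_insert, Finset.mem_singleton] at hδ
  rcases hδ with rfl | rfl | rfl | rfl <;> push_cast at h1
  · exact ⟨le_abs.2 (Or.inl (by linarith [h1.2, h2.1])), abs_le.2 ⟨by linarith [h1.2, h2.1], by linarith [h1.1, h2.2]⟩⟩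
  · exact ⟨le_abs.2 (Or.inl (by linarith [h1.2, h2.1])), abs_le.2 ⟨by linarith [h1.2, h2.1], by linarith [h1.1, h2.2]⟩⟩
  · exact ⟨le_abs.2 (Or.inr (by linarith [h1.1, h2.2])), abs_le.2 ⟨by linarith [h1.2, h2.1], by linarith [h1.1, h2.2]⟩⟩
  · exact ⟨le_abs.2 (Or.inr (by linarith [h1.1, h2.2])), abs_le.2 ⟨by linarith [h1.2, h2.1], by linarith [h1.1, h2.2]⟩⟩

end S1Data

end Crest.Agent.R87
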