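import Crest.Agent.R87.S1A

/-! # R87 S1B: tops of the heavy boxes, the assignment `Asg`, measurability. -/

set_option autoImplicit false

namespace Crest.Agent.R87

open MeasureTheory Set
open scoped ENNReal Classical

namespace S1Data

variable {D : S1Data}


theorem s1b_dI_mul (k m : ℤ) : dI k ((m : ℝ) * 2 ^ k) = m := by
  unfold dI
  rw [mul_div_assoc, div_self (by positivity), mul_one, Int.floor_intCast]

theorem s1b_range {B : Box} {x : ℝ} (h : dI (D.kb B.c) x = B.j) :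
    D.ba B ≤ x ∧ x < D.ba B + 2 ^ D.kb B.c := by
  obtain ⟨h1, h2⟩ := mem_dInt.2 h
  unfold ba
  exact ⟨h1, by linarith⟩

/-- the box with node `(c, m)` that contains `z` -/
noncomputable def s1b_box (D : S1Data) (c : ℕ) (m : ℤ) (z : P2) : Box :=
  ⟨c, m, dI (D.kb c) z.1,
    ⌊(z.2 - D.Γ.lft (c, m) * (z.1 - (dI (D.kb c) z.1 : ℝ) * 2 ^ D.kb c)) / D.Lam⌋⟩

theorem s1b_inBox (c : ℕ) (m : ℤ) (z : P2) : D.inBox (D.s1b_box c m z) z := by
  have hL : 0 < D.Lam := Lam_pos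
  refine ⟨rfl, ?_, ?_⟩
  · have := Int.floor_le ((z.2 - D.Γ.lft (c, m) * (z.1 - (dI (D.kb c) z.1 : ℝ) * 2 ^ D.kb c)) / D.Lam)
    rw [le_div_iff₀ hL] at this
    simp only [base, ba, s1b_box, Box.node]
    linarith
  · have := Int.lt_floor_add_one
      ((z.2 - D.Γ.lft (c, m) * (z.1 - (dI (D.kb c) z.1 : ℝ) * 2 ^ D.kb c)) / D.Lam)
    rw [div_lt_iff₀ hL] at this
    simp only [base, ba, s1b_box, Box.node]
    linarith

theorem s1b_eq_box {B : Box} {z : P2} (h : D.inBox B z) : B = D.s1b_box B.c B.m z := by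
  have hL : 0 < D.Lam := Lam_pos
  obtain ⟨c, m, j, β⟩ := B
  obtain ⟨h1, h2, h3⟩ := h
  simp only [base, ba, Box.node] at h1 h2 h3
  simp only [s1b_box, h1, Box.mk.injEq, true_and]
  symm
  rw [Int.floor_eq_iff, le_div_iff₀ hL, div_lt_iff₀ hL]
  constructor <;> linarith

theorem s1b_fin_floor {g : P2 → ℝ} {S : Set P2} {M : ℝ} (h : ∀ z ∈ S, |g z| ≤ M) :
    ((fun z => ⌊g z⌋) '' S).Finite := by
  refine (finite_Icc ⌊-M⌋ ⌊M⌋).subset ?_
  rintro _ ⟨z, hz, rfl⟩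
  exact ⟨Int.floor_mono (abs_le.1 (h z hz)).1, Int.floor_mono (abs_le.1 (h z hz)).2⟩

theorem s1b_fin_box (c : ℕ) (m : ℤ) {S : Set P2} {M : ℝ} (h : ∀ z ∈ S, |z.1| ≤ M ∧ |z.2| ≤ M) :
    (D.s1b_box c m '' S).Finite := by
  have hL : 0 < D.Lam := Lam_pos
  have hp : (0 : ℝ) < 2 ^ D.kb c := by positivity
  have h1 : ((fun z : P2 => ⌊z.1 / 2 ^ D.kb c⌋) '' S).Finite :=
    s1b_fin_floor (M := M / 2 ^ D.kb c) fun z hz => by
      rw [abs_div, abs_of_pos hp]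
      exact div_le_div_of_nonneg_right (h z hz).1 hp.le
  have h2 : ((fun z : P2 => ⌊(z.2 - D.Γ.lft (c, m) *
      (z.1 - (dI (D.kb c) z.1 : ℝ) * 2 ^ D.kb c)) / D.Lam⌋) '' S).Finite :=
    s1b_fin_floor (M := (M + |D.Γ.lft (c, m)| * 2 ^ D.kb c) / D.Lam) fun z hz => by
      rw [abs_div, abs_of_pos hL]
      refine div_le_div_of_nonneg_right ((abs_sub _ _).trans (add_le_add (h z hz).2 ?_)) hL.le
      rw [abs_mul]
      refine mul_le_mul_of_nonneg_left ?_ (abs_nonneg _)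
      obtain ⟨e1, e2⟩ := (mem_dInt (k := D.kb c) (x := z.1)).2 rfl
      rw [abs_le]
      constructor <;> linarith
  refine ((h1.prod h2).image fun p => (⟨c, m, p.1, p.2⟩ : Box)).subset ?_
  rintro _ ⟨z, hz, rfl⟩
  exact ⟨(_, _), ⟨⟨z, hz, rfl⟩, ⟨z, hz, rfl⟩⟩, rfl⟩

theorem s1b_vis_bdd (γ : ℝ) (P : Tile) :
    ∃ M : ℝ, ∀ z ∈ {z | D.Γ.vis γ P z}, |z.1| ≤ M ∧ |z.2| ≤ M := by
  obtain ⟨X, hX⟩ : ∃ X, X = |D.Γ.ee γ * P.len| + |P.len| := ⟨_, rfl⟩
  refine ⟨max (|P.a| + X) (D.Γ.tt γ + (|(P.β : ℝ)| + |P.s| * X)), fun z hz => ?_⟩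
  obtain ⟨h1, h2, h3⟩ := hz
  have h4 : |z.1 - P.a| ≤ X := by
    have a1 := le_abs_self (D.Γ.ee γ * P.len)
    have a2 := le_abs_self P.len
    have a3 := abs_nonneg P.len
    rw [abs_le, hX]
    constructor <;> linarith
  constructor
  · refine le_trans ?_ (le_max_left _ _)
    have := abs_add_le P.a (z.1 - P.a)
    rw [add_sub_cancel] at this
    linarith
  · refine le_trans ?_ (le_max_right _ _)
    have h5 := abs_add_le (z.2 - P.line z.1) (P.line z.1)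
    rw [sub_add_cancel] at h5
    have h6 : |P.line z.1| ≤ |(P.β : ℝ)| + |P.s| * X := by
      unfold Tile.line
      refine (abs_add_le _ _).trans (add_le_add le_rfl ?_)
      rw [abs_mul]
      exact mul_le_mul_of_nonneg_left h4 (abs_nonneg _)
    linarith

theorem s1b_heavy_finite (ρ : ℕ) : {B | D.heavy ρ B}.Finite := by
  have h : (⋃ P ∈ (D.U : Set Tile), ⋃ c ∈ Iic P.k,
      D.s1b_box c (D.Γ.idx c P.s) '' {z | D.Γ.vis ρ P z}).Finite := by
    refine D.U.finite_toSet.biUnion fun P _ => (finite_Iic _).biUnion fun c _ => ?_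
    obtain ⟨M, hM⟩ := s1b_vis_bdd (D := D) ρ P
    exact s1b_fin_box _ _ hM
  refine h.subset fun B ⟨z, hz, hp⟩ => ?_
  obtain ⟨P, hP, ⟨h1, h2⟩, hv⟩ := hp.exists_mem
  refine mem_biUnion hP (mem_biUnion (show B.c ∈ Iic P.k from h1) ⟨z, hv, ?_⟩)
  have h3 : D.Γ.idx B.c P.s = B.m := h2
  rw [h3]
  exact (s1b_eq_box hz).symm

theorem s1b_sz_mul (c : ℕ) : D.Γ.sz c * 2 ^ D.kb c = D.Lam := by
  rw [two_pow_kb, mul_div_cancel₀ _ (D.Γ.sz_pos c).ne']

/-- The heavy boxes form a finite set (`c ≤ kmax`, `m` is determined by a member, the visible region is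
bounded); `exists_tops` with level `c` and relation `brel`.  Cover: the box `B'` with node `ν` containing `z` is
heavy; if `brel B' B` then `|y - base B x| ≤ Λ + 10 Λ + Λ`. -/
theorem exists_Tops (h : D.Ok) (ρ : ℕ) : ∃ Tp : Finset Box, D.Tops ρ Tp := by
  have hL : 0 < D.Lam := Lam_pos
  obtain ⟨Tp, h1, h2, h3⟩ := exists_tops (s1b_heavy_finite (D := D) ρ).toFinset Box.c D.brel
  have hmem : ∀ B, B ∈ (s1b_heavy_finite (D := D) ρ).toFinset ↔ D.heavy ρ B := fun B =>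
    Finite.mem_toFinset _
  refine ⟨Tp, fun B hB => (hmem B).1 (h1 hB), fun ν z hp => ?_, h3⟩
  obtain ⟨B', hB', hn⟩ : ∃ B' : Box, D.inBox B' z ∧ B'.node = ν :=
    ⟨D.s1b_box ν.1 ν.2 z, s1b_inBox _ _ _, rfl⟩
  subst hn
  have hd : |z.2 - D.base B' z.1| ≤ D.Lam := by
    obtain ⟨-, e1, e2⟩ := hB'
    rw [abs_le]
    constructor <;> linarith
  rcases h2 B' ((hmem B').2 ⟨z, hB', hp⟩) with hm | ⟨B, hB, hlt, r1, r2, r3⟩
  · exact ⟨B', hm, nsub_refl _, hB'.1, by linarith⟩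
  · refine ⟨B, hB, r1, ?_, ?_⟩
    · rw [← r2]
      refine dI_eq_of_le (k := D.kb B'.c) ?_ ?_
      · unfold kb
        omega
      · rw [hB'.1, ba, s1b_dI_mul]
    · obtain ⟨-, n1, n2⟩ := (D.Γ.nsub_iff _ _).1 r1
      have n3 := D.Γ.sz_pos B.node.1
      obtain ⟨x1, x2⟩ := s1b_range hB'.1
      have e : z.2 - D.base B z.1 = (z.2 - D.base B' z.1) +
          ((D.base B' (D.ba B') - D.base B (D.ba B')) +
            (D.Γ.lft B'.node - D.Γ.lft B.node) * (z.1 - D.ba B')) := by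
        unfold base
        ring
      have e2 : |(D.Γ.lft B'.node - D.Γ.lft B.node) * (z.1 - D.ba B')| ≤ D.Lam := by
        rw [abs_mul, ← s1b_sz_mul (D := D) B'.c]
        refine mul_le_mul ?_ ?_ (abs_nonneg _) (D.Γ.sz_pos _).le
        · have n4 : D.Γ.sz B'.node.1 = D.Γ.sz B'.c := rfl
          rw [abs_le]
          constructor <;> linarith
        · rw [abs_le]
          constructor <;> linarith
      rw [e]
      refine (abs_add_le _ _).trans ((add_le_add le_rfl (abs_add_le _ _)).trans ?_)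
      linarith

theorem top_le (h : D.Ok) {ρ : ℕ} {Tp : Finset Box} (hT : D.Tops ρ Tp) {T : ℕ × ℤ}
    (hm : T ∈ TN Tp) : T.1 ≤ D.kmax := by
  obtain ⟨B, hB, rfl⟩ := Finset.mem_image.1 hm
  obtain ⟨z, -, hp⟩ := hT.heavy B hB
  obtain ⟨P, hP, h1, -⟩ := hp.exists_mem
  exact h1.1.trans (h.asg.top_k P hP)

/-- `Perf.transfer` from the point `z0` of the heavy box: `|x - x0| ≤ 1.5 Λ / σ_T`, and for a member `P` of `T`
`|y - y0 - s_P (x - x0)| ≤ 13 Λ + Λ + 1.5 Λ`; `vis_move`. -/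
theorem perf_of_cand' {ρ : ℕ} {Tp : Finset Box} (hT : D.Tops ρ Tp) {T : ℕ × ℤ} {c : ℕ}
    (hc : c ≤ T.1) {z : P2} (hz : D.cand' Tp T c z) : Perf D.Γ D.U (ρ + 3 / 4) z ρ T := by
  have hL : 0 < D.Lam := Lam_pos
  obtain ⟨B, hB, rfl, c1, c2, c3⟩ := hz
  obtain ⟨z0, ⟨b1, b2, b3⟩, hp⟩ := hT.heavy B hB
  obtain ⟨x1, x2⟩ := s1b_range b1
  have hs := D.Γ.sz_pos B.c
  have hq : (0 : ℝ) < 2 ^ D.kb B.c := by positivity
  have hm : D.Lam / (2 * D.Γ.sz c) ≤ 2 ^ D.kb B.c / 2 := by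
    rw [two_pow_kb, div_div, mul_comm (D.Γ.sz B.c)]
    refine div_le_div_of_nonneg_left hL.le (by positivity) (mul_le_mul_of_nonneg_left ?_ zero_le_two)
    unfold Geo.sz
    exact div_le_div_of_nonneg_left (by positivity) (by positivity)
      (pow_le_pow_right₀ one_le_two hc)
  have hx : |z.1 - z0.1| ≤ 3 / 2 * 2 ^ D.kb B.c := by
    rw [abs_le]
    constructor <;> linarith
  refine hp.transfer fun P _ hm' hv => vis_move hv ?_ ?_
  · have l1 : (2 : ℝ) ^ B.c ≤ P.len := pow_le_pow_right₀ one_le_two hm'.1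
    have l2 : (2 : ℝ) ^ D.kb B.c = D.Lam / 2 ^ D.Γ.kK * 2 ^ B.c := by
      rw [two_pow_kb, Geo.sz]
      field_simp
    have l3 : D.Lam / 2 ^ D.Γ.kK * 2 ^ B.c ≤ D.Lam / 2 ^ D.Γ.kK * P.len :=
      mul_le_mul_of_nonneg_left l1 (by positivity)
    have l4 : ((ρ : ℝ) + 3 / 4 - ρ) * (100 * D.Lam / 2 ^ D.Γ.kK) * P.len =
        75 * (D.Lam / 2 ^ D.Γ.kK * P.len) := by ring
    rw [l4]
    linarith
  · obtain ⟨s1, s2⟩ := (D.Γ.idx_eq_iff B.node P.s).1 hm'.2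
    have e : z.2 - z0.2 - P.s * (z.1 - z0.1) = (z.2 - D.base B z.1) +
        ((D.base B z0.1 - z0.2) + (D.Γ.lft B.node - P.s) * (z.1 - z0.1)) := by
      unfold base
      ring
    have e1 : |D.base B z0.1 - z0.2| ≤ D.Lam := by
      rw [abs_le]
      constructor <;> linarith
    have e2 : |(D.Γ.lft B.node - P.s) * (z.1 - z0.1)| ≤ D.Γ.sz B.c * (3 / 2 * 2 ^ D.kb B.c) := by
      rw [abs_mul]
      refine mul_le_mul ?_ hx (abs_nonneg _) hs.le
      have n4 : D.Γ.sz B.node.1 = D.Γ.sz B.c := rfl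
      rw [abs_le]
      constructor <;> linarith
    have e3 := s1b_sz_mul (D := D) B.c
    rw [e]
    refine (abs_add_le _ _).trans ((add_le_add le_rfl (abs_add_le _ _)).trans ?_)
    nlinarith

theorem cand'_of_Asg {Tp : Finset Box} {ν T : ℕ × ℤ} {z : P2} (hz : D.Asg Tp ν T z) (c : ℕ)
    {t : ℝ} (ht : |t| ≤ D.Lam / (2 * D.Γ.sz c)) :
    D.cand' Tp T c (z.1 + t, z.2 + D.Γ.lft T * t) := by
  obtain ⟨⟨B, hB, rfl, -, r1, r2⟩, -⟩ := hz
  obtain ⟨x1, x2⟩ := s1b_range r1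
  obtain ⟨t1, t2⟩ := abs_le.1 ht
  refine ⟨B, hB, rfl, by simp only; linarith, by simp only; linarith, ?_⟩
  have e : z.2 + D.Γ.lft B.node * t - D.base B (z.1 + t) = z.2 - D.base B z.1 := by
    unfold base
    ring
  simp only
  rw [e]
  exact r2

theorem nsub_of_Asg {Tp : Finset Box} {ν T : ℕ × ℤ} {z : P2} (hz : D.Asg Tp ν T z) :
    nsub T ν ∧ T ∈ TN Tp := by
  obtain ⟨⟨B, hB, rfl, h1, -⟩, -⟩ := hz
  exact ⟨h1, Finset.mem_image_of_mem _ hB⟩

theorem Asg_exists {ρ : ℕ} {Tp : Finset Box} (hT : D.Tops ρ Tp) {ν : ℕ × ℤ} {z : P2}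
    (hp : Perf D.Γ D.U ρ z ρ ν) : ∃ T, D.Asg Tp ν T z := by
  obtain ⟨B0, hB0, hc0⟩ := hT.cover ν z hp
  obtain ⟨B, hB, hmax⟩ := Finset.exists_max_image (Tp.filter fun B => D.cand ν z B) Box.c
    ⟨B0, Finset.mem_filter.2 ⟨hB0, hc0⟩⟩
  obtain ⟨h1, h2⟩ := Finset.mem_filter.1 hB
  exact ⟨B.node, ⟨B, h1, rfl, h2⟩, fun B' hB' hc => hmax B' (Finset.mem_filter.2 ⟨hB', hc⟩)⟩

theorem s1b_perf_of_Asg {ρ : ℕ} {Tp : Finset Box} (hT : D.Tops ρ Tp) {ν T : ℕ × ℤ} {z : P2}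
    (h : D.Asg Tp ν T z) : Perf D.Γ D.U ((ρ + 1 : ℕ) : ℝ) z ρ T := by
  have hL : 0 < D.Lam := Lam_pos
  have hs := D.Γ.sz_pos T.1
  have h1 := cand'_of_Asg h T.1 (t := 0) (by rw [abs_zero]; positivity)
  simp only [add_zero, mul_zero, Prod.mk.eta] at h1
  refine perf_grade_mono ?_ (perf_of_cand' hT le_rfl h1)
  push_cast
  linarith

/-- two different nodes with the same cut are incomparable and both `ρ`-perfect at `z`. -/
theorem Asg_unique {ρ : ℕ} {Tp : Finset Box} (hT : D.Tops ρ Tp) {ν T T' : ℕ × ℤ} {z : P2}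
    (hp : ¬ Perf D.Γ D.U ((ρ + 1 : ℕ) : ℝ) z (ρ + 1) ν) (h1 : D.Asg Tp ν T z) (h2 : D.Asg Tp ν T' z) :
    T = T' := by
  have hc : T.1 = T'.1 := by
    obtain ⟨⟨B, hB, rfl, hc⟩, hm⟩ := h1
    obtain ⟨⟨B', hB', rfl, hc'⟩, hm'⟩ := h2
    exact le_antisymm (hm' B hB hc) (hm B' hB' hc')
  by_contra hne
  refine hp ⟨T, T', (nsub_of_Asg h1).1, (nsub_of_Asg h2).1, fun hn => hne ?_, fun hn => hne ?_,
    s1b_perf_of_Asg hT h1, s1b_perf_of_Asg hT h2⟩
  · have := hn.2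
    rw [hc, Nat.sub_self, pow_zero, Int.ediv_one] at this
    exact Prod.ext hc this
  · have := hn.2
    rw [hc, Nat.sub_self, pow_zero, Int.ediv_one] at this
    exact Prod.ext hc this.symm

theorem s1b_countable : Countable Box := by
  have : Function.Injective fun B : Box => (B.c, B.m, B.j, B.β) := by
    rintro ⟨c, m, j, β⟩ ⟨c', m', j', β'⟩ h
    simp only [Prod.mk.injEq] at h
    obtain ⟨rfl, rfl, rfl, rfl⟩ := h
    rfl
  exact this.countable

theorem s1b_strip (B : Box) (ρ : ℝ) : MeasurableSet {z : P2 | |z.2 - D.base B z.1| ≤ ρ} := by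
  refine (isClosed_le ?_ continuous_const).measurableSet
  unfold base
  fun_prop

theorem measurableSet_reg (B : Box) : MeasurableSet (D.reg B) := by
  exact (measurableSet_dI_fst _ _).inter (s1b_strip B _)

theorem measurableSet_Asg (Tp : Finset Box) (ν T : ℕ × ℤ) : MeasurableSet {z | D.Asg Tp ν T z} := by
  have := s1b_countable
  have hc : ∀ B, Measurable fun z => D.cand ν z B := fun B =>
    measurable_const.and (measurableSet_reg B).mem
  exact measurableSet_setOfPred.2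
    ((Measurable.exists fun B => measurable_const.and (measurable_const.and (hc B))).and
      (Measurable.forall fun B => measurable_const.imp ((hc B).imp measurable_const)))

theorem measurableSet_NG (ρ : ℕ) (Tp : Finset Box) (δ : ℤ) (T : ℕ × ℤ) (c : ℕ) :
    MeasurableSet (D.NG ρ Tp δ T c) := by
  have := s1b_countable
  have h1 : Measurable fun z => D.cand' Tp T c z :=
    Measurable.exists fun B => measurable_const.and (measurable_const.and
      ((measurableSet_le measurable_const measurable_fst).mem.and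
        ((measurableSet_le measurable_fst measurable_const).mem.and (s1b_strip B _).mem)))
  exact measurableSet_setOfPred.2 (h1.and ((measurableSet_Cnt _ _).mem.and
    (Measurable.exists fun ν0 => Measurable.exists fun ν1 => measurable_const.and
      (measurable_const.and (measurable_const.and (measurable_const.and
        ((measurableSet_Perf _ _ _ _ _).mem.and (measurableSet_Perf _ _ _ _ _).mem))))).not))

theorem measurableSet_NW (ρ : ℕ) (Tp : Finset Box) (δ : ℤ) (T : ℕ × ℤ) (c : ℕ) :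
    MeasurableSet (D.NW ρ Tp δ T c) := by
  unfold NW
  split_ifs
  · exact measurableSet_NG ρ Tp δ T c
  · exact MeasurableSet.univ

variable {ρ : ℕ} {Tp : Finset Box} {w : ℕ × ℤ → P2 → ℝ} {B : ℝ} {μ : Tile → ℝ≥0∞}

theorem measurable_wk (hw : ∀ ν, Measurable (w ν)) (ν : ℕ × ℤ) : Measurable (D.wk ρ w ν) := by
  exact Measurable.ite (measurableSet_Perf _ _ _ _ _) measurable_const (hw ν)

theorem measurable_vT (hw : ∀ ν, Measurable (w ν)) (T : ℕ × ℤ) (a : ℕ) :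
    Measurable (D.vT ρ Tp w T a) := by
  exact Measurable.ite ((measurableSet_Perf _ _ _ _ _).inter (measurableSet_Asg _ _ _)) (hw _)
    measurable_const

theorem measurable_VT (hw : ∀ ν, Measurable (w ν)) (δ : ℤ) (T : ℕ × ℤ) (c : ℕ) :
    Measurable (D.VT ρ Tp w δ T c) := by
  exact Finset.measurable_fun_sum _ fun a _ => measurable_vT hw T a

theorem vT_nonneg (hw : ∀ ν z, 0 ≤ w ν z) (T : ℕ × ℤ) (a : ℕ) (z : P2) : 0 ≤ D.vT ρ Tp w T a z := by
  unfold vT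
  split_ifs
  · exact hw _ _
  · exact le_rfl

theorem vT_le (hw : ∀ ν z, 0 ≤ w ν z) (T : ℕ × ℤ) (a : ℕ) (z : P2) :
    D.vT ρ Tp w T a z ≤ w (D.wn 0 T a) z := by
  unfold vT
  split_ifs
  · exact le_rfl
  · exact hw _ _

theorem vT_ne_zero {T : ℕ × ℤ} {a : ℕ} {z : P2} (hz : D.vT ρ Tp w T a z ≠ 0) :
    w (D.wn 0 T a) z ≠ 0 ∧ Perf D.Γ D.U ρ z ρ (D.wn 0 T a) ∧ D.Asg Tp (D.wn 0 T a) T z := by
  unfold vT at hz
  split_ifs at hz with h
  · exact ⟨hz, h⟩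
  · exact absurd rfl hz

/-- `Sys.ov` at the slope `lft T` -/
theorem vT_card (hw : D.Sys (ρ + 1) B μ w) (T : ℕ × ℤ) (I : Finset ℕ) (z : P2) :
    (I.filter (fun a => D.vT ρ Tp w T a z ≠ 0)).card ≤ 2 := by
  refine hw.ov z (D.Γ.lft T) _ fun c hc => ?_
  have := (vT_ne_zero (Finset.mem_filter.1 hc).2).1
  simpa only [wn, add_zero] using this

theorem vT_sum_le (hw : D.Sys (ρ + 1) B μ w) (T : ℕ × ℤ) (I : Finset ℕ) (z : P2) :
    ∑ a ∈ I, D.vT ρ Tp w T a z ≤ 2 * B := by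
  have hB : 0 ≤ B := (hw.nonneg T z).trans (hw.le T z)
  rw [← Finset.sum_filter_ne_zero]
  refine (Finset.sum_le_card_nsmul _ _ B fun a _ =>
    (vT_le hw.nonneg T a z).trans (hw.le _ z)).trans ?_
  rw [nsmul_eq_mul]
  exact mul_le_mul_of_nonneg_right (by exact_mod_cast vT_card hw T I z) hB

/-- for a fixed node `ν = (a, m)`, the weights of the different tops add up to at most `w ν` (`Asg_unique`). -/
theorem sum_vT_le (hT : D.Tops ρ Tp) (hw : D.Sys (ρ + 1) B μ w) (ν : ℕ × ℤ) (z : P2) :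
    ∑ T ∈ (TN Tp).filter (fun T => D.wn 0 T ν.1 = ν), D.vT ρ Tp w T ν.1 z ≤ w ν z := by
  by_cases h : ∃ T ∈ (TN Tp).filter (fun T => D.wn 0 T ν.1 = ν), D.vT ρ Tp w T ν.1 z ≠ 0
  · obtain ⟨T, hm, hne⟩ := h
    have e := (Finset.mem_filter.1 hm).2
    obtain ⟨h1, -, h2⟩ := vT_ne_zero hne
    rw [e] at h1 h2
    rw [Finset.sum_eq_single_of_mem T hm fun T' hm' hne' => ?_]
    · have := vT_le (D := D) (ρ := ρ) (Tp := Tp) hw.nonneg T ν.1 z
      rwa [e] at this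
    · by_contra hc
      obtain ⟨-, -, h3⟩ := vT_ne_zero hc
      rw [(Finset.mem_filter.1 hm').2] at h3
      exact hne' (Asg_unique hT (hw.np ν z h1) h3 h2)
  · push Not at h
    rw [Finset.sum_eq_zero h]
    exact hw.nonneg ν z

/-- at most two pairs `(T, a)` with `vT T a z ≠ 0` have the slope `s` in the ancestor with cut `a`. -/
theorem card_pairs (hT : D.Tops ρ Tp) (hw : D.Sys (ρ + 1) B μ w) (z : P2) (s : ℝ)
    (V : Finset ((ℕ × ℤ) × ℕ))
    (hV : ∀ p ∈ V, D.vT ρ Tp w p.1 p.2 z ≠ 0 ∧ D.Γ.idx p.2 s = (D.wn 0 p.1 p.2).2) : V.card ≤ 2 := by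
  have e : ∀ p ∈ V, D.wn 0 p.1 p.2 = (p.2, D.Γ.idx p.2 s) := fun p hp =>
    Prod.ext rfl (hV p hp).2.symm
  have hinj : Set.InjOn Prod.snd (V : Set ((ℕ × ℤ) × ℕ)) := by
    intro p hp q hq hpq
    obtain ⟨h1, -, h2⟩ := vT_ne_zero (hV p hp).1
    obtain ⟨-, -, h3⟩ := vT_ne_zero (hV q hq).1
    rw [e p hp] at h1 h2
    rw [e q hq, ← hpq] at h3
    exact Prod.ext (Asg_unique hT (hw.np _ z h1) h2 h3) hpq
  rw [← Finset.card_image_of_injOn hinj]
  refine hw.ov z s _ fun c hc => ?_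
  obtain ⟨p, hp, rfl⟩ := Finset.mem_image.1 hc
  have := (vT_ne_zero (hV p hp).1).1
  rwa [e p hp] at this

end S1Data

end Crest.Agent.R87
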