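import Crest.Agent.R87.S1A

/-! # R87 S1C: the decomposition of `F (wn 0 T a)` around the spine of `T`. -/

set_option autoImplicit false

namespace Crest.Agent.R87

open MeasureTheory Set
open scoped ENNReal Classical

namespace S1Data

variable {D : S1Data}


theorem sc_succ (c : ℕ) (s : ℝ) : D.Γ.idx c s = D.Γ.idx (c + 1) s / 2 := by
  simpa using D.Γ.idx_add c 1 s

theorem sc_down {P : ℤ → Prop} (hP : ∀ X Y : ℤ, P (X - Y) → P (X / 2 - Y / 2)) (T : ℕ × ℤ) (z : P2)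
    {c c' : ℕ} (hc : c ≤ c') (h : P (D.di T c' z)) : P (D.di T c z) := by
  induction c', hc using Nat.le_induction with
  | base => exact h
  | succ n _ ih =>
    refine ih ?_
    have := hP _ _ h
    rwa [← sc_succ, ← sc_succ] at this

theorem sc_meas (h : D.Ok) (c : ℕ) (P : ℤ → Prop) : MeasurableSet {z | P (D.Γ.idx c (D.u z))} :=
  ((D.Γ.measurable_idx c).comp h.hu.meas) (MeasurableSet.of_discrete (s := {m | P m}))

theorem sc_meas_spF (h : D.Ok) (δ : ℤ) (T : ℕ × ℤ) (k : ℕ) : MeasurableSet (D.spF δ T k) :=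
  (h.asg.famT.meas k).inter
    (sc_meas h k fun m => m - D.Γ.idx k (D.Γ.lft T) = δ ∧ (k < T.1 ∨ (k = T.1 ∧ δ = 0)))

theorem fam_spF (h : D.Ok) {δ : ℤ} (hδ : δ ∈ ({-1, 0, 1} : Finset ℤ)) (T : ℕ × ℤ) :
    Fam D.G (D.spF δ T) := by
  -- `|di (k+1)| ≤ 1 → |di k| ≤ 1`, `di (k+1) = 0 → di k = 0`; `{k : di k = -1}` is the intersection of the
  -- downward closed set `|di k| ≤ 1` with the upward closed set `u z < lft (wn 0 T k)`.
  refine ⟨sc_meas_spF h δ T, fun k z hz => h.asg.famT.sub k hz.1,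
    fun z k1 k2 k3 h12 h23 h1 h3 => ⟨h.asg.famT.conv z k1 k2 k3 h12 h23 h1.1 h3.1, ?_, ?_⟩⟩
  · have e1 := h1.2.1
    have e3 := h3.2.1
    have a1 := sc_down (D := D) (P := fun m => m = 0) (fun X Y _ => by omega) T z h12
    have a2 := sc_down (D := D) (P := fun m => m = 0) (fun X Y _ => by omega) T z h23
    have a3 := sc_down (D := D) (P := fun m => m = 0 ∨ m = 1) (fun X Y _ => by omega) T z h23
    have a4 := sc_down (D := D) (P := fun m => m = 0 ∨ m = -1) (fun X Y _ => by omega) T z h23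
    simp only [Finset.mem_insert, Finset.mem_singleton] at hδ
    omega
  · have e3 := h3.2.2
    omega

theorem spF_slope {δ : ℤ} (hδ : δ ∈ ({-1, 0, 1} : Finset ℤ)) {T : ℕ × ℤ} {k : ℕ} {z : P2}
    (hz : z ∈ D.spF δ T k) : 2 ^ k * |D.u z - D.Γ.lft T| ≤ 2 ^ (D.Γ.kK + 1) := by
  obtain ⟨h1, h2⟩ := (D.Γ.idx_eq_iff (k, D.Γ.idx k (D.u z)) _).1 rfl
  obtain ⟨h3, h4⟩ := (D.Γ.idx_eq_iff (k, D.Γ.idx k (D.Γ.lft T)) _).1 rfl
  have e : D.Γ.idx k (D.u z) = D.Γ.idx k (D.Γ.lft T) + δ := by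
    have := hz.2.1
    unfold di at this
    omega
  have hs := D.Γ.sz_pos k
  have h5 : |D.u z - D.Γ.lft T| ≤ 2 * D.Γ.sz k := by
    generalize D.Γ.lft T = l at *
    simp only [Geo.lft, e] at h1 h2 h3 h4
    push_cast at h1 h2
    simp only [Finset.mem_insert, Finset.mem_singleton] at hδ
    rw [abs_le]
    rcases hδ with rfl | rfl | rfl <;> push_cast at h1 h2 <;> constructor <;> nlinarith
  refine (mul_le_mul_of_nonneg_left h5 (by positivity)).trans (le_of_eq ?_)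
  unfold Geo.sz
  rw [pow_succ]
  field_simp

/-- truth value -/
noncomputable def sc_b (p : Prop) : ℤ := if p then 1 else 0

theorem sc_b_pos {p : Prop} (h : p) : sc_b p = 1 := if_pos h

theorem sc_b_neg {p : Prop} (h : ¬ p) : sc_b p = 0 := if_neg h

theorem sc_tele {d : ℕ → ℤ} {a : ℕ} (ha : d a = 0) (hd : ∀ c, 2 ≤ |d c| → 2 ≤ |d (c + 1)|) (m : ℕ) :
    ∑ c ∈ Finset.range (m + 1), sc_b (a ≤ c ∧ 1 ≤ c ∧ |d (c - 1)| ≤ 1 ∧ 2 ≤ |d c|) =
      sc_b (a ≤ m ∧ 2 ≤ |d m|) := by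
  have h0 : ∀ c, a = c → |d c| = 0 := fun c hc => by rw [← hc, ha, abs_zero]
  induction m with
  | zero =>
    have := h0 0
    rw [Finset.sum_range_one, sc_b_neg (by omega), sc_b_neg (by omega)]
  | succ m ih =>
    rw [Finset.sum_range_succ, ih, Nat.add_sub_cancel]
    have h1 := h0 (m + 1)
    have h2 := hd m
    generalize |d m| = x at *
    generalize |d (m + 1)| = y at *
    unfold sc_b
    split_ifs <;> omega

theorem sc_four {x : ℤ} {Q Q' : Prop} (h : Q → -3 ≤ x ∧ x ≤ 3) (h' : Q' ↔ Q ∧ 2 ≤ |x|) :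
    ∑ δ ∈ dW, sc_b (x = δ ∧ Q) = sc_b Q' := by
  rw [h', dW, Finset.sum_insert (by decide), Finset.sum_insert (by decide), Finset.sum_insert (by decide),
    Finset.sum_singleton]
  by_cases hQ : Q
  · obtain ⟨h1, h2⟩ := h hQ
    interval_cases x <;> simp [sc_b, hQ]
  · simp [sc_b, hQ]

theorem sc_fin {a k t : ℕ} (ha : a ≤ t) {dk dm X X' m : ℤ} (hX : X = X' / 2) (h1 : k ≤ t → dm = dk)
    (h2 : t ≤ k → dm = X - m) :
    sc_b (a ≤ k) = (sc_b (a ≤ k ∧ dk = -1 ∧ (k < t ∨ (k = t ∧ (-1 : ℤ) = 0))) +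
        (sc_b (a ≤ k ∧ dk = 0 ∧ (k < t ∨ (k = t ∧ (0 : ℤ) = 0))) +
          sc_b (a ≤ k ∧ dk = 1 ∧ (k < t ∨ (k = t ∧ (1 : ℤ) = 0))))) +
      (sc_b (a ≤ t ∧ t ≤ k ∧ X = m - 1) + (sc_b (a ≤ t ∧ t ≤ k ∧ X = m + 1) +
        (sc_b (a ≤ t + 1 ∧ t + 1 ≤ k ∧ X' = 2 * m) + sc_b (a ≤ t + 1 ∧ t + 1 ≤ k ∧ X' = 2 * m + 1)))) +
      sc_b (a ≤ min k t ∧ 2 ≤ |dm|) := by
  have hx : 2 ≤ |dm| ↔ 2 ≤ dm ∨ dm ≤ -2 := by
    rw [le_abs]
    omega
  rw [hx]
  rcases lt_trichotomy k t with h | h | h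
  · rw [sc_b_neg (p := a ≤ t ∧ t ≤ k ∧ X = m - 1) (by omega), sc_b_neg (p := a ≤ t ∧ t ≤ k ∧ X = m + 1) (by omega),
      sc_b_neg (p := a ≤ t + 1 ∧ t + 1 ≤ k ∧ X' = 2 * m) (by omega),
      sc_b_neg (p := a ≤ t + 1 ∧ t + 1 ≤ k ∧ X' = 2 * m + 1) (by omega), min_eq_left h.le]
    have := h1 h.le
    unfold sc_b
    split_ifs <;> omega
  · rw [sc_b_neg (p := a ≤ t + 1 ∧ t + 1 ≤ k ∧ X' = 2 * m) (by omega),
      sc_b_neg (p := a ≤ t + 1 ∧ t + 1 ≤ k ∧ X' = 2 * m + 1) (by omega),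
      sc_b_neg (p := a ≤ k ∧ dk = -1 ∧ (k < t ∨ (k = t ∧ (-1 : ℤ) = 0))) (by omega),
      sc_b_neg (p := a ≤ k ∧ dk = 1 ∧ (k < t ∨ (k = t ∧ (1 : ℤ) = 0))) (by omega), min_eq_left h.le]
    have := h1 h.le
    have := h2 h.ge
    unfold sc_b
    split_ifs <;> omega
  · rw [sc_b_neg (p := a ≤ k ∧ dk = -1 ∧ (k < t ∨ (k = t ∧ (-1 : ℤ) = 0))) (by omega),
      sc_b_neg (p := a ≤ k ∧ dk = 0 ∧ (k < t ∨ (k = t ∧ (0 : ℤ) = 0))) (by omega),
      sc_b_neg (p := a ≤ k ∧ dk = 1 ∧ (k < t ∨ (k = t ∧ (1 : ℤ) = 0))) (by omega), min_eq_right h.le]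
    have := h2 h.le
    unfold sc_b
    split_ifs <;> omega

theorem sc_point {T : ℕ × ℤ} {a : ℕ} (ha : a ≤ T.1) {k : ℕ} (hk : k ≤ D.kmax) (w : P2) :
    sc_b (True ∧ a ≤ k ∧ D.Γ.idx a (D.u w) = (D.wn 0 T a).2) =
      (∑ δ ∈ ({-1, 0, 1} : Finset ℤ), sc_b (True ∧ D.thr δ T a ≤ k ∧
        D.di T k w = δ ∧ (k < T.1 ∨ (k = T.1 ∧ δ = 0))))
      + (∑ W ∈ res T, sc_b (nsub W (D.wn 0 T a) ∧ W.1 ≤ k ∧ D.Γ.idx W.1 (D.u w) = W.2))
      + ∑ δ ∈ dW, ∑ c ∈ Finset.range (D.kmax + 1), sc_b ((D.thr δ T a ≤ c ∧ D.isW δ T c) ∧ c ≤ k ∧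
          D.Γ.idx c (D.u w) = (D.wn δ T c).2) := by
  have hn : ∀ W : ℕ × ℤ, D.Γ.idx W.1 (D.u w) = W.2 → (nsub W (D.wn 0 T a) ↔ a ≤ W.1 ∧ D.di T a w = 0) := by
    intro W hW
    rw [D.Γ.nsub_iff_of_idx hW]
    simp only [wn, di, add_zero, sub_eq_zero]
  have ht : ∀ (δ : ℤ) (c : ℕ), c ≤ D.kmax → D.di T c w = δ →
      (D.thr δ T a ≤ c ↔ a ≤ c ∧ D.di T a w = 0) := by
    intro δ c hc hd
    rw [thr_le_iff δ T a hc]
    refine hn (D.wn δ T c) ?_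
    simp only [wn, di] at hd ⊢
    omega
  have e1 : ∀ δ : ℤ, (True ∧ D.thr δ T a ≤ k ∧ D.di T k w = δ ∧ (k < T.1 ∨ (k = T.1 ∧ δ = 0))) ↔
      (D.di T a w = 0 ∧ a ≤ k ∧ D.di T k w = δ ∧ (k < T.1 ∨ (k = T.1 ∧ δ = 0))) := by
    intro δ
    have := ht δ k hk
    exact ⟨fun h => ⟨((this h.2.2.1).1 h.2.1).2, ((this h.2.2.1).1 h.2.1).1, h.2.2⟩,
      fun h => ⟨trivial, (this h.2.2.1).2 ⟨h.2.1, h.1⟩, h.2.2⟩⟩
  have e2 : ∀ W : ℕ × ℤ, (nsub W (D.wn 0 T a) ∧ W.1 ≤ k ∧ D.Γ.idx W.1 (D.u w) = W.2) ↔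
      (D.di T a w = 0 ∧ a ≤ W.1 ∧ W.1 ≤ k ∧ D.Γ.idx W.1 (D.u w) = W.2) := by
    intro W
    have := hn W
    exact ⟨fun h => ⟨((this h.2.2).1 h.1).2, ((this h.2.2).1 h.1).1, h.2⟩,
      fun h => ⟨(this h.2.2.2).2 ⟨h.2.1, h.1⟩, h.2.2⟩⟩
  have e3 : ∀ c ∈ Finset.range (D.kmax + 1), (∑ δ ∈ dW, sc_b ((D.thr δ T a ≤ c ∧ D.isW δ T c) ∧ c ≤ k ∧
      D.Γ.idx c (D.u w) = (D.wn δ T c).2)) = sc_b ((c < min k T.1 + 1 ∧ D.di T a w = 0) ∧
        a ≤ c ∧ 1 ≤ c ∧ |D.di T (c - 1) w| ≤ 1 ∧ 2 ≤ |D.di T c w|) := by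
    intro c hc
    have hc' : c ≤ D.kmax := Nat.le_of_lt_succ (Finset.mem_range.1 hc)
    have e4 : ∀ δ : ℤ, ((D.thr δ T a ≤ c ∧ D.isW δ T c) ∧ c ≤ k ∧ D.Γ.idx c (D.u w) = (D.wn δ T c).2) ↔
        (D.di T c w = δ ∧ D.di T a w = 0 ∧ a ≤ c ∧ 1 ≤ c ∧ c ≤ T.1 ∧ c ≤ k ∧ |D.di T (c - 1) w| ≤ 1) := by
      intro δ
      have e5 : D.Γ.idx c (D.u w) = (D.wn δ T c).2 ↔ D.di T c w = δ := by
        simp only [wn, di]
        omega
      have e6 : D.di T c w = δ → 1 ≤ c →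
          (D.Γ.idx c (D.Γ.lft T) + δ) / 2 - D.Γ.idx (c - 1) (D.Γ.lft T) = D.di T (c - 1) w := by
        intro hd h1
        have := sc_succ (D := D) (c - 1) (D.u w)
        rw [Nat.sub_add_cancel h1] at this
        simp only [di] at hd ⊢
        omega
      rw [e5]
      constructor
      · rintro ⟨⟨h1, h2, h3, h4⟩, h5, h6⟩
        rw [e6 h6 h2] at h4
        obtain ⟨h7, h8⟩ := (ht δ c hc' h6).1 h1
        exact ⟨h6, h8, h7, h2, h3, h5, h4⟩
      · rintro ⟨h6, h8, h7, h2, h3, h5, h4⟩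
        rw [← e6 h6 h2] at h4
        exact ⟨⟨(ht δ c hc' h6).2 ⟨h7, h8⟩, h2, h3, h4⟩, h5, h6⟩
    simp only [e4]
    refine sc_four ?_ ?_
    · rintro ⟨-, -, h1, -, -, h2⟩
      have a1 := sc_succ (D := D) (c - 1) (D.u w)
      have a2 := sc_succ (D := D) (c - 1) (D.Γ.lft T)
      rw [Nat.sub_add_cancel h1] at a1 a2
      rw [abs_le] at h2
      simp only [di] at h2 ⊢
      omega
    · rw [Nat.lt_succ_iff, le_min_iff]
      exact ⟨fun ⟨⟨⟨h1, h2⟩, h3⟩, h4, h5, h6, h7⟩ => ⟨⟨h3, h4, h5, h2, h1, h6⟩, h7⟩,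
        fun ⟨⟨h3, h4, h5, h2, h1, h6⟩, h7⟩ => ⟨⟨⟨h1, h2⟩, h3⟩, h4, h5, h6, h7⟩⟩
  have e8 : D.Γ.idx a (D.u w) = (D.wn 0 T a).2 ↔ D.di T a w = 0 := by
    simp only [wn, di]
    omega
  rw [Finset.sum_comm, Finset.sum_congr rfl e3]
  simp only [e1, e2, e8]
  by_cases hH : D.di T a w = 0
  · simp only [hH, and_true, true_and]
    have e7 : ∑ c ∈ Finset.range (D.kmax + 1), sc_b (c < min k T.1 + 1 ∧
        a ≤ c ∧ 1 ≤ c ∧ |D.di T (c - 1) w| ≤ 1 ∧ 2 ≤ |D.di T c w|) =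
        sc_b (a ≤ min k T.1 ∧ 2 ≤ |D.di T (min k T.1) w|) := by
      rw [← sc_tele (d := fun c => D.di T c w) hH fun c hc => ?_]
      · symm
        refine Finset.sum_subset_zero_on_sdiff (Finset.range_subset_range.2 (by omega)) (fun c hc => ?_)
          fun c hc => ?_
        · exact sc_b_neg fun h => (Finset.mem_sdiff.1 hc).2 (Finset.mem_range.2 h.1)
        · rw [and_iff_right (Finset.mem_range.1 hc)]
      · by_contra hc'
        have := sc_down (D := D) (P := fun m => |m| < 2) (fun X Y h => by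
          rw [abs_lt] at h ⊢
          omega) T w (Nat.le_succ c) (not_le.1 hc')
        exact absurd hc (not_le.2 this)
    rw [e7, res, Finset.sum_insert (by decide), Finset.sum_insert (by decide), Finset.sum_singleton,
      Finset.sum_insert (by simp [Prod.ext_iff]; omega), Finset.sum_insert (by simp [Prod.ext_iff]),
      Finset.sum_insert (by simp [Prod.ext_iff]), Finset.sum_singleton]
    refine sc_fin ha (sc_succ T.1 (D.u w)) (fun h => by rw [min_eq_left h]) fun h => ?_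
    rw [min_eq_right h, di, D.Γ.idx_lft]
  · simp [hH, sc_b]

variable (D) in
/-- the integrand of the scale `k` -/
noncomputable def sc_f (z : P2) (k : ℕ) : P2 → ℝ :=
  (D.T k).indicator fun w => D.g w * ker D.b D.ψ D.u k w z

variable (D) in
/-- the terms counted with integer multiplicities -/
noncomputable def sc_J (z : P2) (c : ℕ → P2 → ℤ) : ℝ :=
  ∑ k ∈ Finset.range (D.kmax + 1), ∫ w, (c k w : ℝ) * D.sc_f z k w

variable (D) in
/-- integrable multiplicities -/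
def sc_I (z : P2) (c : ℕ → P2 → ℤ) : Prop := ∀ k, Integrable fun w => (c k w : ℝ) * D.sc_f z k w

theorem sc_I.add {z : P2} {c c' : ℕ → P2 → ℤ} (h : D.sc_I z c) (h' : D.sc_I z c') :
    D.sc_I z fun k w => c k w + c' k w := fun k => by
  simp only [Int.cast_add, add_mul]
  exact (h k).add (h' k)

theorem sc_I.sum {z : P2} {ι : Type} (V : Finset ι) {c : ι → ℕ → P2 → ℤ} (h : ∀ i, D.sc_I z (c i)) :
    D.sc_I z fun k w => ∑ i ∈ V, c i k w := fun k => by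
  simp only [Int.cast_sum, Finset.sum_mul]
  exact integrable_finsetSum V fun i _ => h i k

theorem sc_J_add {z : P2} {c c' : ℕ → P2 → ℤ} (h : D.sc_I z c) (h' : D.sc_I z c') :
    D.sc_J z (fun k w => c k w + c' k w) = D.sc_J z c + D.sc_J z c' := by
  simp only [sc_J, Int.cast_add, add_mul, ← Finset.sum_add_distrib]
  exact Finset.sum_congr rfl fun k _ => integral_add (h k) (h' k)

theorem sc_J_sum {z : P2} {ι : Type} (V : Finset ι) {c : ι → ℕ → P2 → ℤ} (h : ∀ i, D.sc_I z (c i)) :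
    D.sc_J z (fun k w => ∑ i ∈ V, c i k w) = ∑ i ∈ V, D.sc_J z (c i) := by
  simp only [sc_J, Int.cast_sum, Finset.sum_mul]
  rw [Finset.sum_comm]
  exact Finset.sum_congr rfl fun k _ => integral_finsetSum V fun i _ => h i k

theorem sc_ind_pos (z : P2) {q : Prop} {c0 k : ℕ} (hq : q ∧ c0 ≤ k) (A : Set P2) :
    (fun w => (sc_b (q ∧ c0 ≤ k ∧ w ∈ A) : ℝ) * D.sc_f z k w) =
      (D.T k ∩ A).indicator fun w => D.g w * ker D.b D.ψ D.u k w z := by
  funext w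
  by_cases hA : w ∈ A
  · simp [hq.1, hq.2, hA, sc_b, sc_f, indicator_apply]
  · simp [hA, sc_b]

theorem sc_ind_neg (z : P2) {q : Prop} {c0 k : ℕ} (hq : ¬ (q ∧ c0 ≤ k)) (A : Set P2) :
    (fun w => (sc_b (q ∧ c0 ≤ k ∧ w ∈ A) : ℝ) * D.sc_f z k w) = fun _ => 0 := by
  funext w
  rw [sc_b_neg fun h => hq ⟨h.1, h.2.1⟩, Int.cast_zero, zero_mul]

theorem sc_I_ind (h : D.Ok) (z : P2) (q : Prop) (c0 : ℕ) {A : ℕ → Set P2} (hA : ∀ k, MeasurableSet (A k)) :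
    D.sc_I z fun k w => sc_b (q ∧ c0 ≤ k ∧ w ∈ A k) := by
  intro k
  by_cases hq : q ∧ c0 ≤ k
  · rw [sc_ind_pos z hq]
    exact (integrable_indicator_iff ((h.asg.famT.meas k).inter (hA k))).2
      (integrableOn_ker h.hb h.hψ h.hu.meas k (h.hG.subset fun w hw => h.asg.famT.sub k hw.1) h.hg z)
  · rw [sc_ind_neg z hq]
    exact integrable_zero _ _ _

theorem sc_J_ind (h : D.Ok) (z : P2) (q : Prop) [Decidable q] (c0 : ℕ) {A : ℕ → Set P2}
    (hA : ∀ k, MeasurableSet (A k)) : D.sc_J z (fun k w => sc_b (q ∧ c0 ≤ k ∧ w ∈ A k)) =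
      if q then PhiR D.b D.ψ D.u c0 D.kmax (fun k => D.T k ∩ A k) D.g z else 0 := by
  have e : Finset.Icc c0 D.kmax = (Finset.range (D.kmax + 1)).filter fun k => c0 ≤ k := by
    ext k
    simp only [Finset.mem_Icc, Finset.mem_filter, Finset.mem_range]
    omega
  unfold sc_J
  by_cases hq : q
  · rw [if_pos hq, PhiR, e, Finset.sum_filter]
    refine Finset.sum_congr rfl fun k _ => ?_
    by_cases hk : c0 ≤ k
    · rw [sc_ind_pos z ⟨hq, hk⟩, if_pos hk, integral_indicator ((h.asg.famT.meas k).inter (hA k)), Phi1]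
    · rw [sc_ind_neg z fun h' => hk h'.2, if_neg hk, integral_zero]
  · rw [if_neg hq]
    exact Finset.sum_eq_zero fun k _ => by rw [sc_ind_neg z fun h' => hq h'.1, integral_zero]

/-- For each scale `k ∈ [a, kmax]` the set `T k ∩ {idx a (u z) = (wn 0 T a).2}` is the disjoint union of the spine sets
`spF δ T k` with `thr δ T a ≤ k`, the sets of the residual nodes `W ⊆ wn 0 T a` with `W.1 ≤ k`, and the sets of the Whitney
nodes `wn δ T c ⊆ wn 0 T a` with `c ≤ k`: look at the first `c ≤ T.1` with `|di T c z| ≥ 2` (then `|di T c z| ≤ 3`).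
`Phi1_union` / `Phi1_biUnion`, then exchange the sums over `k` and `c`. -/
theorem phiN_dec (h : D.Ok) {T : ℕ × ℤ} (hT : T.1 ≤ D.kmax) {a : ℕ} (ha : a ≤ T.1) (z : P2) :
    D.PhiN (D.wn 0 T a) z = D.Sp T a z
      + ∑ W ∈ (res T).filter (fun W => nsub W (D.wn 0 T a)), D.PhiN W z
      + ∑ δ ∈ dW, ∑ c ∈ Finset.Ico (D.thr δ T a) (D.kmax + 1),
          if D.isW δ T c then D.PhiN (D.wn δ T c) z else 0 := by
  have m1 : ∀ (ν : ℕ × ℤ) (_ : ℕ), MeasurableSet {w | D.Γ.idx ν.1 (D.u w) = ν.2} := fun ν _ =>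
    sc_meas h ν.1 fun m => m = ν.2
  have m2 : ∀ (δ : ℤ) (k : ℕ), MeasurableSet {w | D.di T k w = δ ∧ (k < T.1 ∨ (k = T.1 ∧ δ = 0))} :=
    fun δ k => sc_meas h k fun m => m - D.Γ.idx k (D.Γ.lft T) = δ ∧ (k < T.1 ∨ (k = T.1 ∧ δ = 0))
  have i1 := fun δ : ℤ => sc_I_ind h z True (D.thr δ T a) (m2 δ)
  have i2 := fun W : ℕ × ℤ => sc_I_ind h z (nsub W (D.wn 0 T a)) W.1 (m1 W)
  have i3 := fun (δ : ℤ) (c : ℕ) => sc_I_ind h z (D.thr δ T a ≤ c ∧ D.isW δ T c) c (m1 (D.wn δ T c))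
  have key := sc_J_add ((sc_I.sum {-1, 0, 1} i1).add (sc_I.sum (res T) i2))
    (sc_I.sum dW fun δ => sc_I.sum (Finset.range (D.kmax + 1)) (i3 δ))
  rw [sc_J_add (sc_I.sum {-1, 0, 1} i1) (sc_I.sum (res T) i2), sc_J_sum _ i1, sc_J_sum _ i2,
    sc_J_sum _ fun δ => sc_I.sum (Finset.range (D.kmax + 1)) (i3 δ)] at key
  have e0 := sc_J_ind h z True a (m1 (D.wn 0 T a))
  rw [if_pos trivial] at e0
  refine e0.symm.trans (Eq.trans ?_ (key.trans ?_))
  · refine Finset.sum_congr rfl fun k hk => ?_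
    congr 1
    funext w
    congr 2
    exact sc_point ha (Nat.le_of_lt_succ (Finset.mem_range.1 hk)) w
  · congr 1
    · congr 1
      · exact Finset.sum_congr rfl fun δ _ => (sc_J_ind h z True _ (m2 δ)).trans (if_pos trivial)
      · rw [Finset.sum_filter]
        exact Finset.sum_congr rfl fun W _ => sc_J_ind h z _ _ (m1 W)
    · refine Finset.sum_congr rfl fun δ _ => ?_
      have e1 : Finset.Ico (D.thr δ T a) (D.kmax + 1) =
          (Finset.range (D.kmax + 1)).filter fun c => D.thr δ T a ≤ c := by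
        ext c
        simp only [Finset.mem_Ico, Finset.mem_filter, Finset.mem_range]
        omega
      rw [sc_J_sum _ (i3 δ), e1, Finset.sum_filter]
      refine Finset.sum_congr rfl fun c _ => (sc_J_ind h z _ _ (m1 (D.wn δ T c))).trans ?_
      rw [ite_and]
      rfl

theorem sc_meas_Sp (h : D.Ok) (T : ℕ × ℤ) (a : ℕ) : Measurable (D.Sp T a) :=
  Finset.measurable_fun_sum _ fun _ _ => measurable_PhiR h.hb h.hψ h.hu.meas _ _ _ h.hg

theorem sc_int (h : D.Ok) (c : ℕ) {S : ℕ → Set P2} (hS : ∀ k, MeasurableSet (S k)) (hG : ∀ k, S k ⊆ D.G)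
    (z : P2) : Integrable fun y => D.θ y * PhiR D.b D.ψ D.u c D.kmax S D.g (z.1, z.2 - y) := by
  obtain ⟨L, -, hL⟩ := PhiR_bdd_supp h.hb h.hψ h.hu h.hG
  refine h.θi.mul_bdd (c := L) ?_ (ae_of_all _ fun y => (hL c _ le_rfl S hS hG _ h.hg _).1)
  exact ((measurable_PhiR h.hb h.hψ h.hu.meas _ _ _ h.hg).comp
    (measurable_const.prodMk (measurable_const.sub measurable_id))).aestronglyMeasurable

theorem sc_int_N (h : D.Ok) (ν : ℕ × ℤ) (z : P2) : Integrable fun y => D.θ y * D.PhiN ν (z.1, z.2 - y) :=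
  sc_int h _ (fun k => (h.asg.famT.meas k).inter (sc_meas h ν.1 fun m => m = ν.2))
    (fun k _ hw => h.asg.famT.sub k hw.1) z

/-- linearity of `vconv` on bounded measurable functions -/
theorem F_dec (h : D.Ok) {T : ℕ × ℤ} (hT : T.1 ≤ D.kmax) {a : ℕ} (ha : a ≤ T.1) (z : P2) :
    D.F (D.wn 0 T a) z = vconv D.θ (D.Sp T a) z
      + ∑ W ∈ (res T).filter (fun W => nsub W (D.wn 0 T a)), D.F W z
      + ∑ δ ∈ dW, ∑ c ∈ Finset.Ico (D.thr δ T a) (D.kmax + 1), D.fW δ T c z := by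
  have i1 : Integrable fun y => D.θ y * D.Sp T a (z.1, z.2 - y) := by
    simp only [Sp, Finset.mul_sum]
    exact integrable_finsetSum _ fun δ _ => sc_int h _ (sc_meas_spF h δ T)
      (fun k _ hw => h.asg.famT.sub k hw.1) z
  have i3 : ∀ (δ : ℤ) (c : ℕ), Integrable fun y =>
      D.θ y * if D.isW δ T c then D.PhiN (D.wn δ T c) (z.1, z.2 - y) else 0 := by
    intro δ c
    split_ifs
    · exact sc_int_N h _ z
    · simp
  have e3 : ∀ (δ : ℤ) (c : ℕ), ∫ y, D.θ y * (if D.isW δ T c then D.PhiN (D.wn δ T c) (z.1, z.2 - y) else 0) =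
      D.fW δ T c z := by
    intro δ c
    unfold fW
    split_ifs
    · rfl
    · simp
  have i2 := integrable_finsetSum ((res T).filter fun W => nsub W (D.wn 0 T a)) fun W _ => sc_int_N h W z
  rw [F, vconv]
  simp only [phiN_dec h hT ha, mul_add, Finset.mul_sum]
  have i12 : Integrable fun y => D.θ y * D.Sp T a (z.1, z.2 - y) +
      ∑ W ∈ (res T).filter fun W => nsub W (D.wn 0 T a), D.θ y * D.PhiN W (z.1, z.2 - y) := i1.add i2
  rw [integral_add i12 (integrable_finsetSum _ fun δ _ => integrable_finsetSum _ fun c _ => i3 δ c),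
    integral_add i1 i2, integral_finsetSum _ fun W _ => sc_int_N h W z,
    integral_finsetSum _ fun δ _ => integrable_finsetSum _ fun c _ => i3 δ c]
  congr 1
  refine Finset.sum_congr rfl fun δ _ => ?_
  rw [integral_finsetSum _ fun c _ => i3 δ c]
  exact Finset.sum_congr rfl fun c _ => e3 δ c

theorem measurable_vconv_Sp (h : D.Ok) (T : ℕ × ℤ) (a : ℕ) : Measurable (vconv D.θ (D.Sp T a)) := by
  exact measurable_vconv h.θm (sc_meas_Sp h T a)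

theorem measurable_fW (h : D.Ok) (δ : ℤ) (T : ℕ × ℤ) (c : ℕ) : Measurable (D.fW δ T c) := by
  unfold fW
  split_ifs
  · exact measurable_F h _
  · exact measurable_const

theorem measurable_gW (h : D.Ok) (δ : ℤ) (T : ℕ × ℤ) (c : ℕ) : Measurable (D.gW δ T c) := by
  exact measurable_dconv (h.hY.smooth.continuous_iteratedDeriv 2 (by norm_num)).measurable _ _
    (measurable_fW h δ T c)

end S1Data

end Crest.Agent.R87
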