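import Crest.Agent.R87.Api2

/-!
# R87, part S1 (recursion on the rank): definitions.  Owner helper91, DO NOT EDIT.

`D : S1Data` bundles the data of `S1Stmt`.  `Λ = 2^kL`, `K = 2^kK`, `σ_c = Γ.sz c = K / 2^c`.
A *system of level `ρ`* is a family of weights `w ν : P2 → ℝ` on the slope nodes, supported where there is
no perfect tree of depth `ρ` (grade `ρ`) below `ν`; its energy is `∑_ν ∫ (F ν)² √(w ν)`.
One step (level `ρ+1` to level `ρ`): the points where `ν` is `ρ`-perfect are assigned to a top node `T`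
(`Asg`); `F ν` is split into spine terms, residual nodes and four Whitney families `δ ∈ {-3,-2,2,3}` around the
slope `lft T`; `WBStmt` is applied to each family.
-/

set_option autoImplicit false

namespace Crest.Agent.R87

open MeasureTheory Set
open scoped ENNReal Classical

structure S1Data where
  b : ℝ → ℝ
  ψ : ℝ → ℝ
  kmax : ℕ
  u : P2 → ℝ
  G : Set P2
  ϑ : ℝ
  Γ : Geo
  U : Finset Tile
  T : ℕ → Set P2
  S : Tile → ℕ → Set P2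
  g : P2 → ℝ
  Y : ℝ → ℝ
  θ : ℝ → ℝ
  A : ℝ
  R : ℝ
  H : ℝ
  η : ℝ
  ε : ℝ
  r : ℕ
  n : ℕ

/-- a canonical box: node `(c, m)`, dyadic interval number `j` of length `Λ / σ_c`, vertical cell `β`
of height `Λ`, sheared with the slope `lft (c, m)`. -/
structure Box where
  c : ℕ
  m : ℤ
  j : ℤ
  β : ℤ
  deriving DecidableEq

/-- the node of a box -/
def Box.node (B : Box) : ℕ × ℤ := (B.c, B.m)

namespace S1Data

variable (D : S1Data)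

structure Ok : Prop where
  hb : IsB D.b
  hψ : IsPsi D.ψ
  hu : Field D.u D.kmax
  hG : Bornology.IsBounded D.G
  hϑ : 1 ≤ D.ϑ
  asg : Assign D.u D.kmax D.G D.ϑ D.Γ D.U D.T D.S
  hg : Coef D.g
  hA : 1 ≤ D.A
  hR : 1 ≤ D.R
  hη : 0 < D.η
  hε : 0 ≤ D.ε
  hH : 0 ≤ D.H
  hY : IsY D.Y D.A D.R
  θm : Measurable D.θ
  θi : Integrable D.θ
  θn : ∫ y, |D.θ y| ≤ D.A
  θs : ∀ y, D.H < |y| → D.θ y = 0
  rep : Repro D.Y D.θ D.η D.ε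
  hkL : 8 * D.R / D.η ≤ 2 ^ D.Γ.kL
  hkK : 3 ≤ D.Γ.kK
  ht0 : 2 * D.ϑ + 1 + D.H ≤ D.Γ.t0
  hee : D.Γ.ee D.r ≤ 1

/-- `Λ` -/
noncomputable def Lam : ℝ := 2 ^ D.Γ.kL

/-- the terms of `T` with slope in the node `ν` and scale at least the cut of `ν` -/
noncomputable def PhiN (ν : ℕ × ℤ) : P2 → ℝ :=
  PhiR D.b D.ψ D.u ν.1 D.kmax (fun k => D.T k ∩ {z | D.Γ.idx ν.1 (D.u z) = ν.2}) D.g

noncomputable def F (ν : ℕ × ℤ) : P2 → ℝ := vconv D.θ (D.PhiN ν)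

/-- the tree of the top `P`, scales `≥ c` -/
noncomputable def PhiU (P : Tile) (c : ℕ) : P2 → ℝ := PhiR D.b D.ψ D.u c D.kmax (D.S P) D.g

/-- maximal function of the tree of `P` -/
noncomputable def MU (P : Tile) : P2 → ℝ := PhiMax D.b D.ψ D.u D.kmax (D.S P) D.g

/-- the nodes that can carry terms -/
noncomputable def nodes : Finset (ℕ × ℤ) :=
  (Finset.range (D.kmax + 1) ×ˢ D.U).image (fun p => (p.1, D.Γ.idx p.1 p.2.s))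

/-- energy of a family of weights -/
noncomputable def En (w : ℕ × ℤ → P2 → ℝ) : ℝ≥0∞ :=
  ∑ ν ∈ D.nodes, ∫⁻ z, ENNReal.ofReal (D.F ν z ^ 2 * √(w ν z))

/-- at most `n` members of `ν` are visible from `z` at grade `γ` -/
def Cnt (γ : ℝ) (ν : ℕ × ℤ) (z : P2) : Prop :=
  ∀ V : Finset Tile, V ⊆ D.U → (∀ P ∈ V, D.Γ.mem P ν ∧ D.Γ.vis γ P z) → V.card ≤ D.n

/-- a system of level `ρ` -/
structure Sys (ρ : ℕ) (B : ℝ) (μ : Tile → ℝ≥0∞) (w : ℕ × ℤ → P2 → ℝ) : Prop where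
  meas : ∀ ν, Measurable (w ν)
  nonneg : ∀ ν z, 0 ≤ w ν z
  le : ∀ ν z, w ν z ≤ B
  np : ∀ ν z, w ν z ≠ 0 → ¬ Perf D.Γ D.U ρ z ρ ν
  cnt : ∀ ν z, w ν z ≠ 0 → D.Cnt ρ ν z
  ov : ∀ (z : P2) (s : ℝ) (V : Finset ℕ), (∀ c ∈ V, w (c, D.Γ.idx c s) z ≠ 0) → V.card ≤ 2
  mass : ∀ P ∈ D.U, ∑ c ∈ Finset.range (P.k + 1),
    ∫⁻ z in {z | D.Γ.vis ρ P z}, ENNReal.ofReal (w (c, D.Γ.idx c P.s) z) ≤ μ P

/-! ### boxes and tops -/

/-- scale of the boxes with cut `c`: `2^(kb c) = Λ / σ_c` -/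
def kb (c : ℕ) : ℤ := (c : ℤ) - D.Γ.kK + D.Γ.kL
/-- left end of a box -/
noncomputable def ba (B : Box) : ℝ := (B.j : ℝ) * 2 ^ D.kb B.c
/-- base line of a box -/
noncomputable def base (B : Box) (x : ℝ) : ℝ :=
  (B.β : ℝ) * D.Lam + D.Γ.lft B.node * (x - D.ba B)
def inBox (B : Box) (z : P2) : Prop :=
  dI (D.kb B.c) z.1 = B.j ∧ D.base B z.1 ≤ z.2 ∧ z.2 < D.base B z.1 + D.Lam
def heavy (ρ : ℕ) (B : Box) : Prop := ∃ z, D.inBox B z ∧ Perf D.Γ D.U ρ z ρ B.node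
def brel (B B' : Box) : Prop :=
  nsub B'.node B.node ∧ dI (D.kb B'.c) (D.ba B) = B'.j ∧
    |D.base B (D.ba B) - D.base B' (D.ba B)| ≤ 10 * D.Lam
/-- the region of a top box -/
def reg (B : Box) : Set P2 := {z | dI (D.kb B.c) z.1 = B.j ∧ |z.2 - D.base B z.1| ≤ 13 * D.Lam}
def cand (ν : ℕ × ℤ) (z : P2) (B : Box) : Prop := nsub B.node ν ∧ z ∈ D.reg B

structure Tops (ρ : ℕ) (Tp : Finset Box) : Prop where
  heavy : ∀ B ∈ Tp, D.heavy ρ B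
  cover : ∀ ν z, Perf D.Γ D.U ρ z ρ ν → ∃ B ∈ Tp, D.cand ν z B
  sep : ∀ B ∈ Tp, ∀ B' ∈ Tp, B.c < B'.c → ¬ D.brel B B'

/-- `T` is the node of a longest candidate top for `(ν, z)` -/
def Asg (Tp : Finset Box) (ν T : ℕ × ℤ) (z : P2) : Prop :=
  (∃ B ∈ Tp, B.node = T ∧ D.cand ν z B) ∧ ∀ B ∈ Tp, D.cand ν z B → B.c ≤ T.1

/-- the top nodes -/
def TN (Tp : Finset Box) : Finset (ℕ × ℤ) := Tp.image Box.node

/-- the node with cut `c` at index distance `δ` from the spine of `T` (`δ = 0`: the ancestor) -/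
noncomputable def wn (δ : ℤ) (T : ℕ × ℤ) (c : ℕ) : ℕ × ℤ := (c, D.Γ.idx c (D.Γ.lft T) + δ)

/-- kept weights -/
noncomputable def wk (ρ : ℕ) (w : ℕ × ℤ → P2 → ℝ) (ν : ℕ × ℤ) (z : P2) : ℝ :=
  if Perf D.Γ D.U ρ z ρ ν then 0 else w ν z

/-- the weight of the ancestor with cut `a` of `T`, where it is assigned to `T` -/
noncomputable def vT (ρ : ℕ) (Tp : Finset Box) (w : ℕ × ℤ → P2 → ℝ) (T : ℕ × ℤ) (a : ℕ) (z : P2) : ℝ :=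
  if Perf D.Γ D.U ρ z ρ (D.wn 0 T a) ∧ D.Asg Tp (D.wn 0 T a) T z then w (D.wn 0 T a) z else 0

/-! ### the decomposition around the spine of `T` -/

/-- index distance of the slope at `z` from the spine of `T` -/
noncomputable def di (T : ℕ × ℤ) (c : ℕ) (z : P2) : ℤ :=
  D.Γ.idx c (D.u z) - D.Γ.idx c (D.Γ.lft T)

/-- the three spine families: `δ = 0` (scales `≤ T.1`), `δ = ±1` (scales `< T.1`) -/
def spF (δ : ℤ) (T : ℕ × ℤ) (k : ℕ) : Set P2 :=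
  {z | z ∈ D.T k ∧ D.di T k z = δ ∧ (k < T.1 ∨ (k = T.1 ∧ δ = 0))}

/-- first cut from which the nodes `wn δ T c` are contained in the ancestor with cut `a` -/
noncomputable def thr (δ : ℤ) (T : ℕ × ℤ) (a : ℕ) : ℕ :=
  ((Finset.range (D.kmax + 1)).filter (fun c => ¬ nsub (D.wn δ T c) (D.wn 0 T a))).card

/-- spine terms of the ancestor with cut `a` -/
noncomputable def Sp (T : ℕ × ℤ) (a : ℕ) (z : P2) : ℝ :=
  ∑ δ ∈ ({-1, 0, 1} : Finset ℤ), PhiR D.b D.ψ D.u (D.thr δ T a) D.kmax (D.spF δ T) D.g z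

/-- residual nodes -/
def res (T : ℕ × ℤ) : Finset (ℕ × ℤ) :=
  {(T.1, T.2 - 1), (T.1, T.2 + 1), (T.1 + 1, 2 * T.2), (T.1 + 1, 2 * T.2 + 1)}

/-- `wn δ T c` is a Whitney node of `T` -/
def isW (δ : ℤ) (T : ℕ × ℤ) (c : ℕ) : Prop :=
  1 ≤ c ∧ c ≤ T.1 ∧ |(D.Γ.idx c (D.Γ.lft T) + δ) / 2 - D.Γ.idx (c - 1) (D.Γ.lft T)| ≤ 1

/-- the Whitney offsets -/
def dW : Finset ℤ := {-3, -2, 2, 3}

noncomputable def fW (δ : ℤ) (T : ℕ × ℤ) (c : ℕ) (z : P2) : ℝ :=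
  if D.isW δ T c then D.F (D.wn δ T c) z else 0

/-- frequency parameter of `WBStmt` -/
noncomputable def lam0 : ℝ := D.η * 2 ^ D.Γ.kK

/-- the band pass filtered Whitney piece -/
noncomputable def gW (δ : ℤ) (T : ℕ × ℤ) (c : ℕ) : P2 → ℝ :=
  dconv (iteratedDeriv 2 D.Y) (D.lam0 / 2 ^ c) (D.Γ.lft T) (D.fW δ T c)

/-- residual weights -/
noncomputable def wR (ρ : ℕ) (Tp : Finset Box) (w : ℕ × ℤ → P2 → ℝ) (W : ℕ × ℤ) (z : P2) : ℝ :=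
  ∑ T ∈ TN Tp, ∑ a ∈ Finset.range (T.1 + 1),
    if W ∈ res T ∧ nsub W (D.wn 0 T a) then D.vT ρ Tp w T a z else 0

/-- the weights that are active at the level `c` of the family `δ` -/
noncomputable def VT (ρ : ℕ) (Tp : Finset Box) (w : ℕ × ℤ → P2 → ℝ) (δ : ℤ) (T : ℕ × ℤ) (c : ℕ)
    (z : P2) : ℝ :=
  ∑ a ∈ (Finset.range (T.1 + 1)).filter (fun a => D.thr δ T a ≤ c), D.vT ρ Tp w T a z

/-- Whitney weights -/
noncomputable def wW (κ : ℕ → Measure ℝ) (ρ : ℕ) (Tp : Finset Box) (w : ℕ × ℤ → P2 → ℝ) (δ : ℤ)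
    (W : ℕ × ℤ) (z : P2) : ℝ :=
  ∑ T ∈ TN Tp, if D.isW δ T W.1 ∧ D.wn δ T W.1 = W then
    davg (κ W.1) (D.Γ.lft T) (D.VT ρ Tp w δ T W.1) z else 0

/-- the averaging measures move points by at most `4 R 2^c / lam0 ≤ Λ / (2 σ_c)` -/
def Kap (κ : ℕ → Measure ℝ) : Prop :=
  (∀ c, IsProbabilityMeasure (κ c)) ∧ ∀ c, κ c {t | 4 * D.R * 2 ^ c / D.lam0 < |t|} = 0

/-- `z` is close to a top box with node `T` (horizontal margin `Λ / (2 σ_c)`) -/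
def cand' (Tp : Finset Box) (T : ℕ × ℤ) (c : ℕ) (z : P2) : Prop :=
  ∃ B ∈ Tp, B.node = T ∧ D.ba B - D.Lam / (2 * D.Γ.sz c) ≤ z.1 ∧
    z.1 ≤ D.ba B + 2 ^ D.kb B.c + D.Lam / (2 * D.Γ.sz c) ∧ |z.2 - D.base B z.1| ≤ 13 * D.Lam

/-- the node `ν` has cut `≥ c` and lies in the hull of `wn δ T c` and `wn 0 T c` -/
def inWin (δ : ℤ) (T : ℕ × ℤ) (c : ℕ) (ν : ℕ × ℤ) : Prop :=
  c ≤ ν.1 ∧ D.Γ.lft (D.wn (min δ 0) T c) ≤ D.Γ.lft ν ∧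
    D.Γ.lft ν + D.Γ.sz ν.1 ≤ D.Γ.lft (D.wn (max δ 0) T c) + D.Γ.sz c

/-- the good set of the Whitney node `wn δ T c` -/
def NG (ρ : ℕ) (Tp : Finset Box) (δ : ℤ) (T : ℕ × ℤ) (c : ℕ) : Set P2 :=
  {z | D.cand' Tp T c z ∧ D.Cnt ρ (D.wn δ T c) z ∧
    ¬ ∃ ν0 ν1 : ℕ × ℤ, D.inWin δ T c ν0 ∧ D.inWin δ T c ν1 ∧ ¬ nsub ν0 ν1 ∧ ¬ nsub ν1 ν0 ∧
      Perf D.Γ D.U (ρ + 3 / 4) z ρ ν0 ∧ Perf D.Γ D.U (ρ + 3 / 4) z ρ ν1}

/-- the set `N c` of `WBStmt` (everything if `c > T.1`, where `fW` vanishes) -/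
def NW (ρ : ℕ) (Tp : Finset Box) (δ : ℤ) (T : ℕ × ℤ) (c : ℕ) : Set P2 :=
  if c ≤ T.1 then D.NG ρ Tp δ T c else univ

/-- main and crude size parameters -/
noncomputable def XX : ℝ := ((D.Γ.kK : ℝ) + 1) ^ 4 * √(D.Γ.tt D.r * totL D.U)
noncomputable def YY : ℝ :=
  D.ϑ ^ 2 * D.n * (1 / D.R ^ 4 + D.ε ^ 2 * D.Γ.tt D.r ^ 2
    + D.Γ.tt D.r * (2 ^ D.Γ.kL / 2 ^ D.Γ.kK) ^ 2) * totL D.U

end S1Data

end Crest.Agent.R87
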