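import Crest.Agent.R87.S1B

/-! # R87 S1E: splitting the energy; the kept and the residual systems. -/

set_option autoImplicit false

namespace Crest.Agent.R87

open MeasureTheory Set
open scoped ENNReal Classical

namespace S1Data

variable {D : S1Data}


variable {ρ : ℕ} {Tp : Finset Box} {w : ℕ × ℤ → P2 → ℝ} {B : ℝ} {μ : Tile → ℝ≥0∞}

/-- the pairs (top node, cut of an ancestor) -/
noncomputable def ePP (Tp : Finset Box) : Finset ((ℕ × ℤ) × ℕ) :=
  ((TN Tp).sigma fun T => Finset.range (T.1 + 1)).map (Equiv.sigmaEquivProd _ _).toEmbedding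

theorem mem_ePP {p : (ℕ × ℤ) × ℕ} : p ∈ ePP Tp ↔ p.1 ∈ TN Tp ∧ p.2 ≤ p.1.1 := by
  rw [ePP, Finset.mem_map_equiv, Finset.mem_sigma, Finset.mem_range, Nat.lt_succ_iff]
  rfl

theorem e_sum {M : Type} [AddCommMonoid M] (f : ℕ × ℤ → ℕ → M) :
    ∑ T ∈ TN Tp, ∑ a ∈ Finset.range (T.1 + 1), f T a = ∑ p ∈ ePP Tp, f p.1 p.2 :=
  (Finset.sum_finset_product' _ _ _ fun p => by rw [mem_ePP, Finset.mem_range, Nat.lt_succ_iff]).symm

theorem e_le (ρ : ℕ) : (ρ : ℝ) ≤ ((ρ + 1 : ℕ) : ℝ) := Nat.cast_le.2 (Nat.le_succ ρ)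

theorem e_lsum {ι : Type} (S : Finset ι) {f : ι → P2 → ℝ} (hm : ∀ i, Measurable (f i)) (h0 : ∀ i z, 0 ≤ f i z)
    {ν : Measure P2} : ∑ i ∈ S, ∫⁻ z, ENNReal.ofReal (f i z) ∂ν = ∫⁻ z, ENNReal.ofReal (∑ i ∈ S, f i z) ∂ν := by
  rw [← lintegral_finsetSum _ fun i _ => (hm i).ennreal_ofReal]
  exact lintegral_congr fun z => (ENNReal.ofReal_sum_of_nonneg fun i _ => h0 i z).symm

theorem e_int (hw : D.Sys (ρ + 1) B μ w) {P : Tile} (hP : P ∈ D.U) {f : P2 → ℝ}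
    (hf : ∀ z, f z ≤ ∑ a ∈ Finset.range (P.k + 1), w (a, D.Γ.idx a P.s) z) :
    ∫⁻ z in {z | D.Γ.vis ρ P z}, ENNReal.ofReal (f z) ≤ μ P := by
  refine le_trans ?_ (hw.mass P hP)
  rw [e_lsum _ (fun _ => hw.meas _) fun _ => hw.nonneg _]
  exact (lintegral_mono fun z => ENNReal.ofReal_le_ofReal (hf z)).trans
    (lintegral_mono_set fun z hz => vis_mono (e_le ρ) hz)

theorem e_fib (hT : D.Tops ρ Tp) (hw : D.Sys (ρ + 1) B μ w) (P : Tile) (z : P2) :
    ∑ p ∈ (ePP Tp).filter (fun p => D.Γ.mem P (D.wn 0 p.1 p.2)), D.vT ρ Tp w p.1 p.2 z ≤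
      ∑ a ∈ Finset.range (P.k + 1), w (a, D.Γ.idx a P.s) z := by
  rw [Finset.sum_finset_product_right _ (Finset.range (P.k + 1))
    (fun a => ((TN Tp).filter fun T => D.wn 0 T a = (a, D.Γ.idx a P.s)).filter fun T => a ≤ T.1) fun p => by
      simp only [Finset.mem_filter, mem_ePP, Finset.mem_range, Nat.lt_succ_iff]
      exact ⟨fun h => ⟨h.2.1, ⟨h.1.1, Prod.ext rfl h.2.2.symm⟩, h.1.2⟩,
        fun h => ⟨⟨h.2.1.1, h.2.2⟩, h.1, (congrArg Prod.snd h.2.1.2).symm⟩⟩]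
  exact Finset.sum_le_sum fun a _ => (Finset.sum_le_sum_of_subset_of_nonneg (Finset.filter_subset _ _)
    fun _ _ _ => vT_nonneg hw.nonneg _ _ z).trans (sum_vT_le hT hw (a, D.Γ.idx a P.s) z)

theorem e_wR (W : ℕ × ℤ) (z : P2) : D.wR ρ Tp w W z = ∑ p ∈ (ePP Tp).filter (fun p =>
    (W ∈ res p.1 ∧ nsub W (D.wn 0 p.1 p.2)) ∧ D.vT ρ Tp w p.1 p.2 z ≠ 0), D.vT ρ Tp w p.1 p.2 z := by
  rw [wR, e_sum, ← Finset.sum_filter,
    ← Finset.filter_filter (fun p : (ℕ × ℤ) × ℕ => W ∈ res p.1 ∧ nsub W (D.wn 0 p.1 p.2)), Finset.sum_filter_ne_zero]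

theorem e_card (hT : D.Tops ρ Tp) (hw : D.Sys (ρ + 1) B μ w) (W : ℕ × ℤ) (z : P2) :
    ((ePP Tp).filter fun p => (W ∈ res p.1 ∧ nsub W (D.wn 0 p.1 p.2)) ∧ D.vT ρ Tp w p.1 p.2 z ≠ 0).card ≤ 2 :=
  card_pairs hT hw z (D.Γ.lft W) _ fun _ hp =>
    ⟨(Finset.mem_filter.1 hp).2.2, ((D.Γ.nsub_iff_idx _ _).1 (Finset.mem_filter.1 hp).2.1.2).2⟩

theorem e_meas (hw : D.Sys (ρ + 1) B μ w) (W : ℕ × ℤ) : Measurable (D.wR ρ Tp w W) :=
  Finset.measurable_sum _ fun T _ => Finset.measurable_sum _ fun a _ => by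
    split_ifs
    exacts [measurable_vT hw.meas T a, measurable_const]

theorem e_nonneg (hw : D.Sys (ρ + 1) B μ w) (W : ℕ × ℤ) (z : P2) : 0 ≤ D.wR ρ Tp w W z := by
  rw [e_wR]
  exact Finset.sum_nonneg fun _ _ => vT_nonneg hw.nonneg _ _ z

theorem e_uniq {T : ℕ × ℤ} {c c' : ℕ} {s : ℝ} (h : (c, D.Γ.idx c s) ∈ res T) (h' : (c', D.Γ.idx c' s) ∈ res T) :
    c = c' := by
  have e := D.Γ.idx_add T.1 1 s
  simp only [res, Finset.mem_insert, Finset.mem_singleton, Prod.mk.injEq, pow_one] at h h' e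
  rcases h with ⟨rfl, h⟩ | ⟨rfl, h⟩ | ⟨rfl, h⟩ | ⟨rfl, h⟩ <;>
    rcases h' with ⟨rfl, h'⟩ | ⟨rfl, h'⟩ | ⟨rfl, h'⟩ | ⟨rfl, h'⟩ <;> omega

/-- pointwise `√(w ν z) ≤ √(wk ν z) + ∑_{T ∈ TN, nsub T ν} √(vT T ν.1 z)` (`Asg_exists`, `wn_of_nsub`); the map
`(ν, T) ↦ (T, ν.1)` is injective on the pairs with `nsub T ν`. -/
theorem En_split (h : D.Ok) (hT : D.Tops ρ Tp) (hw : D.Sys (ρ + 1) B μ w) :
    D.En w ≤ D.En (D.wk ρ w) + ∑ T ∈ TN Tp, ∑ a ∈ Finset.range (T.1 + 1),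
      ∫⁻ z, ENNReal.ofReal (D.F (D.wn 0 T a) z ^ 2 * √(D.vT ρ Tp w T a z)) := by
  have mF : ∀ (ν : ℕ × ℤ) {v : P2 → ℝ}, Measurable v →
      Measurable fun z => ENNReal.ofReal (D.F ν z ^ 2 * √(v z)) := fun ν v hv =>
    (((measurable_F h ν).pow_const 2).mul hv.sqrt).ennreal_ofReal
  rw [e_sum, En, En]
  refine le_trans (Finset.sum_le_sum fun ν _ => ?_) (Finset.sum_add_distrib.trans_le (add_le_add le_rfl
    ((Finset.sum_fiberwise_eq_sum_filter (ePP Tp) D.nodes (fun p => D.wn 0 p.1 p.2) _).trans_le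
      (Finset.sum_le_sum_of_subset (Finset.filter_subset _ _)))))
  rw [← lintegral_finsetSum _ fun p _ => mF _ (measurable_vT hw.meas _ _),
    ← lintegral_add_left (mF _ (measurable_wk hw.meas ν))]
  refine lintegral_mono fun z => ?_
  by_cases hp : Perf D.Γ D.U ρ z ρ ν
  · obtain ⟨T, hA⟩ := Asg_exists hT hp
    obtain ⟨h1, h2⟩ := nsub_of_Asg hA
    have h3 := D.wn_of_nsub h1
    refine le_add_left (le_trans (le_of_eq ?_) (Finset.single_le_sum (a := (T, ν.1)) (fun _ _ => zero_le)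
      (Finset.mem_filter.2 ⟨mem_ePP.2 ⟨h2, h1.1⟩, h3⟩)))
    simp only [vT, h3, hp, hA, and_self, if_true]
  · simp only [wk, hp, if_false]
    exact le_self_add

theorem sys_wk (hw : D.Sys (ρ + 1) B μ w) : D.Sys ρ B μ (D.wk ρ w) := by
  have h1 : ∀ ν z, D.wk ρ w ν z ≠ 0 → ¬ Perf D.Γ D.U ρ z ρ ν ∧ w ν z ≠ 0 := fun ν z hz => by
    by_cases hp : Perf D.Γ D.U ρ z ρ ν
    · exact absurd (if_pos hp) hz
    · exact ⟨hp, by rwa [wk, if_neg hp] at hz⟩
  have h2 : ∀ ν z, 0 ≤ D.wk ρ w ν z ∧ D.wk ρ w ν z ≤ w ν z := fun ν z => by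
    unfold wk
    split_ifs
    exacts [⟨le_rfl, hw.nonneg ν z⟩, ⟨hw.nonneg ν z, le_rfl⟩]
  refine ⟨measurable_wk hw.meas, fun ν z => (h2 ν z).1, fun ν z => (h2 ν z).2.trans (hw.le ν z),
    fun ν z hz => (h1 ν z hz).1, fun ν z hz => (hw.cnt ν z (h1 ν z hz).2).mono (e_le ρ) (nsub_refl ν),
    fun z s V hV => hw.ov z s V fun c hc => (h1 _ z (hV c hc)).2, fun P hP => ?_⟩
  rw [e_lsum _ (fun _ => measurable_wk hw.meas _) fun _ z => (h2 _ z).1]
  exact e_int hw hP fun z => Finset.sum_le_sum fun c _ => (h2 _ z).2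

/-- `le`, `ov`: `card_pairs` (the four residual nodes of `T` are disjoint).  `np`: a neighbour of `T` inside `wn 0 T a` is
incomparable with `T`, which is perfect at grade `ρ + 3/4` (`perf_of_cand'`, `cand'_of_Asg` with `t = 0`); a perfect half of
`T` would have a candidate top (`Tops.cover`) of cut `> T.1`, against `Asg`.  `mass`: for fixed `(T, a)` at most one residual node
contains `s_P`; then `wn 0 T a = (a, idx a s_P)` and `a ≤ P.k`; `sum_vT_le`. -/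
theorem sys_wR (hT : D.Tops ρ Tp) (hw : D.Sys (ρ + 1) B μ w) :
    D.Sys ρ (2 * B) μ (D.wR ρ Tp w) := by
  have h1 : ∀ W z, D.wR ρ Tp w W z ≠ 0 → ∃ p : (ℕ × ℤ) × ℕ, (W ∈ res p.1 ∧ nsub W (D.wn 0 p.1 p.2)) ∧
      D.vT ρ Tp w p.1 p.2 z ≠ 0 := fun W z hz => by
    rw [e_wR] at hz
    obtain ⟨p, hp, h⟩ := Finset.exists_ne_zero_of_sum_ne_zero hz
    exact ⟨p, (Finset.mem_filter.1 hp).2.1, h⟩
  refine ⟨e_meas hw, e_nonneg hw, fun W z => ?_, fun W z hz hp => ?_, fun W z hz => ?_, fun z s V hV => ?_,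
    fun P hP => ?_⟩
  · rw [e_wR]
    refine (Finset.sum_le_card_nsmul _ _ B fun p _ => (vT_le hw.nonneg _ _ z).trans (hw.le _ z)).trans ?_
    rw [nsmul_eq_mul]
    exact mul_le_mul_of_nonneg_right (by exact_mod_cast e_card hT hw W z) ((hw.nonneg W z).trans (hw.le W z))
  · obtain ⟨⟨T, a⟩, ⟨h2, h3⟩, h4⟩ := h1 W z hz
    obtain ⟨h5, -, h6⟩ := vT_ne_zero h4
    have k1 : W.1 = T.1 → W.2 ≠ T.2 → False := fun e1 e2 => by
      have h7 := perf_of_cand' hT le_rfl (cand'_of_Asg h6 T.1 (t := 0)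
        (by rw [abs_zero]; exact div_nonneg Lam_pos.le (mul_pos two_pos (D.Γ.sz_pos _)).le))
      rw [add_zero, mul_zero, add_zero] at h7
      exact hw.np _ z h5 ⟨W, T, h3, (nsub_of_Asg h6).1, fun h => e2 (by simpa [e1] using h.2),
        fun h => e2 (by simpa [e1] using h.2.symm), perf_grade_mono (e_le ρ) hp,
        perf_grade_mono (by push_cast; linarith) h7⟩
    have k2 : W.1 = T.1 + 1 → False := fun e1 => by
      obtain ⟨B, b1, b2, b3⟩ := hT.cover W z hp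
      have b4 : B.c ≤ T.1 := h6.2 B b1 ⟨nsub_trans b2 h3, b3⟩
      have b5 : W.1 ≤ B.c := b2.1
      omega
    simp only [res, Finset.mem_insert, Finset.mem_singleton] at h2
    rcases h2 with rfl | rfl | rfl | rfl
    exacts [k1 rfl (by simp), k1 rfl (by simp), k2 rfl, k2 rfl]
  · obtain ⟨p, ⟨-, h3⟩, h4⟩ := h1 W z hz
    exact (hw.cnt _ z (vT_ne_zero h4).1).mono (e_le ρ) h3
  · choose! f f1 f2 using fun c hc => h1 _ z (hV c hc)
    rw [← Finset.card_image_of_injOn (f := f) fun c hc c' hc' e => e_uniq (f1 c hc).1 (e ▸ (f1 c' hc').1)]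
    refine card_pairs hT hw z s _ fun p hp => ?_
    obtain ⟨c, hc, rfl⟩ := Finset.mem_image.1 hp
    exact ⟨f2 c hc, D.Γ.idx_of_nsub (f1 c hc).2 rfl⟩
  · rw [e_lsum _ (fun _ => e_meas hw _) fun _ => e_nonneg hw _]
    refine e_int hw hP fun z => le_trans ?_ (e_fib hT hw P z)
    simp only [wR, e_sum]
    rw [Finset.sum_comm, Finset.sum_filter]
    refine Finset.sum_le_sum fun p _ => ?_
    rw [← Finset.sum_filter]
    rcases ((Finset.range (P.k + 1)).filter fun c => (c, D.Γ.idx c P.s) ∈ res p.1 ∧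
      nsub (c, D.Γ.idx c P.s) (D.wn 0 p.1 p.2)).eq_empty_or_nonempty with e | ⟨c, hc⟩
    · rw [e, Finset.sum_empty]
      split_ifs
      exacts [vT_nonneg hw.nonneg _ _ z, le_rfl]
    · have h2 := Finset.mem_filter.1 hc
      rw [if_pos (D.Γ.mem_mono h2.2.2 ⟨Nat.lt_succ_iff.1 (Finset.mem_range.1 h2.1), rfl⟩),
        Finset.eq_singleton_iff_unique_mem.2 ⟨hc, fun c' hc' => e_uniq (Finset.mem_filter.1 hc').2.1 h2.2.1⟩,
        Finset.sum_singleton]

/-- `(∑_W F W)² ≤ 4 ∑ (F W)²`; for fixed `W`, `z` at most two pairs `(T, a)` contribute (`card_pairs` at the slope `lft W`), so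
`∑ √vT ≤ √2 √(wR W z)`; nodes outside `nodes` have `F = 0`. -/
theorem res_energy (h : D.Ok) (hT : D.Tops ρ Tp) (hw : D.Sys (ρ + 1) B μ w) :
    ∑ T ∈ TN Tp, ∑ a ∈ Finset.range (T.1 + 1),
      ∫⁻ z, ENNReal.ofReal ((∑ W ∈ (res T).filter (fun W => nsub W (D.wn 0 T a)), D.F W z) ^ 2
        * √(D.vT ρ Tp w T a z)) ≤ 8 * D.En (D.wR ρ Tp w) := by
  have mF := measurable_F h
  rw [e_sum, En]
  refine (e_lsum _ (fun p => ((Finset.measurable_sum _ fun W _ => mF W).pow_const 2).fun_mul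
    (measurable_vT hw.meas _ _).sqrt) fun _ _ => by positivity).trans_le (le_trans ?_ (congrArg (8 * ·)
      (e_lsum _ (fun W => ((mF W).pow_const 2).fun_mul (e_meas hw W).sqrt) fun _ _ => by positivity)).ge)
  rw [← lintegral_const_mul' _ _ (by norm_num)]
  refine lintegral_mono fun z => ?_
  rw [← ENNReal.ofReal_ofNat, ← ENNReal.ofReal_mul (by norm_num)]
  refine ENNReal.ofReal_le_ofReal ?_
  calc _ ≤ ∑ p ∈ ePP Tp, ∑ W ∈ D.nodes, 4 * D.F W z ^ 2 *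
        (if W ∈ res p.1 ∧ nsub W (D.wn 0 p.1 p.2) then √(D.vT ρ Tp w p.1 p.2 z) else 0) := by
        refine Finset.sum_le_sum fun p _ => ?_
        have h1 : (((res p.1).filter fun W => nsub W (D.wn 0 p.1 p.2)).card : ℝ) ≤ 4 := by
          exact_mod_cast (Finset.card_filter_le _ _).trans Finset.card_le_four
        refine (mul_le_mul_of_nonneg_right (sq_sum_le_card_mul_sum_sq.trans (mul_le_mul_of_nonneg_right h1
          (Finset.sum_nonneg fun _ _ => sq_nonneg _))) (Real.sqrt_nonneg _)).trans ?_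
        simp only [mul_ite, mul_zero]
        rw [← Finset.sum_filter, Finset.mul_sum, Finset.sum_mul]
        rw [← Finset.sum_filter_of_ne (p := fun W => W ∈ D.nodes) fun W _ h0 => by_contra fun h' => h0 (by
          simp [F_eq_zero_of_not_mem h h'])]
        exact Finset.sum_le_sum_of_subset_of_nonneg (fun W hW => Finset.mem_filter.2 ⟨(Finset.mem_filter.1 hW).2,
          Finset.mem_filter.1 (Finset.mem_filter.1 hW).1⟩) fun _ _ _ => by positivity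
    _ ≤ _ := by
        rw [Finset.sum_comm, Finset.mul_sum]
        refine Finset.sum_le_sum fun W _ => ?_
        rw [← Finset.mul_sum, ← Finset.sum_filter,
          show 8 * (D.F W z ^ 2 * √(D.wR ρ Tp w W z)) = 4 * D.F W z ^ 2 * (2 * √(D.wR ρ Tp w W z)) by ring]
        refine mul_le_mul_of_nonneg_left ?_ (by positivity)
        rw [← Finset.sum_filter_of_ne (p := fun p => D.vT ρ Tp w p.1 p.2 z ≠ 0) fun p _ h0 h' => h0 (by
          rw [h', Real.sqrt_zero]), Finset.filter_filter]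
        refine (Finset.sum_le_card_nsmul _ _ √(D.wR ρ Tp w W z) fun p hp => Real.sqrt_le_sqrt ?_).trans ?_
        · rw [e_wR]
          exact Finset.single_le_sum (f := fun p : (ℕ × ℤ) × ℕ => D.vT ρ Tp w p.1 p.2 z)
            (fun _ _ => vT_nonneg hw.nonneg _ _ z) hp
        · rw [nsmul_eq_mul]
          exact mul_le_mul_of_nonneg_right (by exact_mod_cast e_card hT hw W z) (Real.sqrt_nonneg _)

/-- total mass of the assigned weights: on the support of `vT T a` some member `P` of `wn 0 T a` is visible at grade `ρ`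
(`Perf.exists_mem`); `sum_vT_le`, `Sys.mass`. -/
theorem mass_vT (hT : D.Tops ρ Tp) (hw : D.Sys (ρ + 1) B μ w) :
    ∑ T ∈ TN Tp, ∑ a ∈ Finset.range (T.1 + 1), ∫⁻ z, ENNReal.ofReal (D.vT ρ Tp w T a z)
      ≤ ∑ P ∈ D.U, μ P := by
  rw [e_sum]
  calc _ ≤ ∑ p ∈ ePP Tp, ∑ P ∈ D.U, if D.Γ.mem P (D.wn 0 p.1 p.2) then
        ∫⁻ z in {z | D.Γ.vis ρ P z}, ENNReal.ofReal (D.vT ρ Tp w p.1 p.2 z) else 0 := by
        refine Finset.sum_le_sum fun p _ => ?_
        simp only [← lintegral_indicator (D.Γ.measurableSet_vis _ _)]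
        rw [← Finset.sum_filter, ← lintegral_finsetSum _ fun P _ =>
          (measurable_vT hw.meas _ _).ennreal_ofReal.indicator (D.Γ.measurableSet_vis _ _)]
        refine lintegral_mono fun z => ?_
        by_cases h0 : D.vT ρ Tp w p.1 p.2 z = 0
        · simp only [h0, ENNReal.ofReal_zero, zero_le]
        · obtain ⟨P, p1, p2, p3⟩ := (vT_ne_zero h0).2.1.exists_mem
          exact le_trans (indicator_of_mem (s := {z | D.Γ.vis ρ P z}) p3
            fun z => ENNReal.ofReal (D.vT ρ Tp w p.1 p.2 z)).ge (Finset.single_le_sum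
            (f := fun P => {z | D.Γ.vis ρ P z}.indicator (fun z => ENNReal.ofReal (D.vT ρ Tp w p.1 p.2 z)) z)
            (fun _ _ => zero_le) (Finset.mem_filter.2 ⟨p1, p2⟩))
    _ ≤ _ := by
        rw [Finset.sum_comm]
        refine Finset.sum_le_sum fun P hP => ?_
        rw [← Finset.sum_filter, e_lsum _ (fun p => measurable_vT hw.meas _ _) fun p => vT_nonneg hw.nonneg _ _]
        exact e_int hw hP (e_fib hT hw P)

end S1Data

end Crest.Agent.R87
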