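import Crest.Agent.R87.S1P
import Crest.Agent.R87.S1C

/-! # R87 S1F: the Whitney systems. -/

set_option autoImplicit false

namespace Crest.Agent.R87

open MeasureTheory Set
open scoped ENNReal Classical

namespace S1Data

variable {D : S1Data}


variable {ρ : ℕ} {Tp : Finset Box} {w : ℕ × ℤ → P2 → ℝ} {B : ℝ} {μ : Tile → ℝ≥0∞}
  {κ : ℕ → Measure ℝ}

theorem S1F_sqrt {ι : Type*} (s : Finset ι) (x : ι → ℝ) (hx : ∀ i, 0 ≤ x i) {m : ℝ} (h0 : 0 ≤ m)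
    (hm : ((s.filter fun i => x i ≠ 0).card : ℝ) ≤ m ^ 2) :
    ∑ i ∈ s, √(x i) ≤ m * √(∑ i ∈ s, x i) := by
  have h1 : ∑ i ∈ s, √(x i) = ∑ i ∈ s.filter fun i => x i ≠ 0, √(x i) := by
    rw [Finset.sum_filter_of_ne]
    exact fun i _ hi h => hi (by simp [h])
  have h2 := sq_sum_le_card_mul_sum_sq (s := s.filter fun i => x i ≠ 0) (f := fun i => √(x i))
  simp only [Real.sq_sqrt (hx _), Finset.sum_filter_ne_zero] at h2
  have h3 : 0 ≤ ∑ i ∈ s, x i := Finset.sum_nonneg fun i _ => hx i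
  rw [h1]
  refine (pow_le_pow_iff_left₀ (Finset.sum_nonneg fun i _ => Real.sqrt_nonneg _) (by positivity)
    two_ne_zero).1 (h2.trans ?_)
  rw [mul_pow, Real.sq_sqrt h3]
  exact mul_le_mul_of_nonneg_right hm h3

theorem S1F_ae (hκ : D.Kap κ) (c : ℕ) : ∀ᵐ t ∂κ c, |t| ≤ 4 * D.R * 2 ^ c / D.lam0 := by
  rw [ae_iff]
  simpa only [not_le] using hκ.2 c

theorem S1F_shift (κ : Measure ℝ) [IsProbabilityMeasure κ] (s : ℝ) {v : P2 → ℝ} (hv : Measurable v)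
    (h0 : ∀ z, 0 ≤ v z) {L : ℝ} (hL : ∀ z, v z ≤ L) {V V' : Set P2} (hV' : MeasurableSet V')
    (h : ∀ᵐ t ∂κ, ∀ z ∈ V, (z.1 + t, z.2 + s * t) ∈ V') :
    ∫⁻ z in V, ENNReal.ofReal (davg κ s v z) ≤ ∫⁻ z in V', ENNReal.ofReal (v z) := by
  have hm : Measurable fun p : P2 × ℝ => v (p.1.1 + p.2, p.1.2 + s * p.2) := hv.comp (by fun_prop)
  have e : ∀ z : P2, ENNReal.ofReal (davg κ s v z) =
      ∫⁻ t, ENNReal.ofReal (v (z.1 + t, z.2 + s * t)) ∂κ := fun z =>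
    ofReal_integral_eq_lintegral_ofReal (Integrable.of_bound
      (hm.comp (f := fun t => (z, t)) (by fun_prop)).aestronglyMeasurable L
      (ae_of_all _ fun t => by rw [Real.norm_of_nonneg (h0 _)]; exact hL _)) (ae_of_all _ fun t => h0 _)
  simp only [e]
  rw [lintegral_lintegral_swap hm.ennreal_ofReal.aemeasurable]
  refine (lintegral_mono_ae (g := fun _ => ∫⁻ z in V', ENNReal.ofReal (v z)) ?_).trans (by simp)
  filter_upwards [h] with t ht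
  rw [← (measurePreserving_add_right volume ((t, s * t) : P2)).setLIntegral_comp_preimage hV'
    hv.ennreal_ofReal]
  exact lintegral_mono_set ht

/-- the contribution of the top node `T` to the Whitney weight of `W` -/
noncomputable def S1F_tm (D : S1Data) (κ : ℕ → Measure ℝ) (ρ : ℕ) (Tp : Finset Box)
    (w : ℕ × ℤ → P2 → ℝ) (δ : ℤ) (W : ℕ × ℤ) (z : P2) (T : ℕ × ℤ) : ℝ :=
  if D.isW δ T W.1 ∧ D.wn δ T W.1 = W then
    davg (κ W.1) (D.Γ.lft T) (D.VT ρ Tp w δ T W.1) z else 0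

theorem S1F_VT0 (hw : D.Sys (ρ + 1) B μ w) (δ : ℤ) (T : ℕ × ℤ) (c : ℕ) (z : P2) :
    0 ≤ D.VT ρ Tp w δ T c z := Finset.sum_nonneg fun _ _ => vT_nonneg hw.nonneg _ _ _

theorem S1F_tm0 (hw : D.Sys (ρ + 1) B μ w) (δ : ℤ) (W : ℕ × ℤ) (z : P2) (T : ℕ × ℤ) :
    0 ≤ D.S1F_tm κ ρ Tp w δ W z T := by
  unfold S1F_tm
  split_ifs
  · exact integral_nonneg fun t => S1F_VT0 hw _ _ _ _
  · exact le_rfl

theorem S1F_meas (hw : D.Sys (ρ + 1) B μ w) (hκ : D.Kap κ) (δ : ℤ) (W T : ℕ × ℤ) :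
    Measurable fun z => D.S1F_tm κ ρ Tp w δ W z T := by
  unfold S1F_tm
  split_ifs
  · have := hκ.1 W.1
    exact measurable_davg _ _ (measurable_VT hw.meas _ _ _)
  · exact measurable_const

/-- a non-zero average has a point `t` of the transport range with `VT (z + t e) ≠ 0`; `mem_NW` with `-t`. -/
theorem mem_NG_of_davg (h : D.Ok) (hT : D.Tops ρ Tp) (hw : D.Sys (ρ + 1) B μ w) (hκ : D.Kap κ)
    {δ : ℤ} (hδ : δ ∈ dW) {T : ℕ × ℤ} (hTm : T ∈ TN Tp) {c : ℕ} (hc : c ≤ T.1) {z : P2}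
    (hz : davg (κ c) (D.Γ.lft T) (D.VT ρ Tp w δ T c) z ≠ 0) : z ∈ D.NG ρ Tp δ T c := by
  by_contra hn
  refine hz (integral_eq_zero_of_ae ?_)
  filter_upwards [S1F_ae hκ c] with t ht
  by_contra h0
  obtain ⟨a, ha, h1⟩ := Finset.exists_ne_zero_of_sum_ne_zero h0
  have h2 := mem_NW h hT hw hδ hTm (Finset.mem_filter.1 ha).2 h1 (t := -t) (by rwa [abs_neg])
  simp only [NW, if_pos hc, add_neg_cancel_right, mul_neg] at h2
  exact hn h2

theorem S1F_ne (h : D.Ok) (hT : D.Tops ρ Tp) (hw : D.Sys (ρ + 1) B μ w) (hκ : D.Kap κ)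
    {δ : ℤ} (hδ : δ ∈ dW) {W T : ℕ × ℤ} (hTm : T ∈ TN Tp) {z : P2}
    (hz : D.S1F_tm κ ρ Tp w δ W z T ≠ 0) :
    W.1 ≤ T.1 ∧ D.wn δ T W.1 = W ∧ z ∈ D.NG ρ Tp δ T W.1 := by
  unfold S1F_tm at hz
  split_ifs at hz with h1
  · exact ⟨h1.1.2.1, h1.2, mem_NG_of_davg h hT hw hκ hδ hTm h1.1.2.1 hz⟩
  · exact absurd rfl hz

theorem S1F_card (h : D.Ok) (hT : D.Tops ρ Tp) (hw : D.Sys (ρ + 1) B μ w) (hκ : D.Kap κ)
    {δ : ℤ} (hδ : δ ∈ dW) (W : ℕ × ℤ) (z : P2) :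
    ((TN Tp).filter fun T => D.S1F_tm κ ρ Tp w δ W z T ≠ 0).card ≤ 12 :=
  card_T_le hT hδ W z _ fun _ hm =>
    S1F_ne h hT hw hκ hδ (Finset.mem_filter.1 hm).1 (Finset.mem_filter.1 hm).2

theorem S1F_mass (h : D.Ok) (hw : D.Sys (ρ + 1) B μ w) (hκ : D.Kap κ)
    {δ : ℤ} (hδ : δ ∈ dW) {P : Tile} (hP : P ∈ D.U) (T : ℕ × ℤ) :
    ∑ c ∈ Finset.range (P.k + 1), ∫⁻ z in {z | D.Γ.vis ρ P z},
      ENNReal.ofReal (D.S1F_tm κ ρ Tp w δ (c, D.Γ.idx c P.s) z T) ≤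
    ∑ a ∈ Finset.range (P.k + 1), if D.wn 0 T a = (a, D.Γ.idx a P.s) then
      ∫⁻ z in {z | D.Γ.vis (ρ + 1 : ℕ) P z}, ENNReal.ofReal (D.vT ρ Tp w T a z) else 0 := by
  by_cases hex : ∃ c ∈ Finset.range (P.k + 1), D.isW δ T c ∧ D.wn δ T c = (c, D.Γ.idx c P.s)
  swap
  · refine le_trans (le_of_eq (Finset.sum_eq_zero fun c hc => ?_)) zero_le
    simp only [S1F_tm, if_neg fun h => hex ⟨c, hc, h⟩]
    simp
  obtain ⟨c, hc, h1, h2⟩ := hex
  have hck : c ≤ P.k := Nat.lt_succ_iff.1 (Finset.mem_range.1 hc)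
  have e2 : D.Γ.idx c P.s = (D.wn δ T c).2 := by rw [h2]
  rw [Finset.sum_eq_single_of_mem c hc fun c' _ hne => by
    have : ¬ (D.isW δ T c' ∧ D.wn δ T c' = (c', D.Γ.idx c' P.s)) := fun h3 =>
      hne (isW_unique hδ hδ h3.1 h1 (by rw [h3.2]) e2).1
    simp only [S1F_tm, if_neg this]
    simp]
  simp only [S1F_tm, if_pos (And.intro h1 h2)]
  have := hκ.1 c
  refine (S1F_shift (κ c) _ (measurable_VT hw.meas _ _ _) (S1F_VT0 hw δ T c)
    (fun z => vT_sum_le hw T _ z) (D.Γ.measurableSet_vis (ρ + 1 : ℕ) P) ?_).trans ?_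
  · filter_upwards [S1F_ae hκ c] with t ht z hz
    have h4 := D.Γ.sz_pos c
    have h5 := Lam_pos (D := D)
    refine vis_mono (by push_cast; linarith) (vis_shift hz hck ?_ ((ht.trans (transport_le h c)).trans ?_))
    · rw [abs_sub_comm]
      linarith [(wn_dist hδ e2).2]
    · rw [div_le_div_iff₀ (by positivity) h4]
      nlinarith [mul_pos h4 h5]
  · simp only [VT]
    simp only [ENNReal.ofReal_sum_of_nonneg fun a _ => vT_nonneg hw.nonneg T a _]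
    rw [lintegral_finsetSum _ fun a _ => (measurable_vT hw.meas T a).ennreal_ofReal, ← Finset.sum_filter]
    refine Finset.sum_le_sum_of_subset fun a ha => ?_
    have h6 := (thr_le_iff δ T a (hck.trans (h.asg.top_k P hP))).1 (Finset.mem_filter.1 ha).2
    have h7 := D.Γ.idx_of_nsub h6 (s := P.s) e2
    exact Finset.mem_filter.2 ⟨Finset.mem_range.2 (Nat.lt_succ_of_le (h6.1.trans hck)),
      Prod.ext rfl h7.symm⟩

/-- `le`: `card_T_le` and `vT_sum_le`.  `np`, `cnt`, `ov`: `mem_NG_of_davg`, `not_perf_of_NG`, `card_c_le`.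
`mass`: if `wn δ T c = (c, idx c s_P)`, `c ≤ P.k`, then (Fubini, translation invariance, `vis_shift`, `wn_dist`)
`∫_{vis ρ P} davg VT ≤ ∫_{vis (ρ+1) P} VT`; for fixed `T` at most one `c` occurs (`isW_unique`); the `a` in `VT` have `a ≤ c` and
`wn 0 T a = (a, idx a s_P)` (`thr_le_iff`); `sum_vT_le`, `Sys.mass`. -/
theorem sys_wW (h : D.Ok) (hT : D.Tops ρ Tp) (hw : D.Sys (ρ + 1) B μ w) (hκ : D.Kap κ)
    {δ : ℤ} (hδ : δ ∈ dW) : D.Sys ρ (24 * B) μ (D.wW κ ρ Tp w δ) := by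
  have hB : 0 ≤ B := (hw.nonneg (0, 0) 0).trans (hw.le _ _)
  have e : ∀ W z, D.wW κ ρ Tp w δ W z = ∑ T ∈ TN Tp, D.S1F_tm κ ρ Tp w δ W z T := fun _ _ => rfl
  have hne : ∀ W z, D.wW κ ρ Tp w δ W z ≠ 0 → ∃ T : ℕ × ℤ,
      W.1 ≤ T.1 ∧ D.wn δ T W.1 = W ∧ z ∈ D.NG ρ Tp δ T W.1 := fun W z hz => by
    obtain ⟨T, hTm, h1⟩ := Finset.exists_ne_zero_of_sum_ne_zero hz
    exact ⟨T, S1F_ne h hT hw hκ hδ hTm h1⟩
  refine ⟨fun W => Finset.measurable_sum _ fun T _ => S1F_meas hw hκ δ W T,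
    fun W z => Finset.sum_nonneg fun T _ => S1F_tm0 hw δ W z T, fun W z => ?_, fun W z hz => ?_,
    fun W z hz => ?_, fun z s V hV => card_c_le hT hδ z s V fun c hc => hne _ _ (hV c hc),
    fun P hP => ?_⟩
  · rw [e, ← Finset.sum_filter_ne_zero]
    refine (Finset.sum_le_card_nsmul _ _ (2 * B) fun T _ => ?_).trans ?_
    · unfold S1F_tm
      split_ifs
      · have := hκ.1 W.1
        have := norm_integral_le_of_norm_le_const (μ := κ W.1) (C := 2 * B)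
          (f := fun t => D.VT ρ Tp w δ T W.1 (z.1 + t, z.2 + D.Γ.lft T * t)) (ae_of_all _ fun t => by
            rw [Real.norm_of_nonneg (S1F_VT0 hw _ _ _ _)]
            exact vT_sum_le hw T _ _)
        rw [probReal_univ, mul_one] at this
        exact (le_abs_self _).trans this
      · positivity
    · have : (((TN Tp).filter fun T => D.S1F_tm κ ρ Tp w δ W z T ≠ 0).card : ℝ) ≤ 12 := by
        exact_mod_cast S1F_card h hT hw hκ hδ W z
      rw [nsmul_eq_mul]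
      nlinarith
  · obtain ⟨T, h1, h2, h3⟩ := hne W z hz
    exact h2 ▸ not_perf_of_NG hT hδ h1 h3
  · obtain ⟨T, -, h2, h3⟩ := hne W z hz
    exact h2 ▸ h3.2.1
  · simp only [e, ENNReal.ofReal_sum_of_nonneg fun T _ => S1F_tm0 hw δ _ _ T]
    simp only [fun W => lintegral_finsetSum (μ := volume.restrict {z | D.Γ.vis ρ P z}) (TN Tp)
      fun T _ => (S1F_meas (Tp := Tp) hw hκ δ W T).ennreal_ofReal]
    rw [Finset.sum_comm]
    refine (Finset.sum_le_sum fun T _ => S1F_mass h hw hκ hδ hP T).trans ?_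
    rw [Finset.sum_comm]
    refine le_trans (Finset.sum_le_sum fun a _ => ?_) (hw.mass P hP)
    rw [← Finset.sum_filter, ← lintegral_finsetSum _ fun T _ => (measurable_vT hw.meas T a).ennreal_ofReal]
    refine lintegral_mono fun z => ?_
    rw [← ENNReal.ofReal_sum_of_nonneg fun T _ => vT_nonneg hw.nonneg T a _]
    exact ENNReal.ofReal_le_ofReal (sum_vT_le hT hw (a, D.Γ.idx a P.s) z)

/-- regroup by the node `W = wn δ T c`; at most 12 tops contribute at a point, `√12 ≤ 4`. -/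
theorem wW_energy (h : D.Ok) (hT : D.Tops ρ Tp) (hw : D.Sys (ρ + 1) B μ w) (hκ : D.Kap κ)
    {δ : ℤ} (hδ : δ ∈ dW) :
    ∑ T ∈ TN Tp, ∑ c ∈ Finset.range (D.kmax + 1), ∫⁻ z, ENNReal.ofReal (D.fW δ T c z ^ 2 *
        √(davg (κ c) (D.Γ.lft T) (D.VT ρ Tp w δ T c) z)) ≤ 4 * D.En (D.wW κ ρ Tp w δ) := by
  have hm : ∀ W T, Measurable fun z =>
      ENNReal.ofReal (D.F W z ^ 2 * √(D.S1F_tm κ ρ Tp w δ W z T)) := fun W T =>
    (((measurable_F h W).pow_const 2).mul (S1F_meas hw hκ δ W T).sqrt).ennreal_ofReal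
  have h1 : ∀ T, ∑ c ∈ Finset.range (D.kmax + 1), ∫⁻ z, ENNReal.ofReal (D.fW δ T c z ^ 2 *
        √(davg (κ c) (D.Γ.lft T) (D.VT ρ Tp w δ T c) z)) ≤
      ∑ W ∈ D.nodes, ∫⁻ z, ENNReal.ofReal (D.F W z ^ 2 * √(D.S1F_tm κ ρ Tp w δ W z T)) := fun T => by
    rw [← Finset.sum_filter_of_ne (p := fun c => D.isW δ T c ∧ D.wn δ T c ∈ D.nodes) fun c _ hc => by
      by_contra hn
      refine hc ?_
      by_cases h2 : D.isW δ T c
      · simp [fW, F_eq_zero_of_not_mem h fun h3 => hn ⟨h2, h3⟩]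
      · simp [fW, h2]]
    refine le_trans (le_of_eq ?_) (Finset.sum_le_sum_of_subset
      (s := ((Finset.range (D.kmax + 1)).filter fun c => D.isW δ T c ∧ D.wn δ T c ∈ D.nodes).image
        (D.wn δ T)) (Finset.image_subset_iff.2 fun c hc => (Finset.mem_filter.1 hc).2.2))
    rw [Finset.sum_image fun c _ c' _ hc => congrArg Prod.fst hc]
    refine Finset.sum_congr rfl fun c hc => ?_
    have h2 := (Finset.mem_filter.1 hc).2.1
    have h3 : (D.wn δ T c).1 = c := rfl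
    simp only [fW, S1F_tm, h3, h2, if_true, and_self]
  refine (Finset.sum_le_sum fun T _ => h1 T).trans ?_
  rw [Finset.sum_comm, En, Finset.mul_sum]
  refine Finset.sum_le_sum fun W _ => ?_
  rw [← lintegral_finsetSum _ fun T _ => hm W T, ← lintegral_const_mul' _ _ (by simp)]
  refine lintegral_mono fun z => ?_
  have h4 := S1F_sqrt (TN Tp) _ (S1F_tm0 (κ := κ) (Tp := Tp) hw δ W z) (m := 4) (by norm_num)
    ((Nat.cast_le.2 (S1F_card h hT hw hκ hδ W z)).trans (by norm_num))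
  rw [← ENNReal.ofReal_sum_of_nonneg fun T _ => by positivity, ← Finset.mul_sum,
    ← ENNReal.ofReal_ofNat, ← ENNReal.ofReal_mul (by norm_num), mul_left_comm]
  exact ENNReal.ofReal_le_ofReal (mul_le_mul_of_nonneg_left h4 (sq_nonneg _))

end S1Data

end Crest.Agent.R87
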