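import Crest.Agent.R87.S1P
import Crest.Agent.R87.S1C
import Crest.Agent.R87.S1E
import Crest.Agent.R87.S1F

/-! # R87 S1G: the spine terms. -/

set_option autoImplicit false

namespace Crest.Agent.R87

open MeasureTheory Set
open scoped ENNReal Classical

namespace S1Data

variable {D : S1Data}


/-- maximal function of the spine of `T` -/
noncomputable def MS (D : S1Data) (T : ℕ × ℤ) (z : P2) : ℝ :=
  ∑ δ ∈ ({-1, 0, 1} : Finset ℤ), PhiMax D.b D.ψ D.u D.kmax (D.spF δ T) D.g z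

theorem S1G_conv {θ : ℝ → ℝ} (hθ : Measurable θ) (hi : Integrable θ) {f : P2 → ℝ}
    (hf : Measurable f) {p : ℕ} (hp : 1 ≤ p) (E : Set P2) {K : ℝ≥0∞}
    (hK : ∀ y, ∫⁻ z in E, ENNReal.ofReal (|f (z.1, z.2 - y)| ^ p) ≤ K) :
    ∫⁻ z in E, ENNReal.ofReal (|vconv θ f z| ^ p) ≤ ENNReal.ofReal ((∫ y, |θ y|) ^ p) * K := by
  have hw : Measurable fun y => ‖θ y‖ₑ := hθ.enorm
  have e1 : ∀ a : ℝ, ENNReal.ofReal (|a| ^ p) = ‖a‖ₑ ^ p := fun a => by
    rw [ENNReal.ofReal_pow (abs_nonneg a), ← Real.norm_eq_abs, ofReal_norm]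
  have e2 : ENNReal.ofReal (∫ y, |θ y|) = ∫⁻ y, ‖θ y‖ₑ := ofReal_integral_norm_eq_lintegral_enorm hi
  have hm : Measurable fun q : P2 × ℝ => ‖θ q.2‖ₑ * ‖f (q.1.1, q.1.2 - q.2)‖ₑ ^ p := by fun_prop
  simp only [e1] at hK ⊢
  rw [ENNReal.ofReal_pow (integral_nonneg fun y => abs_nonneg _), e2]
  calc ∫⁻ z in E, ‖vconv θ f z‖ₑ ^ p
      ≤ ∫⁻ z in E, (∫⁻ y, ‖θ y‖ₑ) ^ (p - 1) * ∫⁻ y, ‖θ y‖ₑ * ‖f (z.1, z.2 - y)‖ₑ ^ p := by
        refine lintegral_mono fun z => le_trans (pow_le_pow_left' ?_ p)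
          (api2_jensen hw (F := fun y => ‖f (z.1, z.2 - y)‖ₑ) (by fun_prop) hp)
        refine (enorm_integral_le_lintegral_enorm _).trans (le_of_eq ?_)
        simp only [enorm_mul]
    _ ≤ (∫⁻ y, ‖θ y‖ₑ) ^ (p - 1) * ∫⁻ y, ‖θ y‖ₑ * K := by
        rw [lintegral_const_mul _ hm.lintegral_prod_right', lintegral_lintegral_swap hm.aemeasurable]
        refine mul_le_mul_right (lintegral_mono fun y => ?_) _
        dsimp only
        rw [lintegral_const_mul _ (by fun_prop)]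
        exact mul_le_mul_right (hK y) _
    _ = _ := by
        rw [lintegral_mul_const _ hw, ← mul_assoc, ← pow_succ, Nat.sub_add_cancel hp]

theorem S1G_split {b ψ : ℝ → ℝ} {u g : P2 → ℝ} {S : ℕ → Set P2} {k0 T1 k1 : ℕ} {C : ℝ} {z : P2}
    (hS : ∀ k, T1 < k → S k = ∅) (h0 : k0 ≤ k1) (hC0 : 0 ≤ C)
    (hC : ∀ k, k ≤ k1 → |Phi1 b ψ u k (S k) g z| ≤ C) :
    PhiMax b ψ u k1 S g z ≤ PhiMax b ψ u k0 S g z + (T1 - k0 : ℕ) * C := by
  refine PhiMax_le fun c _ => ?_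
  have e : (Finset.Icc c k1).filter (fun k => k ≤ k0) = Finset.Icc c k0 := by
    ext k
    simp only [Finset.mem_filter, Finset.mem_Icc]
    omega
  rw [PhiR, ← Finset.sum_filter_add_sum_filter_not _ (fun k => k ≤ k0), e]
  refine (abs_add_le _ _).trans (add_le_add (abs_PhiR_le_PhiMax b ψ u c k0 S g z) ?_)
  rw [← Finset.sum_filter_of_ne (p := fun k => k ≤ T1) fun k _ hk => by
    by_contra hn
    exact hk (by simp [Phi1, hS k (not_le.1 hn)])]
  refine (Finset.abs_sum_le_sum_abs _ _).trans ((Finset.sum_le_card_nsmul _ _ C fun k hk =>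
    hC k (Finset.mem_Icc.1 (Finset.mem_filter.1 (Finset.mem_filter.1 hk).1).1).2).trans ?_)
  rw [nsmul_eq_mul, ← Nat.card_Ioc]
  refine mul_le_mul_of_nonneg_right (Nat.cast_le.2 (Finset.card_le_card fun k hk => ?_)) hC0
  simp only [Finset.mem_filter, Finset.mem_Icc, Finset.mem_Ioc] at hk ⊢
  omega

theorem S1G_line (h4 : T4Stmt) {b ψ : ℝ → ℝ} (hb : IsB b) (hψ : IsPsi ψ) : ∃ C : ℝ, 0 ≤ C ∧
    ∀ D : S1Data, D.Ok → D.b = b → D.ψ = ψ → 1 ≤ D.r → ∀ Bx : Box, Bx.c ≤ D.kmax →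
      ∀ δ ∈ ({-1, 0, 1} : Finset ℤ), ∀ β : ℝ, ∫⁻ x in dInt (D.kb Bx.c) Bx.j, ENNReal.ofReal
        (PhiMax D.b D.ψ D.u D.kmax (D.spF δ Bx.node) D.g (x, β + D.Γ.lft Bx.node * x) ^ 4)
        ≤ ENNReal.ofReal ((C * (D.Γ.kK + 1) ^ 2) ^ 4 * 2 ^ D.kb Bx.c) := by
  obtain ⟨C4, hC4, h4⟩ := h4 b ψ hb hψ
  obtain ⟨C0, hC0, h0⟩ := exists_Phi1_bound hb hψ
  refine ⟨2 * (4 * C4 + C0), by positivity, fun D h e1 e2 hr Bx hc δ hδ β => ?_⟩
  subst e1 e2
  have hF := fam_spF h hδ Bx.node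
  have hK : (0 : ℝ) ≤ D.Γ.kK := Nat.cast_nonneg _
  have hL : D.Γ.kL ≤ D.Γ.kK := by
    have h1 := lam_le h hr
    have h2 := Lam_pos (D := D)
    exact (pow_le_pow_iff_right₀ (one_lt_two (α := ℝ))).1 (le_trans (by unfold Lam at *; linarith) h1)
  have hP : ∀ k, k ≤ D.kmax → ∀ z, |Phi1 D.b D.ψ D.u k (D.spF δ Bx.node k) D.g z| ≤ C0 :=
    fun k hk => (h0 _ _ h.hu k hk _ (hF.meas k) (h.hG.subset (hF.sub k)) _ h.hg).1
  have hk0 : (D.kb Bx.c).toNat ≤ D.kmax := by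
    unfold kb
    omega
  set X : ℝ := (4 * C4 + C0) * (D.Γ.kK + 1) ^ 2 with hX
  have hX1 : C0 * (D.Γ.kK + 1) ≤ X := by nlinarith [mul_nonneg hC4 (sq_nonneg ((D.Γ.kK : ℝ) + 1)), mul_nonneg hK hK]
  have h1 : ∀ z, PhiMax D.b D.ψ D.u D.kmax (D.spF δ Bx.node) D.g z ≤
      PhiMax D.b D.ψ D.u (D.kb Bx.c).toNat (D.spF δ Bx.node) D.g z + X := fun z => by
    refine (S1G_split (T1 := Bx.c) (fun k hk => eq_empty_of_forall_notMem fun z hz => ?_) hk0
      (by positivity) fun k hk => hP k hk z).trans (add_le_add_right ?_ _)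
    · have := hz.2.2
      simp only [Box.node] at this
      omega
    · have : ((Bx.c - (D.kb Bx.c).toNat : ℕ) : ℝ) ≤ D.Γ.kK := Nat.cast_le.2 (by unfold kb; omega)
      nlinarith
  have h2 : ∫⁻ x in dInt (D.kb Bx.c) Bx.j, ENNReal.ofReal (PhiMax D.b D.ψ D.u (D.kb Bx.c).toNat
      (D.spF δ Bx.node) D.g (x, β + D.Γ.lft Bx.node * x) ^ 4) ≤
      ENNReal.ofReal (X ^ 4 * 2 ^ D.kb Bx.c) := by
    rcases le_or_gt 0 (D.kb Bx.c) with hk | hk
    · obtain ⟨k0, hk0'⟩ := Int.eq_ofNat_of_zero_le hk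
      rw [hk0', Int.toNat_natCast] at hk0 ⊢
      refine (h4 _ _ h.hu _ h.hG _ hF _ h.hg _ (D.Γ.kK + 1) (fun k z hz => spF_slope hδ hz) k0 hk0
        Bx.j β).trans (ENNReal.ofReal_le_ofReal ?_)
      rw [zpow_natCast]
      refine mul_le_mul_of_nonneg_right (pow_le_pow_left₀ (by positivity) ?_ 4) (by positivity)
      push_cast
      nlinarith [mul_nonneg hC4 hK, mul_nonneg hC4 (mul_nonneg hK hK), mul_nonneg hK hK]
    · rw [Int.toNat_of_nonpos hk.le, ENNReal.ofReal_mul (by positivity), ← volume_dInt _ Bx.j,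
        ← setLIntegral_const]
      refine lintegral_mono fun x => ENNReal.ofReal_le_ofReal
        (pow_le_pow_left₀ (PhiMax_nonneg _ _ _ _ _ _ _) (PhiMax_le fun c hc => ?_) 4)
      rw [Nat.le_zero.1 hc, PhiR, Finset.Icc_self, Finset.sum_singleton]
      exact (hP 0 (Nat.zero_le _) _).trans (by nlinarith)
  have hX0 : 0 ≤ X := by positivity
  calc _ ≤ ∫⁻ x in dInt (D.kb Bx.c) Bx.j, 8 * (ENNReal.ofReal (PhiMax D.b D.ψ D.u (D.kb Bx.c).toNat
        (D.spF δ Bx.node) D.g (x, β + D.Γ.lft Bx.node * x) ^ 4) + ENNReal.ofReal (X ^ 4)) := by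
        refine lintegral_mono fun x => ?_
        rw [← ENNReal.ofReal_add (by positivity) (by positivity), ← ENNReal.ofReal_ofNat,
          ← ENNReal.ofReal_mul (by norm_num)]
        refine ENNReal.ofReal_le_ofReal ((pow_le_pow_left₀ (PhiMax_nonneg _ _ _ _ _ _ _) (h1 _) 4).trans
          ((add_pow_le (PhiMax_nonneg _ _ _ _ _ _ _) hX0 4).trans (le_of_eq (by norm_num))))
    _ ≤ 8 * (ENNReal.ofReal (X ^ 4 * 2 ^ D.kb Bx.c) + ENNReal.ofReal (X ^ 4 * 2 ^ D.kb Bx.c)) := by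
        rw [lintegral_const_mul' _ _ (by simp), lintegral_add_right _ measurable_const,
          setLIntegral_const, volume_dInt, ← ENNReal.ofReal_mul (by positivity)]
        gcongr
    _ = _ := by
        rw [← ENNReal.ofReal_add (by positivity) (by positivity), ← ENNReal.ofReal_ofNat,
          ← ENNReal.ofReal_mul (by norm_num), hX]
        congr 1
        ring

theorem S1G_meas (h : D.Ok) (T : ℕ × ℤ) : Measurable (D.MS T) :=
  Finset.measurable_sum _ fun _ _ => measurable_PhiMax h.hb h.hψ h.hu.meas _ _ h.hg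

theorem S1G_nonneg (T : ℕ × ℤ) (z : P2) : 0 ≤ D.MS T z :=
  Finset.sum_nonneg fun _ _ => PhiMax_nonneg _ _ _ _ _ _ _

/-- `L⁴` bound on the region of a box with node `T`.  The families `spF δ T` have no terms above the scale `T.1`; the at most
`kK + 1` scales in `(kb, T.1]` are bounded by `exists_Phi1_bound`; if `kb ≥ 0`, `T4Stmt` with `p = kK+1`, `k0 = kb ≤ kmax` on every
line of slope `lft T` (`lam_le` gives `kL ≤ kK`).  Then Hölder in the vertical convolution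
(`|∫ |θ| f|^4 ≤ A³ ∫ |θ| f^4`) and `lintegral_shear`: the region is a union of segments over `26 Λ` lines. -/
theorem box_L4 (h4 : T4Stmt) {b ψ : ℝ → ℝ} (hb : IsB b) (hψ : IsPsi ψ) : ∃ C : ℝ, 0 ≤ C ∧
    ∀ D : S1Data, D.Ok → D.b = b → D.ψ = ψ → 1 ≤ D.r → ∀ Bx : Box, Bx.c ≤ D.kmax →
      ∫⁻ z in D.reg Bx, ENNReal.ofReal (vconv (fun y => |D.θ y|) (D.MS Bx.node) z ^ 4)
        ≤ ENNReal.ofReal ((C * D.A * (D.Γ.kK + 1) ^ 2) ^ 4 * (2 ^ D.kb Bx.c * D.Lam)) := by
  obtain ⟨C, hC, h1⟩ := S1G_line h4 hb hψ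
  refine ⟨9 * C, by positivity, fun D h e1 e2 hr Bx hc => ?_⟩
  have hΛ := Lam_pos (D := D)
  have hA := h.hA
  set X : ℝ := C * (D.Γ.kK + 1) ^ 2 with hX
  have h2 : ∀ β : ℝ, ∫⁻ x in dInt (D.kb Bx.c) Bx.j, ENNReal.ofReal
      (|D.MS Bx.node (x, β + D.Γ.lft Bx.node * x)| ^ 4) ≤
      ENNReal.ofReal ((3 * X) ^ 4 * 2 ^ D.kb Bx.c) := fun β => by
    calc _ ≤ ∫⁻ x in dInt (D.kb Bx.c) Bx.j, 27 * ∑ δ ∈ ({-1, 0, 1} : Finset ℤ), ENNReal.ofReal
          (PhiMax D.b D.ψ D.u D.kmax (D.spF δ Bx.node) D.g (x, β + D.Γ.lft Bx.node * x) ^ 4) := by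
          refine lintegral_mono fun x => ?_
          rw [abs_of_nonneg (S1G_nonneg _ _), ← ENNReal.ofReal_sum_of_nonneg fun _ _ => by positivity,
            ← ENNReal.ofReal_ofNat, ← ENNReal.ofReal_mul (by norm_num)]
          refine ENNReal.ofReal_le_ofReal ((pow_sum_le_card_mul_sum_pow
            (fun _ _ => PhiMax_nonneg _ _ _ _ _ _ _) 3).trans (le_of_eq ?_))
          rw [show ({-1, 0, 1} : Finset ℤ).card = 3 from rfl]
          norm_num
      _ ≤ 27 * ∑ δ ∈ ({-1, 0, 1} : Finset ℤ), ENNReal.ofReal (X ^ 4 * 2 ^ D.kb Bx.c) := by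
          have hm : ∀ δ, Measurable fun x : ℝ => PhiMax D.b D.ψ D.u D.kmax (D.spF δ Bx.node) D.g
              (x, β + D.Γ.lft Bx.node * x) := fun δ =>
            (measurable_PhiMax h.hb h.hψ h.hu.meas _ _ h.hg).comp (by fun_prop)
          rw [lintegral_const_mul' _ _ (by simp),
            lintegral_finsetSum _ fun δ _ => ((hm δ).pow_const 4).ennreal_ofReal]
          exact mul_le_mul_right (Finset.sum_le_sum fun δ hδ => h1 D h e1 e2 hr Bx hc δ hδ β) _
      _ = _ := by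
          rw [← ENNReal.ofReal_sum_of_nonneg fun _ _ => by positivity, ← ENNReal.ofReal_ofNat,
            ← ENNReal.ofReal_mul (by norm_num), Finset.sum_const,
            show ({-1, 0, 1} : Finset ℤ).card = 3 from rfl]
          congr 1
          ring
  have h3 : ∀ y : ℝ, ∫⁻ z in D.reg Bx, ENNReal.ofReal (|D.MS Bx.node (z.1, z.2 - y)| ^ 4) ≤
      ENNReal.ofReal ((3 * X) ^ 4 * 2 ^ D.kb Bx.c * (26 * D.Lam)) := fun y => by
    have hm : Measurable fun z : P2 => ENNReal.ofReal (|D.MS Bx.node (z.1, z.2 - y)| ^ 4) :=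
      ((((S1G_meas h _).comp (f := fun z : P2 => ((z.1, z.2 - y) : P2)) (by fun_prop)).abs).pow_const
        4).ennreal_ofReal
    set β0 : ℝ := Bx.β * D.Lam - D.Γ.lft Bx.node * D.ba Bx with hβ0
    rw [← lintegral_indicator (measurableSet_reg Bx),
      lintegral_shear (D.Γ.lft Bx.node) (hm.indicator (measurableSet_reg Bx)),
      ENNReal.ofReal_mul (by positivity),
      show 26 * D.Lam = (β0 + 13 * D.Lam) - (β0 - 13 * D.Lam) by ring, ← Real.volume_Icc,
      ← setLIntegral_const, ← lintegral_indicator measurableSet_Icc]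
    refine lintegral_mono fun β => ?_
    have e : ∀ x, β + D.Γ.lft Bx.node * x - D.base Bx x = β - β0 := fun x => by
      rw [hβ0, base]
      ring
    by_cases hβ : β ∈ Icc (β0 - 13 * D.Lam) (β0 + 13 * D.Lam)
    · rw [indicator_of_mem hβ]
      refine le_trans ?_ (h2 (β - y))
      rw [← lintegral_indicator (measurableSet_dInt _ _)]
      refine lintegral_mono fun x => ?_
      by_cases hx : ((x, β + D.Γ.lft Bx.node * x) : P2) ∈ D.reg Bx
      · rw [indicator_of_mem hx, indicator_of_mem (mem_dInt.2 hx.1), add_sub_right_comm]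
      · rw [indicator_of_notMem hx]
        exact zero_le
    · rw [indicator_of_notMem hβ]
      refine le_of_eq ((lintegral_congr fun x => indicator_of_notMem (fun hx => hβ ?_) _).trans
        lintegral_zero)
      have := abs_le.1 (e x ▸ hx.2)
      constructor <;> linarith
  have h5 := S1G_conv h.θm.abs h.θi.abs (S1G_meas h Bx.node) (p := 4) (by norm_num) _ h3
  simp only [abs_abs, Even.pow_abs (by decide : Even 4)] at h5
  refine h5.trans ?_
  rw [← ENNReal.ofReal_mul (by positivity)]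
  refine ENNReal.ofReal_le_ofReal ?_
  have h6 := pow_le_pow_left₀ (integral_nonneg fun y => abs_nonneg _) h.θn 4
  calc _ ≤ D.A ^ 4 * ((3 * X) ^ 4 * 2 ^ D.kb Bx.c * (81 * D.Lam)) := by gcongr; norm_num
    _ = _ := by rw [hX]; ring

theorem S1G_cs {ι : Type*} (s : Finset ι) {f g : ι → P2 → ℝ≥0∞} (hf : ∀ i, Measurable (f i))
    (hg : ∀ i, Measurable (g i)) {a b : ℝ} (ha : 0 ≤ a) (hb : 0 ≤ b)
    (h1 : ∑ i ∈ s, ∫⁻ z, f i z ^ 2 ≤ ENNReal.ofReal a) (h2 : ∑ i ∈ s, ∫⁻ z, g i z ^ 2 ≤ ENNReal.ofReal b) :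
    ∑ i ∈ s, ∫⁻ z, f i z * g i z ≤ ENNReal.ofReal (√a * √b) := by
  refine (Finset.sum_le_sum fun i _ => ENNReal.lintegral_mul_le_Lp_mul_Lq volume
    Real.HolderConjugate.two_two (hf i).aemeasurable (hg i).aemeasurable).trans
    ((ENNReal.inner_le_Lp_mul_Lq s _ _ Real.HolderConjugate.two_two).trans ?_)
  simp only [one_div, ENNReal.rpow_inv_rpow (two_ne_zero (α := ℝ)), ENNReal.rpow_two]
  rw [ENNReal.ofReal_mul (Real.sqrt_nonneg _), Real.sqrt_eq_rpow, Real.sqrt_eq_rpow,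
    ← ENNReal.ofReal_rpow_of_nonneg ha (by norm_num), ← ENNReal.ofReal_rpow_of_nonneg hb (by norm_num),
    one_div]
  gcongr

theorem S1G_Sp (h : D.Ok) (T : ℕ × ℤ) (a : ℕ) (z : P2) :
    |vconv D.θ (D.Sp T a) z| ≤ vconv (fun y => |D.θ y|) (D.MS T) z := by
  obtain ⟨L, -, hL⟩ := PhiR_bdd_supp h.hb h.hψ h.hu h.hG
  have h1 : ∀ z, D.MS T z ≤ 3 * L := fun z =>
    (Finset.sum_le_card_nsmul _ _ L fun δ hδ => PhiMax_le fun c _ =>
      (hL c _ le_rfl _ (fam_spF h hδ T).meas (fam_spF h hδ T).sub _ h.hg z).1).trans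
      (le_of_eq (by rw [show ({-1, 0, 1} : Finset ℤ).card = 3 from rfl]; simp))
  refine norm_integral_le_of_norm_le (G := ℝ) (h.θi.abs.mul_bdd (c := 3 * L)
    ((S1G_meas h T).comp (f := fun y : ℝ => ((z.1, z.2 - y) : P2)) (by fun_prop)).aestronglyMeasurable
    (ae_of_all _ fun y => by rw [Real.norm_of_nonneg (S1G_nonneg _ _)]; exact h1 _))
    (ae_of_all _ fun y => ?_)
  rw [Real.norm_eq_abs, abs_mul]
  exact mul_le_mul_of_nonneg_left ((Finset.abs_sum_le_sum_abs _ _).trans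
    (Finset.sum_le_sum fun δ _ => abs_PhiR_le_PhiMax _ _ _ _ _ _ _ _)) (abs_nonneg _)

/-- `|vconv θ (Sp T a)| ≤ vconv |θ| (MS T)`, `∑_a √(vT T a) ≤ √2 √(∑_a vT T a)` (`vT_card`), the support lies in the regions of the top
boxes with node `T`; Cauchy-Schwarz over `T` and `z`; `box_L4`, `pack`, `mass_vT`. -/
theorem term (h4 : T4Stmt) {b ψ : ℝ → ℝ} (hb : IsB b) (hψ : IsPsi ψ) : ∃ C : ℝ, 0 ≤ C ∧
    ∀ D : S1Data, D.Ok → D.b = b → D.ψ = ψ → ∀ (ρ : ℕ) (Tp : Finset Box) (w : ℕ × ℤ → P2 → ℝ) (B : ℝ)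
      (μ : Tile → ℝ≥0∞) (M : ℝ), ρ + 1 ≤ D.r → D.Tops ρ Tp → D.Sys (ρ + 1) B μ w → 0 ≤ M →
      ∑ P ∈ D.U, μ P ≤ ENNReal.ofReal M →
      ∑ T ∈ TN Tp, ∑ a ∈ Finset.range (T.1 + 1),
        ∫⁻ z, ENNReal.ofReal (vconv D.θ (D.Sp T a) z ^ 2 * √(D.vT ρ Tp w T a z))
        ≤ ENNReal.ofReal (C * D.A ^ 2 * D.XX * √M) := by
  obtain ⟨C, hC, h1⟩ := box_L4 h4 hb hψ
  refine ⟨8 * C ^ 2, by positivity, fun D h e1 e2 ρ Tp w B μ M hρ hT hw hM hμ => ?_⟩
  have hA := h.hA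
  have hΛ := Lam_pos (D := D)
  have hV : ∀ T, Measurable (vconv (fun y => |D.θ y|) (D.MS T)) := fun T =>
    measurable_vconv h.θm.abs (S1G_meas h T)
  have hR : ∀ T, MeasurableSet (⋃ Bx ∈ Tp.filter (fun Bx => Bx.node = T), D.reg Bx) := fun T =>
    Finset.measurableSet_biUnion _ fun Bx _ => measurableSet_reg Bx
  have hv0 := vT_nonneg (D := D) (ρ := ρ) (Tp := Tp) hw.nonneg
  have hvm := measurable_vT (D := D) (ρ := ρ) (Tp := Tp) hw.meas
  have htt : 0 ≤ D.Γ.tt D.r * totL D.U :=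
    mul_nonneg (add_nonneg (t0_nonneg h) (by positivity))
      (Finset.sum_nonneg fun P _ => by unfold Tile.len; positivity)
  set X : ℝ := C * D.A * (D.Γ.kK + 1) ^ 2 with hX
  have h2 := S1G_cs (TN Tp)
    (f := fun T => (⋃ Bx ∈ Tp.filter (fun Bx => Bx.node = T), D.reg Bx).indicator
      fun z => ENNReal.ofReal (vconv (fun y => |D.θ y|) (D.MS T) z ^ 2))
    (g := fun T z => ENNReal.ofReal √(∑ a ∈ Finset.range (T.1 + 1), D.vT ρ Tp w T a z))
    (fun T => ((hV T).pow_const 2).ennreal_ofReal.indicator (hR T))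
    (fun T => (Finset.measurable_sum _ fun a _ => hvm T a).sqrt.ennreal_ofReal)
    (a := X ^ 4 * (12 * D.Γ.tt D.r * totL D.U)) (by rw [mul_assoc 12]; positivity) hM ?_ ?_
  · calc _ ≤ ∑ T ∈ TN Tp, 2 * ∫⁻ z, (⋃ Bx ∈ Tp.filter (fun Bx => Bx.node = T), D.reg Bx).indicator
          (fun z => ENNReal.ofReal (vconv (fun y => |D.θ y|) (D.MS T) z ^ 2)) z *
          ENNReal.ofReal √(∑ a ∈ Finset.range (T.1 + 1), D.vT ρ Tp w T a z) := by
          refine Finset.sum_le_sum fun T _ => ?_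
          have hm : ∀ a, Measurable fun z => ENNReal.ofReal (vconv D.θ (D.Sp T a) z ^ 2 *
              √(D.vT ρ Tp w T a z)) := fun a =>
            (((measurable_vconv_Sp h T a).pow_const 2).mul (hvm T a).sqrt).ennreal_ofReal
          rw [← lintegral_finsetSum _ fun a _ => hm a, ← lintegral_const_mul' _ _ (by simp)]
          refine lintegral_mono fun z => ?_
          by_cases hz : z ∈ ⋃ Bx ∈ Tp.filter (fun Bx => Bx.node = T), D.reg Bx
          · rw [indicator_of_mem hz, ← ENNReal.ofReal_sum_of_nonneg fun _ _ => by positivity,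
              ← ENNReal.ofReal_mul (sq_nonneg _), ← ENNReal.ofReal_ofNat,
              ← ENNReal.ofReal_mul (by norm_num), mul_left_comm]
            refine ENNReal.ofReal_le_ofReal (le_trans ?_ (mul_le_mul_of_nonneg_left
              (S1F_sqrt _ _ (fun a => hv0 T a z) (m := 2) (by norm_num)
                ((Nat.cast_le.2 (vT_card hw T _ z)).trans (by norm_num))) (sq_nonneg _)))
            rw [Finset.mul_sum]
            refine Finset.sum_le_sum fun a _ => mul_le_mul_of_nonneg_right ?_ (Real.sqrt_nonneg _)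
            rw [← sq_abs]
            exact pow_le_pow_left₀ (abs_nonneg _) (S1G_Sp h T a z) 2
          · refine le_trans (le_of_eq (Finset.sum_eq_zero fun a _ => ?_)) zero_le
            have : D.vT ρ Tp w T a z = 0 := by
              by_contra hn
              obtain ⟨Bx, h5, h6, h7⟩ := (vT_ne_zero hn).2.2.1
              exact hz (mem_biUnion (Finset.mem_filter.2 ⟨h5, h6⟩) h7.2)
            simp [this]
      _ ≤ 2 * ENNReal.ofReal (√(X ^ 4 * (12 * D.Γ.tt D.r * totL D.U)) * √M) := by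
          rw [← Finset.mul_sum]
          exact mul_le_mul_right h2 _
      _ ≤ _ := by
          rw [← ENNReal.ofReal_ofNat, ← ENNReal.ofReal_mul (by norm_num)]
          refine ENNReal.ofReal_le_ofReal ?_
          have h5 : √(X ^ 4 * (12 * D.Γ.tt D.r * totL D.U)) ≤
              4 * X ^ 2 * √(D.Γ.tt D.r * totL D.U) := by
            refine Real.sqrt_le_iff.2 ⟨by positivity, ?_⟩
            rw [mul_pow (4 * X ^ 2), Real.sq_sqrt htt]
            nlinarith [mul_nonneg (show 0 ≤ X ^ 4 by positivity) htt]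
          calc _ ≤ 2 * (4 * X ^ 2 * √(D.Γ.tt D.r * totL D.U) * √M) := by gcongr
            _ = _ := by rw [hX, XX]; ring
  · calc _ ≤ ∑ T ∈ TN Tp, ∑ Bx ∈ Tp.filter (fun Bx => Bx.node = T),
          ∫⁻ z in D.reg Bx, ENNReal.ofReal (vconv (fun y => |D.θ y|) (D.MS Bx.node) z ^ 4) := by
          refine Finset.sum_le_sum fun T _ => ?_
          simp only [← lintegral_indicator (measurableSet_reg _)]
          rw [← lintegral_finsetSum _ fun Bx _ =>
            ((hV _).pow_const 4).ennreal_ofReal.indicator (measurableSet_reg Bx)]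
          refine lintegral_mono fun z => ?_
          by_cases hz : z ∈ ⋃ Bx ∈ Tp.filter (fun Bx => Bx.node = T), D.reg Bx
          · obtain ⟨Bx, h5, h6⟩ := mem_iUnion₂.1 hz
            refine le_trans (le_of_eq ?_) (Finset.single_le_sum (fun _ _ => zero_le) h5)
            rw [indicator_of_mem hz, indicator_of_mem h6, (Finset.mem_filter.1 h5).2,
              ← ENNReal.ofReal_pow (sq_nonneg _), ← pow_mul]
          · rw [indicator_of_notMem hz]
            simp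
      _ = ∑ Bx ∈ Tp, ∫⁻ z in D.reg Bx,
          ENNReal.ofReal (vconv (fun y => |D.θ y|) (D.MS Bx.node) z ^ 4) :=
          Finset.sum_fiberwise_of_maps_to (g := Box.node) (t := TN Tp)
            (fun Bx hB => Finset.mem_image_of_mem _ hB) _
      _ ≤ ∑ Bx ∈ Tp, ENNReal.ofReal (X ^ 4 * (2 ^ D.kb Bx.c * D.Lam)) :=
          Finset.sum_le_sum fun Bx hB => h1 D h e1 e2 (by omega) Bx
            (top_le h hT (Finset.mem_image_of_mem _ hB))
      _ ≤ _ := by
          rw [← ENNReal.ofReal_sum_of_nonneg fun _ _ => by positivity, ← Finset.mul_sum]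
          exact ENNReal.ofReal_le_ofReal (mul_le_mul_of_nonneg_left (pack h hT hρ) (by positivity))
  · refine le_trans (le_of_eq (Finset.sum_congr rfl fun T _ => ?_)) ((mass_vT hT hw).trans hμ)
    rw [← lintegral_finsetSum _ fun a _ => (hvm T a).ennreal_ofReal]
    refine lintegral_congr fun z => ?_
    rw [← ENNReal.ofReal_pow (Real.sqrt_nonneg _), Real.sq_sqrt (Finset.sum_nonneg fun a _ => hv0 T a z),
      ENNReal.ofReal_sum_of_nonneg fun a _ => hv0 T a z]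

end S1Data

end Crest.Agent.R87
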