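import Crest.Agent.R87.S1P
import Crest.Agent.R87.S1C

/-! # R87 S1H: crude bounds (one tree; the far part). -/

set_option autoImplicit false

namespace Crest.Agent.R87

open MeasureTheory Set
open scoped ENNReal Classical

namespace S1Data

variable {D : S1Data}


theorem s1h_pow (p : ℕ) : ((p : ℝ) + 1) ^ 4 ≤ 24 * 16 * 2 ^ p := by
  have h1 := Nat.pow_le_choose (α := ℝ) 4 (p + 4)
  have h2 : (((p + 4).choose 4 : ℕ) : ℝ) ≤ 2 ^ (p + 4) := by exact_mod_cast Nat.choose_le_two_pow _ _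
  rw [show p + 4 + 1 - 4 = p + 1 by omega, div_le_iff₀ (by positivity)] at h1
  norm_num [Nat.factorial] at h1
  rw [pow_add] at h2
  linarith

theorem s1h_cs {f : ℝ → ℝ} (hf : Measurable f) {Q : ℝ} (hQ : 0 < Q) {k : ℕ} {m : ℤ}
    (h : ∫⁻ x in dInt k m, ENNReal.ofReal (f x ^ 4) ≤ ENNReal.ofReal (Q ^ 4 * 2 ^ k)) :
    ∫⁻ x in dInt k m, ENNReal.ofReal (f x ^ 2) ≤ ENNReal.ofReal (2 * Q ^ 2 * 2 ^ k) := by
  calc _ ≤ ∫⁻ x in dInt k m, (ENNReal.ofReal (1 / Q ^ 2) * ENNReal.ofReal (f x ^ 4) +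
        ENNReal.ofReal (Q ^ 2)) := lintegral_mono fun x => by
        rw [← ENNReal.ofReal_mul (by positivity), ← ENNReal.ofReal_add (by positivity) (by positivity)]
        refine ENNReal.ofReal_le_ofReal ?_
        rw [one_div, inv_mul_eq_div, div_add' _ _ _ (by positivity), le_div_iff₀ (by positivity)]
        nlinarith [sq_nonneg (f x ^ 2 - Q ^ 2), sq_nonneg (f x * Q)]
    _ ≤ ENNReal.ofReal (1 / Q ^ 2) * ENNReal.ofReal (Q ^ 4 * 2 ^ k) +
        ENNReal.ofReal (Q ^ 2) * ENNReal.ofReal (2 ^ k) := by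
        rw [lintegral_add_right _ measurable_const,
          lintegral_const_mul _ (hf.pow_const 4).ennreal_ofReal, setLIntegral_const, volume_dInt,
          zpow_natCast]
        gcongr
    _ = _ := by
        rw [← ENNReal.ofReal_mul (by positivity), ← ENNReal.ofReal_mul (by positivity),
          ← ENNReal.ofReal_add (by positivity) (by positivity)]
        congr 1
        field_simp
        ring

/-- `MU P = PhiMax .. P.k ..` (no terms above `P.k`), supported in the tube of radius `2ϑ+1`; `T4Stmt` with `2^p ≥ ϑ`, `p ≤ log2 ϑ + 1`,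
`k0 = P.k` on the lines of slope `s_P`, Cauchy-Schwarz, `lintegral_shear`; `(p+1)^4 ≤ C ϑ`. -/
theorem crude_tree (h4 : T4Stmt) {b ψ : ℝ → ℝ} (hb : IsB b) (hψ : IsPsi ψ) : ∃ C : ℝ, 0 ≤ C ∧
    ∀ D : S1Data, D.Ok → D.b = b → D.ψ = ψ → ∀ P ∈ D.U,
      ∫⁻ z, ENNReal.ofReal (D.MU P z ^ 2) ≤ ENNReal.ofReal (C * D.ϑ ^ 2 * P.len) := by
  obtain ⟨C, hC, h4⟩ := h4 b ψ hb hψ
  refine ⟨12 * (C + 1) ^ 2 * (24 * 16 * 4), by positivity, ?_⟩
  rintro D h rfl rfl P hP
  have hϑ := h.hϑ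
  obtain ⟨p, hp1, hp2⟩ := exists_nat_pow_near hϑ one_lt_two
  have hn := h.asg.near P
  have hm := (h.asg.fam P).meas
  set M := PhiMax D.b D.ψ D.u P.k (D.S P) D.g with hM
  have mM : Measurable M := measurable_PhiMax hb hψ h.hu.meas _ _ h.hg
  have h1 : ∀ z, D.MU P z ≤ M z := fun z => PhiMax_le fun c _ => by
    refine le_of_eq_of_le (congrArg _ (Finset.sum_subset (Finset.Icc_subset_Icc_right
      (h.asg.top_k P hP)) fun k h1 h2 => ?_).symm) (abs_PhiR_le_PhiMax _ _ _ c _ _ _ _)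
    refine Phi1_eq_zero hb hψ (hm k) fun z' hz' => ?_
    exact absurd (Finset.mem_Icc.2 ⟨(Finset.mem_Icc.1 h1).1, (hn k z' hz').1⟩) h2
  have h2 : ∀ z, z ∉ P.tube (2 * D.ϑ + 1) → M z = 0 := fun z hz =>
    le_antisymm (PhiMax_le fun c _ => by rw [PhiR_eq_zero_of_not_tube hb hψ hm hn hz, abs_zero])
      (PhiMax_nonneg _ _ _ _ _ _ _)
  set Q : ℝ := (C + 1) * ((p + 1 : ℕ) + 1) ^ 2 with hQ
  have hQ0 : 0 < Q := by positivity
  have h3 : ∀ β : ℝ, ∫⁻ x, ENNReal.ofReal (M (x, β + P.s * x) ^ 2) ≤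
      (Metric.closedBall (P.β - P.s * P.a) (2 * D.ϑ + 1)).indicator
        (fun _ => ENNReal.ofReal (2 * Q ^ 2 * 2 ^ P.k)) β := by
    intro β
    by_cases hβ : β ∈ Metric.closedBall (P.β - P.s * P.a) (2 * D.ϑ + 1)
    · rw [indicator_of_mem hβ, ← setLIntegral_eq_of_support_subset (s := dInt P.k P.m) (fun x hx => by
        by_contra hx'
        exact hx (by simp [h2 (x, β + P.s * x) fun ht => hx' (mem_dInt.2 ht.1)]))]
      refine s1h_cs (f := fun x => M (x, β + P.s * x)) (mM.comp (by fun_prop)) hQ0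
        ((h4 D.kmax D.u h.hu D.G h.hG (D.S P) (h.asg.fam P) D.g h.hg P.s (p + 1)
          (fun k z hz => (hn k z hz).2.2.1.trans hp2.le) P.k (h.asg.top_k P hP) P.m β).trans
          (ENNReal.ofReal_le_ofReal ?_))
      rw [hQ]
      gcongr
      linarith
    · rw [indicator_of_notMem hβ]
      refine (lintegral_congr fun x => ?_).trans_le lintegral_zero.le
      rw [h2 _ fun ht => hβ ?_]
      · simp
      · rw [Metric.mem_closedBall, Real.dist_eq]
        convert ht.2 using 2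
        simp only [Tile.line]
        ring
  calc _ ≤ ∫⁻ z, ENNReal.ofReal (M z ^ 2) := lintegral_mono fun z => ENNReal.ofReal_le_ofReal
        (pow_le_pow_left₀ (PhiMax_nonneg _ _ _ _ _ _ _) (h1 z) 2)
    _ = _ := lintegral_shear P.s (mM.pow_const 2).ennreal_ofReal
    _ ≤ _ := lintegral_mono h3
    _ ≤ _ := by
      rw [lintegral_indicator_const measurableSet_closedBall, Real.volume_closedBall,
        ← ENNReal.ofReal_mul (by positivity)]
      refine ENNReal.ofReal_le_ofReal ?_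
      have h5 : (((p + 1 : ℕ) : ℝ) + 1) ^ 4 ≤ 24 * 16 * 4 * D.ϑ :=
        (s1h_pow (p + 1)).trans (by rw [pow_succ]; linarith)
      calc 2 * Q ^ 2 * 2 ^ P.k * (2 * (2 * D.ϑ + 1))
          = 4 * (C + 1) ^ 2 * ((p + 1 : ℕ) + 1) ^ 4 * (2 * D.ϑ + 1) * 2 ^ P.k := by rw [hQ]; ring
        _ ≤ 4 * (C + 1) ^ 2 * (24 * 16 * 4 * D.ϑ) * (3 * D.ϑ) * 2 ^ P.k := by
          gcongr
          linarith
        _ = _ := by rw [Tile.len]; ring

theorem s1h_node (h : D.Ok) {ρ : ℕ} {W : ℕ × ℤ} {z : P2} (hc : D.Cnt ρ W z) :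
    D.F W z ^ 2 ≤ ∑ P ∈ D.U, if D.Γ.mem P W then
      D.n * vconv (fun y => |D.θ y|) (D.MU P) z ^ 2 else 0 := by
  rw [F_eq_sum h, ← Finset.sum_filter, ← Finset.mul_sum,
    ← Finset.sum_filter_of_ne (p := fun P => D.Γ.vis 0 P z) fun P _ h1 => by
      by_contra h2
      exact h1 (vconv_PhiU_eq_zero h _ h2)]
  refine sq_sum_le_card_mul_sum_sq.trans (mul_le_mul ?_ ?_ (by positivity) (by positivity))
  · refine Nat.cast_le.2 (hc _ ((Finset.filter_subset _ _).trans (Finset.filter_subset _ _))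
      fun P hP => ?_)
    obtain ⟨h1, h2⟩ := Finset.mem_filter.1 hP
    exact ⟨(Finset.mem_filter.1 h1).2, vis_mono (Nat.cast_nonneg ρ) h2⟩
  · refine (Finset.sum_le_sum_of_subset_of_nonneg (Finset.filter_subset _ _)
      fun _ _ _ => sq_nonneg _).trans (Finset.sum_le_sum fun P _ => ?_)
    rw [← sq_abs]
    exact pow_le_pow_left₀ (abs_nonneg _) (abs_vconv_PhiU_le h P _ z) 2

theorem s1h_count {ρ : ℕ} {Tp : Finset Box} (hT : D.Tops ρ Tp) {δ : ℤ} (hδ : δ ∈ dW) (z : P2)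
    (P : Tile) (V : Finset (ℕ × ℤ)) (I : Finset ℕ) {x : ℝ} (hx : 0 ≤ x) :
    (∑ T ∈ V, ∑ c ∈ I, if c ≤ T.1 ∧ z ∈ D.NG ρ Tp δ T c ∧ D.Γ.mem P (D.wn δ T c) then x else 0) ≤
      24 * x := by
  have e : ∀ {T c}, D.Γ.mem P (D.wn δ T c) → D.wn δ T c = (c, D.Γ.idx c P.s) := fun h =>
    Prod.ext rfl h.2.symm
  rw [Finset.sum_comm]
  calc _ ≤ ∑ c ∈ I, if ∃ T : ℕ × ℤ, c ≤ T.1 ∧ D.wn δ T c = (c, D.Γ.idx c P.s) ∧
        z ∈ D.NG ρ Tp δ T c then 12 * x else 0 := by
        refine Finset.sum_le_sum fun c _ => ?_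
        split_ifs with h1
        · rw [← Finset.sum_filter, Finset.sum_const, nsmul_eq_mul]
          refine mul_le_mul_of_nonneg_right ?_ hx
          refine Nat.cast_le.2 (card_T_le hT hδ (c, D.Γ.idx c P.s) z _ fun T hT => ?_)
          have := (Finset.mem_filter.1 hT).2
          exact ⟨this.1, e this.2.2, this.2.1⟩
        · exact (Finset.sum_eq_zero fun T _ => if_neg fun h2 => h1 ⟨T, h2.1, e h2.2.2, h2.2.1⟩).le
    _ ≤ _ := by
        rw [← Finset.sum_filter, Finset.sum_const, nsmul_eq_mul]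
        have : ((I.filter fun c => ∃ T : ℕ × ℤ, c ≤ T.1 ∧ D.wn δ T c = (c, D.Γ.idx c P.s) ∧
            z ∈ D.NG ρ Tp δ T c).card : ℝ) ≤ 2 := by
          exact_mod_cast card_c_le hT hδ z P.s _ fun c hc => (Finset.mem_filter.1 hc).2
        nlinarith

theorem s1h_point (h : D.Ok) {ρ : ℕ} {Tp : Finset Box} (hT : D.Tops ρ Tp) {δ : ℤ} (hδ : δ ∈ dW)
    (z : P2) : (∑ T ∈ TN Tp, ∑ c ∈ Finset.range (D.kmax + 1),
      if z ∈ D.NW ρ Tp δ T c then D.fW δ T c z ^ 2 else 0) ≤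
      ∑ P ∈ D.U, 24 * D.n * vconv (fun y => |D.θ y|) (D.MU P) z ^ 2 := by
  calc _ ≤ ∑ T ∈ TN Tp, ∑ c ∈ Finset.range (D.kmax + 1), ∑ P ∈ D.U,
        if c ≤ T.1 ∧ z ∈ D.NG ρ Tp δ T c ∧ D.Γ.mem P (D.wn δ T c) then
          D.n * vconv (fun y => |D.θ y|) (D.MU P) z ^ 2 else 0 := by
        refine Finset.sum_le_sum fun T _ => Finset.sum_le_sum fun c _ => ?_
        by_cases h1 : z ∈ D.NW ρ Tp δ T c ∧ D.isW δ T c
        · have h2 : z ∈ D.NG ρ Tp δ T c := by simpa only [NW, if_pos h1.2.2.1] using h1.1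
          rw [if_pos h1.1, fW, if_pos h1.2]
          simpa only [h1.2.2.1, h2, true_and] using s1h_node h h2.2.1
        · refine le_trans (le_of_eq ?_) (Finset.sum_nonneg fun P _ => by positivity)
          split_ifs with h2
          · rw [fW, if_neg fun h3 => h1 ⟨h2, h3⟩]
            simp
          · rfl
    _ ≤ _ := by
        simp only [Finset.sum_comm (t := D.U)]
        refine Finset.sum_le_sum fun P _ => ?_
        rw [mul_assoc]
        exact s1h_count hT hδ z P _ _ (by positivity)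

/-- At `z ∈ NG`, `F W z` is a sum over at most `n` members (`F_eq_sum`, `vconv_PhiU_eq_zero`, `Cnt`), so
`(F W z)² ≤ n ∑_{P member} (vconv |θ| (MU P) z)²`; for fixed `P`, `z` at most `2 * 12` pairs `(T, c)` occur (`card_c_le`,
`card_T_le`); `lintegral_vconv_pow`, `crude_tree`. -/
theorem far (h4 : T4Stmt) {b ψ : ℝ → ℝ} (hb : IsB b) (hψ : IsPsi ψ) : ∃ C : ℝ, 0 ≤ C ∧
    ∀ D : S1Data, D.Ok → D.b = b → D.ψ = ψ → ∀ (ρ : ℕ) (Tp : Finset Box), D.Tops ρ Tp →
      ∀ δ ∈ dW, ∑ T ∈ TN Tp, ∑ c ∈ Finset.range (D.kmax + 1),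
        ∫⁻ z in D.NW ρ Tp δ T c, ENNReal.ofReal (D.fW δ T c z ^ 2)
        ≤ ENNReal.ofReal (C * D.A ^ 2 * (D.ϑ ^ 2 * D.n * totL D.U)) := by
  obtain ⟨C, hC, hc⟩ := crude_tree h4 hb hψ
  refine ⟨24 * C, by positivity, fun D h e1 e2 ρ Tp hT δ hδ => ?_⟩
  have mθ : Measurable fun y => |D.θ y| := h.θm.abs
  have mm : ∀ P, Measurable fun z => ENNReal.ofReal (|vconv (fun y => |D.θ y|) (D.MU P) z| ^ 2) :=
    fun P => ((measurable_vconv mθ (measurable_MU h P)).abs.pow_const 2).ennreal_ofReal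
  have mi : ∀ T c, Measurable ((D.NW ρ Tp δ T c).indicator
      fun z => ENNReal.ofReal (D.fW δ T c z ^ 2)) := fun T c =>
    ((measurable_fW h δ T c).pow_const 2).ennreal_ofReal.indicator (measurableSet_NW _ _ _ _ _)
  obtain ⟨L, hL⟩ := MU_bdd h
  have hA : (0 : ℝ) ≤ D.A := zero_le_one.trans h.hA
  calc _ = ∫⁻ z, ∑ T ∈ TN Tp, ∑ c ∈ Finset.range (D.kmax + 1), (D.NW ρ Tp δ T c).indicator
        (fun z => ENNReal.ofReal (D.fW δ T c z ^ 2)) z := by
        rw [lintegral_finsetSum _ fun T _ => Finset.measurable_sum _ fun c _ => mi T c]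
        refine Finset.sum_congr rfl fun T _ => ?_
        rw [lintegral_finsetSum _ fun c _ => mi T c]
        exact Finset.sum_congr rfl fun c _ =>
          (lintegral_indicator (measurableSet_NW _ _ _ _ _) _).symm
    _ ≤ ∫⁻ z, ∑ P ∈ D.U, ENNReal.ofReal (24 * D.n) *
        ENNReal.ofReal (|vconv (fun y => |D.θ y|) (D.MU P) z| ^ 2) := lintegral_mono fun z => by
        have := ENNReal.ofReal_le_ofReal (s1h_point h hT hδ z)
        rw [ENNReal.ofReal_sum_of_nonneg fun T _ => Finset.sum_nonneg fun c _ => by positivity,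
          ENNReal.ofReal_sum_of_nonneg fun P _ => by positivity] at this
        refine le_of_eq_of_le (Finset.sum_congr rfl fun T _ => ?_) (this.trans_eq
          (Finset.sum_congr rfl fun P _ => ?_))
        · rw [ENNReal.ofReal_sum_of_nonneg fun c _ => by positivity]
          refine Finset.sum_congr rfl fun c _ => ?_
          by_cases hz : z ∈ D.NW ρ Tp δ T c <;> simp [hz]
        · rw [ENNReal.ofReal_mul (by positivity), sq_abs]
    _ ≤ ∑ P ∈ D.U, ENNReal.ofReal (24 * D.n * (D.A ^ 2 * (C * D.ϑ ^ 2 * P.len))) := by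
        rw [lintegral_finsetSum _ fun P _ => (mm P).const_mul _]
        refine Finset.sum_le_sum fun P hP => ?_
        rw [lintegral_const_mul _ (mm P), ENNReal.ofReal_mul (p := 24 * D.n) (by positivity),
          ENNReal.ofReal_mul (p := D.A ^ 2) (by positivity)]
        refine mul_le_mul_right ((lintegral_vconv_pow mθ h.θi.abs (measurable_MU h P) (hL P)
          one_le_two).trans (mul_le_mul' (ENNReal.ofReal_le_ofReal ?_) ?_)) _
        · simp only [abs_abs]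
          exact pow_le_pow_left₀ (integral_nonneg fun y => abs_nonneg _) h.θn 2
        · simpa only [sq_abs] using hc D h e1 e2 P hP
    _ = _ := by
        rw [← ENNReal.ofReal_sum_of_nonneg fun P _ => by unfold Tile.len; positivity, totL]
        simp only [Finset.mul_sum]
        exact congrArg _ (Finset.sum_congr rfl fun P _ => by ring)

end S1Data

end Crest.Agent.R87
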