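import Crest.Agent.R87.S1I1

/-! # R87 S1I: the error of the reproducing formula. -/

set_option autoImplicit false

namespace Crest.Agent.R87

open MeasureTheory Set
open scoped ENNReal Classical

namespace S1Data

variable {D : S1Data}

/-- the majorant of `err_tree` -/
noncomputable def s1i_e (D : S1Data) (C : ℝ) (P : Tile) (z : P2) : ℝ :=
  if D.Γ.vis (1 / 4) P z then D.eP C P z else 0

theorem s1i_ind_int (W : ℝ) : Integrable ((Icc (-W) W).indicator fun _ => (1 : ℝ)) :=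
  (integrable_indicator_iff measurableSet_Icc).2 (integrableOn_const (by simp))

theorem s1i_e_meas (h : D.Ok) (C : ℝ) (P : Tile) : Measurable (D.s1i_e C P) :=
  Measurable.ite (D.Γ.measurableSet_vis _ P)
    (((measurable_vconv (measurable_const.indicator measurableSet_Icc) (measurable_MU h P)).const_mul _).add_const _)
    measurable_const

theorem s1i_vconv_bdd (h : D.Ok) (P : Tile) (c : ℕ) : ∃ L, ∀ z, |vconv D.θ (D.PhiU P c) z| ≤ L := by
  obtain ⟨L, hL⟩ := MU_bdd h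
  refine ⟨D.A * L, fun z => (abs_vconv_PhiU_le h P c z).trans ?_⟩
  refine (integral_mono (s1a_int h.θi.abs (measurable_MU h P) (hL P) z) (h.θi.abs.mul_const L) fun y => ?_).trans ?_
  · exact mul_le_mul_of_nonneg_left ((le_abs_self _).trans (hL P _)) (abs_nonneg _)
  · rw [integral_mul_const]
    exact mul_le_mul_of_nonneg_right h.θn ((abs_nonneg _).trans (hL P z))

theorem s1i_dconv_sum (h : D.Ok) (ν : ℕ × ℤ) {lam : ℝ} (hlam : 0 < lam) (s : ℝ) (z : P2) :
    dconv (iteratedDeriv 2 D.Y) lam s (D.F ν) z = ∑ P ∈ D.U.filter (fun P => D.Γ.mem P ν),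
      dconv (iteratedDeriv 2 D.Y) lam s (vconv D.θ (D.PhiU P ν.1)) z := by
  simp only [dconv, F_eq_sum h, Finset.mul_sum]
  refine integral_finsetSum _ fun P _ => ?_
  obtain ⟨L, hL⟩ := s1i_vconv_bdd h P ν.1
  have i1 : Integrable (iteratedDeriv 2 D.Y) := s1i1_int (s1i1_chi_cont h.hY) fun t ht => s1i1_chi_zero h.hY ht
  exact ((i1.comp_mul_left' hlam.ne').const_mul lam).mul_bdd
    ((measurable_vconv h.θm (measurable_PhiR h.hb h.hψ h.hu.meas _ _ _ h.hg)).comp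
      (by fun_prop)).aestronglyMeasurable (Filter.Eventually.of_forall fun _ => hL _)

theorem s1i_point (h : D.Ok) {C : ℝ}
    (hC : ∀ (P : Tile) (c : ℕ) (s : ℝ), c ≤ P.k →
      D.Γ.sz c ≤ |s - P.s| → |s - P.s| ≤ 4 * D.Γ.sz c → ∀ z : P2,
        |vconv D.θ (D.PhiU P c) z
          - dconv (iteratedDeriv 2 D.Y) (D.lam0 / 2 ^ c) s (vconv D.θ (D.PhiU P c)) z| ≤ D.s1i_e C P z)
    (he : ∀ P z, 0 ≤ D.s1i_e C P z) {δ : ℤ} (hδ : δ ∈ dW) (T : ℕ × ℤ) (a : ℕ) (z : P2) :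
    |∑ c ∈ Finset.Ico (D.thr δ T a) (D.kmax + 1), (D.fW δ T c z - D.gW δ T c z)| ≤
      ∑ P ∈ D.U.filter (fun P => D.Γ.mem P (D.wn 0 T a)), D.s1i_e C P z := by
  refine (Finset.abs_sum_le_sum_abs _ _).trans ?_
  have h1 : ∀ c, |D.fW δ T c z - D.gW δ T c z| ≤
      ∑ P ∈ D.U, if D.isW δ T c ∧ D.Γ.mem P (D.wn δ T c) then D.s1i_e C P z else 0 := by
    intro c
    by_cases hW : D.isW δ T c
    · have e : D.fW δ T c = D.F (D.wn δ T c) := funext fun z => if_pos hW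
      have hlam : 0 < D.lam0 / 2 ^ c := by have := lam0_pos h; positivity
      rw [gW, e, s1i_dconv_sum h _ hlam, F_eq_sum h, ← Finset.sum_sub_distrib]
      refine (Finset.abs_sum_le_sum_abs _ _).trans ?_
      simp only [hW, true_and, ← Finset.sum_filter]
      refine Finset.sum_le_sum fun P hP => ?_
      obtain ⟨-, m1, m2⟩ := Finset.mem_filter.1 hP
      obtain ⟨d1, d2⟩ := wn_dist hδ m2
      exact hC P c _ m1 d1 d2 z
    · have e : D.fW δ T c = fun _ => 0 := funext fun z => if_neg hW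
      simp [gW, e, dconv, hW]
  refine (Finset.sum_le_sum fun c _ => h1 c).trans ?_
  rw [Finset.sum_comm, Finset.sum_filter]
  refine Finset.sum_le_sum fun P _ => ?_
  rw [← Finset.sum_filter, Finset.sum_const, nsmul_eq_mul]
  split_ifs with hm
  · refine mul_le_of_le_one_left (he P z) ?_
    norm_cast
    refine Finset.card_le_one.2 fun c hc c' hc' => ?_
    obtain ⟨-, a1, -, a2⟩ := Finset.mem_filter.1 hc
    obtain ⟨-, b1, -, b2⟩ := Finset.mem_filter.1 hc'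
    exact (isW_unique hδ hδ a1 b1 a2 b2).1
  · rw [Finset.filter_eq_empty_iff.2, Finset.card_empty, Nat.cast_zero, zero_mul]
    rintro c hc ⟨-, hc2⟩
    obtain ⟨c1, c2⟩ := Finset.mem_Ico.1 hc
    exact hm (D.Γ.mem_mono ((thr_le_iff δ T a (Nat.le_of_lt_succ c2)).1 c1) hc2)

theorem s1i_sq {C : ℝ} {ρ : ℕ} {ν : ℕ × ℤ} {z : P2} (hc : D.Cnt ((ρ + 1 : ℕ) : ℝ) ν z) :
    (∑ P ∈ D.U.filter (fun P => D.Γ.mem P ν), D.s1i_e C P z) ^ 2 ≤
      D.n * ∑ P ∈ D.U.filter (fun P => D.Γ.mem P ν), D.s1i_e C P z ^ 2 := by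
  set V := (D.U.filter (fun P => D.Γ.mem P ν)).filter (fun P => D.Γ.vis (1 / 4) P z) with hV
  have e : ∑ P ∈ D.U.filter (fun P => D.Γ.mem P ν), D.s1i_e C P z = ∑ P ∈ V, D.s1i_e C P z := by
    rw [hV, Finset.sum_filter (s := D.U.filter (fun P => D.Γ.mem P ν))]
    refine Finset.sum_congr rfl fun P _ => ?_
    unfold s1i_e
    split_ifs <;> rfl
  have hcard : V.card ≤ D.n := hc V ((Finset.filter_subset _ _).trans (Finset.filter_subset _ _)) fun P hP => by
    obtain ⟨p1, p2⟩ := Finset.mem_filter.1 hP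
    refine ⟨(Finset.mem_filter.1 p1).2, vis_mono ?_ p2⟩
    push_cast
    have : (0 : ℝ) ≤ ρ := Nat.cast_nonneg _
    linarith
  rw [e]
  refine sq_sum_le_card_mul_sum_sq.trans (mul_le_mul (by exact_mod_cast hcard)
    (Finset.sum_le_sum_of_subset_of_nonneg (Finset.filter_subset _ _) fun _ _ _ => sq_nonneg _)
    (Finset.sum_nonneg fun _ _ => sq_nonneg _) (Nat.cast_nonneg _))

theorem s1i_int (h : D.Ok) (hr : 1 ≤ D.r) {C C' : ℝ} (hC' : 0 ≤ C') {P : Tile}
    (hP : ∫⁻ z, ENNReal.ofReal (D.MU P z ^ 2) ≤ ENNReal.ofReal (C' * D.ϑ ^ 2 * P.len)) :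
    ∫⁻ z, ENNReal.ofReal (D.s1i_e C P z ^ 2) ≤ ENNReal.ofReal ((8 * C' + 12 * C ^ 2) * D.A ^ 4 * D.ϑ ^ 2 *
      (1 / D.R ^ 4 + D.ε ^ 2 * D.Γ.tt D.r ^ 2 + D.Γ.tt D.r * (2 ^ D.Γ.kL / 2 ^ D.Γ.kK) ^ 2) * P.len) := by
  obtain ⟨L, hL⟩ := MU_bdd h
  have hΛ := D.Lam_pos
  have hH := h.hH
  have hA := h.hA
  have hR := h.hR
  have hlen := s1a_len_pos P
  have hr' : (1 : ℝ) ≤ D.r := by exact_mod_cast hr
  set W := D.H + D.Lam with hW
  have hWt : W ≤ D.Γ.tt D.r := by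
    have := h.ht0
    have := h.hϑ
    have : 100 * D.Lam ≤ D.r * (100 * 2 ^ D.Γ.kL) := le_mul_of_one_le_left (by positivity) hr'
    rw [Geo.tt]
    linarith
  have hW0 : 0 < W := by positivity
  set v := vconv ((Icc (-W) W).indicator fun _ => (1 : ℝ)) (D.MU P) with hv
  set κ := C * D.ϑ * D.A ^ 2 * (D.Lam / 2 ^ D.Γ.kK) with hκ
  have vm : Measurable v := measurable_vconv (measurable_const.indicator measurableSet_Icc) (measurable_MU h P)
  have h1 : ∀ z, ENNReal.ofReal (D.s1i_e C P z ^ 2) ≤ ENNReal.ofReal (2 * D.ε ^ 2) * ENNReal.ofReal (|v z| ^ 2) +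
      {z | D.Γ.vis (1 / 4) P z}.indicator (fun _ => ENNReal.ofReal (2 * κ ^ 2)) z := fun z => by
    unfold s1i_e
    split_ifs with hz
    · rw [indicator_of_mem (show z ∈ {z | D.Γ.vis (1 / 4) P z} from hz), ← ENNReal.ofReal_mul (by positivity),
        ← ENNReal.ofReal_add (by positivity) (by positivity), sq_abs]
      refine ENNReal.ofReal_le_ofReal ?_
      change (D.ε * v z + κ) ^ 2 ≤ _
      nlinarith [sq_nonneg (D.ε * v z - κ)]
    · simp
  have h2 : ∫⁻ z, ENNReal.ofReal (|v z| ^ 2) ≤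
      ENNReal.ofReal ((2 * W) ^ 2) * ENNReal.ofReal (C' * D.ϑ ^ 2 * P.len) := by
    refine (lintegral_vconv_pow (measurable_const.indicator measurableSet_Icc) (s1i_ind_int W)
      (measurable_MU h P) (hL P) (p := 2) one_le_two).trans (mul_le_mul' (le_of_eq ?_) ?_)
    · congr 2
      have : ∀ y, |(Icc (-W) W).indicator (fun _ => (1 : ℝ)) y| = (Icc (-W) W).indicator (fun _ => (1 : ℝ)) y :=
        fun y => abs_of_nonneg (indicator_nonneg (fun _ _ => zero_le_one) _)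
      simp only [this]
      rw [integral_indicator measurableSet_Icc]
      simp only [integral_const, smul_eq_mul, mul_one, MeasurableSet.univ, measureReal_restrict_apply,
        univ_inter, Real.volume_real_Icc]
      rw [max_eq_left (by linarith)]
      ring
    · simpa only [sq_abs] using hP
  have h3 := volume_vis h (γ := 1 / 4) (by norm_num) (by linarith) P
  have htt : 0 ≤ D.Γ.tt D.r := by linarith
  refine (lintegral_mono h1).trans ?_
  rw [lintegral_add_left (by fun_prop), lintegral_const_mul _ (by fun_prop),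
    lintegral_indicator (D.Γ.measurableSet_vis _ P), setLIntegral_const]
  refine (add_le_add (mul_le_mul' le_rfl h2) (mul_le_mul' le_rfl h3)).trans ?_
  rw [← ENNReal.ofReal_mul (by positivity), ← ENNReal.ofReal_mul (by positivity),
    ← ENNReal.ofReal_mul (by positivity), ← ENNReal.ofReal_add (by positivity) (by positivity)]
  refine ENNReal.ofReal_le_ofReal ?_
  have hA4 : 1 ≤ D.A ^ 4 := one_le_pow₀ hA
  have q1 : 2 * D.ε ^ 2 * ((2 * W) ^ 2 * (C' * D.ϑ ^ 2 * P.len)) ≤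
      8 * C' * D.A ^ 4 * D.ϑ ^ 2 * (D.ε ^ 2 * D.Γ.tt D.r ^ 2) * P.len := by
    calc _ = 8 * C' * 1 * D.ϑ ^ 2 * (D.ε ^ 2 * W ^ 2) * P.len := by ring
      _ ≤ _ := by gcongr
  have q2 : 2 * κ ^ 2 * (6 * D.Γ.tt D.r * P.len) =
      12 * C ^ 2 * D.A ^ 4 * D.ϑ ^ 2 * (D.Γ.tt D.r * (2 ^ D.Γ.kL / 2 ^ D.Γ.kK) ^ 2) * P.len := by
    rw [hκ, Lam]; ring
  rw [q2]
  refine (add_le_add q1 le_rfl).trans ?_
  set X := D.ε ^ 2 * D.Γ.tt D.r ^ 2
  set Z := D.Γ.tt D.r * (2 ^ D.Γ.kL / 2 ^ D.Γ.kK) ^ 2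
  have hX : 0 ≤ X := by positivity
  have hZ : 0 ≤ Z := by positivity
  have hQ : 0 ≤ 1 / D.R ^ 4 := by positivity
  calc 8 * C' * D.A ^ 4 * D.ϑ ^ 2 * X * P.len + 12 * C ^ 2 * D.A ^ 4 * D.ϑ ^ 2 * Z * P.len
      ≤ 8 * C' * D.A ^ 4 * D.ϑ ^ 2 * (1 / D.R ^ 4 + X + Z) * P.len +
        12 * C ^ 2 * D.A ^ 4 * D.ϑ ^ 2 * (1 / D.R ^ 4 + X + Z) * P.len := by
        gcongr <;> linarith
    _ = _ := by ring

/-- For `z` with `vT T a z ≠ 0` the sum is a sum over members `P` of `wn 0 T a` (each in at most one Whitney node, `isW_unique`;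
`F_eq_sum`, linearity of `dconv`, `wn_dist`, `thr_le_iff`) of the errors of `err_tree`; at most `n` are visible (`Sys.cnt`);
`√vT ≤ √B`; for fixed `P`, `z` at most two pairs `(T, a)` occur (`card_pairs`); `lintegral_vconv_pow`, `crude_tree`,
`volume_vis`, `H + Λ ≤ tt r`. -/
theorem err (h4 : T4Stmt) {b ψ : ℝ → ℝ} (hb : IsB b) (hψ : IsPsi ψ) : ∃ C : ℝ, 0 ≤ C ∧
    ∀ D : S1Data, D.Ok → D.b = b → D.ψ = ψ → ∀ (ρ : ℕ) (Tp : Finset Box) (w : ℕ × ℤ → P2 → ℝ) (B : ℝ)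
      (μ : Tile → ℝ≥0∞), ρ + 1 ≤ D.r → D.Tops ρ Tp → D.Sys (ρ + 1) B μ w → ∀ δ ∈ dW,
      ∑ T ∈ TN Tp, ∑ a ∈ Finset.range (T.1 + 1), ∫⁻ z, ENNReal.ofReal
          ((∑ c ∈ Finset.Ico (D.thr δ T a) (D.kmax + 1), (D.fW δ T c z - D.gW δ T c z)) ^ 2
            * √(D.vT ρ Tp w T a z))
        ≤ ENNReal.ofReal (C * D.A ^ 4 * √B * D.YY) := by
  obtain ⟨C, hC0, hC⟩ := err_tree hb hψ
  obtain ⟨C', hC'0, hC'⟩ := crude_tree h4 hb hψ
  refine ⟨2 * (8 * C' + 12 * C ^ 2), by positivity, fun D h e1 e2 ρ Tp w B μ hρ hT hw δ hδ => ?_⟩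
  have hC1 := hC D h e1 e2
  have he : ∀ P z, 0 ≤ D.s1i_e C P z := fun P z => by
    unfold s1i_e eP
    have := h.hε
    have := h.hϑ
    have := D.Lam_pos
    have : 0 ≤ vconv ((Icc (-(D.H + D.Lam)) (D.H + D.Lam)).indicator fun _ => (1 : ℝ)) (D.MU P) z :=
      integral_nonneg fun y => mul_nonneg (indicator_nonneg (fun _ _ => zero_le_one) _) (PhiMax_nonneg _ _ _ _ _ _ _)
    split_ifs
    · positivity
    · rfl
  set m : ℕ × ℤ → ℕ → P2 → ℝ := fun T a z => ∑ P ∈ D.U,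
    if D.vT ρ Tp w T a z ≠ 0 ∧ D.Γ.mem P (D.wn 0 T a) then D.n * √B * D.s1i_e C P z ^ 2 else 0 with hm
  have m0 : ∀ T a z, 0 ≤ m T a z := fun T a z => Finset.sum_nonneg fun P _ => by
    split_ifs
    · positivity
    · rfl
  have mm : ∀ T a, Measurable (m T a) := fun T a => Finset.measurable_fun_sum _ fun P _ =>
    Measurable.ite (((measurable_vT hw.meas T a) (measurableSet_singleton 0).compl).inter (MeasurableSet.const _))
      (((s1i_e_meas h C P).pow_const 2).const_mul _) measurable_const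
  have h1 : ∀ T a z, (∑ c ∈ Finset.Ico (D.thr δ T a) (D.kmax + 1), (D.fW δ T c z - D.gW δ T c z)) ^ 2
      * √(D.vT ρ Tp w T a z) ≤ m T a z := fun T a z => by
    by_cases hz : D.vT ρ Tp w T a z = 0
    · rw [hz, Real.sqrt_zero, mul_zero]
      exact m0 T a z
    have p1 := s1i_point h hC1 he hδ T a z
    have p2 := s1i_sq (C := C) (hw.cnt _ z (vT_ne_zero hz).1)
    have p3 : √(D.vT ρ Tp w T a z) ≤ √B := Real.sqrt_le_sqrt ((vT_le hw.nonneg T a z).trans (hw.le _ z))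
    have p4 := (pow_le_pow_left₀ (abs_nonneg _) p1 2).trans p2
    rw [sq_abs] at p4
    refine (mul_le_mul p4 p3 (Real.sqrt_nonneg _) ((sq_nonneg _).trans p4)).trans (le_of_eq ?_)
    simp only [hm, ne_eq, hz, not_false_eq_true, true_and, ← Finset.sum_filter, ← Finset.mul_sum]
    ring
  have h2 : ∀ z, ∑ T ∈ TN Tp, ∑ a ∈ Finset.range (T.1 + 1), m T a z ≤
      ∑ P ∈ D.U, 2 * D.n * √B * D.s1i_e C P z ^ 2 := fun z => by
    calc _ ≤ ∑ T ∈ TN Tp, ∑ a ∈ Finset.range (D.kmax + 1), m T a z :=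
          Finset.sum_le_sum fun T hT' => Finset.sum_le_sum_of_subset_of_nonneg
            (Finset.range_subset_range.2 (Nat.succ_le_succ (top_le h hT hT'))) fun a _ _ => m0 T a z
      _ = ∑ p ∈ TN Tp ×ˢ Finset.range (D.kmax + 1), m p.1 p.2 z := (Finset.sum_product' _ _ _).symm
      _ ≤ _ := by
          simp only [hm]
          rw [Finset.sum_comm]
          refine Finset.sum_le_sum fun P _ => ?_
          rw [← Finset.sum_filter, Finset.sum_const, nsmul_eq_mul, mul_assoc 2, mul_assoc 2]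
          refine mul_le_mul_of_nonneg_right ?_ (by positivity)
          norm_cast
          refine card_pairs hT hw z P.s _ fun p hp => ?_
          obtain ⟨-, q1, -, q2⟩ := Finset.mem_filter.1 hp
          exact ⟨q1, q2⟩
  calc _ ≤ ∑ T ∈ TN Tp, ∑ a ∈ Finset.range (T.1 + 1), ∫⁻ z, ENNReal.ofReal (m T a z) :=
        Finset.sum_le_sum fun T _ => Finset.sum_le_sum fun a _ =>
          lintegral_mono fun z => ENNReal.ofReal_le_ofReal (h1 T a z)
    _ = ∫⁻ z, ∑ T ∈ TN Tp, ∑ a ∈ Finset.range (T.1 + 1), ENNReal.ofReal (m T a z) := by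
        rw [lintegral_finsetSum _ fun T _ => Finset.measurable_fun_sum _ fun a _ => (mm T a).ennreal_ofReal]
        exact Finset.sum_congr rfl fun T _ => (lintegral_finsetSum _ fun a _ => (mm T a).ennreal_ofReal).symm
    _ ≤ ∫⁻ z, ∑ P ∈ D.U, ENNReal.ofReal (2 * D.n * √B) * ENNReal.ofReal (D.s1i_e C P z ^ 2) := by
        refine lintegral_mono fun z => ?_
        simp only [← ENNReal.ofReal_sum_of_nonneg fun a _ => m0 _ a z]
        rw [← ENNReal.ofReal_sum_of_nonneg fun T _ => Finset.sum_nonneg fun a _ => m0 T a z]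
        refine (ENNReal.ofReal_le_ofReal (h2 z)).trans (le_of_eq ?_)
        rw [ENNReal.ofReal_sum_of_nonneg fun P _ => by positivity]
        exact Finset.sum_congr rfl fun P _ => ENNReal.ofReal_mul (by positivity)
    _ = ∑ P ∈ D.U, ENNReal.ofReal (2 * D.n * √B) * ∫⁻ z, ENNReal.ofReal (D.s1i_e C P z ^ 2) := by
        rw [lintegral_finsetSum _ fun P _ =>
          ((s1i_e_meas h C P).pow_const 2).ennreal_ofReal.const_mul _]
        exact Finset.sum_congr rfl fun P _ =>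
          lintegral_const_mul _ ((s1i_e_meas h C P).pow_const 2).ennreal_ofReal
    _ ≤ ∑ P ∈ D.U, ENNReal.ofReal (2 * D.n * √B) * ENNReal.ofReal ((8 * C' + 12 * C ^ 2) * D.A ^ 4 * D.ϑ ^ 2 *
          (1 / D.R ^ 4 + D.ε ^ 2 * D.Γ.tt D.r ^ 2 + D.Γ.tt D.r * (2 ^ D.Γ.kL / 2 ^ D.Γ.kK) ^ 2) * P.len) :=
        Finset.sum_le_sum fun P hP => mul_le_mul' le_rfl
          (s1i_int h (by omega) hC'0 (hC' D h e1 e2 P hP))
    _ = _ := by
        have htt : 0 ≤ D.Γ.tt D.r := by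
          have := t0_nonneg h
          unfold Geo.tt
          positivity
        have := h.hR
        rw [← Finset.mul_sum, ← ENNReal.ofReal_sum_of_nonneg fun P _ => by
          have := s1a_len_pos P
          positivity, ← ENNReal.ofReal_mul (by positivity), ← Finset.mul_sum]
        congr 1
        unfold YY totL
        ring

end S1Data

end Crest.Agent.R87
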