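import Crest.Agent.R87.S1H

/-! # R87 S1I1: the error of the reproducing formula for one tree. -/

set_option autoImplicit false

namespace Crest.Agent.R87

open MeasureTheory Set
open scoped ENNReal Classical

theorem s1i1_chi_zero {Y : ℝ → ℝ} {A R : ℝ} (hY : IsY Y A R) {t : ℝ} (ht : R < |t|) :
    iteratedDeriv 2 Y t = 0 := by
  have h1 : Y =ᶠ[nhds t] fun _ => (0 : ℝ) := by
    have : IsOpen {t : ℝ | R < |t|} := isOpen_lt continuous_const continuous_abs
    filter_upwards [this.mem_nhds ht] with x hx using hY.supp x hx.le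
  rw [(h1.iteratedDeriv 2).eq_of_nhds]
  simp

theorem s1i1_chi_cont {Y : ℝ → ℝ} {A R : ℝ} (hY : IsY Y A R) : Continuous (iteratedDeriv 2 Y) :=
  hY.smooth.continuous_iteratedDeriv 2 (by norm_num)

theorem s1i1_int {χ : ℝ → ℝ} {R : ℝ} (hc : Continuous χ) (hs : ∀ t, R < |t| → χ t = 0) : Integrable χ := by
  refine hc.integrable_of_hasCompactSupport (HasCompactSupport.intro (isCompact_Icc (a := -R) (b := R)) ?_)
  intro x hx
  refine hs x ?_
  by_contra h
  exact hx (abs_le.1 (not_lt.1 h))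

/-- the analytic core -/
theorem s1i1_core {χ θ : ℝ → ℝ} {f M : P2 → ℝ} {A R H W lam s sP ε Lp L : ℝ}
    (hχ : Continuous χ) (hχs : ∀ t, R < |t| → χ t = 0) (hχn : ∫ t, |χ t| ≤ A)
    (θm : Measurable θ) (θi : Integrable θ) (θn : ∫ y, |θ y| ≤ A) (θs : ∀ y, H < |y| → θ y = 0)
    (hf : Measurable f) (hM : Measurable M) (hfM : ∀ z, |f z| ≤ M z) (hL : ∀ z, |M z| ≤ L)
    (hlam : 0 < lam) (hR : 0 ≤ R) (hε : 0 ≤ ε) (hLp : 0 ≤ Lp)
    (hlip : ∀ (z : P2) (t : ℝ), |f (z.1 + t, z.2 + sP * t) - f z| ≤ Lp * |t|)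
    (hW : H + |s - sP| * (R / lam) ≤ W)
    (hrep : ∀ y, |θ y - ∫ t, lam * χ (lam * t) * θ (y - (s - sP) * t)| ≤ ε) (z : P2) :
    |vconv θ f z - dconv χ lam s (vconv θ f) z| ≤
      ε * vconv ((Icc (-W) W).indicator fun _ => (1 : ℝ)) M z + A ^ 2 * Lp * (R / lam) := by
  set d := s - sP with hd
  have hfL : ∀ z, |f z| ≤ L := fun z => (hfM z).trans ((le_abs_self _).trans (hL z))
  have hA : 0 ≤ A := (integral_nonneg fun _ => abs_nonneg _).trans θn
  set a : ℝ → ℝ := fun t => lam * χ (lam * t) with ha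
  have hac : Continuous a := by fun_prop
  have has : ∀ t, R / lam < |t| → a t = 0 := fun t ht => by
    have : R < |lam * t| := by
      rw [abs_mul, abs_of_pos hlam, mul_comm]; exact (div_lt_iff₀ hlam).1 ht
    simp [ha, hχs _ this]
  have hai : Integrable a := s1i1_int hac has
  have han : ∫ t, |a t| ≤ A := by
    have := Measure.integral_comp_mul_left (fun t => |χ t|) lam
    simp only [ha, abs_mul, abs_of_pos hlam, integral_const_mul]
    simp only [abs_mul, abs_of_pos hlam, smul_eq_mul, abs_inv] at this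
    rw [this, ← mul_assoc, mul_inv_cancel₀ hlam.ne', one_mul]
    exact hχn
  have gm : Measurable (vconv θ f) := measurable_vconv θm hf
  have gb : ∀ z, |vconv θ f z| ≤ A * L := fun z => by
    refine (abs_integral_le_integral_abs).trans ?_
    refine (integral_mono (S1Data.s1a_int θi hf hfL z).abs (θi.abs.mul_const L) fun y => ?_).trans ?_
    · simp only [abs_mul]
      exact mul_le_mul_of_nonneg_left (hfL _) (abs_nonneg _)
    · rw [integral_mul_const]
      exact mul_le_mul_of_nonneg_right θn ((abs_nonneg _).trans (hL z))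
  have glip : ∀ (z : P2) (t : ℝ), |vconv θ f (z.1 + t, z.2 + sP * t) - vconv θ f z| ≤ A * (Lp * |t|) := by
    intro z t
    rw [vconv, vconv, ← integral_sub (S1Data.s1a_int θi hf hfL _) (S1Data.s1a_int θi hf hfL _)]
    refine (abs_integral_le_integral_abs).trans ?_
    refine (integral_mono ((S1Data.s1a_int θi hf hfL _).sub (S1Data.s1a_int θi hf hfL _)).abs
      (θi.abs.mul_const (Lp * |t|)) fun y => ?_).trans ?_
    · simp only [Pi.sub_apply, ← mul_sub, abs_mul]
      refine mul_le_mul_of_nonneg_left ?_ (abs_nonneg _)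
      have := hlip (z.1, z.2 - y) t
      rw [add_sub_right_comm]
      exact this
    · rw [integral_mul_const]
      exact mul_le_mul_of_nonneg_right θn (by positivity)
  have i1 : Integrable fun t => a t * vconv θ f (z.1 - t, z.2 - s * t) :=
    hai.mul_bdd (gm.comp (by fun_prop)).aestronglyMeasurable (Filter.Eventually.of_forall fun _ => gb _)
  have i2 : Integrable fun t => a t * vconv θ f (z.1, z.2 - d * t) :=
    hai.mul_bdd (gm.comp (by fun_prop)).aestronglyMeasurable (Filter.Eventually.of_forall fun _ => gb _)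
  have e1 : |(∫ t, a t * vconv θ f (z.1, z.2 - d * t)) - dconv χ lam s (vconv θ f) z| ≤
      A ^ 2 * Lp * (R / lam) := by
    rw [dconv, ← integral_sub i2 i1]
    refine (abs_integral_le_integral_abs).trans ?_
    refine (integral_mono (i2.sub i1).abs (hai.abs.mul_const (A * (Lp * (R / lam)))) fun t => ?_).trans ?_
    · simp only [Pi.sub_apply, ← mul_sub, abs_mul]
      by_cases ht : R / lam < |t|
      · simp [has t ht]
      refine mul_le_mul_of_nonneg_left ?_ (abs_nonneg _)
      have := glip (z.1 - t, z.2 - s * t) t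
      have e : ((z.1 - t + t, z.2 - s * t + sP * t) : P2) = (z.1, z.2 - d * t) := by
        ext
        · simp
        · simp only [hd]; ring
      simp only [e] at this
      refine this.trans ?_
      gcongr
      exact not_lt.1 ht
    · rw [integral_mul_const]
      calc _ ≤ A * (A * (Lp * (R / lam))) := mul_le_mul_of_nonneg_right han (by positivity)
        _ = _ := by ring
  have i3 : Integrable (fun p : ℝ × ℝ => a p.1 * θ (p.2 - d * p.1)) (volume.prod volume) := by
    have hm : Measurable fun p : ℝ × ℝ => a p.1 * θ (p.2 - d * p.1) := by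
      have := hac.measurable
      fun_prop
    refine (integrable_prod_iff hm.aestronglyMeasurable).2 ⟨Filter.Eventually.of_forall fun t => ?_, ?_⟩
    · exact (θi.comp_sub_right (d * t)).const_mul (a t)
    · simp only [norm_mul, integral_const_mul]
      have : ∀ t, ∫ y, ‖θ (y - d * t)‖ = ∫ y, ‖θ y‖ := fun t =>
        integral_sub_right_eq_self (fun y => ‖θ y‖) (d * t)
      simp only [this]
      exact hai.norm.mul_const _
  have i4 : Integrable (fun p : ℝ × ℝ => a p.1 * θ (p.2 - d * p.1) * f (z.1, z.2 - p.2)) (volume.prod volume) :=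
    i3.mul_bdd (hf.comp (by fun_prop)).aestronglyMeasurable (Filter.Eventually.of_forall fun _ => hfL _)
  have e2 : ∫ t, a t * vconv θ f (z.1, z.2 - d * t) =
      ∫ y, (∫ t, a t * θ (y - d * t)) * f (z.1, z.2 - y) := by
    have : ∀ t, a t * vconv θ f (z.1, z.2 - d * t) = ∫ y, a t * θ (y - d * t) * f (z.1, z.2 - y) := fun t => by
      rw [vconv, ← integral_const_mul, ← integral_sub_right_eq_self _ (d * t)]
      refine integral_congr_ae (Filter.Eventually.of_forall fun y => ?_)
      simp only [mul_assoc]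
      rw [show z.2 - d * t - (y - d * t) = z.2 - y by ring]
    simp only [this]
    rw [integral_integral_swap i4]
    simp only [integral_mul_const]
  have i5 : Integrable fun y => (∫ t, a t * θ (y - d * t)) * f (z.1, z.2 - y) := by
    have := i4.integral_prod_right
    simpa only [integral_mul_const] using this
  have hH : ∀ y, W < |y| → θ y - ∫ t, a t * θ (y - d * t) = 0 := fun y hy => by
    have h0 : 0 ≤ |d| * (R / lam) := by positivity
    rw [θs y (by linarith), integral_eq_zero_of_ae (Filter.Eventually.of_forall fun t => ?_), sub_zero]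
    by_cases ht : R / lam < |t|
    · simp [has t ht]
    have h1 : |d * t| ≤ |d| * (R / lam) := by
      rw [abs_mul]; exact mul_le_mul_of_nonneg_left (not_lt.1 ht) (abs_nonneg _)
    have h2 : |y| - |d * t| ≤ |y - d * t| := abs_sub_abs_le_abs_sub _ _
    simp [θs (y - d * t) (by linarith)]
  have iI : Integrable ((Icc (-W) W).indicator fun _ => (1 : ℝ)) :=
    (integrable_indicator_iff measurableSet_Icc).2 (integrableOn_const (by simp))
  have e3 : |vconv θ f z - ∫ t, a t * vconv θ f (z.1, z.2 - d * t)| ≤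
      ε * vconv ((Icc (-W) W).indicator fun _ => (1 : ℝ)) M z := by
    rw [e2, vconv, vconv, ← integral_sub (S1Data.s1a_int θi hf hfL z) i5, ← integral_const_mul]
    refine (abs_integral_le_integral_abs).trans ?_
    refine integral_mono ((S1Data.s1a_int θi hf hfL z).sub i5).abs ((S1Data.s1a_int iI hM hL z).const_mul ε) fun y => ?_
    simp only [Pi.sub_apply, ← sub_mul, abs_mul]
    by_cases hy : W < |y|
    · rw [hH y hy, abs_zero, zero_mul]
      refine mul_nonneg hε (mul_nonneg (indicator_nonneg (fun _ _ => zero_le_one) _) ?_)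
      exact (abs_nonneg _).trans (hfM _)
    · rw [indicator_of_mem (show y ∈ Icc (-W) W from abs_le.1 (not_lt.1 hy)), one_mul]
      exact mul_le_mul (hrep y) (hfM _) (abs_nonneg _) hε
  calc _ ≤ |vconv θ f z - ∫ t, a t * vconv θ f (z.1, z.2 - d * t)| +
        |(∫ t, a t * vconv θ f (z.1, z.2 - d * t)) - dconv χ lam s (vconv θ f) z| := abs_sub_le _ _ _
    _ ≤ _ := add_le_add e3 e1

namespace S1Data

variable {D : S1Data}

/-- the error majorant of one tree -/
noncomputable def eP (D : S1Data) (C : ℝ) (P : Tile) (z : P2) : ℝ :=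
  D.ε * vconv ((Icc (-(D.H + D.Lam)) (D.H + D.Lam)).indicator fun _ => (1 : ℝ)) (D.MU P) z
    + C * D.ϑ * D.A ^ 2 * (D.Lam / 2 ^ D.Γ.kK)

theorem s1i1_geom (c n : ℕ) : ∑ k ∈ Finset.Icc c n, ((2 : ℝ) ^ k)⁻¹ ≤ 2 / 2 ^ c := by
  have : ∀ n, ∑ k ∈ Finset.Icc c (c + n), ((2 : ℝ) ^ k)⁻¹ = 2 / 2 ^ c - (2 ^ (c + n))⁻¹ := by
    intro n
    induction n with
    | zero => simp; field_simp; norm_num
    | succ n ih =>
      rw [← add_assoc, Finset.sum_Icc_succ_top (by omega), ih, pow_succ _ (c + n)]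
      field_simp
      ring
  rcases le_or_gt c n with h | h
  · obtain ⟨m, rfl⟩ := Nat.exists_eq_add_of_le h
    rw [this]
    have : (0 : ℝ) ≤ (2 ^ (c + m))⁻¹ := by positivity
    linarith
  · rw [Finset.Icc_eq_empty (by omega), Finset.sum_empty]
    positivity

theorem err_tree {b ψ : ℝ → ℝ} (hb : IsB b) (hψ : IsPsi ψ) : ∃ C : ℝ, 0 ≤ C ∧
    ∀ D : S1Data, D.Ok → D.b = b → D.ψ = ψ → ∀ (P : Tile) (c : ℕ) (s : ℝ), c ≤ P.k →
      D.Γ.sz c ≤ |s - P.s| → |s - P.s| ≤ 4 * D.Γ.sz c → ∀ z : P2,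
        |vconv D.θ (D.PhiU P c) z
          - dconv (iteratedDeriv 2 D.Y) (D.lam0 / 2 ^ c) s (vconv D.θ (D.PhiU P c)) z|
          ≤ if D.Γ.vis (1 / 4) P z then D.eP C P z else 0 := by
  obtain ⟨C, hC, hC'⟩ := exists_Phi1_bound hb hψ
  refine ⟨C, by linarith, fun D h e1 e2 P c s hc h1 h2 z => ?_⟩
  have hσ := D.Γ.sz_pos c
  have hη := h.hη
  have hR := h.hR
  have hΛ := D.Lam_pos
  have hlam : 0 < D.lam0 / 2 ^ c := by have := lam0_pos h; positivity
  have hRl : D.R / (D.lam0 / 2 ^ c) ≤ D.Lam / (8 * D.Γ.sz c) := by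
    have := transport_le h c
    have e : D.R / (D.lam0 / 2 ^ c) = 4 * D.R * 2 ^ c / D.lam0 / 4 := by
      have := lam0_pos h
      field_simp
    have e' : D.Lam / (8 * D.Γ.sz c) = D.Lam / (2 * D.Γ.sz c) / 4 := by field_simp; norm_num
    rw [e, e']
    linarith
  split_ifs with hv
  · obtain ⟨L, hL⟩ := MU_bdd h
    have hϑ := h.hϑ
    have key := s1i1_core (χ := iteratedDeriv 2 D.Y) (θ := D.θ) (f := D.PhiU P c) (M := D.MU P) (A := D.A)
      (R := D.R) (H := D.H) (W := D.H + D.Lam) (lam := D.lam0 / 2 ^ c) (s := s) (sP := P.s) (ε := D.ε)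
      (Lp := C * D.ϑ * (2 / 2 ^ c)) (L := L) (s1i1_chi_cont h.hY) (fun t ht => s1i1_chi_zero h.hY ht) h.hY.n2
      h.θm h.θi h.θn h.θs (measurable_PhiR h.hb h.hψ h.hu.meas _ _ _ h.hg) (measurable_MU h P)
      (fun z => abs_PhiR_le_PhiMax _ _ _ _ _ _ _ _) (hL P) hlam (by linarith) h.hε (by positivity)
      (fun z t => ?_) ?_ (fun y => ?_) z
    · refine key.trans (add_le_add le_rfl ?_)
      have hA := h.hA
      calc D.A ^ 2 * (C * D.ϑ * (2 / 2 ^ c)) * (D.R / (D.lam0 / 2 ^ c))
          ≤ D.A ^ 2 * (C * D.ϑ * (2 / 2 ^ c)) * (D.Lam / (8 * D.Γ.sz c)) := by gcongr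
        _ = C * D.ϑ * D.A ^ 2 * (D.Lam / 2 ^ D.Γ.kK) / 4 := by
          rw [Geo.sz]; field_simp; norm_num
        _ ≤ _ := by
          have : 0 ≤ C * D.ϑ * D.A ^ 2 * (D.Lam / 2 ^ D.Γ.kK) := by positivity
          linarith
    · simp only [PhiU, PhiR, ← Finset.sum_sub_distrib]
      refine (Finset.abs_sum_le_sum_abs _ _).trans ?_
      calc _ ≤ ∑ k ∈ Finset.Icc c D.kmax, C * D.ϑ * |t| * ((2 : ℝ) ^ k)⁻¹ := by
            refine Finset.sum_le_sum fun k hk => ?_
            rw [e1, e2, ← div_eq_mul_inv]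
            exact (hC' D.kmax D.u h.hu k (Finset.mem_Icc.1 hk).2 _ ((h.asg.fam P).meas k)
              (h.hG.subset ((h.asg.fam P).sub k)) D.g h.hg).2.2 P.s D.ϑ hϑ
              (fun z hz => (h.asg.near P k z hz).2.2.1) z t
        _ ≤ C * D.ϑ * |t| * (2 / 2 ^ c) := by
            rw [← Finset.mul_sum]
            exact mul_le_mul_of_nonneg_left (s1i1_geom _ _) (by positivity)
        _ = _ := by ring
    · have : |s - P.s| * (D.R / (D.lam0 / 2 ^ c)) ≤ 4 * D.Γ.sz c * (D.Lam / (8 * D.Γ.sz c)) := by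
        gcongr
      have e : 4 * D.Γ.sz c * (D.Lam / (8 * D.Γ.sz c)) = D.Lam / 2 := by field_simp; norm_num
      linarith
    · rw [lam0_div]
      exact h.rep _ _ hσ h1 h2 y
  · have hv0 : ¬ D.Γ.vis 0 P z := fun h0 => hv (vis_mono (by norm_num) h0)
    rw [vconv_PhiU_eq_zero h c hv0, dconv, integral_eq_zero_of_ae (Filter.Eventually.of_forall fun t => ?_)]
    · simp
    by_cases ht : D.R < |D.lam0 / 2 ^ c * t|
    · simp [s1i1_chi_zero h.hY ht]
    refine mul_eq_zero_of_right _ (vconv_PhiU_eq_zero h c fun h0 => hv ?_)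
    have ht' : |t| ≤ 2 * D.Lam / D.Γ.sz c := by
      rw [abs_mul, abs_of_pos hlam, not_lt, mul_comm, ← le_div_iff₀ hlam] at ht
      refine ht.trans (hRl.trans ?_)
      rw [div_le_div_iff₀ (by positivity) hσ]
      nlinarith [mul_pos hΛ hσ]
    have := vis_shift h0 hc (s := s) (t := t) (by rw [abs_sub_comm]; linarith) ht'
    simpa using this

end S1Data

end Crest.Agent.R87
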