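import Crest.Agent.R87.DefsW
import Crest.Agent.R87.S1F
import Crest.Agent.R87.S1I

/-! # R87 S1J: the energy of one Whitney family. -/

set_option autoImplicit false

namespace Crest.Agent.R87

open MeasureTheory Set
open scoped ENNReal Classical

namespace S1Data

variable {D : S1Data}


theorem s1j_split (f g : ℝ) {s : ℝ} (hs : 0 ≤ s) :
    ENNReal.ofReal (f ^ 2 * s) ≤ 2 * ENNReal.ofReal (g ^ 2 * s) + 2 * ENNReal.ofReal ((f - g) ^ 2 * s) := by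
  rw [← mul_add, ← ENNReal.ofReal_add (by positivity) (by positivity), ← ENNReal.ofReal_ofNat,
    ← ENNReal.ofReal_mul (by norm_num)]
  refine ENNReal.ofReal_le_ofReal ?_
  nlinarith [mul_nonneg (sq_nonneg (f - 2 * g)) hs]

/-- `κ` from `WBStmt` with `lam0`, `n = kmax+1`.  `(∑ fW)² ≤ 2 (∑ gW)² + 2 (∑ (fW - gW))²`; apply `WBStmt` for each `T` with
`s = lft T`, `I = range (T.1+1)`, `thr δ T`, `v = vT T`, `f = fW δ T`, `N = NW`, `m0 = 2`, `B = 2B` (`vT_card`, `vT_sum_le`, `F_bdd`,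
`mem_NW`); then `wW_energy`, `far`, `err`. -/
theorem whit (h4 : T4Stmt) (hW : WBStmt2) {b ψ : ℝ → ℝ} (hb : IsB b) (hψ : IsPsi ψ) : ∃ C : ℝ, 0 ≤ C ∧
    ∀ D : S1Data, D.Ok → D.b = b → D.ψ = ψ → ∃ κ : ℕ → Measure ℝ, D.Kap κ ∧
      ∀ (ρ : ℕ) (Tp : Finset Box) (w : ℕ × ℤ → P2 → ℝ) (B : ℝ) (μ : Tile → ℝ≥0∞), ρ + 1 ≤ D.r →
      D.Tops ρ Tp → D.Sys (ρ + 1) B μ w → ∀ δ ∈ dW,
      ∑ T ∈ TN Tp, ∑ a ∈ Finset.range (T.1 + 1), ∫⁻ z, ENNReal.ofReal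
          ((∑ c ∈ Finset.Ico (D.thr δ T a) (D.kmax + 1), D.fW δ T c z) ^ 2 * √(D.vT ρ Tp w T a z))
        ≤ ENNReal.ofReal (C * D.A ^ 2) * D.En (D.wW κ ρ Tp w δ)
          + ENNReal.ofReal (C * D.A ^ 4 * √B * D.YY) := by
  obtain ⟨CW, hCW, hW⟩ := hW
  obtain ⟨Cf, hCf, hfar⟩ := far h4 hb hψ
  obtain ⟨Ce, hCe, herr⟩ := err h4 hb hψ
  refine ⟨16 * CW + 4 * CW * Cf + 2 * Ce, by positivity, fun D h eb eψ => ?_⟩
  obtain ⟨κ, hκ1, hκ2, hWB⟩ := hW D.Y D.A D.R h.hR h.hY D.lam0 (lam0_pos h) (D.kmax + 1)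
  refine ⟨κ, ⟨hκ1, hκ2⟩, fun ρ Tp w B μ hρ hT hw δ hδ => ?_⟩
  have hB : 0 ≤ B := (hw.nonneg (0, 0) 0).trans (hw.le _ _)
  have hA : 0 ≤ D.A := zero_le_one.trans h.hA
  have hR : 0 < D.R := zero_lt_one.trans_le h.hR
  obtain ⟨L, hL⟩ := F_bdd h
  have hL0 : 0 ≤ L := (abs_nonneg _).trans (hL (0, 0) 0).1
  -- the filtered pieces
  have h1 : ∀ T ∈ TN Tp, ∑ a ∈ Finset.range (T.1 + 1), ∫⁻ z, ENNReal.ofReal
      ((∑ c ∈ Finset.Ico (D.thr δ T a) (D.kmax + 1), D.gW δ T c z) ^ 2 * √(D.vT ρ Tp w T a z))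
      ≤ ENNReal.ofReal (CW * D.A ^ 2 * √(2 : ℕ)) *
        ((∑ c ∈ Finset.range (D.kmax + 1), ∫⁻ z, ENNReal.ofReal (D.fW δ T c z ^ 2 *
          √(davg (κ c) (D.Γ.lft T) (D.VT ρ Tp w δ T c) z)))
        + ENNReal.ofReal (√(2 * B) / D.R ^ 4) *
          ∑ c ∈ Finset.range (D.kmax + 1), ∫⁻ z in D.NW ρ Tp δ T c, ENNReal.ofReal (D.fW δ T c z ^ 2)) := by
    intro T hTm
    refine hWB (D.Γ.lft T) (Finset.range (T.1 + 1)) (D.thr δ T) (D.vT ρ Tp w T) (D.fW δ T) (D.NW ρ Tp δ T) 2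
      (2 * B) (measurable_vT hw.meas T) (vT_nonneg hw.nonneg T) (vT_sum_le hw T _) (vT_card hw T _)
      (measurable_fW h δ T) ⟨L, fun c z => ?_⟩ (measurableSet_NW ρ Tp δ T)
      (fun a _ c hc z hz t ht => mem_NW h hT hw hδ hTm hc hz ht)
    unfold fW
    split_ifs
    · exact hL _ z
    · exact ⟨by simpa using hL0, fun _ => rfl⟩
  -- splitting
  have h2 : ∀ (T : ℕ × ℤ) (a : ℕ), ∫⁻ z, ENNReal.ofReal
      ((∑ c ∈ Finset.Ico (D.thr δ T a) (D.kmax + 1), D.fW δ T c z) ^ 2 * √(D.vT ρ Tp w T a z))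
      ≤ 2 * (∫⁻ z, ENNReal.ofReal
        ((∑ c ∈ Finset.Ico (D.thr δ T a) (D.kmax + 1), D.gW δ T c z) ^ 2 * √(D.vT ρ Tp w T a z)))
      + 2 * ∫⁻ z, ENNReal.ofReal
        ((∑ c ∈ Finset.Ico (D.thr δ T a) (D.kmax + 1), (D.fW δ T c z - D.gW δ T c z)) ^ 2
          * √(D.vT ρ Tp w T a z)) := by
    intro T a
    have hm : Measurable fun z => 2 * ENNReal.ofReal
        ((∑ c ∈ Finset.Ico (D.thr δ T a) (D.kmax + 1), D.gW δ T c z) ^ 2 * √(D.vT ρ Tp w T a z)) :=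
      (((Finset.measurable_sum _ fun c _ => measurable_gW h δ T c).pow_const 2).mul
        (measurable_vT hw.meas T a).sqrt).ennreal_ofReal.const_mul 2
    rw [← lintegral_const_mul' _ _ ENNReal.ofNat_ne_top, ← lintegral_const_mul' _ _ ENNReal.ofNat_ne_top,
      ← lintegral_add_left hm]
    refine lintegral_mono fun z => ?_
    rw [Finset.sum_sub_distrib]
    exact s1j_split _ _ (Real.sqrt_nonneg _)
  have h3 := wW_energy h hT hw ⟨hκ1, hκ2⟩ hδ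
  have h5 := hfar D h eb eψ ρ Tp hT δ hδ
  have h6 := herr D h eb eψ ρ Tp w B μ hρ hT hw δ hδ
  have hY0 : 0 ≤ D.ϑ ^ 2 * D.n * totL D.U :=
    mul_nonneg (by positivity) (Finset.sum_nonneg fun P _ => by unfold Tile.len; positivity)
  have hY : D.ϑ ^ 2 * D.n * totL D.U / D.R ^ 4 ≤ D.YY := by
    have ht : 0 ≤ D.Γ.tt D.r := by
      have := t0_nonneg h
      unfold Geo.tt
      positivity
    have e : D.YY = D.ϑ ^ 2 * D.n * totL D.U / D.R ^ 4 + D.ϑ ^ 2 * D.n * totL D.U *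
        (D.ε ^ 2 * D.Γ.tt D.r ^ 2 + D.Γ.tt D.r * (2 ^ D.Γ.kL / 2 ^ D.Γ.kK) ^ 2) := by
      unfold YY
      ring
    rw [e]
    exact le_add_of_nonneg_right (mul_nonneg hY0 (by positivity))
  have hYY : 0 ≤ D.YY := le_trans (by positivity) hY
  have hs2 : √((2 : ℕ) : ℝ) ≤ 2 := Real.sqrt_le_iff.2 ⟨by norm_num, by norm_num⟩
  have hs3 : √((2 : ℕ) : ℝ) * √(2 * B) = 2 * √B := by
    rw [Nat.cast_ofNat, Real.sqrt_mul (by norm_num), ← mul_assoc, Real.mul_self_sqrt (by norm_num)]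
  calc _ ≤ ∑ T ∈ TN Tp, ∑ a ∈ Finset.range (T.1 + 1), _ :=
        Finset.sum_le_sum fun T _ => Finset.sum_le_sum fun a _ => h2 T a
    _ = 2 * (∑ T ∈ TN Tp, ∑ a ∈ Finset.range (T.1 + 1), ∫⁻ z, ENNReal.ofReal
          ((∑ c ∈ Finset.Ico (D.thr δ T a) (D.kmax + 1), D.gW δ T c z) ^ 2 * √(D.vT ρ Tp w T a z)))
        + 2 * ∑ T ∈ TN Tp, ∑ a ∈ Finset.range (T.1 + 1), ∫⁻ z, ENNReal.ofReal
          ((∑ c ∈ Finset.Ico (D.thr δ T a) (D.kmax + 1), (D.fW δ T c z - D.gW δ T c z)) ^ 2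
            * √(D.vT ρ Tp w T a z)) := by
        simp only [Finset.sum_add_distrib, Finset.mul_sum]
    _ ≤ 2 * (ENNReal.ofReal (CW * D.A ^ 2 * √(2 : ℕ)) * (4 * D.En (D.wW κ ρ Tp w δ)
          + ENNReal.ofReal (√(2 * B) / D.R ^ 4) *
            ENNReal.ofReal (Cf * D.A ^ 2 * (D.ϑ ^ 2 * D.n * totL D.U))))
        + 2 * ENNReal.ofReal (Ce * D.A ^ 4 * √B * D.YY) := by
        refine add_le_add (mul_le_mul_right ?_ _) (mul_le_mul_right h6 _)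
        refine (Finset.sum_le_sum h1).trans ?_
        rw [← Finset.mul_sum, Finset.sum_add_distrib, ← Finset.mul_sum]
        gcongr
    _ = ENNReal.ofReal (8 * (CW * D.A ^ 2 * √(2 : ℕ))) * D.En (D.wW κ ρ Tp w δ)
        + ENNReal.ofReal (2 * (CW * D.A ^ 2 * √(2 : ℕ) * (√(2 * B) / D.R ^ 4 *
            (Cf * D.A ^ 2 * (D.ϑ ^ 2 * D.n * totL D.U)))) + 2 * (Ce * D.A ^ 4 * √B * D.YY)) := by
        rw [ENNReal.ofReal_add (by positivity) (by positivity),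
          ENNReal.ofReal_mul (p := 8) (by norm_num), ENNReal.ofReal_mul (p := 2) (by norm_num),
          ENNReal.ofReal_mul (p := 2) (by norm_num),
          ENNReal.ofReal_mul (p := CW * D.A ^ 2 * √(2 : ℕ)) (by positivity),
          ENNReal.ofReal_mul (p := √(2 * B) / D.R ^ 4) (by positivity), ENNReal.ofReal_ofNat,
          ENNReal.ofReal_ofNat]
        ring
    _ ≤ _ := by
        refine add_le_add (mul_le_mul_left (ENNReal.ofReal_le_ofReal ?_) _) (ENNReal.ofReal_le_ofReal ?_)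
        · have e1 : CW * D.A ^ 2 * √(2 : ℕ) ≤ CW * D.A ^ 2 * 2 := by gcongr
          have e2 : 0 ≤ (4 * CW * Cf + 2 * Ce) * D.A ^ 2 := by positivity
          linarith
        · have e1 : CW * D.A ^ 2 * √(2 : ℕ) * (√(2 * B) / D.R ^ 4 *
              (Cf * D.A ^ 2 * (D.ϑ ^ 2 * D.n * totL D.U))) =
              2 * CW * Cf * D.A ^ 4 * √B * (D.ϑ ^ 2 * D.n * totL D.U / D.R ^ 4) := by
            linear_combination CW * Cf * D.A ^ 4 * (D.ϑ ^ 2 * D.n * totL D.U / D.R ^ 4) * hs3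
          have e2 : 2 * CW * Cf * D.A ^ 4 * √B * (D.ϑ ^ 2 * D.n * totL D.U / D.R ^ 4) ≤
              2 * CW * Cf * D.A ^ 4 * √B * D.YY := by gcongr
          have e3 : 0 ≤ 16 * CW * D.A ^ 4 * √B * D.YY := by positivity
          rw [e1]
          linarith

end S1Data

end Crest.Agent.R87
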