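import Crest.Agent.R87.S1E
import Crest.Agent.R87.S1G
import Crest.Agent.R87.S1J

/-! # R87 S1K: the recursion and `S1Stmt`. -/

set_option autoImplicit false

namespace Crest.Agent.R87

open MeasureTheory Set
open scoped ENNReal Classical

namespace S1Data

variable {D : S1Data}

theorem k_six (p q : ℝ) (f : ℤ → ℝ) :
    (p + q + ∑ δ ∈ dW, f δ) ^ 2 ≤ 6 * (p ^ 2 + q ^ 2 + ∑ δ ∈ dW, f δ ^ 2) := by
  have e1 : ∑ δ ∈ dW, f δ = f (-3) + f (-2) + f 2 + f 3 := by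
    simp [dW, add_assoc]
  have e2 : ∑ δ ∈ dW, f δ ^ 2 = f (-3) ^ 2 + f (-2) ^ 2 + f 2 ^ 2 + f 3 ^ 2 := by
    simp [dW, add_assoc]
  rw [e1, e2]
  generalize f (-3) = a
  generalize f (-2) = b
  generalize f 2 = c
  generalize f 3 = d
  nlinarith [sq_nonneg (p - q), sq_nonneg (p - a), sq_nonneg (p - b), sq_nonneg (p - c), sq_nonneg (p - d),
    sq_nonneg (q - a), sq_nonneg (q - b), sq_nonneg (q - c), sq_nonneg (q - d), sq_nonneg (a - b),
    sq_nonneg (a - c), sq_nonneg (a - d), sq_nonneg (b - c), sq_nonneg (b - d), sq_nonneg (c - d)]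

theorem k_totL_nonneg (U : Finset Tile) : 0 ≤ totL U :=
  Finset.sum_nonneg fun P _ => by unfold Tile.len; positivity

theorem k_tt_nonneg (h : D.Ok) : 0 ≤ D.Γ.tt D.r := by
  have := t0_nonneg h
  unfold Geo.tt
  positivity

theorem k_XX_nonneg : 0 ≤ D.XX := by
  unfold XX
  positivity

theorem k_YY_nonneg (h : D.Ok) : 0 ≤ D.YY := by
  have := k_tt_nonneg h
  have := k_totL_nonneg D.U
  unfold YY
  positivity

/-- the pointwise six-term splitting, integrated -/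
theorem k_split (h : D.Ok) {ρ : ℕ} {Tp : Finset Box} {w : ℕ × ℤ → P2 → ℝ} {B : ℝ} {μ : Tile → ℝ≥0∞}
    (hT : D.Tops ρ Tp) (hw : D.Sys (ρ + 1) B μ w) {T : ℕ × ℤ} (hTm : T ∈ TN Tp) {a : ℕ}
    (ha : a ≤ T.1) :
    ∫⁻ z, ENNReal.ofReal (D.F (D.wn 0 T a) z ^ 2 * √(D.vT ρ Tp w T a z)) ≤
      6 * ((∫⁻ z, ENNReal.ofReal (vconv D.θ (D.Sp T a) z ^ 2 * √(D.vT ρ Tp w T a z)))
        + (∫⁻ z, ENNReal.ofReal ((∑ W ∈ (res T).filter (fun W => nsub W (D.wn 0 T a)), D.F W z) ^ 2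
            * √(D.vT ρ Tp w T a z)))
        + ∑ δ ∈ dW, ∫⁻ z, ENNReal.ofReal
          ((∑ c ∈ Finset.Ico (D.thr δ T a) (D.kmax + 1), D.fW δ T c z) ^ 2 * √(D.vT ρ Tp w T a z))) := by
  have hv : Measurable (fun z => √(D.vT ρ Tp w T a z)) := (measurable_vT hw.meas T a).sqrt
  have m1 : Measurable (fun z => ENNReal.ofReal (vconv D.θ (D.Sp T a) z ^ 2 * √(D.vT ρ Tp w T a z))) :=
    (((measurable_vconv_Sp h T a).pow_const 2).mul hv).ennreal_ofReal
  have m2 : Measurable (fun z => ENNReal.ofReal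
      ((∑ W ∈ (res T).filter (fun W => nsub W (D.wn 0 T a)), D.F W z) ^ 2 * √(D.vT ρ Tp w T a z))) :=
    (((Finset.measurable_sum _ fun W _ => measurable_F h W).pow_const 2).mul hv).ennreal_ofReal
  have m3 : ∀ δ, Measurable (fun z => ENNReal.ofReal
      ((∑ c ∈ Finset.Ico (D.thr δ T a) (D.kmax + 1), D.fW δ T c z) ^ 2 * √(D.vT ρ Tp w T a z))) :=
    fun δ => (((Finset.measurable_sum _ fun c _ => measurable_fW h δ T c).pow_const 2).mul hv).ennreal_ofReal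
  rw [← lintegral_finsetSum _ (fun δ _ => m3 δ), ← lintegral_add_left m1, ← lintegral_add_left (m1.fun_add m2),
    ← lintegral_const_mul' _ _ (by norm_num)]
  refine lintegral_mono fun z => ?_
  have hs : 0 ≤ √(D.vT ρ Tp w T a z) := Real.sqrt_nonneg _
  rw [← ENNReal.ofReal_sum_of_nonneg (fun δ _ => by positivity), ← ENNReal.ofReal_add (by positivity) (by positivity),
    ← ENNReal.ofReal_add (by positivity) (Finset.sum_nonneg fun δ _ => by positivity),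
    show (6 : ℝ≥0∞) = ENNReal.ofReal 6 by norm_num, ← ENNReal.ofReal_mul (by norm_num)]
  refine ENNReal.ofReal_le_ofReal ?_
  rw [F_dec h (top_le h hT hTm) ha z, ← Finset.sum_mul, ← add_mul, ← add_mul, ← mul_assoc]
  exact mul_le_mul_of_nonneg_right (k_six _ _ _) hs

/-- one step: `En_split`, `F_dec`, `(six terms)² ≤ 6 ∑ squares`, `term`, `res_energy`, `whit`. -/
theorem step (h4 : T4Stmt) (hW : WBStmt2) {b ψ : ℝ → ℝ} (hb : IsB b) (hψ : IsPsi ψ) : ∃ C : ℝ, 1 ≤ C ∧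
    ∀ D : S1Data, D.Ok → D.b = b → D.ψ = ψ → ∃ κ : ℕ → Measure ℝ, D.Kap κ ∧
      ∀ (ρ : ℕ) (Tp : Finset Box) (w : ℕ × ℤ → P2 → ℝ) (B : ℝ) (μ : Tile → ℝ≥0∞) (M : ℝ),
      ρ + 1 ≤ D.r → D.Tops ρ Tp → D.Sys (ρ + 1) B μ w → 0 ≤ M → ∑ P ∈ D.U, μ P ≤ ENNReal.ofReal M →
      D.En w ≤ D.En (D.wk ρ w) + 48 * D.En (D.wR ρ Tp w)
        + ENNReal.ofReal (C * D.A ^ 2) * ∑ δ ∈ dW, D.En (D.wW κ ρ Tp w δ)
        + ENNReal.ofReal (C * D.A ^ 4 * (D.XX * √M + √B * D.YY)) := by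
  obtain ⟨C1, hC1, H1⟩ := term h4 hb hψ
  obtain ⟨C2, hC2, H2⟩ := whit h4 hW hb hψ
  refine ⟨6 * C1 + 24 * C2 + 1, by linarith, fun D h e1 e2 => ?_⟩
  obtain ⟨κ, hκ, H2⟩ := H2 D h e1 e2
  refine ⟨κ, hκ, fun ρ Tp w B μ M hρ hT hw hM hμ => ?_⟩
  have t1 := H1 D h e1 e2 ρ Tp w B μ M hρ hT hw hM hμ
  have t2 := res_energy h hT hw
  have t3 := Finset.sum_le_sum fun δ hδ => H2 ρ Tp w B μ hρ hT hw δ hδ
  have t0 : ∑ T ∈ TN Tp, ∑ a ∈ Finset.range (T.1 + 1),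
      ∫⁻ z, ENNReal.ofReal (D.F (D.wn 0 T a) z ^ 2 * √(D.vT ρ Tp w T a z)) ≤
      6 * (ENNReal.ofReal (C1 * D.A ^ 2 * D.XX * √M) + 8 * D.En (D.wR ρ Tp w) +
        ∑ δ ∈ dW, (ENNReal.ofReal (C2 * D.A ^ 2) * D.En (D.wW κ ρ Tp w δ)
          + ENNReal.ofReal (C2 * D.A ^ 4 * √B * D.YY))) := by
    refine (Finset.sum_le_sum fun T hTm => Finset.sum_le_sum fun a ha =>
      k_split h hT hw hTm (Nat.lt_succ_iff.1 (Finset.mem_range.1 ha))).trans ?_
    simp only [← Finset.mul_sum, Finset.sum_add_distrib]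
    refine mul_le_mul_right (add_le_add (add_le_add t1 t2) ?_) _
    refine le_trans (le_of_eq ?_) (t3.trans (le_of_eq ?_))
    · rw [Finset.sum_comm]
      refine Finset.sum_congr rfl fun T _ => ?_
      rw [Finset.sum_comm]
    · rw [Finset.sum_add_distrib, Finset.mul_sum]
  have hA := h.hA
  have hX : 0 ≤ D.XX * √M := mul_nonneg k_XX_nonneg (Real.sqrt_nonneg _)
  have hY : 0 ≤ √B * D.YY := mul_nonneg (Real.sqrt_nonneg _) (k_YY_nonneg h)
  have hA2 : D.A ^ 2 ≤ D.A ^ 4 := pow_le_pow_right₀ hA (by norm_num)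
  have hA0 : 0 ≤ D.A ^ 2 := by positivity
  have c4 : dW.card = 4 := by decide
  have b1 : 6 * ENNReal.ofReal (C2 * D.A ^ 2) ≤ ENNReal.ofReal ((6 * C1 + 24 * C2 + 1) * D.A ^ 2) := by
    rw [show (6 : ℝ≥0∞) = ENNReal.ofReal 6 by norm_num, ← ENNReal.ofReal_mul (by norm_num)]
    refine ENNReal.ofReal_le_ofReal ?_
    nlinarith [mul_nonneg hC1 hA0, mul_nonneg hC2 hA0]
  have b2 : 6 * ENNReal.ofReal (C1 * D.A ^ 2 * D.XX * √M) + 24 * ENNReal.ofReal (C2 * D.A ^ 4 * √B * D.YY)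
      ≤ ENNReal.ofReal ((6 * C1 + 24 * C2 + 1) * D.A ^ 4 * (D.XX * √M + √B * D.YY)) := by
    have p1 : 0 ≤ C1 * D.A ^ 2 * D.XX * √M := by
      rw [mul_assoc]; exact mul_nonneg (mul_nonneg hC1 hA0) hX
    have p2 : 0 ≤ C2 * D.A ^ 4 * √B * D.YY := by
      rw [mul_assoc]; exact mul_nonneg (mul_nonneg hC2 (hA0.trans hA2)) hY
    rw [show (6 : ℝ≥0∞) = ENNReal.ofReal 6 by norm_num, show (24 : ℝ≥0∞) = ENNReal.ofReal 24 by norm_num,
      ← ENNReal.ofReal_mul (by norm_num), ← ENNReal.ofReal_mul (by norm_num),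
      ← ENNReal.ofReal_add (by positivity) (by positivity)]
    refine ENNReal.ofReal_le_ofReal ?_
    have q1 : C1 * D.A ^ 2 * (D.XX * √M) ≤ C1 * D.A ^ 4 * (D.XX * √M) :=
      mul_le_mul_of_nonneg_right (mul_le_mul_of_nonneg_left hA2 hC1) hX
    have hA4 : 0 ≤ D.A ^ 4 := hA0.trans hA2
    nlinarith [mul_nonneg (mul_nonneg hC1 hA4) hY, mul_nonneg (mul_nonneg hC2 hA4) hX,
      mul_nonneg hA4 hX, mul_nonneg hA4 hY]
  refine (En_split h hT hw).trans ?_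
  rw [add_assoc, add_assoc]
  refine add_le_add le_rfl (t0.trans ?_)
  rw [Finset.sum_add_distrib, Finset.sum_const, c4, ← Finset.mul_sum]
  calc 6 * (ENNReal.ofReal (C1 * D.A ^ 2 * D.XX * √M) + 8 * D.En (D.wR ρ Tp w) +
        (ENNReal.ofReal (C2 * D.A ^ 2) * ∑ δ ∈ dW, D.En (D.wW κ ρ Tp w δ) +
          4 • ENNReal.ofReal (C2 * D.A ^ 4 * √B * D.YY)))
      = 48 * D.En (D.wR ρ Tp w) + (6 * ENNReal.ofReal (C2 * D.A ^ 2) * ∑ δ ∈ dW, D.En (D.wW κ ρ Tp w δ)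
        + (6 * ENNReal.ofReal (C1 * D.A ^ 2 * D.XX * √M)
          + 24 * ENNReal.ofReal (C2 * D.A ^ 4 * √B * D.YY))) := by
        rw [nsmul_eq_mul]; push_cast; ring
    _ ≤ _ := add_le_add le_rfl (add_le_add (mul_le_mul_left b1 _) b2)

theorem k_En_zero (h : D.Ok) {w : ℕ × ℤ → P2 → ℝ} {B : ℝ} {μ : Tile → ℝ≥0∞} (hw : D.Sys 0 B μ w) :
    D.En w = 0 := by
  refine Finset.sum_eq_zero fun ν _ => ?_
  have : ∀ z, ENNReal.ofReal (D.F ν z ^ 2 * √(w ν z)) = 0 := by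
    intro z
    by_cases hz : w ν z = 0
    · simp [hz]
    · rw [F_eq_zero_of_not_perf h (Nat.cast_nonneg 0) (hw.np ν z hz)]
      simp
  simp [this]

/-- induction on `ρ`; level `0` has energy `0` (`F_eq_zero_of_not_perf`). -/
theorem recursion (h4 : T4Stmt) (hW : WBStmt2) {b ψ : ℝ → ℝ} (hb : IsB b) (hψ : IsPsi ψ) :
    ∃ C : ℝ, 1 ≤ C ∧ ∀ D : S1Data, D.Ok → D.b = b → D.ψ = ψ → ∀ (μ : Tile → ℝ≥0∞) (M : ℝ), 0 ≤ M →
      ∑ P ∈ D.U, μ P ≤ ENNReal.ofReal M → ∀ ρ : ℕ, ρ ≤ D.r → ∀ (w : ℕ × ℤ → P2 → ℝ) (B : ℝ),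
      D.Sys ρ B μ w →
      D.En w ≤ ENNReal.ofReal ((C * D.A ^ 2) ^ (ρ + 1) * (D.XX * √M + √B * D.YY)) := by
  obtain ⟨C, hC, H⟩ := step h4 hW hb hψ
  refine ⟨100 + 21 * C, by linarith, fun D h e1 e2 μ M hM hμ ρ => ?_⟩
  obtain ⟨κ, hκ, H⟩ := H D h e1 e2
  have hA := h.hA
  have hA2 : 1 ≤ D.A ^ 2 := one_le_pow₀ hA
  have hX : 0 ≤ D.XX * √M := mul_nonneg k_XX_nonneg (Real.sqrt_nonneg _)
  have hY := k_YY_nonneg h
  induction ρ with
  | zero =>
    intro _ w B hw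
    rw [k_En_zero h hw]
    exact zero_le
  | succ ρ ih =>
    intro hρ w B hw
    obtain ⟨Tp, hT⟩ := exists_Tops h ρ
    have ih' := ih (by omega)
    set Q := ((100 + 21 * C) * D.A ^ 2) ^ (ρ + 1) with hQ
    set Z := D.XX * √M + √B * D.YY with hZ
    have hB : 0 ≤ √B := Real.sqrt_nonneg _
    have hZ0 : 0 ≤ Z := add_nonneg hX (mul_nonneg hB hY)
    have hQ1 : D.A ^ 2 ≤ Q := by
      have h1 : 1 ≤ (100 + 21 * C) * D.A ^ 2 := by nlinarith
      calc D.A ^ 2 ≤ (100 + 21 * C) * D.A ^ 2 := by nlinarith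
        _ = ((100 + 21 * C) * D.A ^ 2) ^ 1 := (pow_one _).symm
        _ ≤ Q := pow_le_pow_right₀ h1 (by omega)
    have hQ0 : 0 ≤ Q := by linarith
    have sc : ∀ c d : ℝ, 0 ≤ c → 1 ≤ d → c ≤ d ^ 2 →
        ENNReal.ofReal (Q * (D.XX * √M + √(c * B) * D.YY)) ≤ ENNReal.ofReal (d * (Q * Z)) := by
      intro c d hc hd hcd
      refine ENNReal.ofReal_le_ofReal ?_
      have : √(c * B) ≤ d * √B := by
        rw [Real.sqrt_mul hc]
        exact mul_le_mul_of_nonneg_right (Real.sqrt_le_iff.2 ⟨by linarith, hcd⟩) hB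
      have h2 : D.XX * √M + √(c * B) * D.YY ≤ d * Z := by
        rw [hZ]
        nlinarith [mul_le_mul_of_nonneg_right this hY]
      calc Q * (D.XX * √M + √(c * B) * D.YY) ≤ Q * (d * Z) := mul_le_mul_of_nonneg_left h2 hQ0
        _ = d * (Q * Z) := by ring
    have s1 := ih' _ _ (sys_wk hw)
    have s2 := (ih' _ _ (sys_wR hT hw)).trans (sc 2 2 (by norm_num) (by norm_num) (by norm_num))
    have s3 : ∑ δ ∈ dW, D.En (D.wW κ ρ Tp w δ) ≤ ENNReal.ofReal (20 * (Q * Z)) := by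
      have c4 : dW.card = 4 := by decide
      refine (Finset.sum_le_card_nsmul _ _ _ fun δ hδ =>
        (ih' _ _ (sys_wW h hT hw hκ hδ)).trans (sc 24 5 (by norm_num) (by norm_num) (by norm_num))).trans ?_
      rw [c4, nsmul_eq_mul, show ((4 : ℕ) : ℝ≥0∞) = ENNReal.ofReal 4 by norm_num,
        ← ENNReal.ofReal_mul (by norm_num)]
      exact le_of_eq (by congr 1; ring)
    have hQZ : 0 ≤ Q * Z := mul_nonneg hQ0 hZ0
    have hCA : 0 ≤ C * D.A ^ 2 := by positivity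
    refine (H ρ Tp w B μ M hρ hT hw hM hμ).trans ?_
    refine (add_le_add (add_le_add (add_le_add s1 (mul_le_mul_right s2 _)) (mul_le_mul_right s3 _))
      le_rfl).trans ?_
    rw [show (48 : ℝ≥0∞) = ENNReal.ofReal 48 by norm_num, ← ENNReal.ofReal_mul (by norm_num),
      ← ENNReal.ofReal_mul hCA, ← ENNReal.ofReal_add hQZ (by positivity),
      ← ENNReal.ofReal_add (by positivity) (by positivity),
      ← ENNReal.ofReal_add (by positivity) (by positivity)]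
    refine ENNReal.ofReal_le_ofReal ?_
    rw [pow_succ _ (ρ + 1), ← hQ, ← hZ]
    have e4 : C * D.A ^ 4 * Z ≤ C * D.A ^ 2 * (Q * Z) := by
      have : D.A ^ 2 * Z ≤ Q * Z := mul_le_mul_of_nonneg_right hQ1 hZ0
      calc C * D.A ^ 4 * Z = C * D.A ^ 2 * (D.A ^ 2 * Z) := by ring
        _ ≤ _ := mul_le_mul_of_nonneg_left this hCA
    have e5 : Q * Z ≤ D.A ^ 2 * (Q * Z) := le_mul_of_one_le_left hQZ hA2
    nlinarith

/-- the two roots -/
theorem k_roots (h : D.Ok) : ∃ m : ℤ, ∀ z,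
    vconv D.θ (PhiR D.b D.ψ D.u 0 D.kmax D.T D.g) z = D.F (0, m) z + D.F (0, m + 1) z := by
  have hK : (8 : ℝ) ≤ D.Γ.sz 0 := by
    unfold Geo.sz
    rw [pow_zero, div_one]
    calc (8 : ℝ) = 2 ^ 3 := by norm_num
      _ ≤ _ := pow_le_pow_right₀ one_le_two h.hkK
  have hi : ∀ z, D.Γ.idx 0 (D.u z) = D.Γ.idx 0 (-4) ∨ D.Γ.idx 0 (D.u z) = D.Γ.idx 0 (-4) + 1 := by
    intro z
    have hu := abs_le.1 (h.hu.bdd z)
    have h0 := D.Γ.sz_pos 0
    have l1 : D.Γ.idx 0 (-4) ≤ D.Γ.idx 0 (D.u z) :=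
      Int.floor_le_floor (div_le_div_of_nonneg_right (by linarith) h0.le)
    have l2 : D.Γ.idx 0 (D.u z) ≤ D.Γ.idx 0 (-4) + 1 := by
      unfold Geo.idx
      rw [← Int.floor_add_one]
      refine Int.floor_le_floor ?_
      rw [div_add_one h0.ne']
      exact div_le_div_of_nonneg_right (by linarith) h0.le
    omega
  refine ⟨D.Γ.idx 0 (-4), fun z => ?_⟩
  set m := D.Γ.idx 0 (-4)
  have hm : ∀ m' : ℤ, MeasurableSet {z | D.Γ.idx 0 (D.u z) = m'} := fun m' =>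
    ((D.Γ.measurable_idx 0).comp h.hu.meas) (measurableSet_singleton m')
  have e : ∀ z, PhiR D.b D.ψ D.u 0 D.kmax D.T D.g z = D.PhiN (0, m) z + D.PhiN (0, m + 1) z := by
    intro z
    unfold PhiN PhiR
    rw [← Finset.sum_add_distrib]
    refine Finset.sum_congr rfl fun k _ => ?_
    rw [← Phi1_union h.hb h.hψ h.hu.meas k (h.hG.subset (inter_subset_left.trans (h.asg.famT.sub k)))
      (h.hG.subset (inter_subset_left.trans (h.asg.famT.sub k))) ((h.asg.famT.meas k).inter (hm _))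
      (disjoint_left.2 fun z h1 h2 => by
        have a1 : D.Γ.idx 0 (D.u z) = m := h1.2
        have a2 : D.Γ.idx 0 (D.u z) = m + 1 := h2.2
        omega) h.hg]
    congr 1
    ext z
    simp only [mem_union, mem_inter_iff, mem_setOf_eq]
    have := hi z
    tauto
  obtain ⟨L, -, hL⟩ := PhiR_bdd_supp h.hb h.hψ h.hu h.hG
  have hint : ∀ m' : ℤ, Integrable (fun y => D.θ y * D.PhiN (0, m') (z.1, z.2 - y)) := by
    intro m'
    refine h.θi.mul_bdd (c := L) ?_ (ae_of_all _ fun y => ?_)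
    · exact ((measurable_PhiR h.hb h.hψ h.hu.meas _ _ _ h.hg).comp
        (measurable_const.prodMk (measurable_const.sub measurable_id))).aestronglyMeasurable
    · exact (hL 0 D.kmax le_rfl _ (fun k => (h.asg.famT.meas k).inter (hm _))
        (fun k => inter_subset_left.trans (h.asg.famT.sub k)) D.g h.hg _).1
  unfold F vconv
  rw [← integral_add (hint _) (hint _)]
  refine integral_congr_ae (ae_of_all _ fun y => ?_)
  simp only [e, mul_add]

/-- the initial system -/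
theorem k_sys0 {E : Set P2} (hE : MeasurableSet E)
    (h1 : ∀ z ∈ E, ∀ m : ℤ, ¬ Perf D.Γ D.U D.r z D.r (0, m))
    (h2 : ∀ z ∈ E, ∀ V : Finset Tile, V ⊆ D.U → (∀ P ∈ V, D.Γ.vis D.r P z) → V.card ≤ D.n) :
    D.Sys D.r 1 (fun P => volume (E ∩ {z | D.Γ.vis D.r P z}))
      (fun ν z => if ν.1 = 0 ∧ z ∈ E then 1 else 0) where
  meas ν := Measurable.ite ((MeasurableSet.const _).inter hE) measurable_const measurable_const
  nonneg ν z := by split_ifs <;> norm_num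
  le ν z := by split_ifs <;> norm_num
  np ν z hz := by
    have hc : ν.1 = 0 ∧ z ∈ E := by
      by_contra hc
      exact hz (if_neg hc)
    obtain ⟨c, m⟩ := ν
    have hc0 : c = 0 := hc.1
    subst hc0
    exact h1 z hc.2 m
  cnt ν z hz := by
    have hc : ν.1 = 0 ∧ z ∈ E := by
      by_contra hc
      exact hz (if_neg hc)
    exact fun V hV hP => h2 z hc.2 V hV fun P hPV => (hP P hPV).2
  ov z s V hV := by
    have : V ⊆ {0} := fun c hc => by
      have hc' : c = 0 ∧ z ∈ E := by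
        by_contra hc'
        exact hV c hc (if_neg hc')
      simp [hc'.1]
    exact (Finset.card_le_card this).trans (by simp)
  mass P _ := by
    rw [Finset.sum_eq_single 0]
    · have : ∀ z, ENNReal.ofReal (if (0 : ℕ) = 0 ∧ z ∈ E then (1 : ℝ) else 0) = E.indicator 1 z := by
        intro z
        by_cases hz : z ∈ E <;> simp [hz]
      refine le_of_eq ((lintegral_congr this).trans ?_)
      rw [lintegral_indicator_one hE, Measure.restrict_apply hE]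
    · intro c _ hc
      simp [hc]
    · simp

theorem k_mass0 {E : Set P2} (hE : MeasurableSet E) (hb : Bornology.IsBounded E)
    (h2 : ∀ z ∈ E, ∀ V : Finset Tile, V ⊆ D.U → (∀ P ∈ V, D.Γ.vis D.r P z) → V.card ≤ D.n) :
    ∑ P ∈ D.U, volume (E ∩ {z | D.Γ.vis D.r P z}) ≤ ENNReal.ofReal (D.n * (volume E).toReal) := by
  have e : ∀ P, volume (E ∩ {z | D.Γ.vis D.r P z}) =
      ∫⁻ z in E, {z | D.Γ.vis D.r P z}.indicator 1 z := by
    intro P
    rw [lintegral_indicator_one (D.Γ.measurableSet_vis _ P),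
      Measure.restrict_apply (D.Γ.measurableSet_vis _ P), inter_comm]
  simp only [e]
  rw [← lintegral_finsetSum _ (fun P _ => measurable_one.indicator (D.Γ.measurableSet_vis _ P)),
    ENNReal.ofReal_mul (Nat.cast_nonneg _), ENNReal.ofReal_toReal hb.measure_lt_top.ne,
    ENNReal.ofReal_natCast, ← setLIntegral_const]
  refine setLIntegral_mono' hE fun z hz => ?_
  have := h2 z hz (D.U.filter fun P => D.Γ.vis D.r P z) (Finset.filter_subset _ _)
    fun P hP => (Finset.mem_filter.1 hP).2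
  calc ∑ P ∈ D.U, {z | D.Γ.vis D.r P z}.indicator (1 : P2 → ℝ≥0∞) z
      = ((D.U.filter fun P => D.Γ.vis D.r P z).card : ℝ≥0∞) := by
        rw [Finset.card_filter]
        push_cast
        refine Finset.sum_congr rfl fun P _ => ?_
        by_cases hP : D.Γ.vis D.r P z <;> simp [hP]
    _ ≤ D.n := by exact_mod_cast this

theorem k_init (h : D.Ok) {E : Set P2} (hE : MeasurableSet E) :
    ∫⁻ z in E, ENNReal.ofReal (vconv D.θ (PhiR D.b D.ψ D.u 0 D.kmax D.T D.g) z ^ 2) ≤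
      2 * D.En (fun ν z => if ν.1 = 0 ∧ z ∈ E then 1 else 0) := by
  obtain ⟨m, hm⟩ := k_roots h
  have e : ∀ m' : ℤ, ∫⁻ z in E, ENNReal.ofReal (D.F (0, m') z ^ 2) =
      ∫⁻ z, ENNReal.ofReal (D.F (0, m') z ^ 2 *
        √(if ((0, m') : ℕ × ℤ).1 = 0 ∧ z ∈ E then 1 else 0)) := by
    intro m'
    rw [← lintegral_indicator hE]
    refine lintegral_congr fun z => ?_
    by_cases hz : z ∈ E <;> simp [hz]
  have hne : ((0, m) : ℕ × ℤ) ≠ (0, m + 1) := by simp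
  calc ∫⁻ z in E, ENNReal.ofReal (vconv D.θ (PhiR D.b D.ψ D.u 0 D.kmax D.T D.g) z ^ 2)
      ≤ ∫⁻ z in E, 2 * (ENNReal.ofReal (D.F (0, m) z ^ 2) + ENNReal.ofReal (D.F (0, m + 1) z ^ 2)) := by
        refine lintegral_mono fun z => ?_
        rw [hm, ← ENNReal.ofReal_add (sq_nonneg _) (sq_nonneg _),
          show (2 : ℝ≥0∞) = ENNReal.ofReal 2 by norm_num, ← ENNReal.ofReal_mul (by norm_num)]
        exact ENNReal.ofReal_le_ofReal (by nlinarith [sq_nonneg (D.F (0, m) z - D.F (0, m + 1) z)])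
    _ = 2 * ∑ ν ∈ ({(0, m), (0, m + 1)} : Finset (ℕ × ℤ)), ∫⁻ z, ENNReal.ofReal (D.F ν z ^ 2 *
          √(if ν.1 = 0 ∧ z ∈ E then 1 else 0)) := by
        rw [lintegral_const_mul' _ _ (by norm_num),
          lintegral_add_left ((measurable_F h _).pow_const 2).ennreal_ofReal, e, e, Finset.sum_pair hne]
    _ ≤ _ := by
        refine mul_le_mul_right (Finset.sum_le_sum_of_ne_zero fun ν _ hν => ?_) _
        by_contra hn
        simp [F_eq_zero_of_not_mem h hn] at hν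

end S1Data

/-- initial system `w (0, m) = 1_E`, `B = 1`, `μ P = volume (E ∩ vis r P)`, `M = n |E|`; since `|u| ≤ 4` and `K ≥ 8` at most
two roots `(0, m)` carry terms, so `(vconv θ Φ)² ≤ 2 ∑_m (F (0,m))²`. -/
theorem s1 (h4 : T4Stmt) (hW : WBStmt2) : S1Stmt := by
  intro b ψ hb hψ
  obtain ⟨C, hC, H⟩ := S1Data.recursion h4 hW hb hψ
  refine ⟨2 * C, by linarith, ?_⟩
  intro kmax u hu G hG ϑ Γ U T S hϑ asg g hg Y θ A R H' η ε hA hR hη hε hH hY θm θi θn θs rep hkL hkK ht0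
    r n E hE hEb hee h1 h2
  let D : S1Data := ⟨b, ψ, kmax, u, G, ϑ, Γ, U, T, S, g, Y, θ, A, R, H', η, ε, r, n⟩
  have h : D.Ok := ⟨hb, hψ, hu, hG, hϑ, asg, hg, hA, hR, hη, hε, hH, hY, θm, θi, θn, θs, rep, hkL, hkK,
    ht0, hee⟩
  have hM : (0 : ℝ) ≤ n * (volume E).toReal := by positivity
  have t1 := H D h rfl rfl _ _ hM (S1Data.k_mass0 (D := D) hE hEb h2) r le_rfl _ _
    (S1Data.k_sys0 (D := D) hE h1 h2)
  refine (S1Data.k_init h hE).trans ((mul_le_mul_right t1 2).trans ?_)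
  rw [show (2 : ℝ≥0∞) = ENNReal.ofReal 2 by norm_num, ← ENNReal.ofReal_mul (by norm_num)]
  refine ENNReal.ofReal_le_ofReal ?_
  have hX : 0 ≤ D.XX * √(n * (volume E).toReal) := mul_nonneg S1Data.k_XX_nonneg (Real.sqrt_nonneg _)
  have hY' := S1Data.k_YY_nonneg h
  have eX : D.XX * √(n * (volume E).toReal) =
      (Γ.kK + 1) ^ 4 * √(Γ.tt r * totL U * n * (volume E).toReal) := by
    have h0 : 0 ≤ Γ.tt r * totL U := mul_nonneg (S1Data.k_tt_nonneg h) (S1Data.k_totL_nonneg U)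
    rw [mul_assoc (Γ.tt r * totL U), Real.sqrt_mul h0, ← mul_assoc]
    rfl
  rw [← eX, Real.sqrt_one, one_mul, ← mul_assoc]
  refine mul_le_mul_of_nonneg_right ?_ (add_nonneg hX hY')
  have hA2 : 1 ≤ A ^ 2 := one_le_pow₀ hA
  have h1' : 1 ≤ C * A ^ 2 := by nlinarith
  calc 2 * (C * A ^ 2) ^ (r + 1) ≤ (2 * C * A ^ 2) * (2 * C * A ^ 2) ^ (r + 1) :=
        mul_le_mul (by nlinarith) (pow_le_pow_left₀ (by linarith) (by nlinarith) _) (by positivity)
          (by nlinarith)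
    _ = (2 * C * A ^ 2) ^ (r + 2) := by ring

end Crest.Agent.R87
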