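import Crest.Agent.R87.S1B

/-! # R87 S1P: packing and overlap of the tops. -/

set_option autoImplicit false

namespace Crest.Agent.R87

open MeasureTheory Set
open scoped ENNReal Classical

namespace S1Data

variable {D : S1Data}


variable {ρ : ℕ} {Tp : Finset Box}

theorem S1P_sep {ι : Type*} (V : Finset ι) (f : ι → ℝ) {a L d : ℝ} (hd : 0 < d) (hL : 0 ≤ L)
    (h1 : ∀ i ∈ V, a ≤ f i ∧ f i ≤ a + L) (h2 : ∀ i ∈ V, ∀ j ∈ V, i ≠ j → d ≤ |f i - f j|) :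
    (V.card : ℝ) ≤ L / d + 1 := by
  have h3 : V.card ≤ (Finset.Icc (0 : ℤ) ⌊L / d⌋).card := by
    refine Finset.card_le_card_of_injOn (fun i => ⌊(f i - a) / d⌋) (fun i hi => ?_)
      (fun i hi j hj e => ?_)
    · obtain ⟨k1, k2⟩ := h1 i hi
      rw [Finset.mem_coe, Finset.mem_Icc]
      exact ⟨Int.floor_nonneg.2 (div_nonneg (by linarith) hd.le),
        Int.floor_le_floor (div_le_div_of_nonneg_right (by linarith) hd.le)⟩
    · by_contra hne
      have k1 := Int.abs_sub_lt_one_of_floor_eq_floor e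
      rw [← sub_div, abs_div, abs_of_pos hd, div_lt_one hd, sub_sub_sub_cancel_right] at k1
      exact absurd (h2 i hi j hj hne) (not_le.2 k1)
  have h4 : 0 ≤ ⌊L / d⌋ := Int.floor_nonneg.2 (div_nonneg hL hd.le)
  have h5 : ((Finset.Icc (0 : ℤ) ⌊L / d⌋).card : ℤ) = ⌊L / d⌋ + 1 := by
    rw [Int.card_Icc_of_le _ _ (by omega)]
    ring
  have h6 : (V.card : ℤ) ≤ ⌊L / d⌋ + 1 := by
    rw [← h5]
    exact_mod_cast h3
  have h7 : (V.card : ℝ) ≤ (⌊L / d⌋ : ℝ) + 1 := by exact_mod_cast h6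
  linarith [Int.floor_le (L / d)]

theorem S1P_sum {ι : Type*} (V : Finset ι) (k j : ι → ℤ) {a L N : ℝ} (hL : 0 ≤ L)
    (h1 : ∀ i ∈ V, ∀ x, dI (k i) x = j i → x ∈ Icc a (a + L))
    (h2 : ∀ x, ((V.filter (fun i => dI (k i) x = j i)).card : ℝ) ≤ N) :
    ∑ i ∈ V, (2 : ℝ) ^ k i ≤ N * L := by
  have hi : ∀ i, Integrable ((dInt (k i) (j i)).indicator fun _ => (1 : ℝ)) := fun i =>
    (integrable_indicator_iff (measurableSet_dInt _ _)).2
      (integrableOn_const (by rw [volume_dInt]; exact ENNReal.ofReal_ne_top))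
  have e1 : ∀ i, (2 : ℝ) ^ k i = ∫ x, (dInt (k i) (j i)).indicator (fun _ => (1 : ℝ)) x := fun i => by
    rw [integral_indicator (measurableSet_dInt _ _), setIntegral_const, Measure.real, volume_dInt,
      ENNReal.toReal_ofReal (by positivity), smul_eq_mul, mul_one]
  have e2 : N * L = ∫ x, (Icc a (a + L)).indicator (fun _ => N) x := by
    rw [integral_indicator measurableSet_Icc, setIntegral_const, Real.volume_real_Icc_of_le (by linarith),
      smul_eq_mul]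
    ring
  rw [Finset.sum_congr rfl fun i _ => e1 i, ← integral_finsetSum _ fun i _ => hi i, e2]
  refine integral_mono (integrable_finsetSum _ fun i _ => hi i)
    ((integrable_indicator_iff measurableSet_Icc).2 (integrableOn_const measure_Icc_lt_top.ne))
    fun x => ?_
  have e3 : ∑ i ∈ V, (dInt (k i) (j i)).indicator (fun _ => (1 : ℝ)) x =
      ((V.filter (fun i => dI (k i) x = j i)).card : ℝ) := by
    rw [Finset.card_filter]
    push_cast
    refine Finset.sum_congr rfl fun i _ => ?_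
    rw [indicator_apply]
    simp only [mem_dInt]
  beta_reduce
  rw [e3]
  by_cases hx : x ∈ Icc a (a + L)
  · rw [indicator_of_mem hx]
    exact h2 x
  · rw [indicator_of_notMem hx, Finset.filter_eq_empty_iff.2 fun i hi h => hx (h1 i hi x h)]
    simp

theorem S1P_int {B : Box} {x : ℝ} :
    dI (D.kb B.c) x = B.j ↔ D.ba B ≤ x ∧ x < D.ba B + D.Lam / D.Γ.sz B.c := by
  rw [← mem_dInt, ← two_pow_kb, dInt, mem_Ico, ba, add_mul, one_mul]

theorem S1P_sz_anti {c c' : ℕ} (h : c ≤ c') : D.Γ.sz c' ≤ D.Γ.sz c := by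
  unfold Geo.sz
  exact div_le_div_of_nonneg_left (by positivity) (by positivity) (pow_le_pow_right₀ one_le_two h)

/-- nested tops with different cuts are far apart -/
theorem S1P_far (hT : D.Tops ρ Tp) {B B' : Box} (hB : B ∈ Tp) (hB' : B' ∈ Tp) (hc : B.c < B'.c)
    (hn : nsub B'.node B.node) {p x : ℝ} (hp : dI (D.kb B.c) p = B.j) (hp' : dI (D.kb B'.c) p = B'.j)
    (hx : |x - D.ba B| ≤ 3 / 2 * (D.Lam / D.Γ.sz B.c)) :
    17 / 2 * D.Lam ≤ |D.base B x - D.base B' x| := by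
  have hσ := D.Γ.sz_pos B.c
  have hΛ := Lam_pos (D := D)
  have h0 : dI (D.kb B.c) (D.ba B) = B.j :=
    S1P_int.2 ⟨le_rfl, lt_add_of_pos_right _ (div_pos hΛ hσ)⟩
  have h1 : dI (D.kb B'.c) (D.ba B) = B'.j := by
    rw [← hp']
    refine dI_eq_of_le (k := D.kb B.c) ?_ (h0.trans hp.symm)
    unfold kb
    omega
  have h2 : 10 * D.Lam < |D.base B (D.ba B) - D.base B' (D.ba B)| :=
    not_le.1 fun h => hT.sep B hB B' hB' hc ⟨hn, h1, h⟩
  obtain ⟨-, k1, k2⟩ := (D.Γ.nsub_iff _ _).1 hn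
  have k3 := D.Γ.sz_pos B'.node.1
  have h3 : |D.Γ.lft B.node - D.Γ.lft B'.node| ≤ D.Γ.sz B.c := by
    change _ ≤ D.Γ.sz B.node.1
    rw [abs_le]
    constructor <;> linarith
  have h4 : |(D.Γ.lft B.node - D.Γ.lft B'.node) * (x - D.ba B)| ≤ 3 / 2 * D.Lam := by
    rw [abs_mul]
    refine (mul_le_mul h3 hx (abs_nonneg _) hσ.le).trans (le_of_eq ?_)
    field_simp
  have e : D.base B (D.ba B) - D.base B' (D.ba B) = (D.base B x - D.base B' x) -
      (D.Γ.lft B.node - D.Γ.lft B'.node) * (x - D.ba B) := by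
    unfold base
    ring
  rw [e] at h2
  linarith [abs_sub (D.base B x - D.base B' x) ((D.Γ.lft B.node - D.Γ.lft B'.node) * (x - D.ba B))]

theorem S1P_eq {ν ν' : ℕ × ℤ} (h : nsub ν ν') (e : ν.1 = ν'.1) : ν = ν' := by
  refine Prod.ext e ?_
  have := h.2
  rwa [e, Nat.sub_self, pow_zero, Int.ediv_one] at this

/-- two tops whose nodes contain the slope `s` and whose intervals contain `x` -/
theorem S1P_far' (hT : D.Tops ρ Tp) {B B' : Box} (hB : B ∈ Tp) (hB' : B' ∈ Tp) (hne : B ≠ B') {s x : ℝ}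
    (hs : D.Γ.idx B.c s = B.m) (hs' : D.Γ.idx B'.c s = B'.m) (hp : dI (D.kb B.c) x = B.j)
    (hp' : dI (D.kb B'.c) x = B'.j) : D.Lam ≤ |D.base B x - D.base B' x| := by
  have hΛ := Lam_pos (D := D)
  have hx : ∀ {B : Box}, dI (D.kb B.c) x = B.j → |x - D.ba B| ≤ 3 / 2 * (D.Lam / D.Γ.sz B.c) := by
    intro B h
    obtain ⟨k1, k2⟩ := S1P_int.1 h
    rw [abs_le]
    constructor <;> linarith
  rcases lt_trichotomy B.c B'.c with h | h | h
  · have := S1P_far hT hB hB' h (D.Γ.nsub_of_idx (ν' := B'.node) (ν := B.node) h.le hs' hs) hp hp' (hx hp)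
    linarith
  · obtain ⟨c, m, j, β⟩ := B
    obtain ⟨c', m', j', β'⟩ := B'
    dsimp only at h hs hs' hp hp'
    subst h
    obtain rfl : m = m' := hs.symm.trans hs'
    obtain rfl : j = j' := hp.symm.trans hp'
    have hβ : β ≠ β' := fun h => hne (by rw [h])
    have h1 : (1 : ℝ) ≤ |(β : ℝ) - β'| := by exact_mod_cast Int.one_le_abs (sub_ne_zero.2 hβ)
    have e : D.base ⟨c, m, j, β⟩ x - D.base ⟨c, m, j, β'⟩ x = ((β : ℝ) - β') * D.Lam := by
      simp only [base, ba, Box.node]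
      ring
    rw [e, abs_mul, abs_of_pos hΛ]
    nlinarith
  · have := S1P_far hT hB' hB h (D.Γ.nsub_of_idx (ν' := B.node) (ν := B'.node) h.le hs hs') hp' hp (hx hp')
    rw [abs_sub_comm] at this
    linarith

theorem S1P_vis {B : Box} {z : P2} (hz : D.inBox B z) {P : Tile} (hm : D.Γ.mem P B.node) {γ : ℝ}
    (hv : D.Γ.vis γ P z) {x : ℝ} (hx : dI (D.kb B.c) x = B.j) :
    D.Γ.vis (γ + 1) P (x, D.base B x) := by
  have hΛ := Lam_pos (D := D)
  have hσ := D.Γ.sz_pos B.c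
  obtain ⟨h1, h2, h3⟩ := hz
  have h4 : |x - z.1| ≤ D.Lam / D.Γ.sz B.c := by
    rw [← two_pow_kb]
    exact (abs_sub_lt_of_dI_eq (hx.trans h1.symm)).le
  obtain ⟨k1, k2⟩ := (D.Γ.idx_eq_iff B.node P.s).1 hm.2
  have h5 : |D.Γ.lft B.node - P.s| ≤ D.Γ.sz B.c := by
    change _ ≤ D.Γ.sz B.node.1
    rw [abs_le]
    constructor <;> linarith
  refine vis_move hv ?_ ?_
  · rw [add_sub_cancel_left, one_mul]
    refine h4.trans ?_
    have h6 : (2 : ℝ) ^ B.c ≤ P.len := pow_le_pow_right₀ one_le_two hm.1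
    have h7 : 0 < D.Lam / 2 ^ D.Γ.kK := by positivity
    calc D.Lam / D.Γ.sz B.c = D.Lam / 2 ^ D.Γ.kK * 2 ^ B.c := by
          unfold Geo.sz
          field_simp
      _ ≤ D.Lam / 2 ^ D.Γ.kK * P.len := mul_le_mul_of_nonneg_left h6 h7.le
      _ ≤ 100 * (D.Lam / 2 ^ D.Γ.kK * P.len) := by
          have : 0 ≤ D.Lam / 2 ^ D.Γ.kK * P.len := mul_nonneg h7.le (by unfold Tile.len; positivity)
          linarith
      _ = _ := by ring
  · rw [add_sub_cancel_left, one_mul]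
    have h6 : |(D.Γ.lft B.node - P.s) * (x - z.1)| ≤ D.Lam := by
      rw [abs_mul]
      refine (mul_le_mul h5 h4 (abs_nonneg _) hσ.le).trans (le_of_eq ?_)
      field_simp
    have e : D.base B x - z.2 - P.s * (x - z.1) =
        (D.base B z.1 - z.2) + (D.Γ.lft B.node - P.s) * (x - z.1) := by
      unfold base
      ring
    dsimp only
    rw [e]
    rw [abs_le] at h6 ⊢
    constructor <;> linarith

/-- Charge a top box `B` (heavy through `z0`) to a member `P` of its node visible from `z0`.  Its interval lies in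
`[a_P - len, a_P + 2 len]` (`ee ρ + Λ/K ≤ ee r ≤ 1`).  At a point `x` the base lines of the boxes charged to `P` whose
interval contains `x` are within `tt ρ + 2Λ` of `line_P x` and pairwise at least `Λ` apart (same cut: same node,
same `j`, different `β`; different cuts: nested nodes and intervals, `¬ brel`, drift `≤ Λ`).  So at most
`2 (tt ρ + 2Λ)/Λ + 1` of them; integrate in `x`. -/
theorem pack (h : D.Ok) (hT : D.Tops ρ Tp) (hρ : ρ + 1 ≤ D.r) :
    ∑ B ∈ Tp, 2 ^ D.kb B.c * D.Lam ≤ 12 * D.Γ.tt D.r * totL D.U := by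
  have hΛ := Lam_pos (D := D)
  have hr : (ρ : ℝ) + 1 ≤ D.r := by exact_mod_cast hρ
  have htt : D.Lam ≤ D.Γ.tt D.r := by
    have h0 := t0_nonneg h
    have h1 : (1 : ℝ) ≤ D.r := by linarith [Nat.cast_nonneg (α := ℝ) ρ]
    change D.Lam ≤ D.Γ.t0 + D.r * (100 * D.Lam)
    nlinarith
  have hex : ∀ B : Box, ∃ P : Tile, B ∈ Tp → P ∈ D.U ∧ D.Γ.mem P B.node ∧
      ∀ x, dI (D.kb B.c) x = B.j → D.Γ.vis D.r P (x, D.base B x) := by
    intro B
    by_cases hB : B ∈ Tp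
    · obtain ⟨z, hz, hp⟩ := hT.heavy B hB
      obtain ⟨P, hP, hm, hv⟩ := hp.exists_mem
      exact ⟨P, fun _ => ⟨hP, hm, fun x hx => vis_mono hr (S1P_vis hz hm hv hx)⟩⟩
    · exact ⟨⟨0, 0, 0, 0⟩, fun h' => absurd h' hB⟩
  choose ch hch using hex
  rw [← Finset.sum_fiberwise_of_maps_to (g := ch) (t := D.U) (fun B hB => (hch B hB).1), totL,
    Finset.mul_sum]
  refine Finset.sum_le_sum fun P _ => ?_
  have hlen : 0 < P.len := by unfold Tile.len; positivity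
  have h1 := S1P_sum (Tp.filter (fun B => ch B = P)) (fun B => D.kb B.c) (fun B => B.j)
    (a := P.a - P.len) (L := 3 * P.len) (N := 2 * D.Γ.tt D.r / D.Lam + 1) (by linarith)
    (fun B hB x hx => ?_) (fun x => ?_)
  · rw [← Finset.sum_mul]
    calc _ ≤ (2 * D.Γ.tt D.r / D.Lam + 1) * (3 * P.len) * D.Lam :=
          mul_le_mul_of_nonneg_right h1 hΛ.le
      _ = 3 * P.len * (2 * D.Γ.tt D.r + D.Lam) := by field_simp
      _ ≤ _ := by nlinarith
  · obtain ⟨hB1, rfl⟩ := Finset.mem_filter.1 hB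
    obtain ⟨k1, k2, -⟩ := (hch B hB1).2.2 x hx
    have k3 := mul_le_mul_of_nonneg_right h.hee hlen.le
    dsimp only at k1 k2
    constructor <;> linarith
  · refine S1P_sep _ (fun B => D.base B x) (a := P.line x - D.Γ.tt D.r) hΛ (by linarith)
      (fun B hB => ?_) (fun B hB B' hB' hne => ?_)
    · obtain ⟨hB0, hx⟩ := Finset.mem_filter.1 hB
      obtain ⟨hB1, rfl⟩ := Finset.mem_filter.1 hB0
      obtain ⟨-, -, k3⟩ := (hch B hB1).2.2 x hx
      rw [abs_le] at k3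
      dsimp only at k3
      constructor <;> linarith
    · obtain ⟨hB0, hx⟩ := Finset.mem_filter.1 hB
      obtain ⟨hB1, e⟩ := Finset.mem_filter.1 hB0
      obtain ⟨hB0', hx'⟩ := Finset.mem_filter.1 hB'
      obtain ⟨hB1', e'⟩ := Finset.mem_filter.1 hB0'
      exact S1P_far' hT hB1 hB1' hne (s := P.s) (e ▸ (hch B hB1).2.1.2) (e' ▸ (hch B' hB1').2.1.2) hx hx'

theorem S1P_anc (T : ℕ × ℤ) (c : ℕ) : D.Γ.lft (D.wn 0 T c) ≤ D.Γ.lft T ∧
    D.Γ.lft T < D.Γ.lft (D.wn 0 T c) + D.Γ.sz c :=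
  (D.Γ.idx_eq_iff (D.wn 0 T c) _).1 (add_zero _).symm

theorem S1P_anc' {T : ℕ × ℤ} {c : ℕ} (hc : c ≤ T.1) :
    D.Γ.lft T + D.Γ.sz T.1 ≤ D.Γ.lft (D.wn 0 T c) + D.Γ.sz c :=
  ((D.Γ.nsub_iff _ _).1 (nsub_wn hc)).2.2

theorem S1P_win {δ : ℤ} {T ν : ℕ × ℤ} {c : ℕ} : D.inWin δ T c ν ↔ c ≤ ν.1 ∧
    D.Γ.lft (D.wn 0 T c) + min (δ : ℝ) 0 * D.Γ.sz c ≤ D.Γ.lft ν ∧
    D.Γ.lft ν + D.Γ.sz ν.1 ≤ D.Γ.lft (D.wn 0 T c) + max (δ : ℝ) 0 * D.Γ.sz c + D.Γ.sz c := by
  unfold inWin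
  rw [lft_wn (min δ 0), lft_wn (max δ 0)]
  push_cast
  rfl

theorem S1P_win_of {δ : ℤ} {T T' : ℕ × ℤ} {c : ℕ} (hc : c ≤ T'.1) (e : D.wn 0 T' c = D.wn 0 T c) :
    D.inWin δ T c T' := by
  have h1 := (S1P_anc (D := D) T' c).1
  have h2 := S1P_anc' (D := D) hc
  have h3 := D.Γ.sz_pos c
  rw [e] at h1 h2
  refine S1P_win.2 ⟨hc, ?_, ?_⟩
  · nlinarith [min_le_right (δ : ℝ) 0]
  · nlinarith [le_max_right (δ : ℝ) 0]

theorem S1P_dW {δ : ℤ} (hδ : δ ∈ dW) : (δ : ℝ) = -3 ∨ (δ : ℝ) = -2 ∨ (δ : ℝ) = 2 ∨ (δ : ℝ) = 3 := by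
  simp only [dW, Finset.mem_insert, Finset.mem_singleton] at hδ
  rcases hδ with rfl | rfl | rfl | rfl <;> norm_num

/-- All these `T` lie in the same window (`inWin δ T c T'`; the window depends only on `W` and `δ`) and are `ρ`-perfect at `z`
(`perf_of_cand'`), so they are pairwise comparable, with different cuts.  The interval of the box of `T` contains one of the
points `x + q, x - q, x - 2q`, `q = Λ/(2σ_c)`; in each of the three classes the boxes are nested, `¬ brel` gives base lines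
more than `8.5 Λ` apart at `x`, all within `13 Λ` of `y`: at most 4. -/
theorem card_T_le (hT : D.Tops ρ Tp) {δ : ℤ} (hδ : δ ∈ dW) (W : ℕ × ℤ) (z : P2)
    (V : Finset (ℕ × ℤ))
    (hV : ∀ T ∈ V, W.1 ≤ T.1 ∧ D.wn δ T W.1 = W ∧ z ∈ D.NG ρ Tp δ T W.1) : V.card ≤ 12 := by
  have hΛ := Lam_pos (D := D)
  have hσ := D.Γ.sz_pos W.1
  have hcmp : ∀ T ∈ V, ∀ T' ∈ V, nsub T T' ∨ nsub T' T := by
    intro T hT1 T' hT2
    obtain ⟨a1, a2, a3⟩ := hV T hT1
    obtain ⟨b1, b2, b3⟩ := hV T' hT2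
    by_contra hc
    rw [not_or] at hc
    refine a3.2.2 ⟨T, T', S1P_win_of a1 rfl, S1P_win_of b1 ?_, hc.1, hc.2, perf_of_cand' hT a1 a3.1,
      perf_of_cand' hT b1 b3.1⟩
    have e := congrArg Prod.snd (b2.trans a2.symm)
    simp only [wn, add_left_inj] at e
    simp only [wn, e]
  have hex : ∀ T : ℕ × ℤ, ∃ B : Box, T ∈ V → B ∈ Tp ∧ B.node = T ∧
      D.ba B - D.Lam / (2 * D.Γ.sz W.1) ≤ z.1 ∧
      z.1 ≤ D.ba B + D.Lam / D.Γ.sz B.c + D.Lam / (2 * D.Γ.sz W.1) ∧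
      |z.2 - D.base B z.1| ≤ 13 * D.Lam ∧
      2 * (D.Lam / (2 * D.Γ.sz W.1)) ≤ D.Lam / D.Γ.sz B.c := by
    intro T
    by_cases hT1 : T ∈ V
    · obtain ⟨a1, -, ⟨B, b1, b2, b3, b4, b5⟩, -⟩ := hV T hT1
      rw [two_pow_kb] at b4
      refine ⟨B, fun _ => ⟨b1, b2, b3, b4, b5, ?_⟩⟩
      rw [show 2 * (D.Lam / (2 * D.Γ.sz W.1)) = D.Lam / D.Γ.sz W.1 by field_simp]
      refine div_le_div_of_nonneg_left hΛ.le (D.Γ.sz_pos _) (S1P_sz_anti ?_)
      rw [← b2] at a1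
      exact a1
    · exact ⟨⟨0, 0, 0, 0⟩, fun h' => absurd h' hT1⟩
  choose bx hbx using hex
  set q := D.Lam / (2 * D.Γ.sz W.1) with hq
  have hq0 : 0 < q := by positivity
  have hcl : ∀ p : ℝ, (V.filter (fun T => dI (D.kb (bx T).c) p = (bx T).j)).card ≤ 4 := by
    intro p
    have hx : ∀ T ∈ V, |z.1 - D.ba (bx T)| ≤ 3 / 2 * (D.Lam / D.Γ.sz (bx T).c) := by
      intro T hT1
      obtain ⟨-, -, b3, b4, -, b6⟩ := hbx T hT1
      rw [abs_le]
      constructor <;> linarith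
    have key : ∀ T ∈ V.filter (fun T => dI (D.kb (bx T).c) p = (bx T).j),
        ∀ T' ∈ V.filter (fun T => dI (D.kb (bx T).c) p = (bx T).j), T ≠ T' → nsub T' T →
        17 / 2 * D.Lam ≤ |D.base (bx T) z.1 - D.base (bx T') z.1| := by
      intro T h1 T' h2 hne hn
      obtain ⟨a1, a2⟩ := Finset.mem_filter.1 h1
      obtain ⟨b1, b2⟩ := Finset.mem_filter.1 h2
      have e1 := (hbx T a1).2.1
      have e2 := (hbx T' b1).2.1
      refine S1P_far hT (hbx T a1).1 (hbx T' b1).1 ?_ (by rw [e1, e2]; exact hn) a2 b2 (hx T a1)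
      have h3 : T.1 < T'.1 := lt_of_le_of_ne hn.1 fun h => hne (S1P_eq hn h.symm).symm
      rw [← e1, ← e2] at h3
      exact h3
    have h1 := S1P_sep (V.filter (fun T => dI (D.kb (bx T).c) p = (bx T).j))
      (fun T => D.base (bx T) z.1) (a := z.2 - 13 * D.Lam) (L := 26 * D.Lam) (d := 17 / 2 * D.Lam)
      (by positivity) (by positivity) (fun T h1 => ?_) (fun T h1 T' h2 hne => ?_)
    · rw [show 26 * D.Lam / (17 / 2 * D.Lam) = 52 / 17 by field_simp; norm_num] at h1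
      have h2 : ((V.filter (fun T => dI (D.kb (bx T).c) p = (bx T).j)).card : ℝ) < (5 : ℕ) := by
        push_cast
        linarith
      exact Nat.le_of_lt_succ (by exact_mod_cast h2)
    · have b5 := (hbx T (Finset.mem_filter.1 h1).1).2.2.2.2.1
      rw [abs_le] at b5
      constructor <;> linarith
    · rcases hcmp T (Finset.mem_filter.1 h1).1 T' (Finset.mem_filter.1 h2).1 with hn | hn
      · rw [abs_sub_comm]
        exact key T' h2 T h1 hne.symm hn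
      · exact key T h1 T' h2 hne hn
  have hsub : V ⊆ V.filter (fun T => dI (D.kb (bx T).c) (z.1 + q) = (bx T).j) ∪
      (V.filter (fun T => dI (D.kb (bx T).c) (z.1 - q) = (bx T).j) ∪
        V.filter (fun T => dI (D.kb (bx T).c) (z.1 - 2 * q) = (bx T).j)) := by
    intro T hT1
    obtain ⟨-, -, b3, b4, -, b6⟩ := hbx T hT1
    simp only [Finset.mem_union, Finset.mem_filter, S1P_int]
    by_cases k1 : z.1 + q < D.ba (bx T) + D.Lam / D.Γ.sz (bx T).c
    · exact Or.inl ⟨hT1, by linarith, k1⟩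
    · by_cases k2 : z.1 - q < D.ba (bx T) + D.Lam / D.Γ.sz (bx T).c
      · exact Or.inr (Or.inl ⟨hT1, by linarith, k2⟩)
      · exact Or.inr (Or.inr ⟨hT1, by linarith, by linarith⟩)
  have h1 := (Finset.card_le_card hsub).trans ((Finset.card_union_le _ _).trans
    (Nat.add_le_add_left (Finset.card_union_le _ _) _))
  have := hcl (z.1 + q)
  have := hcl (z.1 - q)
  have := hcl (z.1 - 2 * q)
  omega

/-- If `c1 ≥ c2 + 2` both occur (with `T1`, `T2`), then `T1` lies in the window of `(T2, c2)`, between `wn δ T2 c2` and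
`wn 0 T2 c2` (it is within `3 σ_c1 ≤ 3σ_c2/4` of the node `wn δ T1 c1 ⊆ wn δ T2 c2`, on the same side), so `T1`, `T2` are
incomparable, in the window, and `ρ`-perfect at `z`: contradiction. -/
theorem card_c_le (hT : D.Tops ρ Tp) {δ : ℤ} (hδ : δ ∈ dW) (z : P2) (s : ℝ) (V : Finset ℕ)
    (hV : ∀ c ∈ V, ∃ T : ℕ × ℤ, c ≤ T.1 ∧ D.wn δ T c = (c, D.Γ.idx c s) ∧ z ∈ D.NG ρ Tp δ T c) :
    V.card ≤ 2 := by
  have key : ∀ c1 ∈ V, ∀ c2 ∈ V, c1 < c2 + 2 := by
    intro c1 h1 c2 h2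
    by_contra hc
    obtain ⟨i, rfl⟩ := Nat.exists_eq_add_of_le (not_lt.1 hc)
    obtain ⟨T1, a1, a2, a3⟩ := hV _ h1
    obtain ⟨T2, b1, b2, b3⟩ := hV _ h2
    have s1 : D.Γ.sz (c2 + 2 + i) ≤ D.Γ.sz (c2 + 1 + 1) := S1P_sz_anti (by omega)
    have s2 := D.Γ.sz_succ c2
    have s3 := D.Γ.sz_succ (c2 + 1)
    have s4 := D.Γ.sz_pos (c2 + 2 + i)
    have s5 := D.Γ.sz_pos T1.1
    have s6 := D.Γ.sz_pos T2.1
    obtain ⟨-, n1, n2⟩ := (D.Γ.nsub_iff _ _).1 (D.Γ.nsub_of_idx (ν' := (c2 + 2 + i, D.Γ.idx (c2 + 2 + i) s))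
      (ν := (c2, D.Γ.idx c2 s)) (s := s) (by dsimp only; omega) rfl rfl)
    rw [← a2, ← b2, lft_wn δ T1, lft_wn δ T2] at n1 n2
    change _ + D.Γ.sz (c2 + 2 + i) ≤ _ + D.Γ.sz c2 at n2
    have p1 := (S1P_anc (D := D) T1 (c2 + 2 + i)).1
    have p2 := S1P_anc' (D := D) a1
    have p3 := (S1P_anc (D := D) T2 c2).1
    have p4 := S1P_anc' (D := D) b1
    refine b3.2.2 ⟨T1, T2, S1P_win.2 ⟨by omega, ?_, ?_⟩, S1P_win_of b1 rfl, fun hn => ?_, fun hn => ?_,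
      perf_of_cand' hT a1 a3.1, perf_of_cand' hT b1 b3.1⟩
    · rcases S1P_dW hδ with e | e | e | e <;> rw [e] at n1 n2 ⊢ <;> norm_num <;> linarith
    · rcases S1P_dW hδ with e | e | e | e <;> rw [e] at n1 n2 ⊢ <;> norm_num <;> linarith
    · obtain ⟨-, m1, m2⟩ := (D.Γ.nsub_iff _ _).1 hn
      rcases S1P_dW hδ with e | e | e | e <;> rw [e] at n1 n2 <;> linarith
    · obtain ⟨-, m1, m2⟩ := (D.Γ.nsub_iff _ _).1 hn
      rcases S1P_dW hδ with e | e | e | e <;> rw [e] at n1 n2 <;> linarith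
  rcases V.eq_empty_or_nonempty with rfl | hne
  · simp
  · have hsub : V ⊆ {V.min' hne, V.min' hne + 1} := by
      intro c hc
      have h1 := V.min'_le c hc
      have h2 := key c hc _ (V.min'_mem hne)
      simp only [Finset.mem_insert, Finset.mem_singleton]
      omega
    exact (Finset.card_le_card hsub).trans Finset.card_le_two

theorem S1P_win_wn (δ : ℤ) (T : ℕ × ℤ) (c : ℕ) : D.inWin δ T c (D.wn δ T c) := by
  have h3 := D.Γ.sz_pos c
  refine S1P_win.2 ⟨le_rfl, ?_, ?_⟩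
  · rw [lft_wn δ]
    nlinarith [min_le_left (δ : ℝ) 0]
  · rw [lft_wn δ]
    change _ + D.Γ.sz c ≤ _
    nlinarith [le_max_left (δ : ℝ) 0]

/-- a Whitney node is not `ρ`-perfect on its good set (it is incomparable with `T`, both in the window). -/
theorem not_perf_of_NG (hT : D.Tops ρ Tp) {δ : ℤ} (hδ : δ ∈ dW) {T : ℕ × ℤ} {c : ℕ} (hc : c ≤ T.1)
    {z : P2} (hz : z ∈ D.NG ρ Tp δ T c) : ¬ Perf D.Γ D.U ρ z ρ (D.wn δ T c) := by
  intro hp
  have s1 := D.Γ.sz_pos c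
  have s2 := D.Γ.sz_pos T.1
  have p1 := (S1P_anc (D := D) T c).1
  have p2 := S1P_anc' (D := D) hc
  refine hz.2.2 ⟨D.wn δ T c, T, S1P_win_wn δ T c, S1P_win_of hc rfl, fun hn => ?_, fun hn => ?_,
    perf_grade_mono (by linarith) hp, perf_of_cand' hT hc hz.1⟩
  · obtain ⟨-, m1, m2⟩ := (D.Γ.nsub_iff _ _).1 hn
    rw [lft_wn δ] at m1 m2
    change _ + D.Γ.sz c ≤ _ at m2
    rcases S1P_dW hδ with e | e | e | e <;> rw [e] at m1 m2 <;> linarith
  · obtain ⟨-, m1, m2⟩ := (D.Γ.nsub_iff _ _).1 hn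
    rw [lft_wn δ] at m1 m2
    change _ ≤ _ + D.Γ.sz c at m2
    rcases S1P_dW hδ with e | e | e | e <;> rw [e] at m1 m2 <;> linarith

/-- Points within the transport distance of the support of `vT T a` are good.  `cand'_of_Asg`, `transport_le`; for `c ≤ T.1 ≤ kmax`,
`thr_le_iff` gives `nsub (wn δ T c) (wn 0 T a)`, so `a ≤ c` and the window lies in `wn 0 T a`; members of nodes in the window
have scale `≥ c` and slope within `4σ_c` of `lft T`, so `vis_shift` (backwards) transfers `Cnt` and `¬ Perf (ρ+1)` from `z`. -/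
theorem mem_NW (h : D.Ok) (hT : D.Tops ρ Tp) {w : ℕ × ℤ → P2 → ℝ} {B : ℝ} {μ : Tile → ℝ≥0∞}
    (hw : D.Sys (ρ + 1) B μ w) {δ : ℤ} (hδ : δ ∈ dW) {T : ℕ × ℤ} (hTm : T ∈ TN Tp) {a c : ℕ}
    (hc : D.thr δ T a ≤ c) {z : P2} (hz : D.vT ρ Tp w T a z ≠ 0) {t : ℝ}
    (ht : |t| ≤ 4 * D.R * 2 ^ c / D.lam0) :
    (z.1 + t, z.2 + D.Γ.lft T * t) ∈ D.NW ρ Tp δ T c := by
  unfold NW
  split_ifs with hcT
  swap
  · exact mem_univ _
  have hn : nsub (D.wn δ T c) (D.wn 0 T a) := (thr_le_iff δ T a (hcT.trans (top_le h hT hTm))).1 hc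
  have hac : a ≤ c := hn.1
  obtain ⟨h1, -, h3⟩ := vT_ne_zero hz
  have ht' := ht.trans (transport_le h c)
  have hσ := D.Γ.sz_pos c
  have hΛ := Lam_pos (D := D)
  have hback : ∀ ν, D.inWin δ T c ν → ∀ (P : Tile) (γ : ℝ), D.Γ.mem P ν →
      D.Γ.vis γ P (z.1 + t, z.2 + D.Γ.lft T * t) → D.Γ.vis (γ + 1 / 4) P z := by
    intro ν hν P γ hm hv
    obtain ⟨w1, w2, w3⟩ := S1P_win.1 hν
    obtain ⟨k1, k2⟩ := (D.Γ.idx_eq_iff ν P.s).1 hm.2
    obtain ⟨p1, p2⟩ := S1P_anc (D := D) T c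
    have h4 := vis_shift (c := c) (s := D.Γ.lft T) (t := -t) hv (w1.trans hm.1) (by
      rw [abs_le]
      rcases S1P_dW hδ with e | e | e | e <;> rw [e] at w2 w3 <;> norm_num at w2 w3 <;>
        constructor <;> linarith) (by
      rw [abs_neg]
      refine ht'.trans ?_
      rw [div_le_div_iff₀ (by positivity) hσ]
      nlinarith [mul_pos hΛ hσ])
    simpa using h4
  have hsub : ∀ ν, D.inWin δ T c ν → nsub ν (D.wn 0 T a) := by
    intro ν hν
    obtain ⟨w1, w2, w3⟩ := S1P_win.1 hν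
    obtain ⟨-, m1, m2⟩ := (D.Γ.nsub_iff _ _).1 hn
    obtain ⟨-, m3, m4⟩ := (D.Γ.nsub_iff _ _).1 (nsub_wn_wn (D := D) T hac)
    rw [lft_wn δ] at m1 m2
    change _ + D.Γ.sz c ≤ _ at m2 m4
    refine (D.Γ.nsub_iff _ _).2 ⟨hac.trans w1, ?_, ?_⟩
    · rcases S1P_dW hδ with e | e | e | e <;> rw [e] at w2 m1 <;> norm_num at w2 <;> linarith
    · rcases S1P_dW hδ with e | e | e | e <;> rw [e] at w3 m2 <;> norm_num at w3 <;> linarith
  refine ⟨cand'_of_Asg h3 c ht', fun V hV hP => hw.cnt _ z h1 V hV fun P hP' => ⟨?_, ?_⟩, ?_⟩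
  · exact D.Γ.mem_mono hn (hP P hP').1
  · refine vis_mono ?_ (hback _ (S1P_win_wn δ T c) P _ (hP P hP').1 (hP P hP').2)
    push_cast
    linarith
  · rintro ⟨ν0, ν1, a0, a1, b0, b1, c0, c1⟩
    have e : ((ρ + 1 : ℕ) : ℝ) = ρ + 3 / 4 + 1 / 4 := by
      push_cast
      ring
    refine hw.np _ z h1 ⟨ν0, ν1, hsub _ a0, hsub _ a1, b0, b1, ?_, ?_⟩
    · rw [e]
      exact c0.transfer fun P _ hm hv => hback _ a0 P _ hm hv
    · rw [e]
      exact c1.transfer fun P _ hm hv => hback _ a1 P _ hm hv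

end S1Data

end Crest.Agent.R87
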