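import Crest.Agent.R87.S2c

/-! # R87 S2: a perfect tree of popular tops is rare. -/

set_option autoImplicit false

namespace Crest.Agent.R87

open MeasureTheory Set
open scoped ENNReal

theorem s2_point {kmax : ℕ} {u : P2 → ℝ} (hu : Field u kmax) (G : Set P2) {j0 : ℕ} {U : Finset Tile}
    (hk : ∀ P ∈ U, P.k ≤ kmax) (hpop : ∀ P ∈ U, P.len ≤ 2 ^ j0 * (volume (P.pop u G)).toReal)
    {Γ : Geo} {r N : ℕ} {η : ℝ} (h0 : 0 < η) (h1 : η ≤ 1 / 4) (hN : (1 - η) ^ N < (1 / 2) ^ j0)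
    (hr : 340 * N + 170 ≤ r) (hK : 6 ≤ Γ.kK) (ht : Γ.tt r + 1 ≤ 2 ^ Γ.kK) {z : P2} {m : ℤ}
    (hz : Perf Γ U r z r (0, m)) (hI : ∀ P ∈ U, Γ.vis r P z → dI P.k z.1 = P.m) :
    ∃ P ∈ U, Γ.vis r P z ∧ Ch (Rev (s2W Γ u P) (s2C u P) P.k η) N N P.k z.1 := by
  obtain ⟨f, hf⟩ := Perf.sep (mem := fun P ν => P ∈ U ∧ Γ.vis r P z ∧ Γ.mem P ν)
    (fun P a ν b c => ⟨a, c, b⟩) (8 * (9 * N + 1)) (0, m) (hz.anti (by omega))
  have htot := hf.total (K := kmax + 1) fun P ν h => Nat.lt_succ_of_le (hk P h.1)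
  have hη : 0 < 1 - η := by linarith
  have key := descent (child := s2child Γ) (mem := fun P ν => P ∈ U ∧ Γ.vis r P z ∧ Γ.mem P ν)
    (tm := Tile.k) (h := fun ν => (Γ.kK : ℤ) - ν.1)
    (D := fun P i d j => Dom (s2W Γ u P) (s2C u P) P.k η i d j z.1) (N := N) (K := kmax + 1)
    (low := fun ν i k => s2m (s2Y Γ u z ν) k (dI k z.1) ≤ (1 - η) ^ i * 2 ^ k)
    (fun _ _ _ h => h.symm) (fun _ _ _ P h a => ⟨a.1, a.2.1, Γ.mem_mono h.1 a.2.2⟩)
    (fun _ _ _ h => by have := h.2.2.1; omega)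
    (fun ν A B i k h a b => (s2m_mono fun x hx hA => s2Y_child hu h (s2_near (by omega) hx) hA).trans b)
    (fun P ν i a b => by
      have c1 := s2_leaf hu hK ht (hk P a.1) a.2.2 (hI P a.1 a.2.1) a.2.1.2.2 G
      have c2 := (hpop P a.1).trans (mul_le_mul_of_nonneg_left (c1.trans b) (by positivity))
      have p0 : (0 : ℝ) < 2 ^ P.k := by positivity
      have c3 : (1 / 2 : ℝ) ^ j0 ≤ (1 - η) ^ i := by
        rw [Tile.len] at c2
        rw [one_div, inv_pow, inv_le_iff_one_le_mul₀' (by positivity)]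
        refine le_of_mul_le_mul_right ?_ p0
        linarith
      exact (pow_lt_pow_iff_right_of_lt_one₀ hη (by linarith)).1 (hN.trans_le c3))
    (fun ν B A P i d h a b c e => s2_event hu (hk P a.1) (a.2.1.2.2.trans (by linarith)) h a.2.2 b c
      (not_le.1 e))
    (8 * (9 * N + 1)) (0, m) f 0 (kmax + 1) 0 hf le_rfl
    (fun k _ _ => by rw [pow_zero, one_mul]; exact s2m_le) (by rw [htot]; positivity)
  rw [htot] at key
  obtain ⟨-, P, ⟨a, b, -⟩, -, -, g, sc, lev, j, c1, c2, c3⟩ := key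
  have hg := s2_count c1
  obtain ⟨e1, -, -, e2, -⟩ := c2 0 (by omega)
  exact ⟨P, a, b, ch_of_events (fun n hn => (c2 n hn).1) c3 (N + N) N N P.k 0 le_rfl (by omega) e2 e1.1⟩

theorem s2 : S2Stmt := by
  intro kmax u hu G _ _ j0 U hk hpop Γ r N η h0 h1 hN hr ht0 hK ht
  have htt : 0 ≤ Γ.tt r := by unfold Geo.tt; positivity
  have hsub : {z : P2 | (∃ m : ℤ, Perf Γ U r z r (0, m)) ∧ ∀ P ∈ U, Γ.vis r P z → dI P.k z.1 = P.m} ⊆
      ⋃ P ∈ U, {z : P2 | z.1 ∈ {x | Ch (Rev (s2W Γ u P) (s2C u P) P.k η) N N P.k x} ∩ dInt P.k P.m ∧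
        |z.2 - ((P.β - P.s * P.a) + P.s * z.1)| ≤ Γ.tt r} := by
    rintro z ⟨⟨m, hz⟩, hI⟩
    obtain ⟨P, a, b, c⟩ := s2_point hu G hk hpop h0 h1 hN hr hK ht hz hI
    refine mem_iUnion₂.2 ⟨P, a, ⟨c, mem_dInt.2 (hI P a b)⟩, ?_⟩
    have := b.2.2
    rw [Tile.line] at this
    convert this using 3
    ring
  refine (measure_mono hsub).trans ((measure_biUnion_finset_le _ _).trans ?_)
  rw [totL, Finset.mul_sum, ENNReal.ofReal_sum_of_nonneg fun P _ => by unfold Tile.len; positivity]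
  refine Finset.sum_le_sum fun P _ => (s2_strip _ _ _ _).trans ?_
  have h2 := ch_rev_bound (K := P.k) (s2W_anti Γ u P) (s2C_meas hu.meas P) (s2C_disj u P) h0 h1 N P.k P.m
  rw [← ENNReal.ofReal_toReal (s2m_fin _ P.k P.m), ← ENNReal.ofReal_mul ENNReal.toReal_nonneg]
  refine ENNReal.ofReal_le_ofReal ?_
  have h3 := mul_le_mul_of_nonneg_right h2 (show 0 ≤ 2 * Γ.tt r by positivity)
  rw [Tile.len]
  unfold s2m Measure.real at h3
  linarith

end Crest.Agent.R87
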