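import Crest.Agent.R87.Api1

/-! # R87 S2, part (d): dyadic measure lemmas, reversals and chains of reversals (dimension one). -/

set_option autoImplicit false

namespace Crest.Agent.R87

open MeasureTheory Set
open scoped ENNReal

/-- measure of `Y` in a dyadic interval -/
noncomputable def s2m (Y : Set ℝ) (k : ℕ) (m : ℤ) : ℝ := volume.real (Y ∩ dInt k m)

variable {Y Y' : Set ℝ} {k : ℕ} {m : ℤ}

theorem s2m_fin (Y : Set ℝ) (k : ℕ) (m : ℤ) : volume (Y ∩ dInt k m) ≠ ∞ :=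
  ne_top_of_le_ne_top (by rw [volume_dInt]; exact ENNReal.ofReal_ne_top) (measure_mono inter_subset_right)

theorem s2m_nonneg : 0 ≤ s2m Y k m := measureReal_nonneg

theorem s2m_mono (h : ∀ x, dI k x = m → x ∈ Y → x ∈ Y') : s2m Y k m ≤ s2m Y' k m :=
  measureReal_mono (fun x hx => ⟨h x (mem_dInt.1 hx.2) hx.1, hx.2⟩) (s2m_fin _ _ _)

theorem s2m_univ : s2m univ k m = 2 ^ k := by
  rw [s2m, univ_inter, Measure.real, volume_dInt, ENNReal.toReal_ofReal (by positivity), zpow_natCast]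

theorem s2m_le : s2m Y k m ≤ 2 ^ k := (s2m_mono fun _ _ _ => mem_univ _).trans s2m_univ.le

theorem s2m_eq_zero (h : ∀ x, dI k x = m → x ∉ Y) : s2m Y k m = 0 := by
  have : Y ∩ dInt k m = ∅ := eq_empty_of_forall_notMem fun x hx => h x (mem_dInt.1 hx.2) hx.1
  rw [s2m, this, measureReal_empty]

theorem s2m_union_le : s2m (Y ∪ Y') k m ≤ s2m Y k m + s2m Y' k m := by
  rw [s2m, union_inter_distrib_right]
  exact measureReal_union_le _ _

theorem s2m_split {C : Set ℝ} (hC : MeasurableSet C) :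
    s2m (C ∩ Y) k m + s2m (Y \ C) k m = s2m Y k m := by
  have h := measureReal_inter_add_sdiff (μ := volume) (s := Y ∩ dInt k m) hC (s2m_fin _ _ _)
  have e1 : Y ∩ dInt k m ∩ C = C ∩ Y ∩ dInt k m := by ext; simp only [mem_inter_iff]; tauto
  have e2 : (Y ∩ dInt k m) \ C = Y \ C ∩ dInt k m := by ext; simp only [mem_inter_iff, mem_sdiff]; tauto
  rwa [e1, e2] at h

theorem s2m_succ : s2m Y (k + 1) m = s2m Y k (2 * m) + s2m Y k (2 * m + 1) := by
  have h := measureReal_inter_add_sdiff (μ := volume) (s := Y ∩ dInt (k + 1 : ℕ) m)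
    (measurableSet_dInt k (2 * m)) (s2m_fin _ _ _)
  have e0 : dInt (k + 1 : ℕ) m = dInt k (2 * m) ∪ dInt k (2 * m + 1) := by
    rw [Nat.cast_succ, dInt_succ]
  have e1 : Y ∩ dInt (k + 1 : ℕ) m ∩ dInt k (2 * m) = Y ∩ dInt k (2 * m) := by
    rw [e0]; ext; simp only [mem_inter_iff, mem_union]; tauto
  have e2 : (Y ∩ dInt (k + 1 : ℕ) m) \ dInt k (2 * m) = Y ∩ dInt k (2 * m + 1) := by
    rw [e0]; ext x
    simp only [mem_inter_iff, mem_union, mem_sdiff, mem_dInt]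
    constructor
    · rintro ⟨⟨h1, h2 | h2⟩, h3⟩
      · exact absurd h2 h3
      · exact ⟨h1, h2⟩
    · rintro ⟨h1, h2⟩
      exact ⟨⟨h1, Or.inr h2⟩, by omega⟩
  rw [e1, e2] at h
  exact h.symm

/-- maximal dyadic intervals -/
theorem s2_dy (B : Set ℝ) {θ : ℝ} (hθ : 0 ≤ θ) (Q : ℕ → ℝ → Prop)
    (h : ∀ k x, Q k x → s2m {x | ∃ k' ≤ k, Q k' x} k (dI k x) ≤ θ * s2m B k (dI k x)) (k : ℕ) :
    ∀ m, s2m {x | ∃ k' ≤ k, Q k' x} k m ≤ θ * s2m B k m := by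
  induction k with
  | zero =>
    intro m
    by_cases hx : ∃ x, dI (0 : ℕ) x = m ∧ Q 0 x
    · obtain ⟨x, rfl, hx⟩ := hx
      exact h 0 x hx
    · rw [s2m_eq_zero]
      · exact mul_nonneg hθ s2m_nonneg
      · rintro x h1 ⟨k', h2, h3⟩
        obtain rfl : k' = 0 := by omega
        exact hx ⟨x, h1, h3⟩
  | succ k ih =>
    intro m
    by_cases hx : ∃ x, dI (k + 1 : ℕ) x = m ∧ Q (k + 1) x
    · obtain ⟨x, rfl, hx⟩ := hx
      exact h _ x hx
    · have h1 : s2m {x | ∃ k' ≤ k + 1, Q k' x} (k + 1) m ≤ s2m {x | ∃ k' ≤ k, Q k' x} (k + 1) m := by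
        refine s2m_mono ?_
        rintro x h1 ⟨k', h2, h3⟩
        rcases h2.lt_or_eq with h2 | rfl
        · exact ⟨k', by omega, h3⟩
        · exact absurd ⟨x, h1, h3⟩ hx
      refine h1.trans ?_
      rw [s2m_succ, s2m_succ, mul_add]
      exact add_le_add (ih _) (ih _)

/-- weak type of the dyadic maximal function -/
theorem s2_weak (E : Set ℝ) {a : ℝ} (ha : 0 < a) (k : ℕ) (m : ℤ) :
    s2m {x | ∃ k' ≤ k, a * 2 ^ k' < s2m E k' (dI k' x)} k m ≤ a⁻¹ * s2m E k m := by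
  refine s2_dy E (by positivity) (fun k' x => a * 2 ^ k' < s2m E k' (dI k' x)) (fun k x h => ?_) k m
  refine s2m_le.trans ?_
  rw [← div_eq_inv_mul, le_div_iff₀ ha]
  linarith

/-- the interval `I_k(x)` is dominated, at level `i`, by the class `j` -/
def Dom (W : ℕ → Set ℝ) (C : ℤ → Set ℝ) (K : ℕ) (η : ℝ) (i k : ℕ) (j : ℤ) (x : ℝ) : Prop :=
  k ≤ K ∧ ∃ c, (∀ k' : ℕ, k ≤ k' → k' ≤ K → s2m (W c) k' (dI k' x) ≤ (1 - η) ^ i * 2 ^ k') ∧
    (1 - η) ^ (i + 1) * 2 ^ k < s2m (C j ∩ W c) k (dI k x)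

/-- a reversal -/
def Rev (W : ℕ → Set ℝ) (C : ℤ → Set ℝ) (K : ℕ) (η : ℝ) (i k1 k2 : ℕ) (x : ℝ) : Prop :=
  ∃ j1 j2, j1 + 5 ≤ j2 ∧ Dom W C K η i k1 j1 x ∧ Dom W C K η i k2 j2 x

variable {W : ℕ → Set ℝ} {C : ℤ → Set ℝ} {K : ℕ} {η : ℝ}

theorem Dom.congr {i k : ℕ} {j : ℤ} {x x' : ℝ} (h : Dom W C K η i k j x) (e : dI k x = dI k x') :
    Dom W C K η i k j x' := by
  obtain ⟨h0, c, h1, h2⟩ := h
  refine ⟨h0, c, fun k' a b => ?_, e ▸ h2⟩
  rw [← dI_eq_of_le (k := k) (k' := k') (by exact_mod_cast a) e]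
  exact h1 k' a b

theorem rev_bound (hW : Antitone W) (hC : ∀ j, MeasurableSet (C j))
    (hd : ∀ j j', j + 3 ≤ j' → Disjoint (C j) (C j')) (h0 : 0 < η) (h1 : η ≤ 1 / 4) (i k : ℕ) (m : ℤ) :
    s2m {x | ∃ k1 ≤ k, ∃ k2 ≤ k1, Rev W C K η i k1 k2 x} k m ≤ 2 * η * 2 ^ k := by
  classical
  rw [← s2m_univ (m := m)]
  refine s2_dy univ (by positivity) (fun k1 x => ∃ k2 ≤ k1, Rev W C K η i k1 k2 x) ?_ k m
  rintro k x0 ⟨-, -, j0, -, -, ⟨hK, c, hc1, hc2⟩, -⟩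
  have hex : ∃ c, ∀ k' : ℕ, k ≤ k' → k' ≤ K → s2m (W c) k' (dI k' x0) ≤ (1 - η) ^ i * 2 ^ k' := ⟨c, hc1⟩
  have hη : 0 < 1 - η := by linarith
  have ha : 0 < (1 - η) ^ (i + 1) := by positivity
  have hE : s2m (W (Nat.find hex) \ C j0) k (dI k x0) ≤ η * ((1 - η) ^ i * 2 ^ k) := by
    have a1 := s2m_split (Y := W (Nat.find hex)) (k := k) (m := dI k x0) (hC j0)
    have a2 := Nat.find_spec hex k le_rfl hK
    have a3 : s2m (C j0 ∩ W c) k (dI k x0) ≤ s2m (C j0 ∩ W (Nat.find hex)) k (dI k x0) :=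
      s2m_mono fun x _ hx => ⟨hx.1, hW (Nat.find_min' hex hc1) hx.2⟩
    rw [pow_succ] at hc2
    linarith
  have key : ∀ x, dI k x = dI k x0 → ∀ k' ≤ k, ∀ j, Disjoint (C j) (C j0) → Dom W C K η i k' j x →
      (1 - η) ^ (i + 1) * 2 ^ k' < s2m (W (Nat.find hex) \ C j0) k' (dI k' x) := by
    rintro x hx k' hk j hj ⟨-, c', a1, a2⟩
    have a3 : Nat.find hex ≤ c' := Nat.find_min' hex fun k'' b1 b2 => by
      rw [← dI_eq_of_le (k := k) (k' := k'') (by exact_mod_cast b1) hx]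
      exact a1 k'' (hk.trans b1) b2
    exact a2.trans_le (s2m_mono fun y _ hy => ⟨hW a3 hy.2, disjoint_left.1 hj hy.1⟩)
  refine le_trans (s2m_mono ?_) ((s2_weak (W (Nat.find hex) \ C j0) ha k _).trans ?_)
  · rintro x hx ⟨k1, hk1, k2, hk2, j1, j2, hj, d1, d2⟩
    by_cases h : j1 + 3 ≤ j0
    · exact ⟨k1, hk1, key x hx k1 hk1 j1 (hd _ _ h) d1⟩
    · exact ⟨k2, hk2.trans hk1, key x hx k2 (hk2.trans hk1) j2 (hd _ _ (by omega)).symm d2⟩
  · rw [s2m_univ, ← div_eq_inv_mul, div_le_iff₀ ha, pow_succ]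
    have : 0 ≤ η * ((1 - η) ^ i * 2 ^ k) := by positivity
    nlinarith

/-- a chain of `n` reversals below the scale `k`, with levels `< L` that decrease with the scale -/
def Ch (R : ℕ → ℕ → ℕ → ℝ → Prop) : ℕ → ℕ → ℕ → ℝ → Prop
  | 0, _, _, _ => True
  | n + 1, L, k, x => ∃ i < L, ∃ k1 ≤ k, ∃ k2 ≤ k1, R i k1 k2 x ∧ Ch R n (i + 1) k2 x

variable {R : ℕ → ℕ → ℕ → ℝ → Prop}

theorem Ch.mono {n L L' k k' : ℕ} {x : ℝ} (h : Ch R n L k x) (hL : L ≤ L') (hk : k ≤ k') :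
    Ch R n L' k' x := by
  cases n with
  | zero => trivial
  | succ n =>
    obtain ⟨i, a, k1, b, c⟩ := h
    exact ⟨i, by omega, k1, by omega, c⟩

theorem ch_bound {θ : ℝ} (hθ : 0 ≤ θ)
    (hloc : ∀ i k1 k2 x x', k2 ≤ k1 → R i k1 k2 x → dI k2 x = dI k2 x' → R i k1 k2 x')
    (hb : ∀ i k m, s2m {x | ∃ k1 ≤ k, ∃ k2 ≤ k1, R i k1 k2 x} k m ≤ θ * 2 ^ k) (n : ℕ) :
    ∀ L k m, s2m {x | Ch R n L k x} k m ≤ 2 ^ (L + n) * θ ^ n * 2 ^ k := by
  induction n with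
  | zero =>
    intro L k m
    refine s2m_le.trans ?_
    rw [pow_zero, mul_one]
    exact le_mul_of_one_le_left (by positivity) (one_le_pow₀ one_le_two)
  | succ n ih =>
    intro L
    induction L with
    | zero =>
      intro k m
      rw [s2m_eq_zero]
      · positivity
      · rintro x - ⟨i, hi, -⟩
        omega
    | succ L ihL =>
      intro k m
      have h1 := s2_dy {x | ∃ k1 ≤ k, ∃ k2 ≤ k1, R L k1 k2 x} (θ := 2 ^ (L + 1 + n) * θ ^ n) (by positivity)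
        (fun k2 x => (∃ k1 ≤ k, k2 ≤ k1 ∧ R L k1 k2 x) ∧ Ch R n (L + 1) k2 x) (by
          rintro k2 x0 ⟨⟨k1, a1, a2, a3⟩, -⟩
          refine le_trans (s2m_mono ?_) ((ih (L + 1) k2 _).trans ?_)
          · rintro x - ⟨k', b1, -, b2⟩
            exact b2.mono le_rfl b1
          · rw [← s2m_univ (k := k2) (m := dI k2 x0)]
            refine mul_le_mul_of_nonneg_left (s2m_mono fun x hx _ => ?_) (by positivity)
            exact ⟨k1, a1, k2, a2, hloc _ _ _ _ _ a2 a3 hx.symm⟩) k m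
      have h2 := mul_le_mul_of_nonneg_left (hb L k m) (show 0 ≤ 2 ^ (L + 1 + n) * θ ^ n by positivity)
      have h3 := ihL k m
      refine le_trans (s2m_mono ?_) (s2m_union_le.trans ((add_le_add h3 (h1.trans h2)).trans (le_of_eq ?_)))
      · rintro x - ⟨i, hi, k1, a1, k2, a2, a3, a4⟩
        rcases (Nat.lt_succ_iff.1 hi).lt_or_eq with h | rfl
        · exact Or.inl ⟨i, h, k1, a1, k2, a2, a3, a4⟩
        · exact Or.inr ⟨k2, a2.trans a1, ⟨k1, a1, a2, a3⟩, a4⟩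
      · ring

theorem ch_rev_bound (hW : Antitone W) (hC : ∀ j, MeasurableSet (C j))
    (hd : ∀ j j', j + 3 ≤ j' → Disjoint (C j) (C j')) (h0 : 0 < η) (h1 : η ≤ 1 / 4) (N k : ℕ) (m : ℤ) :
    s2m {x | Ch (Rev W C K η) N N k x} k m ≤ (8 * η) ^ N * 2 ^ k := by
  refine (ch_bound (θ := 2 * η) (by positivity) ?_ (rev_bound hW hC hd h0 h1) N N k m).trans (le_of_eq ?_)
  · rintro i k1 k2 x x' hk ⟨j1, j2, a, b, c⟩ e
    exact ⟨j1, j2, a, b.congr (dI_eq_of_le (by exact_mod_cast hk) e), c.congr e⟩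
  · rw [pow_add, ← mul_pow, ← mul_pow]
    ring_nf

/-- many dominant pairs give a chain of reversals -/
theorem ch_of_events {x : ℝ} {g : ℕ} {sc lev : ℕ → ℕ} {j : ℕ → ℤ}
    (h1 : ∀ n < g, Dom W C K η (lev n) (sc n) (j n) x)
    (h2 : ∀ n n', n < n' → n' < g → sc n' ≤ sc n ∧ lev n' ≤ lev n ∧ j n + 2 * ((n' : ℤ) - n) ≤ j n' + 3)
    (s : ℕ) : ∀ n L k a, n + L ≤ s → a + 4 * (n + L) < g → lev a < L → sc a ≤ k →
      Ch (Rev W C K η) n L k x := by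
  induction s with
  | zero => intro n L k a h _ hL; omega
  | succ s ih =>
    intro n L k a hs ha hL hk
    cases n with
    | zero => trivial
    | succ n =>
      obtain ⟨b1, b2, b3⟩ := h2 a (a + 4) (by omega) (by omega)
      rcases b2.lt_or_eq with b2 | b2
      · exact (ih (n + 1) (L - 1) k (a + 4) (by omega) (by omega) (by omega) (b1.trans hk)).mono
          (by omega) le_rfl
      · refine ⟨lev a, hL, sc a, hk, sc (a + 4), b1, ⟨j a, j (a + 4), by push_cast at b3; omega,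
          h1 a (by omega), b2 ▸ h1 (a + 4) (by omega)⟩, ?_⟩
        exact ih n (lev a + 1) _ (a + 4) (by omega) (by omega) (by omega) le_rfl

end Crest.Agent.R87
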