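import Mathlib

/-! # R87 S2, part (c): the abstract descent in a perfect binary tree. -/

set_option autoImplicit false

namespace Crest.Agent.R87

open Finset

variable {α β : Type}

/-- a perfect binary tree of depth `d` below `ν`; `f k` is the number of leaves with time `k` -/
def Sep (child : α → α → α → Prop) (mem : β → α → Prop) (tm : β → ℕ) : ℕ → α → (ℕ → ℕ) → Prop
  | 0, ν, f => ∃ P, mem P ν ∧ f = Pi.single (tm P) 1
  | d + 1, ν, f => ∃ A0 A1 f0 f1, child ν A0 A1 ∧ Sep child mem tm d A0 f0 ∧ Sep child mem tm d A1 f1 ∧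
      f = f0 + f1

variable {child : α → α → α → Prop} {mem : β → α → Prop} {tm : β → ℕ}

theorem Sep.total {K : ℕ} (hK : ∀ P ν, mem P ν → tm P < K) {d : ℕ} :
    ∀ {ν f}, Sep child mem tm d ν f → ∑ k ∈ Ico 0 K, f k = 2 ^ d := by
  induction d with
  | zero =>
    rintro ν f ⟨P, h, rfl⟩
    rw [sum_pi_single', if_pos (mem_Ico.2 ⟨Nat.zero_le _, hK P ν h⟩), pow_zero]
  | succ d ih =>
    rintro ν f ⟨A0, A1, f0, f1, -, h0, h1, rfl⟩
    simp only [Pi.add_apply, sum_add_distrib, ih h0, ih h1]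
    ring

/-- the result of the descent -/
def Out (mem : β → α → Prop) (tm : β → ℕ) (h : α → ℤ) (D : β → ℕ → ℕ → ℤ → Prop) (N : ℕ) (ν : α)
    (ke kw i X Y : ℕ) : Prop :=
  i < N ∧ ∃ P, mem P ν ∧ ke ≤ tm P ∧ tm P < kw ∧ ∃ (g : ℕ) (sc lev : ℕ → ℕ) (j : ℕ → ℤ),
    X ≤ Y * 5 ^ (g + N) ∧
    (∀ n < g, D P (lev n) (sc n) (j n) ∧ ke ≤ sc n ∧ i ≤ lev n ∧ lev n < N ∧
      j n + 2 * ((g : ℤ) - 1 - n) ≤ h ν) ∧
    ∀ n n', n < n' → n' < g → sc n' ≤ sc n ∧ lev n' ≤ lev n ∧ j n + 2 * ((n' : ℤ) - n) ≤ j n' + 3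

variable {h : α → ℤ} {D : β → ℕ → ℕ → ℤ → Prop} {N : ℕ}

theorem Out.up {ν A : α} {ke kw i X Y ke' kw' i' X' Y' : ℕ} (H : Out mem tm h D N A ke' kw' i' X' Y')
    (hm : ∀ P, mem P A → mem P ν) (hh : h A ≤ h ν) (h1 : ke ≤ ke') (h2 : kw' ≤ kw) (h3 : i ≤ i')
    (hX : ∀ Z, X' ≤ Y' * Z → X ≤ Y * Z) : Out mem tm h D N ν ke kw i X Y := by
  obtain ⟨a0, P, a1, a2, a3, g, sc, lev, j, a4, a5, a6⟩ := H
  refine ⟨by omega, P, hm P a1, by omega, by omega, g, sc, lev, j, hX _ a4, fun n hn => ?_, a6⟩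
  obtain ⟨b1, b2, b3, b4, b5⟩ := a5 n hn
  exact ⟨b1, by omega, by omega, b4, by omega⟩

theorem Out.event {ν A : α} {ke kw i X Y ke' X' Y' d1 : ℕ} (H : Out mem tm h D N A ke' kw i X' Y')
    (hm : ∀ P, mem P A → mem P ν) (hh : h A + 2 ≤ h ν) (h1 : ke ≤ d1) (h2 : d1 ≤ ke')
    (he : ∀ P, mem P A → ke' ≤ tm P → tm P < kw → ∃ j, D P i d1 j ∧ h A - 1 ≤ j ∧ j ≤ h ν)
    (hX : ∀ Z, X' ≤ Y' * Z → X ≤ Y * (Z * 5)) : Out mem tm h D N ν ke kw i X Y := by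
  obtain ⟨a0, P, a1, a2, a3, g, sc, lev, j, a4, a5, a6⟩ := H
  obtain ⟨j1, c1, c2, c3⟩ := he P a1 a2 a3
  refine ⟨a0, P, hm P a1, by omega, a3, g + 1, fun n => if n < g then sc n else d1,
    fun n => if n < g then lev n else i, fun n => if n < g then j n else j1, ?_, fun n hn => ?_,
    fun n n' hn hn' => ?_⟩
  · rw [add_right_comm, pow_succ]; exact hX _ a4
  · by_cases hg : n < g
    · obtain ⟨b1, b2, b3, b4, b5⟩ := a5 n hg
      simp only [if_pos hg]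
      exact ⟨b1, by omega, b3, b4, by push_cast; omega⟩
    · simp only [if_neg hg]
      exact ⟨c1, h1, le_rfl, a0, by push_cast; omega⟩
  · have hg : n < g := by omega
    by_cases hg' : n' < g
    · simp only [if_pos hg, if_pos hg']
      exact a6 n n' hn hg'
    · obtain ⟨b1, b2, b3, b4, b5⟩ := a5 n hg
      simp only [if_pos hg, if_neg hg']
      exact ⟨by omega, b3, by omega⟩

theorem descent {K : ℕ} {low : α → ℕ → ℕ → Prop}
    (hsym : ∀ ν A B, child ν A B → child ν B A)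
    (hmem : ∀ ν A B P, child ν A B → mem P A → mem P ν)
    (hh : ∀ ν A B, child ν A B → h A + 2 ≤ h ν)
    (hlow : ∀ ν A B i k, child ν A B → k < K → low ν i k → low A i k)
    (hleaf : ∀ P ν i, mem P ν → low ν i (tm P) → i < N)
    (hev : ∀ ν B A P i d, child ν B A → mem P B → d ≤ tm P → (∀ k, d ≤ k → k ≤ tm P → low ν i k) →
      ¬ low A (i + 1) d → ∃ j, D P i d j ∧ h B - 1 ≤ j ∧ j ≤ h ν) (d : ℕ) :
    ∀ ν f ke kw i, Sep child mem tm d ν f → kw ≤ K → (∀ k, ke ≤ k → k < kw → low ν i k) →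
      0 < ∑ k ∈ Ico ke kw, f k →
      Out mem tm h D N ν ke kw i ((∑ k ∈ Ico ke kw, f k) * 5 ^ (d + i)) (8 ^ d) := by
  classical
  induction d with
  | zero =>
    rintro ν f ke kw i ⟨P, hP, rfl⟩ - hl hpos
    rw [sum_pi_single'] at hpos ⊢
    have hm : tm P ∈ Ico ke kw := by
      by_contra hc
      rw [if_neg hc] at hpos
      exact lt_irrefl _ hpos
    rw [if_pos hm]
    rw [mem_Ico] at hm
    have hi := hleaf P ν i hP (hl _ hm.1 hm.2)
    refine ⟨hi, P, hP, hm.1, hm.2, 0, fun _ => 0, fun _ => 0, fun _ => 0, ?_, fun n hn => by omega,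
      fun n n' _ hn => by omega⟩
    simp only [zero_add, one_mul, pow_zero]
    exact Nat.pow_le_pow_right (by norm_num) hi.le
  | succ d ih =>
    rintro ν f ke kw i ⟨A0, A1, f0, f1, hc, s0, s1, rfl⟩ hK hl hpos
    have hkk : ke ≤ kw := by
      by_contra hc
      rw [Ico_eq_empty (by omega)] at hpos
      simp at hpos
    have hex : ∀ A, ∃ e, ke ≤ e ∧ e ≤ kw ∧ (∀ k, ke ≤ k → k < e → low A (i + 1) k) ∧
        (e < kw → ¬ low A (i + 1) e) := by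
      intro A
      have H : ∃ k, ke ≤ k ∧ (kw ≤ k ∨ ¬ low A (i + 1) k) := ⟨kw, hkk, Or.inl le_rfl⟩
      refine ⟨Nat.find H, (Nat.find_spec H).1, Nat.find_min' H ⟨hkk, Or.inl le_rfl⟩, fun k a b => ?_,
        fun a => (Nat.find_spec H).2.resolve_left (by omega)⟩
      by_contra hc
      exact Nat.find_min H b ⟨a, Or.inr hc⟩
    obtain ⟨e0, p0, q0, r0, t0⟩ := hex A0
    obtain ⟨e1, p1, q1, r1, t1⟩ := hex A1
    wlog hle : e1 ≤ e0 generalizing A0 A1 f0 f1 e0 e1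
    · have := this A1 A0 f1 f0 (hsym _ _ _ hc) s1 s0 (by rwa [add_comm f1]) e1 p1 q1 r1 t1 e0 p0 q0 r0 t0
        (by omega)
      rwa [add_comm f1] at this
    have hc' := hsym _ _ _ hc
    have m0 := sum_Ico_consecutive f0 p0 q0
    have m1 := sum_Ico_consecutive f1 p1 q1
    simp only [Pi.add_apply, sum_add_distrib] at hpos ⊢
    set M := ∑ k ∈ Ico ke kw, f0 k + ∑ k ∈ Ico ke kw, f1 k with hM
    have hC : ∀ A B f e, child ν A B → Sep child mem tm d A f → e ≤ kw →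
        (∀ k, ke ≤ k → k < e → low A (i + 1) k) → M ≤ 8 * ∑ k ∈ Ico ke e, f k →
        Out mem tm h D N ν ke kw i (M * 5 ^ (d + 1 + i)) (8 ^ (d + 1)) := by
      intro A B f e a b c r hm
      refine (ih A f ke e (i + 1) b (by omega) r (by omega)).up (fun P => hmem _ _ _ P a)
        (by linarith [hh _ _ _ a]) le_rfl c (Nat.le_succ _) fun Z hZ => ?_
      calc M * 5 ^ (d + 1 + i) ≤ (8 * ∑ k ∈ Ico ke e, f k) * 5 ^ (d + 1 + i) := Nat.mul_le_mul_right _ hm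
        _ = 8 * ((∑ k ∈ Ico ke e, f k) * 5 ^ (d + (i + 1))) := by ring
        _ ≤ 8 * (8 ^ d * Z) := Nat.mul_le_mul_left _ hZ
        _ = 8 ^ (d + 1) * Z := by ring
    by_cases k0 : M ≤ 8 * ∑ k ∈ Ico ke e0, f0 k
    · exact hC A0 A1 f0 e0 hc s0 q0 r0 k0
    by_cases k1 : M ≤ 8 * ∑ k ∈ Ico ke e1, f1 k
    · exact hC A1 A0 f1 e1 hc' s1 q1 r1 k1
    by_cases k2 : M ≤ 8 * ∑ k ∈ Ico e0 kw, f0 k
    · have hlt : e0 < kw := by
        by_contra hn
        rw [Ico_eq_empty hn, sum_empty] at k2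
        omega
      refine (ih A0 f0 e0 kw i s0 hK (fun k a b => hlow _ _ _ _ _ hc (by omega) (hl k (by omega) b))
        (by omega)).event (fun P => hmem _ _ _ P hc) (hh _ _ _ hc) p1 hle
        (fun P a b c => hev ν A0 A1 P i e1 hc a (by omega) (fun k a' b' => hl k (by omega) (by omega))
          (t1 (by omega))) fun Z hZ => ?_
      calc M * 5 ^ (d + 1 + i) ≤ (8 * ∑ k ∈ Ico e0 kw, f0 k) * 5 ^ (d + 1 + i) := Nat.mul_le_mul_right _ k2
        _ = 40 * ((∑ k ∈ Ico e0 kw, f0 k) * 5 ^ (d + i)) := by ring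
        _ ≤ 40 * (8 ^ d * Z) := Nat.mul_le_mul_left _ hZ
        _ = 8 ^ (d + 1) * (Z * 5) := by ring
    · have k3 : 5 * M ≤ 8 * ∑ k ∈ Ico ke kw, f1 k := by omega
      refine (ih A1 f1 ke kw i s1 hK (fun k a b => hlow _ _ _ _ _ hc' (by omega) (hl k a b))
        (by omega)).up (fun P => hmem _ _ _ P hc') (by linarith [hh _ _ _ hc']) le_rfl le_rfl le_rfl
        fun Z hZ => ?_
      calc M * 5 ^ (d + 1 + i) = (5 * M) * 5 ^ (d + i) := by ring
        _ ≤ (8 * ∑ k ∈ Ico ke kw, f1 k) * 5 ^ (d + i) := Nat.mul_le_mul_right _ k3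
        _ = 8 * ((∑ k ∈ Ico ke kw, f1 k) * 5 ^ (d + i)) := by ring
        _ ≤ 8 * (8 ^ d * Z) := Nat.mul_le_mul_left _ hZ
        _ = 8 ^ (d + 1) * Z := by ring

theorem s2_count {g N : ℕ} (h : 2 ^ (8 * (9 * N + 1)) * 5 ^ (8 * (9 * N + 1) + 0) ≤
    8 ^ (8 * (9 * N + 1)) * 5 ^ (g + N)) : 8 * N < g := by
  by_contra hc
  have h1 : 5 ^ (g + N) < 5 ^ (9 * N + 1) := Nat.pow_lt_pow_right (by norm_num) (by omega)
  have h2 : 8 ^ (8 * (9 * N + 1)) * 5 ^ (9 * N + 1) ≤ 2 ^ (8 * (9 * N + 1)) * 5 ^ (8 * (9 * N + 1) + 0) := by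
    rw [add_zero, pow_mul 8, pow_mul 2, pow_mul 5 8, ← mul_pow, ← mul_pow]
    exact Nat.pow_le_pow_left (by norm_num) _
  have h3 := Nat.mul_lt_mul_of_pos_left h1 (show 0 < 8 ^ (8 * (9 * N + 1)) by positivity)
  omega

end Crest.Agent.R87
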