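import Crest.Agent.R87.S2a
import Crest.Agent.R87.S2b

/-! # R87 S2, parts (a), (b): separated trees and the geometry of the sets `Y_ν`. -/

set_option autoImplicit false

namespace Crest.Agent.R87

open MeasureTheory Set
open scoped ENNReal

/-- two well separated small subnodes -/
def s2child (Γ : Geo) (ν A B : ℕ × ℤ) : Prop :=
  nsub A ν ∧ nsub B ν ∧ ν.1 + 2 ≤ A.1 ∧ ν.1 + 2 ≤ B.1 ∧
    (Γ.lft A + 2 * Γ.sz A.1 + Γ.sz B.1 ≤ Γ.lft B ∨ Γ.lft B + 2 * Γ.sz B.1 + Γ.sz A.1 ≤ Γ.lft A)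

theorem s2child.symm {Γ : Geo} {ν A B : ℕ × ℤ} (h : s2child Γ ν A B) : s2child Γ ν B A :=
  ⟨h.2.1, h.1, h.2.2.2.1, h.2.2.1, h.2.2.2.2.symm⟩

variable {Γ : Geo} {U : Finset Tile} {γ : ℝ} {z : P2}

theorem Perf.pred {d : ℕ} {ν : ℕ × ℤ} (h : Perf Γ U γ z (d + 1) ν) : Perf Γ U γ z d ν := by
  obtain ⟨ν0, ν1, h0, -, -, -, h1, -⟩ := h
  exact h1.mono_node h0

theorem Perf.anti {d d' : ℕ} {ν : ℕ × ℤ} (h : Perf Γ U γ z d ν) (hd : d' ≤ d) : Perf Γ U γ z d' ν := by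
  induction d, hd using Nat.le_induction with
  | base => exact h
  | succ d _ ih => exact ih h.pred

theorem s2_proper {ν0 ν1 μ : ℕ × ℤ} (h0 : nsub ν0 μ) (h1 : nsub ν1 μ) (h : ¬ nsub ν1 ν0) :
    μ.1 + 1 ≤ ν0.1 := by
  by_contra hc
  have e : ν0.1 = μ.1 := by have := h0.1; omega
  have e2 := h0.2
  rw [e, Nat.sub_self, pow_zero, Int.ediv_one] at e2
  exact h (Prod.ext e e2 ▸ h1)

theorem s2_half (Γ : Geo) {ν μ : ℕ × ℤ} (h : nsub ν μ) (h1 : μ.1 + 1 ≤ ν.1) :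
    nsub ν (μ.1 + 1, 2 * μ.2) ∨ nsub ν (μ.1 + 1, 2 * μ.2 + 1) := by
  have h2 := ((Γ.nsub_iff_idx _ _).1 h).2
  rw [Γ.idx_add μ.1 1, pow_one] at h2
  simp only [Γ.nsub_iff_idx]
  omega

theorem s2_half_sub (μ : ℕ × ℤ) : nsub (μ.1 + 1, 2 * μ.2) μ ∧ nsub (μ.1 + 1, 2 * μ.2 + 1) μ := by
  simp only [nsub, Nat.add_sub_cancel_left, pow_one]
  omega

theorem s2_fork {d : ℕ} {ν0 ν1 : ℕ × ℤ} (h0 : ¬ nsub ν0 ν1) (h1 : ¬ nsub ν1 ν0) (p0 : Perf Γ U γ z d ν0)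
    (p1 : Perf Γ U γ z d ν1) (n : ℕ) : ∀ μ : ℕ × ℤ, ν0.1 ≤ μ.1 + n → nsub ν0 μ → nsub ν1 μ →
      ∃ μ' : ℕ × ℤ, nsub μ' μ ∧ Perf Γ U γ z d (μ'.1 + 1, 2 * μ'.2) ∧
        Perf Γ U γ z d (μ'.1 + 1, 2 * μ'.2 + 1) := by
  induction n with
  | zero => intro μ a b c; have := s2_proper b c h1; omega
  | succ n ih =>
    intro μ a b c
    rcases s2_half Γ b (s2_proper b c h1) with b' | b' <;>
      rcases s2_half Γ c (s2_proper c b h0) with c' | c'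
    · obtain ⟨μ', e1, e2⟩ := ih _ (by simp only; omega) b' c'
      exact ⟨μ', nsub_trans e1 (s2_half_sub μ).1, e2⟩
    · exact ⟨μ, nsub_refl _, p0.mono_node b', p1.mono_node c'⟩
    · exact ⟨μ, nsub_refl _, p1.mono_node c', p0.mono_node b'⟩
    · obtain ⟨μ', e1, e2⟩ := ih _ (by simp only; omega) b' c'
      exact ⟨μ', nsub_trans e1 (s2_half_sub μ).2, e2⟩

theorem Perf.fork {d : ℕ} {μ : ℕ × ℤ} (h : Perf Γ U γ z (d + 1) μ) :
    ∃ μ' : ℕ × ℤ, nsub μ' μ ∧ Perf Γ U γ z d (μ'.1 + 1, 2 * μ'.2) ∧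
      Perf Γ U γ z d (μ'.1 + 1, 2 * μ'.2 + 1) := by
  obtain ⟨ν0, ν1, a, b, c, e, p0, p1⟩ := h
  exact s2_fork c e p0 p1 ν0.1 μ (by omega) a b

theorem Perf.child {d : ℕ} {ν : ℕ × ℤ} (h : Perf Γ U γ z (d + 2) ν) :
    ∃ A B, s2child Γ ν A B ∧ Perf Γ U γ z d A ∧ Perf Γ U γ z d B := by
  obtain ⟨μ, h0, p0, p1⟩ := h.fork
  obtain ⟨μ0, a0, q0, -⟩ := p0.fork
  obtain ⟨μ1, a1, -, q1⟩ := p1.fork
  refine ⟨_, _, ⟨nsub_trans (s2_half_sub μ0).1 (nsub_trans a0 (nsub_trans (s2_half_sub μ).1 h0)),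
    nsub_trans (s2_half_sub μ1).2 (nsub_trans a1 (nsub_trans (s2_half_sub μ).2 h0)), ?_, ?_, Or.inl ?_⟩, q0, q1⟩
  · have := a0.1; have := h0.1; simp only at *; omega
  · have := a1.1; have := h0.1; simp only at *; omega
  · have b0 := ((Γ.nsub_iff _ _).1 a0).2.2
    have b1 := ((Γ.nsub_iff _ _).1 a1).2.1
    have c0 := Γ.sz_succ μ0.1
    have c1 := Γ.sz_succ μ1.1
    simp only [Geo.lft] at b0 b1 ⊢
    rw [c0] at b0
    rw [c1] at b1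
    push_cast at b0 b1 ⊢
    linarith

theorem Perf.sep {mem : Tile → ℕ × ℤ → Prop} (hm : ∀ P ∈ U, ∀ ν, Γ.mem P ν → Γ.vis γ P z → mem P ν)
    (d : ℕ) : ∀ ν, Perf Γ U γ z (2 * d) ν → ∃ f, Sep (s2child Γ) mem Tile.k d ν f := by
  induction d with
  | zero =>
    rintro ν ⟨P, a, b, c⟩
    exact ⟨_, P, hm P a ν b c, rfl⟩
  | succ d ih =>
    intro ν h
    obtain ⟨A, B, a, b, c⟩ := Perf.child (d := 2 * d) h
    obtain ⟨f0, s0⟩ := ih A b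
    obtain ⟨f1, s1⟩ := ih B c
    exact ⟨_, A, B, f0, f1, a, s0, s1, rfl⟩

theorem s2_strip (A : Set ℝ) (c s t : ℝ) :
    volume {z : P2 | z.1 ∈ A ∧ |z.2 - (c + s * z.1)| ≤ t} ≤ volume A * ENNReal.ofReal (2 * t) := by
  have hm : MeasurableSet {z : P2 | z.1 ∈ toMeasurable volume A ∧ |z.2 - (c + s * z.1)| ≤ t} :=
    (measurable_fst (measurableSet_toMeasurable _ _)).inter
      (measurableSet_le (f := fun z : P2 => |z.2 - (c + s * z.1)|) (by fun_prop) measurable_const)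
  refine (measure_mono (t := {z : P2 | z.1 ∈ toMeasurable volume A ∧ |z.2 - (c + s * z.1)| ≤ t})
    fun z hz => ⟨subset_toMeasurable _ _ hz.1, hz.2⟩).trans (le_of_eq ?_)
  rw [← (measurePreserving_shear s).measure_preimage hm.nullMeasurableSet]
  have e : (fun z : P2 => ((z.1, z.2 + s * z.1) : P2)) ⁻¹'
      {z : P2 | z.1 ∈ toMeasurable volume A ∧ |z.2 - (c + s * z.1)| ≤ t} =
      toMeasurable volume A ×ˢ Icc (c - t) (c + t) := by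
    ext z
    simp only [mem_preimage, mem_ofPred_eq, mem_prod, mem_Icc, abs_le]
    constructor <;> rintro ⟨a, b, c⟩ <;> exact ⟨a, by linarith, by linarith⟩
  rw [e, Measure.volume_eq_prod, Measure.prod_prod, measure_toMeasurable, Real.volume_Icc]
  congr 2; ring

theorem s2_sz_eq (Γ : Geo) (c : ℕ) : Γ.sz c = (2 : ℝ) ^ ((Γ.kK : ℤ) - c) := by
  rw [Geo.sz, zpow_sub₀ two_ne_zero, zpow_natCast, zpow_natCast]

theorem s2_sz_anti (Γ : Geo) {c c' : ℕ} (h : c ≤ c') : Γ.sz c' ≤ Γ.sz c := by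
  rw [s2_sz_eq, s2_sz_eq]
  exact zpow_le_zpow_right₀ one_le_two (by omega)

theorem s2_sz_four (Γ : Geo) {c c' : ℕ} (h : c + 2 ≤ c') : 4 * Γ.sz c' ≤ Γ.sz c := by
  have h1 := s2_sz_anti Γ h
  have h2 := Γ.sz_succ c
  have h3 := Γ.sz_succ (c + 1)
  linarith

/-- `Y_ν` -/
def s2Y (Γ : Geo) (u : P2 → ℝ) (z : P2) (ν : ℕ × ℤ) : Set ℝ :=
  {x | Γ.lft ν - Γ.sz ν.1 / 4 ≤ u (x, z.2 + Γ.lft ν * (x - z.1)) ∧
    u (x, z.2 + Γ.lft ν * (x - z.1)) ≤ Γ.lft ν + 5 / 4 * Γ.sz ν.1}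

/-- the field along the base line is in the enlarged node of cut `c` -/
def s2W (Γ : Geo) (u : P2 → ℝ) (P : Tile) (c : ℕ) : Set ℝ :=
  {x | Γ.lft (c, Γ.idx c P.s) - Γ.sz c / 5 ≤ u (x, P.line x) ∧
    u (x, P.line x) ≤ Γ.lft (c, Γ.idx c P.s) + 6 / 5 * Γ.sz c}

/-- the classes -/
def s2C (u : P2 → ℝ) (P : Tile) (j : ℤ) : Set ℝ :=
  {x | (2 : ℝ) ^ j ≤ |u (x, P.line x) - P.s| ∧ |u (x, P.line x) - P.s| < 2 ^ (j + 3)}

theorem s2W_anti (Γ : Geo) (u : P2 → ℝ) (P : Tile) : Antitone (s2W Γ u P) := by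
  intro c c' h x hx
  have h1 := (Γ.nsub_iff _ _).1 (Γ.nsub_of_idx (ν' := (c', Γ.idx c' P.s)) (ν := (c, Γ.idx c P.s)) h rfl rfl)
  have h2 := s2_sz_anti Γ h
  exact ⟨by linarith [hx.1, h1.2.1], by linarith [hx.2, h1.2.2]⟩

theorem s2C_meas {u : P2 → ℝ} (hu : Measurable u) (P : Tile) (j : ℤ) : MeasurableSet (s2C u P j) := by
  have h : Measurable fun x => |u (x, P.line x) - P.s| := by
    unfold Tile.line; fun_prop
  exact (measurableSet_le measurable_const h).inter (measurableSet_lt h measurable_const)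

theorem s2C_disj (u : P2 → ℝ) (P : Tile) (j j' : ℤ) (h : j + 3 ≤ j') : Disjoint (s2C u P j) (s2C u P j') :=
  disjoint_left.2 fun _ a b => not_le.2 a.2 ((zpow_le_zpow_right₀ one_le_two h).trans b.1)

variable {u : P2 → ℝ} {kmax : ℕ}

theorem s2_near {k : ℕ} (hk : k ≤ kmax) {x x0 : ℝ} (h : dI k x = dI k x0) : |x - x0| ≤ 2 ^ kmax := by
  have h1 := (abs_sub_lt_of_dI_eq h).le
  rw [zpow_natCast] at h1
  exact h1.trans (pow_le_pow_right₀ one_le_two hk)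

/-- the field on two lines -/
theorem s2_lip (hu : Field u kmax) {x x0 y y0 l s e : ℝ} {c : ℕ} (hc : c ≤ kmax) (hx : |x - x0| ≤ 2 ^ kmax)
    (h : |y - (y0 + s * (x - x0))| ≤ 2 ^ Γ.kK) (he : |s - l| ≤ e) :
    |u (x, y) - u (x, y0 + l * (x - x0))| ≤ (Γ.sz c + e) / 100 := by
  refine (hu.lip _ _ _).trans ?_
  have h1 := abs_add_le (y - (y0 + s * (x - x0))) ((s - l) * (x - x0))
  rw [abs_mul] at h1
  have h2 : |s - l| * |x - x0| ≤ e * 2 ^ kmax := mul_le_mul he hx (abs_nonneg _) ((abs_nonneg _).trans he)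
  have h3 : 2 ^ Γ.kK ≤ Γ.sz c * 2 ^ kmax := by
    have := s2_sz_anti Γ hc
    rw [Geo.sz, div_le_iff₀ (by positivity)] at this
    exact this
  have e1 : y - (y0 + s * (x - x0)) + (s - l) * (x - x0) = y - (y0 + l * (x - x0)) := by ring
  rw [e1] at h1
  rw [div_le_div_iff₀ (by positivity) (by norm_num)]
  linarith

theorem s2Y_child (hu : Field u kmax) {ν A B : ℕ × ℤ} (h : s2child Γ ν A B) {x : ℝ}
    (hx : |x - z.1| ≤ 2 ^ kmax) (hA : x ∈ s2Y Γ u z A) : x ∈ s2Y Γ u z ν := by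
  have h1 := (Γ.nsub_iff _ _).1 h.1
  have h2 := s2_sz_four Γ h.2.2.1
  have h3 := Γ.sz_pos A.1
  have h4 := hu.lip x (z.2 + Γ.lft A * (x - z.1)) (z.2 + Γ.lft ν * (x - z.1))
  have e : z.2 + Γ.lft A * (x - z.1) - (z.2 + Γ.lft ν * (x - z.1)) = (Γ.lft A - Γ.lft ν) * (x - z.1) := by ring
  have h5 : |(Γ.lft A - Γ.lft ν) * (x - z.1)| / (100 * 2 ^ kmax) ≤ Γ.sz ν.1 / 100 := by
    rw [abs_mul, abs_of_nonneg (by linarith [h1.2.1]), div_le_div_iff₀ (by positivity) (by norm_num)]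
    have := mul_le_mul (show Γ.lft A - Γ.lft ν ≤ Γ.sz ν.1 by linarith [h1.2.2]) hx (abs_nonneg _) (by linarith)
    linarith
  rw [e] at h4
  have h6 := abs_le.1 (h4.trans h5)
  exact ⟨by linarith [hA.1, h1.2.1], by linarith [hA.2, h1.2.2]⟩

theorem s2_line (P : Tile) (x x0 y0 : ℝ) : P.line x - (y0 + P.s * (x - x0)) = -(y0 - P.line x0) := by
  unfold Tile.line; ring

/-- a popular member makes `Y_ν` dense -/
theorem s2_leaf (hu : Field u kmax) (hK : 6 ≤ Γ.kK) {t : ℝ} (ht : t + 1 ≤ 2 ^ Γ.kK) {P : Tile} (hP : P.k ≤ kmax)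
    {ν : ℕ × ℤ} (hm : Γ.mem P ν) (hz : dI P.k z.1 = P.m) (hv : |z.2 - P.line z.1| ≤ t) (G : Set P2) :
    (volume (P.pop u G)).toReal ≤ s2m (s2Y Γ u z ν) P.k (dI P.k z.1) := by
  have h1 : P.pop u G ⊆ {w : P2 | w.1 ∈ s2Y Γ u z ν ∩ dInt P.k (dI P.k z.1) ∧
      |w.2 - ((P.β + 1 / 2 - P.s * P.a) + P.s * w.1)| ≤ 1 / 2} := by
    rintro ⟨x, y⟩ ⟨-, a1, a2, a3⟩
    simp only [Int.floor_eq_iff] at a1 a2 a3
    have b0 := (Γ.idx_eq_iff ν P.s).1 hm.2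
    have b1 := s2_lip (Γ := Γ) hu (hm.1.trans hP) (s2_near hP (a1.trans hz.symm)) (y := y) (y0 := z.2)
      (l := Γ.lft ν) (s := P.s) (e := Γ.sz ν.1) (by
        have c1 := abs_le.1 hv
        unfold Tile.line at c1
        rw [abs_le]; constructor <;> linarith [a3.1, a3.2, c1.1, c1.2])
      (by rw [abs_le]; constructor <;> linarith [b0.1, b0.2])
    have b2 := abs_le.1 b1
    have p0 : (0 : ℝ) < 2 ^ P.k := by positivity
    have b3 : P.s ≤ u (x, y) := by rw [Tile.s, div_le_iff₀ p0]; exact a2.1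
    have b4 : u (x, y) ≤ P.s + Γ.sz ν.1 / 64 := by
      have c1 : 64 ≤ Γ.sz ν.1 * 2 ^ P.k := by
        have c2 := s2_sz_anti Γ hm.1
        rw [Geo.sz, div_le_iff₀ p0] at c2
        have c3 : (2 : ℝ) ^ 6 ≤ 2 ^ Γ.kK := pow_le_pow_right₀ one_le_two hK
        linarith
      have c4 : P.s * 2 ^ P.k = P.σ := by rw [Tile.s, div_mul_cancel₀ _ p0.ne']
      refine le_of_mul_le_mul_right ?_ p0
      linarith [a2.2]
    have b5 := Γ.sz_pos ν.1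
    refine ⟨⟨⟨by linarith [b0.1], by linarith [b0.2]⟩, mem_dInt.2 (a1.trans hz.symm)⟩, ?_⟩
    rw [abs_le]; constructor <;> linarith [a3.1, a3.2]
  have h2 := (measure_mono h1).trans (s2_strip _ _ _ _)
  rw [show (2 : ℝ) * (1 / 2) = 1 by norm_num, ENNReal.ofReal_one, mul_one] at h2
  exact ENNReal.toReal_mono (s2m_fin _ _ _) h2

/-- an event gives a dominant pair -/
theorem s2_event (hu : Field u kmax) {P : Tile} (hP : P.k ≤ kmax) (hv : |z.2 - P.line z.1| ≤ 2 ^ Γ.kK)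
    {ν B A : ℕ × ℤ} (h : s2child Γ ν B A) (hm : Γ.mem P B) {η : ℝ} {i d : ℕ} (hd : d ≤ P.k)
    (h1 : ∀ k, d ≤ k → k ≤ P.k → s2m (s2Y Γ u z ν) k (dI k z.1) ≤ (1 - η) ^ i * 2 ^ k)
    (h2 : (1 - η) ^ (i + 1) * 2 ^ d < s2m (s2Y Γ u z A) d (dI d z.1)) :
    ∃ j, Dom (s2W Γ u P) (s2C u P) P.k η i d j z.1 ∧ (Γ.kK : ℤ) - B.1 - 1 ≤ j ∧ j ≤ (Γ.kK : ℤ) - ν.1 := by
  have hν := Γ.mem_mono h.1 hm
  have eν : (ν.1, Γ.idx ν.1 P.s) = ν := Prod.ext rfl hν.2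
  have b0 := (Γ.idx_eq_iff ν P.s).1 hν.2
  have b1 := (Γ.idx_eq_iff B P.s).1 hm.2
  have b2 := (Γ.nsub_iff _ _).1 h.2.1
  have b3 := s2_sz_four Γ h.2.2.2.1
  have pA := Γ.sz_pos A.1
  have pB := Γ.sz_pos B.1
  have hlip : ∀ x, |x - z.1| ≤ 2 ^ kmax → ∀ c ≤ kmax, ∀ l e, |P.s - l| ≤ e →
      |u (x, P.line x) - u (x, z.2 + l * (x - z.1))| ≤ (Γ.sz c + e) / 100 := fun x hx c hc l e he =>
    s2_lip hu hc hx (by rwa [s2_line, abs_neg]) he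
  obtain ⟨D, d1, d2, d3⟩ : ∃ D, Γ.sz B.1 ≤ D ∧ D ≤ Γ.sz ν.1 ∧ ∀ x, |x - z.1| ≤ 2 ^ kmax → x ∈ s2Y Γ u z A →
      0.72 * D ≤ |u (x, P.line x) - P.s| ∧ |u (x, P.line x) - P.s| ≤ 2.28 * D := by
    rcases h.2.2.2.2 with g | g
    · refine ⟨Γ.lft A - P.s, by linarith, by linarith [b2.2.2], fun x hx hA => ?_⟩
      have c := abs_le.1 (hlip x hx B.1 (hm.1.trans hP) (Γ.lft A) (Γ.lft A - P.s)
        (by rw [abs_le]; constructor <;> linarith))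
      rw [abs_of_nonneg (by linarith [hA.1])]
      constructor <;> linarith [hA.1, hA.2]
    · refine ⟨P.s - Γ.lft A - Γ.sz A.1, by linarith, by linarith [b2.2.1], fun x hx hA => ?_⟩
      have c := abs_le.1 (hlip x hx B.1 (hm.1.trans hP) (Γ.lft A) (P.s - Γ.lft A)
        (by rw [abs_le]; constructor <;> linarith))
      rw [abs_of_nonpos (by linarith [hA.2])]
      constructor <;> linarith [hA.1, hA.2]
  obtain ⟨j, j1, j2⟩ := exists_mem_Ico_zpow (x := 0.72 * D) (y := (2 : ℝ)) (by linarith) one_lt_two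
  refine ⟨j, ⟨hd, ν.1, fun k a b => le_trans (s2m_mono fun x hx hW => ?_) (h1 k a b),
    h2.trans_le (s2m_mono fun x hx hA => ?_)⟩, ?_, ?_⟩
  · have c := abs_le.1 (hlip x (s2_near (b.trans hP) hx) ν.1 (hν.1.trans hP) (Γ.lft ν) (Γ.sz ν.1)
      (by rw [abs_le]; constructor <;> linarith))
    have w1 := hW.1
    have w2 := hW.2
    rw [eν] at w1 w2
    exact ⟨by linarith, by linarith⟩
  · have hx' := s2_near (hd.trans hP) hx
    have c := abs_le.1 (hlip x hx' ν.1 (hν.1.trans hP) (Γ.lft A) (Γ.sz ν.1)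
      (by rw [abs_le]; constructor <;> linarith [b2.2.1, b2.2.2]))
    obtain ⟨c1, c2⟩ := d3 x hx' hA
    refine ⟨⟨j1.trans c1, c2.trans_lt ?_⟩, ?_⟩
    · have e : (2 : ℝ) ^ (j + 3) = 2 ^ (j + 1) * 4 := by
        rw [show j + 3 = j + 1 + 2 by ring, zpow_add₀ two_ne_zero (j + 1)]; norm_num
      rw [e]; linarith
    · show _ ∧ _
      rw [eν]
      exact ⟨by linarith [hA.1, b2.2.1], by linarith [hA.2, b2.2.2]⟩
  · have c : (2 : ℝ) ^ ((Γ.kK : ℤ) - B.1 - 1) < 2 ^ (j + 1) := by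
      rw [zpow_sub_one₀ two_ne_zero, ← s2_sz_eq]; linarith
    have := (zpow_lt_zpow_iff_right₀ one_lt_two).1 c
    omega
  · have c : (2 : ℝ) ^ j ≤ 2 ^ ((Γ.kK : ℤ) - ν.1) := by rw [← s2_sz_eq]; linarith
    exact (zpow_le_zpow_iff_right₀ one_lt_two).1 c

end Crest.Agent.R87
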