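import Crest.Agent.R87.T4b

/-! # R87, part L: the tree lemma `T4Stmt`. -/

set_option autoImplicit false

namespace Crest.Agent.R87

open MeasureTheory Set
open scoped ENNReal

theorem t4_four {a b c d : ℝ} (ha : 0 ≤ a) (hb : 0 ≤ b) (hc : 0 ≤ c) (hd : 0 ≤ d) :
    (a + (b + (c + d))) ^ 4 ≤ 64 * a ^ 4 + (64 * b ^ 4 + (64 * c ^ 4 + 64 * d ^ 4)) := by
  have h1 := add_pow_le (add_nonneg ha hb) (add_nonneg hc hd) 4
  have h2 := add_pow_le ha hb 4
  have h3 := add_pow_le hc hd 4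
  norm_num at h1 h2 h3
  rw [← add_assoc]
  linarith

/-- pointwise majorant of the maximal partial sums -/
theorem t4_pointwise {b ψ : ℝ → ℝ} (hb : IsB b) (hψ : IsPsi ψ) {Ab A C0 : ℝ} (hAb : ∀ y, |b y| ≤ Ab)
    (hA0 : ∀ y, |ψ y| ≤ A) (hA : ∀ y y', |ψ y - ψ y'| ≤ A * |y - y'|) {u : P2 → ℝ} {kmax : ℕ}
    (hu : Field u kmax) {G : Set P2} (hG : Bornology.IsBounded G) {S : ℕ → Set P2}
    (hSm : ∀ k, MeasurableSet (S k)) (hSG : ∀ k, S k ⊆ G) {g : P2 → ℝ} (hg : Coef g) (s β : ℝ)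
    (p : ℕ) (hp : ∀ k z, z ∈ S k → 2 ^ k * |u z - s| ≤ 2 ^ p) {k0 : ℕ} (hk0 : k0 ≤ kmax)
    (hC00 : 0 ≤ C0)
    (hC0 : ∀ k, k ≤ kmax → ∀ z', |Phi1 b ψ u k (S k \ t4N u s k) g z'| ≤ C0) (x : ℝ) :
    PhiMax b ψ u k0 S g (x, β + s * x) ≤
      (⨆ c : Fin (k0 + 1), |∑ k ∈ Finset.Icc (c : ℕ) k0, b ((x - cen k x) / 2 ^ k) *
          alpha ψ (fun k => S k ∩ t4N u s k) g s β k (dI k x)|) +
        (Ab * A * ∑ k ∈ Finset.range (k0 + 1), pcoef (t4w u s S) s β 2 k (dI k x) +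
          (Ab * A * ∑ k ∈ Finset.range (k0 + 1), t4c u s β p k0 k (dI k x) + C0 * p)) := by
  have hA1 : 0 ≤ A := le_trans (abs_nonneg _) (hA0 0)
  have hAb1 : 0 ≤ Ab := le_trans (abs_nonneg _) (hAb 0)
  refine PhiMax_le fun c hc => ?_
  set z' : P2 := (x, β + s * x) with hz'
  set mn : ℕ → ℝ := fun k => b ((x - cen k x) / 2 ^ k) *
    alpha ψ (fun k => S k ∩ t4N u s k) g s β k (dI k x) with hmn
  set er : ℕ → ℝ := fun k => Phi1 b ψ u k (S k ∩ t4N u s k) g z' - mn k with her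
  set sd : ℕ → ℝ := fun k => Phi1 b ψ u k (S k \ t4N u s k) g z' with hsd
  have hsplit : ∀ k, Phi1 b ψ u k (S k) g z' = mn k + (er k + sd k) := by
    intro k
    have h := Phi1_union hb hψ hu.meas k (A := S k ∩ t4N u s k) (A' := S k \ t4N u s k)
      (hG.subset fun z hz => hSG k hz.1) (hG.subset fun z hz => hSG k hz.1)
      ((hSm k).diff (t4N_meas hu.meas s k)) (disjoint_sdiff_right.mono_left inter_subset_right) hg z'
    rw [inter_union_sdiff] at h
    rw [h]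
    simp only [her, hsd]
    ring
  have hsub : Finset.Icc c k0 ⊆ Finset.range (k0 + 1) := fun k hk =>
    Finset.mem_range.2 (Nat.lt_succ_of_le (Finset.mem_Icc.1 hk).2)
  unfold PhiR
  simp_rw [hsplit]
  rw [Finset.sum_add_distrib, Finset.sum_add_distrib]
  refine le_trans (abs_add_le _ _) (add_le_add ?_ (le_trans (abs_add_le _ _) (add_le_add ?_ ?_)))
  · exact le_ciSup (f := fun c : Fin (k0 + 1) => |∑ k ∈ Finset.Icc (c : ℕ) k0, mn k|)
      (Set.finite_range _).bddAbove ⟨c, Nat.lt_succ_of_le hc⟩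
  · refine le_trans (Finset.abs_sum_le_sum_abs _ _) ?_
    refine le_trans (Finset.sum_le_sum_of_subset_of_nonneg hsub fun _ _ _ => abs_nonneg _) ?_
    rw [Finset.mul_sum]
    exact Finset.sum_le_sum fun k _ => t4_core hb hψ hAb hA0 hA hu.meas hG hSm hSG hg s β k x
  · refine le_trans (Finset.abs_sum_le_sum_abs _ _) ?_
    refine le_trans (Finset.sum_le_sum_of_subset_of_nonneg hsub fun _ _ _ => abs_nonneg _) ?_
    set f : ℕ → ℝ := fun k => if k ≤ k0 then |sd k| else 0 with hf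
    have hf0 : ∀ k, 0 ≤ f k := fun k => by
      simp only [hf]
      split_ifs
      · exact abs_nonneg _
      · exact le_rfl
    have e1 : ∑ k ∈ Finset.range (k0 + 1), |sd k| = ∑ k ∈ Finset.range (k0 + 1), f k :=
      Finset.sum_congr rfl fun k hk => by
        simp only [hf, if_pos (Nat.le_of_lt_succ (Finset.mem_range.1 hk))]
    rw [e1]
    refine le_trans (Finset.sum_le_sum_of_subset_of_nonneg
      (Finset.range_subset_range.2 (Nat.le_add_left (k0 + 1) p)) fun _ _ _ => hf0 _) ?_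
    rw [Finset.sum_range_add, add_comm]
    refine add_le_add ?_ ?_
    · rw [Finset.mul_sum]
      refine Finset.sum_le_sum fun k' _ => ?_
      simp only [hf]
      rw [add_comm p k']
      split_ifs with h
      · exact t4_side hb hψ hAb hA0 hu hSm hg s β p hp hk0 h x
      · exact mul_nonneg (mul_nonneg hAb1 hA1) (t4c_nonneg _ _ _ _ _ _ _)
    · refine le_trans (Finset.sum_le_card_nsmul _ _ C0 fun k _ => ?_) ?_
      · simp only [hf]
        split_ifs with h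
        · exact hC0 k (h.trans hk0) z'
        · exact hC00
      · rw [Finset.card_range, nsmul_eq_mul, mul_comm]

theorem t4_meas_sum (c : ℕ → ℤ → ℝ) (n : ℕ) :
    Measurable fun x : ℝ => ∑ k ∈ Finset.range n, c k (dI k x) :=
  Finset.measurable_sum _ fun k _ => (Measurable.of_discrete (f := c k)).comp (measurable_dI k)

theorem t4 (h1 : Car4Stmt) (h2 : BMaxStmt) (h3 : CoefStmt) (h4 : PosStmt) : T4Stmt := by
  intro b ψ hb hψ
  obtain ⟨Ab, hAb1, hAb, -⟩ := hb.exists_lip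
  obtain ⟨A, hA1, hA0, hA⟩ := hψ.exists_lip
  obtain ⟨C0, hC01, hC0⟩ := exists_Phi1_bound hb hψ
  obtain ⟨CB, hCB, hB⟩ := h2 b hb
  obtain ⟨CC, hCC, hC⟩ := h3 ψ hψ
  set K1 : ℝ := 64 * (CB * (CC * (2 * 1))) ^ 4 + 64 * (Ab * A) ^ 4 * (24 * (4 * (2 * 2)) ^ 4) with hK1
  set K2 : ℝ := 64 * (Ab * A) ^ 4 * (24 * 102 ^ 4) + 64 * C0 ^ 4 with hK2
  have hK10 : 0 ≤ K1 := by positivity
  have hK20 : 0 ≤ K2 := by positivity
  refine ⟨K1 + K2 + 1, by positivity, ?_⟩
  intro kmax u hu G hG S hS g hg s p hp k0 hk0 m0 β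
  have hAA : 0 ≤ Ab * A := by positivity
  have hS0 : Fam G (fun k => S k ∩ t4N u s k) :=
    hS.inter_down (t4N_meas hu.meas s) (t4N_down u s)
  -- the four bounds
  have bM := hB k0 m0 (alpha ψ (fun k => S k ∩ t4N u s k) g s β) (CC * (2 * 1)) (by positivity)
    (hC u hu.meas G hG _ hS0 g hg s β 1 (2 * 1) k0 (by norm_num) (fun k z hz => hz.2)
      (t4_lineDens u G _ s β 1 1 (by norm_num) k0))
  have bP := h1 k0 m0 (pcoef (t4w u s S) s β 2) (4 * (2 * 2)) (by norm_num)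
    (t4_pcoef_nonneg (t4w_nonneg u s S) s β 2)
    (h4 u hu.meas G hG _ hS0.meas hS0.sub (t4w u s S) s β 2 1 (2 * 2) k0 (by norm_num)
      (t4w_meas hu.meas s hS.meas) (t4w_nonneg u s S) (fun k z hz => indicator_of_notMem hz _)
      (t4w_sum u s S (k0 + 1)) (fun k z hz => hz.2) (t4_lineDens u G _ s β 2 1 (by norm_num) k0))
  have bQ := h1 k0 m0 (t4c u s β p k0) (102 * p) (by positivity) (t4c_nonneg u s β p k0)
    (t4_car hu s β p hk0)
  set M : ℝ → ℝ := fun x => ⨆ c : Fin (k0 + 1), |∑ k ∈ Finset.Icc (c : ℕ) k0,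
    b ((x - cen k x) / 2 ^ k) * alpha ψ (fun k => S k ∩ t4N u s k) g s β k (dI k x)| with hM
  set P : ℝ → ℝ := fun x => ∑ k ∈ Finset.range (k0 + 1), pcoef (t4w u s S) s β 2 k (dI k x) with hP
  set Q : ℝ → ℝ := fun x => ∑ k ∈ Finset.range (k0 + 1), t4c u s β p k0 k (dI k x) with hQ
  have mP : Measurable P := t4_meas_sum _ _
  have mQ : Measurable Q := t4_meas_sum _ _
  have M0 : ∀ x, 0 ≤ M x := fun x => Real.iSup_nonneg fun _ => abs_nonneg _
  have P0 : ∀ x, 0 ≤ P x := fun x =>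
    Finset.sum_nonneg fun k _ => t4_pcoef_nonneg (t4w_nonneg u s S) s β 2 k _
  have Q0 : ∀ x, 0 ≤ Q x := fun x => Finset.sum_nonneg fun k _ => t4c_nonneg _ _ _ _ _ _ _
  have pt : ∀ x : ℝ, ENNReal.ofReal (PhiMax b ψ u k0 S g (x, β + s * x) ^ 4) ≤
      ENNReal.ofReal 64 * ENNReal.ofReal (M x ^ 4) +
        (ENNReal.ofReal (64 * (Ab * A) ^ 4) * ENNReal.ofReal (P x ^ 4) +
          (ENNReal.ofReal (64 * (Ab * A) ^ 4) * ENNReal.ofReal (Q x ^ 4) +
            ENNReal.ofReal (64 * (C0 * p) ^ 4))) := by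
    intro x
    have a1 := t4_pointwise hb hψ hAb hA0 hA hu hG hS.meas hS.sub hg s β p hp hk0
      (le_trans zero_le_one hC01)
      (fun k hk z' => (hC0 kmax u hu k hk _ ((hS.meas k).diff (t4N_meas hu.meas s k))
        (hG.subset fun z hz => hS.sub k hz.1) g hg).1 z') x
    have a2 := pow_le_pow_left₀ (PhiMax_nonneg b ψ u k0 S g (x, β + s * x)) a1 4
    have a3 := t4_four (M0 x) (mul_nonneg hAA (P0 x)) (mul_nonneg hAA (Q0 x))
      (by positivity : 0 ≤ C0 * p)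
    have hm := M0 x
    have hp' := P0 x
    have hq := Q0 x
    rw [← ENNReal.ofReal_mul (by norm_num), ← ENNReal.ofReal_mul (by positivity),
      ← ENNReal.ofReal_mul (by positivity), ← ENNReal.ofReal_add (by positivity) (by positivity),
      ← ENNReal.ofReal_add (by positivity) (by positivity),
      ← ENNReal.ofReal_add (by positivity) (by positivity)]
    refine ENNReal.ofReal_le_ofReal (le_trans a2 (le_trans a3 (le_of_eq ?_)))
    ring
  refine le_trans (lintegral_mono pt) ?_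
  have mP4 : Measurable fun x => ENNReal.ofReal (P x ^ 4) := (mP.pow_const 4).ennreal_ofReal
  have mQ4 : Measurable fun x => ENNReal.ofReal (Q x ^ 4) := (mQ.pow_const 4).ennreal_ofReal
  rw [lintegral_add_right _ ((mP4.const_mul _).fun_add ((mQ4.const_mul _).fun_add measurable_const)),
    lintegral_add_left (mP4.const_mul _), lintegral_add_left (mQ4.const_mul _),
    lintegral_const_mul' _ _ ENNReal.ofReal_ne_top, lintegral_const_mul' _ _ ENNReal.ofReal_ne_top,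
    lintegral_const_mul' _ _ ENNReal.ofReal_ne_top, setLIntegral_const, volume_dInt, zpow_natCast]
  refine le_trans (add_le_add (mul_le_mul_right bM _) (add_le_add (mul_le_mul_right bP _)
    (add_le_add (mul_le_mul_right bQ _) le_rfl))) ?_
  rw [← ENNReal.ofReal_mul (by norm_num), ← ENNReal.ofReal_mul (by positivity),
    ← ENNReal.ofReal_mul (by positivity), ← ENNReal.ofReal_mul (by positivity),
    ← ENNReal.ofReal_add (by positivity) (by positivity),
    ← ENNReal.ofReal_add (by positivity) (by positivity),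
    ← ENNReal.ofReal_add (by positivity) (by positivity)]
  refine ENNReal.ofReal_le_ofReal ?_
  have e : 64 * ((CB * (CC * (2 * 1))) ^ 4 * 2 ^ k0) +
      (64 * (Ab * A) ^ 4 * (24 * (4 * (2 * 2)) ^ 4 * 2 ^ k0) +
        (64 * (Ab * A) ^ 4 * (24 * (102 * (p : ℝ)) ^ 4 * 2 ^ k0) + 64 * (C0 * p) ^ 4 * 2 ^ k0))
      = (K1 + K2 * (p : ℝ) ^ 4) * 2 ^ k0 := by
    rw [hK1, hK2]
    ring
  rw [e]
  refine mul_le_mul_of_nonneg_right ?_ (by positivity)
  have hp0 : (0 : ℝ) ≤ p := Nat.cast_nonneg p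
  have q1 : (1 : ℝ) ≤ (p + 1) ^ 4 := one_le_pow₀ (by linarith)
  have q2 : (p : ℝ) ^ 4 ≤ (p + 1) ^ 4 := pow_le_pow_left₀ hp0 (by linarith) 4
  have q3 : ((p : ℝ) + 1) ^ 4 ≤ (((p : ℝ) + 1) ^ 2) ^ 4 :=
    pow_le_pow_left₀ (by linarith) (by nlinarith) 4
  have q4 : K1 + K2 + 1 ≤ (K1 + K2 + 1) ^ 4 := le_self_pow₀ (by linarith) (by norm_num)
  rw [mul_pow]
  calc K1 + K2 * (p : ℝ) ^ 4 ≤ (K1 + K2 + 1) * (p + 1) ^ 4 := by nlinarith
    _ ≤ (K1 + K2 + 1) ^ 4 * (((p : ℝ) + 1) ^ 2) ^ 4 :=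
      mul_le_mul q4 q3 (by positivity) (by positivity)

end Crest.Agent.R87
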