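import Crest.Agent.R87.Api2

/-! # R87, part L (tree lemma): columns and the core `2^k |u z - s| ≤ 1`. -/

set_option autoImplicit false

namespace Crest.Agent.R87

open MeasureTheory Set
open scoped ENNReal

theorem t4_meas_col (k m : ℤ) (s β h : ℝ) :
    MeasurableSet {z : P2 | dI k z.1 = m ∧ |z.2 - s * z.1 - β| ≤ h} := by
  refine MeasurableSet.inter (s₁ := {z : P2 | dI k z.1 = m}) (s₂ := {z : P2 | |z.2 - s * z.1 - β| ≤ h})
    ?_ ?_
  · exact ((measurable_dI k).comp measurable_fst) (measurableSet_singleton m)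
  · exact measurableSet_le (by fun_prop) measurable_const

/-- volume of a column -/
theorem t4_vol_col (k m : ℤ) (s β h : ℝ) :
    volume {z : P2 | dI k z.1 = m ∧ |z.2 - s * z.1 - β| ≤ h}
      = ENNReal.ofReal (2 * h) * ENNReal.ofReal (2 ^ k) := by
  rw [Measure.volume_eq_prod, Measure.prod_apply (t4_meas_col k m s β h)]
  have : ∀ x : ℝ, volume (Prod.mk x ⁻¹' {z : P2 | dI k z.1 = m ∧ |z.2 - s * z.1 - β| ≤ h})
      = (dInt k m).indicator (fun _ => ENNReal.ofReal (2 * h)) x := by
    intro x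
    by_cases hx : x ∈ dInt k m
    · rw [indicator_of_mem hx]
      have e : Prod.mk x ⁻¹' {z : P2 | dI k z.1 = m ∧ |z.2 - s * z.1 - β| ≤ h}
          = Icc (β + s * x - h) (β + s * x + h) := by
        ext y
        simp only [mem_preimage, Set.mem_ofPred_eq, mem_Icc, mem_dInt.1 hx, true_and, abs_le]
        constructor <;> rintro ⟨h1, h2⟩ <;> constructor <;> linarith
      rw [e, Real.volume_Icc]
      congr 1
      ring
    · rw [indicator_of_notMem hx]
      have e : Prod.mk x ⁻¹' {z : P2 | dI k z.1 = m ∧ |z.2 - s * z.1 - β| ≤ h} = ∅ := by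
        ext y
        simp only [mem_preimage, Set.mem_ofPred_eq, mem_empty_iff_false, iff_false, not_and]
        intro h1
        exact absurd (mem_dInt.2 h1) hx
      rw [e, measure_empty]
  simp_rw [this]
  rw [lintegral_indicator (measurableSet_dInt k m), setLIntegral_const, volume_dInt]

theorem t4_lineDens (u : P2 → ℝ) (G : Set P2) (S : ℕ → Set P2) (s β h ρ : ℝ) (hh : 0 ≤ h) (k0 : ℕ) :
    LineDens u G S s β h ρ (2 * h) k0 := by
  intro k _ m _
  refine le_trans (measure_mono (t := {z : P2 | dI k z.1 = m ∧ |z.2 - s * z.1 - β| ≤ h}) ?_) ?_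
  · intro z hz
    exact ⟨hz.2.1, hz.2.2.1⟩
  · rw [t4_vol_col, ← ENNReal.ofReal_mul (by positivity), zpow_natCast]

/-- the small multiples `2^k d ≤ 1` add up to at most `2`. -/
theorem t4_geo (d : ℝ) (hd : 0 ≤ d) (n : ℕ) :
    ∑ k ∈ Finset.range n, (if 2 ^ k * d ≤ 1 then 2 ^ k * d else 0) ≤ 2 := by
  have key : ∀ n : ℕ, ∑ k ∈ Finset.range n, (if 2 ^ k * d ≤ 1 then 2 ^ k * d else (0 : ℝ))
      ≤ min 2 (2 ^ n * d) := by
    intro n
    induction n with
    | zero => simp [hd]
    | succ n ih =>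
      rw [Finset.sum_range_succ]
      have h1 := le_trans ih (min_le_left _ _)
      have h2 := le_trans ih (min_le_right _ _)
      have h3 : (0 : ℝ) ≤ 2 ^ n * d := by positivity
      split_ifs with h
      · refine le_min (by linarith) ?_
        rw [pow_succ]; linarith
      · refine le_min (by linarith) ?_
        rw [pow_succ]; linarith
  exact le_trans (key n) (min_le_left _ _)

/-- the core set of scale `k` -/
def t4N (u : P2 → ℝ) (s : ℝ) (k : ℕ) : Set P2 := {z | 2 ^ k * |u z - s| ≤ 1}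

theorem t4N_meas {u : P2 → ℝ} (hu : Measurable u) (s : ℝ) (k : ℕ) : MeasurableSet (t4N u s k) :=
  measurableSet_le (by fun_prop) measurable_const

theorem t4N_down (u : P2 → ℝ) (s : ℝ) (k k' : ℕ) (z : P2) (h : k' ≤ k) (hz : z ∈ t4N u s k) :
    z ∈ t4N u s k' := by
  have h1 : (2 : ℝ) ^ k' ≤ 2 ^ k := pow_le_pow_right₀ (by norm_num) h
  exact le_trans (mul_le_mul_of_nonneg_right h1 (abs_nonneg _)) hz

/-- the weight of the error term -/
noncomputable def t4w (u : P2 → ℝ) (s : ℝ) (S : ℕ → Set P2) (k : ℕ) : P2 → ℝ :=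
  (S k ∩ t4N u s k).indicator (fun z => 2 ^ k * |u z - s|)

theorem t4w_meas {u : P2 → ℝ} (hu : Measurable u) (s : ℝ) {S : ℕ → Set P2}
    (hS : ∀ k, MeasurableSet (S k)) (k : ℕ) : Measurable (t4w u s S k) :=
  Measurable.indicator (by fun_prop) ((hS k).inter (t4N_meas hu s k))

theorem t4w_nonneg (u : P2 → ℝ) (s : ℝ) (S : ℕ → Set P2) (k : ℕ) (z : P2) : 0 ≤ t4w u s S k z :=
  indicator_nonneg (fun _ _ => by positivity) z

theorem t4w_le_one (u : P2 → ℝ) (s : ℝ) (S : ℕ → Set P2) (k : ℕ) (z : P2) : t4w u s S k z ≤ 1 := by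
  unfold t4w
  by_cases h : z ∈ S k ∩ t4N u s k
  · rw [indicator_of_mem h]; exact h.2
  · rw [indicator_of_notMem h]; norm_num

theorem t4w_sum (u : P2 → ℝ) (s : ℝ) (S : ℕ → Set P2) (n : ℕ) (z : P2) :
    ∑ k ∈ Finset.range n, t4w u s S k z ≤ 2 := by
  refine le_trans (Finset.sum_le_sum fun k _ => ?_) (t4_geo |u z - s| (abs_nonneg _) n)
  unfold t4w
  by_cases h : z ∈ S k ∩ t4N u s k
  · rw [indicator_of_mem h, if_pos (show 2 ^ k * |u z - s| ≤ 1 from h.2)]
  · rw [indicator_of_notMem h]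
    split_ifs
    · positivity
    · exact le_rfl

theorem t4_pcoef_nonneg {w : ℕ → P2 → ℝ} (hw : ∀ k z, 0 ≤ w k z) (s β h : ℝ) (k : ℕ) (m : ℤ) :
    0 ≤ pcoef w s β h k m :=
  mul_nonneg (by positivity) (integral_nonneg fun z => hw k z)

/-- `Phi1` as an integral over one dyadic column, with the bump pulled out. -/
theorem t4_Phi1_eq {b ψ : ℝ → ℝ} (hb : IsB b) {u : P2 → ℝ} (k : ℕ) {A : Set P2}
    (hA : MeasurableSet A) (g : P2 → ℝ) (z' : P2) :
    Phi1 b ψ u k A g z' = b ((z'.1 - cen k z'.1) / 2 ^ k) * (((2 : ℝ) ^ k)⁻¹ *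
      ∫ z in A ∩ {z : P2 | dI k z.1 = dI k z'.1},
        g z * haar k z.1 * ψ (z'.2 - z.2 + (z.1 - z'.1) * u z)) := by
  have hm : MeasurableSet {z : P2 | dI k z.1 = dI k z'.1} :=
    ((measurable_dI k).comp measurable_fst) (measurableSet_singleton _)
  unfold Phi1
  rw [← integral_const_mul, ← integral_const_mul, ← setIntegral_indicator hm]
  refine setIntegral_congr_fun hA fun z _ => ?_
  by_cases h : z ∈ {z : P2 | dI k z.1 = dI k z'.1}
  · rw [indicator_of_mem h]
    have h' : dI k z.1 = dI k z'.1 := h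
    have hc : cen k z.1 = cen k z'.1 := by unfold cen; rw [h']
    simp only [ker, hc]
    ring
  · rw [indicator_of_notMem h]
    have : b ((z'.1 - cen k z.1) / 2 ^ k) = 0 := by
      by_contra hne
      exact h (b_arg_ne_zero hb hne).symm
    simp only [ker, this]
    ring

theorem t4_integrableOn {A : Set P2} (hA : Bornology.IsBounded A) {f : P2 → ℝ} (hf : Measurable f)
    {L : ℝ} (hL : ∀ z, |f z| ≤ L) : IntegrableOn f A :=
  Measure.integrableOn_of_bounded (M := L) hA.measure_lt_top.ne hf.aestronglyMeasurable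
    (Filter.Eventually.of_forall fun z => by simpa using hL z)

/-- the core at one scale: main term plus error. -/
theorem t4_core {b ψ : ℝ → ℝ} (hb : IsB b) (hψ : IsPsi ψ) {Ab A : ℝ} (hAb : ∀ y, |b y| ≤ Ab)
    (hA0 : ∀ y, |ψ y| ≤ A) (hA : ∀ y y', |ψ y - ψ y'| ≤ A * |y - y'|) {u : P2 → ℝ}
    (hu : Measurable u) {G : Set P2} (hG : Bornology.IsBounded G) {S : ℕ → Set P2}
    (hSm : ∀ k, MeasurableSet (S k)) (hSG : ∀ k, S k ⊆ G) {g : P2 → ℝ} (hg : Coef g) (s β : ℝ)
    (k : ℕ) (x : ℝ) :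
    |Phi1 b ψ u k (S k ∩ t4N u s k) g (x, β + s * x)
        - b ((x - cen k x) / 2 ^ k) * alpha ψ (fun k => S k ∩ t4N u s k) g s β k (dI k x)|
      ≤ Ab * A * pcoef (t4w u s S) s β 2 k (dI k x) := by
  have hA1 : 0 ≤ A := le_trans (abs_nonneg _) (hA0 0)
  have hAb1 : 0 ≤ Ab := le_trans (abs_nonneg _) (hAb 0)
  have hψm : Measurable ψ := hψ.smooth.continuous.measurable
  have hN : MeasurableSet (S k ∩ t4N u s k) := (hSm k).inter (t4N_meas hu s k)
  have hm : MeasurableSet {z : P2 | dI k z.1 = dI k x} :=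
    ((measurable_dI k).comp measurable_fst) (measurableSet_singleton _)
  set B : Set P2 := (S k ∩ t4N u s k) ∩ {z : P2 | dI k z.1 = dI k x} with hB
  have hBm : MeasurableSet B := hN.inter hm
  have hBb : Bornology.IsBounded B := hG.subset fun z hz => hSG k hz.1.1
  have hbd : ∀ (z : P2) (t : ℝ), |g z * haar k z.1 * ψ t| ≤ A := by
    intro z t
    rw [abs_mul, abs_mul, abs_haar, mul_one]
    calc |g z| * |ψ t| ≤ 1 * A := mul_le_mul (hg.bdd z) (hA0 t) (abs_nonneg _) zero_le_one
      _ = A := one_mul A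
  have hhm : Measurable fun z : P2 => haar k z.1 := (measurable_haar k).comp measurable_fst
  have hgm := hg.meas
  have i1 : IntegrableOn (fun z : P2 => g z * haar k z.1 * ψ (β + s * x - z.2 + (z.1 - x) * u z)) B :=
    t4_integrableOn hBb ((hgm.mul hhm).mul (hψm.comp (by fun_prop))) fun z => hbd z _
  have i2 : IntegrableOn (fun z : P2 => g z * haar k z.1 * ψ (β - (z.2 - s * z.1))) B :=
    t4_integrableOn hBb ((hgm.mul hhm).mul (hψm.comp (by fun_prop))) fun z => hbd z _
  rw [t4_Phi1_eq hb k hN]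
  unfold alpha pcoef
  simp only
  rw [← hB, ← mul_sub, ← mul_sub, ← integral_sub i1 i2, abs_mul, abs_mul,
    abs_of_pos (by positivity : (0 : ℝ) < ((2 : ℝ) ^ k)⁻¹), mul_assoc Ab]
  refine mul_le_mul (hAb _) ?_ (by positivity) hAb1
  rw [mul_left_comm]
  refine mul_le_mul_of_nonneg_left ?_ (by positivity)
  set Col : Set P2 := {z : P2 | dI k z.1 = dI k x ∧ |z.2 - s * z.1 - β| ≤ 2} with hCol
  have hCm : MeasurableSet Col := t4_meas_col _ _ _ _ _
  have hwi : Integrable (t4w u s S k) := by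
    unfold t4w
    rw [integrable_indicator_iff hN]
    refine Measure.integrableOn_of_bounded (M := 1)
      (hG.subset fun z hz => hSG k hz.1).measure_lt_top.ne (by fun_prop : Measurable _).aestronglyMeasurable ?_
    rw [ae_restrict_iff' hN]
    refine Filter.Eventually.of_forall fun z hz => ?_
    rw [Real.norm_eq_abs, abs_of_nonneg (by positivity)]
    exact hz.2
  have hwc : Integrable (Col.indicator (t4w u s S k)) := hwi.indicator hCm
  rw [← integral_indicator hCm, ← integral_const_mul, ← integral_indicator hBm]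
  refine le_trans (abs_integral_le_integral_abs) ?_
  refine integral_mono ((i1.sub i2).integrable_indicator hBm).abs (hwc.const_mul A) fun z => ?_
  have hw0 : 0 ≤ A * Col.indicator (t4w u s S k) z :=
    mul_nonneg hA1 (indicator_nonneg (fun z _ => t4w_nonneg u s S k z) z)
  by_cases hz : z ∈ B
  · simp only [indicator_of_mem hz]
    have hv : 2 ^ k * |u z - s| ≤ 1 := hz.1.2
    have hx : |z.1 - x| < 2 ^ k := by
      have := abs_sub_lt_of_dI_eq (k := k) (x := z.1) (x' := x) hz.2
      rwa [zpow_natCast] at this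
    have hd : |(z.1 - x) * (u z - s)| ≤ 2 ^ k * |u z - s| := by
      rw [abs_mul]
      exact mul_le_mul_of_nonneg_right hx.le (abs_nonneg _)
    have e : β + s * x - z.2 + (z.1 - x) * u z = β - (z.2 - s * z.1) + (z.1 - x) * (u z - s) := by ring
    rw [← mul_sub, abs_mul, abs_mul, abs_haar, mul_one, e]
    by_cases hc : z ∈ Col
    · rw [indicator_of_mem hc]
      unfold t4w
      rw [indicator_of_mem hz.1]
      calc |g z| * |ψ (β - (z.2 - s * z.1) + (z.1 - x) * (u z - s)) - ψ (β - (z.2 - s * z.1))|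
          ≤ 1 * (A * |β - (z.2 - s * z.1) + (z.1 - x) * (u z - s) - (β - (z.2 - s * z.1))|) :=
            mul_le_mul (hg.bdd z) (hA _ _) (abs_nonneg _) zero_le_one
        _ = A * |(z.1 - x) * (u z - s)| := by rw [one_mul]; congr 2; ring
        _ ≤ A * (2 ^ k * |u z - s|) := mul_le_mul_of_nonneg_left hd hA1
    · have h2 : 2 < |z.2 - s * z.1 - β| := by
        by_contra hle
        exact hc ⟨hz.2, not_lt.1 hle⟩
      have h3 : |z.2 - s * z.1 - β| = |β - (z.2 - s * z.1)| := abs_sub_comm _ _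
      have z1 : ψ (β - (z.2 - s * z.1)) = 0 := hψ.supp _ (by linarith)
      have z2 : ψ (β - (z.2 - s * z.1) + (z.1 - x) * (u z - s)) = 0 := by
        refine hψ.supp _ ?_
        have := abs_sub_abs_le_abs_sub (β - (z.2 - s * z.1)) (-((z.1 - x) * (u z - s)))
        rw [abs_neg, sub_neg_eq_add] at this
        linarith
      rw [z1, z2, sub_zero, abs_zero, mul_zero]
      exact hw0
  · simp only [indicator_of_notMem hz, abs_zero]
    exact hw0

end Crest.Agent.R87
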