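import Crest.Agent.R87.T4a

/-! # R87, part L (tree lemma): the side `1 < 2^k |u z - s| ≤ 2^p`. -/

set_option autoImplicit false

namespace Crest.Agent.R87

open MeasureTheory Set
open scoped ENNReal

/-- the points of the side that can contribute at the point `x0` of the line. -/
def t4T (u : P2 → ℝ) (s β : ℝ) (p k : ℕ) (h x0 : ℝ) : Set P2 :=
  {z | dI k z.1 = dI k x0 ∧ 1 < 2 ^ k * |u z - s| ∧ 2 ^ k * |u z - s| ≤ 2 ^ p ∧
    |β + s * x0 - z.2 + (z.1 - x0) * u z| ≤ h}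

/-- the majorant, frozen on intervals that are `p` generations shorter. -/
noncomputable def t4c (u : P2 → ℝ) (s β : ℝ) (p k0 : ℕ) (k' : ℕ) (m : ℤ) : ℝ :=
  if k' + p ≤ k0 then
    ((2 : ℝ) ^ (k' + p))⁻¹ * (volume (t4T u s β p (k' + p) 2 ((m : ℝ) * 2 ^ k'))).toReal else 0

theorem t4c_nonneg (u : P2 → ℝ) (s β : ℝ) (p k0 k' : ℕ) (m : ℤ) : 0 ≤ t4c u s β p k0 k' m := by
  unfold t4c
  split_ifs
  · positivity
  · exact le_rfl

theorem t4_dI_left (k : ℕ) (m : ℤ) : dI k ((m : ℝ) * 2 ^ k) = m := by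
  unfold dI
  rw [zpow_natCast, mul_div_assoc, div_self (by positivity), mul_one, Int.floor_intCast]

theorem t4T_shift (u : P2 → ℝ) (s β : ℝ) (p k' : ℕ) (h : ℝ) {x0 x1 : ℝ} (e : dI k' x0 = dI k' x1) :
    t4T u s β p (k' + p) h x0 ⊆ t4T u s β p (k' + p) (h + 1) x1 := by
  rintro z ⟨h1, h2, h3, h4⟩
  have e' : dI ((k' + p : ℕ) : ℤ) x0 = dI ((k' + p : ℕ) : ℤ) x1 :=
    dI_eq_of_le (by push_cast; omega) e
  refine ⟨h1.trans e', h2, h3, ?_⟩
  have hx : |x0 - x1| < 2 ^ k' := by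
    have := abs_sub_lt_of_dI_eq e
    rwa [zpow_natCast] at this
  have h5 : 2 ^ k' * |u z - s| ≤ 1 := by
    rw [pow_add, mul_comm ((2 : ℝ) ^ k'), mul_assoc] at h3
    have hp : (0 : ℝ) < 2 ^ p := by positivity
    nlinarith
  have h6 : |(x0 - x1) * (u z - s)| ≤ 1 := by
    rw [abs_mul]
    exact le_trans (mul_le_mul_of_nonneg_right hx.le (abs_nonneg _)) h5
  have e2 : β + s * x1 - z.2 + (z.1 - x1) * u z
      = (β + s * x0 - z.2 + (z.1 - x0) * u z) + (x0 - x1) * (u z - s) := by ring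
  rw [e2]
  exact le_trans (abs_add_le _ _) (add_le_add h4 h6)

theorem t4T_vol {u : P2 → ℝ} {kmax : ℕ} (hu : Field u kmax) (s β : ℝ) (p : ℕ) {k : ℕ} (hk : k ≤ kmax)
    (h x0 : ℝ) : volume (t4T u s β p k h x0) ≤ ENNReal.ofReal (3 * h * 2 ^ k) := by
  refine le_trans (measure_mono ?_) (hu.bilip2 hk x0 (β + s * x0) h)
  intro z hz
  exact ⟨hz.1, hz.2.2.2⟩

theorem t4T_meas2 {u : P2 → ℝ} (hu : Measurable u) (s β : ℝ) (p k : ℕ) (h : ℝ) :
    MeasurableSet {q : ℝ × P2 | q.2 ∈ t4T u s β p k h q.1} := by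
  have hd := measurable_dI (k : ℤ)
  refine MeasurableSet.inter (s₁ := {q : ℝ × P2 | dI k q.2.1 = dI k q.1}) ?_
    (MeasurableSet.inter (s₁ := {q : ℝ × P2 | 1 < 2 ^ k * |u q.2 - s|}) ?_
    (MeasurableSet.inter (s₁ := {q : ℝ × P2 | 2 ^ k * |u q.2 - s| ≤ 2 ^ p})
      (s₂ := {q : ℝ × P2 | |β + s * q.1 - q.2.2 + (q.2.1 - q.1) * u q.2| ≤ h}) ?_ ?_))
  · exact measurableSet_eq_fun (by fun_prop) (by fun_prop)
  · exact measurableSet_lt measurable_const (by fun_prop)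
  · exact measurableSet_le (by fun_prop) measurable_const
  · exact measurableSet_le (by fun_prop) measurable_const

theorem t4T_meas {u : P2 → ℝ} (hu : Measurable u) (s β : ℝ) (p k : ℕ) (h x0 : ℝ) :
    MeasurableSet (t4T u s β p k h x0) :=
  measurable_prodMk_left (t4T_meas2 hu s β p k h)

theorem t4c_le {u : P2 → ℝ} {kmax : ℕ} (hu : Field u kmax) (s β : ℝ) (p : ℕ) {k0 : ℕ} (hk : k0 ≤ kmax)
    (k' : ℕ) (m : ℤ) : t4c u s β p k0 k' m ≤ 6 := by
  unfold t4c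
  split_ifs with h
  · have h1 := ENNReal.toReal_le_of_le_ofReal (by positivity)
      (t4T_vol hu s β p (h.trans hk) 2 ((m : ℝ) * 2 ^ k'))
    rw [inv_mul_le_iff₀ (by positivity)]
    linarith
  · norm_num

/-- the side at one scale is majorised by `t4c`. -/
theorem t4_side {b ψ : ℝ → ℝ} (hb : IsB b) (hψ : IsPsi ψ) {Ab A : ℝ} (hAb : ∀ y, |b y| ≤ Ab)
    (hA0 : ∀ y, |ψ y| ≤ A) {u : P2 → ℝ} {kmax : ℕ} (hu : Field u kmax) {S : ℕ → Set P2}
    (hSm : ∀ k, MeasurableSet (S k)) {g : P2 → ℝ} (hg : Coef g) (s β : ℝ) (p : ℕ)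
    (hp : ∀ k z, z ∈ S k → 2 ^ k * |u z - s| ≤ 2 ^ p) {k0 : ℕ} (hk0 : k0 ≤ kmax) {k' : ℕ}
    (hk : k' + p ≤ k0) (x : ℝ) :
    |Phi1 b ψ u (k' + p) (S (k' + p) \ t4N u s (k' + p)) g (x, β + s * x)|
      ≤ Ab * A * t4c u s β p k0 k' (dI k' x) := by
  have hA1 : 0 ≤ A := le_trans (abs_nonneg _) (hA0 0)
  have hAb1 : 0 ≤ Ab := le_trans (abs_nonneg _) (hAb 0)
  set k := k' + p with hkdef
  have hN : MeasurableSet (S k \ t4N u s k) := (hSm k).diff (t4N_meas hu.meas s k)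
  have hm : MeasurableSet {z : P2 | dI k z.1 = dI k x} :=
    ((measurable_dI k).comp measurable_fst) (measurableSet_singleton _)
  rw [t4_Phi1_eq hb k hN]
  unfold t4c
  simp only
  rw [if_pos hk, abs_mul, abs_mul, abs_of_pos (by positivity : (0 : ℝ) < ((2 : ℝ) ^ k)⁻¹),
    mul_assoc Ab]
  refine mul_le_mul (hAb _) ?_ (by positivity) hAb1
  rw [mul_left_comm]
  refine mul_le_mul_of_nonneg_left ?_ (by positivity)
  set B : Set P2 := (S k \ t4N u s k) ∩ {z : P2 | dI k z.1 = dI k x} with hB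
  set T2 := t4T u s β p k 2 ((dI k' x : ℝ) * 2 ^ k') with hT2
  have hT2f : volume T2 < ∞ :=
    lt_of_le_of_lt (t4T_vol hu s β p (hk.trans hk0) _ _) ENNReal.ofReal_lt_top
  have hsub : t4T u s β p k 1 x ⊆ T2 := by
    have := t4T_shift u s β p k' 1 (x0 := x) (x1 := (dI k' x : ℝ) * 2 ^ k') (t4_dI_left k' _).symm
    rwa [one_add_one_eq_two] at this
  have hz0 : ∀ z ∈ B \ (B ∩ T2),
      g z * haar k z.1 * ψ (β + s * x - z.2 + (z.1 - x) * u z) = 0 := by
    intro z hz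
    have : ψ (β + s * x - z.2 + (z.1 - x) * u z) = 0 := by
      refine hψ.supp _ (le_of_lt (not_le.1 fun hle => hz.2 ⟨hz.1, hsub ?_⟩))
      exact ⟨hz.1.2, not_le.1 hz.1.1.2, hp k z hz.1.1.1, hle⟩
    rw [this, mul_zero]
  rw [setIntegral_eq_of_subset_of_forall_sdiff_eq_zero (hN.inter hm) inter_subset_left hz0]
  have hfin : volume (B ∩ T2) < ∞ := lt_of_le_of_lt (measure_mono inter_subset_right) hT2f
  have hbd : ∀ z ∈ B ∩ T2, ‖g z * haar k z.1 * ψ (β + s * x - z.2 + (z.1 - x) * u z)‖ ≤ A := by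
    intro z _
    rw [Real.norm_eq_abs, abs_mul, abs_mul, abs_haar, mul_one]
    calc |g z| * |ψ _| ≤ 1 * A := mul_le_mul (hg.bdd z) (hA0 _) (abs_nonneg _) zero_le_one
      _ = A := one_mul A
  refine le_trans (norm_setIntegral_le_of_norm_le_const hfin hbd) ?_
  exact mul_le_mul_of_nonneg_left (ENNReal.toReal_mono hT2f.ne (measure_mono inter_subset_right)) hA1

theorem t4_exists_class {v : ℝ} (h1 : 1 < v) (p : ℕ) (h2 : v ≤ 2 ^ p) :
    ∃ q ∈ Finset.range p, 2 ^ q < v ∧ v ≤ 2 ^ (q + 1) := by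
  induction p with
  | zero => norm_num at h2; linarith
  | succ p ih =>
    by_cases h : v ≤ 2 ^ p
    · obtain ⟨q, hq, h3⟩ := ih h
      exact ⟨q, Finset.mem_range.2 (lt_trans (Finset.mem_range.1 hq) (Nat.lt_succ_self p)), h3⟩
    · exact ⟨p, Finset.mem_range.2 (Nat.lt_succ_self p), not_le.1 h, h2⟩

theorem t4_class_unique {d : ℝ} (hd : 0 ≤ d) {q k k' : ℕ} (h : 2 ^ q < 2 ^ k * d ∧ 2 ^ k * d ≤ 2 ^ (q + 1))
    (h' : 2 ^ q < 2 ^ k' * d ∧ 2 ^ k' * d ≤ 2 ^ (q + 1)) : k = k' := by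
  have key : ∀ {a c : ℕ}, a < c → 2 ^ q < 2 ^ a * d → 2 ^ c * d ≤ 2 ^ (q + 1) → False := by
    intro a c hac h1 h2
    have h3 : (2 : ℝ) ^ (a + 1) ≤ 2 ^ c := pow_le_pow_right₀ (by norm_num) hac
    have h4 := mul_le_mul_of_nonneg_right h3 hd
    rw [pow_succ] at h4 h2
    linarith
  rcases lt_trichotomy k k' with hlt | heq | hgt
  · exact (key hlt h.1 h'.2).elim
  · exact heq
  · exact (key hgt h'.1 h.2).elim

theorem t4_sum_ite_le (K : Finset ℕ) (P : ℕ → Prop) [DecidablePred P] (h : ∀ i j, P i → P j → i = j)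
    (a : ℝ≥0∞) : ∑ i ∈ K, (if P i then a else 0) ≤ a := by
  rw [← Finset.sum_filter, Finset.sum_const]
  have : (K.filter P).card ≤ 1 :=
    Finset.card_le_one.2 fun i hi j hj => h i j (Finset.mem_filter.1 hi).2 (Finset.mem_filter.1 hj).2
  calc (K.filter P).card • a ≤ 1 • a := nsmul_le_nsmul_left (zero_le) this
    _ = a := one_nsmul a

/-- the set of points of the line to which a given term of the side contributes. -/
theorem t4_section (u : P2 → ℝ) (s β : ℝ) (p : ℕ) {k k1 : ℕ} (hk : k ≤ k1) (m : ℤ) (z : P2) :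
    ENNReal.ofReal ((2 : ℝ) ^ k)⁻¹ * volume {x : ℝ | x ∈ dInt k1 m ∧ z ∈ t4T u s β p k 3 x}
      ≤ ∑ q ∈ Finset.range p, if 2 ^ q < 2 ^ k * |u z - s| ∧ 2 ^ k * |u z - s| ≤ 2 ^ (q + 1) then
          {z : P2 | dI k1 z.1 = m ∧ |z.2 - s * z.1 - β| ≤ 8 * 2 ^ q}.indicator
            (fun _ => ENNReal.ofReal (6 / 2 ^ q)) z else 0 := by
  rcases Set.eq_empty_or_nonempty {x : ℝ | x ∈ dInt k1 m ∧ z ∈ t4T u s β p k 3 x} with he | ⟨x, hx, hz⟩
  · rw [he, measure_empty, mul_zero]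
    exact zero_le
  obtain ⟨h1, h2, h3, h4⟩ := hz
  obtain ⟨q, hq, hq1, hq2⟩ := t4_exists_class h2 p h3
  refine le_trans ?_ (Finset.single_le_sum (f := fun q => if 2 ^ q < 2 ^ k * |u z - s| ∧
      2 ^ k * |u z - s| ≤ 2 ^ (q + 1) then
          {z : P2 | dI k1 z.1 = m ∧ |z.2 - s * z.1 - β| ≤ 8 * 2 ^ q}.indicator
            (fun _ => ENNReal.ofReal (6 / 2 ^ q)) z else 0) (fun _ _ => zero_le) hq)
  have hd : u z - s ≠ 0 := by
    intro h0
    rw [h0, abs_zero, mul_zero] at h2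
    linarith
  have hd' : 0 < |u z - s| := abs_pos.2 hd
  have hcol : z ∈ {z : P2 | dI k1 z.1 = m ∧ |z.2 - s * z.1 - β| ≤ 8 * 2 ^ q} := by
    refine ⟨(dI_eq_of_le (by exact_mod_cast hk) h1).trans (mem_dInt.1 hx), ?_⟩
    have hx' : |z.1 - x| < 2 ^ k := by
      have := abs_sub_lt_of_dI_eq h1
      rwa [zpow_natCast] at this
    have h5 : |(z.1 - x) * (u z - s)| ≤ 2 ^ k * |u z - s| := by
      rw [abs_mul]
      exact mul_le_mul_of_nonneg_right hx'.le (abs_nonneg _)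
    have e : z.2 - s * z.1 - β
        = (z.1 - x) * (u z - s) - (β + s * x - z.2 + (z.1 - x) * u z) := by ring
    have h6 : (1 : ℝ) ≤ 2 ^ q := one_le_pow₀ (by norm_num)
    rw [e]
    refine le_trans (abs_sub _ _) ?_
    rw [pow_succ] at hq2
    linarith
  rw [if_pos ⟨hq1, hq2⟩, indicator_of_mem hcol]
  have hsub : {x : ℝ | x ∈ dInt k1 m ∧ z ∈ t4T u s β p k 3 x}
      ⊆ Metric.closedBall (z.1 + (β + s * z.1 - z.2) / (u z - s)) (3 / |u z - s|) := by
    rintro x' ⟨_, _, _, _, h7⟩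
    rw [Metric.mem_closedBall, Real.dist_eq, le_div_iff₀ hd', ← abs_mul]
    have e : (x' - (z.1 + (β + s * z.1 - z.2) / (u z - s))) * (u z - s)
        = -(β + s * x' - z.2 + (z.1 - x') * u z) := by
      field_simp
      ring
    rw [e, abs_neg]
    exact h7
  refine le_trans (mul_le_mul_right (measure_mono hsub) _) ?_
  rw [Real.volume_closedBall, ← ENNReal.ofReal_mul (by positivity)]
  refine ENNReal.ofReal_le_ofReal ?_
  have e : ((2 : ℝ) ^ k)⁻¹ * (2 * (3 / |u z - s|)) = 6 / (2 ^ k * |u z - s|) := by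
    field_simp
    norm_num
  rw [e]
  exact div_le_div_of_nonneg_left (by norm_num) (by positivity) hq1.le

/-- the Carleson bound of the short scales -/
theorem t4_short {u : P2 → ℝ} (hu : Measurable u) (s β : ℝ) (p k1 : ℕ) (m : ℤ) (K : Finset ℕ)
    (hK : ∀ k' ∈ K, k' + p ≤ k1) :
    ∫⁻ x in dInt k1 m, ∑ k' ∈ K, ENNReal.ofReal ((2 : ℝ) ^ (k' + p))⁻¹ *
        volume (t4T u s β p (k' + p) 3 x) ≤ ENNReal.ofReal (96 * p * 2 ^ k1) := by
  have hE : ∀ k : ℕ, MeasurableSet {q : ℝ × P2 | q.1 ∈ dInt k1 m ∧ q.2 ∈ t4T u s β p k 3 q.1} :=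
    fun k => (measurable_fst (measurableSet_dInt k1 m)).inter (t4T_meas2 hu s β p k 3)
  have hmv : ∀ k : ℕ, Measurable fun x => volume (t4T u s β p k 3 x) := fun k =>
    measurable_measure_prodMk_left (ν := volume) (t4T_meas2 hu s β p k 3)
  have hmz : ∀ k : ℕ, Measurable fun z : P2 =>
      volume {x : ℝ | x ∈ dInt k1 m ∧ z ∈ t4T u s β p k 3 x} := fun k =>
    measurable_measure_prodMk_right (μ := volume) (hE k)
  have fub : ∀ k : ℕ, ∫⁻ x in dInt k1 m, volume (t4T u s β p k 3 x)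
      = ∫⁻ z : P2, volume {x : ℝ | x ∈ dInt k1 m ∧ z ∈ t4T u s β p k 3 x} := by
    intro k
    have e1 := Measure.prod_apply (μ := (volume : Measure ℝ)) (ν := (volume : Measure P2)) (hE k)
    have e2 := Measure.prod_apply_symm (μ := (volume : Measure ℝ)) (ν := (volume : Measure P2)) (hE k)
    rw [← lintegral_indicator (measurableSet_dInt k1 m)]
    refine Eq.trans ?_ (e1.symm.trans e2)
    refine lintegral_congr fun x => ?_
    by_cases hx : x ∈ dInt k1 m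
    · rw [indicator_of_mem hx]
      congr 1
      ext z
      simp [hx]
    · rw [indicator_of_notMem hx]
      have : Prod.mk x ⁻¹' {q : ℝ × P2 | q.1 ∈ dInt k1 m ∧ q.2 ∈ t4T u s β p k 3 q.1} = ∅ := by
        ext z
        simp [hx]
      rw [this, measure_empty]
  rw [lintegral_finsetSum _ fun k' _ => (hmv _).const_mul _]
  have e3 : ∀ k' ∈ K, ∫⁻ x in dInt k1 m, ENNReal.ofReal ((2 : ℝ) ^ (k' + p))⁻¹ *
      volume (t4T u s β p (k' + p) 3 x) = ∫⁻ z : P2, ENNReal.ofReal ((2 : ℝ) ^ (k' + p))⁻¹ *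
        volume {x : ℝ | x ∈ dInt k1 m ∧ z ∈ t4T u s β p (k' + p) 3 x} := by
    intro k' _
    rw [lintegral_const_mul _ (hmv _), lintegral_const_mul _ (hmz _), fub]
  rw [Finset.sum_congr rfl e3, ← lintegral_finsetSum _ fun k' _ => (hmz _).const_mul _]
  have pt : ∀ z : P2, ∑ k' ∈ K, ENNReal.ofReal ((2 : ℝ) ^ (k' + p))⁻¹ *
      volume {x : ℝ | x ∈ dInt k1 m ∧ z ∈ t4T u s β p (k' + p) 3 x}
      ≤ ∑ q ∈ Finset.range p, {z : P2 | dI k1 z.1 = m ∧ |z.2 - s * z.1 - β| ≤ 8 * 2 ^ q}.indicator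
            (fun _ => ENNReal.ofReal (6 / 2 ^ q)) z := by
    intro z
    refine le_trans (Finset.sum_le_sum fun k' hk' => t4_section u s β p (hK k' hk') m z) ?_
    rw [Finset.sum_comm]
    refine Finset.sum_le_sum fun q _ => t4_sum_ite_le K _ (fun i j hi hj => ?_) _
    have := t4_class_unique (abs_nonneg _) hi hj
    omega
  refine le_trans (lintegral_mono pt) ?_
  rw [lintegral_finsetSum _ fun q _ => measurable_const.indicator (t4_meas_col _ _ _ _ _)]
  have e4 : ∀ q ∈ Finset.range p,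
      ∫⁻ z, {z : P2 | dI k1 z.1 = m ∧ |z.2 - s * z.1 - β| ≤ 8 * 2 ^ q}.indicator
            (fun _ => ENNReal.ofReal (6 / 2 ^ q)) z = ENNReal.ofReal (96 * 2 ^ k1) := by
    intro q _
    rw [lintegral_indicator (t4_meas_col _ _ _ _ _), setLIntegral_const, t4_vol_col,
      ← ENNReal.ofReal_mul (by positivity), ← ENNReal.ofReal_mul (by positivity), zpow_natCast]
    congr 1
    field_simp
    norm_num
  rw [Finset.sum_congr rfl e4, Finset.sum_const, Finset.card_range, nsmul_eq_mul,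
    ← ENNReal.ofReal_natCast, ← ENNReal.ofReal_mul (by positivity)]
  exact le_of_eq (by congr 1; ring)

/-- the Carleson bound of the majorant of the side -/
theorem t4_car {u : P2 → ℝ} {kmax : ℕ} (hu : Field u kmax) (s β : ℝ) (p : ℕ) {k0 : ℕ} (hk0 : k0 ≤ kmax)
    (k1 : ℕ) (hk1 : k1 ≤ k0) (m : ℤ) :
    ∫⁻ x in dInt k1 m, ENNReal.ofReal (∑ k' ∈ Finset.range (k1 + 1), t4c u s β p k0 k' (dI k' x))
      ≤ ENNReal.ofReal (102 * p * 2 ^ k1) := by
  set K := (Finset.range (k1 + 1)).filter (fun k' => k' + p ≤ k1) with hK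
  have pt : ∀ x : ℝ, ENNReal.ofReal (∑ k' ∈ Finset.range (k1 + 1), t4c u s β p k0 k' (dI k' x))
      ≤ ∑ k' ∈ K, ENNReal.ofReal ((2 : ℝ) ^ (k' + p))⁻¹ * volume (t4T u s β p (k' + p) 3 x)
        + ENNReal.ofReal (6 * p) := by
    intro x
    rw [← Finset.sum_filter_add_sum_filter_not _ (fun k' => k' + p ≤ k1), ← hK]
    refine le_trans ENNReal.ofReal_add_le (add_le_add ?_ (ENNReal.ofReal_le_ofReal ?_))
    · rw [ENNReal.ofReal_sum_of_nonneg fun _ _ => t4c_nonneg _ _ _ _ _ _ _]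
      refine Finset.sum_le_sum fun k' hk' => ?_
      have h1 : k' + p ≤ k0 := le_trans (Finset.mem_filter.1 hk').2 hk1
      unfold t4c
      rw [if_pos h1, ENNReal.ofReal_mul (by positivity)]
      refine mul_le_mul_right (le_trans ENNReal.ofReal_toReal_le (measure_mono ?_)) _
      have := t4T_shift u s β p k' 2 (x0 := (dI k' x : ℝ) * 2 ^ k') (x1 := x) (t4_dI_left k' _)
      rwa [show (2 : ℝ) + 1 = 3 by norm_num] at this
    · refine le_trans (Finset.sum_le_card_nsmul _ _ 6 fun k' _ => t4c_le hu s β p hk0 k' _) ?_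
      have hc : ((Finset.range (k1 + 1)).filter (fun k' => ¬ k' + p ≤ k1)).card ≤ p := by
        refine le_trans (Finset.card_le_card (t := Finset.Ico (k1 + 1 - p) (k1 + 1)) ?_) ?_
        · intro k' hk'
          have h1 := Finset.mem_filter.1 hk'
          have h2 := Finset.mem_range.1 h1.1
          have h3 := h1.2
          exact Finset.mem_Ico.2 ⟨by omega, h2⟩
        · rw [Nat.card_Ico]; omega
      rw [nsmul_eq_mul, mul_comm]
      have : (((Finset.range (k1 + 1)).filter (fun k' => ¬ k' + p ≤ k1)).card : ℝ) ≤ p := by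
        exact_mod_cast hc
      linarith
  refine le_trans (lintegral_mono pt) ?_
  rw [lintegral_add_right _ measurable_const, setLIntegral_const, volume_dInt, zpow_natCast,
    ← ENNReal.ofReal_mul (by positivity)]
  refine le_trans (add_le_add (t4_short hu.meas s β p k1 m K fun k' hk' =>
    (Finset.mem_filter.1 hk').2) le_rfl) ?_
  rw [← ENNReal.ofReal_add (by positivity) (by positivity)]
  exact le_of_eq (by congr 1; ring)

end Crest.Agent.R87
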