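import Crest.Agent.R87.AOne

/-! # R87 part A: the tail estimate -/

set_option autoImplicit false

namespace Crest.Agent.R87

open MeasureTheory Set
open scoped ENNReal

theorem tail (h1 : L2Stmt) (h2 : KerStmt) (h3 : S1Stmt) (h4 : S2Stmt) : TailStmt := by
  obtain ⟨M1, h⟩ := a_one h1 h2 h3 h4
  refine ⟨M1, fun m hm b Ψ hb hΨ CG => ?_⟩
  obtain ⟨C, Q, C0, h⟩ := h m hm b Ψ hb hΨ CG
  obtain ⟨W, hW⟩ : ∃ W : ℝ, W = 2 ^ 402 := ⟨_, rfl⟩
  have W0 : 0 < W := by rw [hW]; exact pow_pos two_pos _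
  have p0 : (0 : ℝ) < 2 ^ (200 * (Q + 6)) := pow_pos two_pos _
  have p1 : 0 ≤ 2 * C * W := by positivity
  refine ⟨2 ^ (200 * (Q + 6)) + 2 * C * W, 200 * (Q + 6), add_pos_of_pos_of_nonneg p0 p1,
    fun kmax u hu G hG hGb j j0 ϑ U T hF g hg τ hτ => ?_⟩
  have γ0 : 0 ≤ (volume G).toReal := ENNReal.toReal_nonneg
  have t1 : (2 : ℝ) ^ (200 * ((Q + 6) * (j + 1))) ≤ τ := by
    refine le_trans ?_ ((mul_le_mul_of_nonneg_right (le_add_of_nonneg_right p1) (pow_pos two_pos _).le).trans hτ)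
    rw [← pow_add]
    exact pow_le_pow_right₀ one_le_two (le_of_eq (by ring))
  have t2 : 1 ≤ τ := (one_le_pow₀ one_le_two).trans t1
  obtain ⟨ι, i1, i2⟩ := exists_nat_pow_near t2 (one_lt_pow₀ (one_lt_two (α := ℝ)) (n := 200) (by norm_num))
  rw [← pow_mul] at i1 i2
  have i3 : (Q + 6) * (j + 1) ≤ ι := by
    have := (pow_lt_pow_iff_right₀ one_lt_two).1 (t1.trans_lt i2)
    omega
  rw [add_mul] at i3
  have i4 : 3 * ϑ < 2 ^ (600 * ι) := by
    refine lt_of_lt_of_le ?_ (pow_le_pow_right₀ one_le_two (show j + 8 ≤ 600 * ι by omega))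
    rw [pow_add]
    linarith [hF.a_rad, pow_pos (two_pos (α := ℝ)) j]
  obtain ⟨TA, TB, e1, e2, fA, fB, ⟨SA, sA⟩, SB, sB⟩ :=
    a_split hu.meas hF (600 * ι) (79 * ι + 3) (2 * ϑ + 1 + (2 ^ ι) ^ 79) i4
  rw [pow_mul'] at i1 i2
  have i5 := div_le_div_of_nonneg_right i1 zero_le_two
  have vA := h kmax u hu G hG hGb j j0 ϑ U TA fA g hg ι (by omega) _ _ sA _ i5
  have vB := h kmax u hu G hG hGb j j0 ϑ U TB fB g hg ι (by omega) _ _ sB _ i5
  have e3 : ∀ z, PhiR b (iteratedDeriv m Ψ) u 0 kmax T g z =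
      PhiR b (iteratedDeriv m Ψ) u 0 kmax TA g z + PhiR b (iteratedDeriv m Ψ) u 0 kmax TB g z := fun z => by
    simp only [PhiR, ← Finset.sum_add_distrib]
    refine Finset.sum_congr rfl fun k _ => ?_
    rw [e1 k]
    exact Phi1_union hb (hΨ.iter m) hu.meas k (hGb.subset (fA.fam.sub k)) (hGb.subset (fB.fam.sub k))
      (fB.fam.meas k) (e2 k) hg z
  refine (measure_mono (t := _ ∪ _) fun z (hz : τ < _) => ?_).trans
    ((measure_union_le _ _).trans ((add_le_add vA vB).trans ?_))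
  · by_contra hc
    simp only [mem_union, mem_ofPred_eq, not_or, not_lt] at hc
    rw [e3] at hz
    linarith [abs_add_le (PhiR b (iteratedDeriv m Ψ) u 0 kmax TA g z) (PhiR b (iteratedDeriv m Ψ) u 0 kmax TB g z),
      hc.1, hc.2]
  have x0 : (0 : ℝ) < 2 ^ ι := pow_pos two_pos _
  have r1 := Real.rpow_le_rpow_of_nonpos (zero_lt_one.trans_le t2) i2.le (z := -(2 + 1 / 100)) (by norm_num)
  rw [← Real.rpow_natCast_mul (pow_pos two_pos _).le, show ((200 : ℕ) : ℝ) * -(2 + 1 / 100) = -((402 : ℕ) : ℝ) by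
    norm_num, Real.rpow_neg (pow_pos two_pos _).le, Real.rpow_natCast, pow_succ 2 ι, mul_pow, ← hW] at r1
  have y0 : (0 : ℝ) < (2 ^ ι) ^ 402 := pow_pos x0 _
  generalize ((2 : ℝ) ^ ι) ^ 402 = y at *
  have n0 : 0 ≤ C * (volume G).toReal / y := div_nonneg (mul_nonneg C0 γ0) y0.le
  rw [← ENNReal.ofReal_add n0 n0]
  refine ENNReal.ofReal_le_ofReal (le_trans (le_of_eq ?_) (mul_le_mul_of_nonneg_right
    (mul_le_mul (le_add_of_nonneg_left p0.le) r1 (inv_pos.2 (mul_pos y0 W0)).le (add_nonneg p0.le p1)) γ0))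
  field_simp
  ring

end Crest.Agent.R87
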