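import Crest.Agent.R87.Defs

/-!
# R87 / W1 : the Bellman function (owner helper39)
-/

set_option autoImplicit false

namespace Crest.Agent.R87.W

/-- the Bellman function on `0 ≤ P ≤ √w` -/
noncomputable def phi (w P : ℝ) : ℝ := 2 * √w + 3 * P - P ^ 2 / √w

theorem exists_r {w P : ℝ} (h0 : 0 ≤ P) (h : P ^ 2 ≤ w) :
    ∃ r : ℝ, 0 ≤ r ∧ r ≤ 1 ∧ P = √w * r ∧ phi w P = √w * (2 + 3 * r - r ^ 2) := by
  have hP : P ≤ √w := Real.le_sqrt_of_sq_le h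
  rcases (Real.sqrt_nonneg w).eq_or_lt with h1 | h1
  · have : P = 0 := le_antisymm (h1 ▸ hP) h0
    refine ⟨0, le_rfl, zero_le_one, by simp [this], ?_⟩
    simp [phi, this, ← h1]
  · refine ⟨P / √w, div_nonneg h0 h1.le, (div_le_one h1).2 hP, by field_simp, ?_⟩
    unfold phi
    field_simp

theorem phi_nonneg {w P : ℝ} (h0 : 0 ≤ P) (h : P ^ 2 ≤ w) : 0 ≤ phi w P := by
  obtain ⟨r, hr0, hr1, -, e⟩ := exists_r h0 h
  rw [e]
  exact mul_nonneg (Real.sqrt_nonneg _) (by nlinarith)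

theorem phi_le {w P : ℝ} (h0 : 0 ≤ P) (h : P ^ 2 ≤ w) : phi w P ≤ 4 * √w := by
  obtain ⟨r, hr0, hr1, -, e⟩ := exists_r h0 h
  rw [e, mul_comm]
  exact mul_le_mul_of_nonneg_right (by nlinarith) (Real.sqrt_nonneg _)

theorem phi_harvest {w w1 P p : ℝ} (h0 : 0 ≤ P) (h : P ^ 2 ≤ w) (hw : w ≤ w1) (hp : 0 ≤ p)
    (h1 : (P + p) ^ 2 ≤ w1) : p + phi w P ≤ phi w1 (P + p) := by
  have hx : √w ≤ √w1 := Real.sqrt_le_sqrt hw
  have hP1 : P + p ≤ √w1 := Real.le_sqrt_of_sq_le h1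
  have hP : P ≤ √w := Real.le_sqrt_of_sq_le h
  have h2 : P ^ 2 / √w1 ≤ P ^ 2 / √w := by
    rcases (Real.sqrt_nonneg w).eq_or_lt with h3 | h3
    · have : P = 0 := le_antisymm (h3 ▸ hP) h0
      simp [this]
    · exact div_le_div_of_nonneg_left (sq_nonneg _) h3 hx
  have h3 : (P + p) ^ 2 / √w1 ≤ P ^ 2 / √w1 + 2 * p := by
    rcases (Real.sqrt_nonneg w1).eq_or_lt with h3 | h3
    · rw [← h3]; simp [hp]
    · rw [div_add' _ _ _ h3.ne', div_le_div_iff_of_pos_right h3]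
      nlinarith
  unfold phi
  linarith

theorem bell_alg {x y r r' S d : ℝ} (hx : 0 ≤ x) (hx' : 0 ≤ x + x * y) (hr0 : 0 ≤ r) (hr1 : r ≤ 1)
    (hr0' : 0 ≤ r') (hr1' : r' ≤ 1) :
    (S + d) ^ 2 * ((x + x * y) * (2 + 3 * r' - r' ^ 2)) ≤ S ^ 2 * (x * (2 + 3 * r - r ^ 2)) +
      2 * S * (x * (2 + 3 * r - r ^ 2)) * d + S ^ 2 * ((2 + r ^ 2) * x * (y + y ^ 2 / 2)) +
      S ^ 2 * (3 - 2 * r) * ((x + x * y) * r' - x * r) + d ^ 2 * (16 * x + 13 * (x + x * y)) := by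
  have hg0 : 0 ≤ 2 + 3 * r - r ^ 2 := by nlinarith
  have hg1 : 2 + 3 * r - r ^ 2 ≤ 4 := by nlinarith
  have hg4 : 0 ≤ 16 - (2 + 3 * r - r ^ 2) ^ 2 := by nlinarith
  have hg4' : 0 ≤ 4 - (2 + 3 * r' - r' ^ 2) := by nlinarith
  have hc : 0 ≤ 9 - (3 - r - r') ^ 2 := by nlinarith
  have b1 := mul_nonneg hx (sq_nonneg (S * y - d * (2 + 3 * r - r ^ 2)))
  have b2 := mul_nonneg (mul_nonneg hx (sq_nonneg d)) hg4
  have b3 := mul_nonneg hx' (sq_nonneg (S * (r' - r) - d * (3 - r - r')))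
  have b4 := mul_nonneg (mul_nonneg hx' (sq_nonneg d)) hc
  have b5 := mul_nonneg (mul_nonneg hx' (sq_nonneg d)) hg4'
  have b6 := mul_nonneg hx (sq_nonneg (S * r * y))
  linear_combination b1 + b2 + b3 + b4 + b5 + b6 / 2

/-- the Bellman inequality -/
theorem bell {w P : ℝ} (hw : 0 < w) (h0 : 0 ≤ P) (h : P ^ 2 ≤ w) : ∃ α β : ℝ,
    ∀ w' P' S d : ℝ, 0 ≤ P' → P' ^ 2 ≤ w' →
      (S + d) ^ 2 * phi w' P' ≤ S ^ 2 * phi w P + 2 * S * phi w P * d + S ^ 2 * α * (w' - w) +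
        S ^ 2 * β * (P' - P) + d ^ 2 * (16 * √w + 13 * √w') := by
  obtain ⟨r, hr0, hr1, eP, e⟩ := exists_r h0 h
  have hx : 0 < √w := Real.sqrt_pos.2 hw
  refine ⟨(2 + r ^ 2) / (2 * √w), 3 - 2 * r, fun w' P' S d h0' h' => ?_⟩
  obtain ⟨r', hr0', hr1', eP', e'⟩ := exists_r h0' h'
  have hx' : 0 ≤ √w' := Real.sqrt_nonneg _
  have ew : w = √w ^ 2 := (Real.sq_sqrt hw.le).symm
  have ew' : w' = √w' ^ 2 := (Real.sq_sqrt ((sq_nonneg _).trans h')).symm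
  rw [e, e', eP, eP']
  generalize √w = x at *
  generalize √w' = x' at *
  subst ew ew'
  obtain ⟨y, rfl⟩ : ∃ y, x' = x + x * y := ⟨(x' - x) / x, by field_simp; ring⟩
  have e1 : (2 + r ^ 2) / (2 * x) * ((x + x * y) ^ 2 - x ^ 2) = (2 + r ^ 2) * x * (y + y ^ 2 / 2) := by
    field_simp
    ring
  rw [mul_assoc (S ^ 2) _ ((x + x * y) ^ 2 - x ^ 2), e1]
  exact bell_alg hx.le hx' hr0 hr1 hr0' hr1'

theorem measurable_phi {α : Type*} [MeasurableSpace α] {w P : α → ℝ} (hw : Measurable w)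
    (hP : Measurable P) : Measurable fun z => phi (w z) (P z) := by
  unfold phi
  fun_prop

end Crest.Agent.R87.W
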