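import Crest.Agent.R87.W1

/-!
# R87 / W2 : bounded measurable functions and averages along a direction (owner helper39)
-/

set_option autoImplicit false
set_option linter.unusedSectionVars false

open MeasureTheory Set
open scoped ENNReal

namespace Crest.Agent.R87.W

/-- bounded measurable -/
structure BM {α : Type*} [MeasurableSpace α] (g : α → ℝ) : Prop where
  meas : Measurable g
  bdd : ∃ L : ℝ, ∀ z, |g z| ≤ L

section BM
variable {α β : Type*} [MeasurableSpace α] [MeasurableSpace β] {f g : α → ℝ}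

theorem BM.const (c : ℝ) : BM fun _ : α => c := ⟨measurable_const, |c|, fun _ => le_rfl⟩

theorem BM.add (hf : BM f) (hg : BM g) : BM fun z => f z + g z := by
  obtain ⟨L, hL⟩ := hf.bdd
  obtain ⟨M, hM⟩ := hg.bdd
  exact ⟨hf.meas.add hg.meas, L + M, fun z => (abs_add_le _ _).trans (add_le_add (hL z) (hM z))⟩

theorem BM.neg (hf : BM f) : BM fun z => -f z := by
  obtain ⟨L, hL⟩ := hf.bdd
  exact ⟨hf.meas.neg, L, fun z => by rw [abs_neg]; exact hL z⟩

theorem BM.sub (hf : BM f) (hg : BM g) : BM fun z => f z - g z := by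
  simpa only [sub_eq_add_neg] using hf.add hg.neg

theorem BM.mul (hf : BM f) (hg : BM g) : BM fun z => f z * g z := by
  obtain ⟨L, hL⟩ := hf.bdd
  obtain ⟨M, hM⟩ := hg.bdd
  refine ⟨hf.meas.mul hg.meas, L * M, fun z => ?_⟩
  rw [abs_mul]
  exact mul_le_mul (hL z) (hM z) (abs_nonneg _) ((abs_nonneg _).trans (hL z))

theorem BM.cmul (hf : BM f) (c : ℝ) : BM fun z => c * f z := (BM.const c).mul hf

theorem BM.sq (hf : BM f) : BM fun z => f z ^ 2 := by
  simpa only [pow_two] using hf.mul hf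

theorem BM.abs (hf : BM f) : BM fun z => |f z| := by
  obtain ⟨L, hL⟩ := hf.bdd
  exact ⟨hf.meas.abs, L, fun z => by rw [abs_abs]; exact hL z⟩

theorem BM.sqrt (hf : BM f) : BM fun z => √(f z) := by
  obtain ⟨L, hL⟩ := hf.bdd
  refine ⟨hf.meas.sqrt, √L, fun z => ?_⟩
  rw [abs_of_nonneg (Real.sqrt_nonneg _)]
  exact Real.sqrt_le_sqrt ((le_abs_self _).trans (hL z))

theorem BM.sum {ι : Type*} (S : Finset ι) {F : ι → α → ℝ} (h : ∀ i ∈ S, BM (F i)) :
    BM fun z => ∑ i ∈ S, F i z := by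
  classical
  induction S using Finset.induction_on with
  | empty => simpa using BM.const 0
  | insert a S ha ih =>
    simp only [Finset.sum_insert ha]
    exact (h a (Finset.mem_insert_self _ _)).add (ih fun i hi => h i (Finset.mem_insert_of_mem hi))

theorem BM.comp (hf : BM f) {φ : β → α} (hφ : Measurable φ) : BM fun z => f (φ z) := by
  obtain ⟨L, hL⟩ := hf.bdd
  exact ⟨hf.meas.comp hφ, L, fun z => hL _⟩

theorem BM.integrable (hf : BM f) (μ : Measure α) [IsFiniteMeasure μ] : Integrable f μ := by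
  obtain ⟨L, hL⟩ := hf.bdd
  exact Integrable.of_bound hf.meas.aestronglyMeasurable L (ae_of_all _ hL)

theorem BM.phi {w P : α → ℝ} (hw : BM w) (hP : BM P) (h0 : ∀ z, 0 ≤ P z) (h : ∀ z, P z ^ 2 ≤ w z) :
    BM fun z => phi (w z) (P z) := by
  obtain ⟨L, hL⟩ := (hw.sqrt.cmul 4).bdd
  refine ⟨measurable_phi hw.meas hP.meas, L, fun z => ?_⟩
  rw [abs_of_nonneg (phi_nonneg (h0 z) (h z))]
  exact (phi_le (h0 z) (h z)).trans ((le_abs_self _).trans (hL z))

theorem BM.integral (μ : Measure β) [IsFiniteMeasure μ] {F : α × β → ℝ} (hF : BM F) :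
    BM fun z => ∫ t, F (z, t) ∂μ := by
  obtain ⟨L, hL⟩ := hF.bdd
  refine ⟨(hF.meas.stronglyMeasurable.integral_prod_right' (ν := μ)).measurable,
    L * μ.real univ, fun z => ?_⟩
  exact norm_integral_le_of_norm_le_const (f := fun t => F (z, t)) (ae_of_all _ fun t => hL (z, t))

theorem sq_integral_le (μ : Measure α) [IsProbabilityMeasure μ] (hf : BM f) :
    (∫ t, f t ∂μ) ^ 2 ≤ ∫ t, f t ^ 2 ∂μ := by
  have h1 : 0 ≤ ∫ t, (f t - ∫ t, f t ∂μ) ^ 2 ∂μ := integral_nonneg fun _ => sq_nonneg _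
  have h2 : ∀ t, (f t - ∫ t, f t ∂μ) ^ 2 =
      f t ^ 2 - (2 * ∫ t, f t ∂μ) * f t + (∫ t, f t ∂μ) ^ 2 := fun t => by ring
  simp only [h2] at h1
  rw [integral_add ((hf.sq.sub (hf.cmul _)).integrable μ) (integrable_const _),
    integral_sub (hf.sq.integrable μ) ((hf.cmul _).integrable μ), integral_const_mul,
    integral_const] at h1
  simp only [probReal_univ, smul_eq_mul, one_mul] at h1
  nlinarith

theorem integral_sqrt_le (μ : Measure α) [IsProbabilityMeasure μ] (hf : BM f) (h0 : ∀ z, 0 ≤ f z) :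
    ∫ t, √(f t) ∂μ ≤ √(∫ t, f t ∂μ) := by
  refine Real.le_sqrt_of_sq_le ((sq_integral_le μ hf.sqrt).trans_eq ?_)
  simp only [Real.sq_sqrt (h0 _)]

end BM

section av
variable {E : Type*} [NormedAddCommGroup E] [NormedSpace ℝ E] [MeasurableSpace E] [BorelSpace E]
  [SecondCountableTopology E]

/-- average along the direction `e` -/
noncomputable def av (κ : Measure ℝ) (e : E) (g : E → ℝ) (z : E) : ℝ := ∫ t, g (z + t • e) ∂κ

variable {κ : Measure ℝ} {e : E} {f g : E → ℝ}

theorem BM.sh (hg : BM g) (z e : E) : BM fun t : ℝ => g (z + t • e) := hg.comp (by fun_prop)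

theorem BM.tr (hg : BM g) (a : E) : BM fun z => g (z + a) := hg.comp (by fun_prop)

theorem BM.av (hg : BM g) (κ : Measure ℝ) [IsFiniteMeasure κ] (e : E) : BM (av κ e g) :=
  BM.integral κ (F := fun p : E × ℝ => g (p.1 + p.2 • e)) (hg.comp (by fun_prop))

theorem av_add [IsFiniteMeasure κ] (hf : BM f) (hg : BM g) (z : E) :
    av κ e (fun z => f z + g z) z = av κ e f z + av κ e g z :=
  integral_add ((hf.sh z e).integrable κ) ((hg.sh z e).integrable κ)

theorem av_sub [IsFiniteMeasure κ] (hf : BM f) (hg : BM g) (z : E) :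
    av κ e (fun z => f z - g z) z = av κ e f z - av κ e g z :=
  integral_sub ((hf.sh z e).integrable κ) ((hg.sh z e).integrable κ)

theorem av_cmul (c : ℝ) (z : E) : av κ e (fun z => c * g z) z = c * av κ e g z :=
  integral_const_mul _ _

theorem av_const [IsProbabilityMeasure κ] (c : ℝ) (z : E) : av κ e (fun _ => c) z = c := by
  simp [av]

theorem av_sum [IsFiniteMeasure κ] {ι : Type*} (S : Finset ι) {F : ι → E → ℝ}
    (h : ∀ i ∈ S, BM (F i)) (z : E) :
    av κ e (fun z => ∑ i ∈ S, F i z) z = ∑ i ∈ S, av κ e (F i) z :=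
  integral_finsetSum S fun i hi => ((h i hi).sh z e).integrable κ

theorem av_nonneg (h : ∀ z, 0 ≤ g z) (z : E) : 0 ≤ av κ e g z := integral_nonneg fun _ => h _

theorem av_mono [IsFiniteMeasure κ] (hf : BM f) (hg : BM g) (h : ∀ z, f z ≤ g z) (z : E) :
    av κ e f z ≤ av κ e g z :=
  integral_mono ((hf.sh z e).integrable κ) ((hg.sh z e).integrable κ) fun _ => h _

theorem av_le [IsProbabilityMeasure κ] (hf : BM f) {B : ℝ} (h : ∀ z, f z ≤ B) (z : E) :
    av κ e f z ≤ B := (av_mono hf (BM.const B) h z).trans_eq (av_const B z)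

theorem av_dirac (hg : BM g) (z : E) : av (Measure.dirac 0) e g z = g z := by
  rw [av, integral_dirac' _ _ (hg.sh z e).meas.stronglyMeasurable]
  simp

theorem av_conv {μ ρ : Measure ℝ} [IsFiniteMeasure μ] [IsFiniteMeasure ρ] (hg : BM g) (z : E) :
    av (μ ∗ ρ) e g z = av μ e (av ρ e g) z := by
  unfold av
  rw [integral_conv ((hg.sh z e).integrable _)]
  simp only [add_smul, add_assoc]

theorem av_comm {μ ρ : Measure ℝ} [IsFiniteMeasure μ] [IsFiniteMeasure ρ] (hg : BM g) (z : E) :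
    av μ e (av ρ e g) z = av ρ e (av μ e g) z := by
  rw [← av_conv hg, ← av_conv hg, Measure.conv_comm]

theorem av_sq_le [IsProbabilityMeasure κ] (hg : BM g) (z : E) :
    av κ e g z ^ 2 ≤ av κ e (fun z => g z ^ 2) z := sq_integral_le κ (hg.sh z e)

theorem av_sqrt_le [IsProbabilityMeasure κ] (hg : BM g) (h0 : ∀ z, 0 ≤ g z) (z : E) :
    av κ e (fun z => √(g z)) z ≤ √(av κ e g z) := integral_sqrt_le κ (hg.sh z e) fun _ => h0 _

theorem abs_av_le (z : E) : |av κ e g z| ≤ av κ e (fun z => |g z|) z := abs_integral_le_integral_abs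

theorem ofReal_av [IsFiniteMeasure κ] (hg : BM g) (h0 : ∀ z, 0 ≤ g z) (z : E) :
    ENNReal.ofReal (av κ e g z) = ∫⁻ t, ENNReal.ofReal (g (z + t • e)) ∂κ :=
  ofReal_integral_eq_lintegral_ofReal ((hg.sh z e).integrable κ) (ae_of_all _ fun _ => h0 _)

variable {ν : Measure E} [SFinite ν] [ν.IsAddRightInvariant]

theorem lintegral_shift [SFinite κ] {Φ : E × ℝ → ℝ≥0∞} (hΦ : Measurable Φ) (e : E) :
    ∫⁻ z, ∫⁻ t, Φ (z, t) ∂κ ∂ν = ∫⁻ z, ∫⁻ t, Φ (z + t • e, -t) ∂(κ.map Neg.neg) ∂ν := by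
  have h1 : ∀ z : E, ∫⁻ t, Φ (z + t • e, -t) ∂(κ.map Neg.neg) = ∫⁻ t, Φ (z + (-t) • e, t) ∂κ :=
    fun z => by
      rw [lintegral_map (f := fun t => Φ (z + t • e, -t)) (hΦ.comp (by fun_prop)) measurable_neg]
      simp only [neg_neg]
  simp only [h1]
  rw [lintegral_lintegral_swap (f := fun z t => Φ (z, t)) hΦ.aemeasurable,
    lintegral_lintegral_swap (f := fun z t => Φ (z + (-t) • e, t))
      (hΦ.comp (by fun_prop)).aemeasurable]
  refine lintegral_congr fun t => ?_
  exact (lintegral_add_right_eq_self (fun z => Φ (z, t)) ((-t) • e)).symm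

theorem lint_av_mul [IsFiniteMeasure κ] (hf : BM f) (hg : BM g) (hf0 : ∀ z, 0 ≤ f z)
    (hg0 : ∀ z, 0 ≤ g z) (e : E) :
    ∫⁻ z, ENNReal.ofReal (av κ e f z * g z) ∂ν =
      ∫⁻ z, ENNReal.ofReal (f z * av (κ.map Neg.neg) e g z) ∂ν := by
  have h1 : ∀ z, ENNReal.ofReal (av κ e f z * g z) =
      ∫⁻ t, ENNReal.ofReal (f (z + t • e) * g z) ∂κ := fun z => by
    rw [← ofReal_integral_eq_lintegral_ofReal (((hf.sh z e).mul (BM.const _)).integrable κ)
      (ae_of_all _ fun _ => mul_nonneg (hf0 _) (hg0 _)), integral_mul_const, av]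
  have h2 : ∀ z, ENNReal.ofReal (f z * av (κ.map Neg.neg) e g z) =
      ∫⁻ t, ENNReal.ofReal (f z * g (z + t • e)) ∂(κ.map Neg.neg) := fun z => by
    rw [← ofReal_integral_eq_lintegral_ofReal (((hg.sh z e).cmul _).integrable _)
      (ae_of_all _ fun _ => mul_nonneg (hf0 _) (hg0 _)), integral_const_mul, av]
  simp only [h1, h2]
  have hm : Measurable fun p : E × ℝ => ENNReal.ofReal (f (p.1 + p.2 • e) * g p.1) :=
    ((hf.meas.comp (by fun_prop)).mul (hg.meas.comp measurable_fst)).ennreal_ofReal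
  rw [lintegral_shift hm e]
  simp only [neg_smul, add_neg_cancel_right]

theorem lint_av [IsProbabilityMeasure κ] (hf : BM f) (hf0 : ∀ z, 0 ≤ f z) (e : E) :
    ∫⁻ z, ENNReal.ofReal (av κ e f z) ∂ν = ∫⁻ z, ENNReal.ofReal (f z) ∂ν := by
  have : IsProbabilityMeasure (κ.map Neg.neg) := Measure.isProbabilityMeasure_map (by fun_prop)
  have := lint_av_mul (ν := ν) (κ := κ) hf (BM.const 1) hf0 (fun _ => zero_le_one) e
  simpa only [mul_one, av_const] using this

end av

end Crest.Agent.R87.W
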