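import Crest.Agent.R87.W2

/-!
# R87 / W3 : the Bellman induction (ROTA) (owner helper39)
-/

set_option autoImplicit false
set_option linter.unusedSectionVars false

open MeasureTheory Set
open scoped ENNReal

namespace Crest.Agent.R87.W

theorem step_pt {ρ : Measure ℝ} [IsProbabilityMeasure ρ] {d w P : ℝ → ℝ} (hd : BM d) (hw : BM w)
    (hP : BM P) (h0 : ∀ t, 0 ≤ P t) (h : ∀ t, P t ^ 2 ≤ w t) (hd0 : ∫ t, d t ∂ρ = 0) {D : ℝ}
    (hD0 : 0 ≤ D) (hD : ∀ᵐ t ∂ρ, d t ^ 2 ≤ D) (S : ℝ) :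
    ∫ t, (S + d t) ^ 2 * phi (w t) (P t) ∂ρ ≤
      S ^ 2 * phi (∫ t, w t ∂ρ) (∫ t, P t ∂ρ) + 29 * (D * √(∫ t, w t ∂ρ)) := by
  have hw0 : ∀ t, 0 ≤ w t := fun t => (sq_nonneg _).trans (h t)
  have hP0 : 0 ≤ ∫ t, P t ∂ρ := integral_nonneg h0
  have hPw : (∫ t, P t ∂ρ) ^ 2 ≤ ∫ t, w t ∂ρ :=
    (sq_integral_le ρ hP).trans (integral_mono (hP.sq.integrable ρ) (hw.integrable ρ) h)
  have hw1 : 0 ≤ ∫ t, w t ∂ρ := integral_nonneg hw0
  rcases hw1.eq_or_lt with h1 | h1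
  · have h2 : w =ᵐ[ρ] 0 := (integral_eq_zero_iff_of_nonneg hw0 (hw.integrable ρ)).1 h1.symm
    refine le_trans (integral_nonpos_of_ae ?_)
      (add_nonneg (mul_nonneg (sq_nonneg _) (phi_nonneg hP0 hPw)) (by positivity))
    filter_upwards [h2] with t ht
    have := phi_le (h0 t) (h t)
    rw [ht, Pi.zero_apply, Real.sqrt_zero, mul_zero] at this
    rw [ht]
    exact mul_nonpos_of_nonneg_of_nonpos (sq_nonneg _) this
  · obtain ⟨α, β, hb⟩ := bell h1 hP0 hPw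
    set w0 := ∫ t, w t ∂ρ with hw0'
    set P0 := ∫ t, P t ∂ρ with hP0'
    have i1 := (hd.cmul (2 * S * phi w0 P0)).integrable ρ
    have i2 := ((hw.sub (BM.const w0)).cmul (S ^ 2 * α)).integrable ρ
    have i3 := ((hP.sub (BM.const P0)).cmul (S ^ 2 * β)).integrable ρ
    have i4 := (((BM.const (16 * √w0)).add (hw.sqrt.cmul 13)).cmul D).integrable ρ
    have i0 : Integrable (fun _ : ℝ => S ^ 2 * phi w0 P0) ρ := integrable_const _
    have h3 : ∫ t, (S + d t) ^ 2 * phi (w t) (P t) ∂ρ ≤ ∫ t, (S ^ 2 * phi w0 P0 +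
        2 * S * phi w0 P0 * d t + S ^ 2 * α * (w t - w0) + S ^ 2 * β * (P t - P0) +
          D * (16 * √w0 + 13 * √(w t))) ∂ρ := by
      refine integral_mono_ae ((((BM.const S).add hd).sq.mul (hw.phi hP h0 h)).integrable ρ)
        ((((i0.add i1).add i2).add i3).add i4) ?_
      filter_upwards [hD] with t ht
      refine (hb _ _ S (d t) (h0 t) (h t)).trans (add_le_add le_rfl ?_)
      exact mul_le_mul_of_nonneg_right ht (by positivity)
    refine h3.trans ?_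
    rw [integral_add (((i0.fun_add i1).fun_add i2).fun_add i3) i4,
      integral_add ((i0.fun_add i1).fun_add i2) i3, integral_add (i0.fun_add i1) i2, integral_add i0 i1]
    simp only [integral_const_mul, hd0]
    rw [integral_sub (hw.integrable ρ) (integrable_const _),
      integral_sub (hP.integrable ρ) (integrable_const _),
      integral_add (integrable_const _) ((hw.sqrt.cmul 13).integrable ρ)]
    simp only [integral_const_mul, integral_const, probReal_univ, smul_eq_mul, one_mul, ← hw0', ← hP0',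
      sub_self, mul_zero, add_zero]
    have h4 := integral_sqrt_le ρ hw hw0
    rw [← hw0'] at h4
    nlinarith

variable {E : Type*} [NormedAddCommGroup E] [NormedSpace ℝ E] [MeasurableSpace E] [BorelSpace E]
  [SecondCountableTopology E] {ν : Measure E} [SFinite ν] [ν.IsAddRightInvariant]

theorem step {ρ : Measure ℝ} [IsProbabilityMeasure ρ] (hρ : ρ.map Neg.neg = ρ) (e : E)
    {S G w P D : E → ℝ} (hS : BM S) (hG : BM G) (hw : BM w) (hP : BM P)
    (h0 : ∀ z, 0 ≤ P z) (h : ∀ z, P z ^ 2 ≤ w z) (hD0 : ∀ z, 0 ≤ D z)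
    (hd : ∀ z, ∀ᵐ t ∂ρ, (G (z + t • e) - av ρ e G z) ^ 2 ≤ D z) :
    ∫⁻ z, ENNReal.ofReal ((av ρ e S z + G z - av ρ e (av ρ e G) z) ^ 2 * phi (w z) (P z)) ∂ν ≤
      ∫⁻ z, ENNReal.ofReal (S z ^ 2 * phi (av ρ e w z) (av ρ e P z)) ∂ν +
        ∫⁻ z, ENNReal.ofReal (29 * (D z * √(av ρ e w z))) ∂ν := by
  have hG' := hG.av ρ e
  have hφ := hw.phi hP h0 h
  have hΦ : BM fun p : E × ℝ =>
      (S (p.1 + p.2 • e) - av ρ e G (p.1 + p.2 • e) + G p.1) ^ 2 * phi (w p.1) (P p.1) :=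
    (((hS.comp (by fun_prop)).sub (hG'.comp (by fun_prop))).add (hG.comp measurable_fst)).sq.mul
      (hφ.comp measurable_fst)
  have h1 : ∀ z, ENNReal.ofReal ((av ρ e S z + G z - av ρ e (av ρ e G) z) ^ 2 * phi (w z) (P z)) ≤
      ∫⁻ t, ENNReal.ofReal ((S (z + t • e) - av ρ e G (z + t • e) + G z) ^ 2 * phi (w z) (P z)) ∂ρ :=
    fun z => by
      have hb := ((hS.sh z e).sub (hG'.sh z e)).add (BM.const (G z))
      rw [← ofReal_integral_eq_lintegral_ofReal ((hb.sq.mul (BM.const _)).integrable ρ)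
        (ae_of_all _ fun _ => mul_nonneg (sq_nonneg _) (phi_nonneg (h0 z) (h z))), integral_mul_const]
      refine ENNReal.ofReal_le_ofReal (mul_le_mul_of_nonneg_right (le_trans (le_of_eq ?_)
        (sq_integral_le ρ hb)) (phi_nonneg (h0 z) (h z)))
      rw [integral_add (((hS.sh z e).sub (hG'.sh z e)).integrable ρ) (integrable_const _),
        integral_sub ((hS.sh z e).integrable ρ) ((hG'.sh z e).integrable ρ)]
      simp only [integral_const, probReal_univ, smul_eq_mul, one_mul, av]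
      ring
  refine (lintegral_mono h1).trans ?_
  rw [lintegral_shift hΦ.meas.ennreal_ofReal e, hρ, ← lintegral_add_left
    (f := fun z => ENNReal.ofReal (S z ^ 2 * phi (av ρ e w z) (av ρ e P z)))
    ((hS.meas.pow_const 2).mul (measurable_phi (hw.av ρ e).meas (hP.av ρ e).meas)).ennreal_ofReal]
  refine lintegral_mono fun z => ?_
  simp only [neg_smul, add_neg_cancel_right]
  have hb := (hG.sh z e).sub (BM.const (av ρ e G z))
  have h2 := step_pt hb (hw.sh z e) (hP.sh z e) (fun _ => h0 _) (fun _ => h _) (ρ := ρ)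
    (by
      rw [integral_sub ((hG.sh z e).integrable ρ) (integrable_const _)]
      simp [av]) (hD0 z) (hd z) (S z)
  have e1 : ∀ t : ℝ, S z - av ρ e G z + G (z + t • e) = S z + (G (z + t • e) - av ρ e G z) :=
    fun t => by ring
  simp only [e1]
  rw [← ofReal_integral_eq_lintegral_ofReal ((((BM.const _).add hb).sq.mul (hφ.sh z e)).integrable ρ)
    (ae_of_all _ fun _ => mul_nonneg (sq_nonneg _) (phi_nonneg (h0 _) (h _)))]
  exact (ENNReal.ofReal_le_ofReal h2).trans ENNReal.ofReal_add_le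

theorem av_dom {μ : Measure ℝ} [IsProbabilityMeasure μ] (e : E) {w P : E → ℝ} (hw : BM w) (hP : BM P)
    (h : ∀ z, P z ^ 2 ≤ w z) (z : E) : av μ e P z ^ 2 ≤ av μ e w z :=
  (av_sq_le hP z).trans (av_mono hP.sq hw h z)

theorem harvest {μ : Measure ℝ} [IsProbabilityMeasure μ] (hμ : μ.map Neg.neg = μ) (e : E)
    {Y w P w1 P1 : E → ℝ} (hY : BM Y) (hw : BM w) (hP : BM P) (hw1 : BM w1) (hP1 : BM P1)
    (h0 : ∀ z, 0 ≤ P z) (h : ∀ z, P z ^ 2 ≤ w z) (h1 : ∀ z, P1 z ^ 2 ≤ w1 z)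
    (hPm : ∀ z, P z ≤ P1 z) (hwm : ∀ z, w z ≤ w1 z) :
    ∫⁻ z, ENNReal.ofReal (av μ e Y z ^ 2 * (P1 z - P z)) ∂ν +
      ∫⁻ z, ENNReal.ofReal (Y z ^ 2 * phi (av μ e w z) (av μ e P z)) ∂ν ≤
      ∫⁻ z, ENNReal.ofReal (Y z ^ 2 * phi (av μ e w1 z) (av μ e P1 z)) ∂ν := by
  have hq := hP1.sub hP
  have hq0 : ∀ z, 0 ≤ P1 z - P z := fun z => sub_nonneg.2 (hPm z)
  have h2 : ∫⁻ z, ENNReal.ofReal (av μ e Y z ^ 2 * (P1 z - P z)) ∂ν ≤
      ∫⁻ z, ENNReal.ofReal (Y z ^ 2 * av μ e (fun z => P1 z - P z) z) ∂ν := by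
    have := lint_av_mul (ν := ν) (κ := μ) hY.sq hq (fun _ => sq_nonneg _) hq0 e
    rw [hμ] at this
    rw [← this]
    exact lintegral_mono fun z => ENNReal.ofReal_le_ofReal
      (mul_le_mul_of_nonneg_right (av_sq_le hY z) (hq0 z))
  refine (add_le_add h2 le_rfl).trans ?_
  rw [← lintegral_add_left (hY.sq.mul (hq.av μ e)).meas.ennreal_ofReal]
  refine lintegral_mono fun z => ?_
  have a0 := av_nonneg (κ := μ) (e := e) h0 z
  have a1 := av_dom (μ := μ) e hw hP h z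
  have a2 := av_nonneg (κ := μ) (e := e) hq0 z
  have a3 : av μ e P z + av μ e (fun z => P1 z - P z) z = av μ e P1 z := by
    rw [av_sub hP1 hP]; ring
  have a4 := phi_harvest a0 a1 (av_mono hw hw1 hwm z) a2 (by rw [a3]; exact av_dom e hw1 hP1 h1 z)
  rw [a3] at a4
  rw [← ENNReal.ofReal_add (mul_nonneg (sq_nonneg _) a2) (mul_nonneg (sq_nonneg _) (phi_nonneg a0 a1)),
    ← mul_add]
  exact ENNReal.ofReal_le_ofReal (mul_le_mul_of_nonneg_left a4 (sq_nonneg _))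

/-- **ROTA** -/
theorem rota (n : ℕ) {μ ρ : ℕ → Measure ℝ} [∀ c, IsProbabilityMeasure (μ c)]
    [∀ c, IsProbabilityMeasure (ρ c)] (hμ : ∀ c, μ (c + 1) = μ c ∗ ρ c)
    (sμ : ∀ c, (μ c).map Neg.neg = μ c) (sρ : ∀ c, (ρ c).map Neg.neg = ρ c) (e : E)
    {G D W Q : ℕ → E → ℝ} (hG : ∀ c, BM (G c)) (hW : ∀ c, BM (W c)) (hQ : ∀ c, BM (Q c))
    (hQ0 : ∀ c z, 0 ≤ Q c z) (hQW : ∀ c z, Q c z ^ 2 ≤ W c z) (hQm : ∀ c z, Q c z ≤ Q (c + 1) z)
    (hWm : ∀ c z, W c z ≤ W (c + 1) z) (hD0 : ∀ c z, 0 ≤ D c z)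
    (hd : ∀ c z, ∀ᵐ t ∂ρ c, (G c (z + t • e) - av (ρ c) e (G c) z) ^ 2 ≤ D c z) :
    ∑ c ∈ Finset.range n, ∫⁻ z, ENNReal.ofReal ((∑ c' ∈ Finset.Ico c n,
        (av (μ c') e (G c') z - av (μ (c' + 1)) e (av (ρ c') e (G c')) z)) ^ 2 *
          (Q (c + 1) z - Q c z)) ∂ν ≤
      ∑ c ∈ Finset.range n,
        ∫⁻ z, ENNReal.ofReal (29 * (D c z * √(av (μ (c + 1)) e (W (c + 1)) z))) ∂ν := by
  have key : ∀ k c, c + k = n → ∃ Y : E → ℝ, BM Y ∧ (∀ z, av (μ c) e Y z = ∑ c' ∈ Finset.Ico c n,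
      (av (μ c') e (G c') z - av (μ (c' + 1)) e (av (ρ c') e (G c')) z)) ∧
      ∑ c ∈ Finset.Ico c n, ∫⁻ z, ENNReal.ofReal ((∑ c' ∈ Finset.Ico c n,
        (av (μ c') e (G c') z - av (μ (c' + 1)) e (av (ρ c') e (G c')) z)) ^ 2 *
          (Q (c + 1) z - Q c z)) ∂ν +
        ∫⁻ z, ENNReal.ofReal (Y z ^ 2 * phi (av (μ c) e (W c) z) (av (μ c) e (Q c) z)) ∂ν ≤
      ∑ c ∈ Finset.Ico c n,
        ∫⁻ z, ENNReal.ofReal (29 * (D c z * √(av (μ (c + 1)) e (W (c + 1)) z))) ∂ν := by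
    intro k
    induction k with
    | zero =>
      intro c hc
      obtain rfl : c = n := hc
      exact ⟨fun _ => 0, BM.const 0, fun z => by simp [av], by simp⟩
    | succ k ih =>
      intro c hc
      obtain ⟨Y, hY, hY1, hY2⟩ := ih (c + 1) (by omega)
      have hcn : c < n := by omega
      have hG1 := (hG c).av (ρ c) e
      have hY' : BM fun z => av (ρ c) e Y z + G c z - av (ρ c) e (av (ρ c) e (G c)) z :=
        ((hY.av _ e).add (hG c)).sub (hG1.av _ e)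
      have hY3 : ∀ z, av (μ c) e
          (fun z => av (ρ c) e Y z + G c z - av (ρ c) e (av (ρ c) e (G c)) z) z =
          ∑ c' ∈ Finset.Ico c n,
            (av (μ c') e (G c') z - av (μ (c' + 1)) e (av (ρ c') e (G c')) z) := fun z => by
        rw [av_sub ((hY.av _ e).add (hG c)) (hG1.av _ e), av_add (hY.av _ e) (hG c), ← av_conv hY,
          ← av_conv hG1, ← hμ, hY1, Finset.sum_eq_sum_Ico_succ_bot hcn]
        ring
      refine ⟨_, hY', hY3, ?_⟩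
      have h1 := harvest (ν := ν) (sμ c) e hY' (hW c) (hQ c) (hW (c + 1)) (hQ (c + 1)) (hQ0 c) (hQW c)
        (hQW (c + 1)) (hQm c) (hWm c)
      have h2 := step (ν := ν) (sρ c) e hY (hG c) ((hW (c + 1)).av (μ c) e) ((hQ (c + 1)).av (μ c) e)
        (av_nonneg (hQ0 (c + 1))) (av_dom e (hW _) (hQ _) (hQW _)) (hD0 c) (hd c)
      have e1 : ∀ {g : E → ℝ}, BM g → ∀ z, av (ρ c) e (av (μ c) e g) z = av (μ (c + 1)) e g z :=
        fun hg z => by rw [av_comm hg, ← av_conv hg, hμ]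
      simp only [e1 (hW _), e1 (hQ _)] at h2
      simp only [hY3] at h1
      rw [Finset.sum_eq_sum_Ico_succ_bot hcn, Finset.sum_eq_sum_Ico_succ_bot hcn
        (f := fun c => ∫⁻ z, ENNReal.ofReal (29 * (D c z * √(av (μ (c + 1)) e (W (c + 1)) z))) ∂ν)]
      calc _ = _ + (_ + _) := by rw [add_comm (∫⁻ z, _ ∂ν), add_assoc]
        _ ≤ _ + (_ + _) := add_le_add le_rfl (h1.trans h2)
        _ ≤ _ := by rw [← add_assoc, add_comm]; exact add_le_add le_rfl hY2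
  obtain ⟨Y, -, -, h⟩ := key n 0 (zero_add n)
  simp only [Finset.range_eq_Ico]
  exact le_self_add.trans h

end Crest.Agent.R87.W
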