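import Crest.Agent.R87.W2

/-!
# R87 / W4 : uniform measures, their convolutions, kernels (owner helper39)
-/

set_option autoImplicit false
set_option linter.unusedSectionVars false

open MeasureTheory Set
open scoped ENNReal

namespace Crest.Agent.R87.W

/-- supported in `[-r, r]` -/
def Sp (κ : Measure ℝ) (r : ℝ) : Prop := ∀ᵐ t ∂κ, |t| ≤ r

theorem Sp.mono {κ : Measure ℝ} {r r' : ℝ} (h : Sp κ r) (hr : r ≤ r') : Sp κ r' :=
  Filter.Eventually.mono h fun _ ht => ht.trans hr

theorem sp_meas (r : ℝ) : MeasurableSet {t : ℝ | |t| ≤ r} :=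
  measurableSet_le measurable_id.abs measurable_const

theorem Sp.conv {μ ρ : Measure ℝ} [SFinite μ] [SFinite ρ] {r r' : ℝ} (h : Sp μ r) (h' : Sp ρ r') :
    Sp (μ ∗ ρ) (r + r') := by
  unfold Sp Measure.conv
  rw [ae_map_iff (by fun_prop) (sp_meas _)]
  filter_upwards [Measure.quasiMeasurePreserving_fst.ae h, Measure.quasiMeasurePreserving_snd.ae h']
    with p h1 h2
  exact (abs_add_le _ _).trans (add_le_add h1 h2)

theorem Sp.neg {μ : Measure ℝ} {r : ℝ} (h : Sp μ r) : Sp (μ.map Neg.neg) r := by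
  unfold Sp
  rw [ae_map_iff (by fun_prop) (sp_meas _)]
  simp only [abs_neg]
  exact h

theorem sp_dirac {r : ℝ} (hr : 0 ≤ r) : Sp (Measure.dirac 0) r := by
  unfold Sp
  rw [ae_dirac_iff (sp_meas _)]
  simpa using hr

theorem conv_symm {μ ρ : Measure ℝ} [SFinite μ] [SFinite ρ] (h : μ.map Neg.neg = μ)
    (h' : ρ.map Neg.neg = ρ) : (μ ∗ ρ).map Neg.neg = μ ∗ ρ := by
  have := Measure.map_conv_addMonoidHom (μ := μ) (ν := ρ) (negAddMonoidHom : ℝ →+ ℝ) measurable_neg
  simpa only [negAddMonoidHom, AddMonoidHom.coe_mk, ZeroHom.coe_mk, h, h'] using this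

theorem dirac_symm : (Measure.dirac (0 : ℝ)).map Neg.neg = Measure.dirac 0 := by
  rw [Measure.map_dirac' measurable_neg, neg_zero]

/-- the uniform measure on `[-h, h]` -/
noncomputable def unif (h : ℝ) : Measure ℝ :=
  if 0 < h then (ENNReal.ofReal (2 * h))⁻¹ • volume.restrict (Icc (-h) h) else Measure.dirac 0

instance (h : ℝ) : IsProbabilityMeasure (unif h) := by
  unfold unif
  split_ifs with h0
  · refine ⟨?_⟩
    rw [Measure.smul_apply, Measure.restrict_apply_univ, Real.volume_Icc, smul_eq_mul,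
      show h - -h = 2 * h by ring]
    exact ENNReal.inv_mul_cancel (by simpa using h0) ENNReal.ofReal_ne_top
  · infer_instance

theorem unif_zero : unif 0 = Measure.dirac 0 := if_neg (lt_irrefl _)

theorem unif_symm (h : ℝ) : (unif h).map Neg.neg = unif h := by
  unfold unif
  split_ifs with h0
  · rw [Measure.map_smul]
    congr 1
    have := (Measure.measurePreserving_neg (volume : Measure ℝ)).restrict_preimage
      (s := Icc (-h) h) measurableSet_Icc
    have e : Neg.neg ⁻¹' Icc (-h) h = Icc (-h) h := by simp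
    rw [e] at this
    exact this.map_eq
  · exact dirac_symm

theorem sp_unif {h : ℝ} (h0 : 0 ≤ h) : Sp (unif h) h := by
  unfold unif
  split_ifs with h1
  · exact Measure.ae_smul_measure ((ae_restrict_mem measurableSet_Icc).mono fun t ht => abs_le.2 ⟨ht.1, ht.2⟩) _
  · exact sp_dirac h0

theorem integral_unif {h : ℝ} (h0 : 0 ≤ h) (g : ℝ → ℝ) :
    2 * h * ∫ t, g t ∂unif h = ∫ t in (-h)..h, g t := by
  rcases h0.eq_or_lt with rfl | h1
  · simp
  · rw [unif, if_pos h1, integral_smul_measure, ENNReal.toReal_inv,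
      ENNReal.toReal_ofReal (by linarith), intervalIntegral.integral_of_le (by linarith),
      integral_Icc_eq_integral_Ioc, smul_eq_mul, ← mul_assoc, mul_inv_cancel₀ (by linarith), one_mul]

/-- the chain of convolutions -/
noncomputable def mu (h : ℕ → ℝ) : ℕ → Measure ℝ
  | 0 => Measure.dirac 0
  | m + 1 => mu h m ∗ unif (h m)

instance mu_prob (h : ℕ → ℝ) : ∀ m, IsProbabilityMeasure (mu h m)
  | 0 => by unfold mu; infer_instance
  | m + 1 => by have := mu_prob h m; unfold mu; infer_instance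

theorem mu_succ (h : ℕ → ℝ) (m : ℕ) : mu h (m + 1) = mu h m ∗ unif (h m) := rfl

theorem mu_symm (h : ℕ → ℝ) : ∀ m, (mu h m).map Neg.neg = mu h m
  | 0 => dirac_symm
  | m + 1 => conv_symm (mu_symm h m) (unif_symm _)

theorem sp_mu {h : ℕ → ℝ} (h0 : ∀ m, 0 ≤ h m) (h1 : ∀ m, 2 * h m ≤ h (m + 1)) :
    ∀ m, Sp (mu h m) (h m)
  | 0 => sp_dirac (h0 0)
  | m + 1 => ((sp_mu h0 h1 m).conv (sp_unif (h0 m))).mono (by linarith [h1 m])

theorem mu_dirac {h : ℕ → ℝ} : ∀ m, (∀ l < m, h l = 0) → mu h m = Measure.dirac 0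
  | 0, _ => rfl
  | m + 1, h0 => by
    rw [mu_succ, mu_dirac m fun l hl => h0 l (by omega), h0 m (by omega), unif_zero,
      Measure.conv_dirac_zero]

/-! ### kernels -/

theorem av1 (μ : Measure ℝ) (k : ℝ → ℝ) (u : ℝ) : av μ 1 k u = ∫ t, k (u + t) ∂μ := by
  simp only [av, smul_eq_mul, mul_one]

/-- bounded, measurable and integrable -/
structure KI (k : ℝ → ℝ) : Prop where
  bm : BM k
  int : Integrable k

variable {k k' : ℝ → ℝ} {μ : Measure ℝ}

theorem KI.abs (h : KI k) : KI fun u => |k u| := ⟨h.bm.abs, h.int.abs⟩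

theorem KI.sub (h : KI k) (h' : KI k') : KI fun u => k u - k' u := ⟨h.bm.sub h'.bm, h.int.sub h'.int⟩

theorem KI.cmul (h : KI k) (c : ℝ) : KI fun u => c * k u := ⟨h.bm.cmul c, h.int.const_mul c⟩

theorem KI.tr (h : KI k) (a : ℝ) : KI fun u => k (u + a) := ⟨h.bm.tr a, h.int.comp_add_right a⟩

theorem KI.lint (h : KI k) : ∫⁻ u, ENNReal.ofReal |k u| = ENNReal.ofReal (∫ u, |k u|) :=
  (ofReal_integral_eq_lintegral_ofReal h.int.abs (ae_of_all _ fun _ => abs_nonneg _)).symm

theorem KI.lint_av [IsProbabilityMeasure μ] (h : KI k) :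
    ∫⁻ u, ENNReal.ofReal |av μ 1 k u| ≤ ENNReal.ofReal (∫ u, |k u|) := by
  rw [← h.lint, ← W.lint_av (κ := μ) h.bm.abs (fun _ => abs_nonneg _) 1]
  exact lintegral_mono fun u => ENNReal.ofReal_le_ofReal (abs_av_le u)

theorem KI.av (h : KI k) (μ : Measure ℝ) [IsProbabilityMeasure μ] : KI (av μ 1 k) := by
  refine ⟨h.bm.av μ 1, (h.bm.av μ 1).meas.aestronglyMeasurable, ?_⟩
  rw [hasFiniteIntegral_iff_norm]
  exact h.lint_av.trans_lt ENNReal.ofReal_lt_top

theorem KI.norm_av (h : KI k) (μ : Measure ℝ) [IsProbabilityMeasure μ] :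
    ∫ u, |W.av μ 1 k u| ≤ ∫ u, |k u| := by
  have := h.lint_av (μ := μ)
  rwa [(h.av μ).lint, ENNReal.ofReal_le_ofReal_iff (integral_nonneg fun _ => abs_nonneg _)] at this

theorem av_supp {r r' : ℝ} (hk : ∀ u, r < |u| → k u = 0) (hμ : Sp μ r') (u : ℝ) (hu : r + r' < |u|) :
    av μ 1 k u = 0 := by
  rw [av1]
  refine integral_eq_zero_of_ae (Filter.Eventually.mono hμ fun t ht => hk _ ?_)
  have := abs_sub (u + t) t
  rw [add_sub_cancel_right] at this
  linarith

/-- `k'` is the derivative of `k` -/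
def Der (k k' : ℝ → ℝ) : Prop := ∀ x, HasDerivAt k (k' x) x

theorem Der.av [IsProbabilityMeasure μ] (h : Der k k') (hk : BM k) (hk' : BM k') :
    Der (av μ 1 k) (av μ 1 k') := fun x => by
  obtain ⟨L, hL⟩ := hk'.bdd
  have e : W.av μ 1 k = fun x => ∫ t, k (x + t) ∂μ := funext (av1 μ k)
  rw [e, av1]
  have hm : ∀ {k : ℝ → ℝ}, BM k → ∀ x, BM fun t => k (x + t) := fun hk x => hk.comp (by fun_prop)
  refine (hasDerivAt_integral_of_dominated_loc_of_deriv_le (F := fun x t => k (x + t))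
    (F' := fun x t => k' (x + t)) (bound := fun _ => L) Filter.univ_mem
    (Filter.Eventually.of_forall fun x => (hm hk x).meas.aestronglyMeasurable) ((hm hk x).integrable μ)
    (hm hk' x).meas.aestronglyMeasurable (ae_of_all _ fun t y _ => hL _) (integrable_const _)
    (ae_of_all _ fun t y _ => (h (y + t)).comp_add_const y t)).2

theorem Der.ftc (h : Der k k') (hk' : KI k') (u a b : ℝ) :
    ∫ t in a..b, k' (u + t) = k (u + b) - k (u + a) := by
  rw [intervalIntegral.integral_comp_add_left]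
  exact intervalIntegral.integral_eq_sub_of_hasDerivAt (fun x _ => h x) hk'.int.intervalIntegrable

theorem Der.diff_le (h : Der k k') (hk' : KI k') {r t t' : ℝ} (ht : |t| ≤ r) (ht' : |t'| ≤ r) (u : ℝ) :
    |k (u + t) - k (u + t')| ≤ 2 * r * W.av (unif r) 1 (fun x => |k' x|) u := by
  have hr : 0 ≤ r := (abs_nonneg _).trans ht
  rw [av1, integral_unif hr, ← h.ftc hk', intervalIntegral.integral_of_le (by linarith : -r ≤ r)]
  refine (intervalIntegral.norm_integral_le_integral_norm_uIoc (f := fun x => k' (u + x))).trans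
    (setIntegral_mono_set (f := fun x => |k' (u + x)|)
    (hk'.int.comp_add_left u).abs.integrableOn (ae_of_all _ fun _ => abs_nonneg _)
    (LE.le.eventuallyLE ?_))
  exact Ioc_subset_Ioc (le_min (abs_le.1 ht').1 (abs_le.1 ht).1) (max_le (abs_le.1 ht').2 (abs_le.1 ht).2)

/-- symmetric difference quotient -/
noncomputable def dq (h : ℝ) (k : ℝ → ℝ) (u : ℝ) : ℝ := (2 * h)⁻¹ * (k (u + h) - k (u + -h))

theorem KI.dq (hk : KI k) (h : ℝ) : KI (dq h k) := ((hk.tr h).sub (hk.tr (-h))).cmul _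

theorem Der.dq (hd : Der k k') (h : ℝ) : Der (dq h k) (dq h k') := fun x =>
  (((hd (x + h)).comp_add_const x h).sub ((hd (x + -h)).comp_add_const x (-h))).const_mul _

theorem KI.norm_dq (hk : KI k) {h : ℝ} (h0 : 0 < h) : ∫ u, |W.dq h k u| ≤ h⁻¹ * ∫ u, |k u| := by
  have h1 : ∀ u, |W.dq h k u| ≤ (2 * h)⁻¹ * (|k (u + h)| + |k (u + -h)|) := fun u => by
    rw [W.dq, abs_mul, abs_of_pos (by positivity)]
    exact mul_le_mul_of_nonneg_left (abs_sub _ _) (by positivity)
  refine (integral_mono (hk.dq h).int.abs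
    (((hk.tr h).int.abs.fun_add (hk.tr (-h)).int.abs).const_mul _) h1).trans_eq ?_
  rw [integral_const_mul, integral_add (hk.tr h).int.abs (hk.tr (-h)).int.abs,
    integral_add_right_eq_self (fun u => |k u|), integral_add_right_eq_self (fun u => |k u|)]
  field_simp
  ring

theorem Der.av_unif (hd : Der k k') (hk' : KI k') {h : ℝ} (h0 : 0 < h) : W.av (unif h) 1 k' = W.dq h k := by
  funext u
  rw [W.dq, ← hd.ftc hk', ← integral_unif h0.le, av1, ← mul_assoc, inv_mul_cancel₀ (by positivity), one_mul]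

theorem norm_av2 {k0 k1 k2 : ℝ → ℝ} (d1 : Der k0 k1) (d2 : Der k1 k2) (i0 : KI k0) (i1 : KI k1)
    (i2 : KI k2) {h1 h2 : ℝ} (p1 : 0 < h1) (p2 : 0 < h2) :
    ∫ u, |av (unif h1) 1 (av (unif h2) 1 k2) u| ≤ h1⁻¹ * (h2⁻¹ * ∫ u, |k0 u|) := by
  rw [d2.av_unif i2 p2, (d1.dq h2).av_unif (i1.dq h2) p1]
  exact ((i0.dq h2).norm_dq p1).trans (mul_le_mul_of_nonneg_left (i0.norm_dq p2) (by positivity))

theorem norm_av3 {k0 k1 k2 k3 : ℝ → ℝ} (d1 : Der k0 k1) (d2 : Der k1 k2) (d3 : Der k2 k3) (i0 : KI k0)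
    (i1 : KI k1) (i2 : KI k2) (i3 : KI k3) {h1 h2 h3 : ℝ} (p1 : 0 < h1) (p2 : 0 < h2) (p3 : 0 < h3) :
    ∫ u, |av (unif h1) 1 (av (unif h2) 1 (av (unif h3) 1 k3)) u| ≤
      h1⁻¹ * (h2⁻¹ * (h3⁻¹ * ∫ u, |k0 u|)) := by
  rw [d3.av_unif i3 p3]
  refine (norm_av2 (d1.dq h3) (d2.dq h3) (i0.dq h3) (i1.dq h3) (i2.dq h3) p1 p2).trans ?_
  gcongr
  exact i0.norm_dq p3

/-- a kernel of small norm is dominated by a small multiple of a probability measure -/
theorem exists_lam (hk : KI k) (h0 : ∀ u, 0 ≤ k u) {ε r : ℝ} (hε : ∫ u, k u ≤ ε) (hr : 0 ≤ r)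
    (hs : ∀ u, r < |u| → k u = 0) : ∃ l : Measure ℝ, IsProbabilityMeasure l ∧ Sp l r ∧
      ∀ g : ℝ → ℝ, (∀ u, 0 ≤ g u) → ∫ u, k u * g (-u) ≤ ε * ∫ u, g u ∂l := by
  have hM : 0 ≤ ∫ u, k u := integral_nonneg h0
  rcases hM.eq_or_lt with h1 | h1
  · refine ⟨Measure.dirac 0, inferInstance, sp_dirac hr, fun g hg => ?_⟩
    have h2 : k =ᵐ[volume] 0 := (integral_eq_zero_iff_of_nonneg h0 hk.int).1 h1.symm
    rw [integral_eq_zero_of_ae (h2.mono fun u hu => by simp [hu])]
    exact mul_nonneg (hM.trans hε) (integral_nonneg hg)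
  · set M := ∫ u, k u with hM'
    have hm : Measurable fun u => ENNReal.ofReal (M⁻¹ * k (-u)) :=
      ((hk.bm.cmul _).meas.comp measurable_neg).ennreal_ofReal
    have hp : ∀ u, 0 ≤ M⁻¹ * k (-u) := fun u => mul_nonneg (inv_pos.2 h1).le (h0 _)
    refine ⟨volume.withDensity fun u => ENNReal.ofReal (M⁻¹ * k (-u)), ⟨?_⟩, ?_, fun g hg => ?_⟩
    · rw [withDensity_apply _ MeasurableSet.univ, Measure.restrict_univ,
        ← ofReal_integral_eq_lintegral_ofReal (hk.int.comp_neg.const_mul _) (ae_of_all _ hp),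
        integral_const_mul, integral_neg_eq_self k, ← hM', inv_mul_cancel₀ h1.ne', ENNReal.ofReal_one]
    · refine (ae_withDensity_iff hm).2 (ae_of_all _ fun u hu => not_lt.1 fun h => hu ?_)
      rw [hs (-u) (by rwa [abs_neg]), mul_zero, ENNReal.ofReal_zero]
    · rw [integral_withDensity_eq_integral_toReal_smul hm (ae_of_all _ fun _ => ENNReal.ofReal_lt_top)]
      simp only [ENNReal.toReal_ofReal (hp _), smul_eq_mul, mul_assoc, integral_const_mul]
      rw [← integral_neg_eq_self (fun u => k u * g (-u))]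
      simp only [neg_neg]
      have h3 : 0 ≤ ∫ u, k (-u) * g u := integral_nonneg fun u => mul_nonneg (h0 _) (hg _)
      rw [← mul_assoc]
      refine le_mul_of_one_le_left h3 ?_
      rw [← div_eq_mul_inv, one_le_div h1]
      exact hε

section kc
variable {E : Type*} [NormedAddCommGroup E] [NormedSpace ℝ E] [MeasurableSpace E] [BorelSpace E]
  [SecondCountableTopology E] {f : E → ℝ}

/-- convolution with the kernel `k` along `e` -/
noncomputable def kc (k : ℝ → ℝ) (e : E) (f : E → ℝ) (z : E) : ℝ := ∫ u, k u * f (z + (-u) • e)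

theorem kc_int (hk : KI k) (hf : BM f) (e z : E) : Integrable fun u => k u * f (z + (-u) • e) := by
  obtain ⟨L, hL⟩ := hf.bdd
  exact hk.int.mul_bdd (c := L) (hf.meas.comp (by fun_prop)).aestronglyMeasurable (ae_of_all _ fun _ => hL _)

theorem abs_kc_le {k1 : ℝ → ℝ} (hk1 : KI k1) (h : ∀ u, |k u| ≤ k1 u) (hf : BM f) (e z : E) :
    |kc k e f z| ≤ ∫ u, k1 u * |f (z + (-u) • e)| := by
  refine norm_integral_le_of_norm_le (f := fun u => k u * f (z + (-u) • e)) (kc_int hk1 hf.abs e z)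
    (ae_of_all _ fun u => ?_)
  rw [norm_mul]
  exact mul_le_mul_of_nonneg_right (h u) (abs_nonneg _)

theorem BM.kc (hf : BM f) (hk : KI k) (e : E) : BM (kc k e f) := by
  obtain ⟨L, hL⟩ := hf.bdd
  have hm : Measurable fun p : E × ℝ => k p.2 * f (p.1 + (-p.2) • e) :=
    (hk.bm.meas.comp measurable_snd).mul (hf.meas.comp (by fun_prop))
  refine ⟨(hm.stronglyMeasurable.integral_prod_right' (ν := volume)).measurable,
    ∫ u, |k u| * L, fun z => (abs_kc_le hk.abs (fun _ => le_rfl) hf e z).trans ?_⟩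
  exact integral_mono (kc_int hk.abs hf.abs e z) (hk.int.abs.mul_const _)
    fun u => mul_le_mul_of_nonneg_left (hL _) (abs_nonneg _)

theorem kc_shift (e z : E) (t : ℝ) : kc k e f (z + t • e) = kc (fun u => k (u + t)) e f z := by
  unfold kc
  rw [← integral_add_right_eq_self _ t]
  simp only [neg_add_rev, add_smul, neg_smul, add_assoc, add_neg_cancel_left]

theorem kc_sub (hk : KI k) (hk' : KI k') (hf : BM f) (e z : E) :
    kc k e f z - kc k' e f z = kc (fun u => k u - k' u) e f z := by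
  unfold kc
  rw [← integral_sub (kc_int hk hf e z) (kc_int hk' hf e z)]
  simp only [sub_mul]

theorem av_kc [IsProbabilityMeasure μ] (hk : KI k) (hf : BM f) (e z : E) :
    av μ e (kc k e f) z = kc (av μ 1 k) e f z := by
  obtain ⟨L, hL⟩ := hf.bdd
  rw [av]
  simp only [kc_shift]
  unfold kc
  have h1 : Integrable (fun p : ℝ × ℝ => k (p.2 + p.1)) (μ.prod volume) := by
    have hm : Measurable fun p : ℝ × ℝ => k (p.2 + p.1) := hk.bm.meas.comp (by fun_prop)
    rw [integrable_prod_iff hm.aestronglyMeasurable]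
    refine ⟨ae_of_all _ fun t => hk.int.comp_add_right t, ?_⟩
    simp only [integral_add_right_eq_self (fun u => ‖k u‖)]
    exact integrable_const _
  rw [integral_integral_swap (h1.mul_bdd (c := L) (g := fun p => f (z + (-p.2) • e))
    (hf.meas.comp (by fun_prop)).aestronglyMeasurable (ae_of_all _ fun _ => hL _))]
  simp only [integral_mul_const, av1]

end kc

end Crest.Agent.R87.W
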