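import Crest.Agent.R87.W4

/-!
# R87 / W5 : the kernel estimates (owner helper39)
-/

set_option autoImplicit false
set_option linter.unusedSectionVars false

open MeasureTheory Set
open scoped ENNReal

namespace Crest.Agent.R87.W

theorem diff_lam {k0 k1 : ℝ → ℝ} (d : Der k0 k1) (i0 : KI k0) (i1 : KI k1) {r0 r1 h ε : ℝ}
    (hr0 : 0 ≤ r0) (hr1 : 0 ≤ r1) (s1 : ∀ u, r0 < |u| → k1 u = 0) {μ : Measure ℝ}
    [IsProbabilityMeasure μ] (hμ : Sp μ r1) (h0 : 0 ≤ h) (hε : 2 * h * ∫ u, |av μ 1 k1 u| ≤ ε) :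
    ∃ l : Measure ℝ, IsProbabilityMeasure l ∧ Sp l (r0 + r1 + h) ∧ ∀ (e : P2) (f : P2 → ℝ), BM f →
      ∀ z, ∀ᵐ t ∂unif h, (av μ e (kc k0 e f) (z + t • e) - av (unif h) e (av μ e (kc k0 e f)) z) ^ 2 ≤
        ε ^ 2 * av l e (fun z => f z ^ 2) z := by
  have iK := i0.av μ
  have iK1 := i1.av μ
  have dK := d.av (μ := μ) i0.bm i1.bm
  have iS := (iK1.abs.av (unif h)).cmul (2 * h)
  have hS0 : ∀ u, 0 ≤ av (unif h) 1 (fun x => |av μ 1 k1 x|) u := av_nonneg fun _ => abs_nonneg _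
  obtain ⟨l, hl, hsp, hdom⟩ := exists_lam iS (fun u => mul_nonneg (by linarith) (hS0 u)) (ε := ε)
    (r := r0 + r1 + h)
    (by
      rw [integral_const_mul]
      refine le_trans (mul_le_mul_of_nonneg_left ?_ (by linarith)) hε
      have := iK1.abs.norm_av (unif h)
      simpa only [abs_abs, abs_of_nonneg (hS0 _)] using this)
    (by linarith)
    (fun u hu => by
      rw [av_supp (r := r0 + r1) (fun x hx => by rw [av_supp s1 hμ x hx, abs_zero]) (sp_unif h0) u hu,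
        mul_zero])
  refine ⟨l, hl, hsp, fun e f hf z => Filter.Eventually.mono (sp_unif h0) fun t ht => ?_⟩
  have hG : av μ e (kc k0 e f) = kc (av μ 1 k0) e f := funext (av_kc i0 hf e)
  rw [hG]
  have hb := hf.kc iK e
  have h1 : ∀ t' : ℝ, |t'| ≤ h → |kc (av μ 1 k0) e f (z + t • e) - kc (av μ 1 k0) e f (z + t' • e)| ≤
      ε * av l e (fun z => |f z|) z := fun t' ht' => by
    rw [kc_shift, kc_shift, kc_sub (iK.tr t) (iK.tr t') hf]
    exact (abs_kc_le iS (fun u => dK.diff_le iK1 ht ht' u) hf e z).trans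
      (hdom (fun u => |f (z + u • e)|) fun _ => abs_nonneg _)
  have h2 : |kc (av μ 1 k0) e f (z + t • e) - av (unif h) e (kc (av μ 1 k0) e f) z| ≤
      ε * av l e (fun z => |f z|) z := by
    have := norm_integral_le_of_norm_le_const (μ := unif h)
      (f := fun t' : ℝ => kc (av μ 1 k0) e f (z + t • e) - kc (av μ 1 k0) e f (z + t' • e))
      (Filter.Eventually.mono (sp_unif h0) h1)
    rw [integral_sub (integrable_const _) ((hb.sh z e).integrable _)] at this
    simpa [av] using this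
  have h3 := av_sq_le (κ := l) (e := e) hf.abs z
  simp only [sq_abs] at h3
  refine (sq_le_sq' (abs_le.1 h2).1 (abs_le.1 h2).2).trans ?_
  rw [mul_pow]
  exact mul_le_mul_of_nonneg_left h3 (sq_nonneg _)

theorem kc_l2 {k : ℝ → ℝ} (hk : KI k) {ε r : ℝ} (hε : ∫ u, |k u| ≤ ε) (hr : 0 ≤ r)
    (hs : ∀ u, r < |u| → k u = 0) (e : P2) {f : P2 → ℝ} (hf : BM f) :
    ∫⁻ z, ENNReal.ofReal (kc k e f z ^ 2) ≤ ENNReal.ofReal (ε ^ 2) * ∫⁻ z, ENNReal.ofReal (f z ^ 2) := by
  obtain ⟨l, hl, -, hdom⟩ := exists_lam hk.abs (fun _ => abs_nonneg _) hε hr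
    (fun u hu => by rw [hs u hu, abs_zero])
  rw [← lint_av (κ := l) hf.sq (fun _ => sq_nonneg _) e,
    ← lintegral_const_mul' _ _ ENNReal.ofReal_ne_top]
  refine lintegral_mono fun z => ?_
  rw [← ENNReal.ofReal_mul (sq_nonneg _)]
  have h2 : |kc k e f z| ≤ ε * av l e (fun z => |f z|) z :=
    (abs_kc_le hk.abs (fun _ => le_rfl) hf e z).trans
      (hdom (fun u => |f (z + u • e)|) fun _ => abs_nonneg _)
  have h3 := av_sq_le (κ := l) (e := e) hf.abs z
  simp only [sq_abs] at h3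
  refine ENNReal.ofReal_le_ofReal ((sq_le_sq' (abs_le.1 h2).1 (abs_le.1 h2).2).trans ?_)
  rw [mul_pow]
  exact mul_le_mul_of_nonneg_left h3 (sq_nonneg _)

/-- the dilated derivatives of `Y` -/
noncomputable def Gam (Y : ℝ → ℝ) (lam : ℝ) (j : ℕ) (u : ℝ) : ℝ :=
  lam ^ j / lam * iteratedDeriv j Y (lam * u)

variable {Y : ℝ → ℝ} {A R lam : ℝ}

theorem iter_supp (hY : IsY Y A R) (j : ℕ) {t : ℝ} (ht : R < |t|) : iteratedDeriv j Y t = 0 := by
  have : Y =ᶠ[nhds t] fun _ => 0 := by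
    filter_upwards [(isOpen_lt continuous_const continuous_abs).mem_nhds ht] with x hx
    exact hY.supp x (le_of_lt hx)
  rw [this.iteratedDeriv_eq j]
  simp

theorem gam_supp (hY : IsY Y A R) (hl : 0 < lam) (j : ℕ) (u : ℝ) (hu : R / lam < |u|) :
    Gam Y lam j u = 0 := by
  rw [Gam, iter_supp hY j, mul_zero]
  rwa [abs_mul, abs_of_pos hl, mul_comm, ← div_lt_iff₀ hl]

theorem gam_KI (hY : IsY Y A R) (hl : 0 < lam) {j : ℕ} (hj : j ≤ 3) : KI (Gam Y lam j) := by
  have hc : Continuous (Gam Y lam j) := by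
    have := hY.smooth.continuous_iteratedDeriv j (by exact_mod_cast hj)
    unfold Gam
    fun_prop
  have hs : HasCompactSupport (Gam Y lam j) :=
    HasCompactSupport.intro (isCompact_Icc (a := -(R / lam)) (b := R / lam)) fun x hx =>
      gam_supp hY hl j x (not_le.1 fun h => hx ⟨(abs_le.1 h).1, (abs_le.1 h).2⟩)
  exact ⟨⟨hc.measurable, hc.bounded_above_of_compact_support hs⟩, hc.integrable_of_hasCompactSupport hs⟩

theorem gam_Der (hY : IsY Y A R) (lam : ℝ) {j : ℕ} (hj : j < 3) :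
    Der (Gam Y lam j) (Gam Y lam (j + 1)) := fun x => by
  have h1 := ((hY.smooth.differentiable_iteratedDeriv j (by exact_mod_cast hj)) (lam * x)).hasDerivAt
  rw [← iteratedDeriv_succ] at h1
  have h2 := (h1.comp x ((hasDerivAt_id x).const_mul lam)).const_mul (lam ^ j / lam)
  have e : Gam Y lam (j + 1) x = lam ^ j / lam * (iteratedDeriv (j + 1) Y (lam * x) * (lam * 1)) := by
    rw [Gam]
    ring
  rw [e]
  exact h2

theorem gam_norm (Y : ℝ → ℝ) (hl : 0 < lam) (j : ℕ) :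
    ∫ u, |Gam Y lam j u| = lam ^ j / lam ^ 2 * ∫ u, |iteratedDeriv j Y u| := by
  simp only [Gam, abs_mul (lam ^ j / lam), integral_const_mul]
  rw [Measure.integral_comp_mul_left (fun u => |iteratedDeriv j Y u|), abs_of_pos (by positivity),
    abs_of_pos (by positivity), smul_eq_mul]
  field_simp

theorem dconv_eq (Y : ℝ → ℝ) (hl : 0 < lam) (s : ℝ) (f : P2 → ℝ) (z : P2) :
    dconv (iteratedDeriv 2 Y) lam s f z = kc (Gam Y lam 2) ((1, s) : P2) f z := by
  unfold dconv kc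
  refine integral_congr_ae (ae_of_all _ fun t => ?_)
  have e1 : z + (-t) • ((1, s) : P2) = (z.1 - t, z.2 - s * t) := by
    ext
    · simp [sub_eq_add_neg]
    · simp [sub_eq_add_neg, mul_comm]
  have e2 : lam ^ 2 / lam = lam := by field_simp
  simp only [e1, Gam, e2]

theorem davg_eq (κ : Measure ℝ) (s : ℝ) (v : P2 → ℝ) (z : P2) : davg κ s v z = av κ ((1, s) : P2) v z := by
  unfold davg av
  refine integral_congr_ae (ae_of_all _ fun t => ?_)
  have e1 : z + t • ((1, s) : P2) = (z.1 + t, z.2 + s * t) := by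
    ext
    · simp
    · simp [mul_comm]
  simp only [e1]

/-- the step lengths -/
noncomputable def hs (lam0 : ℝ) (n m : ℕ) : ℝ := if m < n then 0 else 2 ^ m / 2 ^ n / (8 * lam0)

/-- the weights -/
noncomputable def aw (n i : ℕ) : ℝ := if i < n + 3 then 2 ^ i / 2 ^ n / 4 else 8192 * 4 ^ n / 4 ^ i

variable {lam0 : ℝ}

theorem hs_nonneg (h0 : 0 < lam0) (n m : ℕ) : 0 ≤ hs lam0 n m := by
  unfold hs; split_ifs <;> positivity

theorem hs_le (h0 : 0 < lam0) (n m : ℕ) : hs lam0 n m ≤ 2 ^ m / 2 ^ n / (8 * lam0) := by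
  unfold hs; split_ifs
  · positivity
  · exact le_rfl

theorem hs_ge {n m : ℕ} (h : n ≤ m) : hs lam0 n m = 2 ^ m / 2 ^ n / (8 * lam0) := if_neg (not_lt.2 h)

theorem hs_step (h0 : 0 < lam0) (n m : ℕ) : 2 * hs lam0 n m ≤ hs lam0 n (m + 1) := by
  by_cases h : m < n
  · rw [hs, if_pos h, mul_zero]; exact hs_nonneg h0 _ _
  · rw [hs_ge (not_lt.1 h), hs_ge (by omega), pow_succ]
    exact le_of_eq (by ring)

theorem aw_pos (n i : ℕ) : 0 < aw n i := by
  unfold aw; split_ifs <;> positivity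

theorem A_nonneg (hY : IsY Y A R) : 0 ≤ A := (integral_nonneg fun _ => abs_nonneg _).trans hY.n0

theorem av_mu_succ (h : ℕ → ℝ) (m : ℕ) {k : ℝ → ℝ} (hk : BM k) :
    av (mu h (m + 1)) 1 k = av (mu h m) 1 (av (unif (h m)) 1 k) := funext fun _ => av_conv hk _

theorem eps_le (hY : IsY Y A R) (h0 : 0 < lam0) (n c i : ℕ) :
    2 * hs lam0 n (c + i) * ∫ u, |av (mu (hs lam0 n) (c + i)) 1 (Gam Y (lam0 / 2 ^ c) 3) u| ≤
      A * aw n i := by
  have hl : 0 < lam0 / 2 ^ c := by positivity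
  have hA := A_nonneg hY
  have i3 := gam_KI hY hl (j := 3) le_rfl
  by_cases hi : i < n + 3
  · rw [aw, if_pos hi]
    have h1 := i3.norm_av (mu (hs lam0 n) (c + i))
    rw [gam_norm Y hl] at h1
    calc _ ≤ 2 * (2 ^ (c + i) / 2 ^ n / (8 * lam0)) * ((lam0 / 2 ^ c) ^ 3 / (lam0 / 2 ^ c) ^ 2 * A) :=
          mul_le_mul (by linarith [hs_le h0 n (c + i)])
            (h1.trans (mul_le_mul_of_nonneg_left hY.n3 (by positivity)))
            (integral_nonneg fun _ => abs_nonneg _) (by positivity)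
      _ = _ := by rw [pow_add]; field_simp; ring
  · rw [aw, if_neg hi]
    obtain ⟨j, rfl⟩ : ∃ j, i = j + 3 := ⟨i - 3, by omega⟩
    have hj : n ≤ j := by omega
    have i0 := gam_KI hY hl (j := 0) (by norm_num)
    have i1 := gam_KI hY hl (j := 1) (by norm_num)
    have i2 := gam_KI hY hl (j := 2) (by norm_num)
    rw [show c + (j + 3) = c + j + 1 + 1 + 1 by ring, av_mu_succ _ _ i3.bm, av_mu_succ _ _ (i3.av _).bm,
      av_mu_succ _ _ ((i3.av _).av _).bm]
    have h1 := ((((i3.av (unif (hs lam0 n (c + j + 1 + 1)))).av (unif (hs lam0 n (c + j + 1)))).av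
      (unif (hs lam0 n (c + j)))).norm_av (mu (hs lam0 n) (c + j))).trans
      (norm_av3 (gam_Der hY _ (j := 0) (by norm_num)) (gam_Der hY _ (j := 1) (by norm_num))
        (gam_Der hY _ (j := 2) (by norm_num)) i0 i1 i2 i3
        (by rw [hs_ge (by omega)]; positivity) (by rw [hs_ge (by omega)]; positivity)
        (by rw [hs_ge (by omega)]; positivity))
    rw [gam_norm Y hl, iteratedDeriv_zero] at h1
    refine (mul_le_mul_of_nonneg_left h1 (by linarith [hs_nonneg h0 n (c + j + 1 + 1 + 1)])).trans ?_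
    rw [hs_ge (by omega), hs_ge (by omega), hs_ge (by omega), hs_ge (by omega)]
    calc _ ≤ 2 * (2 ^ (c + j + 1 + 1 + 1) / 2 ^ n / (8 * lam0)) * ((2 ^ (c + j) / 2 ^ n / (8 * lam0))⁻¹ *
          ((2 ^ (c + j + 1) / 2 ^ n / (8 * lam0))⁻¹ * ((2 ^ (c + j + 1 + 1) / 2 ^ n / (8 * lam0))⁻¹ *
            ((lam0 / 2 ^ c) ^ 0 / (lam0 / 2 ^ c) ^ 2 * A)))) := by
          gcongr
          exact hY.n0
      _ = _ := by
          rw [show (4 : ℝ) = 2 ^ 2 by norm_num, ← pow_mul, ← pow_mul, mul_comm 2 n, mul_comm 2 (j + 3),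
            pow_mul, pow_mul]
          simp only [pow_add]
          field_simp
          ring

theorem tail_le (hY : IsY Y A R) (h0 : 0 < lam0) {n L : ℕ} (hL : n + 2 ≤ L) (c : ℕ) :
    ∫ u, |av (mu (hs lam0 n) (c + L)) 1 (Gam Y (lam0 / 2 ^ c) 2) u| ≤ A * (512 * 4 ^ n / 4 ^ L) := by
  have hl : 0 < lam0 / 2 ^ c := by positivity
  have hA := A_nonneg hY
  obtain ⟨j, rfl⟩ : ∃ j, L = j + 2 := ⟨L - 2, by omega⟩
  have hj : n ≤ j := by omega
  have i0 := gam_KI hY hl (j := 0) (by norm_num)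
  have i1 := gam_KI hY hl (j := 1) (by norm_num)
  have i2 := gam_KI hY hl (j := 2) (by norm_num)
  rw [show c + (j + 2) = c + j + 1 + 1 by ring, av_mu_succ _ _ i2.bm, av_mu_succ _ _ (i2.av _).bm]
  have h1 := (((i2.av (unif (hs lam0 n (c + j + 1)))).av
    (unif (hs lam0 n (c + j)))).norm_av (mu (hs lam0 n) (c + j))).trans
    (norm_av2 (gam_Der hY _ (j := 0) (by norm_num)) (gam_Der hY _ (j := 1) (by norm_num)) i0 i1 i2
      (by rw [hs_ge (by omega)]; positivity) (by rw [hs_ge (by omega)]; positivity))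
  rw [gam_norm Y hl, iteratedDeriv_zero] at h1
  refine h1.trans ?_
  rw [hs_ge (by omega), hs_ge (by omega)]
  calc _ ≤ (2 ^ (c + j) / 2 ^ n / (8 * lam0))⁻¹ * ((2 ^ (c + j + 1) / 2 ^ n / (8 * lam0))⁻¹ *
          ((lam0 / 2 ^ c) ^ 0 / (lam0 / 2 ^ c) ^ 2 * A)) := by
        gcongr
        exact hY.n0
    _ = _ := by
        rw [show (4 : ℝ) = 2 ^ 2 by norm_num, ← pow_mul, ← pow_mul, mul_comm 2 n, mul_comm 2 (j + 2),
          pow_mul, pow_mul]
        simp only [pow_add]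
        field_simp
        ring

theorem sum_aw_high (n q L : ℕ) (hq : n + 3 ≤ q) :
    ∑ i ∈ Finset.Ico q L, aw n i ≤ 11000 * 4 ^ n / 4 ^ q := by
  have h1 : ∀ i ∈ Finset.Ico q L, aw n i = 8192 * 4 ^ n * (1 / 4) ^ i := fun i hi => by
    rw [aw, if_neg (by have := (Finset.mem_Ico.1 hi).1; omega), one_div, inv_pow, div_eq_mul_inv]
  rw [Finset.sum_congr rfl h1, ← Finset.mul_sum]
  have h2 := geom_sum_Ico_le_of_lt_one (x := (1 / 4 : ℝ)) (m := q) (n := L) (by norm_num) (by norm_num)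
  refine (mul_le_mul_of_nonneg_left h2 (by positivity)).trans ?_
  rw [one_div, inv_pow]
  have : (0 : ℝ) < 4 ^ n * (4 ^ q)⁻¹ := by positivity
  simp only [div_eq_mul_inv]
  nlinarith

theorem sum_aw_low (n q : ℕ) (hq : n + 3 ≤ q) : ∑ i ∈ Finset.range q, aw n i ≤ 200 := by
  rw [← Finset.sum_range_add_sum_Ico _ hq]
  have h1 : ∑ i ∈ Finset.range (n + 3), aw n i ≤ 2 := by
    have h2 : ∀ i ∈ Finset.range (n + 3), aw n i = 2 ^ i * (1 / 2 ^ n / 4) := fun i hi => by
      rw [aw, if_pos (Finset.mem_range.1 hi)]; ring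
    rw [Finset.sum_congr rfl h2, ← Finset.sum_mul, geom_sum_eq (by norm_num), pow_add]
    have : (0 : ℝ) < 2 ^ n := by positivity
    rw [div_div, mul_one_div, div_le_iff₀ (by positivity)]
    norm_num
    linarith
  have h2 := sum_aw_high n (n + 3) q le_rfl
  have h3 : (11000 : ℝ) * 4 ^ n / 4 ^ (n + 3) ≤ 198 := by
    rw [pow_add, div_le_iff₀ (by positivity)]
    have : (0 : ℝ) < 4 ^ n := by positivity
    nlinarith
  linarith

end Crest.Agent.R87.W
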