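import Crest.Agent.R87.W3
import Crest.Agent.R87.W5

/-!
# R87 / W6 : ROTA with the weights, summation of blocks, the tail (owner helper39)
-/

set_option autoImplicit false
set_option linter.unusedSectionVars false

open MeasureTheory Set
open scoped ENNReal

namespace Crest.Agent.R87.W

/-- the weights -/
structure Wt (I : Finset ℕ) (v : ℕ → P2 → ℝ) (m0 : ℕ) (B : ℝ) : Prop where
  meas : ∀ a, Measurable (v a)
  nn : ∀ a z, 0 ≤ v a z
  le : ∀ z, ∑ a ∈ I, v a z ≤ B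
  card : ∀ z, (I.filter (fun a => v a z ≠ 0)).card ≤ m0

variable {I : Finset ℕ} {v : ℕ → P2 → ℝ} {m0 : ℕ} {B : ℝ}

theorem Wt.le' (h : Wt I v m0 B) {S : Finset ℕ} (hS : S ⊆ I) (z : P2) : ∑ a ∈ S, v a z ≤ B :=
  (Finset.sum_le_sum_of_subset_of_nonneg hS fun a _ _ => h.nn a z).trans (h.le z)

theorem Wt.bm (h : Wt I v m0 B) {a : ℕ} (ha : a ∈ I) : BM (v a) :=
  ⟨h.meas a, B, fun z => by
    rw [abs_of_nonneg (h.nn a z)]
    simpa using h.le' (Finset.singleton_subset_iff.2 ha) z⟩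

theorem Wt.bms (h : Wt I v m0 B) (p : ℕ → Prop) [DecidablePred p] :
    BM fun z => ∑ a ∈ I.filter p, v a z := BM.sum _ fun _ ha => h.bm (Finset.mem_filter.1 ha).1

theorem Wt.cs (h : Wt I v m0 B) {S : Finset ℕ} (hS : S ⊆ I) (z : P2) :
    (∑ a ∈ S, √(v a z)) ^ 2 ≤ m0 * ∑ a ∈ S, v a z := by
  rw [← Finset.sum_filter_of_ne (p := fun a => v a z ≠ 0) (f := fun a => √(v a z))
    (fun a _ ha h0 => ha (by rw [h0, Real.sqrt_zero]))]
  refine sq_sum_le_card_mul_sum_sq.trans (mul_le_mul ?_ ?_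
    (Finset.sum_nonneg fun _ _ => sq_nonneg _) (Nat.cast_nonneg _))
  · exact_mod_cast (Finset.card_le_card (Finset.filter_subset_filter _ hS)).trans (h.card z)
  · simp only [Real.sq_sqrt (h.nn _ _)]
    exact Finset.sum_le_sum_of_subset_of_nonneg (Finset.filter_subset _ _) fun a _ _ => h.nn a z

theorem lint_sum {ι : Type*} (S : Finset ι) {g : ι → P2 → ℝ} (hg : ∀ i ∈ S, BM (g i))
    (h0 : ∀ i ∈ S, ∀ z, 0 ≤ g i z) :
    ∫⁻ z, ENNReal.ofReal (∑ i ∈ S, g i z) = ∑ i ∈ S, ∫⁻ z, ENNReal.ofReal (g i z) := by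
  rw [← lintegral_finsetSum S fun i hi => (hg i hi).meas.ennreal_ofReal]
  exact lintegral_congr fun z => ENNReal.ofReal_sum_of_nonneg fun i hi => h0 i hi z

theorem lint_cmul {c : ℝ} (hc : 0 ≤ c) (g : P2 → ℝ) :
    ∫⁻ z, ENNReal.ofReal (c * g z) = ENNReal.ofReal c * ∫⁻ z, ENNReal.ofReal (g z) := by
  simp only [ENNReal.ofReal_mul hc]
  exact lintegral_const_mul' _ _ ENNReal.ofReal_ne_top

theorem rota_w (n : ℕ) {μ ρ l : ℕ → Measure ℝ} [∀ c, IsProbabilityMeasure (μ c)]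
    [∀ c, IsProbabilityMeasure (ρ c)] [∀ c, IsProbabilityMeasure (l c)]
    (hμ : ∀ c, μ (c + 1) = μ c ∗ ρ c) (sμ : ∀ c, (μ c).map Neg.neg = μ c)
    (sρ : ∀ c, (ρ c).map Neg.neg = ρ c) (e : P2) {G f : ℕ → P2 → ℝ} (hG : ∀ c, BM (G c))
    (hf : ∀ c, BM (f c)) {ε : ℝ}
    (hd : ∀ c z, ∀ᵐ t ∂ρ c, (G c (z + t • e) - av (ρ c) e (G c) z) ^ 2 ≤
      ε ^ 2 * av (l c) e (fun z => f c z ^ 2) z) (hW : Wt I v m0 B) (thr : ℕ → ℕ) :
    ∫⁻ z, ENNReal.ofReal (∑ a ∈ I, (∑ c ∈ Finset.Ico (thr a) n,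
        (av (μ c) e (G c) z - av (μ (c + 1)) e (av (ρ c) e (G c)) z)) ^ 2 * √(v a z)) ≤
      ∑ c ∈ Finset.range n, ∫⁻ z, ENNReal.ofReal (29 * √m0 * ε ^ 2 * (f c z ^ 2 *
        √(av ((l c).map Neg.neg ∗ μ (c + 1)) e
          (fun z => ∑ a ∈ I.filter (fun a => thr a ≤ c), v a z) z))) := by
  have hsub : ∀ c, I.filter (fun a => thr a < c) ⊆ I.filter (fun a => thr a < c + 1) := fun c =>
    Finset.monotone_filter_right _ fun a _ ha => Nat.lt_succ_of_lt ha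
  have hq : ∀ p : ℕ → Prop, ∀ [DecidablePred p], BM fun z => ∑ a ∈ I.filter p, √(v a z) :=
    fun p _ => BM.sum _ fun _ ha => (hW.bm (Finset.mem_filter.1 ha).1).sqrt
  have h := rota (ν := volume) n hμ sμ sρ e (G := G)
    (D := fun c z => ε ^ 2 * av (l c) e (fun z => f c z ^ 2) z)
    (W := fun c z => m0 * ∑ a ∈ I.filter (fun a => thr a < c), v a z)
    (Q := fun c z => ∑ a ∈ I.filter (fun a => thr a < c), √(v a z)) hG
    (fun c => (hW.bms _).cmul _) (fun c => hq _)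
    (fun c z => Finset.sum_nonneg fun _ _ => Real.sqrt_nonneg _)
    (fun c z => hW.cs (Finset.filter_subset _ _) z)
    (fun c z => Finset.sum_le_sum_of_subset_of_nonneg (hsub c) fun _ _ _ => Real.sqrt_nonneg _)
    (fun c z => mul_le_mul_of_nonneg_left
      (Finset.sum_le_sum_of_subset_of_nonneg (hsub c) fun a _ _ => hW.nn a z) (Nat.cast_nonneg _))
    (fun c z => mul_nonneg (sq_nonneg _) (av_nonneg (fun _ => sq_nonneg _) z)) hd
  have hT : ∀ c, BM fun z => ∑ c' ∈ Finset.Ico c n,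
      (av (μ c') e (G c') z - av (μ (c' + 1)) e (av (ρ c') e (G c')) z) := fun c =>
    BM.sum _ fun c' _ => ((hG c').av _ e).sub (((hG c').av _ e).av _ e)
  have hQ : ∀ c z, ∑ a ∈ I.filter (fun a => thr a < c + 1), √(v a z) -
      ∑ a ∈ I.filter (fun a => thr a < c), √(v a z) = ∑ a ∈ I.filter (fun a => thr a = c), √(v a z) :=
    fun c z => by
      simp only [Finset.sum_filter, ← Finset.sum_sub_distrib]
      refine Finset.sum_congr rfl fun a _ => ?_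
      split_ifs <;> first | omega | simp
  simp only [hQ] at h
  refine le_trans (le_of_eq ?_) (h.trans (Finset.sum_le_sum fun c _ => ?_))
  · rw [← lint_sum _ (fun c _ => (hT c).sq.mul (hq _))
      fun c _ z => mul_nonneg (sq_nonneg _) (Finset.sum_nonneg fun _ _ => Real.sqrt_nonneg _)]
    refine lintegral_congr fun z => congrArg _ ?_
    simp only [Finset.sum_filter, Finset.mul_sum]
    rw [Finset.sum_comm]
    refine Finset.sum_congr rfl fun a _ => ?_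
    simp only [mul_ite, mul_zero, Finset.sum_ite_eq, Finset.mem_range]
    split_ifs with h1
    · rfl
    · rw [Finset.Ico_eq_empty h1]; simp
  · have hw := hW.bms fun a => thr a ≤ c
    have hw0 : ∀ z, 0 ≤ ∑ a ∈ I.filter (fun a => thr a ≤ c), v a z :=
      fun z => Finset.sum_nonneg fun a _ => hW.nn a z
    have : IsProbabilityMeasure ((l c).map Neg.neg) := Measure.isProbabilityMeasure_map (by fun_prop)
    simp only [Nat.lt_succ_iff, av_cmul, Real.sqrt_mul (Nat.cast_nonneg m0)]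
    have e1 : ∀ x y : ℝ, 29 * (ε ^ 2 * x * (√m0 * y)) = 29 * √m0 * ε ^ 2 * (x * y) := fun x y => by ring
    simp only [e1]
    rw [lint_cmul (by positivity), lint_cmul (by positivity),
      lint_av_mul (hf c).sq (hw.av _ e).sqrt (fun _ => sq_nonneg _) (fun _ => Real.sqrt_nonneg _) e]
    refine mul_le_mul_right (lintegral_mono fun z => ENNReal.ofReal_le_ofReal
      (mul_le_mul_of_nonneg_left ?_ (sq_nonneg _))) _
    rw [av_conv hw]
    exact av_sqrt_le (hw.av _ e) (av_nonneg hw0) z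

theorem block (J : Finset ℕ) {a : ℕ → ℝ} (ha : ∀ i, 0 < a i) {x : ℕ → ℕ → P2 → ℝ}
    (hx : ∀ i b, BM (x i b)) (hW : Wt I v m0 B) (n : ℕ) {y : ℕ → ℕ → P2 → ℝ} (hy : ∀ i c, BM (y i c))
    (hy0 : ∀ i c z, 0 ≤ y i c z) {K : ℝ} (hK : 0 ≤ K)
    (h : ∀ i ∈ J, ∫⁻ z, ENNReal.ofReal (∑ b ∈ I, x i b z ^ 2 * √(v b z)) ≤
      ∑ c ∈ Finset.range n, ∫⁻ z, ENNReal.ofReal (K * a i ^ 2 * y i c z)) :
    ∫⁻ z, ENNReal.ofReal (∑ b ∈ I, (∑ i ∈ J, x i b z) ^ 2 * √(v b z)) ≤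
      ∑ c ∈ Finset.range n, ∫⁻ z, ENNReal.ofReal (K * (∑ i ∈ J, a i) * ∑ i ∈ J, a i * y i c z) := by
  set T := ∑ i ∈ J, a i with hT
  have hT0 : 0 ≤ T := Finset.sum_nonneg fun i _ => (ha i).le
  have h1 : ∀ z, ∑ b ∈ I, (∑ i ∈ J, x i b z) ^ 2 * √(v b z) ≤
      ∑ i ∈ J, T / a i * ∑ b ∈ I, x i b z ^ 2 * √(v b z) := fun z => by
    simp only [Finset.mul_sum]
    rw [Finset.sum_comm]
    refine Finset.sum_le_sum fun b _ => ?_
    simp only [← mul_assoc, ← Finset.sum_mul]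
    refine mul_le_mul_of_nonneg_right ?_ (Real.sqrt_nonneg _)
    rcases J.eq_empty_or_nonempty with rfl | hJ
    · simp
    · have hT1 : 0 < T := Finset.sum_pos (fun i _ => ha i) hJ
      have := Finset.sq_sum_div_le_sum_sq_div J (fun i => x i b z) fun i _ => ha i
      rw [← hT, div_le_iff₀ hT1, Finset.sum_mul] at this
      exact this.trans_eq (Finset.sum_congr rfl fun i _ => by ring)
  have hb : ∀ i, BM fun z => ∑ b ∈ I, x i b z ^ 2 * √(v b z) := fun i =>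
    BM.sum _ fun b hb => (hx i b).sq.mul (hW.bm hb).sqrt
  have hTa : ∀ i, 0 ≤ T / a i := fun i => div_nonneg hT0 (ha i).le
  refine (lintegral_mono fun z => ENNReal.ofReal_le_ofReal (h1 z)).trans ?_
  rw [lint_sum _ (fun i _ => (hb i).cmul _) fun i _ z => mul_nonneg (hTa i)
    (Finset.sum_nonneg fun _ _ => by positivity)]
  have h2 : ∀ c, ∫⁻ z, ENNReal.ofReal (K * T * ∑ i ∈ J, a i * y i c z) =
      ∑ i ∈ J, ENNReal.ofReal (T / a i) * ∫⁻ z, ENNReal.ofReal (K * a i ^ 2 * y i c z) := fun c => by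
    simp only [← lint_cmul (hTa _)]
    rw [← lint_sum _ (fun i _ => ((hy i c).cmul _).cmul _) fun i _ z => mul_nonneg (hTa i)
      (mul_nonneg (by positivity) (hy0 i c z))]
    refine lintegral_congr fun z => congrArg _ ?_
    rw [Finset.mul_sum]
    refine Finset.sum_congr rfl fun i _ => ?_
    have := (ha i).ne'
    field_simp
  simp only [h2]
  rw [Finset.sum_comm]
  refine Finset.sum_le_sum fun i hi => ?_
  rw [lint_cmul (hTa i), ← Finset.mul_sum]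
  exact mul_le_mul_right (h i hi) _

theorem tail_w (hW : Wt I v m0 B) (thr : ℕ → ℕ) (n : ℕ) {U f : ℕ → P2 → ℝ} (hU : ∀ c, BM (U c))
    {ε : ℝ} (h : ∀ c, ∫⁻ z, ENNReal.ofReal (U c z ^ 2) ≤
      ENNReal.ofReal (ε ^ 2) * ∫⁻ z, ENNReal.ofReal (f c z ^ 2)) :
    ∫⁻ z, ENNReal.ofReal (∑ b ∈ I, (∑ c ∈ Finset.Ico (thr b) n, U c z) ^ 2 * √(v b z)) ≤
      ENNReal.ofReal (√m0 * √B * (n * ε ^ 2)) *
        ∑ c ∈ Finset.range n, ∫⁻ z, ENNReal.ofReal (f c z ^ 2) := by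
  have h1 : ∀ z, ∑ b ∈ I, (∑ c ∈ Finset.Ico (thr b) n, U c z) ^ 2 * √(v b z) ≤
      √m0 * √B * n * ∑ c ∈ Finset.range n, U c z ^ 2 := fun z => by
    have h2 : ∀ b, (∑ c ∈ Finset.Ico (thr b) n, U c z) ^ 2 ≤ n * ∑ c ∈ Finset.range n, U c z ^ 2 :=
      fun b => sq_sum_le_card_mul_sum_sq.trans (mul_le_mul
        (by rw [Nat.card_Ico]; exact_mod_cast Nat.sub_le _ _)
        (Finset.sum_le_sum_of_subset_of_nonneg
          (fun c hc => Finset.mem_range.2 (Finset.mem_Ico.1 hc).2) fun _ _ _ => sq_nonneg _)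
        (Finset.sum_nonneg fun _ _ => sq_nonneg _) (Nat.cast_nonneg _))
    have h3 : ∑ b ∈ I, √(v b z) ≤ √m0 * √B := by
      rw [← Real.sqrt_mul (Nat.cast_nonneg _)]
      exact Real.le_sqrt_of_sq_le ((hW.cs subset_rfl z).trans
        (mul_le_mul_of_nonneg_left (hW.le z) (Nat.cast_nonneg _)))
    refine (Finset.sum_le_sum fun b _ => mul_le_mul_of_nonneg_right (h2 b) (Real.sqrt_nonneg _)).trans ?_
    rw [← Finset.mul_sum, mul_comm, mul_assoc (√m0 * √B)]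
    exact mul_le_mul_of_nonneg_right h3 (by positivity)
  refine (lintegral_mono fun z => ENNReal.ofReal_le_ofReal (h1 z)).trans ?_
  rw [lint_cmul (by positivity), lint_sum _ (fun c _ => (hU c).sq) fun _ _ _ => sq_nonneg _,
    ← mul_assoc, ENNReal.ofReal_mul (by positivity) (q := ε ^ 2), mul_assoc (ENNReal.ofReal _)]
  refine mul_le_mul_right ?_ _
  rw [Finset.mul_sum]
  exact Finset.sum_le_sum fun c _ => h c

/-- convex combination of probability measures -/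
noncomputable def mix (J : Finset ℕ) (a : ℕ → ℝ) (κ : ℕ → Measure ℝ) : Measure ℝ :=
  ∑ i ∈ J, ENNReal.ofReal (a i / ∑ j ∈ J, a j) • κ i

theorem mix_prob {J : Finset ℕ} (hJ : J.Nonempty) {a : ℕ → ℝ} (ha : ∀ i, 0 < a i) (κ : ℕ → Measure ℝ)
    [∀ i, IsProbabilityMeasure (κ i)] : IsProbabilityMeasure (mix J a κ) := by
  have hT : 0 < ∑ j ∈ J, a j := Finset.sum_pos (fun i _ => ha i) hJ
  refine ⟨?_⟩
  simp only [mix, Measure.coe_finsetSum, Finset.sum_apply, Measure.smul_apply, measure_univ,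
    smul_eq_mul, mul_one]
  rw [← ENNReal.ofReal_sum_of_nonneg fun i _ => div_nonneg (ha i).le hT.le, ← Finset.sum_div,
    div_self hT.ne', ENNReal.ofReal_one]

theorem mix_sp {J : Finset ℕ} (a : ℕ → ℝ) {κ : ℕ → Measure ℝ} {r : ℝ} (h : ∀ i ∈ J, Sp (κ i) r) :
    Sp (mix J a κ) r :=
  ae_finsetSum_measure_iff.2 fun i hi => Measure.ae_smul_measure (h i hi) _

theorem mix_sqrt {J : Finset ℕ} (hJ : J.Nonempty) {a : ℕ → ℝ} (ha : ∀ i, 0 < a i) (κ : ℕ → Measure ℝ)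
    [∀ i, IsProbabilityMeasure (κ i)] (e : P2) {w : P2 → ℝ} (hw : BM w) (h0 : ∀ z, 0 ≤ w z) (z : P2) :
    ∑ i ∈ J, a i * √(av (κ i) e w z) ≤ (∑ i ∈ J, a i) * √(av (mix J a κ) e w z) := by
  have hT : 0 < ∑ j ∈ J, a j := Finset.sum_pos (fun i _ => ha i) hJ
  have h1 : ∑ i ∈ J, a i * av (κ i) e w z = (∑ i ∈ J, a i) * av (mix J a κ) e w z := by
    rw [av, mix, integral_finsetSum_measure fun i _ =>
      ((hw.sh z e).integrable _).smul_measure ENNReal.ofReal_ne_top, Finset.mul_sum]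
    refine Finset.sum_congr rfl fun i _ => ?_
    rw [integral_smul_measure, ENNReal.toReal_ofReal (div_nonneg (ha i).le hT.le), smul_eq_mul, av]
    field_simp
  have h2 := Real.sum_sqrt_mul_sqrt_le J (f := a) (g := fun i => a i * av (κ i) e w z)
    (fun i => (ha i).le) fun i => mul_nonneg (ha i).le (av_nonneg h0 z)
  rw [h1, Real.sqrt_mul hT.le, ← mul_assoc, Real.mul_self_sqrt hT.le] at h2
  refine le_trans (le_of_eq (Finset.sum_congr rfl fun i _ => ?_)) h2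
  rw [Real.sqrt_mul (ha i).le, ← mul_assoc, Real.mul_self_sqrt (ha i).le]

end Crest.Agent.R87.W
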