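import Crest.Agent.R87.W6
import Crest.Agent.R87.DefsW

/-!
# R87 / WB : the weighted lacunary inequality `wb : WBStmt2` (owner helper39)
-/

set_option autoImplicit false
set_option linter.unusedSectionVars false

open MeasureTheory Set
open scoped ENNReal

namespace Crest.Agent.R87.W

theorem lint_three {x y w t : P2 → ℝ} (hx : BM x) (hy : BM y)
    (h : ∀ z, t z ≤ 3 * (x z + y z + w z)) :
    ∫⁻ z, ENNReal.ofReal (t z) ≤ ENNReal.ofReal 3 * ((∫⁻ z, ENNReal.ofReal (x z)) +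
      (∫⁻ z, ENNReal.ofReal (y z)) + ∫⁻ z, ENNReal.ofReal (w z)) := by
  refine (lintegral_mono fun z => ENNReal.ofReal_le_ofReal (h z)).trans ?_
  rw [lint_cmul (by norm_num), ← lintegral_add_left hx.meas.ennreal_ofReal,
    ← lintegral_add_left (f := fun z => ENNReal.ofReal (x z) + ENNReal.ofReal (y z))
      (hx.meas.ennreal_ofReal.add hy.meas.ennreal_ofReal)]
  exact mul_le_mul_right (lintegral_mono fun z => ENNReal.ofReal_add_le.trans
    (add_le_add ENNReal.ofReal_add_le le_rfl)) _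

theorem final_arith {K R s : ℝ} (hK : 0 ≤ K) (hs : 0 ≤ s) (hR : 0 < R) (X Z : ℝ≥0∞) :
    ENNReal.ofReal 3 * (ENNReal.ofReal (29 * 200 ^ 2 * K) * X +
      ENNReal.ofReal (29 * 688 ^ 2 * K * (s / R ^ 4)) * Z + ENNReal.ofReal (1024 * K * (s / R ^ 4)) * Z) ≤
      ENNReal.ofReal (50000000 * K) * (X + ENNReal.ofReal (s / R ^ 4) * Z) := by
  have h1 : 0 ≤ K * (s / R ^ 4) := by positivity
  rw [add_assoc, ← add_mul, ← ENNReal.ofReal_add (by positivity) (by positivity), mul_add, mul_add,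
    ← mul_assoc, ← mul_assoc, ← mul_assoc, ← ENNReal.ofReal_mul (by norm_num),
    ← ENNReal.ofReal_mul (by norm_num), ← ENNReal.ofReal_mul (by positivity)]
  exact add_le_add (mul_le_mul_left (ENNReal.ofReal_le_ofReal (by nlinarith)) _)
    (mul_le_mul_left (ENNReal.ofReal_le_ofReal (by nlinarith)) _)

theorem core {Y : ℝ → ℝ} {A R lam0 : ℝ} (hY : IsY Y A R) (hR : 1 ≤ R) (h0 : 0 < lam0) (n : ℕ) {p : ℕ}
    (hp : R < 2 ^ (p + 1)) {l : ℕ → ℕ → Measure ℝ} [∀ c i, IsProbabilityMeasure (l c i)] (e : P2)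
    {f : ℕ → P2 → ℝ} (hf : ∀ c, BM (f c))
    (hd : ∀ c i z, ∀ᵐ t ∂unif (hs lam0 n (c + i)),
      (av (mu (hs lam0 n) (c + i)) e (kc (Gam Y (lam0 / 2 ^ c) 2) e (f c)) (z + t • e) -
        av (unif (hs lam0 n (c + i))) e
          (av (mu (hs lam0 n) (c + i)) e (kc (Gam Y (lam0 / 2 ^ c) 2) e (f c))) z) ^ 2 ≤
        (A * aw n i) ^ 2 * av (l c i) e (fun z => f c z ^ 2) z)
    {I : Finset ℕ} {v : ℕ → P2 → ℝ} {m0 : ℕ} {B : ℝ} (hW : Wt I v m0 B) (thr : ℕ → ℕ) :
    ∫⁻ z, ENNReal.ofReal (∑ a ∈ I, (∑ c ∈ Finset.Ico (thr a) n,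
        kc (Gam Y (lam0 / 2 ^ c) 2) e (f c) z) ^ 2 * √(v a z)) ≤
      ENNReal.ofReal (50000000 * A ^ 2 * √m0) *
        ((∑ c ∈ Finset.range n, ∫⁻ z, ENNReal.ofReal (f c z ^ 2 *
          √(av (mix (Finset.range (n + 3 + p)) (aw n)
            fun i => (l c i).map Neg.neg ∗ mu (hs lam0 n) (c + i + 1)) e
              (fun z => ∑ a ∈ I.filter (fun a => thr a ≤ c), v a z) z))) +
        ENNReal.ofReal (√B / R ^ 4) * ∑ c ∈ Finset.range n, ∫⁻ z, ENNReal.ofReal (f c z ^ 2)) := by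
  have hA := A_nonneg hY
  have hR0 : 0 < R := by linarith
  have hl : ∀ c : ℕ, 0 < lam0 / 2 ^ c := fun c => by positivity
  have hprob : ∀ c i, IsProbabilityMeasure ((l c i).map Neg.neg) := fun c i =>
    Measure.isProbabilityMeasure_map (by fun_prop)
  set h := hs lam0 n with hh
  set q := n + 3 + p with hq
  set L := q + n with hL
  have i2 : ∀ c : ℕ, KI (Gam Y (lam0 / 2 ^ c) 2) := fun c => gam_KI hY (hl c) (by norm_num)
  let F : ℕ → P2 → ℝ := fun c => kc (Gam Y (lam0 / 2 ^ c) 2) e (f c)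
  have hF : ∀ c, BM (F c) := fun c => (hf c).kc (i2 c) e
  let X : ℕ → ℕ → P2 → ℝ := fun c m => av (mu h m) e (av (mu h m) e (F c))
  have hX : ∀ c m, BM (X c m) := fun c m => ((hF c).av _ e).av _ e
  let x : ℕ → ℕ → P2 → ℝ := fun i a z => ∑ c ∈ Finset.Ico (thr a) n, (X c (c + i) z - X c (c + i + 1) z)
  have hx : ∀ i a, BM (x i a) := fun i a => BM.sum _ fun c _ => (hX c _).sub (hX c _)
  let Wc : ℕ → P2 → ℝ := fun c z => ∑ a ∈ I.filter (fun a => thr a ≤ c), v a z
  have hWc : ∀ c, BM (Wc c) := fun c => hW.bms _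
  have hWc0 : ∀ c z, 0 ≤ Wc c z := fun c z => Finset.sum_nonneg fun a _ => hW.nn a z
  let y : ℕ → ℕ → P2 → ℝ := fun i c z =>
    f c z ^ 2 * √(av ((l c i).map Neg.neg ∗ mu h (c + i + 1)) e (Wc c) z)
  have hy : ∀ i c, BM (y i c) := fun i c => (hf c).sq.mul ((hWc c).av _ e).sqrt
  have hy0 : ∀ i c z, 0 ≤ y i c z := fun i c z => by positivity
  have hi : ∀ i, ∫⁻ z, ENNReal.ofReal (∑ b ∈ I, x i b z ^ 2 * √(v b z)) ≤
      ∑ c ∈ Finset.range n, ∫⁻ z, ENNReal.ofReal (29 * √m0 * A ^ 2 * aw n i ^ 2 * y i c z) := fun i => by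
    have h1 := rota_w n (μ := fun c => mu h (c + i)) (ρ := fun c => unif (h (c + i)))
      (l := fun c => l c i) (fun c => by rw [Nat.add_right_comm]; rfl) (fun c => mu_symm _ _)
      (fun c => unif_symm _) e (G := fun c => av (mu h (c + i)) e (F c)) (fun c => (hF c).av _ e) hf
      (fun c => hd c i) hW thr
    have e1 : ∀ c, av (unif (h (c + i))) e (av (mu h (c + i)) e (F c)) = av (mu h (c + i + 1)) e (F c) :=
      fun c => funext fun z => by rw [av_comm (hF c), ← av_conv (hF c), mu_succ]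
    simp only [e1, Nat.add_right_comm _ 1 i, mul_pow, ← mul_assoc] at h1
    simpa only [x, X, y, Wc, ← mul_assoc] using h1
  have hK : 0 ≤ 29 * √m0 * A ^ 2 := by positivity
  have b1 := block (Finset.range q) (aw_pos n) hx hW n hy hy0 hK fun i _ => hi i
  have b2 := block (Finset.Ico q L) (aw_pos n) hx hW n hy hy0 hK fun i _ => hi i
  have b3 := tail_w hW thr n (U := fun c => X c (c + L)) (f := f) (fun c => hX c _)
    (ε := A * (512 * 4 ^ n / 4 ^ L)) fun c => by
      have e1 : X c (c + L) = kc (av (mu h (c + L)) 1 (av (mu h (c + L)) 1 (Gam Y (lam0 / 2 ^ c) 2))) e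
          (f c) := funext fun z => by
        simp only [X, F]
        rw [funext (av_kc (μ := mu h (c + L)) (i2 c) (hf c) e), av_kc ((i2 c).av _) (hf c)]
      have hsp := sp_mu (hs_nonneg h0 n) (hs_step h0 n) (c + L)
      have := hs_nonneg h0 n (c + L)
      have := hl c
      rw [e1]
      exact kc_l2 (((i2 c).av _).av _) ((((i2 c).av _).norm_av _).trans (tail_le hY h0 (by omega) c))
        (by positivity) (av_supp (av_supp (gam_supp hY (hl c) 2) hsp) hsp) e (hf c)
  have hdec : ∀ a z, ∑ c ∈ Finset.Ico (thr a) n, F c z = ∑ i ∈ Finset.range q, x i a z +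
      ∑ i ∈ Finset.Ico q L, x i a z + ∑ c ∈ Finset.Ico (thr a) n, X c (c + L) z := fun a z => by
    rw [Finset.sum_range_add_sum_Ico _ (by omega)]
    simp only [x]
    rw [Finset.sum_comm, ← Finset.sum_add_distrib]
    refine Finset.sum_congr rfl fun c hc => ?_
    have h1 := Finset.sum_range_sub' (fun i => X c (c + i) z) L
    have h2 : mu h c = Measure.dirac 0 := mu_dirac c fun m hm =>
      if_pos (hm.trans (Finset.mem_Ico.1 hc).2)
    simp only [← add_assoc, add_zero] at h1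
    rw [h1, sub_add_cancel]
    simp only [X]
    rw [h2, av_dirac ((hF c).av _ e), av_dirac (hF c)]
  have hb : ∀ {g : ℕ → P2 → ℝ}, (∀ a, BM (g a)) → BM fun z => ∑ a ∈ I, g a z ^ 2 * √(v a z) :=
    fun hg => BM.sum _ fun a ha => (hg a).sq.mul (hW.bm ha).sqrt
  have h4 : 4⁻¹ * R ^ 2 ≤ 4 ^ p := by
    rw [show (4 : ℝ) ^ p = 2 ^ p * 2 ^ p by rw [← mul_pow]; norm_num]
    rw [pow_succ] at hp
    nlinarith
  have h4' : ((4 : ℝ) ^ p)⁻¹ ≤ 4 / R ^ 2 := by
    rw [inv_le_comm₀ (by positivity) (by positivity), inv_div, div_eq_inv_mul]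
    exact h4
  refine (lint_three (hb fun a => BM.sum (Finset.range q) fun i _ => hx i a)
    (hb fun a => BM.sum (Finset.Ico q L) fun i _ => hx i a)
    (w := fun z => ∑ b ∈ I, (∑ c ∈ Finset.Ico (thr b) n, X c (c + L) z) ^ 2 * √(v b z)) fun z => ?_).trans ?_
  · rw [← Finset.sum_add_distrib, ← Finset.sum_add_distrib, Finset.mul_sum]
    refine Finset.sum_le_sum fun a _ => ?_
    rw [← add_mul, ← add_mul, ← mul_assoc]
    refine mul_le_mul_of_nonneg_right ?_ (Real.sqrt_nonneg _)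
    have := hdec a z
    simp only [F] at this
    rw [this]
    generalize ∑ i ∈ Finset.range q, x i a z = α
    generalize ∑ i ∈ Finset.Ico q L, x i a z = β
    generalize ∑ c ∈ Finset.Ico (thr a) n, X c (c + L) z = γ
    nlinarith [sq_nonneg (α - β), sq_nonneg (α - γ), sq_nonneg (β - γ)]
  rw [mul_assoc (50000000 : ℝ)]
  refine le_trans (mul_le_mul_right (add_le_add (add_le_add (b1.trans ?_) (b2.trans ?_)) (b3.trans ?_)) _)
    (final_arith (by positivity) (Real.sqrt_nonneg B) hR0 _ _)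
  · rw [Finset.mul_sum (R := ℝ≥0∞)]
    refine Finset.sum_le_sum fun c _ => ?_
    rw [← lint_cmul (by positivity)]
    refine lintegral_mono fun z => ENNReal.ofReal_le_ofReal ?_
    have h1 := mix_sqrt (J := Finset.range q) ⟨0, Finset.mem_range.2 (by omega)⟩ (aw_pos n)
      (fun i => (l c i).map Neg.neg ∗ mu h (c + i + 1)) e (hWc c) (hWc0 c) z
    have h2 := sum_aw_low n q (by omega)
    have h3 : 0 ≤ ∑ i ∈ Finset.range q, aw n i := Finset.sum_nonneg fun i _ => (aw_pos n i).le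
    simp only [y, mul_left_comm (aw n _), ← Finset.mul_sum]
    calc _ ≤ 29 * √m0 * A ^ 2 * 200 * (f c z ^ 2 * (200 * √(av (mix (Finset.range q) (aw n)
          fun i => (l c i).map Neg.neg ∗ mu h (c + i + 1)) e (Wc c) z))) := by
          refine mul_le_mul (by gcongr) (mul_le_mul_of_nonneg_left (h1.trans (by gcongr)) (sq_nonneg _))
            (mul_nonneg (sq_nonneg _) (Finset.sum_nonneg fun i _ =>
              mul_nonneg (aw_pos n i).le (Real.sqrt_nonneg _))) (by positivity)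
      _ = _ := by ring
  · rw [Finset.mul_sum (R := ℝ≥0∞)]
    refine Finset.sum_le_sum fun c _ => ?_
    rw [← lint_cmul (by positivity)]
    refine lintegral_mono fun z => ENNReal.ofReal_le_ofReal ?_
    have h2 : ∑ i ∈ Finset.Ico q L, aw n i ≤ 688 / R ^ 2 := by
      refine (sum_aw_high n q L (by omega)).trans ?_
      have e1 : (11000 : ℝ) * 4 ^ n / 4 ^ q = 11000 / 64 * (4 ^ p)⁻¹ := by
        rw [hq, pow_add, pow_add]; field_simp; norm_num
      rw [e1]
      calc _ ≤ 172 * (4 / R ^ 2) := by gcongr; norm_num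
        _ = _ := by ring
    have h1 : ∑ i ∈ Finset.Ico q L, aw n i * y i c z ≤ 688 / R ^ 2 * (f c z ^ 2 * √B) := by
      refine le_trans (Finset.sum_le_sum fun i _ => mul_le_mul_of_nonneg_left
        (c := f c z ^ 2 * √B) ?_ (aw_pos n i).le) ?_
      · exact mul_le_mul_of_nonneg_left (Real.sqrt_le_sqrt
          (av_le (hWc c) (hW.le' (Finset.filter_subset _ _)) z)) (sq_nonneg _)
      · rw [← Finset.sum_mul]
        gcongr
    calc _ ≤ 29 * √m0 * A ^ 2 * (688 / R ^ 2) * (688 / R ^ 2 * (f c z ^ 2 * √B)) :=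
          mul_le_mul (by gcongr) h1 (Finset.sum_nonneg fun i _ =>
            mul_nonneg (aw_pos n i).le (hy0 i c z)) (by positivity)
      _ = _ := by field_simp
  · refine mul_le_mul_left (ENNReal.ofReal_le_ofReal ?_) _
    have e1 : (512 : ℝ) * 4 ^ n / 4 ^ L = 8 * (4 ^ p)⁻¹ * (4 ^ n)⁻¹ := by
      rw [hL, hq, pow_add, pow_add, pow_add]; field_simp; norm_num
    have h1 : (n : ℝ) * ((4 : ℝ) ^ n)⁻¹ ^ 2 ≤ 1 := by
      have h2 : (n : ℝ) ≤ 4 ^ n := by exact_mod_cast (Nat.lt_pow_self (by norm_num)).le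
      have h3 : (1 : ℝ) ≤ 4 ^ n := one_le_pow₀ (by norm_num)
      rw [inv_pow, ← div_eq_mul_inv, div_le_one (by positivity)]
      nlinarith
    rw [e1]
    calc _ = √m0 * √B * A ^ 2 * 64 * ((4 : ℝ) ^ p)⁻¹ ^ 2 * (n * ((4 : ℝ) ^ n)⁻¹ ^ 2) := by ring
      _ ≤ √m0 * √B * A ^ 2 * 64 * (4 / R ^ 2) ^ 2 * 1 := by gcongr
      _ = _ := by field_simp; ring

end Crest.Agent.R87.W

namespace Crest.Agent.R87

open W

theorem wb : WBStmt2 := by
  refine ⟨50000000, by norm_num, fun Y A R hR hY lam0 h0 n => ?_⟩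
  obtain ⟨p, hp1, hp2⟩ := exists_nat_pow_near hR one_lt_two
  have hR0 : 0 < R := by linarith
  have hl : ∀ c : ℕ, 0 < lam0 / 2 ^ c := fun c => by positivity
  have hker := fun c i : ℕ => diff_lam (gam_Der hY (lam0 / 2 ^ c) (j := 2) (by norm_num))
    (gam_KI hY (hl c) (by norm_num)) (gam_KI hY (hl c) le_rfl) (div_pos hR0 (hl c)).le
    (hs_nonneg h0 n (c + i)) (gam_supp hY (hl c) 3) (sp_mu (hs_nonneg h0 n) (hs_step h0 n) (c + i))
    (hs_nonneg h0 n (c + i)) (eps_le hY h0 n c i)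
  choose l hlp hsp hd using hker
  have hprob : ∀ c i, IsProbabilityMeasure ((l c i).map Neg.neg) := fun c i =>
    Measure.isProbabilityMeasure_map (by fun_prop)
  have hne : (Finset.range (n + 3 + p)).Nonempty := ⟨0, Finset.mem_range.2 (by omega)⟩
  have hκ : ∀ c, IsProbabilityMeasure (mix (Finset.range (n + 3 + p)) (aw n)
      fun i => (l c i).map Neg.neg ∗ mu (hs lam0 n) (c + i + 1)) := fun c => mix_prob hne (aw_pos n) _
  refine ⟨fun c => mix (Finset.range (n + 3 + p)) (aw n)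
    fun i => (l c i).map Neg.neg ∗ mu (hs lam0 n) (c + i + 1), hκ, fun c => ?_, ?_⟩
  · have h1 : Sp (mix (Finset.range (n + 3 + p)) (aw n)
        fun i => (l c i).map Neg.neg ∗ mu (hs lam0 n) (c + i + 1)) (4 * R * 2 ^ c / lam0) := by
      refine mix_sp _ fun i hi => ((hsp c i).neg.conv
        (sp_mu (hs_nonneg h0 n) (hs_step h0 n) (c + i + 1))).mono ?_
      have hi' : i + 1 ≤ n + 3 + p := Finset.mem_range.1 hi
      have h2 := hs_step h0 n (c + i)
      have h3 := hs_le h0 n (c + i + 1)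
      have h4 : (2 : ℝ) ^ (c + i + 1) / 2 ^ n / (8 * lam0) ≤ R * 2 ^ c / lam0 := by
        calc _ ≤ (2 : ℝ) ^ (c + (n + 3 + p)) / 2 ^ n / (8 * lam0) := by
              have : (2 : ℝ) ^ (c + i + 1) ≤ 2 ^ (c + (n + 3 + p)) :=
                pow_le_pow_right₀ (by norm_num) (by omega)
              gcongr
          _ = 2 ^ p * 2 ^ c / lam0 := by simp only [pow_add]; field_simp; norm_num
          _ ≤ _ := by gcongr
      have h5 : R / (lam0 / 2 ^ c) = R * 2 ^ c / lam0 := by field_simp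
      have h6 : 0 < R * 2 ^ c / lam0 := by positivity
      rw [h5, mul_assoc, mul_div_assoc 4]
      linarith
    simpa only [not_le] using ae_iff.1 h1
  intro s I thr v f N m0 B hv hv0 hB hm hf ⟨L, hL⟩ hN hsupp
  have hW : Wt I v m0 B := ⟨hv, hv0, hB, hm⟩
  have hf0 : ∀ c, BM (f c) := fun c => ⟨hf c, L, fun z => (hL c z).1⟩
  have hle : ∀ c z, |(N c).indicator (f c) z| ≤ |f c z| := fun c z => norm_indicator_le_norm_self (f c) z
  have hf1 : ∀ c, BM ((N c).indicator (f c)) := fun c =>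
    ⟨(hf c).indicator (hN c), L, fun z => (hle c z).trans (hL c z).1⟩
  have h := core hY hR h0 n hp2 ((1, s) : P2) hf1 (fun c i => hd c i _ _ (hf1 c)) hW thr
  refine le_trans (le_of_eq ?_) (h.trans (mul_le_mul_right (add_le_add
    (Finset.sum_le_sum fun c _ => lintegral_mono fun z => ENNReal.ofReal_le_ofReal ?_)
    (le_of_eq (congrArg _ (Finset.sum_congr rfl fun c _ => ?_)))) _))
  · rw [lint_sum _ (fun a ha => (BM.sum _ fun c _ => (hf1 c).kc (gam_KI hY (hl c) (by norm_num)) _).sq.mul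
      (hW.bm ha).sqrt) fun _ _ _ => by positivity]
    refine Finset.sum_congr rfl fun a ha => lintegral_congr fun z => congrArg _ ?_
    by_cases hz : v a z = 0
    · simp [hz]
    congr 2
    refine Finset.sum_congr rfl fun c hc => ?_
    rw [dconv_eq Y (hl c)]
    refine integral_congr_ae (ae_of_all _ fun u => ?_)
    by_cases hu : R / (lam0 / 2 ^ c) < |u|
    · simp only [gam_supp hY (hl c) 2 u hu, zero_mul]
    · have h5 : R / (lam0 / 2 ^ c) = R * 2 ^ c / lam0 := by field_simp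
      have h6 : 0 < R * 2 ^ c / lam0 := by positivity
      have h7 := hsupp a ha c (Finset.mem_Ico.1 hc).1 z hz (-u)
        (by rw [abs_neg, mul_assoc, mul_div_assoc 4]; linarith [not_lt.1 hu])
      have e1 : z + (-u) • ((1, s) : P2) = (z.1 + -u, z.2 + s * -u) := by
        ext
        · simp
        · simp [mul_comm]
      simp only [e1, indicator_of_mem h7]
  · rw [davg_eq]
    exact mul_le_mul_of_nonneg_right (sq_le_sq.2 (hle c z)) (Real.sqrt_nonneg _)
  · rw [← lintegral_indicator (hN c)]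
    refine lintegral_congr fun z => ?_
    by_cases hz : z ∈ N c <;> simp [hz]

end Crest.Agent.R87
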